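import Mathlib
import Crest.Prelude.Def_AsymptoticConvexity

/-!
Shared abstract lemmas for row 125 (S0166–S0169): closed finite-codimensional subspaces,
a Bessel-type "weakly null" criterion, and the chain criterion excluding asymptotically
uniformly convex renormings.  Everything is stated for a general real normed space `X`
(typeclass arguments), with bridging lemmas to the bundled `RealBanach` record of the Prelude.
-/

set_option autoImplicit false

namespace Crest.Agent.R125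

open Crest.AnalysisR

section General

variable {X : Type*} [NormedAddCommGroup X] [NormedSpace ℝ X]

/-- `F` is (the carrier of) a closed linear subspace of finite codimension. -/
def IsCofSet (F : Set X) : Prop :=
  ∃ S : Submodule ℝ X, (S : Set X) = F ∧ IsClosed F ∧ FiniteDimensional ℝ (X ⧸ S)

/-- `N` is an equivalent norm. -/
def IsEquivNormOn (N : X → ℝ) : Prop :=
  (∀ x y : X, N (x + y) ≤ N x + N y) ∧ (∀ (a : ℝ) (x : X), N (a • x) = abs a * N x) ∧
    ∃ a b : ℝ, 0 < a ∧ ∀ x : X, a * ‖x‖ ≤ N x ∧ N x ≤ b * ‖x‖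

/-- `N` is asymptotically uniformly convex. -/
def IsAUCOn (N : X → ℝ) : Prop :=
  ∀ t : ℝ, 0 < t → ∃ c : ℝ, 0 < c ∧ ∀ x : X, N x = 1 → ∃ F : Set X, IsCofSet F ∧
    ∀ y ∈ F, N y = 1 → c ≤ N (x + t • y) - 1

theorem IsCofSet.zero_mem {F : Set X} (hF : IsCofSet F) : (0 : X) ∈ F := by
  obtain ⟨S, rfl, -, -⟩ := hF
  exact S.zero_mem

theorem IsCofSet.smul_mem {F : Set X} (hF : IsCofSet F) (a : ℝ) {x : X} (hx : x ∈ F) :
    a • x ∈ F := by
  obtain ⟨S, rfl, -, -⟩ := hF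
  exact S.smul_mem a hx

theorem IsCofSet.add_mem {F : Set X} (hF : IsCofSet F) {x y : X} (hx : x ∈ F) (hy : y ∈ F) :
    x + y ∈ F := by
  obtain ⟨S, rfl, -, -⟩ := hF
  exact S.add_mem hx hy

theorem IsCofSet.sub_mem {F : Set X} (hF : IsCofSet F) {x y : X} (hx : x ∈ F) (hy : y ∈ F) :
    x - y ∈ F := by
  obtain ⟨S, rfl, -, -⟩ := hF
  exact S.sub_mem hx hy

theorem IsCofSet.neg_mem {F : Set X} (hF : IsCofSet F) {x : X} (hx : x ∈ F) :
    -x ∈ F := by
  obtain ⟨S, rfl, -, -⟩ := hF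
  exact S.neg_mem hx

/-- A closed finite-codimensional subspace is cut out, up to a finite-dimensional correction,
by finitely many continuous functionals: every `x` differs from a member of `F` by
`∑ ψ l x • w l`. -/
theorem IsCofSet.exists_functionals {F : Set X} (hF : IsCofSet F) :
    ∃ (m : ℕ) (ψ : Fin m → (X →L[ℝ] ℝ)) (w : Fin m → X),
      ∀ x : X, x - ∑ l, ψ l x • w l ∈ F := by
  obtain ⟨S, rfl, hcl, hfd⟩ := hF
  have : IsClosed (S : Set X) := hcl
  have := hfd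
  let b := Module.finBasis ℝ (X ⧸ S)
  have hsurj : Function.Surjective S.mkQ := S.mkQ_surjective
  refine ⟨Module.finrank ℝ (X ⧸ S),
    fun l => ⟨(b.coord l).comp S.mkQ, ?_⟩, fun l => (hsurj (b l)).choose, ?_⟩
  · exact ((b.coord l).continuous_of_finiteDimensional).comp S.continuous_mkQ
  · intro x
    have hw : ∀ l, S.mkQ ((hsurj (b l)).choose) = b l := fun l => (hsurj (b l)).choose_spec
    change x - ∑ l, ((b.coord l) (S.mkQ x)) • (hsurj (b l)).choose ∈ S
    rw [← Submodule.Quotient.mk_eq_zero, Submodule.Quotient.mk_sub]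
    have h1 : (Submodule.Quotient.mk (∑ l, ((b.coord l) (S.mkQ x)) • (hsurj (b l)).choose) : X ⧸ S)
        = ∑ l, ((b.coord l) (S.mkQ x)) • b l := by
      change S.mkQ (∑ l, ((b.coord l) (S.mkQ x)) • (hsurj (b l)).choose) = _
      rw [map_sum]
      refine Finset.sum_congr rfl fun l _ => ?_
      rw [map_smul, hw]
    rw [h1]
    have h2 : ∑ l, ((b.coord l) (S.mkQ x)) • b l = S.mkQ x := by
      simp [Module.Basis.coord_apply]
    rw [h2]
    exact sub_self _

/-- The common kernel of finitely many continuous functionals is a closed finite-codimensional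
subspace. -/
theorem isCofSet_iInter_ker {ι : Type*} [Finite ι] (ψ : ι → (X →L[ℝ] ℝ)) :
    IsCofSet {x : X | ∀ l, ψ l x = 0} := by
  classical
  let L : X →ₗ[ℝ] (ι → ℝ) := LinearMap.pi fun l => (ψ l : X →ₗ[ℝ] ℝ)
  refine ⟨LinearMap.ker L, ?_, ?_, ?_⟩
  · ext x
    simp [L, LinearMap.mem_ker, funext_iff]
  · have : {x : X | ∀ l, ψ l x = 0} = ⋂ l, {x : X | ψ l x = 0} := by
      ext x; simp
    rw [this]
    exact isClosed_iInter fun l => isClosed_eq (ψ l).continuous continuous_const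
  · exact (L.quotKerEquivRange).symm.finiteDimensional

/-- Bessel-type finiteness: if all signed sums of `n` members of the sequence `z` have norm
at most `C √n`, then a continuous functional is large on only finitely many members. -/
theorem finite_setOf_le_abs_apply {z : ℕ → X} {C : ℝ}
    (hz : ∀ (A : Finset ℕ) (σ : ℕ → ℝ), (∀ a, σ a = 1 ∨ σ a = -1) →
      ‖∑ a ∈ A, σ a • z a‖ ≤ C * Real.sqrt A.card)
    (ψ : X →L[ℝ] ℝ) {δ : ℝ} (hδ : 0 < δ) :
    {a : ℕ | δ ≤ |ψ (z a)|}.Finite := by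
  by_contra hinf
  have hinf' : {a : ℕ | δ ≤ |ψ (z a)|}.Infinite := hinf
  obtain ⟨n, hn⟩ := exists_nat_gt ((‖ψ‖ * C / δ) ^ 2)
  obtain ⟨A, hA, hcard⟩ := hinf'.exists_subset_card_eq (n + 1)
  let σ : ℕ → ℝ := fun a => if 0 ≤ ψ (z a) then 1 else -1
  have hσ : ∀ a, σ a = 1 ∨ σ a = -1 := by
    intro a; by_cases h : 0 ≤ ψ (z a) <;> simp [σ, h]
  have h1 := hz A σ hσ
  have h2 : ψ (∑ a ∈ A, σ a • z a) = ∑ a ∈ A, |ψ (z a)| := by
    rw [map_sum]
    refine Finset.sum_congr rfl fun a _ => ?_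
    rw [map_smul, smul_eq_mul]
    by_cases h : 0 ≤ ψ (z a)
    · simp [σ, h, abs_of_nonneg h]
    · simp [σ, h, abs_of_neg (not_le.mp h)]
  have h3 : (A.card : ℝ) * δ ≤ ∑ a ∈ A, |ψ (z a)| := by
    have : ∑ _a ∈ A, δ ≤ ∑ a ∈ A, |ψ (z a)| := Finset.sum_le_sum fun a ha => hA ha
    simpa [Finset.sum_const, nsmul_eq_mul] using this
  have h4 : ψ (∑ a ∈ A, σ a • z a) ≤ ‖ψ‖ * (C * Real.sqrt A.card) :=
    (le_abs_self _).trans ((ψ.le_opNorm _).trans
      (mul_le_mul_of_nonneg_left h1 (norm_nonneg _)))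
  have hcardpos : (0 : ℝ) < A.card := by rw [hcard]; positivity
  have hsq : Real.sqrt A.card * Real.sqrt A.card = A.card :=
    Real.mul_self_sqrt hcardpos.le
  have hsqpos : 0 < Real.sqrt A.card := Real.sqrt_pos.mpr hcardpos
  have h5 : Real.sqrt A.card * δ ≤ ‖ψ‖ * C := by
    have : Real.sqrt A.card * (Real.sqrt A.card * δ) ≤ Real.sqrt A.card * (‖ψ‖ * C) := by
      calc Real.sqrt A.card * (Real.sqrt A.card * δ) = (A.card : ℝ) * δ := by
            rw [← mul_assoc, hsq]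
        _ ≤ ψ (∑ a ∈ A, σ a • z a) := by rw [h2]; exact h3
        _ ≤ ‖ψ‖ * (C * Real.sqrt A.card) := h4
        _ = Real.sqrt A.card * (‖ψ‖ * C) := by ring
    exact le_of_mul_le_mul_left this hsqpos
  have h6 : Real.sqrt A.card ≤ ‖ψ‖ * C / δ := by
    rw [le_div_iff₀ hδ]; exact h5
  have h7 : (A.card : ℝ) ≤ (‖ψ‖ * C / δ) ^ 2 := by
    rw [← hsq, sq]
    exact mul_le_mul h6 h6 hsqpos.le (hsqpos.le.trans h6)
  rw [hcard] at h7
  push_cast at h7
  linarith

/-- If all signed sums of `n` members of `z` have norm at most `C √n`, then all but finitely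
many members of `z` are within `ε` of any given closed finite-codimensional subspace. -/
theorem exists_near_cof_of_sqrt_bound {z : ℕ → X} {C : ℝ}
    (hz : ∀ (A : Finset ℕ) (σ : ℕ → ℝ), (∀ a, σ a = 1 ∨ σ a = -1) →
      ‖∑ a ∈ A, σ a • z a‖ ≤ C * Real.sqrt A.card)
    {F : Set X} (hF : IsCofSet F) {ε : ℝ} (hε : 0 < ε) :
    ∃ a₀ : ℕ, ∀ a ≥ a₀, ∃ w ∈ F, ‖z a - w‖ < ε := by
  obtain ⟨m, ψ, w, hw⟩ := hF.exists_functionals
  set K : ℝ := ∑ l, ‖w l‖ + 1 with hK
  have hKpos : 0 < K := by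
    have : 0 ≤ ∑ l, ‖w l‖ := Finset.sum_nonneg fun l _ => norm_nonneg _
    linarith
  have hfin : ∀ l, {a : ℕ | ε / K ≤ |ψ l (z a)|}.Finite :=
    fun l => finite_setOf_le_abs_apply hz (ψ l) (div_pos hε hKpos)
  have hfin' : (⋃ l, {a : ℕ | ε / K ≤ |ψ l (z a)|}).Finite := Set.finite_iUnion hfin
  obtain ⟨a₀, ha₀⟩ := hfin'.bddAbove
  refine ⟨a₀ + 1, fun a ha => ⟨z a - ∑ l, ψ l (z a) • w l, hw (z a), ?_⟩⟩
  have hsmall : ∀ l, |ψ l (z a)| ≤ ε / K := by
    intro l
    by_contra hcon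
    have hmem : a ∈ ⋃ l, {a : ℕ | ε / K ≤ |ψ l (z a)|} :=
      Set.mem_iUnion.mpr ⟨l, (not_le.mp hcon).le⟩
    have := ha₀ hmem
    omega
  have hnorm : ‖∑ l, ψ l (z a) • w l‖ ≤ ε / K * ∑ l, ‖w l‖ := by
    calc ‖∑ l, ψ l (z a) • w l‖ ≤ ∑ l, ‖ψ l (z a) • w l‖ := norm_sum_le _ _
      _ = ∑ l, |ψ l (z a)| * ‖w l‖ := by
          refine Finset.sum_congr rfl fun l _ => ?_
          rw [norm_smul, Real.norm_eq_abs]
      _ ≤ ∑ l, ε / K * ‖w l‖ :=
          Finset.sum_le_sum fun l _ => mul_le_mul_of_nonneg_right (hsmall l) (norm_nonneg _)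
      _ = ε / K * ∑ l, ‖w l‖ := by rw [Finset.mul_sum]
  have hlt : ε / K * ∑ l, ‖w l‖ < ε := by
    have h1 : ∑ l, ‖w l‖ < K := by rw [hK]; linarith
    calc ε / K * ∑ l, ‖w l‖ < ε / K * K :=
          mul_lt_mul_of_pos_left h1 (div_pos hε hKpos)
      _ = ε := div_mul_cancel₀ ε hKpos.ne'
  have : z a - (z a - ∑ l, ψ l (z a) • w l) = ∑ l, ψ l (z a) • w l := by abel
  rw [this]
  exact lt_of_le_of_lt hnorm hlt

/-! ### Equivalent norms: basic consequences -/

theorem IsEquivNormOn.zero {N : X → ℝ} (hN : IsEquivNormOn N) : N 0 = 0 := by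
  have := hN.2.1 0 (0 : X)
  simpa using this

theorem IsEquivNormOn.neg {N : X → ℝ} (hN : IsEquivNormOn N) (x : X) : N (-x) = N x := by
  have := hN.2.1 (-1) x
  simpa using this

theorem IsEquivNormOn.sub_le {N : X → ℝ} (hN : IsEquivNormOn N) (x y : X) :
    N x - N y ≤ N (x - y) := by
  have := hN.1 (x - y) y
  rw [sub_add_cancel] at this
  linarith

theorem IsEquivNormOn.nonneg {N : X → ℝ} (hN : IsEquivNormOn N) (x : X) : 0 ≤ N x := by
  obtain ⟨a, b, ha, hab⟩ := hN.2.2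
  exact (mul_nonneg ha.le (norm_nonneg x)).trans (hab x).1

theorem IsEquivNormOn.smul_of_nonneg {N : X → ℝ} (hN : IsEquivNormOn N) {a : ℝ} (ha : 0 ≤ a)
    (x : X) : N (a • x) = a * N x := by
  rw [hN.2.1, abs_of_nonneg ha]

/-- Convexity along a ray: if `N x = 1`, `N y = 1`, `0 < t₀ ≤ s` and `N (x + t₀ y) ≥ 1 + c`, then
`N (x + s y) ≥ 1 + c` (for `c ≥ 0`). -/
theorem IsEquivNormOn.ray_mono {N : X → ℝ} (hN : IsEquivNormOn N) {x y : X} (hx : N x = 1)
    {t₀ s c : ℝ} (ht₀ : 0 < t₀) (hs : t₀ ≤ s) (hc : 0 ≤ c)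
    (h : c ≤ N (x + t₀ • y) - 1) : c ≤ N (x + s • y) - 1 := by
  have hspos : 0 < s := lt_of_lt_of_le ht₀ hs
  set lam : ℝ := t₀ / s with hlam
  have hlam0 : 0 < lam := div_pos ht₀ hspos
  have hlam1 : lam ≤ 1 := (div_le_one hspos).mpr hs
  have hdecomp : x + t₀ • y = (1 - lam) • x + lam • (x + s • y) := by
    rw [smul_add, smul_smul, hlam, div_mul_cancel₀ t₀ hspos.ne', sub_smul, one_smul]
    abel
  have h1 : N (x + t₀ • y) ≤ (1 - lam) * N x + lam * N (x + s • y) := by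
    rw [hdecomp]
    calc N ((1 - lam) • x + lam • (x + s • y))
        ≤ N ((1 - lam) • x) + N (lam • (x + s • y)) := hN.1 _ _
      _ = (1 - lam) * N x + lam * N (x + s • y) := by
          rw [hN.smul_of_nonneg (by linarith), hN.smul_of_nonneg hlam0.le]
  rw [hx] at h1
  have h2 : 1 + c ≤ (1 - lam) + lam * N (x + s • y) := by linarith
  have h3 : lam * (1 + c) ≤ lam * N (x + s • y) := by
    have : lam * c ≤ c := by
      calc lam * c ≤ 1 * c := mul_le_mul_of_nonneg_right hlam1 hc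
        _ = c := one_mul c
    nlinarith
  have := le_of_mul_le_mul_left h3 hlam0
  linarith

/-- **Chain criterion.** Suppose there are `δ > 0` and sets `D j` of non-zero vectors, all
non-empty, such that from every `x ∈ D (j+1)`, for every closed finite-codimensional `F` and
`ε > 0`, one can move to some `x' ∈ D j` with `x' - x` within `ε ‖x‖` of `F`, of norm at least
`δ ‖x‖`, and with `‖x'‖ ≤ (1 + ε) ‖x‖`.  Then no equivalent norm is asymptotically uniformly
convex. -/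
theorem not_isAUCOn_of_chain {δ : ℝ} (hδ : 0 < δ) (D : ℕ → Set X)
    (hne : ∀ j, (D j).Nonempty) (h0 : ∀ j, ∀ x ∈ D j, x ≠ 0)
    (hstep : ∀ j, ∀ x ∈ D (j + 1), ∀ F : Set X, IsCofSet F → ∀ ε : ℝ, 0 < ε →
      ∃ x' ∈ D j, ∃ w ∈ F, ‖x' - x - w‖ ≤ ε * ‖x‖ ∧ δ * ‖x‖ ≤ ‖x' - x‖ ∧
        ‖x'‖ ≤ (1 + ε) * ‖x‖)
    (N : X → ℝ) (hN : IsEquivNormOn N) : ¬ IsAUCOn N := by
  intro hAUC
  obtain ⟨a, b, ha, hab⟩ := hN.2.2
  obtain ⟨x₀, hx₀⟩ := hne 0
  have hx₀0 : x₀ ≠ 0 := h0 0 x₀ hx₀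
  have hb : 0 < b := by
    have h1 := hab x₀
    have hpos : 0 < ‖x₀‖ := norm_pos_iff.mpr hx₀0
    have : a * ‖x₀‖ ≤ b * ‖x₀‖ := h1.1.trans h1.2
    have := le_of_mul_le_mul_right this hpos
    linarith
  set t₀ : ℝ := a * δ / (2 * b) with ht₀def
  have ht₀ : 0 < t₀ := by positivity
  obtain ⟨c, hc, hcF⟩ := hAUC t₀ ht₀
  set ρ : ℝ := (1 + c / 2) / (1 + c / 4) with hρdef
  have hρ : 1 < ρ := by
    rw [hρdef, lt_div_iff₀ (by positivity)]
    linarith
  -- one step
  have key : ∀ j, ∀ x ∈ D (j + 1), ∃ x' ∈ D j, ρ * (N x / ‖x‖) ≤ N x' / ‖x'‖ := by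
    intro j x hx
    have hx0 : x ≠ 0 := h0 _ x hx
    have hxn : 0 < ‖x‖ := norm_pos_iff.mpr hx0
    set n : ℝ := N x with hn
    have hnpos : 0 < n := lt_of_lt_of_le (mul_pos ha hxn) (hab x).1
    have hxhat : N (n⁻¹ • x) = 1 := by
      rw [hN.smul_of_nonneg (inv_nonneg.mpr hnpos.le), ← hn, inv_mul_cancel₀ hnpos.ne']
    obtain ⟨F, hF, hFc⟩ := hcF (n⁻¹ • x) hxhat
    set ε : ℝ := min (a * δ / (2 * b)) (min (c * a / (2 * b)) (c / 4)) with hεdef
    have hε : 0 < ε := by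
      rw [hεdef]; refine lt_min (by positivity) (lt_min (by positivity) (by positivity))
    have hε1 : ε ≤ a * δ / (2 * b) := min_le_left _ _
    have hε2 : ε ≤ c * a / (2 * b) := (min_le_right _ _).trans (min_le_left _ _)
    have hε3 : ε ≤ c / 4 := (min_le_right _ _).trans (min_le_right _ _)
    obtain ⟨x', hx', w, hw, h1, h2, h3⟩ := hstep j x hx F hF ε hε
    refine ⟨x', hx', ?_⟩
    have hx'0 : x' ≠ 0 := h0 _ x' hx'
    have hx'n : 0 < ‖x'‖ := norm_pos_iff.mpr hx'0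
    -- N of the error
    have herr : N (x' - x - w) ≤ b * (ε * ‖x‖) :=
      ((hab _).2).trans (mul_le_mul_of_nonneg_left h1 hb.le)
    have hbε : b * ε ≤ a * δ / 2 := by
      calc b * ε ≤ b * (a * δ / (2 * b)) := mul_le_mul_of_nonneg_left hε1 hb.le
        _ = a * δ / 2 := by field_simp
    have hbε2 : b * ε ≤ c * a / 2 := by
      calc b * ε ≤ b * (c * a / (2 * b)) := mul_le_mul_of_nonneg_left hε2 hb.le
        _ = c * a / 2 := by field_simp
    -- N w is large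
    have hNz : a * (δ * ‖x‖) ≤ N (x' - x) :=
      (mul_le_mul_of_nonneg_left h2 ha.le).trans (hab _).1
    have hNw : a * δ / 2 * ‖x‖ ≤ N w := by
      have hsub := hN.sub_le (x' - x) (x' - x - w)
      have : x' - x - (x' - x - w) = w := by abel
      rw [this] at hsub
      nlinarith
    have hNwpos : 0 < N w := lt_of_lt_of_le (by positivity) hNw
    set yh : X := (N w)⁻¹ • w with hyh
    have hyhF : yh ∈ F := hF.smul_mem _ hw
    have hyh1 : N yh = 1 := by
      rw [hyh, hN.smul_of_nonneg (inv_nonneg.mpr hNwpos.le), inv_mul_cancel₀ hNwpos.ne']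
    set s : ℝ := N w / n with hs
    have hnle : n ≤ b * ‖x‖ := (hab x).2
    have hst : t₀ ≤ s := by
      rw [hs, le_div_iff₀ hnpos, ht₀def]
      calc a * δ / (2 * b) * n ≤ a * δ / (2 * b) * (b * ‖x‖) :=
            mul_le_mul_of_nonneg_left hnle (by positivity)
        _ = a * δ / 2 * ‖x‖ := by field_simp
        _ ≤ N w := hNw
    have hray := hN.ray_mono hxhat ht₀ hst hc.le (hFc yh hyhF hyh1)
    have heq : n⁻¹ • x + s • yh = n⁻¹ • (x + w) := by
      rw [hyh, hs, smul_smul, smul_add]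
      congr 2
      field_simp
    rw [heq, hN.smul_of_nonneg (inv_nonneg.mpr hnpos.le)] at hray
    have hxw : (1 + c) * n ≤ N (x + w) := by
      have : 1 + c ≤ n⁻¹ * N (x + w) := by linarith
      calc (1 + c) * n ≤ n⁻¹ * N (x + w) * n := mul_le_mul_of_nonneg_right this hnpos.le
        _ = N (x + w) := by field_simp
    have hx'ge : (1 + c / 2) * n ≤ N x' := by
      have hsub := hN.sub_le (x + w) (x + w - x')
      have e1 : x + w - (x + w - x') = x' := by abel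
      have e2 : N (x + w - x') = N (x' - x - w) := by
        rw [← hN.neg]; congr 1; abel
      rw [e1, e2] at hsub
      have hxa : a * ‖x‖ ≤ n := (hab x).1
      have : b * (ε * ‖x‖) ≤ c / 2 * n := by
        calc b * (ε * ‖x‖) = (b * ε) * ‖x‖ := by ring
          _ ≤ (c * a / 2) * ‖x‖ := mul_le_mul_of_nonneg_right hbε2 hxn.le
          _ = c / 2 * (a * ‖x‖) := by ring
          _ ≤ c / 2 * n := mul_le_mul_of_nonneg_left hxa (by positivity)
      linarith
    have hx'le : ‖x'‖ ≤ (1 + c / 4) * ‖x‖ := by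
      refine h3.trans (mul_le_mul_of_nonneg_right (by linarith) hxn.le)
    rw [le_div_iff₀ hx'n, hρdef]
    calc (1 + c / 2) / (1 + c / 4) * (n / ‖x‖) * ‖x'‖
        ≤ (1 + c / 2) / (1 + c / 4) * (n / ‖x‖) * ((1 + c / 4) * ‖x‖) :=
          mul_le_mul_of_nonneg_left hx'le (by positivity)
      _ = (1 + c / 2) * n := by field_simp
      _ ≤ N x' := hx'ge
  -- iterate
  have iter : ∀ j, ∀ x ∈ D j, ∃ x'' : X, x'' ≠ 0 ∧ ρ ^ j * (N x / ‖x‖) ≤ N x'' / ‖x''‖ := by
    intro j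
    induction j with
    | zero => intro x hx; exact ⟨x, h0 0 x hx, by simp⟩
    | succ j ih =>
      intro x hx
      obtain ⟨x', hx', h1⟩ := key j x hx
      obtain ⟨x'', hx''0, h2⟩ := ih x' hx'
      refine ⟨x'', hx''0, le_trans ?_ h2⟩
      have hρj : 0 ≤ ρ ^ j := pow_nonneg (by linarith) j
      calc ρ ^ (j + 1) * (N x / ‖x‖) = ρ ^ j * (ρ * (N x / ‖x‖)) := by ring
        _ ≤ ρ ^ j * (N x' / ‖x'‖) := mul_le_mul_of_nonneg_left h1 hρj
  -- ratio bounds
  have hratio_le : ∀ x : X, x ≠ 0 → N x / ‖x‖ ≤ b := by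
    intro x hx
    rw [div_le_iff₀ (norm_pos_iff.mpr hx)]
    exact (hab x).2
  have hratio_ge : ∀ x : X, x ≠ 0 → a ≤ N x / ‖x‖ := by
    intro x hx
    rw [le_div_iff₀ (norm_pos_iff.mpr hx)]
    exact (hab x).1
  obtain ⟨j, hj⟩ := pow_unbounded_of_one_lt (b / a) hρ
  obtain ⟨x, hx⟩ := hne j
  obtain ⟨x'', hx''0, h⟩ := iter j x hx
  have h1 : ρ ^ j * a ≤ b :=
    (mul_le_mul_of_nonneg_left (hratio_ge x (h0 j x hx)) (pow_nonneg (by linarith) j)).trans
      (h.trans (hratio_le x'' hx''0))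
  rw [div_lt_iff₀ ha] at hj
  linarith

theorem isCofSet_univ : IsCofSet (Set.univ : Set X) := by
  have := isCofSet_iInter_ker (X := X) (fun l : Fin 0 => (0 : X →L[ℝ] ℝ))
  simpa using this

/-- The preimage of a closed finite-codimensional subspace under a continuous linear map is
again closed and finite-codimensional. -/
theorem IsCofSet.preimage {Y : Type*} [NormedAddCommGroup Y] [NormedSpace ℝ Y] {F : Set Y}
    (hF : IsCofSet F) (T : X →L[ℝ] Y) : IsCofSet (T ⁻¹' F) := by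
  obtain ⟨S, rfl, hcl, hfd⟩ := hF
  have := hfd
  refine ⟨S.comap (T : X →ₗ[ℝ] Y), rfl, hcl.preimage T.continuous, ?_⟩
  -- the quotient by the comap injects into the quotient by `S`
  let g : (X ⧸ S.comap (T : X →ₗ[ℝ] Y)) →ₗ[ℝ] (Y ⧸ S) :=
    (S.comap (T : X →ₗ[ℝ] Y)).mapQ S (T : X →ₗ[ℝ] Y) le_rfl
  have hg : Function.Injective g := by
    rw [← LinearMap.ker_eq_bot, Submodule.eq_bot_iff]
    rintro x hx
    obtain ⟨y, rfl⟩ := Submodule.Quotient.mk_surjective _ x
    rw [LinearMap.mem_ker] at hx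
    have h1 : (Submodule.Quotient.mk (T y) : Y ⧸ S) = 0 := hx
    rw [Submodule.Quotient.mk_eq_zero] at h1 ⊢
    exact h1
  exact FiniteDimensional.of_injective g hg

/-- Intersection of two closed finite-codimensional subspaces. -/
theorem IsCofSet.inter {F G : Set X} (hF : IsCofSet F) (hG : IsCofSet G) : IsCofSet (F ∩ G) := by
  obtain ⟨S, rfl, hclS, hfdS⟩ := hF
  obtain ⟨S', rfl, hclS', hfdS'⟩ := hG
  have := hfdS
  have := hfdS'
  refine ⟨S ⊓ S', rfl, hclS.inter hclS', ?_⟩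
  let g : (X ⧸ S ⊓ S') →ₗ[ℝ] (X ⧸ S) × (X ⧸ S') :=
    LinearMap.prod ((S ⊓ S').mapQ S LinearMap.id inf_le_left)
      ((S ⊓ S').mapQ S' LinearMap.id inf_le_right)
  have hg : Function.Injective g := by
    rw [← LinearMap.ker_eq_bot, Submodule.eq_bot_iff]
    rintro x hx
    obtain ⟨y, rfl⟩ := Submodule.Quotient.mk_surjective _ x
    rw [LinearMap.mem_ker] at hx
    have h1 : (Submodule.Quotient.mk y : X ⧸ S) = 0 := congrArg Prod.fst hx
    have h2 : (Submodule.Quotient.mk y : X ⧸ S') = 0 := congrArg Prod.snd hx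
    rw [Submodule.Quotient.mk_eq_zero] at h1 h2 ⊢
    exact ⟨h1, h2⟩
  exact FiniteDimensional.of_injective g hg

/-- Finite intersections of closed finite-codimensional subspaces. -/
theorem isCofSet_biInter {ι : Type*} (s : Finset ι) (F : ι → Set X)
    (hF : ∀ i ∈ s, IsCofSet (F i)) : IsCofSet (⋂ i ∈ s, F i) := by
  classical
  induction s using Finset.induction_on with
  | empty => simpa using isCofSet_univ (X := X)
  | insert a s ha ih =>
    rw [Finset.set_biInter_insert]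
    exact (hF a (Finset.mem_insert_self a s)).inter
      (ih fun i hi => hF i (Finset.mem_insert_of_mem hi))

/-- **Flat-move criterion.** If from every unit vector `x`, inside every closed
finite-codimensional subspace, there is a unit direction `y` with `‖x + 2 y‖ ≤ 1 + η`, then no
equivalent norm is asymptotically uniformly convex. -/
theorem not_isAUCOn_of_flat [Nontrivial X]
    (hflat : ∀ x : X, ‖x‖ = 1 → ∀ F : Set X, IsCofSet F → ∀ η : ℝ, 0 < η →
      ∃ y ∈ F, ‖y‖ = 1 ∧ ‖x + (2 : ℝ) • y‖ ≤ 1 + η)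
    (N : X → ℝ) (hN : IsEquivNormOn N) : ¬ IsAUCOn N := by
  refine not_isAUCOn_of_chain (δ := 2) (by norm_num) (fun _ => {x : X | x ≠ 0}) ?_ ?_ ?_ N hN
  · intro j
    obtain ⟨x, hx⟩ := exists_ne (0 : X)
    exact ⟨x, hx⟩
  · intro j x hx
    exact hx
  · intro j x hx F hF ε hε
    have hx0 : x ≠ 0 := hx
    have hxn : 0 < ‖x‖ := norm_pos_iff.mpr hx0
    have hunit : ‖(‖x‖⁻¹ : ℝ) • x‖ = 1 := by
      rw [norm_smul, norm_inv, norm_norm, inv_mul_cancel₀ hxn.ne']
    obtain ⟨y, hyF, hy1, hy2⟩ := hflat _ hunit F hF ε hε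
    have hfac : x + (2 * ‖x‖) • y = ‖x‖ • ((‖x‖⁻¹ : ℝ) • x + (2 : ℝ) • y) := by
      rw [smul_add, smul_smul, smul_smul, mul_inv_cancel₀ hxn.ne', one_smul, mul_comm]
    have hnorm' : ‖x + (2 * ‖x‖) • y‖ ≤ (1 + ε) * ‖x‖ := by
      rw [hfac, norm_smul, norm_norm, mul_comm]
      exact mul_le_mul_of_nonneg_right hy2 hxn.le
    have hw : ‖(2 * ‖x‖) • y‖ = 2 * ‖x‖ := by
      rw [norm_smul, hy1, mul_one, Real.norm_eq_abs, abs_of_pos (by positivity)]
    refine ⟨x + (2 * ‖x‖) • y, ?_, (2 * ‖x‖) • y, hF.smul_mem _ hyF, ?_, ?_, hnorm'⟩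
    · intro h
      have h1 : (2 * ‖x‖) • y = -x := by
        rw [← sub_eq_zero, sub_neg_eq_add, add_comm]; exact h
      have h2 : ‖(2 * ‖x‖) • y‖ = ‖x‖ := by rw [h1, norm_neg]
      rw [hw] at h2
      linarith
    · have : x + (2 * ‖x‖) • y - x - (2 * ‖x‖) • y = 0 := by abel
      rw [this, norm_zero]
      positivity
    · have : x + (2 * ‖x‖) • y - x = (2 * ‖x‖) • y := by abel
      rw [this, hw]

end General

section Moduli

variable {X : Type*} [NormedAddCommGroup X] [NormedSpace ℝ X]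

/-- General form of `RealBanach.MidpointModulusGE`. -/
def MidpointGEOn (N : X → ℝ) (t c : ℝ) : Prop :=
  ∀ x : X, N x = 1 → ∀ η : ℝ, 0 < η → ∃ F : Set X, IsCofSet F ∧
    ∀ y ∈ F, N y = 1 → c - η ≤ (N (x + t • y) + N (x - t • y)) / 2 - 1

/-- General form of `RealBanach.MidpointModulusLE`. -/
def MidpointLEOn (N : X → ℝ) (t c : ℝ) : Prop :=
  ∀ x : X, N x = 1 → ∀ F : Set X, IsCofSet F → ∀ η : ℝ, 0 < η →
    ∃ y ∈ F, N y = 1 ∧ (N (x + t • y) + N (x - t • y)) / 2 - 1 ≤ c + η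

/-- General form of `RealBanach.OneSidedModulusGE`. -/
def OneSidedGEOn (N : X → ℝ) (t c : ℝ) : Prop :=
  ∀ x : X, N x = 1 → ∀ η : ℝ, 0 < η → ∃ F : Set X, IsCofSet F ∧
    ∀ y ∈ F, N y = 1 → c - η ≤ N (x + t • y) - 1

/-- General form of `RealBanach.OneSidedModulusLE`. -/
def OneSidedLEOn (N : X → ℝ) (t c : ℝ) : Prop :=
  ∀ x : X, N x = 1 → ∀ F : Set X, IsCofSet F → ∀ η : ℝ, 0 < η →
    ∃ y ∈ F, N y = 1 ∧ N (x + t • y) - 1 ≤ c + η

/-- General form of `RealBanach.MaxMidpointModulusGE`. -/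
def MaxMidpointGEOn (N : X → ℝ) (t c : ℝ) : Prop :=
  ∀ x : X, N x = 1 → ∀ η : ℝ, 0 < η → ∃ F : Set X, IsCofSet F ∧
    ∀ y ∈ F, N y = 1 → c - η ≤ max (N (x + t • y)) (N (x - t • y)) - 1

theorem MidpointGEOn.mono {N : X → ℝ} {t c c' : ℝ} (h : MidpointGEOn N t c) (hc : c' ≤ c) :
    MidpointGEOn N t c' := by
  intro x hx η hη
  obtain ⟨F, hF, hy⟩ := h x hx η hη
  exact ⟨F, hF, fun y hyF hy1 => by have := hy y hyF hy1; linarith⟩

theorem MidpointGEOn.maxMidpoint {N : X → ℝ} {t c : ℝ} (h : MidpointGEOn N t c) :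
    MaxMidpointGEOn N t c := by
  intro x hx η hη
  obtain ⟨F, hF, hy⟩ := h x hx η hη
  refine ⟨F, hF, fun y hyF hy1 => ?_⟩
  have := hy y hyF hy1
  have h1 : N (x + t • y) ≤ max (N (x + t • y)) (N (x - t • y)) := le_max_left _ _
  have h2 : N (x - t • y) ≤ max (N (x + t • y)) (N (x - t • y)) := le_max_right _ _
  linarith

/-- The given norm is an equivalent norm. -/
theorem isEquivNormOn_norm : IsEquivNormOn (fun x : X => ‖x‖) :=
  ⟨fun x y => norm_add_le x y, fun a x => by simp [norm_smul],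
    1, 1, one_pos, fun x => by simp⟩

/-- If no equivalent norm is asymptotically uniformly convex (or just the given norm is not),
the space is infinite-dimensional: in a finite-dimensional space `F = {0}` is a closed
finite-codimensional subspace without unit vectors. -/
theorem not_finiteDimensional_of_not_isAUCOn (h : ¬ IsAUCOn (fun x : X => ‖x‖)) :
    ¬ FiniteDimensional ℝ X := by
  intro hfd
  apply h
  intro t ht
  refine ⟨1, one_pos, fun x hx => ⟨{0}, ⟨⊥, by simp, isClosed_singleton, inferInstance⟩, ?_⟩⟩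
  intro y hy hy1
  rw [Set.mem_singleton_iff] at hy
  subst hy
  simp at hy1

/-- The "square" midpoint property: for every `x` and `ε > 0` some closed finite-codimensional
`F` has `‖x + y‖ + ‖x - y‖ ≥ 2 √(‖x‖² + ‖y‖²/4) - ε` for ALL `y ∈ F`. It is stable under
`ℓ²`-sums and implies the midpoint modulus bound `√(1 + t²/4) - 1` at every `t > 0`. -/
def HasSqMidpoint (X : Type*) [NormedAddCommGroup X] [NormedSpace ℝ X] : Prop :=
  ∀ x : X, ∀ ε : ℝ, 0 < ε → ∃ F : Set X, IsCofSet F ∧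
    ∀ y ∈ F, 2 * Real.sqrt (‖x‖ ^ 2 + ‖y‖ ^ 2 / 4) - ε ≤ ‖x + y‖ + ‖x - y‖

theorem HasSqMidpoint.midpointGEOn (h : HasSqMidpoint X) {t : ℝ} (ht : 0 < t) :
    MidpointGEOn (fun x : X => ‖x‖) t (Real.sqrt (1 + t ^ 2 / 4) - 1) := by
  intro x hx η hη
  obtain ⟨F, hF, hFy⟩ := h x (2 * η) (by linarith)
  refine ⟨F, hF, fun y hy hy1 => ?_⟩
  have h1 := hFy (t • y) (hF.smul_mem t hy)
  simp only at hx hy1 ⊢
  rw [hx, norm_smul, hy1, Real.norm_eq_abs, abs_of_pos ht, mul_one, one_pow] at h1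
  linarith

end Moduli

section Bridge

variable (E : RealBanach)

theorem isCof_iff (F : Set E.X) :
    E.IsCof F ↔ @IsCofSet E.X E.normed E.space F := Iff.rfl

theorem isEquivNorm_iff (N : E.X → ℝ) :
    E.IsEquivNorm N ↔ @IsEquivNormOn E.X E.normed E.space N := Iff.rfl

theorem isAUC_iff (N : E.X → ℝ) :
    E.IsAUC N ↔ @IsAUCOn E.X E.normed E.space N := Iff.rfl

theorem midpointModulusGE_iff (N : E.X → ℝ) (t c : ℝ) :
    E.MidpointModulusGE N t c ↔ @MidpointGEOn E.X E.normed E.space N t c := Iff.rfl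

theorem midpointModulusLE_iff (N : E.X → ℝ) (t c : ℝ) :
    E.MidpointModulusLE N t c ↔ @MidpointLEOn E.X E.normed E.space N t c := Iff.rfl

theorem oneSidedModulusGE_iff (N : E.X → ℝ) (t c : ℝ) :
    E.OneSidedModulusGE N t c ↔ @OneSidedGEOn E.X E.normed E.space N t c := Iff.rfl

theorem oneSidedModulusLE_iff (N : E.X → ℝ) (t c : ℝ) :
    E.OneSidedModulusLE N t c ↔ @OneSidedLEOn E.X E.normed E.space N t c := Iff.rfl

theorem maxMidpointModulusGE_iff (N : E.X → ℝ) (t c : ℝ) :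
    E.MaxMidpointModulusGE N t c ↔ @MaxMidpointGEOn E.X E.normed E.space N t c := Iff.rfl

theorem norm_eq (x : E.X) : E.norm x = @norm E.X E.normed.toNorm x := rfl

end Bridge

section BridgeMk

variable {X : Type} [i1 : NormedAddCommGroup X] [i2 : NormedSpace ℝ X] (i3 : CompleteSpace X)

/-- For a record built from typeclass instances, the bundled statement "no equivalent norm is
AUC" is literally the general one. -/
theorem mk_not_isAUC (h : ∀ N : X → ℝ, IsEquivNormOn N → ¬ IsAUCOn N) :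
    ∀ N : (RealBanach.mk X i1 i2 i3).X → ℝ,
      (RealBanach.mk X i1 i2 i3).IsEquivNorm N → ¬ (RealBanach.mk X i1 i2 i3).IsAUC N := h

theorem mk_midpointModulusGE {t c : ℝ} (h : MidpointGEOn (fun x : X => ‖x‖) t c) :
    (RealBanach.mk X i1 i2 i3).MidpointModulusGE (RealBanach.mk X i1 i2 i3).norm t c := h

theorem mk_midpointModulusLE {t c : ℝ} (h : MidpointLEOn (fun x : X => ‖x‖) t c) :
    (RealBanach.mk X i1 i2 i3).MidpointModulusLE (RealBanach.mk X i1 i2 i3).norm t c := h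

theorem mk_oneSidedModulusGE {t c : ℝ} (h : OneSidedGEOn (fun x : X => ‖x‖) t c) :
    (RealBanach.mk X i1 i2 i3).OneSidedModulusGE (RealBanach.mk X i1 i2 i3).norm t c := h

theorem mk_oneSidedModulusLE {t c : ℝ} (h : OneSidedLEOn (fun x : X => ‖x‖) t c) :
    (RealBanach.mk X i1 i2 i3).OneSidedModulusLE (RealBanach.mk X i1 i2 i3).norm t c := h

theorem mk_maxMidpointModulusGE {t c : ℝ} (h : MaxMidpointGEOn (fun x : X => ‖x‖) t c) :
    (RealBanach.mk X i1 i2 i3).MaxMidpointModulusGE (RealBanach.mk X i1 i2 i3).norm t c := h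

end BridgeMk

end Crest.Agent.R125
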