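import Mathlib
import Crest.Prelude.Def_Diamond

/-!
Row 125, work package E2 (helper8): the countably branching diamond graphs do not embed with
small distortion into a space whose maximum-based midpoint modulus is at least
`sqrt (1 + t^2/4) - 1` at every `t > 0`.  Everything here is abstract in the space.
-/

set_option autoImplicit false

namespace Crest.Agent.R125

open Crest.AnalysisR

/-! ### Graph facts -/

theorem diamondSrc_ne_diamondTgt :
    ∀ (k : ℕ) (e : DiamondEdge k), diamondSrc k e ≠ diamondTgt k e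
  | 0, _ => by
      show (false : Bool) ≠ true
      decide
  | k + 1, (e, i, b) => by
      cases b
      · show (Sum.inl (diamondSrc k e) : DiamondVertex k ⊕ (DiamondEdge k × ℕ)) ≠ Sum.inr (e, i)
        exact Sum.inl_ne_inr
      · show (Sum.inr (e, i) : DiamondVertex k ⊕ (DiamondEdge k × ℕ)) ≠ Sum.inl (diamondTgt k e)
        exact Sum.inr_ne_inl

theorem diamond_adj_iff (k : ℕ) (u v : DiamondVertex k) :
    (diamondGraph k).Adj u v ↔ u ≠ v ∧
      ((∃ e : DiamondEdge k, diamondSrc k e = u ∧ diamondTgt k e = v) ∨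
        (∃ e : DiamondEdge k, diamondSrc k e = v ∧ diamondTgt k e = u)) :=
  SimpleGraph.fromRel_adj _ _ _

theorem diamond_adj_src_tgt (k : ℕ) (e : DiamondEdge k) :
    (diamondGraph k).Adj (diamondSrc k e) (diamondTgt k e) :=
  (diamond_adj_iff k _ _).2 ⟨diamondSrc_ne_diamondTgt k e, Or.inl ⟨e, rfl, rfl⟩⟩

theorem diamondDist_src_tgt (k : ℕ) (e : DiamondEdge k) :
    diamondDist k (diamondSrc k e) (diamondTgt k e) = 1 :=
  SimpleGraph.dist_eq_one_iff_adj.2 (diamond_adj_src_tgt k e)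

/-- The two new edges of `D (k+1)` through the middle vertex `(e, i)`. -/
theorem diamond_succ_adj_left (k : ℕ) (e : DiamondEdge k) (i : ℕ) :
    (diamondGraph (k + 1)).Adj (Sum.inl (diamondSrc k e) : DiamondVertex (k + 1))
      (Sum.inr (e, i)) :=
  diamond_adj_src_tgt (k + 1) (e, i, false)

theorem diamond_succ_adj_right (k : ℕ) (e : DiamondEdge k) (i : ℕ) :
    (diamondGraph (k + 1)).Adj (Sum.inr (e, i) : DiamondVertex (k + 1))
      (Sum.inl (diamondTgt k e)) :=
  diamond_adj_src_tgt (k + 1) (e, i, true)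

/-- Adjacency in `D (k+1)`: always between an old vertex and a middle vertex of an edge at it. -/
theorem diamond_succ_adj_cases (k : ℕ) (a b : DiamondVertex (k + 1))
    (h : (diamondGraph (k + 1)).Adj a b) :
    ∃ (e : DiamondEdge k) (i : ℕ),
      (a = Sum.inl (diamondSrc k e) ∧ b = Sum.inr (e, i)) ∨
      (a = Sum.inr (e, i) ∧ b = Sum.inl (diamondTgt k e)) ∨
      (b = Sum.inl (diamondSrc k e) ∧ a = Sum.inr (e, i)) ∨
      (b = Sum.inr (e, i) ∧ a = Sum.inl (diamondTgt k e)) := by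
  rw [diamond_adj_iff] at h
  obtain ⟨-, ⟨⟨e, i, c⟩, h1, h2⟩ | ⟨⟨e, i, c⟩, h1, h2⟩⟩ := h
  · refine ⟨e, i, ?_⟩
    cases c
    · exact Or.inl ⟨h1.symm, h2.symm⟩
    · exact Or.inr (Or.inl ⟨h1.symm, h2.symm⟩)
  · refine ⟨e, i, ?_⟩
    cases c
    · exact Or.inr (Or.inr (Or.inl ⟨h1.symm, h2.symm⟩))
    · exact Or.inr (Or.inr (Or.inr ⟨h1.symm, h2.symm⟩))

theorem diamond_succ_reachable_inl (k : ℕ) {u v : DiamondVertex k}
    (h : (diamondGraph k).Reachable u v) :
    (diamondGraph (k + 1)).Reachable (Sum.inl u : DiamondVertex (k + 1)) (Sum.inl v) := by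
  obtain ⟨p⟩ := h
  induction p with
  | nil => exact SimpleGraph.Reachable.refl _
  | cons hadj p ih =>
    refine SimpleGraph.Reachable.trans ?_ ih
    rw [diamond_adj_iff] at hadj
    obtain ⟨-, ⟨e, rfl, rfl⟩ | ⟨e, rfl, rfl⟩⟩ := hadj
    · exact ((diamond_succ_adj_left k e 0).reachable).trans
        (diamond_succ_adj_right k e 0).reachable
    · exact ((diamond_succ_adj_right k e 0).symm.reachable).trans
        (diamond_succ_adj_left k e 0).symm.reachable

theorem diamond_connected : ∀ k : ℕ, (diamondGraph k).Connected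
  | 0 => by
      have h01 : (diamondGraph 0).Adj (false : Bool) true := diamond_adj_src_tgt 0 ()
      have : Nonempty (DiamondVertex 0) := ⟨(false : Bool)⟩
      refine ⟨fun a b => ?_⟩
      have key : ∀ a b : Bool, (diamondGraph 0).Reachable a b := by
        intro a b
        cases a <;> cases b
        · exact SimpleGraph.Reachable.refl _
        · exact h01.reachable
        · exact h01.symm.reachable
        · exact SimpleGraph.Reachable.refl _
      exact key a b
  | k + 1 => by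
      have hk := diamond_connected k
      have key : ∀ a : DiamondVertex (k + 1), ∃ u : DiamondVertex k,
          (diamondGraph (k + 1)).Reachable a (Sum.inl u) := by
        intro a
        have key' : ∀ a : DiamondVertex k ⊕ (DiamondEdge k × ℕ), ∃ u : DiamondVertex k,
            (diamondGraph (k + 1)).Reachable (a : DiamondVertex (k + 1)) (Sum.inl u) := by
          rintro (u | ⟨e, i⟩)
          · exact ⟨u, SimpleGraph.Reachable.refl _⟩
          · exact ⟨diamondSrc k e, (diamond_succ_adj_left k e i).symm.reachable⟩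
        exact key' a
      have : Nonempty (DiamondVertex (k + 1)) :=
        ⟨(Sum.inl hk.nonempty.some : DiamondVertex k ⊕ (DiamondEdge k × ℕ))⟩
      refine ⟨fun a b => ?_⟩
      obtain ⟨u, hu⟩ := key a
      obtain ⟨v, hv⟩ := key b
      exact hu.trans ((diamond_succ_reachable_inl k (hk u v)).trans hv.symm)

theorem two_le_diamondDist_inr_inr (k : ℕ) (e : DiamondEdge k) {i j : ℕ} (hij : i ≠ j) :
    2 ≤ diamondDist (k + 1) (Sum.inr (e, i) : DiamondVertex k ⊕ (DiamondEdge k × ℕ))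
      (Sum.inr (e, j)) := by
  have hne : (Sum.inr (e, i) : DiamondVertex k ⊕ (DiamondEdge k × ℕ)) ≠ Sum.inr (e, j) := by
    intro h
    apply hij
    have h2 := Sum.inr.inj h
    exact (Prod.mk.inj h2).2
  have hnadj : ¬ (diamondGraph (k + 1)).Adj
      (Sum.inr (e, i) : DiamondVertex k ⊕ (DiamondEdge k × ℕ)) (Sum.inr (e, j)) := by
    intro h
    obtain ⟨e', i', h | h | h | h⟩ := diamond_succ_adj_cases k _ _ h
    · exact Sum.inr_ne_inl h.1
    · exact Sum.inr_ne_inl h.2
    · exact Sum.inr_ne_inl h.1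
    · exact Sum.inr_ne_inl h.2
  exact (diamond_connected (k + 1)).one_lt_dist_of_ne_of_not_adj hne hnadj

/-- Potential on `D (k+1)` measuring twice the `D k`-distance from `u`. -/
noncomputable def diamondPot (k : ℕ) (u : DiamondVertex k) (a : DiamondVertex (k + 1)) : ℕ :=
  Sum.elim (fun w : DiamondVertex k => 2 * diamondDist k u w)
    (fun p : DiamondEdge k × ℕ =>
      diamondDist k u (diamondSrc k p.1) + diamondDist k u (diamondTgt k p.1)) a

theorem diamondPot_adj (k : ℕ) (u : DiamondVertex k) (a b : DiamondVertex (k + 1))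
    (h : (diamondGraph (k + 1)).Adj a b) : diamondPot k u b ≤ diamondPot k u a + 1 := by
  obtain ⟨e, i, h | h | h | h⟩ := diamond_succ_adj_cases k a b h
  all_goals
    obtain ⟨rfl, rfl⟩ := h
    have h3 := (diamond_adj_src_tgt k e).diff_dist_adj (u := u)
    simp only [diamondPot, Sum.elim_inl, Sum.elim_inr]
    unfold diamondDist
    omega

theorem diamondPot_walk (k : ℕ) (u : DiamondVertex k) {a b : DiamondVertex (k + 1)}
    (p : (diamondGraph (k + 1)).Walk a b) : diamondPot k u b ≤ diamondPot k u a + p.length := by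
  induction p with
  | nil => simp
  | cons hadj p ih =>
    have h1 := diamondPot_adj k u _ _ hadj
    rw [SimpleGraph.Walk.length_cons]
    omega

theorem two_mul_diamondDist_le (k : ℕ) (u v : DiamondVertex k) :
    2 * diamondDist k u v ≤
      diamondDist (k + 1) (Sum.inl u : DiamondVertex k ⊕ (DiamondEdge k × ℕ)) (Sum.inl v) := by
  obtain ⟨p, hp⟩ := (diamond_connected (k + 1)).exists_walk_length_eq_dist
    (Sum.inl u : DiamondVertex k ⊕ (DiamondEdge k × ℕ)) (Sum.inl v)
  have h1 := diamondPot_walk k u p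
  have h2 : diamondPot k u (Sum.inl v : DiamondVertex k ⊕ (DiamondEdge k × ℕ))
      = 2 * diamondDist k u v := rfl
  have h3 : diamondPot k u (Sum.inl u : DiamondVertex k ⊕ (DiamondEdge k × ℕ)) = 0 := by
    show 2 * diamondDist k u u = 0
    unfold diamondDist
    simp
  rw [h2, h3, hp] at h1
  show 2 * diamondDist k u v ≤ (diamondGraph (k + 1)).dist _ _
  omega

/-! ### Normed-space facts -/

section generic

variable {V : Type*} [NormedAddCommGroup V] [NormedSpace ℝ V]

/-- The maximum of the norms of `x ± τ z` is nondecreasing in `τ ≥ 1` (even convex function). -/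
theorem norm_add_le_max_smul (x z : V) {τ : ℝ} (hτ : 1 ≤ τ) :
    ‖x + z‖ ≤ max ‖x + τ • z‖ ‖x - τ • z‖ := by
  have hτ0 : 0 < τ := by linarith
  have h1 : x + z = ((τ + 1) / (2 * τ)) • (x + τ • z) + ((τ - 1) / (2 * τ)) • (x - τ • z) := by
    rw [smul_add, smul_sub, smul_smul, smul_smul]
    have e1 : (τ + 1) / (2 * τ) * τ = (τ + 1) / 2 := by field_simp
    have e2 : (τ - 1) / (2 * τ) * τ = (τ - 1) / 2 := by field_simp
    rw [e1, e2]
    have e3 : (τ + 1) / (2 * τ) + (τ - 1) / (2 * τ) = 1 := by field_simp; ring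
    have e4 : (τ + 1) / 2 - (τ - 1) / 2 = 1 := by ring
    calc x + z = ((τ + 1) / (2 * τ) + (τ - 1) / (2 * τ)) • x
          + ((τ + 1) / 2 - (τ - 1) / 2) • z := by rw [e3, e4, one_smul, one_smul]
      _ = _ := by rw [add_smul, sub_smul]; abel
  have ha : 0 ≤ (τ + 1) / (2 * τ) := by positivity
  have hb : 0 ≤ (τ - 1) / (2 * τ) := div_nonneg (by linarith) (by positivity)
  have hab : (τ + 1) / (2 * τ) + (τ - 1) / (2 * τ) = 1 := by field_simp; ring
  set M := max ‖x + τ • z‖ ‖x - τ • z‖ with hM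
  have hM1 : ‖x + τ • z‖ ≤ M := le_max_left _ _
  have hM2 : ‖x - τ • z‖ ≤ M := le_max_right _ _
  calc ‖x + z‖ = ‖((τ + 1) / (2 * τ)) • (x + τ • z) + ((τ - 1) / (2 * τ)) • (x - τ • z)‖ := by
        rw [← h1]
    _ ≤ ‖((τ + 1) / (2 * τ)) • (x + τ • z)‖ + ‖((τ - 1) / (2 * τ)) • (x - τ • z)‖ :=
        norm_add_le _ _
    _ = (τ + 1) / (2 * τ) * ‖x + τ • z‖ + (τ - 1) / (2 * τ) * ‖x - τ • z‖ := by
        rw [norm_smul, norm_smul, Real.norm_of_nonneg ha, Real.norm_of_nonneg hb]
    _ ≤ (τ + 1) / (2 * τ) * M + (τ - 1) / (2 * τ) * M := by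
        gcongr
    _ = M := by rw [← add_mul, hab, one_mul]

theorem max_norm_le_max_smul (x z : V) {τ : ℝ} (hτ : 1 ≤ τ) :
    max ‖x + z‖ ‖x - z‖ ≤ max ‖x + τ • z‖ ‖x - τ • z‖ := by
  refine max_le (norm_add_le_max_smul x z hτ) ?_
  have h := norm_add_le_max_smul x (-z) hτ
  have e1 : x + -z = x - z := (sub_eq_add_neg x z).symm
  have e2 : x + τ • -z = x - τ • z := by rw [smul_neg, ← sub_eq_add_neg]
  have e3 : x - τ • -z = x + τ • z := by rw [smul_neg, sub_neg_eq_add]
  rw [e1, e2, e3, max_comm] at h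
  exact h

/-- Pigeonhole modulo a closed finite-codimensional subspace: a bounded sequence has two
distinct terms whose difference is nearly in the subspace. -/
theorem exists_pair_near_submodule (S : Submodule ℝ V) (hS : IsClosed (S : Set V))
    (hfd : FiniteDimensional ℝ (V ⧸ S)) (a : ℕ → V) (B : ℝ) (hB : ∀ i, ‖a i‖ ≤ B)
    {ε : ℝ} (hε : 0 < ε) :
    ∃ i j : ℕ, i ≠ j ∧ ∃ w ∈ S, ‖a i - a j - w‖ < ε := by
  have := hS
  have := hfd
  have : ProperSpace (V ⧸ S) := FiniteDimensional.proper_real (V ⧸ S)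
  have hb : ∀ n, (Submodule.Quotient.mk (a n) : V ⧸ S) ∈ Metric.closedBall (0 : V ⧸ S) B := by
    intro n
    rw [mem_closedBall_zero_iff]
    exact (Submodule.Quotient.norm_mk_le S (a n)).trans (hB n)
  obtain ⟨c, -, φ, hφ, hlim⟩ := tendsto_subseq_of_bounded Metric.isBounded_closedBall hb
  rw [Metric.tendsto_atTop] at hlim
  obtain ⟨N, hN⟩ := hlim (ε / 2) (by positivity)
  have h1 := hN N le_rfl
  have h2 := hN (N + 1) (Nat.le_succ N)
  simp only [Function.comp_apply] at h1 h2
  have h3 : dist (Submodule.Quotient.mk (a (φ N)) : V ⧸ S)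
      (Submodule.Quotient.mk (a (φ (N + 1)))) < ε := by
    calc dist (Submodule.Quotient.mk (a (φ N)) : V ⧸ S) (Submodule.Quotient.mk (a (φ (N + 1))))
        ≤ dist (Submodule.Quotient.mk (a (φ N)) : V ⧸ S) c
          + dist (Submodule.Quotient.mk (a (φ (N + 1))) : V ⧸ S) c := dist_triangle_right _ _ _
      _ < ε / 2 + ε / 2 := add_lt_add h1 h2
      _ = ε := by ring
  rw [dist_eq_norm, ← Submodule.Quotient.mk_sub] at h3
  obtain ⟨m, hm, hmε⟩ := Submodule.Quotient.norm_mk_lt
    (Submodule.Quotient.mk (a (φ N) - a (φ (N + 1))) : V ⧸ S) (sub_pos.2 h3)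
  refine ⟨φ N, φ (N + 1), (hφ (Nat.lt_succ_self N)).ne, a (φ N) - a (φ (N + 1)) - m, ?_, ?_⟩
  · rw [← Submodule.Quotient.mk_eq_zero S, Submodule.Quotient.mk_sub, hm, sub_self]
  · rw [sub_sub_cancel]
    linarith

/-- The homogeneous form of the hypothesis "maximum-based midpoint modulus at least
`sqrt (1 + t^2/4) - 1` at every `t > 0`", for a normed space given by instances. -/
def MaxMidpointProp (V : Type*) [NormedAddCommGroup V] [NormedSpace ℝ V] : Prop :=
  ∀ t : ℝ, 0 < t → ∀ x : V, ‖x‖ = 1 → ∀ η : ℝ, 0 < η →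
    ∃ S : Submodule ℝ V, IsClosed (S : Set V) ∧ FiniteDimensional ℝ (V ⧸ S) ∧
      ∀ y ∈ S, ‖y‖ = 1 →
        Real.sqrt (1 + t ^ 2 / 4) - 1 - η ≤ max ‖x + t • y‖ ‖x - t • y‖ - 1

/-- Key local estimate: a "fan" `p - a i - q` with `2s`-separated middle points and all legs of
length at most `L` forces `‖p - q‖² + s² ≤ 4 L²`. -/
theorem fan_estimate (hmod : MaxMidpointProp V) (p q : V) (a : ℕ → V) (s L : ℝ) (hs : 0 < s)
    (hsep : ∀ i j : ℕ, i ≠ j → 2 * s ≤ ‖a i - a j‖)
    (hp : ∀ i, ‖p - a i‖ ≤ L) (hq : ∀ i, ‖a i - q‖ ≤ L) :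
    ‖p - q‖ ^ 2 + s ^ 2 ≤ 4 * L ^ 2 := by
  have hsL : s ≤ L := by
    have h1 := hsep 0 1 (by norm_num)
    have h2 : ‖a 0 - a 1‖ ≤ ‖p - a 1‖ + ‖p - a 0‖ := by
      have : a 0 - a 1 = (p - a 1) - (p - a 0) := by abel
      rw [this]
      exact norm_sub_le _ _
    linarith [hp 0, hp 1]
  have hL : 0 < L := lt_of_lt_of_le hs hsL
  rcases (norm_nonneg (p - q)).eq_or_lt with hA | hA
  · rw [← hA]
    nlinarith
  set A := ‖p - q‖ with hAdef
  -- the estimate with a small parameter
  have claim : ∀ δ : ℝ, 0 < δ → δ < s →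
      A ^ 2 + (2 * s - δ) ^ 2 / 4 ≤ (2 * L + A * δ + δ) ^ 2 := by
    intro δ hδ hδs
    set t₀ := (2 * s - δ) / A with ht₀
    have h2sδ : 0 < 2 * s - δ := by linarith
    have ht₀pos : 0 < t₀ := div_pos h2sδ hA
    have hAt₀ : A * t₀ = 2 * s - δ := by rw [ht₀]; field_simp
    set xh := A⁻¹ • (p - q) with hxh
    have hxh1 : ‖xh‖ = 1 := by
      rw [hxh, norm_smul, norm_inv, Real.norm_of_nonneg hA.le, ← hAdef]
      exact inv_mul_cancel₀ hA.ne'
    obtain ⟨S, hScl, hSfd, hSy⟩ := hmod t₀ ht₀pos xh hxh1 δ hδ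
    have hbdd : ∀ i, ‖a i‖ ≤ ‖p‖ + L := by
      intro i
      have : a i = p - (p - a i) := by abel
      calc ‖a i‖ = ‖p - (p - a i)‖ := by rw [← this]
        _ ≤ ‖p‖ + ‖p - a i‖ := norm_sub_le _ _
        _ ≤ ‖p‖ + L := by linarith [hp i]
    obtain ⟨i, j, hij, w, hwS, hw⟩ := exists_pair_near_submodule S hScl hSfd a (‖p‖ + L) hbdd hδ
    have hz := hsep i j hij
    have hwn : 2 * s - δ < ‖w‖ := by
      have : ‖a i - a j‖ ≤ ‖a i - a j - w‖ + ‖w‖ := by
        have e : a i - a j = (a i - a j - w) + w := by abel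
        calc ‖a i - a j‖ = ‖(a i - a j - w) + w‖ := by rw [← e]
          _ ≤ _ := norm_add_le _ _
      linarith
    have hwpos : 0 < ‖w‖ := by linarith
    set y := ‖w‖⁻¹ • w with hy
    have hyS : y ∈ S := S.smul_mem _ hwS
    have hy1 : ‖y‖ = 1 := by
      rw [hy, norm_smul, norm_inv, norm_norm]
      exact inv_mul_cancel₀ hwpos.ne'
    have hmain := hSy y hyS hy1
    set τ := ‖w‖ / (2 * s - δ) with hτ
    have hτ1 : 1 ≤ τ := by
      rw [hτ, le_div_iff₀ h2sδ]
      linarith
    have hmono := max_norm_le_max_smul xh (t₀ • y) hτ1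
    have hτy : τ • t₀ • y = A⁻¹ • w := by
      rw [hy, smul_smul, smul_smul]
      congr 1
      rw [hτ, ht₀]
      field_simp
    rw [hτy] at hmono
    have e1 : xh + A⁻¹ • w = A⁻¹ • (p - q + w) := by rw [hxh, ← smul_add]
    have e2 : xh - A⁻¹ • w = A⁻¹ • (p - q - w) := by rw [hxh, ← smul_sub]
    rw [e1, e2, norm_smul, norm_smul, norm_inv, Real.norm_of_nonneg hA.le] at hmono
    have hplus : ‖p - q + w‖ ≤ 2 * L + δ := by
      have e : p - q + w = (p - a j) + (a i - q) - (a i - a j - w) := by abel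
      calc ‖p - q + w‖ = ‖(p - a j) + (a i - q) - (a i - a j - w)‖ := by rw [← e]
        _ ≤ ‖(p - a j) + (a i - q)‖ + ‖a i - a j - w‖ := norm_sub_le _ _
        _ ≤ ‖p - a j‖ + ‖a i - q‖ + ‖a i - a j - w‖ := by
            gcongr
            exact norm_add_le _ _
        _ ≤ 2 * L + δ := by linarith [hp j, hq i]
    have hminus : ‖p - q - w‖ ≤ 2 * L + δ := by
      have e : p - q - w = (p - a i) + (a j - q) + (a i - a j - w) := by abel
      calc ‖p - q - w‖ = ‖(p - a i) + (a j - q) + (a i - a j - w)‖ := by rw [← e]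
        _ ≤ ‖(p - a i) + (a j - q)‖ + ‖a i - a j - w‖ := norm_add_le _ _
        _ ≤ ‖p - a i‖ + ‖a j - q‖ + ‖a i - a j - w‖ := by
            gcongr
            exact norm_add_le _ _
        _ ≤ 2 * L + δ := by linarith [hp i, hq j]
    have hAinv : 0 < A⁻¹ := inv_pos.2 hA
    have hmax : max (A⁻¹ * ‖p - q + w‖) (A⁻¹ * ‖p - q - w‖) ≤ A⁻¹ * (2 * L + δ) :=
      max_le (mul_le_mul_of_nonneg_left hplus hAinv.le)
        (mul_le_mul_of_nonneg_left hminus hAinv.le)
    have hsqrt : Real.sqrt (1 + t₀ ^ 2 / 4) - δ ≤ A⁻¹ * (2 * L + δ) := by linarith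
    have hsqrt2 : A * Real.sqrt (1 + t₀ ^ 2 / 4) ≤ 2 * L + A * δ + δ := by
      have := mul_le_mul_of_nonneg_left hsqrt hA.le
      rw [← mul_assoc, mul_inv_cancel₀ hA.ne', one_mul] at this
      linarith
    have hnn : 0 ≤ A * Real.sqrt (1 + t₀ ^ 2 / 4) := by positivity
    have hsq := pow_le_pow_left₀ hnn hsqrt2 2
    have hpos : 0 ≤ 1 + t₀ ^ 2 / 4 := by positivity
    rw [mul_pow, Real.sq_sqrt hpos] at hsq
    have : A ^ 2 * (1 + t₀ ^ 2 / 4) = A ^ 2 + (2 * s - δ) ^ 2 / 4 := by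
      rw [← hAt₀]; ring
    linarith
  -- let the parameter tend to zero
  have hf : Filter.Tendsto (fun δ : ℝ => A ^ 2 + (2 * s - δ) ^ 2 / 4) (nhdsWithin 0 (Set.Ioi 0))
      (nhds (A ^ 2 + (2 * s - 0) ^ 2 / 4)) := by
    apply Filter.Tendsto.mono_left _ nhdsWithin_le_nhds
    exact (Continuous.tendsto (by fun_prop) 0)
  have hg : Filter.Tendsto (fun δ : ℝ => (2 * L + A * δ + δ) ^ 2) (nhdsWithin 0 (Set.Ioi 0))
      (nhds ((2 * L + A * 0 + 0) ^ 2)) := by
    apply Filter.Tendsto.mono_left _ nhdsWithin_le_nhds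
    exact (Continuous.tendsto (by fun_prop) 0)
  have hev : ∀ᶠ δ : ℝ in nhdsWithin 0 (Set.Ioi 0),
      A ^ 2 + (2 * s - δ) ^ 2 / 4 ≤ (2 * L + A * δ + δ) ^ 2 := by
    have : Set.Ioo (0 : ℝ) s ∈ nhdsWithin (0 : ℝ) (Set.Ioi 0) := Ioo_mem_nhdsGT hs
    filter_upwards [this] with δ hδ
    exact claim δ hδ.1 hδ.2
  have hlim := le_of_tendsto_of_tendsto hf hg hev
  nlinarith

end generic

/-! ### The induction over the diamonds -/

theorem diamondEdge_nonempty : ∀ k : ℕ, Nonempty (DiamondEdge k)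
  | 0 => ⟨()⟩
  | k + 1 => (diamondEdge_nonempty k).elim fun e => ⟨((e, 0, false) : DiamondEdge k × ℕ × Bool)⟩

/-- If `f` on `D k` expands distances by at least `s` and maps every edge to a segment of length
at most `L`, then `s² (1 + k/4) ≤ L²`. -/
theorem diamond_edge_bound {V : Type} [NormedAddCommGroup V] [NormedSpace ℝ V]
    (hmod : MaxMidpointProp V) :
    ∀ (k : ℕ) (f : DiamondVertex k → V) (s L : ℝ), 0 < s →
      (∀ u v : DiamondVertex k, s * (diamondDist k u v : ℝ) ≤ ‖f u - f v‖) →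
      (∀ e : DiamondEdge k, ‖f (diamondSrc k e) - f (diamondTgt k e)‖ ≤ L) →
      s ^ 2 * (1 + (k : ℝ) / 4) ≤ L ^ 2
  | 0, f, s, L, hs, hlow, hup => by
      have h1 := hlow (diamondSrc 0 ()) (diamondTgt 0 ())
      have h0 : diamondDist 0 (diamondSrc 0 ()) (diamondTgt 0 ()) = 1 := diamondDist_src_tgt 0 ()
      rw [h0] at h1
      have h2 := hup ()
      have h3 : s ≤ L := by
        have : s * ((1 : ℕ) : ℝ) = s := by norm_num
        linarith
      have h4 : ((0 : ℕ) : ℝ) = 0 := by norm_num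
      rw [h4]
      nlinarith
  | k + 1, f, s, L, hs, hlow, hup => by
      have hfan : ∀ e : DiamondEdge k,
          ‖f (Sum.inl (diamondSrc k e) : DiamondVertex k ⊕ (DiamondEdge k × ℕ))
            - f (Sum.inl (diamondTgt k e) : DiamondVertex k ⊕ (DiamondEdge k × ℕ))‖ ^ 2 + s ^ 2
            ≤ 4 * L ^ 2 := by
        intro e
        apply fan_estimate hmod _ _
          (fun i => f (Sum.inr (e, i) : DiamondVertex k ⊕ (DiamondEdge k × ℕ))) s L hs
        · intro i j hij
          have h1 := hlow (Sum.inr (e, i) : DiamondVertex k ⊕ (DiamondEdge k × ℕ))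
            (Sum.inr (e, j) : DiamondVertex k ⊕ (DiamondEdge k × ℕ))
          have h2 := two_le_diamondDist_inr_inr k e hij
          have h3 : (2 : ℝ) ≤ (diamondDist (k + 1)
              (Sum.inr (e, i) : DiamondVertex k ⊕ (DiamondEdge k × ℕ)) (Sum.inr (e, j)) : ℝ) := by
            exact_mod_cast h2
          calc 2 * s = s * 2 := by ring
            _ ≤ s * (diamondDist (k + 1)
              (Sum.inr (e, i) : DiamondVertex k ⊕ (DiamondEdge k × ℕ)) (Sum.inr (e, j)) : ℝ) :=
                mul_le_mul_of_nonneg_left h3 hs.le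
            _ ≤ _ := h1
        · intro i
          exact hup ((e, i, false) : DiamondEdge k × ℕ × Bool)
        · intro i
          exact hup ((e, i, true) : DiamondEdge k × ℕ × Bool)
      obtain ⟨e₀⟩ := diamondEdge_nonempty k
      have hL' : 0 ≤ 4 * L ^ 2 - s ^ 2 := by
        have := hfan e₀
        nlinarith [sq_nonneg ‖f (Sum.inl (diamondSrc k e₀) : DiamondVertex k ⊕ (DiamondEdge k × ℕ))
            - f (Sum.inl (diamondTgt k e₀) : DiamondVertex k ⊕ (DiamondEdge k × ℕ))‖]
      have ih := diamond_edge_bound hmod k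
        (fun u => f (Sum.inl u : DiamondVertex k ⊕ (DiamondEdge k × ℕ))) (2 * s)
        (Real.sqrt (4 * L ^ 2 - s ^ 2)) (by linarith) ?_ ?_
      · rw [Real.sq_sqrt hL'] at ih
        push_cast
        nlinarith
      · intro u v
        have h1 := hlow (Sum.inl u : DiamondVertex k ⊕ (DiamondEdge k × ℕ))
          (Sum.inl v : DiamondVertex k ⊕ (DiamondEdge k × ℕ))
        have h2 := two_mul_diamondDist_le k u v
        have h3 : (2 : ℝ) * (diamondDist k u v : ℝ) ≤ (diamondDist (k + 1)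
            (Sum.inl u : DiamondVertex k ⊕ (DiamondEdge k × ℕ)) (Sum.inl v) : ℝ) := by
          exact_mod_cast h2
        calc 2 * s * (diamondDist k u v : ℝ) = s * (2 * (diamondDist k u v : ℝ)) := by ring
          _ ≤ s * (diamondDist (k + 1)
            (Sum.inl u : DiamondVertex k ⊕ (DiamondEdge k × ℕ)) (Sum.inl v) : ℝ) :=
              mul_le_mul_of_nonneg_left h3 hs.le
          _ ≤ _ := h1
      · intro e
        apply Real.le_sqrt_of_sq_le
        linarith [hfan e]

/-- **Work package E2 of row 125.** If the maximum-based midpoint modulus of the given norm of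
`E` is at least `sqrt (1 + t²/4) - 1` at every `t > 0`, then every map of the depth-`k` countably
branching diamond into `E` of distortion at most `D` has `1 + k/4 ≤ D²`. -/
theorem diamond_distortion_sq (E : Crest.AnalysisR.RealBanach)
    (hE : ∀ t : ℝ, 0 < t → E.MaxMidpointModulusGE E.norm t (Real.sqrt (1 + t ^ 2 / 4) - 1)) :
    ∀ (k : ℕ) (f : Crest.AnalysisR.DiamondVertex k → E.X) (D : ℝ),
      E.HasDistortionLE k f D → 1 + (k : ℝ) / 4 ≤ D ^ 2 := by
  let _ := E.normed
  let _ := E.space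
  have hmod : MaxMidpointProp E.X := by
    intro t ht x hx η hη
    obtain ⟨F, ⟨S, rfl, hcl, hfd⟩, hF⟩ := hE t ht x hx η hη
    exact ⟨S, hcl, hfd, fun y hy hy1 => hF y hy hy1⟩
  intro k f D hD
  obtain ⟨s, hs, h⟩ := hD
  have hkey := diamond_edge_bound hmod k f s (D * s) hs (fun u v => (h u v).1) (fun e => by
    have h1 := (h (diamondSrc k e) (diamondTgt k e)).2
    rw [diamondDist_src_tgt] at h1
    have : D * s * ((1 : ℕ) : ℝ) = D * s := by norm_num
    linarith)
  have hs2 : 0 < s ^ 2 := by positivity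
  have : s ^ 2 * (1 + (k : ℝ) / 4) ≤ s ^ 2 * D ^ 2 := by
    calc s ^ 2 * (1 + (k : ℝ) / 4) ≤ (D * s) ^ 2 := hkey
      _ = s ^ 2 * D ^ 2 := by ring
  exact le_of_mul_le_mul_left this hs2

end Crest.Agent.R125
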