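import Mathlib
import Crest.Prelude.Def_TreePotentials
import Crest.Agent.R125_AUC

/-!
Row 125 (S0166/S0168): the closed span `potSpace m V` of the coordinate vectors of the vertices
in a set `V`, inside `lp (fun _ : PotentialTest m => ℝ) ⊤`.  `modelSpace m = potSpace m univ`,
and the summands of the space of S0166 are `potSpace .global {s | s.length ≤ k}`.
OWNER: helper9.
-/

set_option autoImplicit false

namespace Crest.Agent.R125

open Crest.AnalysisR Crest.AnalysisR.TreePotential

/-- Closed span of the coordinate vectors of the vertices in `V`. -/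
noncomputable def potSpace (m : PotentialModel) (V : Set (List ℕ)) :
    Submodule ℝ (lp (fun _ : PotentialTest m => ℝ) ⊤) :=
  (Submodule.span ℝ (coordVector m '' V)).topologicalClosure

theorem modelSpace_eq (m : PotentialModel) : modelSpace m = potSpace m Set.univ := by
  unfold modelSpace potSpace; rw [Set.image_univ]

theorem isClosed_potSpace (m : PotentialModel) (V : Set (List ℕ)) :
    IsClosed (potSpace m V : Set (lp (fun _ : PotentialTest m => ℝ) ⊤)) :=
  Submodule.isClosed_topologicalClosure _

instance instCompleteSpacePotSpace (m : PotentialModel) (V : Set (List ℕ)) :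
    CompleteSpace (potSpace m V) :=
  (isClosed_potSpace m V).completeSpace_coe

theorem coordVector_mem_potSpace (m : PotentialModel) {V : Set (List ℕ)} {s : List ℕ}
    (hs : s ∈ V) : coordVector m s ∈ potSpace m V :=
  subset_closure (Submodule.subset_span ⟨s, hs, rfl⟩)

@[simp] theorem coordVector_apply (m : PotentialModel) (s : List ℕ) (f : PotentialTest m) :
    coordVector m s f = f.1 s := rfl

/-- The summands of the space of S0166: vertices of depth at most `k` in the global model. -/
noncomputable abbrev Ek (k : ℕ) : Submodule ℝ (lp (fun _ : PotentialTest .global => ℝ) ⊤) :=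
  potSpace .global {s | s.length ≤ k}

/-- The space of S0166: the `ℓ²`-sum of the spaces `Ek k`. -/
noncomputable abbrev ESum : Type := lp (fun k : ℕ => Ek k) 2

/-- Reflexivity of a real normed space (general form of `RealBanach.IsReflexive`). -/
def IsReflexiveSpace (X : Type*) [NormedAddCommGroup X] [NormedSpace ℝ X] : Prop :=
  Function.Surjective (NormedSpace.inclusionInDoubleDual ℝ X)

theorem mk_isReflexive {X : Type} [i1 : NormedAddCommGroup X] [i2 : NormedSpace ℝ X]
    (i3 : CompleteSpace X) (h : IsReflexiveSpace X) : (RealBanach.mk X i1 i2 i3).IsReflexive := h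

theorem mk_isSeparableInfiniteDim {X : Type} [i1 : NormedAddCommGroup X] [i2 : NormedSpace ℝ X]
    (i3 : CompleteSpace X) (h1 : TopologicalSpace.SeparableSpace X)
    (h2 : ¬ FiniteDimensional ℝ X) : (RealBanach.mk X i1 i2 i3).IsSeparableInfiniteDim := ⟨h1, h2⟩

end Crest.Agent.R125
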