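import Mathlib
import Crest.Prelude.Def_TreePotentials

/-!
Row 125 (S0166/S0168), part of work package WP-C1 (helper8): the domination criterion for tests of
the four tree-potential models and the glue lemma.  Standalone (imports only Mathlib and the frozen
definitions), so that `R125_PotTests.lean` can import it.
-/

set_option autoImplicit false

namespace Crest.Agent.R125

open Crest.AnalysisR.TreePotential

/-! ### Domination -/

theorem sum_sq_le_of_dom {ι : Type*} (A : Finset ι) (e : ι → List ℕ) {f h φ : List ℕ → ℝ}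
    {α γ : ℝ} (hαγ : α ^ 2 + γ ^ 2 ≤ 1)
    (hdom : ∀ u, φ u ^ 2 ≤ α ^ 2 * f u ^ 2 + γ ^ 2 * h u ^ 2)
    (hf : ∑ i ∈ A, f (e i) ^ 2 ≤ 1) (hh : ∑ i ∈ A, h (e i) ^ 2 ≤ 1) :
    ∑ i ∈ A, φ (e i) ^ 2 ≤ 1 := by
  have h1 : ∑ i ∈ A, φ (e i) ^ 2 ≤ ∑ i ∈ A, (α ^ 2 * f (e i) ^ 2 + γ ^ 2 * h (e i) ^ 2) :=
    Finset.sum_le_sum fun i _ => hdom (e i)
  have h2 : ∑ i ∈ A, (α ^ 2 * f (e i) ^ 2 + γ ^ 2 * h (e i) ^ 2)
      = α ^ 2 * ∑ i ∈ A, f (e i) ^ 2 + γ ^ 2 * ∑ i ∈ A, h (e i) ^ 2 := by
    rw [Finset.sum_add_distrib, Finset.mul_sum, Finset.mul_sum]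
  have h3 : α ^ 2 * ∑ i ∈ A, f (e i) ^ 2 ≤ α ^ 2 * 1 :=
    mul_le_mul_of_nonneg_left hf (sq_nonneg α)
  have h4 : γ ^ 2 * ∑ i ∈ A, h (e i) ^ 2 ≤ γ ^ 2 * 1 :=
    mul_le_mul_of_nonneg_left hh (sq_nonneg γ)
  linarith

/-- Domination: a family with potentials bounded by `1` whose squares are pointwise dominated by
`α² f² + γ² h²` (`f`, `h` tests, `α² + γ² ≤ 1`) is a test. -/
theorem isTest_of_dom {m : PotentialModel} {f h φ : List ℕ → ℝ} {α γ : ℝ} (hf : IsTest m f)
    (hh : IsTest m h) (hαγ : α ^ 2 + γ ^ 2 ≤ 1) (hpot : ∀ s, |pathPotential φ s| ≤ 1)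
    (hdom : ∀ u, φ u ^ 2 ≤ α ^ 2 * f u ^ 2 + γ ^ 2 * h u ^ 2) : IsTest m φ := by
  have hzero : ∀ u, f u = 0 → h u = 0 → φ u = 0 := by
    intro u h1 h2
    have h3 := hdom u
    rw [h1, h2] at h3
    have h0 : φ u ^ 2 ≤ 0 := by nlinarith
    exact pow_eq_zero_iff two_ne_zero |>.1 (le_antisymm h0 (sq_nonneg _))
  refine ⟨hpot, ?_⟩
  cases m with
  | rootlessSibling =>
    obtain ⟨hf0, hfs⟩ := hf.2
    obtain ⟨hh0, hhs⟩ := hh.2
    exact ⟨hzero [] hf0 hh0,
      fun r A => sum_sq_le_of_dom A (fun n => n :: r) hαγ hdom (hfs r A) (hhs r A)⟩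
  | rootedSibling =>
    exact fun r A => sum_sq_le_of_dom A (fun n => n :: r) hαγ hdom (hf.2 r A) (hh.2 r A)
  | antichain =>
    obtain ⟨hfin, hfs⟩ := hf.2
    obtain ⟨hhin, hhs⟩ := hh.2
    refine ⟨(hfin.union hhin).subset ?_,
      fun A hA => sum_sq_le_of_dom A id hαγ hdom (hfs A hA) (hhs A hA)⟩
    intro u hu
    by_contra hcon
    rw [Set.mem_union, not_or, Function.mem_support, Function.mem_support, not_not, not_not]
      at hcon
    exact hu (hzero u hcon.1 hcon.2)
  | global =>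
    exact fun A => sum_sq_le_of_dom A id hαγ hdom (hf.2 A) (hh.2 A)

/-! ### The glue construction -/

/-- Potential of `f` at the last vertex of the root path of `s` that lies in `B`
(convention: the root counts as lying in `B`). -/
noncomputable def kap (f : List ℕ → ℝ) (B : Finset (List ℕ)) : List ℕ → ℝ
  | [] => f []
  | a :: v => if a :: v ∈ B then pathPotential f (a :: v) else kap f B v

/-- Sum of `h` over the vertices of the root path of `s` after the last vertex in `B`. -/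
noncomputable def qsum (h : List ℕ → ℝ) (B : Finset (List ℕ)) : List ℕ → ℝ
  | [] => 0
  | a :: v => if a :: v ∈ B then 0 else qsum h B v + h (a :: v)

/-- The coefficient family whose potential is `Ψ`. -/
def incr (Ψ : List ℕ → ℝ) : List ℕ → ℝ
  | [] => Ψ []
  | a :: v => Ψ (a :: v) - Ψ v

theorem pathPotential_incr (Ψ : List ℕ → ℝ) (s : List ℕ) : pathPotential (incr Ψ) s = Ψ s := by
  induction s with
  | nil => rfl
  | cons a v ih =>
    simp only [pathPotential, incr, ih]
    ring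

theorem abs_kap_le {f : List ℕ → ℝ} (hf : ∀ s, |pathPotential f s| ≤ 1) (B : Finset (List ℕ))
    (s : List ℕ) : |kap f B s| ≤ 1 := by
  induction s with
  | nil => exact hf []
  | cons a v ih =>
    simp only [kap]
    split_ifs
    · exact hf (a :: v)
    · exact ih

theorem kap_of_mem (f : List ℕ → ℝ) (B : Finset (List ℕ)) {s : List ℕ} (hs : s ∈ B) :
    kap f B s = pathPotential f s := by
  cases s with
  | nil => rfl
  | cons a v => simp only [kap, if_pos hs]

theorem qsum_eq (h : List ℕ → ℝ) (B : Finset (List ℕ)) (s : List ℕ) :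
    qsum h B s = pathPotential h s - kap h B s := by
  induction s with
  | nil => simp [qsum, kap, pathPotential]
  | cons a v ih =>
    simp only [qsum, kap]
    split_ifs
    · simp
    · rw [ih]
      simp only [pathPotential]
      ring

theorem abs_qsum_le {h : List ℕ → ℝ} (hh : ∀ s, |pathPotential h s| ≤ 1) (B : Finset (List ℕ))
    (s : List ℕ) : |qsum h B s| ≤ 2 := by
  rw [qsum_eq]
  have h1 := hh s
  have h2 := abs_kap_le hh B s
  rw [abs_le] at h1 h2 ⊢
  constructor <;> linarith [h1.1, h1.2, h2.1, h2.2]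

theorem qsum_of_mem (h : List ℕ → ℝ) (B : Finset (List ℕ)) {s : List ℕ} (hs : s ∈ B) :
    qsum h B s = 0 := by
  cases s with
  | nil => rfl
  | cons a v => simp only [qsum, if_pos hs]

/-- The "plus" potential. -/
noncomputable def psiP (f h : List ℕ → ℝ) (B : Finset (List ℕ)) (α γ : ℝ) (s : List ℕ) : ℝ :=
  α * kap f B s + γ * (if 0 ≤ kap f B s then min (qsum h B s) 0 else max (qsum h B s) 0)

/-- The "minus" potential. -/
noncomputable def psiM (f h : List ℕ → ℝ) (B : Finset (List ℕ)) (α γ : ℝ) (s : List ℕ) : ℝ :=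
  α * kap f B s - γ * (if 0 ≤ kap f B s then max (qsum h B s) 0 else min (qsum h B s) 0)

theorem psiP_sub_psiM (f h : List ℕ → ℝ) (B : Finset (List ℕ)) (α γ : ℝ) (s : List ℕ) :
    psiP f h B α γ s - psiM f h B α γ s = γ * qsum h B s := by
  unfold psiP psiM
  have h0 := min_add_max (qsum h B s) 0
  have e : γ * min (qsum h B s) 0 + γ * max (qsum h B s) 0 = γ * qsum h B s := by
    rw [← mul_add, h0, add_zero]
  split_ifs <;> linarith

theorem psi_bounds {κ q α γ : ℝ} (hκ : |κ| ≤ 1) (hq : |q| ≤ 2) (hα : 0 ≤ α) (hα1 : α ≤ 1)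
    (hγ : 0 ≤ γ) (hγ2 : 2 * γ ≤ 1) :
    |α * κ + γ * (if 0 ≤ κ then min q 0 else max q 0)| ≤ 1 ∧
      |α * κ - γ * (if 0 ≤ κ then max q 0 else min q 0)| ≤ 1 := by
  rw [abs_le] at hκ hq
  have hmin1 : min q 0 ≤ 0 := min_le_right _ _
  have hmin2 : -2 ≤ min q 0 := le_min hq.1 (by norm_num)
  have hmax1 : 0 ≤ max q 0 := le_max_right _ _
  have hmax2 : max q 0 ≤ 2 := max_le hq.2 (by norm_num)
  have e1 : γ * min q 0 ≤ 0 := mul_nonpos_of_nonneg_of_nonpos hγ hmin1
  have e2 : -1 ≤ γ * min q 0 := by nlinarith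
  have e3 : 0 ≤ γ * max q 0 := mul_nonneg hγ hmax1
  have e4 : γ * max q 0 ≤ 1 := by nlinarith
  split_ifs with hk
  · have k1 : 0 ≤ α * κ := mul_nonneg hα hk
    have k2 : α * κ ≤ 1 := by nlinarith [hκ.2]
    constructor <;> rw [abs_le] <;> constructor <;> linarith
  · have hk' : κ ≤ 0 := le_of_lt (not_le.1 hk)
    have k1 : α * κ ≤ 0 := mul_nonpos_of_nonneg_of_nonpos hα hk'
    have k2 : -1 ≤ α * κ := by nlinarith [hκ.1]
    constructor <;> rw [abs_le] <;> constructor <;> linarith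

theorem psiP_of_mem (f h : List ℕ → ℝ) (B : Finset (List ℕ)) (α γ : ℝ) {s : List ℕ}
    (hs : s ∈ B) : psiP f h B α γ s = α * pathPotential f s := by
  unfold psiP
  rw [qsum_of_mem h B hs, kap_of_mem f B hs]
  simp

theorem psiM_of_mem (f h : List ℕ → ℝ) (B : Finset (List ℕ)) (α γ : ℝ) {s : List ℕ}
    (hs : s ∈ B) : psiM f h B α γ s = α * pathPotential f s := by
  unfold psiM
  rw [qsum_of_mem h B hs, kap_of_mem f B hs]
  simp

theorem incr_of_mem {Ψ f : List ℕ → ℝ} {B : Finset (List ℕ)} {α : ℝ}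
    (hBcl : ∀ (a : ℕ) (v : List ℕ), a :: v ∈ B → v ∈ B)
    (hΨ : ∀ s ∈ B, Ψ s = α * pathPotential f s) {u : List ℕ} (hu : u ∈ B) :
    incr Ψ u = α * f u := by
  cases u with
  | nil =>
    show Ψ [] = α * f []
    rw [hΨ [] hu]
    rfl
  | cons a v =>
    show Ψ (a :: v) - Ψ v = α * f (a :: v)
    rw [hΨ _ hu, hΨ _ (hBcl a v hu)]
    simp only [pathPotential]
    ring

theorem abs_min_zero_sub (x d : ℝ) : |min (x + d) 0 - min x 0| ≤ |d| := by
  have h := abs_min_sub_min_le_max (x + d) 0 x 0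
  simpa using h

theorem abs_max_zero_sub (x d : ℝ) : |max (x + d) 0 - max x 0| ≤ |d| := by
  have h := abs_max_sub_max_le_max (x + d) 0 x 0
  simpa using h

/-- Off `B` the increments of the two potentials are dominated by `γ |h|`. -/
theorem abs_incr_psi_le (f h : List ℕ → ℝ) (B : Finset (List ℕ)) (α γ : ℝ) (hγ : 0 ≤ γ)
    (a : ℕ) (v : List ℕ) (hu : a :: v ∉ B) :
    |incr (psiP f h B α γ) (a :: v)| ≤ γ * |h (a :: v)| ∧
      |incr (psiM f h B α γ) (a :: v)| ≤ γ * |h (a :: v)| := by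
  have hk : kap f B (a :: v) = kap f B v := by simp only [kap, if_neg hu]
  have hq : qsum h B (a :: v) = qsum h B v + h (a :: v) := by simp only [qsum, if_neg hu]
  have e1 := abs_min_zero_sub (qsum h B v) (h (a :: v))
  have e2 := abs_max_zero_sub (qsum h B v) (h (a :: v))
  constructor
  · show |psiP f h B α γ (a :: v) - psiP f h B α γ v| ≤ γ * |h (a :: v)|
    unfold psiP
    rw [hk, hq]
    split_ifs
    · have : α * kap f B v + γ * min (qsum h B v + h (a :: v)) 0
          - (α * kap f B v + γ * min (qsum h B v) 0)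
          = γ * (min (qsum h B v + h (a :: v)) 0 - min (qsum h B v) 0) := by ring
      rw [this, abs_mul, abs_of_nonneg hγ]
      exact mul_le_mul_of_nonneg_left e1 hγ
    · have : α * kap f B v + γ * max (qsum h B v + h (a :: v)) 0
          - (α * kap f B v + γ * max (qsum h B v) 0)
          = γ * (max (qsum h B v + h (a :: v)) 0 - max (qsum h B v) 0) := by ring
      rw [this, abs_mul, abs_of_nonneg hγ]
      exact mul_le_mul_of_nonneg_left e2 hγ
  · show |psiM f h B α γ (a :: v) - psiM f h B α γ v| ≤ γ * |h (a :: v)|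
    unfold psiM
    rw [hk, hq]
    split_ifs
    · have : α * kap f B v - γ * max (qsum h B v + h (a :: v)) 0
          - (α * kap f B v - γ * max (qsum h B v) 0)
          = -(γ * (max (qsum h B v + h (a :: v)) 0 - max (qsum h B v) 0)) := by ring
      rw [this, abs_neg, abs_mul, abs_of_nonneg hγ]
      exact mul_le_mul_of_nonneg_left e2 hγ
    · have : α * kap f B v - γ * min (qsum h B v + h (a :: v)) 0
          - (α * kap f B v - γ * min (qsum h B v) 0)
          = -(γ * (min (qsum h B v + h (a :: v)) 0 - min (qsum h B v) 0)) := by ring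
      rw [this, abs_neg, abs_mul, abs_of_nonneg hγ]
      exact mul_le_mul_of_nonneg_left e1 hγ

/-- **Glue lemma.** `B` a finite set of vertices containing the root and closed under taking
parents, `f`, `h` tests, `α, γ ≥ 0`, `α² + γ² ≤ 1`, `2γ ≤ 1`. Then there are tests `Φp`, `Φm`
which both equal `α f` on `B` and whose difference is `γ h` off `B`. -/
theorem glue_tests {m : PotentialModel} {f h : List ℕ → ℝ} (hf : IsTest m f)
    (hh : IsTest m h) (B : Finset (List ℕ)) (hB0 : [] ∈ B)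
    (hBcl : ∀ (a : ℕ) (v : List ℕ), a :: v ∈ B → v ∈ B) {α γ : ℝ} (hα : 0 ≤ α) (hγ : 0 ≤ γ)
    (hαγ : α ^ 2 + γ ^ 2 ≤ 1) (hγ2 : 2 * γ ≤ 1) :
    ∃ Φp Φm : List ℕ → ℝ, IsTest m Φp ∧ IsTest m Φm ∧
      (∀ u ∈ B, Φp u = α * f u ∧ Φm u = α * f u) ∧
      (∀ u, u ∉ B → Φp u - Φm u = γ * h u) := by
  have hα1 : α ≤ 1 := by nlinarith [sq_nonneg γ, sq_nonneg (α - 1)]
  have hbd : ∀ s, |psiP f h B α γ s| ≤ 1 ∧ |psiM f h B α γ s| ≤ 1 := fun s =>
    psi_bounds (abs_kap_le hf.1 B s) (abs_qsum_le hh.1 B s) hα hα1 hγ hγ2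
  have hPB : ∀ u ∈ B, incr (psiP f h B α γ) u = α * f u := fun u hu =>
    incr_of_mem hBcl (fun s hs => psiP_of_mem f h B α γ hs) hu
  have hMB : ∀ u ∈ B, incr (psiM f h B α γ) u = α * f u := fun u hu =>
    incr_of_mem hBcl (fun s hs => psiM_of_mem f h B α γ hs) hu
  have hdomP : ∀ u, incr (psiP f h B α γ) u ^ 2 ≤ α ^ 2 * f u ^ 2 + γ ^ 2 * h u ^ 2 := by
    intro u
    by_cases hu : u ∈ B
    · rw [hPB u hu]
      nlinarith [sq_nonneg (γ * h u)]
    · cases u with
      | nil => exact absurd hB0 hu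
      | cons a v =>
        have h1 := (abs_incr_psi_le f h B α γ hγ a v hu).1
        have h2 : incr (psiP f h B α γ) (a :: v) ^ 2 ≤ (γ * |h (a :: v)|) ^ 2 :=
          sq_le_sq' (by linarith [neg_abs_le (incr (psiP f h B α γ) (a :: v))])
            ((le_abs_self _).trans h1)
        rw [mul_pow, sq_abs] at h2
        nlinarith [sq_nonneg (α * f (a :: v))]
  have hdomM : ∀ u, incr (psiM f h B α γ) u ^ 2 ≤ α ^ 2 * f u ^ 2 + γ ^ 2 * h u ^ 2 := by
    intro u
    by_cases hu : u ∈ B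
    · rw [hMB u hu]
      nlinarith [sq_nonneg (γ * h u)]
    · cases u with
      | nil => exact absurd hB0 hu
      | cons a v =>
        have h1 := (abs_incr_psi_le f h B α γ hγ a v hu).2
        have h2 : incr (psiM f h B α γ) (a :: v) ^ 2 ≤ (γ * |h (a :: v)|) ^ 2 :=
          sq_le_sq' (by linarith [neg_abs_le (incr (psiM f h B α γ) (a :: v))])
            ((le_abs_self _).trans h1)
        rw [mul_pow, sq_abs] at h2
        nlinarith [sq_nonneg (α * f (a :: v))]
  refine ⟨incr (psiP f h B α γ), incr (psiM f h B α γ), ?_, ?_, ?_, ?_⟩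
  · exact isTest_of_dom hf hh hαγ (fun s => by rw [pathPotential_incr]; exact (hbd s).1) hdomP
  · exact isTest_of_dom hf hh hαγ (fun s => by rw [pathPotential_incr]; exact (hbd s).2) hdomM
  · exact fun u hu => ⟨hPB u hu, hMB u hu⟩
  · intro u hu
    cases u with
    | nil => exact absurd hB0 hu
    | cons a v =>
      show (psiP f h B α γ (a :: v) - psiP f h B α γ v)
        - (psiM f h B α γ (a :: v) - psiM f h B α γ v) = γ * h (a :: v)
      have h1 := psiP_sub_psiM f h B α γ (a :: v)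
      have h2 := psiP_sub_psiM f h B α γ v
      have hq : qsum h B (a :: v) = qsum h B v + h (a :: v) := by simp only [qsum, if_neg hu]
      rw [hq] at h1
      linarith

end Crest.Agent.R125
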