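import Mathlib
import Crest.Prelude.Def_TreePotentials
import Crest.Agent.R125_PotGlue

/-!
Row 125 (S0166/S0168), work package WP-C1: combinatorics of the tests of the four tree-potential
models (`Crest.AnalysisR.TreePotential.IsTest`).  No topology here.  OWNER: helper13 (`isTest_dom`, `exists_glue_tests` are proved in `R125_PotGlue.lean` by helper8).

Interface used by `R125_PotSpace.lean` (helper9):
`isTest_zero`, `isTest_single`, `isTest_sib`, `isTest_dom`, `isTest_neg`, `exists_glue_tests`.
-/

set_option autoImplicit false

namespace Crest.Agent.R125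

open Crest.AnalysisR.TreePotential

/-- The single-vertex coefficient family `δ_s`. -/
noncomputable def single (s : List ℕ) : List ℕ → ℝ := fun u => if u = s then 1 else 0

theorem pathPotential_neg (f : List ℕ → ℝ) (s : List ℕ) :
    pathPotential (fun u => -f u) s = -pathPotential f s := by
  induction s with
  | nil => rfl
  | cons a v ih => simp only [pathPotential, ih]; ring

theorem pathPotential_zero (s : List ℕ) : pathPotential (fun _ => (0 : ℝ)) s = 0 := by
  induction s with
  | nil => rfl
  | cons a v ih => simp only [pathPotential, ih]; ring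

/-- The zero family is a test of every model. -/
theorem isTest_zero (m : PotentialModel) : IsTest m (fun _ => 0) := by
  refine ⟨fun s => by rw [pathPotential_zero]; simp, ?_⟩
  cases m with
  | rootlessSibling => exact ⟨rfl, fun r A => by simp⟩
  | rootedSibling => exact fun r A => by simp
  | antichain =>
    refine ⟨?_, fun A _ => by simp⟩
    have : Function.support (fun _ : List ℕ => (0 : ℝ)) = ∅ := by
      ext u; simp
    rw [this]
    exact Set.finite_empty
  | global => exact fun A => by simp

/-- The potential of `δ_s` is the indicator of the vertices having `s` as a suffix. -/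
theorem pathPotential_single (s u : List ℕ) :
    pathPotential (single s) u = if s <:+ u then 1 else 0 := by
  induction u with
  | nil =>
    simp only [pathPotential, single, List.suffix_nil]
    by_cases h : s = []
    · simp [h]
    · have h' : ¬ ([] : List ℕ) = s := fun e => h e.symm
      simp [h, h']
  | cons a v ih =>
    simp only [pathPotential, ih, single, List.suffix_cons_iff]
    by_cases h1 : s = a :: v
    · simp [h1]
      intro hsv
      have := (List.IsSuffix.length_le hsv)
      simp at this
    · have h1' : ¬ (a :: v) = s := fun e => h1 e.symm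
      by_cases h2 : s <:+ v
      · simp [h1, h1', h2]
      · simp [h1, h1', h2]

/-- The squares of `δ_s` over the image of a finite set under any map sum to at most `1`
when the map is injective. -/
theorem sum_single_sq_le {ι : Type*} (A : Finset ι) (e : ι → List ℕ) (he : Function.Injective e)
    (s : List ℕ) : ∑ i ∈ A, single s (e i) ^ 2 ≤ 1 := by
  classical
  have h1 : ∀ i ∈ A, single s (e i) ^ 2 = if e i = s then 1 else 0 := by
    intro i _
    unfold single
    by_cases h : e i = s <;> simp [h]
  rw [Finset.sum_congr rfl h1, ← Finset.sum_filter, Finset.sum_const, nsmul_eq_mul, mul_one]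
  have hcard : (A.filter fun i => e i = s).card ≤ 1 := by
    rw [Finset.card_le_one]
    intro i hi j hj
    rw [Finset.mem_filter] at hi hj
    exact he (hi.2.trans hj.2.symm)
  exact_mod_cast hcard

/-- `δ_s` is a test (in the rootless model only for `s ≠ []`). Its potential is `1` at the
vertices having `s` as a suffix and `0` elsewhere. -/
theorem isTest_single (m : PotentialModel) (s : List ℕ)
    (hs : m = PotentialModel.rootlessSibling → s ≠ []) : IsTest m (single s) := by
  have hcons : ∀ r : List ℕ, Function.Injective (fun n : ℕ => n :: r) := fun r a b hab => by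
    simpa using hab
  refine ⟨fun u => ?_, ?_⟩
  · rw [pathPotential_single]
    by_cases h : s <:+ u <;> simp [h]
  cases m with
  | rootlessSibling =>
    refine ⟨?_, fun r A => sum_single_sq_le A (fun n => n :: r) (hcons r) s⟩
    have h := hs rfl
    have h' : ¬ ([] : List ℕ) = s := fun e => h e.symm
    simp [single, h']
  | rootedSibling => exact fun r A => sum_single_sq_le A (fun n => n :: r) (hcons r) s
  | antichain =>
    refine ⟨?_, fun A _ => sum_single_sq_le A id Function.injective_id s⟩
    refine (Set.finite_singleton s).subset ?_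
    intro u hu
    rw [Function.mem_support] at hu
    by_contra hne
    exact hu (by simp [single, show ¬ u = s from hne])
  | global => exact fun A => sum_single_sq_le A id Function.injective_id s

/-- In every model the squares of the coefficients of finitely many siblings sum to at most `1`
(antichain model: siblings are pairwise incomparable; global: image finset). -/
theorem isTest_sib {m : PotentialModel} {f : List ℕ → ℝ} (hf : IsTest m f) (r : List ℕ)
    (A : Finset ℕ) : ∑ n ∈ A, f (n :: r) ^ 2 ≤ 1 := by
  classical
  have hinj : Set.InjOn (fun n : ℕ => n :: r) (↑A : Set ℕ) := fun a _ b _ hab => by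
    simpa using hab
  have himg : ∑ u ∈ A.image (fun n : ℕ => n :: r), f u ^ 2 = ∑ n ∈ A, f (n :: r) ^ 2 :=
    Finset.sum_image hinj
  cases m with
  | rootlessSibling => exact hf.2.2 r A
  | rootedSibling => exact hf.2 r A
  | antichain =>
    rw [← himg]
    refine hf.2.2 _ ?_
    intro u hu v hv huv hsuf
    rw [Finset.mem_image] at hu hv
    obtain ⟨a, _, rfl⟩ := hu
    obtain ⟨b, _, rfl⟩ := hv
    exact huv (hsuf.eq_of_length (by simp))
  | global =>
    rw [← himg]
    exact hf.2 _

/-- Domination: a family with potentials bounded by `1` whose squares are pointwise dominated by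
`α² f² + γ² h²` (`f`, `h` tests, `α² + γ² ≤ 1`) is a test. -/
theorem isTest_dom {m : PotentialModel} {f h φ : List ℕ → ℝ} {α γ : ℝ} (hf : IsTest m f)
    (hh : IsTest m h) (hαγ : α ^ 2 + γ ^ 2 ≤ 1) (hpot : ∀ s, |pathPotential φ s| ≤ 1)
    (hdom : ∀ u, φ u ^ 2 ≤ α ^ 2 * f u ^ 2 + γ ^ 2 * h u ^ 2) : IsTest m φ :=
  isTest_of_dom hf hh hαγ hpot hdom

theorem isTest_neg {m : PotentialModel} {f : List ℕ → ℝ} (hf : IsTest m f) :
    IsTest m (fun u => -f u) := by
  refine isTest_dom (α := 1) (γ := 0) hf hf (by norm_num) (fun s => ?_) (fun u => by simp)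
  rw [pathPotential_neg, abs_neg]
  exact hf.1 s

/-- **Glue lemma.** `B` a finite set of vertices containing the root and closed under taking
parents, `f`, `h` tests, `α, γ ≥ 0`, `α² + γ² ≤ 1`, `2γ ≤ 1`. Then there are tests `Φp`, `Φm`
which both equal `α f` on `B` and whose difference is `γ h` off `B`.

Construction: along a root path let `kap s` = potential of `f` at the last vertex of the path
in `B` and `Q s` = sum of `h` over the vertices of the path after that vertex
(`kap [] = f []`, `kap (a :: v) = if a :: v ∈ B then pathPotential f (a :: v) else kap v`;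
`Q [] = 0`, `Q (a :: v) = if a :: v ∈ B then 0 else Q v + h (a :: v)`); `|kap| ≤ 1`, `|Q| ≤ 2`
(`Q = pathPotential h - R` with `R` the potential of `h` at the last vertex in `B`).
Potentials `Ψp s = α kap s + γ (if 0 ≤ kap s then min (Q s) 0 else max (Q s) 0)`,
`Ψm s = α kap s - γ (if 0 ≤ kap s then max (Q s) 0 else min (Q s) 0)`, both in `[-1, 1]`
(use `α ≤ 1`, `2γ ≤ 1`), `Ψp - Ψm = γ Q`; `Φ [] = Ψ []`, `Φ (a :: v) = Ψ (a :: v) - Ψ v`, so
`pathPotential Φ = Ψ`.  On `B`: `Φ u = α f u`; off `B`: `|Φ u| ≤ γ |h u|` (`min · 0`, `max · 0`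
are 1-Lipschitz, `kap` does not change) and `Φp u - Φm u = γ h u`.  Conclude with `isTest_dom`. -/
theorem exists_glue_tests {m : PotentialModel} {f h : List ℕ → ℝ} (hf : IsTest m f)
    (hh : IsTest m h) (B : Finset (List ℕ)) (hB0 : [] ∈ B)
    (hBcl : ∀ (a : ℕ) (v : List ℕ), a :: v ∈ B → v ∈ B) {α γ : ℝ} (hα : 0 ≤ α) (hγ : 0 ≤ γ)
    (hαγ : α ^ 2 + γ ^ 2 ≤ 1) (hγ2 : 2 * γ ≤ 1) :
    ∃ Φp Φm : List ℕ → ℝ, IsTest m Φp ∧ IsTest m Φm ∧
      (∀ u ∈ B, Φp u = α * f u ∧ Φm u = α * f u) ∧
      (∀ u, u ∉ B → Φp u - Φm u = γ * h u) :=
  glue_tests hf hh B hB0 hBcl hα hγ hαγ hγ2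

end Crest.Agent.R125
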