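import Mathlib

/-!
Row 125 (S0166), work package E1a: reflexivity.

* `reflexive_of_hilbert`: a real Hilbert space is reflexive.
* `reflexive_of_equiv`: reflexivity transfers along a continuous linear equivalence.
* `lp_two_reflexive`: the `ℓ²`-sum (`lp X 2`) of reflexive spaces is reflexive.

Reflexivity is stated as surjectivity of `NormedSpace.inclusionInDoubleDual ℝ _`, the form
used by `Crest.AnalysisR.RealBanach.IsReflexive`.
-/

set_option autoImplicit false

open scoped ENNReal NNReal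

namespace Crest.Agent.R125

section Hilbert

variable (H : Type*) [NormedAddCommGroup H] [InnerProductSpace ℝ H] [CompleteSpace H]

/-- A real Hilbert space is reflexive. -/
theorem reflexive_of_hilbert :
    Function.Surjective (NormedSpace.inclusionInDoubleDual ℝ H) := by
  intro Φ
  let ψ : H →L[ℝ] ℝ := LinearMap.mkContinuous
    { toFun := fun y => Φ (InnerProductSpace.toDual ℝ H y)
      map_add' := by intro a b; simp
      map_smul' := by intro c a; simp } ‖Φ‖ (by
        intro y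
        simpa using Φ.le_opNorm (InnerProductSpace.toDual ℝ H y))
  have hψ : ∀ y, ψ y = Φ (InnerProductSpace.toDual ℝ H y) := fun y => rfl
  refine ⟨(InnerProductSpace.toDual ℝ H).symm ψ, ?_⟩
  ext φ
  obtain ⟨z, rfl⟩ := (InnerProductSpace.toDual ℝ H).surjective φ
  rw [NormedSpace.dual_def, InnerProductSpace.toDual_apply_apply, real_inner_comm,
    InnerProductSpace.toDual_symm_apply, hψ]

end Hilbert

section Equiv

variable {X Y : Type*} [NormedAddCommGroup X] [NormedSpace ℝ X]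
  [NormedAddCommGroup Y] [NormedSpace ℝ Y]

/-- Reflexivity transfers along a continuous linear equivalence (pull-back form). -/
theorem reflexive_of_equiv_symm (e : X ≃L[ℝ] Y)
    (hY : Function.Surjective (NormedSpace.inclusionInDoubleDual ℝ Y)) :
    Function.Surjective (NormedSpace.inclusionInDoubleDual ℝ X) := by
  intro Φ
  let Φ' : StrongDual ℝ (StrongDual ℝ Y) :=
    Φ.comp ((ContinuousLinearMap.compL ℝ X Y ℝ).flip (e : X →L[ℝ] Y))
  have hΦ' : ∀ g : StrongDual ℝ Y, Φ' g = Φ (g.comp (e : X →L[ℝ] Y)) := fun g => rfl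
  obtain ⟨y, hy⟩ := hY Φ'
  refine ⟨e.symm y, ?_⟩
  ext φ
  have h1 := congrArg (fun Ψ : StrongDual ℝ (StrongDual ℝ Y) =>
    Ψ (φ.comp (e.symm : Y →L[ℝ] X))) hy
  simp only [NormedSpace.dual_def, hΦ'] at h1
  rw [NormedSpace.dual_def]
  have h2 : (φ.comp (e.symm : Y →L[ℝ] X)).comp (e : X →L[ℝ] Y) = φ := by
    ext x; simp
  rw [h2] at h1
  simpa using h1

/-- Reflexivity transfers along a continuous linear equivalence. -/
theorem reflexive_of_equiv (e : X ≃L[ℝ] Y)
    (hX : Function.Surjective (NormedSpace.inclusionInDoubleDual ℝ X)) :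
    Function.Surjective (NormedSpace.inclusionInDoubleDual ℝ Y) :=
  reflexive_of_equiv_symm e.symm hX

end Equiv


section L2Sum

/-- A near-norming vector of the unit ball for a real continuous functional. -/
theorem exists_near_norming {V : Type*} [NormedAddCommGroup V] [NormedSpace ℝ V]
    (f : StrongDual ℝ V) (δ : ℝ) (hδ : 0 < δ) : ∃ u : V, ‖u‖ ≤ 1 ∧ ‖f‖ - δ ≤ f u := by
  obtain ⟨u, hu1, hu2⟩ := f.exists_lt_apply_of_lt_opNorm (r := ‖f‖ - δ) (by linarith)
  rcases le_total 0 (f u) with h | h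
  · refine ⟨u, hu1.le, ?_⟩
    rw [Real.norm_of_nonneg h] at hu2
    exact hu2.le
  · refine ⟨-u, by simpa using hu1.le, ?_⟩
    rw [Real.norm_of_nonpos h] at hu2
    simp only [map_neg]
    linarith

/-- Elementary: `S ≤ a * b` and `b ^ 2 ≤ S` force `S ≤ a ^ 2`. -/
theorem le_sq_of_le_mul_of_sq_le {S a b : ℝ} (hS : 0 ≤ S) (ha : 0 ≤ a) (hb : 0 ≤ b)
    (h1 : S ≤ a * b) (h2 : b ^ 2 ≤ S) : S ≤ a ^ 2 := by
  rcases hS.eq_or_lt with h0 | hpos
  · rw [← h0]; positivity
  · have h3 : S * S ≤ a ^ 2 * S := by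
      calc S * S ≤ (a * b) * (a * b) := mul_le_mul h1 h1 hS (by positivity)
        _ = a ^ 2 * b ^ 2 := by ring
        _ ≤ a ^ 2 * S := by gcongr
    exact le_of_mul_le_mul_right h3 hpos

variable {ι : Type*} (X : ι → Type*) [∀ i, NormedAddCommGroup (X i)]
  [∀ i, NormedSpace ℝ (X i)]

/-- The natural map from the `ℓ²`-sum of the duals into the dual of the `ℓ²`-sum. -/
noncomputable def l2DualMap :
    lp (fun i => StrongDual ℝ (X i)) 2 →L[ℝ] StrongDual ℝ (lp X 2) :=
  lp.dualPairing 2 2 (fun i => ContinuousLinearMap.id ℝ (StrongDual ℝ (X i))) (K := 1)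
    (fun _ => by simpa using ContinuousLinearMap.norm_id_le)

theorem l2DualMap_apply (ψ : lp (fun i => StrongDual ℝ (X i)) 2) (y : lp X 2) :
    l2DualMap X ψ y = ∑' i, ψ i (y i) := rfl

theorem norm_l2DualMap_le : ‖l2DualMap X‖ ≤ 1 := by
  have := lp.norm_dualPairing (p := 2) (q := 2)
    (fun i => ContinuousLinearMap.id ℝ (StrongDual ℝ (X i))) (K := 1)
    (fun _ => by simpa using ContinuousLinearMap.norm_id_le)
  unfold l2DualMap
  simpa using this

theorem norm_l2DualMap_apply_le (ψ : lp (fun i => StrongDual ℝ (X i)) 2) :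
    ‖l2DualMap X ψ‖ ≤ ‖ψ‖ := by
  calc ‖l2DualMap X ψ‖ ≤ ‖l2DualMap X‖ * ‖ψ‖ := (l2DualMap X).le_opNorm _
    _ ≤ 1 * ‖ψ‖ := by gcongr; exact norm_l2DualMap_le X
    _ = ‖ψ‖ := one_mul _

theorem l2DualMap_single [DecidableEq ι] (i : ι) (g : StrongDual ℝ (X i)) (y : lp X 2) :
    l2DualMap X (lp.single 2 i g) y = g (y i) := by
  rw [l2DualMap_apply, tsum_eq_single i]
  · simp
  · intro j hj
    simp [lp.single_apply, Pi.single_eq_of_ne hj]

/-- The coordinate functionals of a functional on the `ℓ²`-sum are square-summable, with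
square sum at most `‖φ‖ ^ 2`. -/
theorem l2_dual_coord_sq_sum_le [DecidableEq ι] (φ : StrongDual ℝ (lp X 2)) (s : Finset ι) :
    ∑ i ∈ s, ‖φ.comp (lp.singleContinuousLinearMap ℝ X 2 i)‖ ^ 2 ≤ ‖φ‖ ^ 2 := by
  have h2 : (0 : ℝ) < (2 : ℝ≥0∞).toReal := by simp
  have h2' : (2 : ℝ≥0∞).toReal = 2 := by simp
  set c : (i : ι) → StrongDual ℝ (X i) := fun i => φ.comp (lp.singleContinuousLinearMap ℝ X 2 i) with hc
  set S : ℝ := ∑ i ∈ s, ‖c i‖ ^ 2 with hS
  have hS0 : 0 ≤ S := Finset.sum_nonneg fun i _ => by positivity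
  have key : S ≤ ‖φ‖ * Real.sqrt S := by
    refine le_of_forall_pos_le_add fun ε hε => ?_
    set C : ℝ := ∑ i ∈ s, ‖c i‖ with hC
    have hC0 : 0 ≤ C := Finset.sum_nonneg fun i _ => norm_nonneg _
    set δ : ℝ := ε / (C + 1) with hδ
    have hδ0 : 0 < δ := by positivity
    choose u hu1 hu2 using fun i => exists_near_norming (c i) δ hδ0
    set y : lp X 2 := ∑ i ∈ s, lp.single 2 i (‖c i‖ • u i) with hy
    have hy2 : ‖y‖ ^ 2 ≤ S := by
      have h := lp.norm_sum_single h2 (fun i => ‖c i‖ • u i) s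
      rw [h2'] at h
      simp only [Real.rpow_two] at h
      rw [hy, h]
      refine Finset.sum_le_sum fun i _ => ?_
      rw [norm_smul, norm_norm]
      have : ‖c i‖ * ‖u i‖ ≤ ‖c i‖ * 1 := by gcongr; exact hu1 i
      rw [mul_one] at this
      exact pow_le_pow_left₀ (by positivity) this 2
    have hyS : ‖y‖ ≤ Real.sqrt S := Real.le_sqrt_of_sq_le hy2
    have hφy : φ y = ∑ i ∈ s, ‖c i‖ * c i (u i) := by
      rw [hy, map_sum]
      refine Finset.sum_congr rfl fun i _ => ?_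
      simp [hc]
    have hlow : S - δ * C ≤ φ y := by
      rw [hφy, hS, hC, Finset.mul_sum, ← Finset.sum_sub_distrib]
      refine Finset.sum_le_sum fun i _ => ?_
      have := hu2 i
      nlinarith [norm_nonneg (c i)]
    have hup : φ y ≤ ‖φ‖ * Real.sqrt S := by
      calc φ y ≤ ‖φ y‖ := Real.le_norm_self _
        _ ≤ ‖φ‖ * ‖y‖ := φ.le_opNorm _
        _ ≤ ‖φ‖ * Real.sqrt S := by gcongr
    have hδC : δ * C ≤ ε := by
      rw [hδ, div_mul_eq_mul_div, div_le_iff₀ (by positivity)]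
      nlinarith
    linarith
  exact le_sq_of_le_mul_of_sq_le hS0 (norm_nonneg φ) (Real.sqrt_nonneg _) key
    (by rw [Real.sq_sqrt hS0])

/-- The `ℓ²`-sum of reflexive real normed spaces is reflexive. -/
theorem lp_two_reflexive
    (h : ∀ i, Function.Surjective (NormedSpace.inclusionInDoubleDual ℝ (X i))) :
    Function.Surjective (NormedSpace.inclusionInDoubleDual ℝ (lp X 2)) := by
  classical
  intro Φ
  have h2 : (0 : ℝ) < (2 : ℝ≥0∞).toReal := by simp
  have h2' : (2 : ℝ≥0∞).toReal = 2 := by simp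
  have h2top : (2 : ℝ≥0∞) ≠ ⊤ := by simp
  -- the coordinates of `Φ`
  have hex : ∀ i, ∃ x : X i, ∀ g : StrongDual ℝ (X i),
      Φ (l2DualMap X (lp.single 2 i g)) = g x := by
    intro i
    let Φi : StrongDual ℝ (StrongDual ℝ (X i)) :=
      Φ.comp ((l2DualMap X).comp
        (lp.singleContinuousLinearMap ℝ (fun i => StrongDual ℝ (X i)) 2 i))
    obtain ⟨x, hx⟩ := h i Φi
    refine ⟨x, fun g => ?_⟩
    have h1 := congrArg (fun Ψ : StrongDual ℝ (StrongDual ℝ (X i)) => Ψ g) hx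
    simp only [NormedSpace.dual_def] at h1
    exact h1.symm
  choose x hx using hex
  -- the coordinates are square summable
  have hsum : ∀ s : Finset ι, ∑ i ∈ s, ‖x i‖ ^ 2 ≤ ‖Φ‖ ^ 2 := by
    intro s
    choose g hg1 hg2 using fun i => exists_dual_vector'' ℝ (x i)
    set ψ : lp (fun i => StrongDual ℝ (X i)) 2 :=
      ∑ i ∈ s, lp.single 2 i (‖x i‖ • g i) with hψ
    set S : ℝ := ∑ i ∈ s, ‖x i‖ ^ 2 with hS
    have hS0 : 0 ≤ S := Finset.sum_nonneg fun i _ => by positivity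
    have e1 : Φ (l2DualMap X ψ) = S := by
      rw [hψ, map_sum, map_sum]
      refine Finset.sum_congr rfl fun i _ => ?_
      rw [hx]
      have := hg2 i
      simp only [RCLike.ofReal_real_eq_id, id_eq] at this
      simp [this, sq]
    have e2 : ‖ψ‖ ^ 2 ≤ S := by
      have hn := lp.norm_sum_single h2 (fun i => ‖x i‖ • g i) s
      rw [h2'] at hn
      simp only [Real.rpow_two] at hn
      rw [hψ, hn]
      refine Finset.sum_le_sum fun i _ => ?_
      rw [norm_smul, norm_norm]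
      have : ‖x i‖ * ‖g i‖ ≤ ‖x i‖ * 1 := by gcongr; exact hg1 i
      rw [mul_one] at this
      exact pow_le_pow_left₀ (by positivity) this 2
    have e3 : S ≤ ‖Φ‖ * ‖ψ‖ := by
      rw [← e1]
      calc Φ (l2DualMap X ψ) ≤ ‖Φ (l2DualMap X ψ)‖ := Real.le_norm_self _
        _ ≤ ‖Φ‖ * ‖l2DualMap X ψ‖ := Φ.le_opNorm _
        _ ≤ ‖Φ‖ * ‖ψ‖ := by gcongr; exact norm_l2DualMap_apply_le X ψ
    exact le_sq_of_le_mul_of_sq_le hS0 (norm_nonneg Φ) (norm_nonneg ψ) e3 e2
  have hmem : Memℓp x 2 := by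
    refine memℓp_gen' (C := ‖Φ‖ ^ 2) fun s => ?_
    rw [h2']
    simpa only [Real.rpow_two] using hsum s
  refine ⟨⟨x, hmem⟩, ?_⟩
  ext φ
  rw [NormedSpace.dual_def]
  -- the coordinates of `φ`
  have hφmem : Memℓp (fun i => φ.comp (lp.singleContinuousLinearMap ℝ X 2 i)) 2 := by
    refine memℓp_gen' (C := ‖φ‖ ^ 2) fun s => ?_
    rw [h2']
    simpa only [Real.rpow_two] using l2_dual_coord_sq_sum_le X φ s
  set ψ : lp (fun i => StrongDual ℝ (X i)) 2 :=
    ⟨fun i => φ.comp (lp.singleContinuousLinearMap ℝ X 2 i), hφmem⟩ with hψ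
  have hψi : ∀ i (z : X i), ψ i z = φ (lp.single 2 i z) := fun i z => rfl
  have hφ : φ = l2DualMap X ψ := by
    ext y
    rw [l2DualMap_apply]
    simp only [hψi]
    exact ((φ.hasSum (lp.hasSum_single h2top y)).tsum_eq).symm
  have h3 : HasSum (fun i => Φ (l2DualMap X (lp.single 2 i (ψ i)))) (Φ (l2DualMap X ψ)) :=
    (Φ.comp (l2DualMap X)).hasSum (lp.hasSum_single h2top ψ)
  simp only [hx] at h3
  rw [hφ, ← h3.tsum_eq, l2DualMap_apply]

end L2Sum

end Crest.Agent.R125
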