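import Mathlib
import Crest.Prelude.Def_TreePotentials
import Crest.Agent.R125_PotDefs
import Crest.Agent.R125_PotTests
import Crest.Agent.R125_Reflexive

/-!
Row 125 (S0166), work package E4: the summand `Ek k` (closed span, in the global model, of the
coordinate vectors of the vertices of depth at most `k`) is isomorphic to a Hilbert space, hence
reflexive.  OWNER: helper13.

The isomorphism is `Tk k : ℓ²(vertices of depth ≤ k) → lp (fun _ : PotentialTest .global => ℝ) ⊤`,
`(Tk k c) f = Σ_s c s * f s`; it has norm at most `1` (global tests are square summable with total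
at most `1`) and is bounded below by `1 / √(k+1)` (the family `c / (√(k+1) ‖c‖)` is a global test:
a root path meets at most `k + 1` vertices of depth at most `k`).
-/

set_option autoImplicit false

open scoped ENNReal

namespace Crest.Agent.R125

open Crest.AnalysisR Crest.AnalysisR.TreePotential

/-- Vertices of depth at most `k`. -/
abbrev Vk (k : ℕ) : Type := {s : List ℕ // s.length ≤ k}

/-- The Hilbert space `ℓ²` over the vertices of depth at most `k`. -/
abbrev Hk (k : ℕ) : Type := lp (fun _ : Vk k => ℝ) 2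

theorem sum_norm_rpow_two_eq {ι : Type*} (g : ι → ℝ) (S : Finset ι) :
    ∑ i ∈ S, ‖g i‖ ^ (2 : ℝ≥0∞).toReal = ∑ i ∈ S, g i ^ 2 := by
  refine Finset.sum_congr rfl fun i _ => ?_
  rw [ENNReal.toReal_ofNat, Real.rpow_two, Real.norm_eq_abs, sq_abs]

theorem hk_sum_sq_le {k : ℕ} (g : Hk k) (S : Finset (Vk k)) : ∑ i ∈ S, g i ^ 2 ≤ ‖g‖ ^ 2 := by
  have h := lp.sum_rpow_le_norm_rpow (p := 2) (by norm_num) g S
  rw [sum_norm_rpow_two_eq] at h
  simpa [ENNReal.toReal_ofNat, Real.rpow_two] using h

theorem global_sum_sq_le (f : PotentialTest .global) (A : Finset (List ℕ)) :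
    ∑ u ∈ A, f.1 u ^ 2 ≤ 1 := f.2.2 A

/-- The restriction of a global test to the vertices of depth at most `k`, as an element of
`ℓ²`. -/
noncomputable def restr (k : ℕ) (f : PotentialTest .global) : Hk k :=
  ⟨fun s => f.1 s.1, memℓp_gen' (C := 1) (fun S => by
    rw [sum_norm_rpow_two_eq]
    have h := global_sum_sq_le f (S.map ⟨Subtype.val, Subtype.val_injective⟩)
    rwa [Finset.sum_map] at h)⟩

theorem restr_apply (k : ℕ) (f : PotentialTest .global) (s : Vk k) : restr k f s = f.1 s.1 := rfl

theorem norm_restr_le (k : ℕ) (f : PotentialTest .global) : ‖restr k f‖ ≤ 1 := by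
  refine lp.norm_le_of_forall_sum_le (by norm_num) zero_le_one (fun S => ?_)
  rw [sum_norm_rpow_two_eq, Real.one_rpow]
  have h := global_sum_sq_le f (S.map ⟨Subtype.val, Subtype.val_injective⟩)
  rwa [Finset.sum_map] at h

theorem abs_inner_restr_le (k : ℕ) (f : PotentialTest .global) (c : Hk k) :
    ‖inner ℝ (restr k f) c‖ ≤ ‖c‖ :=
  (norm_inner_le_norm _ _).trans (mul_le_of_le_one_left (norm_nonneg _) (norm_restr_le k f))

/-- The map `c ↦ (f ↦ Σ_s c s * f s)`. -/
noncomputable def Tk (k : ℕ) : Hk k →L[ℝ] lp (fun _ : PotentialTest .global => ℝ) ⊤ :=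
  LinearMap.mkContinuous
    { toFun := fun c => ⟨fun f => inner ℝ (restr k f) c, memℓp_infty ⟨‖c‖, by
        rintro _ ⟨f, rfl⟩
        exact abs_inner_restr_le k f c⟩⟩
      map_add' := fun c d => by
        apply lp.ext
        funext f
        show inner ℝ (restr k f) (c + d) = inner ℝ (restr k f) c + inner ℝ (restr k f) d
        rw [inner_add_right]
      map_smul' := fun r c => by
        apply lp.ext
        funext f
        show inner ℝ (restr k f) (r • c) = r • inner ℝ (restr k f) c
        rw [inner_smul_right, smul_eq_mul] }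
    1 (fun c => by
      rw [one_mul]
      exact lp.norm_le_of_forall_le (norm_nonneg _) (fun f => abs_inner_restr_le k f c))

theorem Tk_apply (k : ℕ) (c : Hk k) (f : PotentialTest .global) :
    (Tk k c) f = inner ℝ (restr k f) c := rfl

theorem Tk_single (k : ℕ) (s : Vk k) :
    Tk k (lp.single 2 s (1 : ℝ)) = coordVector .global s.1 := by
  classical
  apply lp.ext
  funext f
  rw [Tk_apply, lp.inner_single_right, restr_apply]
  simp

/-! ### The lower bound -/

/-- The potential is the sum of the coefficients over the suffixes. -/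
theorem pathPotential_eq_sum_tails (φ : List ℕ → ℝ) (v : List ℕ) :
    pathPotential φ v = ∑ u ∈ v.tails.toFinset, φ u := by
  induction v with
  | nil => simp [pathPotential]
  | cons a v ih =>
    have hnot : a :: v ∉ v.tails.toFinset := by
      rw [List.mem_toFinset, List.mem_tails]
      intro h
      have := h.length_le
      simp at this
    rw [pathPotential, ih, List.tails_cons, List.toFinset_cons, Finset.sum_insert hnot]
    ring

/-- A root path meets at most `k + 1` vertices of depth at most `k`. -/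
theorem card_tails_filter_le (v : List ℕ) (k : ℕ) :
    (v.tails.toFinset.filter fun u => u.length ≤ k).card ≤ k + 1 := by
  have h := Finset.card_le_card_of_injOn (s := v.tails.toFinset.filter fun u => u.length ≤ k)
    (t := Finset.range (k + 1)) (fun u => u.length) ?_ ?_
  · rwa [Finset.card_range] at h
  · intro u hu
    rw [Finset.mem_coe, Finset.mem_filter] at hu
    rw [Finset.mem_coe, Finset.mem_range]
    exact Nat.lt_succ_of_le hu.2
  · intro u hu u' hu' hlen
    rw [Finset.mem_coe, Finset.mem_filter, List.mem_toFinset, List.mem_tails] at hu hu'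
    have e1 := List.suffix_iff_eq_drop.mp hu.1
    have e2 := List.suffix_iff_eq_drop.mp hu'.1
    simp only at hlen
    rw [e1, e2, hlen]

/-- The extension by zero of a family on the vertices of depth at most `k`. -/
noncomputable def extZero (k : ℕ) (g : Vk k → ℝ) : List ℕ → ℝ :=
  fun u => if h : u.length ≤ k then g ⟨u, h⟩ else 0

theorem extZero_apply (k : ℕ) (g : Vk k → ℝ) (s : Vk k) : extZero k g s.1 = g s := by
  unfold extZero
  rw [dif_pos s.2]

theorem extZero_of_not (k : ℕ) (g : Vk k → ℝ) {u : List ℕ} (h : ¬ u.length ≤ k) :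
    extZero k g u = 0 := by
  unfold extZero
  rw [dif_neg h]

theorem sum_extZero_sq_le (k : ℕ) (g : Hk k) (A : Finset (List ℕ)) :
    ∑ u ∈ A, extZero k g u ^ 2 ≤ ‖g‖ ^ 2 := by
  classical
  have h1 : ∑ u ∈ A.filter (fun u => u.length ≤ k), extZero k g u ^ 2 =
      ∑ u ∈ A, extZero k g u ^ 2 := by
    refine Finset.sum_filter_of_ne (fun u _ hne => ?_)
    by_contra hlen
    exact hne (by rw [extZero_of_not k g hlen]; ring)
  rw [← h1, ← Finset.sum_subtype_eq_sum_filter]
  have h2 : ∀ s ∈ A.subtype (fun u : List ℕ => u.length ≤ k),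
      extZero k g (s : List ℕ) ^ 2 = g s ^ 2 :=
    fun s _ => by rw [extZero_apply]
  rw [Finset.sum_congr rfl h2]
  exact hk_sum_sq_le g _

/-- A family on the vertices of depth at most `k` whose `ℓ²`-norm is at most `1 / √(k+1)`,
extended by zero, is a test of the global model. -/
theorem isTest_extZero (k : ℕ) (g : Hk k) (hg : ‖g‖ ^ 2 * (k + 1) ≤ 1) :
    IsTest .global (extZero k g) := by
  have hk : (0 : ℝ) < (k : ℝ) + 1 := by positivity
  have hg1 : ‖g‖ ^ 2 ≤ 1 := by nlinarith [sq_nonneg ‖g‖]
  refine ⟨fun v => ?_, fun A => (sum_extZero_sq_le k g A).trans hg1⟩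
  rw [pathPotential_eq_sum_tails]
  set S := v.tails.toFinset.filter (fun u => u.length ≤ k) with hS
  have h1 : ∑ u ∈ S, extZero k g u = ∑ u ∈ v.tails.toFinset, extZero k g u := by
    refine Finset.sum_filter_of_ne (fun u _ hne => ?_)
    by_contra hlen
    exact hne (extZero_of_not k g hlen)
  rw [← h1]
  have hcs := sq_sum_le_card_mul_sum_sq (s := S) (f := fun u => extZero k g u)
  have hcard : (S.card : ℝ) ≤ k + 1 := by exact_mod_cast card_tails_filter_le v k
  have hsum := sum_extZero_sq_le k g S
  have hsum0 : 0 ≤ ∑ u ∈ S, extZero k g u ^ 2 := Finset.sum_nonneg fun _ _ => sq_nonneg _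
  have h2 : (∑ u ∈ S, extZero k g u) ^ 2 ≤ 1 := by
    calc (∑ u ∈ S, extZero k g u) ^ 2 ≤ S.card * ∑ u ∈ S, extZero k g u ^ 2 := hcs
      _ ≤ (k + 1) * ‖g‖ ^ 2 := mul_le_mul hcard hsum hsum0 hk.le
      _ ≤ 1 := by linarith
  exact (sq_le_one_iff_abs_le_one _).mp h2

/-- The lower bound: `‖c‖ ≤ √(k+1) ‖Tk k c‖`. -/
theorem norm_le_sqrt_mul_norm_Tk (k : ℕ) (c : Hk k) :
    ‖c‖ ≤ Real.sqrt (k + 1) * ‖Tk k c‖ := by
  have hk : (0 : ℝ) < (k : ℝ) + 1 := by positivity
  have hsk : 0 < Real.sqrt (k + 1) := Real.sqrt_pos.mpr hk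
  by_cases hc : c = 0
  · rw [hc, norm_zero]
    positivity
  have hcn : 0 < ‖c‖ := norm_pos_iff.mpr hc
  set r : ℝ := 1 / (Real.sqrt (k + 1) * ‖c‖) with hr
  have hr0 : 0 < r := by positivity
  have hgnorm : ‖r • c‖ ^ 2 * (k + 1) ≤ 1 := by
    rw [norm_smul, Real.norm_eq_abs, abs_of_pos hr0, hr]
    have : (1 / (Real.sqrt (k + 1) * ‖c‖) * ‖c‖) ^ 2 * ((k : ℝ) + 1) =
        ((k : ℝ) + 1) / Real.sqrt (k + 1) ^ 2 := by
      field_simp
    rw [this, Real.sq_sqrt hk.le, div_self hk.ne']
  set φ : PotentialTest .global := ⟨extZero k (r • c), isTest_extZero k (r • c) hgnorm⟩ with hφ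
  have hrestr : restr k φ = r • c := by
    apply lp.ext
    funext s
    rw [restr_apply]
    exact extZero_apply k _ s
  have hval : (Tk k c) φ = ‖c‖ / Real.sqrt (k + 1) := by
    rw [Tk_apply, hrestr, inner_smul_left, real_inner_self_eq_norm_sq, hr]
    simp only [conj_trivial]
    field_simp
  have hle : (Tk k c) φ ≤ ‖Tk k c‖ := by
    have := lp.norm_apply_le_norm ENNReal.top_ne_zero (Tk k c) φ
    exact (le_abs_self _).trans (by rwa [Real.norm_eq_abs] at this)
  rw [hval, div_le_iff₀ hsk] at hle
  linarith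

/-! ### The range of `Tk k` is `Ek k` -/

theorem Tk_injective (k : ℕ) : Function.Injective (Tk k) := by
  rw [injective_iff_map_eq_zero]
  intro c hc
  have h := norm_le_sqrt_mul_norm_Tk k c
  rw [hc, norm_zero, mul_zero] at h
  exact norm_le_zero_iff.mp h

theorem isClosed_range_Tk (k : ℕ) : IsClosed (Set.range (Tk k)) := by
  have hanti : AntilipschitzWith (Real.toNNReal (Real.sqrt (k + 1))) (Tk k) :=
    AddMonoidHomClass.antilipschitz_of_bound (Tk k) (fun c => by
      rw [Real.coe_toNNReal _ (Real.sqrt_nonneg _)]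
      exact norm_le_sqrt_mul_norm_Tk k c)
  exact hanti.isClosed_range (Tk k).uniformContinuous

theorem Tk_mem_Ek (k : ℕ) (c : Hk k) : Tk k c ∈ Ek k := by
  classical
  have hsum := (Tk k).hasSum (lp.hasSum_single (by norm_num) c)
  rw [HasSum, SummationFilter.unconditional_filter] at hsum
  refine (isClosed_potSpace .global _).mem_of_tendsto hsum (Filter.Eventually.of_forall fun S => ?_)
  refine Submodule.sum_mem _ (fun s _ => ?_)
  have h1 : (lp.single 2 s (c s) : Hk k) = c s • (lp.single 2 s (1 : ℝ) : Hk k) := by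
    rw [← lp.single_smul, smul_eq_mul, mul_one]
  show (Tk k) (lp.single 2 s (c s)) ∈ Ek k
  rw [h1, map_smul, Tk_single]
  exact Submodule.smul_mem _ _ (coordVector_mem_potSpace .global s.2)

theorem range_Tk (k : ℕ) : (Tk k).range = Ek k := by
  apply le_antisymm
  · rintro _ ⟨c, rfl⟩
    exact Tk_mem_Ek k c
  · refine Submodule.topologicalClosure_minimal _ ?_ (isClosed_range_Tk k)
    rw [Submodule.span_le]
    rintro _ ⟨s, hs, rfl⟩
    exact ⟨lp.single 2 ⟨s, hs⟩ 1, Tk_single k ⟨s, hs⟩⟩

/-- Any submodule equal to the range of `Tk k` is reflexive. -/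
theorem reflexive_of_range_Tk_eq (k : ℕ)
    (S : Submodule ℝ (lp (fun _ : PotentialTest .global => ℝ) ⊤))
    (hS : (Tk k).range = S) :
    Function.Surjective (NormedSpace.inclusionInDoubleDual ℝ S) := by
  subst hS
  exact reflexive_of_equiv ((Tk k).equivRange (Tk_injective k) (isClosed_range_Tk k))
    (reflexive_of_hilbert (Hk k))

/-- **The summand `Ek k` is reflexive** (it is isomorphic to a Hilbert space). -/
theorem ek_reflexive (k : ℕ) : IsReflexiveSpace (Ek k) :=
  reflexive_of_range_Tk_eq k _ (range_Tk k)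

end Crest.Agent.R125
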