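import Mathlib
import Crest.Prelude.Def_AsymptoticConvexity
import Crest.Agent.R125_AUC

/-!
# Row 125: the homogeneous midpoint inequality and its stability under `ℓ²`-sums

`HomMid V` is the homogeneous ("all scales at once") form of the averaged midpoint inequality
`‖x + y‖ + ‖x - y‖ ≥ 2 √(‖x‖² + ‖y‖²/4) - η` for `y` in a closed finite-codimensional subspace
depending only on `x` and `η`.  It passes to subspaces (more generally along linear isometric
embeddings), to `ℓ²`-sums (`lp X 2`), and implies the three moduli conjuncts of S0166 as well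
as the midpoint conjunct of S0168.
-/

set_option autoImplicit false

namespace Crest.Agent.R125

open Crest Crest.AnalysisR

/-- Homogeneous midpoint property of a real normed space: for every centre `x` and every
`η > 0` there is a closed finite-codimensional subspace `S` such that
`2 √(‖x‖² + ‖y‖²/4) - η ≤ ‖x + y‖ + ‖x - y‖` for every `y ∈ S`. -/
def HomMid (V : Type*) [NormedAddCommGroup V] [NormedSpace ℝ V] : Prop :=
  ∀ (x : V) (η : ℝ), 0 < η → ∃ S : Submodule ℝ V, IsClosed (S : Set V) ∧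
    FiniteDimensional ℝ (V ⧸ S) ∧
    ∀ y ∈ S, 2 * Real.sqrt (‖x‖ ^ 2 + ‖y‖ ^ 2 / 4) - η ≤ ‖x + y‖ + ‖x - y‖

/-- The quotient by the kernel of a linear map into a finite-dimensional space is
finite-dimensional. -/
theorem finiteDimensional_quot_ker {V W : Type*} [AddCommGroup V] [Module ℝ V]
    [AddCommGroup W] [Module ℝ W] [FiniteDimensional ℝ W] (L : V →ₗ[ℝ] W) :
    FiniteDimensional ℝ (V ⧸ LinearMap.ker L) :=
  L.quotKerEquivRange.symm.finiteDimensional

/-- The preimage of a finite-codimensional subspace under a linear map is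
finite-codimensional. -/
theorem finiteDimensional_quot_comap {V W : Type*} [AddCommGroup V] [Module ℝ V]
    [AddCommGroup W] [Module ℝ W] (f : V →ₗ[ℝ] W) (S : Submodule ℝ W)
    (hf : FiniteDimensional ℝ (W ⧸ S)) : FiniteDimensional ℝ (V ⧸ S.comap f) := by
  have h : S.comap f = LinearMap.ker (S.mkQ ∘ₗ f) := by
    rw [LinearMap.ker_comp, Submodule.ker_mkQ]
  rw [h]
  exact finiteDimensional_quot_ker _

/-- [Cof] preimages: the preimage of a closed finite-codimensional subspace under a continuous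
linear map is closed and finite-codimensional. -/
theorem cof_comap {V W : Type*} [NormedAddCommGroup V] [NormedSpace ℝ V]
    [NormedAddCommGroup W] [NormedSpace ℝ W] (f : V →L[ℝ] W) (S : Submodule ℝ W)
    (hc : IsClosed (S : Set W)) (hf : FiniteDimensional ℝ (W ⧸ S)) :
    IsClosed ((S.comap (f : V →ₗ[ℝ] W) : Submodule ℝ V) : Set V) ∧
      FiniteDimensional ℝ (V ⧸ S.comap (f : V →ₗ[ℝ] W)) :=
  ⟨hc.preimage f.continuous, finiteDimensional_quot_comap _ S hf⟩

/-- The homogeneous midpoint property passes backwards along linear isometric embeddings. -/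
theorem HomMid.of_linearIsometry {V W : Type*} [NormedAddCommGroup V] [NormedSpace ℝ V]
    [NormedAddCommGroup W] [NormedSpace ℝ W] (f : W →ₗᵢ[ℝ] V) (h : HomMid V) : HomMid W := by
  intro x η hη
  obtain ⟨S, hc, hf, hS⟩ := h (f x) η hη
  refine ⟨S.comap f.toLinearMap, hc.preimage f.continuous,
    finiteDimensional_quot_comap _ S hf, ?_⟩
  intro y hy
  have h1 := hS (f y) hy
  rw [← map_add, ← map_sub] at h1
  simpa only [LinearIsometry.norm_map] using h1

/-- The homogeneous midpoint property passes to subspaces. -/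
theorem HomMid.submodule {V : Type*} [NormedAddCommGroup V] [NormedSpace ℝ V] (h : HomMid V)
    (W : Submodule ℝ V) : HomMid W :=
  h.of_linearIsometry W.subtypeₗᵢ

/-- The homogeneous midpoint property is invariant under linear isometric equivalences. -/
theorem HomMid.of_linearIsometryEquiv {V W : Type*} [NormedAddCommGroup V] [NormedSpace ℝ V]
    [NormedAddCommGroup W] [NormedSpace ℝ W] (e : V ≃ₗᵢ[ℝ] W) (h : HomMid V) : HomMid W :=
  h.of_linearIsometry e.symm.toLinearIsometry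

/-! ### Finite Minkowski inequalities -/

/-- Minkowski's inequality for finite square sums. -/
theorem sqrt_sum_add_sq_le {ι : Type*} (s : Finset ι) (f g : ι → ℝ) :
    Real.sqrt (∑ i ∈ s, (f i + g i) ^ 2) ≤
      Real.sqrt (∑ i ∈ s, f i ^ 2) + Real.sqrt (∑ i ∈ s, g i ^ 2) := by
  have hf : 0 ≤ ∑ i ∈ s, f i ^ 2 := Finset.sum_nonneg fun i _ => sq_nonneg _
  have hg : 0 ≤ ∑ i ∈ s, g i ^ 2 := Finset.sum_nonneg fun i _ => sq_nonneg _
  have hcs := Real.sum_mul_le_sqrt_mul_sqrt s f g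
  apply Real.sqrt_le_iff.2
  refine ⟨add_nonneg (Real.sqrt_nonneg _) (Real.sqrt_nonneg _), ?_⟩
  have hexp : ∑ i ∈ s, (f i + g i) ^ 2 =
      ∑ i ∈ s, f i ^ 2 + 2 * ∑ i ∈ s, f i * g i + ∑ i ∈ s, g i ^ 2 := by
    rw [Finset.mul_sum, ← Finset.sum_add_distrib, ← Finset.sum_add_distrib]
    exact Finset.sum_congr rfl fun i _ => by ring
  rw [hexp, add_sq, Real.sq_sqrt hf, Real.sq_sqrt hg]
  nlinarith [hcs]

/-- Monotone three-term Minkowski inequality for finite square sums of nonnegative terms. -/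
theorem sqrt_sum_sq_le_of_le {ι : Type*} (s : Finset ι) (u a b e : ι → ℝ)
    (hu : ∀ i ∈ s, 0 ≤ u i) (h : ∀ i ∈ s, u i ≤ a i + b i + e i) :
    Real.sqrt (∑ i ∈ s, u i ^ 2) ≤
      Real.sqrt (∑ i ∈ s, a i ^ 2) + Real.sqrt (∑ i ∈ s, b i ^ 2) +
        Real.sqrt (∑ i ∈ s, e i ^ 2) := by
  have h1 : Real.sqrt (∑ i ∈ s, u i ^ 2) ≤ Real.sqrt (∑ i ∈ s, (a i + b i + e i) ^ 2) := by
    apply Real.sqrt_le_sqrt
    apply Finset.sum_le_sum
    intro i hi
    exact pow_le_pow_left₀ (hu i hi) (h i hi) 2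
  have h2 := sqrt_sum_add_sq_le s (fun i => a i + b i) e
  have h3 := sqrt_sum_add_sq_le s a b
  linarith

/-! ### `ℓ²`-sums -/

/-- The squared norm of an element of `lp X 2` is the sum of the squared norms of its
coordinates. -/
theorem lp_two_hasSum_sq {ι : Type*} {X : ι → Type*} [∀ i, NormedAddCommGroup (X i)]
    (f : lp X 2) : HasSum (fun i => ‖f i‖ ^ 2) (‖f‖ ^ 2) := by
  have h := lp.hasSum_norm (p := 2) (by norm_num) f
  simpa using h

/-- Elementary bound: `2 √(p² + q²/4) ≤ 2 p + q` for nonnegative `p`, `q`. -/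
theorem two_sqrt_le_add {p q : ℝ} (hp : 0 ≤ p) (hq : 0 ≤ q) :
    2 * Real.sqrt (p ^ 2 + q ^ 2 / 4) ≤ 2 * p + q := by
  have h : Real.sqrt (p ^ 2 + q ^ 2 / 4) ≤ p + q / 2 := by
    apply Real.sqrt_le_iff.2
    refine ⟨by positivity, ?_⟩
    nlinarith [mul_nonneg hp hq]
  linarith

/-- **The homogeneous midpoint property is stable under `ℓ²`-sums.** -/
theorem lp_two_homMid {ι : Type*} (X : ι → Type*) [∀ i, NormedAddCommGroup (X i)]
    [∀ i, NormedSpace ℝ (X i)] (h : ∀ i, HomMid (X i)) : HomMid (lp X 2) := by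
  classical
  intro x η hη
  have hx := lp_two_hasSum_sq x
  -- a finite set `K` of coordinates carrying almost all of `x`
  set δ : ℝ := η ^ 2 / 8 with hδ
  have hδpos : 0 < δ := by positivity
  obtain ⟨K, hK⟩ : ∃ K : Finset ι, ‖x‖ ^ 2 - δ < ∑ i ∈ K, ‖x i‖ ^ 2 :=
    (hx.eventually (lt_mem_nhds (show ‖x‖ ^ 2 - δ < ‖x‖ ^ 2 by linarith))).exists
  set c : ℝ := (K.card : ℝ) + 1 with hc
  have hcpos : 1 ≤ c := by
    have : (0 : ℝ) ≤ (K.card : ℝ) := Nat.cast_nonneg _
    linarith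
  set η' : ℝ := η / (2 * c) with hη'
  have hη'pos : 0 < η' := by positivity
  -- the subspaces on the coordinates in `K`
  choose S hSc hSf hS using fun i => h i (x i) η' hη'pos
  have : ∀ k : K, FiniteDimensional ℝ (X k ⧸ S k) := fun k => hSf k
  let L : lp X 2 →ₗ[ℝ] ((k : K) → X k ⧸ S k) :=
    LinearMap.pi fun k => (S k).mkQ ∘ₗ lp.evalₗ (𝕜 := ℝ) X 2 k
  have hmem : ∀ y : lp X 2, y ∈ LinearMap.ker L ↔ ∀ k ∈ K, y k ∈ S k := by
    intro y
    rw [LinearMap.mem_ker]
    constructor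
    · intro hy k hk
      have := congrFun hy ⟨k, hk⟩
      simpa [L] using this
    · intro hy
      funext k
      simpa [L] using hy k k.2
  refine ⟨LinearMap.ker L, ?_, finiteDimensional_quot_ker L, ?_⟩
  · -- closedness
    have : ((LinearMap.ker L : Submodule ℝ (lp X 2)) : Set (lp X 2)) =
        ⋂ k ∈ K, (fun y : lp X 2 => y k) ⁻¹' (S k : Set (X k)) := by
      ext y
      simp only [SetLike.mem_coe, hmem, Set.mem_iInter, Set.mem_preimage]
    rw [this]
    refine isClosed_biInter fun k _ => (hSc k).preimage ?_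
    exact (lp.evalCLM ℝ X 2 k).continuous
  · intro y hy
    rw [hmem] at hy
    have hyS := lp_two_hasSum_sq y
    have hp := lp_two_hasSum_sq (x + y)
    have hm := lp_two_hasSum_sq (x - y)
    -- the bound on every finite set containing `K`
    have hfin : ∀ s : Finset ι, K ⊆ s →
        2 * Real.sqrt (∑ i ∈ s, ‖x i‖ ^ 2 + (∑ i ∈ s, ‖y i‖ ^ 2) / 4) ≤
          ‖x + y‖ + ‖x - y‖ + η := by
      intro s hKs
      set u : ι → ℝ := fun i => 2 * Real.sqrt (‖x i‖ ^ 2 + ‖y i‖ ^ 2 / 4) with hu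
      set a : ι → ℝ := fun i => ‖x i + y i‖ with ha
      set b : ι → ℝ := fun i => ‖x i - y i‖ with hb
      set e : ι → ℝ := fun i => if i ∈ K then η' else 2 * ‖x i‖ with he
      have hmink := sqrt_sum_sq_le_of_le s u a b e
        (fun i _ => by positivity)
        (by
          intro i _
          simp only [hu, ha, hb, he]
          by_cases hi : i ∈ K
          · rw [if_pos hi]
            have := hS i (y i) (hy i hi)
            linarith
          · rw [if_neg hi]
            have h1 := two_sqrt_le_add (norm_nonneg (x i)) (norm_nonneg (y i))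
            have h2 : ‖y i‖ ≤ ‖x i + y i‖ + ‖x i - y i‖ := by
              have h3 : ‖(2 : ℝ) • y i‖ ≤ ‖x i + y i‖ + ‖x i - y i‖ := by
                have : (2 : ℝ) • y i = (x i + y i) - (x i - y i) := by
                  rw [two_smul]; abel
                rw [this]
                exact norm_sub_le _ _
              rw [norm_smul] at h3
              have h4 : ‖(2 : ℝ)‖ = 2 := by norm_num
              rw [h4] at h3
              nlinarith [norm_nonneg (y i)]
            linarith)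
      -- the four square sums
      have hU : Real.sqrt (∑ i ∈ s, u i ^ 2) =
          2 * Real.sqrt (∑ i ∈ s, ‖x i‖ ^ 2 + (∑ i ∈ s, ‖y i‖ ^ 2) / 4) := by
        have : ∑ i ∈ s, u i ^ 2 =
            2 ^ 2 * (∑ i ∈ s, ‖x i‖ ^ 2 + (∑ i ∈ s, ‖y i‖ ^ 2) / 4) := by
          rw [Finset.sum_div, ← Finset.sum_add_distrib, Finset.mul_sum]
          refine Finset.sum_congr rfl fun i _ => ?_
          simp only [hu]
          rw [mul_pow, Real.sq_sqrt (by positivity)]
        rw [this, Real.sqrt_mul (by norm_num), Real.sqrt_sq (by norm_num)]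
      have hA : Real.sqrt (∑ i ∈ s, a i ^ 2) ≤ ‖x + y‖ := by
        have h1 : ∑ i ∈ s, a i ^ 2 ≤ ‖x + y‖ ^ 2 :=
          sum_le_hasSum s (fun i _ => sq_nonneg _) hp
        calc Real.sqrt (∑ i ∈ s, a i ^ 2) ≤ Real.sqrt (‖x + y‖ ^ 2) := Real.sqrt_le_sqrt h1
          _ = ‖x + y‖ := Real.sqrt_sq (norm_nonneg _)
      have hB : Real.sqrt (∑ i ∈ s, b i ^ 2) ≤ ‖x - y‖ := by
        have h1 : ∑ i ∈ s, b i ^ 2 ≤ ‖x - y‖ ^ 2 :=
          sum_le_hasSum s (fun i _ => sq_nonneg _) hm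
        calc Real.sqrt (∑ i ∈ s, b i ^ 2) ≤ Real.sqrt (‖x - y‖ ^ 2) := Real.sqrt_le_sqrt h1
          _ = ‖x - y‖ := Real.sqrt_sq (norm_nonneg _)
      have hE : Real.sqrt (∑ i ∈ s, e i ^ 2) ≤ η := by
        apply Real.sqrt_le_iff.2
        refine ⟨hη.le, ?_⟩
        have hsplit : ∑ i ∈ s, e i ^ 2 =
            ∑ i ∈ K, e i ^ 2 + ∑ i ∈ s \ K, e i ^ 2 := by
          rw [← Finset.sum_union (Finset.disjoint_sdiff), Finset.union_sdiff_of_subset hKs]
        have hK1 : ∑ i ∈ K, e i ^ 2 = (K.card : ℝ) * η' ^ 2 := by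
          rw [Finset.sum_congr rfl (fun i hi => by simp only [he]; rw [if_pos hi]),
            Finset.sum_const, nsmul_eq_mul]
        have hK2 : ∑ i ∈ s \ K, e i ^ 2 = 4 * ∑ i ∈ s \ K, ‖x i‖ ^ 2 := by
          rw [Finset.mul_sum]
          refine Finset.sum_congr rfl fun i hi => ?_
          simp only [he]
          rw [if_neg (Finset.mem_sdiff.1 hi).2]
          ring
        have hK3 : ∑ i ∈ s \ K, ‖x i‖ ^ 2 ≤ δ := by
          have h1 : ∑ i ∈ s, ‖x i‖ ^ 2 ≤ ‖x‖ ^ 2 :=
            sum_le_hasSum s (fun i _ => sq_nonneg _) hx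
          have h2 : ∑ i ∈ s, ‖x i‖ ^ 2 =
              ∑ i ∈ K, ‖x i‖ ^ 2 + ∑ i ∈ s \ K, ‖x i‖ ^ 2 := by
            rw [← Finset.sum_union (Finset.disjoint_sdiff), Finset.union_sdiff_of_subset hKs]
          linarith
        have hK4 : (K.card : ℝ) * η' ^ 2 ≤ η ^ 2 / 4 := by
          have h1 : η' ^ 2 = η ^ 2 / (4 * c ^ 2) := by
            rw [hη']; field_simp; ring
          rw [h1]
          have h2 : (K.card : ℝ) ≤ c ^ 2 := by nlinarith
          rw [← mul_div_assoc, div_le_iff₀ (by positivity)]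
          nlinarith [sq_nonneg η]
        rw [hsplit, hK1, hK2]
        have : 4 * δ = η ^ 2 / 2 := by rw [hδ]; ring
        nlinarith
      linarith
    -- pass to the limit along finite sets
    have htend : Filter.Tendsto
        (fun s : Finset ι => 2 * Real.sqrt (∑ i ∈ s, ‖x i‖ ^ 2 + (∑ i ∈ s, ‖y i‖ ^ 2) / 4))
        Filter.atTop (nhds (2 * Real.sqrt (‖x‖ ^ 2 + ‖y‖ ^ 2 / 4))) := by
      have hx' : Filter.Tendsto (fun s : Finset ι => ∑ i ∈ s, ‖x i‖ ^ 2) Filter.atTop
          (nhds (‖x‖ ^ 2)) := hx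
      have hy' : Filter.Tendsto (fun s : Finset ι => ∑ i ∈ s, ‖y i‖ ^ 2) Filter.atTop
          (nhds (‖y‖ ^ 2)) := hyS
      exact ((hx'.add (hy'.div_const 4)).sqrt).const_mul 2
    have hlim : 2 * Real.sqrt (‖x‖ ^ 2 + ‖y‖ ^ 2 / 4) ≤ ‖x + y‖ + ‖x - y‖ + η :=
      le_of_tendsto htend (Filter.eventually_atTop.2 ⟨K, fun s hs => hfin s hs⟩)
    linarith

/-! ### Consequences for the moduli of `Def_AsymptoticConvexity` -/

/-- Unit-sphere form of the homogeneous midpoint property at scale `t`. -/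
theorem HomMid.unit_bound {V : Type*} [NormedAddCommGroup V] [NormedSpace ℝ V] (h : HomMid V)
    (x : V) (hx : ‖x‖ = 1) (t η : ℝ) (hη : 0 < η) :
    ∃ S : Submodule ℝ V, IsClosed (S : Set V) ∧ FiniteDimensional ℝ (V ⧸ S) ∧
      ∀ y ∈ S, ‖y‖ = 1 →
        Real.sqrt (1 + t ^ 2 / 4) - 1 - η ≤ (‖x + t • y‖ + ‖x - t • y‖) / 2 - 1 := by
  obtain ⟨S, hc, hf, hS⟩ := h x (2 * η) (by linarith)
  refine ⟨S, hc, hf, ?_⟩
  intro y hy hy1
  have h1 := hS (t • y) (S.smul_mem t hy)
  have h2 : ‖t • y‖ ^ 2 = t ^ 2 := by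
    rw [norm_smul, hy1, mul_one, Real.norm_eq_abs, sq_abs]
  rw [hx, h2, one_pow] at h1
  linarith

/-- The homogeneous midpoint property gives the averaged midpoint modulus bound
`√(1 + t²/4) - 1` at every scale `t`. -/
theorem midpointGE_of_homMid (E : RealBanach)
    (h : letI := E.normed; letI := E.space; HomMid E.X) (t : ℝ) :
    E.MidpointModulusGE E.norm t (Real.sqrt (1 + t ^ 2 / 4) - 1) := by
  letI := E.normed; letI := E.space
  intro x hx η hη
  obtain ⟨S, hc, hf, hS⟩ := HomMid.unit_bound h x hx t η hη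
  exact ⟨S, ⟨S, rfl, hc, hf⟩, fun y hy hy1 => hS y hy hy1⟩

/-- Any smaller constant is also a lower bound of the averaged midpoint modulus. -/
theorem midpointGE_mono (E : RealBanach) (N : E.X → ℝ) (t c c' : ℝ) (hcc : c' ≤ c)
    (h : E.MidpointModulusGE N t c) : E.MidpointModulusGE N t c' := by
  letI := E.normed; letI := E.space
  intro x hx η hη
  obtain ⟨F, hF, hb⟩ := h x hx η hη
  exact ⟨F, hF, fun y hy hy1 => by have := hb y hy hy1; linarith⟩

/-- The maximum-based midpoint quantity dominates the averaged one. -/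
theorem maxMidpointGE_of_midpointGE (E : RealBanach) (N : E.X → ℝ) (t c : ℝ)
    (h : E.MidpointModulusGE N t c) : E.MaxMidpointModulusGE N t c := by
  letI := E.normed; letI := E.space
  intro x hx η hη
  obtain ⟨F, hF, hb⟩ := h x hx η hη
  refine ⟨F, hF, fun y hy hy1 => ?_⟩
  have h1 := hb y hy hy1
  have h2 : N (x + t • y) ≤ max (N (x + t • y)) (N (x - t • y)) := le_max_left _ _
  have h3 : N (x - t • y) ≤ max (N (x + t • y)) (N (x - t • y)) := le_max_right _ _
  linarith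

/-- **The three moduli conjuncts of S0166** follow from the homogeneous midpoint property. -/
theorem moduli_of_homMid (E : RealBanach)
    (h : letI := E.normed; letI := E.space; HomMid E.X) :
    ∀ t : ℝ, 0 < t →
      E.MidpointModulusGE E.norm t (Real.sqrt (1 + t ^ 2 / 12) - 1) ∧
        E.MidpointModulusGE E.norm t ((Real.sqrt (1 + t ^ 2 / 4) - 1) / 2) ∧
        E.MaxMidpointModulusGE E.norm t (Real.sqrt (1 + t ^ 2 / 4) - 1) := by
  intro t _
  have hmain := midpointGE_of_homMid E h t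
  have h1 : (1 : ℝ) ≤ Real.sqrt (1 + t ^ 2 / 4) := by
    rw [show (1 : ℝ) = Real.sqrt 1 by simp]
    exact Real.sqrt_le_sqrt (by nlinarith [sq_nonneg t])
  have h2 : Real.sqrt (1 + t ^ 2 / 12) ≤ Real.sqrt (1 + t ^ 2 / 4) :=
    Real.sqrt_le_sqrt (by nlinarith [sq_nonneg t])
  refine ⟨midpointGE_mono E _ t _ _ (by linarith) hmain,
    midpointGE_mono E _ t _ _ (by linarith) hmain,
    maxMidpointGE_of_midpointGE E _ t _ hmain⟩

/-- Conversion between the `Submodule` form and the `Set`/`IsCof` form of the homogeneous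
midpoint property. -/
theorem homMid_iff_isCof (E : RealBanach) :
    (letI := E.normed; letI := E.space; HomMid E.X) ↔
      (letI := E.normed; letI := E.space;
        ∀ (x : E.X) (η : ℝ), 0 < η → ∃ F : Set E.X, E.IsCof F ∧
          ∀ y ∈ F, 2 * Real.sqrt (‖x‖ ^ 2 + ‖y‖ ^ 2 / 4) - η ≤ ‖x + y‖ + ‖x - y‖) := by
  letI := E.normed; letI := E.space
  constructor
  · intro h x η hη
    obtain ⟨S, hc, hf, hS⟩ := h x η hη
    exact ⟨S, ⟨S, rfl, hc, hf⟩, hS⟩
  · intro h x η hη
    obtain ⟨F, ⟨S, rfl, hc, hf⟩, hS⟩ := h x η hη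
    exact ⟨S, hc, hf, hS⟩

/-! ### Blueprint interface (WP-E3): `HasSqMidpoint`, separability and the chain criterion for
`ℓ²`-sums, in the vocabulary of `R125_AUC` -/

/-- `HomMid` (submodule form) and `HasSqMidpoint` (set form of `R125_AUC`) are the same
property. -/
theorem homMid_iff_hasSqMidpoint {V : Type*} [NormedAddCommGroup V] [NormedSpace ℝ V] :
    HomMid V ↔ HasSqMidpoint V := by
  constructor
  · intro h x η hη
    obtain ⟨S, hc, hf, hS⟩ := h x η hη
    exact ⟨S, ⟨S, rfl, hc, hf⟩, hS⟩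
  · intro h x η hη
    obtain ⟨F, ⟨S, rfl, hc, hf⟩, hS⟩ := h x η hη
    exact ⟨S, hc, hf, hS⟩

/-- `HasSqMidpoint` is stable under `ℓ²`-sums. -/
theorem hasSqMidpoint_lp_two {ι : Type*} {E : ι → Type*} [∀ k, NormedAddCommGroup (E k)]
    [∀ k, NormedSpace ℝ (E k)] (h : ∀ k, HasSqMidpoint (E k)) : HasSqMidpoint (lp E 2) :=
  homMid_iff_hasSqMidpoint.1 (lp_two_homMid E fun k => homMid_iff_hasSqMidpoint.2 (h k))

/-- `HasSqMidpoint` passes to subspaces. -/
theorem HasSqMidpoint.submodule {V : Type*} [NormedAddCommGroup V] [NormedSpace ℝ V]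
    (h : HasSqMidpoint V) (W : Submodule ℝ V) : HasSqMidpoint W :=
  homMid_iff_hasSqMidpoint.1 ((homMid_iff_hasSqMidpoint.2 h).submodule W)

/-- A countable `ℓ²`-sum of separable normed spaces is separable. -/
theorem separableSpace_lp_two {ι : Type*} [Countable ι] {E : ι → Type*}
    [∀ k, NormedAddCommGroup (E k)] [∀ k, NormedSpace ℝ (E k)]
    [∀ k, TopologicalSpace.SeparableSpace (E k)] : TopologicalSpace.SeparableSpace (lp E 2) := by
  classical
  rw [← TopologicalSpace.isSeparable_univ_iff]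
  -- the union of the ranges of the coordinate embeddings is separable
  have h1 : TopologicalSpace.IsSeparable
      (⋃ k, Set.range (lp.single (E := E) 2 k) : Set (lp E 2)) := by
    refine TopologicalSpace.IsSeparable.iUnion fun k => ?_
    exact TopologicalSpace.isSeparable_range (lp.isometry_single (p := 2) k).continuous
  have h2 := (h1.span (R := ℝ)).closure
  refine h2.mono ?_
  intro f _
  have hf := lp.hasSum_single (p := 2) (by norm_num) f
  refine mem_closure_of_tendsto hf (Filter.Eventually.of_forall fun s => ?_)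
  refine Submodule.sum_mem _ fun k _ => Submodule.subset_span ?_
  exact Set.mem_iUnion.2 ⟨k, ⟨f k, rfl⟩⟩

/-- **Chain criterion in an `ℓ²`-sum.** Chains living in the single summands (the `j`-th
level `D k j` in the `k`-th summand; at each level some summand is non-empty) exclude
asymptotically uniformly convex renormings of the `ℓ²`-sum. -/
theorem not_isAUCOn_lp_two_of_chain {ι : Type*} {E : ι → Type*} [∀ k, NormedAddCommGroup (E k)]
    [∀ k, NormedSpace ℝ (E k)] {δ : ℝ} (hδ : 0 < δ) (D : (k : ι) → ℕ → Set (E k))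
    (hne : ∀ j, ∃ k, (D k j).Nonempty) (h0 : ∀ k j, ∀ x ∈ D k j, x ≠ 0)
    (hstep : ∀ k j, ∀ x ∈ D k (j + 1), ∀ F : Set (E k), IsCofSet F → ∀ ε : ℝ, 0 < ε →
      ∃ x' ∈ D k j, ∃ w ∈ F, ‖x' - x - w‖ ≤ ε * ‖x‖ ∧ δ * ‖x‖ ≤ ‖x' - x‖ ∧
        ‖x'‖ ≤ (1 + ε) * ‖x‖)
    (N : lp E 2 → ℝ) (hN : IsEquivNormOn N) : ¬ IsAUCOn N := by
  classical
  have hp : (0 : ENNReal) < 2 := by norm_num
  refine not_isAUCOn_of_chain hδ (fun j => ⋃ k, lp.single 2 k '' D k j) ?_ ?_ ?_ N hN
  · intro j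
    obtain ⟨k, x, hx⟩ := hne j
    exact ⟨lp.single 2 k x, Set.mem_iUnion.2 ⟨k, x, hx, rfl⟩⟩
  · intro j x hx
    obtain ⟨k, x₀, hx₀, rfl⟩ := Set.mem_iUnion.1 hx
    intro hzero
    have h1 : ‖lp.single (E := E) 2 k x₀‖ = ‖x₀‖ := lp.norm_single hp k x₀
    rw [hzero, norm_zero] at h1
    exact h0 k j x₀ hx₀ (norm_eq_zero.1 h1.symm)
  · intro j x hx F hF ε hε
    obtain ⟨k, x₀, hx₀, rfl⟩ := Set.mem_iUnion.1 hx
    have hF' : IsCofSet ((lp.singleContinuousLinearMap ℝ E 2 k) ⁻¹' F) := hF.preimage _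
    obtain ⟨x₀', hx₀', w₀, hw₀, h1, h2, h3⟩ := hstep k j x₀ hx₀ _ hF' ε hε
    refine ⟨lp.single 2 k x₀', Set.mem_iUnion.2 ⟨k, x₀', hx₀', rfl⟩, lp.single 2 k w₀, hw₀, ?_⟩
    simp only [← lp.single_sub, lp.norm_single hp]
    exact ⟨h1, h2, h3⟩

/-- Under the hypotheses of the chain criterion the `ℓ²`-sum is infinite-dimensional. -/
theorem not_finiteDimensional_lp_two_of_chain {ι : Type*} {E : ι → Type*}
    [∀ k, NormedAddCommGroup (E k)] [∀ k, NormedSpace ℝ (E k)] {δ : ℝ} (hδ : 0 < δ)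
    (D : (k : ι) → ℕ → Set (E k))
    (hne : ∀ j, ∃ k, (D k j).Nonempty) (h0 : ∀ k j, ∀ x ∈ D k j, x ≠ 0)
    (hstep : ∀ k j, ∀ x ∈ D k (j + 1), ∀ F : Set (E k), IsCofSet F → ∀ ε : ℝ, 0 < ε →
      ∃ x' ∈ D k j, ∃ w ∈ F, ‖x' - x - w‖ ≤ ε * ‖x‖ ∧ δ * ‖x‖ ≤ ‖x' - x‖ ∧
        ‖x'‖ ≤ (1 + ε) * ‖x‖) : ¬ FiniteDimensional ℝ (lp E 2) :=
  not_finiteDimensional_of_not_isAUCOn
    (not_isAUCOn_lp_two_of_chain hδ D hne h0 hstep _ isEquivNormOn_norm)

end Crest.Agent.R125
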