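import Mathlib
import Crest.Prelude.Def_TreePotentials
import Crest.Agent.R125_AUC
import Crest.Agent.R125_PotTests

/-!
Row 125 (S0166/S0168): branch vectors `dvec m v = Σ_{u ≼ v} e_u` of the four tree-potential
models, the norms of branch and coordinate vectors, the `√n`-bound for signed sums of sibling
coordinate vectors, separability of the model space, and the chain argument showing that no
equivalent norm on the model space is asymptotically uniformly convex.  OWNER: helper3.
-/

set_option autoImplicit false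

namespace Crest.Agent.R125

open Crest.AnalysisR Crest.AnalysisR.TreePotential

/-- The branch vector of the vertex `v`: the sum of the coordinate vectors of `v` and of all its
ancestors.  As a function on tests it is `f ↦ pathPotential f v`. -/
noncomputable def dvec (m : PotentialModel) : List ℕ → lp (fun _ : PotentialTest m => ℝ) ⊤
  | [] => coordVector m []
  | a :: v => dvec m v + coordVector m (a :: v)

theorem dvec_nil (m : PotentialModel) : dvec m [] = coordVector m [] := rfl

theorem dvec_cons (m : PotentialModel) (a : ℕ) (v : List ℕ) :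
    dvec m (a :: v) = dvec m v + coordVector m (a :: v) := rfl

theorem dvec_apply (m : PotentialModel) (v : List ℕ) (f : PotentialTest m) :
    dvec m v f = pathPotential f.1 v := by
  induction v with
  | nil => rfl
  | cons a v ih =>
    rw [dvec_cons, lp.coeFn_add, Pi.add_apply, ih]
    rfl

theorem coordVector_mem_modelSpace (m : PotentialModel) (s : List ℕ) :
    coordVector m s ∈ modelSpace m :=
  Submodule.le_topologicalClosure _ (Submodule.subset_span (Set.mem_range_self s))

theorem dvec_mem_modelSpace (m : PotentialModel) (v : List ℕ) : dvec m v ∈ modelSpace m := by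
  induction v with
  | nil => exact coordVector_mem_modelSpace m []
  | cons a v ih => exact (modelSpace m).add_mem ih (coordVector_mem_modelSpace m (a :: v))

/-- The potential of the single-vertex family `δ_s` vanishes at every vertex not having `s` as
a suffix. -/
theorem dvec_aux_single_of_not_suffix (s : List ℕ) :
    ∀ u : List ℕ, ¬ s <:+ u → pathPotential (single s) u = 0
  | [], h => by
    have hs : ([] : List ℕ) ≠ s := fun h' => h (h' ▸ List.suffix_refl _)
    simp [pathPotential, single, hs]
  | b :: u, h => by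
    have h1 : ¬ s <:+ u := fun h' => h (h'.trans (List.suffix_cons b u))
    have h2 : b :: u ≠ s := fun h' => h (h' ▸ List.suffix_refl _)
    simp [pathPotential, dvec_aux_single_of_not_suffix s u h1, single, h2]

/-- The potential of `δ_s` at `s` itself is `1`. -/
theorem dvec_aux_single_self (s : List ℕ) : pathPotential (single s) s = 1 := by
  cases s with
  | nil => simp [pathPotential, single]
  | cons a v =>
    have h1 : ¬ (a :: v) <:+ v := fun h => by
      have := h.length_le
      simp at this
    simp [pathPotential, dvec_aux_single_of_not_suffix (a :: v) v h1, single]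

theorem norm_dvec_le (m : PotentialModel) (v : List ℕ) : ‖dvec m v‖ ≤ 1 :=
  lp.norm_le_of_forall_le zero_le_one fun f => by
    rw [dvec_apply, Real.norm_eq_abs]
    exact f.2.1 v

/-- Branch vectors of non-root vertices have norm `1`. -/
theorem norm_dvec (m : PotentialModel) {v : List ℕ} (hv : v ≠ []) : ‖dvec m v‖ = 1 := by
  refine le_antisymm (norm_dvec_le m v) ?_
  have ht : IsTest m (single v) := isTest_single m v fun _ => hv
  obtain ⟨t, htv⟩ : ∃ t : PotentialTest m, t.1 = single v := ⟨⟨single v, ht⟩, rfl⟩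
  have h1 : ‖dvec m v t‖ ≤ ‖dvec m v‖ := lp.norm_apply_le_norm (by simp) (dvec m v) t
  have h2 : dvec m v t = 1 := by
    rw [dvec_apply, htv]
    exact dvec_aux_single_self v
  rw [h2, norm_one] at h1
  exact h1

/-- A test has absolute value at most `1` at every non-root vertex. -/
theorem dvec_aux_abs_test_le_one {m : PotentialModel} {f : List ℕ → ℝ} (hf : IsTest m f) (a : ℕ)
    (r : List ℕ) : |f (a :: r)| ≤ 1 := by
  have h := isTest_sib hf r {a}
  rw [Finset.sum_singleton] at h
  exact (sq_le_one_iff_abs_le_one _).1 h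

/-- Coordinate vectors of non-root vertices have norm `1`. -/
theorem norm_coordVector (m : PotentialModel) {s : List ℕ} (hs : s ≠ []) :
    ‖coordVector m s‖ = 1 := by
  obtain ⟨a, r, rfl⟩ := List.exists_cons_of_ne_nil hs
  refine le_antisymm ?_ ?_
  · refine lp.norm_le_of_forall_le zero_le_one fun f => ?_
    rw [Real.norm_eq_abs]
    exact dvec_aux_abs_test_le_one f.2 a r
  · have ht : IsTest m (single (a :: r)) := isTest_single m (a :: r) fun _ => hs
    obtain ⟨t, htv⟩ : ∃ t : PotentialTest m, t.1 = single (a :: r) :=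
      ⟨⟨single (a :: r), ht⟩, rfl⟩
    have h1 : ‖coordVector m (a :: r) t‖ ≤ ‖coordVector m (a :: r)‖ :=
      lp.norm_apply_le_norm (by simp) (coordVector m (a :: r)) t
    have h2 : coordVector m (a :: r) t = 1 := by
      show t.1 (a :: r) = 1
      rw [htv]
      simp [single]
    rw [h2, norm_one] at h1
    exact h1

/-- Signed sums of `n` sibling coordinate vectors have norm at most `√n`. -/
theorem norm_sum_siblings_le (m : PotentialModel) (v : List ℕ) (A : Finset ℕ) (σ : ℕ → ℝ)
    (hσ : ∀ a, |σ a| ≤ 1) :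
    ‖∑ a ∈ A, σ a • coordVector m (a :: v)‖ ≤ Real.sqrt A.card := by
  refine lp.norm_le_of_forall_le (Real.sqrt_nonneg _) fun f => ?_
  have hval : (∑ a ∈ A, σ a • coordVector m (a :: v)) f = ∑ a ∈ A, σ a * f.1 (a :: v) := by
    rw [lp.coeFn_sum, Finset.sum_apply]
    refine Finset.sum_congr rfl fun a _ => ?_
    rw [lp.coeFn_smul, Pi.smul_apply, smul_eq_mul]
    rfl
  rw [hval, Real.norm_eq_abs]
  have h1 : |∑ a ∈ A, σ a * f.1 (a :: v)| ≤ ∑ a ∈ A, |σ a| * |f.1 (a :: v)| := by
    refine (Finset.abs_sum_le_sum_abs _ _).trans (le_of_eq ?_)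
    exact Finset.sum_congr rfl fun a _ => abs_mul _ _
  have h2 := Real.sum_mul_le_sqrt_mul_sqrt A (fun a => |σ a|) (fun a => |f.1 (a :: v)|)
  have h3 : ∑ a ∈ A, |σ a| ^ 2 ≤ A.card := by
    have : ∑ a ∈ A, |σ a| ^ 2 ≤ ∑ _a ∈ A, (1 : ℝ) :=
      Finset.sum_le_sum fun a _ => by
        have := hσ a
        have h0 := abs_nonneg (σ a)
        nlinarith
    simpa using this
  have h4 : ∑ a ∈ A, |f.1 (a :: v)| ^ 2 ≤ 1 := by
    have := isTest_sib f.2 v A
    simpa [sq_abs] using this
  have h5 : Real.sqrt (∑ a ∈ A, |σ a| ^ 2) ≤ Real.sqrt A.card := Real.sqrt_le_sqrt h3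
  have h6 : Real.sqrt (∑ a ∈ A, |f.1 (a :: v)| ^ 2) ≤ 1 := by
    rw [show (1 : ℝ) = Real.sqrt 1 by simp]
    exact Real.sqrt_le_sqrt h4
  calc |∑ a ∈ A, σ a * f.1 (a :: v)| ≤ ∑ a ∈ A, |σ a| * |f.1 (a :: v)| := h1
    _ ≤ Real.sqrt (∑ a ∈ A, |σ a| ^ 2) * Real.sqrt (∑ a ∈ A, |f.1 (a :: v)| ^ 2) := h2
    _ ≤ Real.sqrt A.card * 1 :=
        mul_le_mul h5 h6 (Real.sqrt_nonneg _) (Real.sqrt_nonneg _)
    _ = Real.sqrt A.card := mul_one _

/-- The model space is separable. -/
theorem modelSpace_separable (m : PotentialModel) :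
    TopologicalSpace.SeparableSpace ↥(modelSpace m) := by
  have h1 : TopologicalSpace.IsSeparable (Set.range (coordVector m)) :=
    (Set.countable_range _).isSeparable
  have h2 : TopologicalSpace.IsSeparable
      ((modelSpace m : Submodule ℝ (lp (fun _ : PotentialTest m => ℝ) ⊤)) :
        Set (lp (fun _ : PotentialTest m => ℝ) ⊤)) := by
    unfold modelSpace
    rw [Submodule.topologicalClosure_coe]
    exact (h1.span (R := ℝ)).closure
  exact h2.separableSpace

/-- **No equivalent norm on the model space is asymptotically uniformly convex.** -/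
theorem modelSpace_not_isAUCOn (m : PotentialModel) (N : ↥(modelSpace m) → ℝ)
    (hN : IsEquivNormOn N) : ¬ IsAUCOn N := by
  set e : List ℕ → ↥(modelSpace m) := fun s => ⟨coordVector m s, coordVector_mem_modelSpace m s⟩
    with he
  set d : List ℕ → ↥(modelSpace m) := fun v => ⟨dvec m v, dvec_mem_modelSpace m v⟩ with hd
  have hnd : ∀ v : List ℕ, v ≠ [] → ‖d v‖ = 1 := fun v hv => norm_dvec m hv
  have hne : ∀ s : List ℕ, s ≠ [] → ‖e s‖ = 1 := fun s hs => norm_coordVector m hs
  have hstep : ∀ (a : ℕ) (v : List ℕ), d (a :: v) - d v = e (a :: v) := by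
    intro a v
    apply Subtype.ext
    simp only [hd, he, Submodule.coe_sub, dvec_cons, add_sub_cancel_left]
  refine not_isAUCOn_of_chain (δ := 1) one_pos
    (fun _ => {x | ∃ v : List ℕ, v ≠ [] ∧ x = d v}) ?_ ?_ ?_ N hN
  · intro j
    exact ⟨d [0], [0], by simp, rfl⟩
  · rintro j x ⟨v, hv, rfl⟩ h0
    have h1 := hnd v hv
    rw [h0, norm_zero] at h1
    exact zero_ne_one h1
  · rintro j x ⟨v, hv, rfl⟩ F hF ε hε
    have hz : ∀ (A : Finset ℕ) (σ : ℕ → ℝ), (∀ a, σ a = 1 ∨ σ a = -1) →
        ‖∑ a ∈ A, σ a • e (a :: v)‖ ≤ 1 * Real.sqrt A.card := by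
      intro A σ hσ
      have h1 : ‖∑ a ∈ A, σ a • e (a :: v)‖ = ‖∑ a ∈ A, σ a • coordVector m (a :: v)‖ := by
        rw [Submodule.coe_norm, Submodule.coe_sum]
        simp only [he, Submodule.coe_smul]
      rw [h1, one_mul]
      refine norm_sum_siblings_le m v A σ fun a => ?_
      rcases hσ a with h | h <;> simp [h]
    obtain ⟨a₀, ha₀⟩ := exists_near_cof_of_sqrt_bound (z := fun a => e (a :: v)) hz hF hε
    obtain ⟨w, hw, hwn⟩ := ha₀ a₀ le_rfl
    refine ⟨d (a₀ :: v), ⟨a₀ :: v, by simp, rfl⟩, w, hw, ?_, ?_, ?_⟩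
    · rw [hstep, hnd v hv, mul_one]
      exact hwn.le
    · rw [hstep, hnd v hv, hne _ (by simp)]
      norm_num
    · rw [hnd v hv, hnd _ (by simp)]
      linarith

/-- The model space is infinite-dimensional. -/
theorem modelSpace_not_finiteDimensional (m : PotentialModel) :
    ¬ FiniteDimensional ℝ ↥(modelSpace m) :=
  not_finiteDimensional_of_not_isAUCOn (modelSpace_not_isAUCOn m _ isEquivNormOn_norm)

end Crest.Agent.R125
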