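import Mathlib
import Crest.Prelude.Def_TreePotentials
import Crest.Agent.R125_AUC
import Crest.Agent.R125_L2Sum
import Crest.Agent.R125_PotTests

/-!
Row 125 (S0166/S0168), work package WP-C2: the homogeneous midpoint property `HomMid` of the
four tree-potential model spaces.  OWNER: helper9.

Main result: `modelSpace_homMid (m) : HomMid ↥(modelSpace m)`.
-/

set_option autoImplicit false

namespace Crest.Agent.R125

open Crest.AnalysisR Crest.AnalysisR.TreePotential

variable {m : PotentialModel}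

instance instNonemptyPotentialTest (m : PotentialModel) : Nonempty (PotentialTest m) :=
  ⟨⟨fun _ => 0, isTest_zero m⟩⟩

/-- The finite combination `Σ c s • e_s` of coordinate vectors, as a linear map. -/
noncomputable def vec (m : PotentialModel) :
    (List ℕ →₀ ℝ) →ₗ[ℝ] lp (fun _ : PotentialTest m => ℝ) ⊤ :=
  Finsupp.linearCombination ℝ (coordVector m)

theorem vec_apply (c : List ℕ →₀ ℝ) (f : PotentialTest m) :
    (vec m c) f = c.sum fun s a => a * f.1 s := by
  show (Finsupp.linearCombination ℝ (coordVector m) c) f = _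
  rw [Finsupp.linearCombination_apply]
  unfold Finsupp.sum
  rw [lp.coeFn_sum, Finset.sum_apply]
  rfl

theorem abs_apply_le_norm (x : lp (fun _ : PotentialTest m => ℝ) ⊤) (f : PotentialTest m) :
    |x f| ≤ ‖x‖ := by
  have := lp.norm_apply_le_norm ENNReal.top_ne_zero x f
  rwa [Real.norm_eq_abs] at this

theorem apply_le_norm (x : lp (fun _ : PotentialTest m => ℝ) ⊤) (f : PotentialTest m) :
    x f ≤ ‖x‖ := (le_abs_self _).trans (abs_apply_le_norm x f)

/-- A test, as an element of the index type. -/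
def mkTest {φ : List ℕ → ℝ} (h : IsTest m φ) : PotentialTest m := ⟨φ, h⟩

@[simp] theorem mkTest_val {φ : List ℕ → ℝ} (h : IsTest m φ) : (mkTest h).1 = φ := rfl

/-- The negative of a test. -/
def negTest (f : PotentialTest m) : PotentialTest m := mkTest (isTest_neg f.2)

theorem vec_apply_negTest (c : List ℕ →₀ ℝ) (f : PotentialTest m) :
    (vec m c) (negTest f) = -(vec m c) f := by
  rw [vec_apply, vec_apply]
  unfold Finsupp.sum
  rw [← Finset.sum_neg_distrib]
  refine Finset.sum_congr rfl fun s _ => ?_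
  show c s * -f.1 s = -(c s * f.1 s)
  ring

/-- The norm of a finite combination is almost attained at a test (without absolute value). -/
theorem exists_test_vec_gt (c : List ℕ →₀ ℝ) {ε : ℝ} (hε : 0 < ε) :
    ∃ f : PotentialTest m, ‖vec m c‖ - ε < (vec m c) f := by
  have h1 : ‖vec m c‖ - ε < ⨆ f : PotentialTest m, ‖(vec m c) f‖ := by
    rw [← lp.norm_eq_ciSup]; linarith
  obtain ⟨f, hf⟩ := exists_lt_of_lt_ciSup h1
  rw [Real.norm_eq_abs] at hf
  rcases le_or_gt 0 ((vec m c) f) with h | h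
  · exact ⟨f, by rwa [abs_of_nonneg h] at hf⟩
  · refine ⟨negTest f, ?_⟩
    rw [vec_apply_negTest]
    rwa [abs_of_neg h] at hf

/-- **Core inequality**, linear form. -/
theorem core_vec (c c' : List ℕ →₀ ℝ) (B : Finset (List ℕ)) (hB0 : [] ∈ B)
    (hBcl : ∀ (a : ℕ) (v : List ℕ), a :: v ∈ B → v ∈ B) (hc : ∀ s, c s ≠ 0 → s ∈ B)
    (hc' : ∀ s, c' s ≠ 0 → s ∉ B) {α γ : ℝ} (hα : 0 ≤ α) (hγ : 0 ≤ γ)
    (hαγ : α ^ 2 + γ ^ 2 ≤ 1) (hγ2 : 2 * γ ≤ 1) :
    2 * α * ‖vec m c‖ + γ * ‖vec m c'‖ ≤ ‖vec m c + vec m c'‖ + ‖vec m c - vec m c'‖ := by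
  refine le_of_forall_pos_le_add fun ε hε => ?_
  have hα1 : α ≤ 1 := by nlinarith [sq_nonneg γ]
  obtain ⟨f, hf⟩ := exists_test_vec_gt (m := m) c (ε := ε / 3) (by linarith)
  obtain ⟨h, hh⟩ := exists_test_vec_gt (m := m) c' (ε := ε / 3) (by linarith)
  obtain ⟨Φp, Φm, hΦp, hΦm, hB, hnB⟩ := exists_glue_tests f.2 h.2 B hB0 hBcl hα hγ hαγ hγ2
  have e1 : (vec m c) (mkTest hΦp) = α * (vec m c) f := by
    rw [vec_apply, vec_apply]
    unfold Finsupp.sum
    rw [Finset.mul_sum]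
    refine Finset.sum_congr rfl fun s hs => ?_
    have hsB : s ∈ B := hc s (Finsupp.mem_support_iff.mp hs)
    show c s * Φp s = α * (c s * f.1 s)
    rw [(hB s hsB).1]; ring
  have e2 : (vec m c) (mkTest hΦm) = α * (vec m c) f := by
    rw [vec_apply, vec_apply]
    unfold Finsupp.sum
    rw [Finset.mul_sum]
    refine Finset.sum_congr rfl fun s hs => ?_
    have hsB : s ∈ B := hc s (Finsupp.mem_support_iff.mp hs)
    show c s * Φm s = α * (c s * f.1 s)
    rw [(hB s hsB).2]; ring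
  have e3 : (vec m c') (mkTest hΦp) - (vec m c') (mkTest hΦm) = γ * (vec m c') h := by
    rw [vec_apply, vec_apply, vec_apply]
    unfold Finsupp.sum
    rw [Finset.mul_sum, ← Finset.sum_sub_distrib]
    refine Finset.sum_congr rfl fun s hs => ?_
    have hsB : s ∉ B := hc' s (Finsupp.mem_support_iff.mp hs)
    show c' s * Φp s - c' s * Φm s = γ * (c' s * h.1 s)
    have := hnB s hsB
    rw [← mul_sub, this]; ring
  have h1 := apply_le_norm (vec m c + vec m c') (mkTest hΦp)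
  have h2 := apply_le_norm (vec m c - vec m c') (mkTest hΦm)
  rw [lp.coeFn_add, Pi.add_apply] at h1
  rw [lp.coeFn_sub, Pi.sub_apply] at h2
  have h3 : α * (‖vec m c‖ - ε / 3) ≤ α * (vec m c) f :=
    mul_le_mul_of_nonneg_left hf.le hα
  have h4 : γ * (‖vec m c'‖ - ε / 3) ≤ γ * (vec m c') h :=
    mul_le_mul_of_nonneg_left hh.le hγ
  have hγ1 : γ ≤ 1 := by linarith
  nlinarith [norm_nonneg (vec m c), norm_nonneg (vec m c')]

theorem sqrt_sq_add_le (a b a' b' : ℝ) :
    Real.sqrt (a ^ 2 + b ^ 2) ≤ Real.sqrt (a' ^ 2 + b' ^ 2) + |a - a'| + |b - b'| := by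
  have hr := Real.sqrt_nonneg (a' ^ 2 + b' ^ 2)
  have hr2 := Real.sq_sqrt (show 0 ≤ a' ^ 2 + b' ^ 2 by positivity)
  have ha' : |a'| ≤ Real.sqrt (a' ^ 2 + b' ^ 2) := Real.abs_le_sqrt (by nlinarith [sq_nonneg b'])
  have hb' : |b'| ≤ Real.sqrt (a' ^ 2 + b' ^ 2) := Real.abs_le_sqrt (by nlinarith [sq_nonneg a'])
  rw [Real.sqrt_le_iff]
  refine ⟨by positivity, ?_⟩
  have h1 : a' * (a - a') ≤ Real.sqrt (a' ^ 2 + b' ^ 2) * |a - a'| := by
    calc a' * (a - a') ≤ |a' * (a - a')| := le_abs_self _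
      _ = |a'| * |a - a'| := abs_mul _ _
      _ ≤ _ := mul_le_mul_of_nonneg_right ha' (abs_nonneg _)
  have h2 : b' * (b - b') ≤ Real.sqrt (a' ^ 2 + b' ^ 2) * |b - b'| := by
    calc b' * (b - b') ≤ |b' * (b - b')| := le_abs_self _
      _ = |b'| * |b - b'| := abs_mul _ _
      _ ≤ _ := mul_le_mul_of_nonneg_right hb' (abs_nonneg _)
  have h3 : (a - a') ^ 2 = |a - a'| ^ 2 := (sq_abs _).symm
  have h4 : (b - b') ^ 2 = |b - b'| ^ 2 := (sq_abs _).symm
  nlinarith [abs_nonneg (a - a'), abs_nonneg (b - b'),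
    mul_nonneg (abs_nonneg (a - a')) (abs_nonneg (b - b'))]

/-- **Core inequality**, square-root form. -/
theorem core_sqrt (c c' : List ℕ →₀ ℝ) (B : Finset (List ℕ)) (hB0 : [] ∈ B)
    (hBcl : ∀ (a : ℕ) (v : List ℕ), a :: v ∈ B → v ∈ B) (hc : ∀ s, c s ≠ 0 → s ∈ B)
    (hc' : ∀ s, c' s ≠ 0 → s ∉ B) :
    2 * Real.sqrt (‖vec m c‖ ^ 2 + ‖vec m c'‖ ^ 2 / 4) ≤
      ‖vec m c + vec m c'‖ + ‖vec m c - vec m c'‖ := by
  have ha0 : 0 ≤ ‖vec m c‖ := norm_nonneg _
  have hb0 : 0 ≤ ‖vec m c'‖ := norm_nonneg _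
  have hR0 : 0 ≤ Real.sqrt (‖vec m c‖ ^ 2 + ‖vec m c'‖ ^ 2 / 4) := Real.sqrt_nonneg _
  have hR2 : Real.sqrt (‖vec m c‖ ^ 2 + ‖vec m c'‖ ^ 2 / 4) ^ 2 =
      ‖vec m c‖ ^ 2 + ‖vec m c'‖ ^ 2 / 4 := Real.sq_sqrt (by positivity)
  have htriv : 2 * ‖vec m c'‖ ≤ ‖vec m c + vec m c'‖ + ‖vec m c - vec m c'‖ := by
    have h1 : ‖(vec m c + vec m c') - (vec m c - vec m c')‖ ≤
        ‖vec m c + vec m c'‖ + ‖vec m c - vec m c'‖ := norm_sub_le _ _
    have h2 : (vec m c + vec m c') - (vec m c - vec m c') = (2 : ℝ) • vec m c' := by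
      rw [two_smul]; abel
    rw [h2, norm_smul, Real.norm_eq_abs, abs_of_pos (by norm_num : (0:ℝ) < 2)] at h1
    exact h1
  generalize Real.sqrt (‖vec m c‖ ^ 2 + ‖vec m c'‖ ^ 2 / 4) = R at hR0 hR2 ⊢
  rcases le_or_gt R ‖vec m c'‖ with hRb | hRb
  · linarith
  · have hRpos : 0 < R := lt_of_le_of_lt hb0 hRb
    have e1 : (‖vec m c‖ / R) ^ 2 + (‖vec m c'‖ / (2 * R)) ^ 2 = 1 := by
      field_simp
      nlinarith
    have e2 : 2 * (‖vec m c'‖ / (2 * R)) ≤ 1 := by
      rw [show 2 * (‖vec m c'‖ / (2 * R)) = ‖vec m c'‖ / R by field_simp]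
      rw [div_le_one hRpos]; exact hRb.le
    have key := core_vec (m := m) c c' B hB0 hBcl hc hc' (α := ‖vec m c‖ / R)
      (γ := ‖vec m c'‖ / (2 * R)) (by positivity) (by positivity) e1.le e2
    have e3 : 2 * (‖vec m c‖ / R) * ‖vec m c‖ + ‖vec m c'‖ / (2 * R) * ‖vec m c'‖ = 2 * R := by
      field_simp
      nlinarith
    linarith

/-! ### Approximation by finite combinations -/

theorem exists_vec_near {x : lp (fun _ : PotentialTest m => ℝ) ⊤} (hx : x ∈ modelSpace m)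
    {ε : ℝ} (hε : 0 < ε) : ∃ c : List ℕ →₀ ℝ, ‖x - vec m c‖ < ε := by
  have hx' : x ∈ closure
      ((Submodule.span ℝ (Set.range (coordVector m)) :
        Submodule ℝ (lp (fun _ : PotentialTest m => ℝ) ⊤)) : Set _) := hx
  rw [Metric.mem_closure_iff] at hx'
  obtain ⟨z, hz, hdist⟩ := hx' ε hε
  obtain ⟨c, rfl⟩ := Finsupp.mem_span_range_iff_exists_finsupp.mp hz
  refine ⟨c, ?_⟩
  rw [dist_eq_norm] at hdist
  exact hdist

/-- A vertex is valid for the model when it carries a coordinate: every vertex, except the root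
in the rootless sibling model. -/
def Valid (m : PotentialModel) (s : List ℕ) : Prop :=
  m = PotentialModel.rootlessSibling → s ≠ []

/-- The test `δ_s` as an element of the index type. -/
noncomputable def singleTest (s : List ℕ) (hs : Valid m s) : PotentialTest m :=
  mkTest (isTest_single m s hs)

theorem vec_apply_singleTest (c : List ℕ →₀ ℝ) (s : List ℕ) (hs : Valid m s) :
    (vec m c) (singleTest s hs) = c s := by
  rw [vec_apply]
  unfold Finsupp.sum
  show ∑ u ∈ c.support, c u * (if u = s then 1 else 0) = c s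
  simp only [mul_ite, mul_one, mul_zero, Finset.sum_ite_eq', Finsupp.mem_support_iff]
  by_cases h : c s = 0
  · simp [h]
  · simp [h]

theorem coordVector_eq_zero_of_not_valid {s : List ℕ} (hs : ¬ Valid m s) :
    coordVector m s = 0 := by
  unfold Valid at hs
  rw [Classical.not_imp, not_not] at hs
  obtain ⟨rfl, rfl⟩ := hs
  apply lp.ext
  funext f
  exact f.2.2.1

theorem abs_test_le_one (f : PotentialTest m) (s : List ℕ) : |f.1 s| ≤ 1 := by
  cases s with
  | nil => exact f.2.1 []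
  | cons a v =>
    have h := isTest_sib f.2 v {a}
    rw [Finset.sum_singleton] at h
    exact (sq_le_one_iff_abs_le_one _).mp h

theorem norm_coordVector_le (m : PotentialModel) (s : List ℕ) : ‖coordVector m s‖ ≤ 1 :=
  lp.norm_le_of_forall_le zero_le_one fun f => by
    rw [Real.norm_eq_abs]; exact abs_test_le_one f s

/-- **The homogeneous midpoint property of the four tree-potential model spaces.** -/
theorem modelSpace_homMid (m : PotentialModel) : HomMid ↥(modelSpace m) := by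
  classical
  intro x η hη
  obtain ⟨c, hc⟩ := exists_vec_near (m := m) x.2 (ε := η / 8) (by linarith)
  -- the finite parent-closed vertex set `B`
  set B : Finset (List ℕ) := (c.support.biUnion fun s => s.tails.toFinset) ∪ {[]} with hBdef
  have hB0 : [] ∈ B := by simp [hBdef]
  have hBcl : ∀ (a : ℕ) (v : List ℕ), a :: v ∈ B → v ∈ B := by
    intro a v hav
    rw [hBdef, Finset.mem_union] at hav ⊢
    rcases hav with hav | hav
    · left
      rw [Finset.mem_biUnion] at hav ⊢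
      obtain ⟨s, hs, hsv⟩ := hav
      refine ⟨s, hs, ?_⟩
      rw [List.mem_toFinset, List.mem_tails] at hsv ⊢
      exact (List.suffix_cons a v).trans hsv
    · simp at hav
  have hcB : ∀ s, c s ≠ 0 → s ∈ B := by
    intro s hs
    rw [hBdef, Finset.mem_union]; left
    rw [Finset.mem_biUnion]
    exact ⟨s, Finsupp.mem_support_iff.mpr hs, by simp⟩
  -- the evaluation functionals at the tests `δ_s`, `s ∈ B` valid
  let ι := {s : List ℕ // s ∈ B ∧ Valid m s}
  have : Finite ι :=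
    Finite.of_injective (fun s : ι => (⟨s.1, s.2.1⟩ : ↥B)) (by
      intro s t h
      have h' := congrArg (fun z : ↥B => z.1) h
      exact Subtype.ext h')
  let ψ : ι → (↥(modelSpace m) →L[ℝ] ℝ) := fun s =>
    (lp.evalCLM ℝ (fun _ : PotentialTest m => ℝ) ⊤ (singleTest s.1 s.2.2)).comp
      (modelSpace m).subtypeL
  obtain ⟨S, hSF, hScl, hSfd⟩ := isCofSet_iInter_ker ψ
  refine ⟨S, by rw [hSF]; exact hScl, hSfd, ?_⟩
  intro y hy
  have hyF : ∀ (s : List ℕ) (_ : s ∈ B) (hv : Valid m s),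
      (y : lp (fun _ : PotentialTest m => ℝ) ⊤) (singleTest s hv) = 0 := by
    intro s hs hv
    have h1 : y ∈ (S : Set ↥(modelSpace m)) := hy
    rw [hSF] at h1
    exact h1 ⟨s, hs, hv⟩
  -- approximate `y`
  have hn0 : (0 : ℝ) ≤ (B.card : ℝ) := Nat.cast_nonneg _
  have hε₂pos : 0 < η / (6 * (1 + 2 * (B.card : ℝ))) := by positivity
  obtain ⟨c'', hc''⟩ := exists_vec_near (m := m) y.2 hε₂pos
  have hc'B : ∀ s, (c''.filter (fun s => s ∉ B)) s ≠ 0 → s ∉ B := by
    intro s hs hsB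
    apply hs
    rw [Finsupp.filter_apply_neg _ _ (by simpa using hsB)]
  have hdiff : ‖vec m c'' - vec m (c''.filter (fun s => s ∉ B))‖ ≤
      2 * (B.card : ℝ) * (η / (6 * (1 + 2 * (B.card : ℝ)))) := by
    have h1 : vec m c'' - vec m (c''.filter (fun s => s ∉ B)) =
        ∑ s ∈ B, c'' s • coordVector m s := by
      rw [← map_sub]
      have h2 : c'' - c''.filter (fun s => s ∉ B) = c''.filter (fun s => s ∈ B) := by
        rw [sub_eq_iff_eq_add]
        exact (Finsupp.filter_add_filter_not c'' (fun s => s ∈ B)).symm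
      rw [h2]
      show Finsupp.linearCombination ℝ (coordVector m) _ = _
      rw [Finsupp.linearCombination_apply_of_mem_supported ℝ (s := B)]
      · refine Finset.sum_congr rfl fun s hs => ?_
        rw [Finsupp.filter_apply_pos (fun s => s ∈ B) c'' hs]
      · rw [Finsupp.mem_supported]
        intro s hs
        rw [Finset.mem_coe, Finsupp.mem_support_iff] at hs
        by_contra hsB
        exact hs (Finsupp.filter_apply_neg _ _ hsB)
    rw [h1]
    calc ‖∑ s ∈ B, c'' s • coordVector m s‖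
        ≤ ∑ s ∈ B, ‖c'' s • coordVector m s‖ := norm_sum_le _ _
      _ ≤ ∑ _s ∈ B, 2 * (η / (6 * (1 + 2 * (B.card : ℝ)))) := Finset.sum_le_sum fun s hs => ?_
      _ = 2 * (B.card : ℝ) * (η / (6 * (1 + 2 * (B.card : ℝ)))) := by
        rw [Finset.sum_const, nsmul_eq_mul]; ring
    by_cases hv : Valid m s
    · have h3 : |c'' s| ≤ η / (6 * (1 + 2 * (B.card : ℝ))) := by
        have e := vec_apply_singleTest c'' s hv
        have h0 := hyF s hs hv
        have h4 := abs_apply_le_norm ((y : lp (fun _ : PotentialTest m => ℝ) ⊤) - vec m c'')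
          (singleTest s hv)
        rw [lp.coeFn_sub, Pi.sub_apply, h0, e, zero_sub, abs_neg] at h4
        linarith
      rw [norm_smul, Real.norm_eq_abs]
      have h5 := norm_coordVector_le m s
      nlinarith [abs_nonneg (c'' s), norm_nonneg (coordVector m s)]
    · rw [coordVector_eq_zero_of_not_valid hv, smul_zero, norm_zero]; positivity
  -- notation
  generalize hX : (x : lp (fun _ : PotentialTest m => ℝ) ⊤) = X at hc
  generalize hY : (y : lp (fun _ : PotentialTest m => ℝ) ⊤) = Y at hc'' hyF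
  have hYw : ‖Y - vec m (c''.filter (fun s => s ∉ B))‖ ≤ η / 6 := by
    have h1 : Y - vec m (c''.filter (fun s => s ∉ B)) =
        (Y - vec m c'') + (vec m c'' - vec m (c''.filter (fun s => s ∉ B))) := by abel
    have h2 : η / (6 * (1 + 2 * (B.card : ℝ))) + 2 * (B.card : ℝ) * (η / (6 * (1 + 2 * (B.card : ℝ))))
        = η / 6 := by
      field_simp
    rw [h1]
    calc _ ≤ ‖Y - vec m c''‖ + ‖vec m c'' - vec m (c''.filter (fun s => s ∉ B))‖ := norm_add_le _ _
      _ ≤ _ := by linarith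
  have hcore := core_sqrt (m := m) c (c''.filter (fun s => s ∉ B)) B hB0 hBcl hcB hc'B
  generalize vec m (c''.filter (fun s => s ∉ B)) = w at hYw hcore
  generalize vec m c = u at hc hcore
  have h1 : ‖u + w‖ ≤ ‖X + Y‖ + ‖X - u‖ + ‖Y - w‖ := by
    have e : u + w = (X + Y) - (X - u) - (Y - w) := by abel
    rw [e]
    have i1 := norm_sub_le (X + Y - (X - u)) (Y - w)
    have i2 := norm_sub_le (X + Y) (X - u)
    linarith
  have h2 : ‖u - w‖ ≤ ‖X - Y‖ + ‖X - u‖ + ‖Y - w‖ := by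
    have e : u - w = (X - Y) - (X - u) + (Y - w) := by abel
    rw [e]
    have i1 := norm_add_le (X - Y - (X - u)) (Y - w)
    have i2 := norm_sub_le (X - Y) (X - u)
    linarith
  have h3 := sqrt_sq_add_le ‖X‖ (‖Y‖ / 2) ‖u‖ (‖w‖ / 2)
  have h4 : |‖X‖ - ‖u‖| ≤ ‖X - u‖ := abs_norm_sub_norm_le _ _
  have h5 : |‖Y‖ / 2 - ‖w‖ / 2| ≤ ‖Y - w‖ / 2 := by
    have := abs_norm_sub_norm_le Y w
    rw [show ‖Y‖ / 2 - ‖w‖ / 2 = (‖Y‖ - ‖w‖) / 2 by ring, abs_div,
      abs_of_pos (by norm_num : (0:ℝ) < 2)]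
    linarith
  have e1 : ‖X‖ ^ 2 + (‖Y‖ / 2) ^ 2 = ‖X‖ ^ 2 + ‖Y‖ ^ 2 / 4 := by ring
  have e2 : ‖u‖ ^ 2 + (‖w‖ / 2) ^ 2 = ‖u‖ ^ 2 + ‖w‖ ^ 2 / 4 := by ring
  rw [e1, e2] at h3
  show 2 * Real.sqrt (‖(x : lp (fun _ : PotentialTest m => ℝ) ⊤)‖ ^ 2 +
      ‖(y : lp (fun _ : PotentialTest m => ℝ) ⊤)‖ ^ 2 / 4) - η ≤
    ‖(x : lp (fun _ : PotentialTest m => ℝ) ⊤) + (y : lp (fun _ : PotentialTest m => ℝ) ⊤)‖ +
    ‖(x : lp (fun _ : PotentialTest m => ℝ) ⊤) - (y : lp (fun _ : PotentialTest m => ℝ) ⊤)‖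
  rw [hX, hY]
  linarith

end Crest.Agent.R125
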