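import Mathlib

/-!
Abstract normed-space lemmas used for S0169 (helper10).

* `exists_near_of_sum_bound` : if `‖∑_{a ∈ A} z a‖ ≤ C √|A|` for all finite `A ⊆ ℕ`, then every
  closed finite-codimensional subspace comes arbitrarily close to some `z a`.
* `not_auc_of_chain` : a chain criterion excluding asymptotically uniformly convex renormings.
-/

set_option autoImplicit false

namespace Crest.Agent.S0169

open Filter Topology

section Near

variable {X : Type*} [NormedAddCommGroup X] [NormedSpace ℝ X]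

/-- If the norms of finite sums of the `z a` grow at most like the square root of the number of
terms, then every closed subspace of finite codimension comes arbitrarily close to some `z a`. -/
theorem exists_near_of_sum_bound (z : ℕ → X) (C : ℝ)
    (hz : ∀ A : Finset ℕ, ‖∑ a ∈ A, z a‖ ≤ C * Real.sqrt A.card)
    (S : Submodule ℝ X) (hS : IsClosed (S : Set X)) (hfd : FiniteDimensional ℝ (X ⧸ S))
    (ε : ℝ) (hε : 0 < ε) : ∃ a : ℕ, ∃ w ∈ S, ‖z a - w‖ < ε := by
  classical
  have : IsClosed (S : Set X) := hS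
  have : ProperSpace (X ⧸ S) := FiniteDimensional.proper_real (X ⧸ S)
  -- the images in the quotient
  set q : ℕ → X ⧸ S := fun a => Submodule.Quotient.mk (z a) with hq
  have hqsum : ∀ A : Finset ℕ, ‖∑ a ∈ A, q a‖ ≤ C * Real.sqrt A.card := by
    intro A
    have h1 : ∑ a ∈ A, q a = Submodule.Quotient.mk (∑ a ∈ A, z a) := by
      exact (map_sum (Submodule.mkQ S) z A).symm
    rw [h1]
    exact (Submodule.Quotient.norm_mk_le S _).trans (hz A)
  have hC : 0 ≤ C := by
    have := hz {0}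
    simp at this
    exact le_trans (norm_nonneg _) this
  have hqb : ∀ a, q a ∈ Metric.closedBall (0 : X ⧸ S) C := by
    intro a
    have := hqsum {a}
    simpa using this
  obtain ⟨qlim, -, φ, hφ, hlim⟩ :=
    tendsto_subseq_of_bounded (Metric.isBounded_closedBall (x := (0 : X ⧸ S)) (r := C)) hqb
  -- the limit is zero
  have hzero : qlim = 0 := by
    by_contra hne
    have hpos : 0 < ‖qlim‖ := norm_pos_iff.mpr hne
    set η : ℝ := ‖qlim‖ / 2 with hη
    have hηpos : 0 < η := by positivity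
    have hev : ∀ᶠ k in atTop, ‖q (φ k) - qlim‖ ≤ η := by
      have : Tendsto (fun k => ‖q (φ k) - qlim‖) atTop (𝓝 0) := by
        have h := (tendsto_iff_norm_sub_tendsto_zero).mp hlim
        simpa using h
      exact (this.eventually (gt_mem_nhds hηpos)).mono fun k hk => le_of_lt hk
    obtain ⟨K, hK⟩ := eventually_atTop.mp hev
    -- choose n large
    obtain ⟨n, hn⟩ := exists_nat_gt ((C / η) ^ 2 + 1)
    have hnpos : 0 < n := by
      have : (0 : ℝ) < n := lt_of_le_of_lt (by positivity) hn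
      exact_mod_cast this
    set A : Finset ℕ := (Finset.range n).image (fun i => φ (K + i)) with hA
    have hinj : Function.Injective (fun i => φ (K + i)) := by
      intro i j hij
      have := hφ.injective hij
      omega
    have hcard : A.card = n := by
      rw [hA, Finset.card_image_of_injective _ hinj, Finset.card_range]
    have hsumA : ∑ a ∈ A, q a = ∑ i ∈ Finset.range n, q (φ (K + i)) := by
      rw [hA, Finset.sum_image]
      intro i _ j _ hij
      exact hinj hij
    have hlow : (n : ℝ) * η ≤ ‖∑ a ∈ A, q a‖ := by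
      rw [hsumA]
      have h1 : ∑ i ∈ Finset.range n, q (φ (K + i))
          = (n : ℝ) • qlim + ∑ i ∈ Finset.range n, (q (φ (K + i)) - qlim) := by
        rw [Finset.sum_sub_distrib]
        simp [Nat.cast_smul_eq_nsmul]
      rw [h1]
      have h2 : ‖∑ i ∈ Finset.range n, (q (φ (K + i)) - qlim)‖ ≤ (n : ℝ) * η := by
        calc ‖∑ i ∈ Finset.range n, (q (φ (K + i)) - qlim)‖
            ≤ ∑ i ∈ Finset.range n, ‖q (φ (K + i)) - qlim‖ := norm_sum_le _ _
          _ ≤ ∑ _i ∈ Finset.range n, η :=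
              Finset.sum_le_sum fun i _ => hK (K + i) (Nat.le_add_right K i)
          _ = (n : ℝ) * η := by simp
      have h3 : ‖(n : ℝ) • qlim‖ = (n : ℝ) * (2 * η) := by
        rw [norm_smul, Real.norm_of_nonneg (Nat.cast_nonneg n), hη]
        ring
      have h4 := norm_sub_norm_le ((n : ℝ) • qlim)
        (-(∑ i ∈ Finset.range n, (q (φ (K + i)) - qlim)))
      rw [sub_neg_eq_add, norm_neg] at h4
      linarith
    have hup := hqsum A
    rw [hcard] at hup
    have hsq : Real.sqrt n * Real.sqrt n = n := Real.mul_self_sqrt (Nat.cast_nonneg n)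
    have hsqpos : 0 < Real.sqrt n := Real.sqrt_pos.mpr (by exact_mod_cast hnpos)
    have h5 : Real.sqrt n * η ≤ C := by
      have : Real.sqrt n * (Real.sqrt n * η) ≤ Real.sqrt n * C := by
        calc Real.sqrt n * (Real.sqrt n * η) = (n : ℝ) * η := by rw [← mul_assoc, hsq]
          _ ≤ C * Real.sqrt n := hlow.trans hup
          _ = Real.sqrt n * C := mul_comm _ _
      exact le_of_mul_le_mul_left this hsqpos
    have h6 : Real.sqrt n ≤ C / η := by
      rw [le_div_iff₀ hηpos]; exact h5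
    have h7 : (n : ℝ) ≤ (C / η) ^ 2 := by
      calc (n : ℝ) = Real.sqrt n * Real.sqrt n := hsq.symm
        _ ≤ (C / η) * (C / η) :=
            mul_le_mul h6 h6 (Real.sqrt_nonneg _) (le_trans (Real.sqrt_nonneg _) h6)
        _ = (C / η) ^ 2 := by ring
    linarith
  -- hence some `q (φ k)` is small
  rw [hzero] at hlim
  have hsmall : ∀ᶠ k in atTop, ‖q (φ k)‖ < ε / 2 := by
    have : Tendsto (fun k => ‖q (φ k)‖) atTop (𝓝 0) := by
      have h := (tendsto_iff_norm_sub_tendsto_zero).mp hlim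
      simpa using h
    exact this.eventually (gt_mem_nhds (by positivity))
  obtain ⟨k, hk⟩ := hsmall.exists
  obtain ⟨m, hm1, hm2⟩ := Submodule.Quotient.norm_mk_lt (q (φ k)) (ε := ε / 2) (by positivity)
  refine ⟨φ k, z (φ k) - m, ?_, ?_⟩
  · rw [← Submodule.Quotient.mk_eq_zero S, Submodule.Quotient.mk_sub, hm1]
    simp [hq]
  · have : z (φ k) - (z (φ k) - m) = m := by abel
    rw [this]
    linarith

end Near

section NA

variable {X : Type*} [NormedAddCommGroup X] [NormedSpace ℝ X]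

/-- Chain criterion: if a family of sets `D j` of nonzero vectors admits, from every `x ∈ D (j+1)`,
every closed finite-codimensional subspace `S` and every `ε > 0`, a move to some `x' ∈ D j` which is
`ε‖x‖`-close to `x + S`, far from `x` (`δ‖x‖ ≤ ‖x' - x‖`) and of almost no larger norm, then no
equivalent norm `N` can be asymptotically uniformly convex. -/
theorem not_auc_of_chain (N : X → ℝ)
    (hsub : ∀ x y : X, N (x + y) ≤ N x + N y)
    (hhom : ∀ (r : ℝ) (x : X), N (r • x) = |r| * N x)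
    (a b : ℝ) (ha : 0 < a) (hab : ∀ x : X, a * ‖x‖ ≤ N x ∧ N x ≤ b * ‖x‖)
    (hauc : ∀ t : ℝ, 0 < t → ∃ c : ℝ, 0 < c ∧ ∀ x : X, N x = 1 → ∃ S : Submodule ℝ X,
        IsClosed (S : Set X) ∧ FiniteDimensional ℝ (X ⧸ S) ∧
        ∀ y ∈ S, N y = 1 → c ≤ N (x + t • y) - 1)
    (δ : ℝ) (hδ : 0 < δ) (D : ℕ → Set X) (hne : ∀ j, (D j).Nonempty) (h0 : ∀ j, (0 : X) ∉ D j)
    (hstep : ∀ j, ∀ x ∈ D (j + 1), ∀ S : Submodule ℝ X, IsClosed (S : Set X) →
        FiniteDimensional ℝ (X ⧸ S) → ∀ ε : ℝ, 0 < ε →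
        ∃ x' ∈ D j, ∃ w ∈ S, ‖x' - x - w‖ ≤ ε * ‖x‖ ∧ δ * ‖x‖ ≤ ‖x' - x‖ ∧
          ‖x'‖ ≤ (1 + ε) * ‖x‖) :
    False := by
  classical
  -- `b > 0`
  obtain ⟨x0, hx0⟩ := hne 0
  have hx0ne : x0 ≠ 0 := fun h => h0 0 (h ▸ hx0)
  have hx0pos : 0 < ‖x0‖ := norm_pos_iff.mpr hx0ne
  have hb : 0 < b := by
    have h1 := (hab x0).1
    have h2 := (hab x0).2
    have h3 : 0 < b * ‖x0‖ := lt_of_lt_of_le (mul_pos ha hx0pos) (h1.trans h2)
    by_contra hb
    have : b * ‖x0‖ ≤ 0 := mul_nonpos_of_nonpos_of_nonneg (not_lt.mp hb) hx0pos.le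
    linarith
  set t : ℝ := a * δ / (2 * b) with ht
  have htpos : 0 < t := by positivity
  obtain ⟨c, hc, hF⟩ := hauc t htpos
  -- homogeneous consequence of asymptotic uniform convexity
  have claimB : ∀ x : X, x ≠ 0 → ∃ S : Submodule ℝ X, IsClosed (S : Set X) ∧
      FiniteDimensional ℝ (X ⧸ S) ∧ ∀ w ∈ S, t * N x ≤ N w → (1 + c) * N x ≤ N (x + w) := by
    intro x hx
    have hNx : 0 < N x := lt_of_lt_of_le (mul_pos ha (norm_pos_iff.mpr hx)) (hab x).1
    have hx1 : N ((N x)⁻¹ • x) = 1 := by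
      rw [hhom, abs_of_pos (inv_pos.mpr hNx), inv_mul_cancel₀ hNx.ne']
    obtain ⟨S, hScl, hSfd, hS⟩ := hF _ hx1
    refine ⟨S, hScl, hSfd, ?_⟩
    intro w hw hNw
    have hNwpos : 0 < N w := lt_of_lt_of_le (mul_pos htpos hNx) hNw
    have hy1 : N ((N w)⁻¹ • w) = 1 := by
      rw [hhom, abs_of_pos (inv_pos.mpr hNwpos), inv_mul_cancel₀ hNwpos.ne']
    have hyS : (N w)⁻¹ • w ∈ S := S.smul_mem _ hw
    have h1 := hS _ hyS hy1
    set lam : ℝ := t * N x / N w with hlam
    have hlampos : 0 < lam := by positivity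
    have hlamle : lam ≤ 1 := by rw [hlam, div_le_one hNwpos]; exact hNw
    have e1 : (1 - lam) • x + lam • (x + w) = x + lam • w := by module
    have e2 : (N x)⁻¹ * lam = t * (N w)⁻¹ := by rw [hlam]; field_simp
    have h2 : (N x)⁻¹ • x + t • (N w)⁻¹ • w = (N x)⁻¹ • ((1 - lam) • x + lam • (x + w)) := by
      rw [e1, smul_add, smul_smul, smul_smul, e2]
    rw [h2, hhom, abs_of_pos (inv_pos.mpr hNx)] at h1
    have h3 : N ((1 - lam) • x + lam • (x + w)) ≤ (1 - lam) * N x + lam * N (x + w) := by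
      calc N ((1 - lam) • x + lam • (x + w))
          ≤ N ((1 - lam) • x) + N (lam • (x + w)) := hsub _ _
        _ = (1 - lam) * N x + lam * N (x + w) := by
            rw [hhom, hhom, abs_of_nonneg (by linarith), abs_of_pos hlampos]
    have h4 : (1 + c) * N x ≤ N ((1 - lam) • x + lam • (x + w)) := by
      have h41 : (1 + c) ≤ (N x)⁻¹ * N ((1 - lam) • x + lam • (x + w)) := by linarith
      calc (1 + c) * N x ≤ ((N x)⁻¹ * N ((1 - lam) • x + lam • (x + w))) * N x :=
            mul_le_mul_of_nonneg_right h41 hNx.le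
        _ = N ((1 - lam) • x + lam • (x + w)) := by field_simp
    have h6 : lam * ((1 + c) * N x) ≤ lam * N (x + w) := by
      have h61 : lam * c ≤ c := by nlinarith
      have h62 : lam * c * N x ≤ c * N x := mul_le_mul_of_nonneg_right h61 hNx.le
      nlinarith
    exact le_of_mul_le_mul_left h6 hlampos
  -- the precision used in every step
  set ε : ℝ := min (a * δ / (2 * b)) (min (a * c / (2 * b)) (c / 4)) with hε
  have hεpos : 0 < ε := by
    rw [hε]; exact lt_min (by positivity) (lt_min (by positivity) (by positivity))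
  have hε1 : b * ε ≤ a * δ / 2 := by
    have h : ε ≤ a * δ / (2 * b) := min_le_left _ _
    calc b * ε ≤ b * (a * δ / (2 * b)) := mul_le_mul_of_nonneg_left h hb.le
      _ = a * δ / 2 := by field_simp
  have hε2 : b * ε ≤ a * c / 2 := by
    have h : ε ≤ a * c / (2 * b) := (min_le_right _ _).trans (min_le_left _ _)
    calc b * ε ≤ b * (a * c / (2 * b)) := mul_le_mul_of_nonneg_left h hb.le
      _ = a * c / 2 := by field_simp
  have hε3 : ε ≤ c / 4 := (min_le_right _ _).trans (min_le_right _ _)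
  have step : ∀ j, ∀ x ∈ D (j + 1), ∃ x' ∈ D j,
      (1 + c / 2) * N x ≤ N x' ∧ ‖x'‖ ≤ (1 + c / 4) * ‖x‖ := by
    intro j x hx
    have hxne : x ≠ 0 := fun h => h0 (j + 1) (h ▸ hx)
    have hxpos : 0 < ‖x‖ := norm_pos_iff.mpr hxne
    obtain ⟨S, hScl, hSfd, hS⟩ := claimB x hxne
    obtain ⟨x', hx', w, hw, h1, h2, h3⟩ := hstep j x hx S hScl hSfd ε hεpos
    refine ⟨x', hx', ?_, ?_⟩
    · have hNxle : N x ≤ b * ‖x‖ := (hab x).2
      have hNxge : a * ‖x‖ ≤ N x := (hab x).1
      have e1 : x' - x = w + (x' - x - w) := by abel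
      have h4 : N (x' - x) ≤ N w + N (x' - x - w) := by
        calc N (x' - x) = N (w + (x' - x - w)) := by rw [← e1]
          _ ≤ N w + N (x' - x - w) := hsub _ _
      have h5 : N (x' - x - w) ≤ b * (ε * ‖x‖) :=
        ((hab _).2).trans (mul_le_mul_of_nonneg_left h1 hb.le)
      have h6 : a * (δ * ‖x‖) ≤ N (x' - x) :=
        (mul_le_mul_of_nonneg_left h2 ha.le).trans (hab _).1
      have h7a : b * (ε * ‖x‖) ≤ a * δ / 2 * ‖x‖ := by
        calc b * (ε * ‖x‖) = (b * ε) * ‖x‖ := by ring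
          _ ≤ a * δ / 2 * ‖x‖ := mul_le_mul_of_nonneg_right hε1 hxpos.le
      have h7 : t * N x ≤ N w := by
        have h71 : t * N x ≤ a * δ / 2 * ‖x‖ := by
          calc t * N x ≤ t * (b * ‖x‖) := mul_le_mul_of_nonneg_left hNxle htpos.le
            _ = a * δ / 2 * ‖x‖ := by rw [ht]; field_simp
        linarith
      have h8 := hS w hw h7
      have e2 : x + w = x' + (-(x' - x - w)) := by abel
      have hneg : N (-(x' - x - w)) = N (x' - x - w) := by
        have h := hhom (-1) (x' - x - w)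
        simpa using h
      have h9 : N (x + w) ≤ N x' + N (x' - x - w) := by
        calc N (x + w) = N (x' + (-(x' - x - w))) := by rw [← e2]
          _ ≤ N x' + N (-(x' - x - w)) := hsub _ _
          _ = N x' + N (x' - x - w) := by rw [hneg]
      have h10 : b * (ε * ‖x‖) ≤ c / 2 * N x := by
        calc b * (ε * ‖x‖) = (b * ε) * ‖x‖ := by ring
          _ ≤ (a * c / 2) * ‖x‖ := mul_le_mul_of_nonneg_right hε2 hxpos.le
          _ = c / 2 * (a * ‖x‖) := by ring
          _ ≤ c / 2 * N x := mul_le_mul_of_nonneg_left hNxge (by positivity)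
      linarith
    · calc ‖x'‖ ≤ (1 + ε) * ‖x‖ := h3
        _ ≤ (1 + c / 4) * ‖x‖ := mul_le_mul_of_nonneg_right (by linarith) hxpos.le
  -- iterate
  set ρ : ℝ := (1 + c / 2) / (1 + c / 4) with hρ
  have hc4 : 0 < 1 + c / 4 := by positivity
  have hρ1 : 1 < ρ := by rw [hρ, one_lt_div hc4]; linarith
  have hρpos : 0 < ρ := by linarith
  have hρmul : ρ * (1 + c / 4) = 1 + c / 2 := by rw [hρ]; field_simp
  have key : ∀ k j, ∃ x ∈ D j, ρ ^ k * a * ‖x‖ ≤ N x := by
    intro k
    induction k with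
    | zero =>
      intro j
      obtain ⟨x, hx⟩ := hne j
      exact ⟨x, hx, by simpa using (hab x).1⟩
    | succ k ih =>
      intro j
      obtain ⟨x, hx, hxN⟩ := ih (j + 1)
      obtain ⟨x', hx', h1, h2⟩ := step j x hx
      refine ⟨x', hx', ?_⟩
      have hρk : 0 < ρ ^ (k + 1) * a := mul_pos (pow_pos hρpos _) ha
      calc ρ ^ (k + 1) * a * ‖x'‖ ≤ ρ ^ (k + 1) * a * ((1 + c / 4) * ‖x‖) :=
            mul_le_mul_of_nonneg_left h2 hρk.le
        _ = (ρ * (1 + c / 4)) * (ρ ^ k * a * ‖x‖) := by rw [pow_succ]; ring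
        _ = (1 + c / 2) * (ρ ^ k * a * ‖x‖) := by rw [hρmul]
        _ ≤ (1 + c / 2) * N x := mul_le_mul_of_nonneg_left hxN (by positivity)
        _ ≤ N x' := h1
  obtain ⟨k, hk⟩ := pow_unbounded_of_one_lt (b / a) hρ1
  obtain ⟨x, hx, hxN⟩ := key k 0
  have hxne : x ≠ 0 := fun h => h0 0 (h ▸ hx)
  have hxpos : 0 < ‖x‖ := norm_pos_iff.mpr hxne
  have h1 : ρ ^ k * a * ‖x‖ ≤ b * ‖x‖ := hxN.trans (hab x).2
  have h2 : ρ ^ k * a ≤ b := le_of_mul_le_mul_right h1 hxpos
  rw [div_lt_iff₀ ha] at hk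
  linarith

end NA

end Crest.Agent.S0169
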