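import Mathlib
import Crest.Prelude.Def_TreePotentials
import Crest.Prelude.Def_Diamond
import Crest.Agent.R125_AUC
import Crest.Agent.R125_PotDefs
import Crest.Agent.R125_L2Sum
import Crest.Agent.R125_Reflexive
import Crest.Agent.R125_Diamond
import Crest.Agent.S0169_Abstract

/-!
Row 125, S0166: the space `ESum = lp (fun k => Ek k) 2` (`Ek k` = closed span of the coordinate
vectors of the vertices of depth at most `k` in the global tree-potential model).

This file (OWNER: helper16) proves, with no further input:
* `eSum_separable`, `eSum_not_isAUCOn`, `eSum_not_finiteDimensional`;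
and, from the two facts supplied by the other work packages
(`HomMid ↥(modelSpace .global)` and reflexivity of every `Ek k`):
* `eSum_homMid`, `eSum_reflexive`, and the full statement of S0166 (`s0166_of`).
-/

set_option autoImplicit false

open scoped ENNReal NNReal

namespace Crest.Agent.R125

open Crest.AnalysisR Crest.AnalysisR.TreePotential

/-! ### Two explicit global tests -/

/-- The coefficient family `δ_s`. -/
noncomputable def gdelta (s : List ℕ) : List ℕ → ℝ := fun u => if u = s then 1 else 0

theorem gdelta_self (s : List ℕ) : gdelta s s = 1 := by simp [gdelta]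

theorem gdelta_sq_sum_le (s : List ℕ) (A : Finset (List ℕ)) : ∑ u ∈ A, gdelta s u ^ 2 ≤ 1 := by
  classical
  have h : ∀ u ∈ A, gdelta s u ^ 2 = if u = s then 1 else 0 := by
    intro u _
    by_cases hu : u = s <;> simp [gdelta, hu]
  rw [Finset.sum_congr rfl h, Finset.sum_ite_eq' A s]
  split_ifs <;> norm_num

/-- The potential of `δ_s` takes the values `0` and `1` only (and `1` only at vertices at least
as deep as `s`). -/
theorem pathPotential_gdelta (s t : List ℕ) :
    pathPotential (gdelta s) t = 0 ∨
      (pathPotential (gdelta s) t = 1 ∧ s.length ≤ t.length) := by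
  induction t with
  | nil =>
    by_cases hs : [] = s
    · right
      subst hs
      simp [pathPotential, gdelta]
    · left
      simp [pathPotential, gdelta, hs]
  | cons a v ih =>
    by_cases hs : a :: v = s
    · rcases ih with h0 | ⟨_, hlen⟩
      · right
        refine ⟨?_, by rw [← hs]⟩
        simp [pathPotential, gdelta, hs, h0]
      · exfalso
        rw [← hs] at hlen
        simp at hlen
    · rcases ih with h0 | ⟨h1, hlen⟩
      · left
        simp [pathPotential, gdelta, hs, h0]
      · right
        refine ⟨?_, hlen.trans (by simp)⟩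
        simp [pathPotential, gdelta, hs, h1]

theorem isTest_gdelta (s : List ℕ) : IsTest PotentialModel.global (gdelta s) := by
  refine ⟨fun t => ?_, fun A => gdelta_sq_sum_le s A⟩
  rcases pathPotential_gdelta s t with h | ⟨h, _⟩ <;> rw [h] <;> norm_num

/-- `δ_s` as an element of the test set of the global model. -/
noncomputable def gtest (s : List ℕ) : PotentialTest PotentialModel.global :=
  ⟨gdelta s, isTest_gdelta s⟩

theorem pathPotential_gdelta_nil (t : List ℕ) : pathPotential (gdelta []) t = 1 := by
  induction t with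
  | nil => simp [pathPotential, gdelta]
  | cons a v ih => simp [pathPotential, gdelta, ih]

/-! ### The vectors `d_v` and the coordinate vectors in the global model -/

/-- Shorthand for the ambient space of the global model. -/
abbrev GAmb : Type := lp (fun _ : PotentialTest PotentialModel.global => ℝ) ⊤

/-- `d_v`: the sum of the coordinate vectors of `v` and of all its ancestors. -/
noncomputable def gd : List ℕ → GAmb
  | [] => coordVector PotentialModel.global []
  | a :: v => gd v + coordVector PotentialModel.global (a :: v)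

theorem gd_apply (v : List ℕ) (f : PotentialTest PotentialModel.global) :
    gd v f = pathPotential f.1 v := by
  induction v with
  | nil => rfl
  | cons a v ih =>
    show (gd v + coordVector PotentialModel.global (a :: v)) f = _
    rw [lp.coeFn_add, Pi.add_apply, ih]
    rfl

theorem norm_gd (v : List ℕ) : ‖gd v‖ = 1 := by
  apply le_antisymm
  · refine lp.norm_le_of_forall_le zero_le_one fun f => ?_
    rw [gd_apply, Real.norm_eq_abs]
    exact f.2.1 v
  · have h := lp.norm_apply_le_norm (by simp) (gd v) (gtest [])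
    rw [gd_apply] at h
    have h1 : pathPotential (gtest []).1 v = 1 := pathPotential_gdelta_nil v
    rw [h1] at h
    simpa using h

theorem one_le_norm_coordVector (s : List ℕ) : 1 ≤ ‖coordVector PotentialModel.global s‖ := by
  have h := lp.norm_apply_le_norm (by simp) (coordVector PotentialModel.global s) (gtest s)
  rw [coordVector_apply] at h
  have h1 : (gtest s).1 s = 1 := gdelta_self s
  rw [h1] at h
  simpa using h

theorem norm_sum_siblings_global_le (v : List ℕ) (A : Finset ℕ) :
    ‖∑ a ∈ A, coordVector PotentialModel.global (a :: v)‖ ≤ Real.sqrt A.card := by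
  classical
  refine lp.norm_le_of_forall_le (Real.sqrt_nonneg _) fun f => ?_
  rw [lp.coeFn_sum, Finset.sum_apply, Real.norm_eq_abs]
  simp only [coordVector_apply]
  apply Real.abs_le_sqrt
  have h1 : (∑ a ∈ A, f.1 (a :: v)) ^ 2 ≤ (A.card : ℝ) * ∑ a ∈ A, f.1 (a :: v) ^ 2 :=
    sq_sum_le_card_mul_sum_sq
  have h2 : ∑ a ∈ A, f.1 (a :: v) ^ 2 ≤ 1 := by
    have h3 := f.2.2 (A.image (fun a => a :: v))
    rw [Finset.sum_image (fun a _ b _ hab => by simpa using hab)] at h3
    exact h3
  calc (∑ a ∈ A, f.1 (a :: v)) ^ 2 ≤ (A.card : ℝ) * ∑ a ∈ A, f.1 (a :: v) ^ 2 := h1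
    _ ≤ (A.card : ℝ) * 1 := by gcongr
    _ = A.card := mul_one _

/-! ### Membership in `Ek k` -/

theorem coordVector_mem_Ek {k : ℕ} {s : List ℕ} (hs : s.length ≤ k) :
    coordVector PotentialModel.global s ∈ Ek k :=
  coordVector_mem_potSpace PotentialModel.global hs

theorem gd_mem_Ek {k : ℕ} : ∀ {v : List ℕ}, v.length ≤ k → gd v ∈ Ek k
  | [], h => coordVector_mem_Ek h
  | a :: v, h =>
    (Ek k).add_mem (gd_mem_Ek (le_trans (by simp) h)) (coordVector_mem_Ek h)

/-- `d_v` as an element of `Ek k`. -/
noncomputable def gdE (k : ℕ) (v : List ℕ) (hv : v.length ≤ k) : Ek k := ⟨gd v, gd_mem_Ek hv⟩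

/-- The coordinate vector of `s` as an element of `Ek k`. -/
noncomputable def gcE (k : ℕ) (s : List ℕ) (hs : s.length ≤ k) : Ek k :=
  ⟨coordVector PotentialModel.global s, coordVector_mem_Ek hs⟩

theorem norm_gdE (k : ℕ) (v : List ℕ) (hv : v.length ≤ k) : ‖gdE k v hv‖ = 1 := norm_gd v

theorem one_le_norm_gcE (k : ℕ) (s : List ℕ) (hs : s.length ≤ k) : 1 ≤ ‖gcE k s hs‖ :=
  one_le_norm_coordVector s

theorem gdE_cons_sub (k : ℕ) (a : ℕ) (v : List ℕ) (h : (a :: v).length ≤ k)
    (hv : v.length ≤ k) : gdE k (a :: v) h - gdE k v hv = gcE k (a :: v) h := by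
  apply Subtype.ext
  show gd (a :: v) - gd v = coordVector PotentialModel.global (a :: v)
  simp [gd]

/-! ### The chain in `ESum` and the failure of AUC renormings -/

/-- The chain sets: `d_v` placed in the `k`-th summand, with at least `j` further levels
available below `v`. -/
def chainSet (j : ℕ) : Set ESum :=
  {x | ∃ (k : ℕ) (v : List ℕ) (hv : v.length ≤ k), v.length + j ≤ k ∧
      x = lp.single 2 k (gdE k v hv)}

theorem norm_single_gdE (k : ℕ) (v : List ℕ) (hv : v.length ≤ k) :
    ‖(lp.single 2 k (gdE k v hv) : ESum)‖ = 1 := by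
  rw [lp.norm_single (by norm_num)]
  exact norm_gdE k v hv

/-- No equivalent norm on `ESum` is asymptotically uniformly convex. -/
theorem eSum_not_isAUCOn (N : ESum → ℝ) (hN : IsEquivNormOn N) : ¬ IsAUCOn N := by
  classical
  refine not_isAUCOn_of_chain (δ := 1) one_pos chainSet ?_ ?_ ?_ N hN
  · intro j
    exact ⟨_, j, [], Nat.zero_le _, by simp, rfl⟩
  · rintro j x ⟨k, v, hv, -, rfl⟩ h0
    have h1 := norm_single_gdE k v hv
    rw [h0, norm_zero] at h1
    exact zero_ne_one h1
  · rintro j x ⟨k, v, hv, hvj, rfl⟩ F hF ε hε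
    obtain ⟨S, rfl, hScl, hSfd⟩ := hF
    have hk : ∀ a : ℕ, (a :: v).length ≤ k := fun a => by
      simp only [List.length_cons]; omega
    set z : ℕ → ESum := fun a => lp.single 2 k (gcE k (a :: v) (hk a)) with hz
    have hzsum : ∀ A : Finset ℕ, ‖∑ a ∈ A, z a‖ ≤ 1 * Real.sqrt A.card := by
      intro A
      have h1 : ∑ a ∈ A, z a = lp.single 2 k (∑ a ∈ A, gcE k (a :: v) (hk a)) :=
        (map_sum (lp.singleAddMonoidHom (E := fun k => ↥(Ek k)) 2 k) _ A).symm
      rw [h1, lp.norm_single (by norm_num), one_mul, Submodule.coe_norm, Submodule.coe_sum]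
      exact norm_sum_siblings_global_le v A
    obtain ⟨a, w, hwS, hlt⟩ :=
      Crest.Agent.S0169.exists_near_of_sum_bound z 1 hzsum S hScl hSfd ε hε
    have hx1 := norm_single_gdE k v hv
    have hx2 := norm_single_gdE k (a :: v) (hk a)
    have hdiff : (lp.single 2 k (gdE k (a :: v) (hk a)) : ESum) - lp.single 2 k (gdE k v hv)
        = z a := by
      rw [← lp.single_sub, gdE_cons_sub]
    refine ⟨lp.single 2 k (gdE k (a :: v) (hk a)),
      ⟨k, a :: v, hk a, by simp only [List.length_cons]; omega, rfl⟩, w, hwS, ?_, ?_, ?_⟩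
    · rw [hdiff, hx1, mul_one]
      exact hlt.le
    · rw [hdiff, hx1, mul_one, hz]
      simp only
      rw [lp.norm_single (by norm_num)]
      exact one_le_norm_gcE k (a :: v) (hk a)
    · rw [hx1, hx2, mul_one]
      linarith

/-- `ESum` is infinite-dimensional. -/
theorem eSum_not_finiteDimensional : ¬ FiniteDimensional ℝ ESum :=
  not_finiteDimensional_of_not_isAUCOn (eSum_not_isAUCOn _ isEquivNormOn_norm)

/-! ### Separability -/

/-- Inside the closed span `W` of a set `G`, the span of (the lifts of) `G` is dense. -/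
theorem dense_span_subtype {L : Type*} [NormedAddCommGroup L] [NormedSpace ℝ L] (G : Set L) :
    (Submodule.span ℝ ((fun w : (Submodule.span ℝ G).topologicalClosure => (w : L)) ⁻¹' G)
      ).topologicalClosure = ⊤ := by
  set W := (Submodule.span ℝ G).topologicalClosure with hW
  set G' : Set W := (fun w : W => (w : L)) ⁻¹' G with hG'
  have hGW : G ⊆ (W : Set L) := fun g hg => subset_closure (Submodule.subset_span hg)
  have himg : (Submodule.span ℝ G').map W.subtype = Submodule.span ℝ G := by
    rw [Submodule.map_span]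
    congr 1
    apply Set.image_preimage_eq_of_subset
    intro g hg
    exact ⟨⟨g, hGW hg⟩, rfl⟩
  rw [eq_top_iff]
  rintro y -
  show y ∈ closure (Submodule.span ℝ G' : Set W)
  rw [Topology.IsInducing.subtypeVal.closure_eq_preimage_closure_image]
  show (y : L) ∈ closure (Subtype.val '' (Submodule.span ℝ G' : Set W))
  have h2 : Subtype.val '' (Submodule.span ℝ G' : Set W) = (Submodule.span ℝ G : Set L) := by
    rw [← himg]
    rfl
  rw [h2]
  exact y.2

/-- `ESum` is separable. -/
theorem eSum_separable : TopologicalSpace.SeparableSpace ESum := by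
  classical
  rw [← TopologicalSpace.isSeparable_univ_iff]
  set C : Set ESum := Set.range (fun p : (Σ k : ℕ, {s : List ℕ // s.length ≤ k}) =>
    (lp.single 2 p.1 (gcE p.1 p.2.1 p.2.2) : ESum)) with hC
  have hCc : C.Countable := Set.countable_range _
  have hsep : TopologicalSpace.IsSeparable (closure (Submodule.span ℝ C : Set ESum)) :=
    (hCc.isSeparable.span (R := ℝ)).closure
  refine hsep.mono ?_
  intro x _
  set S := (Submodule.span ℝ C).topologicalClosure with hS
  have hScl : IsClosed (S : Set ESum) := Submodule.isClosed_topologicalClosure _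
  show x ∈ (S : Set ESum)
  have hsingle : ∀ (k : ℕ) (y : Ek k), (lp.single 2 k y : ESum) ∈ S := by
    intro k y
    set T : ↥(Ek k) →L[ℝ] ESum := lp.singleContinuousLinearMap ℝ (fun k => ↥(Ek k)) 2 k with hT
    have hcl : IsClosed ((S.comap (T : ↥(Ek k) →ₗ[ℝ] ESum) : Submodule ℝ ↥(Ek k)) : Set ↥(Ek k)) :=
      hScl.preimage T.continuous
    have hle : Submodule.span ℝ ((fun w : Ek k => (w : GAmb)) ⁻¹'
        (coordVector PotentialModel.global '' {s : List ℕ | s.length ≤ k}))
          ≤ S.comap (T : ↥(Ek k) →ₗ[ℝ] ESum) := by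
      rw [Submodule.span_le]
      rintro w ⟨s, hs, hws⟩
      show T w ∈ S
      apply Submodule.le_topologicalClosure
      apply Submodule.subset_span
      refine ⟨⟨k, ⟨s, hs⟩⟩, ?_⟩
      show (lp.single 2 k (gcE k s hs) : ESum) = lp.single 2 k w
      congr 1
      exact Subtype.ext hws
    have htop := dense_span_subtype (coordVector PotentialModel.global '' {s : List ℕ | s.length ≤ k})
    have h3 : (⊤ : Submodule ℝ ↥(Ek k)) ≤ S.comap (T : ↥(Ek k) →ₗ[ℝ] ESum) :=
      le_of_eq_of_le htop.symm (Submodule.topologicalClosure_minimal _ hle hcl)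
    exact h3 Submodule.mem_top
  have hsum := lp.hasSum_single (E := fun k => ↥(Ek k)) (p := 2) (by norm_num) x
  exact hScl.mem_of_tendsto hsum
    (Filter.Eventually.of_forall fun s => Submodule.sum_mem _ fun k _ => hsingle k (x k))

/-! ### The homogeneous midpoint property and reflexivity, from the other work packages -/

theorem ek_le_modelSpace (k : ℕ) : Ek k ≤ modelSpace PotentialModel.global := by
  rw [modelSpace_eq]
  exact Submodule.topologicalClosure_mono
    (Submodule.span_mono (Set.image_mono (Set.subset_univ _)))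

theorem ek_homMid (h : HomMid ↥(modelSpace PotentialModel.global)) (k : ℕ) : HomMid ↥(Ek k) :=
  h.of_linearIsometry
    { toLinearMap := Submodule.inclusion (ek_le_modelSpace k)
      norm_map' := fun _ => rfl }

theorem eSum_homMid (h : HomMid ↥(modelSpace PotentialModel.global)) : HomMid ESum :=
  lp_two_homMid (fun k => ↥(Ek k)) (ek_homMid h)

theorem eSum_reflexive (h : ∀ k, IsReflexiveSpace ↥(Ek k)) : IsReflexiveSpace ESum :=
  lp_two_reflexive (fun k => ↥(Ek k)) h

/-- **S0166 from the two remaining inputs**: the homogeneous midpoint property of the global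
model space and reflexivity of the summands `Ek k`. -/
theorem s0166_of (hmid : HomMid ↥(modelSpace PotentialModel.global))
    (hrefl : ∀ k, IsReflexiveSpace ↥(Ek k)) :
    ∃ E : Crest.AnalysisR.RealBanach, E.IsSeparableInfiniteDim ∧ E.IsReflexive ∧
      (∀ t : ℝ, 0 < t → E.MidpointModulusGE E.norm t (Real.sqrt (1 + t ^ 2 / 12) - 1) ∧
        E.MidpointModulusGE E.norm t ((Real.sqrt (1 + t ^ 2 / 4) - 1) / 2) ∧
        E.MaxMidpointModulusGE E.norm t (Real.sqrt (1 + t ^ 2 / 4) - 1)) ∧
      (∀ N : E.X → ℝ, E.IsEquivNorm N → ¬ E.IsAUC N) ∧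
      ∀ (k : ℕ) (f : Crest.AnalysisR.DiamondVertex k → E.X) (D : ℝ),
        E.HasDistortionLE k f D → 1 + (k : ℝ) / 4 ≤ D ^ 2 := by
  let E : RealBanach := ⟨ESum, inferInstance, inferInstance, inferInstance⟩
  have hH : (letI := E.normed; letI := E.space; HomMid E.X) := eSum_homMid hmid
  have hmod := moduli_of_homMid E hH
  refine ⟨E, ⟨eSum_separable, eSum_not_finiteDimensional⟩, eSum_reflexive hrefl, hmod,
    fun N hN => eSum_not_isAUCOn N hN, ?_⟩
  exact diamond_distortion_sq E (fun t ht => (hmod t ht).2.2)

end Crest.Agent.R125
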