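/-
Row 211 (S0324–S0329), shared area library (owner: helper14).

Areas of planar figures in a real inner product space, measured by the Lebesgue-normalised
two-dimensional Hausdorff measure `μHE[2]`; built on `LinearMap.normDet` from Mathlib.
-/
import Mathlib

set_option autoImplicit false
open MeasureTheory
open scoped ENNReal

namespace Crest.Agent.R211

section general
variable {E : Type*} [NormedAddCommGroup E] [InnerProductSpace ℝ E]

/-- `(s,t) ↦ s • a + t • b` as a linear map from the Euclidean plane. -/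
noncomputable def lin2 (a b : E) : EuclideanSpace ℝ (Fin 2) →ₗ[ℝ] E where
  toFun x := x 0 • a + x 1 • b
  map_add' x y := by simp [add_smul]; abel
  map_smul' c x := by simp [mul_smul, smul_add]

@[simp] theorem lin2_apply (a b : E) (x : EuclideanSpace ℝ (Fin 2)) :
    lin2 a b x = x 0 • a + x 1 • b := rfl

theorem normDet_lin2 (a b : E) :
    (lin2 a b).normDet = Real.sqrt (‖a‖ ^ 2 * ‖b‖ ^ 2 - inner ℝ a b ^ 2) := by
  have h := LinearMap.normDet_sq_eq_det_gram (lin2 a b) (EuclideanSpace.basisFun (Fin 2) ℝ)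
  rw [Matrix.det_fin_two] at h
  simp [Matrix.gram_apply] at h
  rw [real_inner_comm a b, ← sq] at h
  rw [← h, Real.sqrt_sq (LinearMap.normDet_nonneg _)]

/-- The unit square of the Euclidean plane. -/
def unitSq : Set (EuclideanSpace ℝ (Fin 2)) :=
  {x | x 0 ∈ Set.Icc (0:ℝ) 1 ∧ x 1 ∈ Set.Icc (0:ℝ) 1}

/-- The open unit square of the Euclidean plane. -/
def unitSqO : Set (EuclideanSpace ℝ (Fin 2)) :=
  {x | x 0 ∈ Set.Ioo (0:ℝ) 1 ∧ x 1 ∈ Set.Ioo (0:ℝ) 1}

/-- The standard triangle of the Euclidean plane. -/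
def unitTri : Set (EuclideanSpace ℝ (Fin 2)) :=
  {x | 0 ≤ x 0 ∧ 0 ≤ x 1 ∧ x 0 + x 1 ≤ 1}

theorem volume_unitSq : volume unitSq = 1 := by
  have h := (PiLp.volume_preserving_ofLp (Fin 2)).measure_preimage
    (s := Set.pi Set.univ (fun _ => Set.Icc (0:ℝ) 1))
    (MeasurableSet.univ_pi (fun _ => measurableSet_Icc)).nullMeasurableSet
  have e : unitSq =
      (@WithLp.ofLp 2 (Fin 2 → ℝ)) ⁻¹' (Set.pi Set.univ (fun _ => Set.Icc (0:ℝ) 1)) := by
    ext x
    simp only [unitSq, Set.mem_ofPred_eq, Set.mem_preimage, Set.mem_pi, Set.mem_univ,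
      forall_true_left, Fin.forall_fin_two]
  rw [e, h, volume_pi_pi]
  simp

theorem volume_unitSqO : volume unitSqO = 1 := by
  have h := (PiLp.volume_preserving_ofLp (Fin 2)).measure_preimage
    (s := Set.pi Set.univ (fun _ => Set.Ioo (0:ℝ) 1))
    (MeasurableSet.univ_pi (fun _ => measurableSet_Ioo)).nullMeasurableSet
  have e : unitSqO =
      (@WithLp.ofLp 2 (Fin 2 → ℝ)) ⁻¹' (Set.pi Set.univ (fun _ => Set.Ioo (0:ℝ) 1)) := by
    ext x
    simp only [unitSqO, Set.mem_ofPred_eq, Set.mem_preimage, Set.mem_pi, Set.mem_univ,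
      forall_true_left, Fin.forall_fin_two]
  rw [e, h, volume_pi_pi]
  simp

theorem measurableSet_tri_prod :
    MeasurableSet {p : ℝ × ℝ | 0 ≤ p.1 ∧ 0 ≤ p.2 ∧ p.1 + p.2 ≤ 1} := by
  apply IsClosed.measurableSet
  apply IsClosed.inter (isClosed_le continuous_const continuous_fst)
  apply IsClosed.inter (isClosed_le continuous_const continuous_snd)
  exact isClosed_le (continuous_fst.add continuous_snd) continuous_const

theorem volume_tri_prod :
    volume {p : ℝ × ℝ | 0 ≤ p.1 ∧ 0 ≤ p.2 ∧ p.1 + p.2 ≤ 1} = ENNReal.ofReal (1 / 2) := by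
  rw [Measure.volume_eq_prod, Measure.prod_apply measurableSet_tri_prod]
  have key : ∀ x : ℝ, volume (Prod.mk x ⁻¹' {p : ℝ × ℝ | 0 ≤ p.1 ∧ 0 ≤ p.2 ∧ p.1 + p.2 ≤ 1}) =
      (Set.Icc (0:ℝ) 1).indicator (fun x => ENNReal.ofReal (1 - x)) x := by
    intro x
    by_cases hx : x ∈ Set.Icc (0:ℝ) 1
    · have : Prod.mk x ⁻¹' {p : ℝ × ℝ | 0 ≤ p.1 ∧ 0 ≤ p.2 ∧ p.1 + p.2 ≤ 1} =
          Set.Icc 0 (1 - x) := by
        ext y
        simp only [Set.mem_preimage, Set.mem_ofPred_eq, Set.mem_Icc]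
        constructor
        · intro h; exact ⟨h.2.1, by linarith [h.2.2]⟩
        · intro h; exact ⟨hx.1, h.1, by linarith [h.2]⟩
      rw [this, Real.volume_Icc, Set.indicator_of_mem hx]; simp
    · have : Prod.mk x ⁻¹' {p : ℝ × ℝ | 0 ≤ p.1 ∧ 0 ≤ p.2 ∧ p.1 + p.2 ≤ 1} = ∅ := by
        ext y
        simp only [Set.mem_preimage, Set.mem_ofPred_eq, Set.mem_empty_iff_false, iff_false]
        intro h
        exact hx ⟨h.1, by linarith [h.2.1, h.2.2]⟩
      rw [this, Set.indicator_of_notMem hx]; simp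
  simp_rw [key]
  rw [lintegral_indicator measurableSet_Icc,
    ← ofReal_integral_eq_lintegral_ofReal]
  · congr 1
    rw [integral_Icc_eq_integral_Ioc, ← intervalIntegral.integral_of_le zero_le_one]
    rw [intervalIntegral.integral_sub (by simp) (by simp)]
    simp
    norm_num
  · exact (continuous_const.sub continuous_id).continuousOn.integrableOn_Icc
  · filter_upwards [ae_restrict_mem measurableSet_Icc] with x hx
    simp only [Pi.zero_apply]
    linarith [hx.2]

theorem volume_unitTri : volume unitTri = ENNReal.ofReal (1 / 2) := by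
  have h1 := (PiLp.volume_preserving_ofLp (Fin 2)).measure_preimage
    (s := (MeasurableEquiv.finTwoArrow (α := ℝ)) ⁻¹'
      {p : ℝ × ℝ | 0 ≤ p.1 ∧ 0 ≤ p.2 ∧ p.1 + p.2 ≤ 1})
  have h2 := (volume_preserving_finTwoArrow ℝ).measure_preimage
    measurableSet_tri_prod.nullMeasurableSet
  have e : unitTri = (@WithLp.ofLp 2 (Fin 2 → ℝ)) ⁻¹' ((MeasurableEquiv.finTwoArrow (α := ℝ)) ⁻¹'
      {p : ℝ × ℝ | 0 ≤ p.1 ∧ 0 ≤ p.2 ∧ p.1 + p.2 ≤ 1}) := by
    ext x
    simp [unitTri, MeasurableEquiv.finTwoArrow]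
  rw [e, h1, h2, volume_tri_prod]
  exact ((MeasurableEquiv.finTwoArrow (α := ℝ)).measurable measurableSet_tri_prod).nullMeasurableSet

theorem parallelogram_eq_image (c a b : E) :
    {x | ∃ s ∈ Set.Icc (0:ℝ) 1, ∃ t ∈ Set.Icc (0:ℝ) 1, x = c + s • a + t • b} =
      (fun x => c + lin2 a b x) '' unitSq := by
  ext x
  constructor
  · rintro ⟨s, hs, t, ht, rfl⟩
    exact ⟨!₂[s, t], ⟨by simpa using hs, by simpa using ht⟩, by simp [add_assoc]⟩
  · rintro ⟨y, ⟨h0, h1⟩, rfl⟩
    exact ⟨y 0, h0, y 1, h1, by simp [add_assoc]⟩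

theorem parallelogramO_eq_image (c a b : E) :
    {x | ∃ s ∈ Set.Ioo (0:ℝ) 1, ∃ t ∈ Set.Ioo (0:ℝ) 1, x = c + s • a + t • b} =
      (fun x => c + lin2 a b x) '' unitSqO := by
  ext x
  constructor
  · rintro ⟨s, hs, t, ht, rfl⟩
    exact ⟨!₂[s, t], ⟨by simpa using hs, by simpa using ht⟩, by simp [add_assoc]⟩
  · rintro ⟨y, ⟨h0, h1⟩, rfl⟩
    exact ⟨y 0, h0, y 1, h1, by simp [add_assoc]⟩

theorem convex_unitTri : Convex ℝ unitTri := by
  intro x hx y hy s t hs ht hst
  obtain ⟨hx0, hx1, hx2⟩ := hx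
  obtain ⟨hy0, hy1, hy2⟩ := hy
  refine ⟨?_, ?_, ?_⟩
  · simp only [PiLp.add_apply, PiLp.smul_apply, smul_eq_mul]; positivity
  · simp only [PiLp.add_apply, PiLp.smul_apply, smul_eq_mul]; positivity
  · simp only [PiLp.add_apply, PiLp.smul_apply, smul_eq_mul]
    nlinarith

/-- A triangle is the affine image of the standard triangle. -/
theorem triangle_eq_image (p q r : E) :
    convexHull ℝ {p, q, r} = (fun x => p + lin2 (q - p) (r - p) x) '' unitTri := by
  apply Set.Subset.antisymm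
  · apply convexHull_min
    · intro x hx
      simp only [Set.mem_insert_iff, Set.mem_singleton_iff] at hx
      rcases hx with rfl | rfl | rfl
      · exact ⟨!₂[0, 0], ⟨by simp, by simp, by simp⟩, by simp⟩
      · exact ⟨!₂[1, 0], ⟨by simp, by simp, by simp⟩, by simp⟩
      · exact ⟨!₂[0, 1], ⟨by simp, by simp, by simp⟩, by simp⟩
    · rw [← Set.image_image (fun z => p + z) (lin2 (q - p) (r - p)) unitTri]
      exact (convex_unitTri.linear_image _).translate p
  · rintro _ ⟨y, ⟨h0, h1, h2⟩, rfl⟩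
    have hc := convex_convexHull ℝ ({p, q, r} : Set E)
    have := hc.sum_mem (t := Finset.univ) (w := ![1 - y 0 - y 1, y 0, y 1]) (z := ![p, q, r])
      (by
        intro i _
        fin_cases i <;> simp <;> linarith)
      (by simp only [Fin.sum_univ_three]; simp; ring)
      (by
        intro i _
        apply subset_convexHull
        fin_cases i <;> simp)
    convert this using 1
    simp [Fin.sum_univ_three, sub_smul, smul_sub]
    abel

/-- Membership in a triangle, in barycentric form based at the first vertex. -/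
theorem mem_triangle_iff (p q r x : E) :
    x ∈ convexHull ℝ {p, q, r} ↔
      ∃ s t : ℝ, 0 ≤ s ∧ 0 ≤ t ∧ s + t ≤ 1 ∧ x = p + s • (q - p) + t • (r - p) := by
  rw [triangle_eq_image]
  constructor
  · rintro ⟨y, ⟨h0, h1, h2⟩, rfl⟩
    exact ⟨y 0, y 1, h0, h1, h2, by simp [add_assoc]⟩
  · rintro ⟨s, t, hs, ht, hst, rfl⟩
    exact ⟨!₂[s, t], ⟨by simpa using hs, by simpa using ht, by simpa using hst⟩,
      by simp [add_assoc]⟩

variable [MeasurableSpace E] [BorelSpace E]

/-- Area of an affine image of a planar set. -/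
theorem area_lin2_image (c a b : E) (S : Set (EuclideanSpace ℝ (Fin 2))) :
    μHE[2] ((fun x => c + lin2 a b x) '' S) =
      ENNReal.ofReal (Real.sqrt (‖a‖ ^ 2 * ‖b‖ ^ 2 - inner ℝ a b ^ 2)) * volume S := by
  have h := LinearMap.euclideanHausdorffMeasure_image_eq_normDet_mul_volume (lin2 a b) S
  rw [finrank_euclideanSpace_fin, normDet_lin2] at h
  rw [← h, ← Set.image_image (fun y => c + y) (lin2 a b) S]
  exact (isometry_add_left c).euclideanHausdorffMeasure_image _

/-- (L1) Area of a closed parallelogram. -/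
theorem area_parallelogram (c a b : E) :
    μHE[2] {x | ∃ s ∈ Set.Icc (0:ℝ) 1, ∃ t ∈ Set.Icc (0:ℝ) 1, x = c + s • a + t • b} =
      ENNReal.ofReal (Real.sqrt (‖a‖ ^ 2 * ‖b‖ ^ 2 - inner ℝ a b ^ 2)) := by
  rw [parallelogram_eq_image, area_lin2_image, volume_unitSq, mul_one]

/-- (L3) Area of an open parallelogram. -/
theorem area_parallelogram_Ioo (c a b : E) :
    μHE[2] {x | ∃ s ∈ Set.Ioo (0:ℝ) 1, ∃ t ∈ Set.Ioo (0:ℝ) 1, x = c + s • a + t • b} =
      ENNReal.ofReal (Real.sqrt (‖a‖ ^ 2 * ‖b‖ ^ 2 - inner ℝ a b ^ 2)) := by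
  rw [parallelogramO_eq_image, area_lin2_image, volume_unitSqO, mul_one]

/-- (L3), blueprint name. -/
theorem area_parallelogram_open (c a b : E) :
    μHE[2] {x | ∃ s ∈ Set.Ioo (0:ℝ) 1, ∃ t ∈ Set.Ioo (0:ℝ) 1, x = c + s • a + t • b} =
      ENNReal.ofReal (Real.sqrt (‖a‖ ^ 2 * ‖b‖ ^ 2 - inner ℝ a b ^ 2)) :=
  area_parallelogram_Ioo c a b

/-- (L2) Area of a triangle. -/
theorem area_triangle (p q r : E) :
    μHE[2] (convexHull ℝ {p, q, r}) =
      ENNReal.ofReal (Real.sqrt (‖q - p‖ ^ 2 * ‖r - p‖ ^ 2 - inner ℝ (q - p) (r - p) ^ 2) / 2) := by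
  rw [triangle_eq_image, area_lin2_image, volume_unitTri,
    ← ENNReal.ofReal_mul (Real.sqrt_nonneg _)]
  congr 1
  ring

omit [InnerProductSpace ℝ E] in
/-- (L4) `μH[2]` is a positive constant multiple of `μHE[2]`. -/
theorem hausdorff_two_eq_const_mul :
    ∃ κ : ℝ, 0 < κ ∧ ∀ s : Set E, μH[(2:ℝ)] s = ENNReal.ofReal κ * μHE[2] s := by
  set c : NNReal := Measure.addHaarScalarFactor
    (volume : Measure (EuclideanSpace ℝ (Fin 2))) μH[((2:ℕ):ℝ)] with hc
  have hc0 : c ≠ 0 := by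
    intro h0
    have h1 := EuclideanSpace.euclideanHausdorffMeasure_eq_volume 2
    rw [Measure.euclideanHausdorffMeasure_def, ← hc, h0, zero_smul] at h1
    have h2 : (volume : Measure (EuclideanSpace ℝ (Fin 2))) Set.univ = 0 := by
      rw [← h1]; simp
    simp at h2
  refine ⟨(c : ℝ)⁻¹, by positivity, fun s => ?_⟩
  rw [Measure.euclideanHausdorffMeasure_def, ← hc, Measure.smul_apply]
  have : ENNReal.ofReal ((c:ℝ)⁻¹) = (c : ℝ≥0∞)⁻¹ := by
    rw [ENNReal.ofReal_inv_of_pos (by positivity)]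
    simp
  rw [this, ENNReal.smul_def, smul_eq_mul, ← mul_assoc,
    ENNReal.inv_mul_cancel (by simpa using hc0) (by simp), one_mul]
  norm_num

end general

section proj
variable {E : Type*} [NormedAddCommGroup E] [InnerProductSpace ℝ E]

/-- The map `y ↦ y - ⟪y, v⟫ • v` (orthogonal projection onto `v^⊥` for unit `v`), as a linear
map. -/
noncomputable def projL (v : E) : E →ₗ[ℝ] E where
  toFun y := y - inner ℝ y v • v
  map_add' x y := by simp [inner_add_left, add_smul]; abel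
  map_smul' c x := by simp [inner_smul_left, mul_smul, smul_sub]

@[simp] theorem projL_apply (v y : E) : projL v y = y - inner ℝ y v • v := rfl

theorem coe_projL (v : E) : ⇑(projL v) = fun y => y - inner ℝ y v • v := rfl

/-- A chart of the plane `v^⊥` of a three-dimensional space: a linear isometric embedding `ι` of
the Euclidean plane onto `v^⊥` and a linear left inverse `ψ` with `ι ∘ ψ` the orthogonal
projection. -/
theorem exists_plane_chart [FiniteDimensional ℝ E] (hE : Module.finrank ℝ E = 3) (v : E)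
    (hv : ‖v‖ = 1) :
    ∃ (ι : EuclideanSpace ℝ (Fin 2) →ₗᵢ[ℝ] E) (ψ : E →ₗ[ℝ] EuclideanSpace ℝ (Fin 2)),
      (∀ y, ι (ψ y) = y - inner ℝ y v • v) ∧ (∀ x, ψ (ι x) = x) ∧ (∀ x, inner ℝ (ι x) v = 0) := by
  have hv0 : v ≠ 0 := by
    intro h; rw [h] at hv; simp at hv
  have hfr : Module.finrank ℝ ((ℝ ∙ v)ᗮ : Submodule ℝ E) = 2 := by
    apply Submodule.finrank_add_finrank_orthogonal'
    rw [finrank_span_singleton hv0, hE]
  let b : OrthonormalBasis (Fin 2) ℝ ((ℝ ∙ v)ᗮ : Submodule ℝ E) :=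
    (stdOrthonormalBasis ℝ ((ℝ ∙ v)ᗮ : Submodule ℝ E)).reindex (finCongr hfr)
  refine ⟨((ℝ ∙ v)ᗮ : Submodule ℝ E).subtypeₗᵢ.comp b.repr.symm.toLinearIsometry,
    b.repr.toLinearMap ∘ₗ
      (((ℝ ∙ v)ᗮ : Submodule ℝ E).orthogonalProjectionOnto :
        E →L[ℝ] ((ℝ ∙ v)ᗮ : Submodule ℝ E)).toLinearMap,
    ?_, ?_, ?_⟩
  · intro y
    simp only [LinearIsometry.coe_comp, Function.comp_apply, LinearMap.coe_comp,
      LinearIsometryEquiv.coe_toLinearIsometry]
    simp only [LinearEquiv.coe_coe, LinearIsometryEquiv.coe_toLinearEquiv,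
      ContinuousLinearMap.coe_coe, LinearIsometryEquiv.symm_apply_apply, Submodule.coe_subtypeₗᵢ,
      Submodule.subtype_apply]
    rw [Submodule.coe_orthogonalProjectionOnto_apply, Submodule.starProjection_orthogonal_val,
      Submodule.starProjection_unit_singleton ℝ hv, real_inner_comm]
  · intro x
    simp only [LinearIsometry.coe_comp, Function.comp_apply, LinearMap.coe_comp,
      LinearIsometryEquiv.coe_toLinearIsometry, LinearEquiv.coe_coe,
      LinearIsometryEquiv.coe_toLinearEquiv, ContinuousLinearMap.coe_coe,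
      Submodule.coe_subtypeₗᵢ, Submodule.subtype_apply]
    rw [Submodule.orthogonalProjectionOnto_mem_subspace_eq_self]
    simp
  · intro x
    have : (((ℝ ∙ v)ᗮ : Submodule ℝ E).subtypeₗᵢ.comp b.repr.symm.toLinearIsometry) x ∈
        ((ℝ ∙ v)ᗮ : Submodule ℝ E) := by
      simp
    rw [Submodule.mem_orthogonal_singleton_iff_inner_left] at this
    exact this

variable [MeasurableSpace E] [BorelSpace E]

/-- In a chart `(ι, ψ)` of `v^⊥`, the area of the projection of any set `S` is the Lebesgue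
measure of `ψ '' S`. -/
theorem area_proj_image_eq_volume {v : E} (ι : EuclideanSpace ℝ (Fin 2) →ₗᵢ[ℝ] E)
    (ψ : E →ₗ[ℝ] EuclideanSpace ℝ (Fin 2)) (h1 : ∀ y, ι (ψ y) = y - inner ℝ y v • v)
    (S : Set E) :
    μHE[2] ((fun y => y - inner ℝ y v • v) '' S) = volume (ψ '' S) := by
  have : (fun y => y - inner ℝ y v • v) '' S = ι '' (ψ '' S) := by
    rw [Set.image_image]
    exact Set.image_congr (fun y _ => (h1 y).symm)
  rw [this, ι.isometry.euclideanHausdorffMeasure_image,
    EuclideanSpace.euclideanHausdorffMeasure_eq_volume]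

/-- In a chart `(ι, ψ)` of `v^⊥`, the area of a subset `B` of the plane `v^⊥` is the Lebesgue
measure of `ψ '' B`. -/
theorem area_eq_volume_chart {v : E} (ι : EuclideanSpace ℝ (Fin 2) →ₗᵢ[ℝ] E)
    (ψ : E →ₗ[ℝ] EuclideanSpace ℝ (Fin 2)) (h1 : ∀ y, ι (ψ y) = y - inner ℝ y v • v)
    (B : Set E) (hB : ∀ x ∈ B, inner ℝ x v = 0) :
    μHE[2] B = volume (ψ '' B) := by
  rw [← area_proj_image_eq_volume ι ψ h1 B]
  congr 1
  ext x
  constructor
  · intro hx
    exact ⟨x, hx, by simp [hB x hx]⟩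
  · rintro ⟨y, hy, rfl⟩
    simpa [hB y hy] using hy

/-- The area of the image of a set of the Euclidean plane under the chart embedding. -/
theorem area_chart_image (ι : EuclideanSpace ℝ (Fin 2) →ₗᵢ[ℝ] E)
    (U : Set (EuclideanSpace ℝ (Fin 2))) :
    μHE[2] (ι '' U) = volume U := by
  rw [ι.isometry.euclideanHausdorffMeasure_image,
    EuclideanSpace.euclideanHausdorffMeasure_eq_volume]

end proj

end Crest.Agent.R211
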