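/-
Row 211 (S0324–S0329): parameter-agnostic geometric glue for the explicit cylinder cover of the
standard regular tetrahedron `K = conv{(±1,0,0),(0,±1,√2)}`.

A "sector" is given by five reals `(A, B, t₁, t₂, ρ)`: in the plane `x = 0`, with coordinates
`(τ, y)`, `τ = z/√2`, it is the triangle with vertices `(0,0)`, `(ρ, ρ t₁)`, `(ρ, ρ t₂)`, swept in
the `x`–direction with `(τ, y)`–velocity `(B, A)`.  The upper family is the image of the lower one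
under the isometry `Ψ(x,y,z) = (y, -x, √2 - z)` of `K`.

Main result: `fan_cover_of_real` — any cover of `{|y| ≤ τ, |x| ≤ 1 - τ}` by such sectors (a
statement purely about real numbers) yields a family of triangular cylinders in `ℝ³` covering `K`,
with total (Gram-form) base area `√2 · Σ ρᵢ² (t₂ᵢ - t₁ᵢ) / √(1 + Aᵢ² + 2 Bᵢ²)`.
-/
import Mathlib

set_option autoImplicit false

open scoped RealInnerProductSpace

namespace Crest.Agent.R211

/-- Sector membership in real coordinates `x = v 0`, `y = v 1`, `τ = v 2 / √2`: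
slopes `t₁ < t₂`, apex at the origin, height `ρ`, swept with `(τ, y)`-velocity `(B, A)`. -/
def SecMem (A B t₁ t₂ ρ x y τ : ℝ) : Prop :=
  t₁ * (τ - x * B) ≤ y - x * A ∧ y - x * A ≤ t₂ * (τ - x * B) ∧ τ - x * B ≤ ρ

namespace CylGeom

local notation "E3" => EuclideanSpace ℝ (Fin 3)

theorem inner3 (v w : E3) : inner ℝ v w = v 0 * w 0 + v 1 * w 1 + v 2 * w 2 := by
  simp [PiLp.inner_apply, Fin.sum_univ_three]; ring

theorem normsq3 (v : E3) : ‖v‖ ^ 2 = v 0 ^ 2 + v 1 ^ 2 + v 2 ^ 2 := by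
  rw [← real_inner_self_eq_norm_sq, inner3]; ring

theorem ext3 {v w : E3} (h0 : v 0 = w 0) (h1 : v 1 = w 1) (h2 : v 2 = w 2) : v = w := by
  ext i; fin_cases i <;> simp_all

/-- Orthogonal projection along the (unit) vector `u`. -/
noncomputable def prj (u v : E3) : E3 := v - inner ℝ v u • u

theorem inner_prj (u v : E3) (hu : ‖u‖ = 1) : inner ℝ (prj u v) u = 0 := by
  simp [prj, inner_sub_left, inner_smul_left, hu]

theorem prj_sub (u v w : E3) : prj u v - prj u w = prj u (v - w) := by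
  simp only [prj, inner_sub_left, sub_smul]; abel

theorem norm_prj_sq (u a : E3) (hu : ‖u‖ = 1) :
    ‖prj u a‖ ^ 2 = ‖a‖ ^ 2 - inner ℝ a u ^ 2 := by
  rw [← real_inner_self_eq_norm_sq, ← real_inner_self_eq_norm_sq]
  simp only [prj, inner_sub_left, inner_sub_right, inner_smul_left, inner_smul_right,
    real_inner_self_eq_norm_sq, hu, real_inner_comm u a]
  simp; ring

theorem inner_prj_prj (u a b : E3) (hu : ‖u‖ = 1) :
    inner ℝ (prj u a) (prj u b) = inner ℝ a b - inner ℝ a u * inner ℝ b u := by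
  simp only [prj, inner_sub_left, inner_sub_right, inner_smul_left, inner_smul_right,
    real_inner_self_eq_norm_sq, hu, real_inner_comm u b]
  simp

/-- Gram identity: the Gram determinant of the projections of `a, b` along the unit vector `u`
is the square of `det [a, b, u]`. -/
theorem gram_prj (u a b : E3) (hu : ‖u‖ = 1) :
    ‖prj u a‖ ^ 2 * ‖prj u b‖ ^ 2 - inner ℝ (prj u a) (prj u b) ^ 2 =
      (a 0 * (b 1 * u 2 - b 2 * u 1) - a 1 * (b 0 * u 2 - b 2 * u 0)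
        + a 2 * (b 0 * u 1 - b 1 * u 0)) ^ 2 := by
  have hu' : u 0 ^ 2 + u 1 ^ 2 + u 2 ^ 2 = 1 := by rw [← normsq3, hu]; norm_num
  rw [norm_prj_sq u a hu, norm_prj_sq u b hu, inner_prj_prj u a b hu, normsq3, normsq3,
    inner3, inner3, inner3]
  linear_combination (-((a 0 ^ 2 + a 1 ^ 2 + a 2 ^ 2) * (b 0 ^ 2 + b 1 ^ 2 + b 2 ^ 2)
    - (a 0 * b 0 + a 1 * b 1 + a 2 * b 2) ^ 2)) * hu'

/-- A barycentric combination of `P, Q, R` plus a multiple of `u` lies in the cylinder over the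
projected triangle. -/
theorem mem_cyl_of_bary (u P Q R X : E3) (l₁ l₂ l₃ s : ℝ) (h₁ : 0 ≤ l₁) (h₂ : 0 ≤ l₂)
    (h₃ : 0 ≤ l₃) (hsum : l₁ + l₂ + l₃ = 1) (hX : X = l₁ • P + l₂ • Q + l₃ • R + s • u) :
    X ∈ {x : E3 | ∃ b ∈ convexHull ℝ {prj u P, prj u Q, prj u R}, ∃ t : ℝ, x = b + t • u} := by
  refine ⟨l₁ • prj u P + l₂ • prj u Q + l₃ • prj u R, ?_,
    s + l₁ * inner ℝ P u + l₂ * inner ℝ Q u + l₃ * inner ℝ R u, ?_⟩
  · have hc := convex_convexHull ℝ ({prj u P, prj u Q, prj u R} : Set E3)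
    have hP : prj u P ∈ convexHull ℝ ({prj u P, prj u Q, prj u R} : Set E3) :=
      subset_convexHull ℝ _ (by simp)
    have hQ : prj u Q ∈ convexHull ℝ ({prj u P, prj u Q, prj u R} : Set E3) :=
      subset_convexHull ℝ _ (by simp)
    have hR : prj u R ∈ convexHull ℝ ({prj u P, prj u Q, prj u R} : Set E3) :=
      subset_convexHull ℝ _ (by simp)
    have key := hc.sum_mem (t := (Finset.univ : Finset (Fin 3))) (w := ![l₁, l₂, l₃])
      (z := ![prj u P, prj u Q, prj u R])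
      (by intro i _; fin_cases i <;> simp [h₁, h₂, h₃])
      (by simp [Fin.sum_univ_three, hsum])
      (by intro i _; fin_cases i <;> simp [hP, hQ, hR])
    simpa [Fin.sum_univ_three] using key
  · rw [hX]; simp only [prj]; module

/-- Unit direction of a lower cylinder with `(τ, y)`-velocity `(B, A)`. -/
noncomputable def lowU (A B : ℝ) : E3 :=
  (Real.sqrt (1 + A ^ 2 + 2 * B ^ 2))⁻¹ • !₂[1, A, Real.sqrt 2 * B]

/-- Far vertices of the section triangle of a lower cylinder. -/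
noncomputable def lowV (ρ t : ℝ) : E3 := !₂[0, ρ * t, Real.sqrt 2 * ρ]

/-- Unit direction of an upper cylinder. -/
noncomputable def upU (A B : ℝ) : E3 :=
  (Real.sqrt (1 + A ^ 2 + 2 * B ^ 2))⁻¹ • !₂[A, -1, -(Real.sqrt 2 * B)]

/-- Apex of the section triangle of an upper cylinder. -/
noncomputable def upApex : E3 := !₂[0, 0, Real.sqrt 2]

/-- Far vertices of the section triangle of an upper cylinder. -/
noncomputable def upV (ρ t : ℝ) : E3 := !₂[ρ * t, 0, Real.sqrt 2 * (1 - ρ)]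

theorem sqrtN_pos (A B : ℝ) : 0 < Real.sqrt (1 + A ^ 2 + 2 * B ^ 2) :=
  Real.sqrt_pos.mpr (by positivity)

theorem sqrtN_sq (A B : ℝ) : Real.sqrt (1 + A ^ 2 + 2 * B ^ 2) ^ 2 = 1 + A ^ 2 + 2 * B ^ 2 :=
  Real.sq_sqrt (by positivity)

theorem sqrt2_sq : Real.sqrt 2 ^ 2 = 2 := Real.sq_sqrt (by norm_num)

theorem norm_lowU (A B : ℝ) : ‖lowU A B‖ = 1 := by
  have hN := sqrtN_sq A B
  have hN0 := sqrtN_pos A B
  have h : ‖lowU A B‖ ^ 2 = 1 ^ 2 := by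
    rw [normsq3]
    simp only [lowU, PiLp.smul_apply, smul_eq_mul]
    simp
    have h2 := sqrt2_sq
    field_simp
    nlinarith
  exact (pow_left_inj₀ (norm_nonneg _) zero_le_one two_ne_zero).mp h

theorem norm_upU (A B : ℝ) : ‖upU A B‖ = 1 := by
  have hN := sqrtN_sq A B
  have hN0 := sqrtN_pos A B
  have h : ‖upU A B‖ ^ 2 = 1 ^ 2 := by
    rw [normsq3]
    simp only [upU, PiLp.smul_apply, smul_eq_mul]
    simp
    have h2 := sqrt2_sq
    field_simp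
    nlinarith
  exact (pow_left_inj₀ (norm_nonneg _) zero_le_one two_ne_zero).mp h


/-- A point in a lower sector lies in the corresponding triangular cylinder. -/
theorem low_mem (A B t₁ t₂ ρ : ℝ) (ht : t₁ < t₂) (hρ : 0 < ρ) (v : E3)
    (h : SecMem A B t₁ t₂ ρ (v 0) (v 1) (v 2 / Real.sqrt 2)) :
    v ∈ {x : E3 | ∃ b ∈ convexHull ℝ {prj (lowU A B) 0, prj (lowU A B) (lowV ρ t₁),
      prj (lowU A B) (lowV ρ t₂)}, ∃ t : ℝ, x = b + t • lowU A B} := by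
  obtain ⟨h1, h2, h3⟩ := h
  have hN0 := sqrtN_pos A B
  have hs2 : (0:ℝ) < Real.sqrt 2 := Real.sqrt_pos.mpr (by norm_num)
  obtain ⟨N, hN⟩ : ∃ N : ℝ, N = Real.sqrt (1 + A ^ 2 + 2 * B ^ 2) := ⟨_, rfl⟩
  obtain ⟨τ', hτ'⟩ : ∃ τ' : ℝ, τ' = v 2 / Real.sqrt 2 - v 0 * B := ⟨_, rfl⟩
  obtain ⟨y', hy'⟩ : ∃ y' : ℝ, y' = v 1 - v 0 * A := ⟨_, rfl⟩
  rw [← hτ', ← hy'] at h1 h2
  rw [← hτ'] at h3
  rw [← hN] at hN0
  have hd : 0 < ρ * (t₂ - t₁) := mul_pos hρ (sub_pos.mpr ht)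
  have hτ'0 : 0 ≤ τ' := by nlinarith
  have e1 : (t₂ * τ' - y') / (ρ * (t₂ - t₁)) * (ρ * t₁)
      + (y' - t₁ * τ') / (ρ * (t₂ - t₁)) * (ρ * t₂) = y' := by
    have h1' : ρ ≠ 0 := hρ.ne'
    have h2' : t₂ - t₁ ≠ 0 := (sub_pos.mpr ht).ne'
    field_simp; ring
  have e2 : (t₂ * τ' - y') / (ρ * (t₂ - t₁)) * ρ + (y' - t₁ * τ') / (ρ * (t₂ - t₁)) * ρ = τ' := by
    have h1' : ρ ≠ 0 := hρ.ne'
    have h2' : t₂ - t₁ ≠ 0 := (sub_pos.mpr ht).ne'
    field_simp; ring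
  have e3 : Real.sqrt 2 * τ' = v 2 - Real.sqrt 2 * (v 0 * B) := by
    rw [hτ']; field_simp
  have e4 : N * N⁻¹ = 1 := mul_inv_cancel₀ hN0.ne'
  refine mem_cyl_of_bary (lowU A B) 0 (lowV ρ t₁) (lowV ρ t₂) v (1 - τ' / ρ)
    ((t₂ * τ' - y') / (ρ * (t₂ - t₁))) ((y' - t₁ * τ') / (ρ * (t₂ - t₁))) (v 0 * N)
    ?_ ?_ ?_ ?_ ?_
  · rw [sub_nonneg, div_le_one hρ]; exact h3
  · exact div_nonneg (by linarith) hd.le
  · exact div_nonneg (by linarith) hd.le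
  · have h1' : ρ ≠ 0 := hρ.ne'
    have h2' : t₂ - t₁ ≠ 0 := (sub_pos.mpr ht).ne'
    field_simp; ring
  · apply ext3
    · simp only [lowU, lowV, ← hN]
      simp
      linear_combination (-(v 0)) * e4
    · simp only [lowU, lowV, ← hN]
      simp
      linear_combination (-1 : ℝ) * e1 - hy' - (v 0 * A) * e4
    · simp only [lowU, lowV, ← hN]
      simp
      linear_combination (-(Real.sqrt 2)) * e2 - e3 - (v 0 * (Real.sqrt 2 * B)) * e4

/-- A point whose `Ψ⁻¹`-image lies in a sector lies in the corresponding upper cylinder. -/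
theorem up_mem (A B t₁ t₂ ρ : ℝ) (ht : t₁ < t₂) (hρ : 0 < ρ) (v : E3)
    (h : SecMem A B t₁ t₂ ρ (-(v 1)) (v 0) (1 - v 2 / Real.sqrt 2)) :
    v ∈ {x : E3 | ∃ b ∈ convexHull ℝ {prj (upU A B) upApex, prj (upU A B) (upV ρ t₁),
      prj (upU A B) (upV ρ t₂)}, ∃ t : ℝ, x = b + t • upU A B} := by
  obtain ⟨h1, h2, h3⟩ := h
  have hN0 := sqrtN_pos A B
  have hs2 : (0:ℝ) < Real.sqrt 2 := Real.sqrt_pos.mpr (by norm_num)
  obtain ⟨N, hN⟩ : ∃ N : ℝ, N = Real.sqrt (1 + A ^ 2 + 2 * B ^ 2) := ⟨_, rfl⟩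
  obtain ⟨τ', hτ'⟩ : ∃ τ' : ℝ, τ' = 1 - v 2 / Real.sqrt 2 - -(v 1) * B := ⟨_, rfl⟩
  obtain ⟨y', hy'⟩ : ∃ y' : ℝ, y' = v 0 - -(v 1) * A := ⟨_, rfl⟩
  rw [← hτ', ← hy'] at h1 h2
  rw [← hτ'] at h3
  rw [← hN] at hN0
  have hd : 0 < ρ * (t₂ - t₁) := mul_pos hρ (sub_pos.mpr ht)
  have hτ'0 : 0 ≤ τ' := by nlinarith
  have e1 : (t₂ * τ' - y') / (ρ * (t₂ - t₁)) * (ρ * t₁)
      + (y' - t₁ * τ') / (ρ * (t₂ - t₁)) * (ρ * t₂) = y' := by
    have h1' : ρ ≠ 0 := hρ.ne'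
    have h2' : t₂ - t₁ ≠ 0 := (sub_pos.mpr ht).ne'
    field_simp; ring
  have e2 : (t₂ * τ' - y') / (ρ * (t₂ - t₁)) * ρ + (y' - t₁ * τ') / (ρ * (t₂ - t₁)) * ρ = τ' := by
    have h1' : ρ ≠ 0 := hρ.ne'
    have h2' : t₂ - t₁ ≠ 0 := (sub_pos.mpr ht).ne'
    field_simp; ring
  have e3 : Real.sqrt 2 * τ' = Real.sqrt 2 - v 2 + Real.sqrt 2 * (v 1 * B) := by
    rw [hτ']; field_simp; ring
  have e4 : N * N⁻¹ = 1 := mul_inv_cancel₀ hN0.ne'
  have e5 : τ' / ρ * ρ = τ' := div_mul_cancel₀ _ hρ.ne'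
  refine mem_cyl_of_bary (upU A B) upApex (upV ρ t₁) (upV ρ t₂) v (1 - τ' / ρ)
    ((t₂ * τ' - y') / (ρ * (t₂ - t₁))) ((y' - t₁ * τ') / (ρ * (t₂ - t₁))) (-(v 1) * N)
    ?_ ?_ ?_ ?_ ?_
  · rw [sub_nonneg, div_le_one hρ]; exact h3
  · exact div_nonneg (by linarith) hd.le
  · exact div_nonneg (by linarith) hd.le
  · have h1' : ρ ≠ 0 := hρ.ne'
    have h2' : t₂ - t₁ ≠ 0 := (sub_pos.mpr ht).ne'
    field_simp; ring
  · apply ext3
    · simp only [upU, upApex, upV, ← hN]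
      simp
      linear_combination (-1 : ℝ) * e1 - hy' + (v 1 * A) * e4
    · simp only [upU, upApex, upV, ← hN]
      simp
      linear_combination (-(v 1)) * e4
    · simp only [upU, upApex, upV, ← hN]
      simp
      have e6 : (t₂ * τ' - y') / (ρ * (t₂ - t₁)) + (y' - t₁ * τ') / (ρ * (t₂ - t₁)) = τ' / ρ := by
        rw [eq_div_iff hρ.ne']; linear_combination e2
      linear_combination e3 + Real.sqrt 2 * e5 - (Real.sqrt 2 * (1 - ρ)) * e6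
        - (v 1 * (Real.sqrt 2 * B)) * e4


/-- Gram-form area of the base triangle of a lower cylinder. -/
theorem low_area (A B t₁ t₂ ρ : ℝ) (ht : t₁ ≤ t₂) :
    Real.sqrt (‖prj (lowU A B) (lowV ρ t₁) - prj (lowU A B) 0‖ ^ 2 *
        ‖prj (lowU A B) (lowV ρ t₂) - prj (lowU A B) 0‖ ^ 2 -
        inner ℝ (prj (lowU A B) (lowV ρ t₁) - prj (lowU A B) 0)
          (prj (lowU A B) (lowV ρ t₂) - prj (lowU A B) 0) ^ 2) / 2 =
      Real.sqrt 2 * (ρ ^ 2 * (t₂ - t₁) / Real.sqrt (1 + A ^ 2 + 2 * B ^ 2)) / 2 := by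
  have hN0 := sqrtN_pos A B
  have hs2 : (0:ℝ) ≤ Real.sqrt 2 := Real.sqrt_nonneg _
  have hX : 0 ≤ Real.sqrt 2 * (ρ ^ 2 * (t₂ - t₁) / Real.sqrt (1 + A ^ 2 + 2 * B ^ 2)) := by
    apply mul_nonneg hs2
    apply div_nonneg _ hN0.le
    exact mul_nonneg (sq_nonneg _) (sub_nonneg.mpr ht)
  have key : ‖prj (lowU A B) (lowV ρ t₁) - prj (lowU A B) 0‖ ^ 2 *
        ‖prj (lowU A B) (lowV ρ t₂) - prj (lowU A B) 0‖ ^ 2 -
        inner ℝ (prj (lowU A B) (lowV ρ t₁) - prj (lowU A B) 0)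
          (prj (lowU A B) (lowV ρ t₂) - prj (lowU A B) 0) ^ 2 =
      (Real.sqrt 2 * (ρ ^ 2 * (t₂ - t₁) / Real.sqrt (1 + A ^ 2 + 2 * B ^ 2))) ^ 2 := by
    rw [prj_sub, prj_sub, gram_prj _ _ _ (norm_lowU A B)]
    simp only [lowU, lowV]
    simp
    field_simp
    ring
  rw [key, Real.sqrt_sq hX]

/-- Gram-form area of the base triangle of an upper cylinder. -/
theorem up_area (A B t₁ t₂ ρ : ℝ) (ht : t₁ ≤ t₂) :
    Real.sqrt (‖prj (upU A B) (upV ρ t₁) - prj (upU A B) upApex‖ ^ 2 *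
        ‖prj (upU A B) (upV ρ t₂) - prj (upU A B) upApex‖ ^ 2 -
        inner ℝ (prj (upU A B) (upV ρ t₁) - prj (upU A B) upApex)
          (prj (upU A B) (upV ρ t₂) - prj (upU A B) upApex) ^ 2) / 2 =
      Real.sqrt 2 * (ρ ^ 2 * (t₂ - t₁) / Real.sqrt (1 + A ^ 2 + 2 * B ^ 2)) / 2 := by
  have hN0 := sqrtN_pos A B
  have hs2 : (0:ℝ) ≤ Real.sqrt 2 := Real.sqrt_nonneg _
  have hX : 0 ≤ Real.sqrt 2 * (ρ ^ 2 * (t₂ - t₁) / Real.sqrt (1 + A ^ 2 + 2 * B ^ 2)) := by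
    apply mul_nonneg hs2
    apply div_nonneg _ hN0.le
    exact mul_nonneg (sq_nonneg _) (sub_nonneg.mpr ht)
  have key : ‖prj (upU A B) (upV ρ t₁) - prj (upU A B) upApex‖ ^ 2 *
        ‖prj (upU A B) (upV ρ t₂) - prj (upU A B) upApex‖ ^ 2 -
        inner ℝ (prj (upU A B) (upV ρ t₁) - prj (upU A B) upApex)
          (prj (upU A B) (upV ρ t₂) - prj (upU A B) upApex) ^ 2 =
      (Real.sqrt 2 * (ρ ^ 2 * (t₂ - t₁) / Real.sqrt (1 + A ^ 2 + 2 * B ^ 2))) ^ 2 := by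
    rw [prj_sub, prj_sub, gram_prj _ _ _ (norm_upU A B)]
    simp only [upU, upV, upApex]
    simp
    field_simp
    ring
  rw [key, Real.sqrt_sq hX]

end CylGeom

open CylGeom in
/-- Coordinates on the standard tetrahedron: with `τ = z/√2`, `|y| ≤ τ` and `|x| ≤ 1 - τ`. -/
theorem Kstd_coords {v : EuclideanSpace ℝ (Fin 3)}
    (hv : v ∈ convexHull ℝ ({!₂[1, 0, 0], !₂[-1, 0, 0], !₂[0, 1, Real.sqrt 2],
      !₂[0, -1, Real.sqrt 2]} : Set (EuclideanSpace ℝ (Fin 3)))) :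
    |v 1| ≤ v 2 / Real.sqrt 2 ∧ |v 0| ≤ 1 - v 2 / Real.sqrt 2 := by
  have hs2 : (0:ℝ) < Real.sqrt 2 := Real.sqrt_pos.mpr (by norm_num)
  have hconv : Convex ℝ {v : EuclideanSpace ℝ (Fin 3) |
      |v 1| ≤ v 2 / Real.sqrt 2 ∧ |v 0| ≤ 1 - v 2 / Real.sqrt 2} := by
    intro x hx y hy a b ha hb hab
    simp only [Set.mem_ofPred_eq, abs_le] at hx hy ⊢
    simp only [PiLp.add_apply, PiLp.smul_apply, smul_eq_mul]
    have e : (a * x 2 + b * y 2) / Real.sqrt 2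
        = a * (x 2 / Real.sqrt 2) + b * (y 2 / Real.sqrt 2) := by ring
    rw [e]
    obtain ⟨⟨hx1, hx2⟩, hx3, hx4⟩ := hx
    obtain ⟨⟨hy1, hy2⟩, hy3, hy4⟩ := hy
    have p1 := mul_le_mul_of_nonneg_left hx1 ha
    have p2 := mul_le_mul_of_nonneg_left hx2 ha
    have p3 := mul_le_mul_of_nonneg_left hx3 ha
    have p4 := mul_le_mul_of_nonneg_left hx4 ha
    have q1 := mul_le_mul_of_nonneg_left hy1 hb
    have q2 := mul_le_mul_of_nonneg_left hy2 hb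
    have q3 := mul_le_mul_of_nonneg_left hy3 hb
    have q4 := mul_le_mul_of_nonneg_left hy4 hb
    have hb' : b = 1 - a := by linarith
    subst hb'
    refine ⟨⟨?_, ?_⟩, ?_, ?_⟩ <;> nlinarith
  have hsub : ({!₂[1, 0, 0], !₂[-1, 0, 0], !₂[0, 1, Real.sqrt 2],
      !₂[0, -1, Real.sqrt 2]} : Set (EuclideanSpace ℝ (Fin 3))) ⊆
      {v : EuclideanSpace ℝ (Fin 3) |
        |v 1| ≤ v 2 / Real.sqrt 2 ∧ |v 0| ≤ 1 - v 2 / Real.sqrt 2} := by
    intro p hp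
    have hdiv : Real.sqrt 2 / Real.sqrt 2 = 1 := div_self hs2.ne'
    simp only [Set.mem_insert_iff, Set.mem_singleton_iff] at hp
    rcases hp with rfl | rfl | rfl | rfl <;> simp
  exact convexHull_min hsub hconv hv

open CylGeom in
/-- **Glue theorem.** Any cover of `{|y| ≤ τ, |x| ≤ 1 - τ}` by lower sectors and `Ψ`-images of
sectors gives a family of `n + n` triangular cylinders in `ℝ³` covering the standard regular
tetrahedron, with total Gram-form base area `√2 · Σ ρᵢ² (t₂ᵢ - t₁ᵢ) / √(1 + Aᵢ² + 2 Bᵢ²)`. -/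
theorem fan_cover_of_real {n : ℕ} (A B t₁ t₂ ρ : Fin n → ℝ) (ht : ∀ i, t₁ i < t₂ i)
    (hρ : ∀ i, 0 < ρ i)
    (hcov : ∀ x y τ : ℝ, |y| ≤ τ → |x| ≤ 1 - τ →
      (∃ i, SecMem (A i) (B i) (t₁ i) (t₂ i) (ρ i) x y τ) ∨
      (∃ i, SecMem (A i) (B i) (t₁ i) (t₂ i) (ρ i) (-y) x (1 - τ))) :
    ∃ (u p q r : Fin (n + n) → EuclideanSpace ℝ (Fin 3)),
      (∀ i, ‖u i‖ = 1) ∧
      (∀ i, inner ℝ (p i) (u i) = 0 ∧ inner ℝ (q i) (u i) = 0 ∧ inner ℝ (r i) (u i) = 0) ∧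
      convexHull ℝ ({!₂[1, 0, 0], !₂[-1, 0, 0], !₂[0, 1, Real.sqrt 2],
          !₂[0, -1, Real.sqrt 2]} : Set (EuclideanSpace ℝ (Fin 3))) ⊆
        ⋃ i, {x : EuclideanSpace ℝ (Fin 3) |
          ∃ b ∈ convexHull ℝ {p i, q i, r i}, ∃ t : ℝ, x = b + t • u i} ∧
      ∑ i, Real.sqrt (‖q i - p i‖ ^ 2 * ‖r i - p i‖ ^ 2
          - inner ℝ (q i - p i) (r i - p i) ^ 2) / 2 =
        Real.sqrt 2 * ∑ i, ρ i ^ 2 * (t₂ i - t₁ i) / Real.sqrt (1 + A i ^ 2 + 2 * B i ^ 2) := by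
  refine ⟨Fin.addCases (fun i => lowU (A i) (B i)) (fun i => upU (A i) (B i)),
    Fin.addCases (fun i => prj (lowU (A i) (B i)) 0) (fun i => prj (upU (A i) (B i)) upApex),
    Fin.addCases (fun i => prj (lowU (A i) (B i)) (lowV (ρ i) (t₁ i)))
      (fun i => prj (upU (A i) (B i)) (upV (ρ i) (t₁ i))),
    Fin.addCases (fun i => prj (lowU (A i) (B i)) (lowV (ρ i) (t₂ i)))
      (fun i => prj (upU (A i) (B i)) (upV (ρ i) (t₂ i))), ?_, ?_, ?_, ?_⟩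
  · intro i
    refine Fin.addCases (fun j => ?_) (fun j => ?_) i
    · simp only [Fin.addCases_left]; exact norm_lowU _ _
    · simp only [Fin.addCases_right]; exact norm_upU _ _
  · intro i
    refine Fin.addCases (fun j => ?_) (fun j => ?_) i
    · simp only [Fin.addCases_left]
      exact ⟨inner_prj _ _ (norm_lowU _ _), inner_prj _ _ (norm_lowU _ _),
        inner_prj _ _ (norm_lowU _ _)⟩
    · simp only [Fin.addCases_right]
      exact ⟨inner_prj _ _ (norm_upU _ _), inner_prj _ _ (norm_upU _ _),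
        inner_prj _ _ (norm_upU _ _)⟩
  · intro v hv
    obtain ⟨h1, h2⟩ := Kstd_coords hv
    rcases hcov (v 0) (v 1) (v 2 / Real.sqrt 2) h1 h2 with ⟨i, hi⟩ | ⟨i, hi⟩
    · refine Set.mem_iUnion.mpr ⟨Fin.castAdd n i, ?_⟩
      simp only [Fin.addCases_left]
      exact low_mem _ _ _ _ _ (ht i) (hρ i) v hi
    · refine Set.mem_iUnion.mpr ⟨Fin.natAdd n i, ?_⟩
      simp only [Fin.addCases_right]
      exact up_mem _ _ _ _ _ (ht i) (hρ i) v hi
  · rw [Fin.sum_univ_add]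
    simp only [Fin.addCases_left, Fin.addCases_right]
    rw [← Finset.sum_add_distrib, Finset.mul_sum]
    refine Finset.sum_congr rfl (fun i _ => ?_)
    rw [low_area _ _ _ _ _ (ht i).le, up_area _ _ _ _ _ (ht i).le]
    ring

end Crest.Agent.R211
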