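/-
Row 211 (S0324–S0329): shared name of the standard regular tetrahedron.  Owner: helper27.
(The explicit-cover definitions that used to live here were withdrawn; see blueprints/row211.md.)
-/
import Mathlib

set_option autoImplicit false

namespace Crest.Agent.R211

/-- The standard regular tetrahedron of S0324/S0325. -/
def K : Set (EuclideanSpace ℝ (Fin 3)) :=
  convexHull ℝ {!₂[1, 0, 0], !₂[-1, 0, 0], !₂[0, 1, Real.sqrt 2], !₂[0, -1, Real.sqrt 2]}

end Crest.Agent.R211
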