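/-
Row 211 (S0324–S0329): concrete parameters of the explicit fan cover of the standard tetrahedron
(the scheme of board #69: `κ = 1/100`, `40001` sectors per family, uniform nodes), and elementary
facts about the nodes.  Owner: helper20.
-/
import Mathlib

set_option autoImplicit false

namespace Crest.Agent.R211

/-- number of sectors in each of the two families -/
def fanN : ℕ := 40001

/-- shear parameter `κ` -/
noncomputable def fanKap : ℝ := 1 / 100

/-- half mesh `μ = 1 / (fanN - 1)` -/
noncomputable def fanMu : ℝ := 1 / 40000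

/-- Extended nodes: `fanS 0 = fanS 1 = -1`, `fanS k = -1 + (k - 1) / 20000` for `1 ≤ k ≤ 40001`,
`fanS 40001 = fanS 40002 = 1`. -/
noncomputable def fanS (k : ℕ) : ℝ := max (-1) (min 1 (-1 + ((k : ℝ) - 1) / 20000))

/-- the constant `c = 1 - κ - κ² - κ μ (1 + κ)` -/
noncomputable def fanC : ℝ := 1 - fanKap - fanKap ^ 2 - fanKap * fanMu * (1 + fanKap)

/-- reach of sector `k` -/
noncomputable def fanP (k : ℕ) : ℝ :=
  1 / 2 + (fanKap ^ 2 * (fanS k ^ 2 + fanS k ^ 4) / 4 + fanKap * fanMu * (1 + fanKap) / 2) / fanC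

theorem fanS_zero : fanS 0 = -1 := by
  unfold fanS; norm_num

theorem fanS_one : fanS 1 = -1 := by
  unfold fanS; norm_num

theorem fanS_last : fanS fanN = 1 := by
  unfold fanS fanN; norm_num

theorem fanS_last_succ : fanS (fanN + 1) = 1 := by
  unfold fanS fanN; norm_num

theorem fanS_ge (k : ℕ) : -1 ≤ fanS k := le_max_left _ _

theorem fanS_le (k : ℕ) : fanS k ≤ 1 := max_le (by norm_num) (min_le_left _ _)

theorem fanS_abs (k : ℕ) : |fanS k| ≤ 1 := abs_le.2 ⟨fanS_ge k, fanS_le k⟩

/-- interior nodes are not clamped -/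
theorem fanS_interior (k : ℕ) (h1 : 1 ≤ k) (h2 : k ≤ fanN) :
    fanS k = -1 + ((k : ℝ) - 1) / 20000 := by
  have h1' : (1 : ℝ) ≤ k := by exact_mod_cast h1
  have h2' : (k : ℝ) ≤ 40001 := by
    have : (k : ℝ) ≤ (fanN : ℝ) := by exact_mod_cast h2
    simpa [fanN] using this
  unfold fanS
  rw [min_eq_right (by linarith), max_eq_right (by linarith)]

theorem fanS_mono (k : ℕ) : fanS k ≤ fanS (k + 1) := by
  unfold fanS
  apply max_le_max le_rfl
  apply min_le_min le_rfl
  push_cast
  linarith

theorem fanS_step (k : ℕ) : fanS (k + 1) - fanS k ≤ 1 / 20000 := by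
  unfold fanS
  have hz : -1 + (((k + 1 : ℕ) : ℝ) - 1) / 20000 = (-1 + ((k : ℝ) - 1) / 20000) + 1 / 20000 := by
    push_cast; ring
  rw [hz]
  obtain ⟨z, hz'⟩ : ∃ z : ℝ, z = -1 + ((k : ℝ) - 1) / 20000 := ⟨_, rfl⟩
  rw [← hz']
  rcases le_total z (-1) with h | h
  · rcases le_total (z + 1 / 20000) (-1) with h' | h'
    · rw [min_eq_right (by linarith), min_eq_right (by linarith), max_eq_left h, max_eq_left h']
      norm_num
    · rw [min_eq_right (by linarith), min_eq_right (by linarith), max_eq_left h, max_eq_right h']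
      linarith
  · rcases le_total z 1 with h1 | h1
    · rcases le_total (z + 1 / 20000) 1 with h' | h'
      · rw [min_eq_right h1, min_eq_right h', max_eq_right h, max_eq_right (by linarith)]
        linarith
      · rw [min_eq_right h1, min_eq_left h', max_eq_right h, max_eq_right (by norm_num)]
        linarith
    · rw [min_eq_left h1, min_eq_left (by linarith), max_eq_right (by norm_num)]
      norm_num

theorem fanKap_pos : 0 < fanKap := by unfold fanKap; norm_num

theorem fanMu_pos : 0 < fanMu := by unfold fanMu; norm_num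

theorem fanC_pos : 0 < fanC := by unfold fanC fanKap fanMu; norm_num

theorem fanP_ge_half (k : ℕ) : 1 / 2 < fanP k := by
  unfold fanP
  have h1 : 0 < fanKap ^ 2 * (fanS k ^ 2 + fanS k ^ 4) / 4 + fanKap * fanMu * (1 + fanKap) / 2 := by
    have := fanKap_pos
    have := fanMu_pos
    positivity
  have := div_pos h1 fanC_pos
  linarith

end Crest.Agent.R211
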