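/-
Row 211 (S0324–S0329): the cost bound of the explicit fan cover (backup of the real-arithmetic
core, cost half).  Owner: helper14.

For any node sequence `S 0 = S 1 = -1 ≤ … ≤ S n = S (n+1) = 1` with mesh `≤ 1/20000`, and the
parameters `κ = 1/100`, `μ = 1/40000` of the fan cover,
`∑ₖ Pₖ² (S (k+1) - S (k-1))/2 / √(1 + Aₖ² + 2 Bₖ²) ≤ 1/2 - 10⁻⁹`.
-/
import Mathlib
import Crest.Agent.R211_FanDefs

set_option autoImplicit false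

namespace Crest.Agent.R211


/-- `1/√(1+q) ≤ 1 - q/2 + 3q²/8` for `q ≥ 0`. -/
theorem fanCost_inv_sqrt_le (q : ℝ) (hq : 0 ≤ q) :
    1 / Real.sqrt (1 + q) ≤ 1 - q / 2 + 3 * q ^ 2 / 8 := by
  have hu : 0 < 1 - q / 2 + 3 * q ^ 2 / 8 := by nlinarith [sq_nonneg (q - 2 / 3)]
  have hs : 0 < Real.sqrt (1 + q) := Real.sqrt_pos.mpr (by linarith)
  rw [div_le_iff₀ hs]
  have h1 : (1:ℝ) ≤ (1 - q / 2 + 3 * q ^ 2 / 8) ^ 2 * (1 + q) := by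
    have : (1 - q / 2 + 3 * q ^ 2 / 8) ^ 2 * (1 + q) - 1 =
        q ^ 3 * (5 / 8 - 15 * q / 64 + 9 * q ^ 2 / 64) := by ring
    have h2 : 0 ≤ q ^ 3 * (5 / 8 - 15 * q / 64 + 9 * q ^ 2 / 64) := by
      apply mul_nonneg (pow_nonneg hq 3)
      nlinarith [sq_nonneg (q - 5 / 6)]
    linarith
  have h3 : Real.sqrt ((1 - q / 2 + 3 * q ^ 2 / 8) ^ 2 * (1 + q)) =
      (1 - q / 2 + 3 * q ^ 2 / 8) * Real.sqrt (1 + q) := by
    rw [Real.sqrt_mul (sq_nonneg _), Real.sqrt_sq hu.le]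
  rw [← h3]
  calc (1:ℝ) = Real.sqrt 1 := Real.sqrt_one.symm
    _ ≤ _ := Real.sqrt_le_sqrt h1

/-- The pointwise cost bound for the parameters `κ = 1/100`, `μ = 1/40000`, in the variable
`s = c²`. -/
theorem fanCost_pointwise_sq (s : ℝ) (hs0 : 0 ≤ s) (hs1 : s ≤ 1) :
    (1 / 2 + ((1 / 100 : ℝ) ^ 2 * (s + s ^ 2) / 4 + (1 / 100) * (1 / 40000) * (1 + 1 / 100) / 2) /
        (1 - 1 / 100 - (1 / 100) ^ 2 - (1 / 100) * (1 / 40000) * (1 + 1 / 100))) ^ 2 /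
      Real.sqrt (1 + (((1 / 100) * (1 + s) / 2) ^ 2 + 2 * ((1 / 100) ^ 2 * s))) ≤
    1 / 4 + (1 / 100) ^ 2 * ((7 * s ^ 2 - 2 * s - 1) / 32) + 66 / 10 ^ 8 := by
  obtain ⟨p, hp⟩ : ∃ p : ℝ, p = ((1 / 100 : ℝ) ^ 2 * (s + s ^ 2) / 4 +
      (1 / 100) * (1 / 40000) * (1 + 1 / 100) / 2) /
        (1 - 1 / 100 - (1 / 100) ^ 2 - (1 / 100) * (1 / 40000) * (1 + 1 / 100)) := ⟨_, rfl⟩
  obtain ⟨q, hq⟩ : ∃ q : ℝ, q = ((1 / 100 : ℝ) * (1 + s) / 2) ^ 2 + 2 * ((1 / 100) ^ 2 * s) := ⟨_, rfl⟩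
  rw [← hp, ← hq]
  have hp_eq : p = (400000000 / 395959899 : ℝ) * ((1 / 100 : ℝ) ^ 2 * (s + s ^ 2) / 4 +
      (1 / 100) * (1 / 40000) * (1 + 1 / 100) / 2) := by
    rw [hp]; norm_num; ring
  have hs2 : s ^ 2 ≤ 1 := by nlinarith
  have hs20 : 0 ≤ s ^ 2 := sq_nonneg s
  have hp0 : 0 ≤ p := by
    rw [hp_eq]
    have : 0 ≤ (1 / 100 : ℝ) ^ 2 * (s + s ^ 2) / 4 := by positivity
    nlinarith
  have hp1 : p ≤ 51 / 10 ^ 6 := by rw [hp_eq]; nlinarith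
  have hq0 : 0 ≤ q := by
    rw [hq]
    have : 0 ≤ 2 * ((1 / 100 : ℝ) ^ 2 * s) := by positivity
    nlinarith [sq_nonneg ((1 / 100 : ℝ) * (1 + s) / 2)]
  have hq1 : q ≤ 3 / 10 ^ 4 := by rw [hq]; nlinarith
  have hpq : p - q / 8 ≤ (1 / 100 : ℝ) ^ 2 * ((7 * s ^ 2 - 2 * s - 1) / 32) + 64 / 10 ^ 8 := by
    rw [hp_eq, hq]; nlinarith
  have hu := fanCost_inv_sqrt_le q hq0
  have hP0 : 0 ≤ (1 / 2 + p) ^ 2 := sq_nonneg _
  calc (1 / 2 + p) ^ 2 / Real.sqrt (1 + q) = (1 / 2 + p) ^ 2 * (1 / Real.sqrt (1 + q)) := by ring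
    _ ≤ (1 / 2 + p) ^ 2 * (1 - q / 2 + 3 * q ^ 2 / 8) := mul_le_mul_of_nonneg_left hu hP0
    _ ≤ 1 / 4 + (p - q / 8) + 2 / 10 ^ 8 := by
        have e : (1 / 2 + p) ^ 2 * (1 - q / 2 + 3 * q ^ 2 / 8) =
            1 / 4 + (p - q / 8) + (p ^ 2 - (p + p ^ 2) * q / 2 + 3 / 8 * q ^ 2 * (1 / 2 + p) ^ 2) := by
          ring
        have h1 : p ^ 2 ≤ (51 / 10 ^ 6) ^ 2 := by nlinarith
        have h2 : 0 ≤ (p + p ^ 2) * q / 2 := by positivity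
        have h3 : q ^ 2 ≤ (3 / 10 ^ 4) ^ 2 := by nlinarith
        have h4 : (1 / 2 + p) ^ 2 ≤ (1 / 2 + 51 / 10 ^ 6) ^ 2 := by nlinarith
        have h5 : 3 / 8 * q ^ 2 * (1 / 2 + p) ^ 2 ≤ 3 / 8 * (3 / 10 ^ 4) ^ 2 * (1 / 2 + 51 / 10 ^ 6) ^ 2 := by
          have := mul_le_mul h3 h4 (sq_nonneg _) (by positivity)
          nlinarith
        rw [e]
        norm_num at h1 h5 ⊢
        linarith
    _ ≤ _ := by linarith

/-- The pointwise cost bound for the parameters `κ = 1/100`, `μ = 1/40000`. -/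
theorem fanCost_pointwise (c : ℝ) (hc : |c| ≤ 1) :
    (1 / 2 + ((1 / 100 : ℝ) ^ 2 * (c ^ 2 + c ^ 4) / 4 + (1 / 100) * (1 / 40000) * (1 + 1 / 100) / 2) /
        (1 - 1 / 100 - (1 / 100) ^ 2 - (1 / 100) * (1 / 40000) * (1 + 1 / 100))) ^ 2 /
      Real.sqrt (1 + ((1 / 100) * (1 + c ^ 2) / 2) ^ 2 + 2 * ((1 / 100) * c) ^ 2) ≤
    1 / 4 + (1 / 100) ^ 2 * ((7 * c ^ 4 - 2 * c ^ 2 - 1) / 32) + 66 / 10 ^ 8 := by
  have hs0 : 0 ≤ c ^ 2 := sq_nonneg c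
  have hs1 : c ^ 2 ≤ 1 := by
    have := abs_le.mp hc
    nlinarith
  have h := fanCost_pointwise_sq (c ^ 2) hs0 hs1
  have e1 : (c ^ 2) ^ 2 = c ^ 4 := by ring
  have e2 : (1 + (((1 / 100 : ℝ) * (1 + c ^ 2) / 2) ^ 2 + 2 * ((1 / 100) ^ 2 * c ^ 2))) =
      1 + ((1 / 100) * (1 + c ^ 2) / 2) ^ 2 + 2 * ((1 / 100) * c) ^ 2 := by ring
  rw [e1, e2] at h
  exact h



/-- Antiderivative of `R(c) = (7c⁴ - 2c² - 1)/32`. -/
noncomputable def fanCostPhi (t : ℝ) : ℝ := (7 * t ^ 5 / 5 - 2 * t ^ 3 / 3 - t) / 32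

theorem fanCost_abs_pow_le {x : ℝ} (hx : |x| ≤ 1) (n : ℕ) : |x ^ n| ≤ 1 := by
  rw [abs_pow]
  exact pow_le_one₀ (abs_nonneg x) hx

/-- One-sided piece: `Φ(t) - Φ(c) - (t - c) R(c) ≥ -(t-c)²/2` for `t, c ∈ [-1,1]`. -/
theorem fanCost_piece_aux (t c : ℝ) (ht : |t| ≤ 1) (hc : |c| ≤ 1) :
    |fanCostPhi t - fanCostPhi c - (t - c) * ((7 * c ^ 4 - 2 * c ^ 2 - 1) / 32)| ≤ (t - c) ^ 2 / 2 := by
  have e : fanCostPhi t - fanCostPhi c - (t - c) * ((7 * c ^ 4 - 2 * c ^ 2 - 1) / 32) =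
      (t - c) ^ 2 * ((7 * (t ^ 3 + 2 * (t ^ 2 * c) + 3 * (t * c ^ 2) + 4 * c ^ 3) / 5 -
        2 * (t + 2 * c) / 3) / 32) := by
    unfold fanCostPhi; ring
  rw [e, abs_mul, abs_of_nonneg (sq_nonneg _)]
  have h1 : |t ^ 3| ≤ 1 := fanCost_abs_pow_le ht 3
  have h2 : |t ^ 2 * c| ≤ 1 := by
    rw [abs_mul]
    calc |t ^ 2| * |c| ≤ 1 * 1 := mul_le_mul (fanCost_abs_pow_le ht 2) hc (abs_nonneg _) zero_le_one
      _ = 1 := one_mul 1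
  have h3 : |t * c ^ 2| ≤ 1 := by
    rw [abs_mul]
    calc |t| * |c ^ 2| ≤ 1 * 1 := mul_le_mul ht (fanCost_abs_pow_le hc 2) (abs_nonneg _) zero_le_one
      _ = 1 := one_mul 1
  have h4 : |c ^ 3| ≤ 1 := fanCost_abs_pow_le hc 3
  have hb : |(7 * (t ^ 3 + 2 * (t ^ 2 * c) + 3 * (t * c ^ 2) + 4 * c ^ 3) / 5 -
        2 * (t + 2 * c) / 3) / 32| ≤ 1 / 2 := by
    rw [abs_le] at h1 h2 h3 h4 ht hc ⊢
    constructor <;> linarith [h1.1, h1.2, h2.1, h2.2, h3.1, h3.2, h4.1, h4.2, ht.1, ht.2, hc.1, hc.2]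
  calc (t - c) ^ 2 * |(7 * (t ^ 3 + 2 * (t ^ 2 * c) + 3 * (t * c ^ 2) + 4 * c ^ 3) / 5 -
        2 * (t + 2 * c) / 3) / 32| ≤ (t - c) ^ 2 * (1 / 2) :=
        mul_le_mul_of_nonneg_left hb (sq_nonneg _)
    _ = (t - c) ^ 2 / 2 := by ring

/-- Riemann piece: for `t' ≤ c ≤ t` in `[-1,1]` with `t - t' ≤ η`,
`(t - t') R(c) ≤ Φ(t) - Φ(t') + (t - t') η / 2`. -/
theorem fanCost_piece (t' c t η : ℝ) (h1 : t' ≤ c) (h2 : c ≤ t) (ht' : |t'| ≤ 1) (hc : |c| ≤ 1)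
    (ht : |t| ≤ 1) (hη : t - t' ≤ η) :
    (t - t') * ((7 * c ^ 4 - 2 * c ^ 2 - 1) / 32) ≤
      fanCostPhi t - fanCostPhi t' + (t - t') * η / 2 := by
  have a1 := (abs_le.mp (fanCost_piece_aux t c ht hc)).1
  have a2 := (abs_le.mp (fanCost_piece_aux t' c ht' hc)).2
  have h3 : (t - c) ^ 2 + (t' - c) ^ 2 ≤ (t - t') * η := by
    nlinarith [mul_nonneg (sub_nonneg.mpr h1) (sub_nonneg.mpr h2)]
  nlinarith

theorem fanCost_telescope (a : ℕ → ℝ) (n : ℕ) :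
    ∑ k ∈ Finset.Icc 1 n, (a k - a (k - 1)) = a n - a 0 := by
  induction n with
  | zero => simp
  | succ m ih =>
    rw [Finset.sum_Icc_succ_top (by omega), ih]
    simp

/-- The cost bound of the fan cover for any node sequence with mesh `≤ 1/20000`
(`κ = 1/100`, `μ = 1/40000`). -/
theorem fanCost_general (n : ℕ) (S : ℕ → ℝ) (hS0 : S 0 = -1) (hS1 : S 1 = -1) (hSn : S n = 1)
    (hSn1 : S (n + 1) = 1) (habs : ∀ k, |S k| ≤ 1) (hmono : ∀ k, S k ≤ S (k + 1))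
    (hstep : ∀ k, S (k + 1) - S k ≤ 1 / 20000) :
    ∑ k ∈ Finset.Icc 1 n,
      (1 / 2 + ((1 / 100 : ℝ) ^ 2 * (S k ^ 2 + S k ^ 4) / 4 +
          (1 / 100) * (1 / 40000) * (1 + 1 / 100) / 2) /
        (1 - 1 / 100 - (1 / 100) ^ 2 - (1 / 100) * (1 / 40000) * (1 + 1 / 100))) ^ 2 *
      ((S (k + 1) - S (k - 1)) / 2) /
      Real.sqrt (1 + ((1 / 100) * (1 + S k ^ 2) / 2) ^ 2 + 2 * ((1 / 100) * S k) ^ 2) ≤
    1 / 2 - 1 / 10 ^ 9 := by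
  have hTabs : ∀ k, |(S k + S (k + 1)) / 2| ≤ 1 := by
    intro k
    have a := abs_le.mp (habs k)
    have b := abs_le.mp (habs (k + 1))
    rw [abs_le]; constructor <;> linarith [a.1, a.2, b.1, b.2]
  have key : ∀ k ∈ Finset.Icc 1 n,
      (1 / 2 + ((1 / 100 : ℝ) ^ 2 * (S k ^ 2 + S k ^ 4) / 4 +
          (1 / 100) * (1 / 40000) * (1 + 1 / 100) / 2) /
        (1 - 1 / 100 - (1 / 100) ^ 2 - (1 / 100) * (1 / 40000) * (1 + 1 / 100))) ^ 2 *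
      ((S (k + 1) - S (k - 1)) / 2) /
      Real.sqrt (1 + ((1 / 100) * (1 + S k ^ 2) / 2) ^ 2 + 2 * ((1 / 100) * S k) ^ 2) ≤
      (1 / 4 + 66 / 10 ^ 8 + (1 / 100) ^ 2 * (1 / 20000) / 2) *
          ((fun k => (S k + S (k + 1)) / 2) k - (fun k => (S k + S (k + 1)) / 2) (k - 1)) +
        (1 / 100) ^ 2 * ((fun k => fanCostPhi ((S k + S (k + 1)) / 2)) k -
          (fun k => fanCostPhi ((S k + S (k + 1)) / 2)) (k - 1)) := by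
    intro k hk
    have hk1 : 1 ≤ k := (Finset.mem_Icc.mp hk).1
    obtain ⟨j, rfl⟩ : ∃ j, k = j + 1 := ⟨k - 1, by omega⟩
    simp only [Nat.add_sub_cancel]
    have hw : (S (j + 1 + 1) - S j) / 2 = (S (j + 1) + S (j + 1 + 1)) / 2 - (S j + S (j + 1)) / 2 := by
      ring
    have hw0 : 0 ≤ (S (j + 1) + S (j + 1 + 1)) / 2 - (S j + S (j + 1)) / 2 := by
      have := hmono j; have := hmono (j + 1); linarith
    have hpt := fanCost_pointwise (S (j + 1)) (habs (j + 1))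
    have hpiece := fanCost_piece ((S j + S (j + 1)) / 2) (S (j + 1)) ((S (j + 1) + S (j + 1 + 1)) / 2)
      (1 / 20000) (by have := hmono j; linarith) (by have := hmono (j + 1); linarith)
      (hTabs j) (habs (j + 1)) (hTabs (j + 1))
      (by have := hstep j; have := hstep (j + 1); linarith)
    have h1 := mul_le_mul_of_nonneg_left hpt hw0
    have e : ∀ a b : ℝ, a * ((S (j + 1 + 1) - S j) / 2) / b =
        ((S (j + 1) + S (j + 1 + 1)) / 2 - (S j + S (j + 1)) / 2) * (a / b) := by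
      intro a b; rw [hw]; ring
    rw [e]
    linarith
  calc _ ≤ ∑ k ∈ Finset.Icc 1 n, ((1 / 4 + 66 / 10 ^ 8 + (1 / 100) ^ 2 * (1 / 20000) / 2) *
          ((fun k => (S k + S (k + 1)) / 2) k - (fun k => (S k + S (k + 1)) / 2) (k - 1)) +
        (1 / 100 : ℝ) ^ 2 * ((fun k => fanCostPhi ((S k + S (k + 1)) / 2)) k -
          (fun k => fanCostPhi ((S k + S (k + 1)) / 2)) (k - 1))) := Finset.sum_le_sum key
    _ = (1 / 4 + 66 / 10 ^ 8 + (1 / 100) ^ 2 * (1 / 20000) / 2) * (1 - (-1)) +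
        (1 / 100 : ℝ) ^ 2 * (fanCostPhi 1 - fanCostPhi (-1)) := by
        rw [Finset.sum_add_distrib, ← Finset.mul_sum, ← Finset.mul_sum, fanCost_telescope,
          fanCost_telescope]
        simp only [hS0, hS1, hSn, hSn1]
        norm_num
    _ ≤ 1 / 2 - 1 / 10 ^ 9 := by
        unfold fanCostPhi
        norm_num

/-- The cost inequality `hcost` of `fan_real_of_cost` (helper20's concrete parameters
`fanN = 40001`, `fanKap = 1/100`, `fanMu = 1/40000`, nodes `fanS`, reaches `fanP`). -/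
theorem fanCost_hcost :
    ∑ k ∈ Finset.Icc 1 fanN, fanP k ^ 2 * ((fanS (k + 1) - fanS (k - 1)) / 2) /
        Real.sqrt (1 + (fanKap * (1 + fanS k ^ 2) / 2) ^ 2 + 2 * (fanKap * fanS k) ^ 2) ≤
      1 / 2 - 1 / 10 ^ 9 := by
  have h := fanCost_general fanN fanS fanS_zero fanS_one fanS_last fanS_last_succ fanS_abs
    fanS_mono fanS_step
  simpa only [fanP, fanKap, fanMu, fanC] using h

end Crest.Agent.R211
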