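/-
Row 211 (S0324–S0329): coverage half of the explicit fan cover, for general parameters
(nodes `s`, shear `κ`, half mesh `μ`, reaches `P`).  Owner: helper20.

Sector `k` (`1 ≤ k ≤ n`) has centre node `s k`, slopes `(s (k-1) + s k)/2` and `(s k + s (k+1))/2`,
velocity `(B, A) = (κ s k, κ (1 + (s k)²)/2)` and reach `P k`.
-/
import Mathlib
import Crest.Agent.R211_CylGeom

set_option autoImplicit false

namespace Crest.Agent.R211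

/-- Discrete intermediate value theorem. -/
theorem fanCov_ivt (g : ℕ → ℝ) (n : ℕ) (hn : 1 ≤ n) (h0 : 0 ≤ g 0) (hn' : g n ≤ 0) :
    ∃ k, 1 ≤ k ∧ k ≤ n ∧ 0 ≤ g (k - 1) ∧ g k ≤ 0 := by
  classical
  have hex : ∃ k, 1 ≤ k ∧ g k ≤ 0 := ⟨n, hn, hn'⟩
  have hspec := Nat.find_spec hex
  refine ⟨Nat.find hex, hspec.1, Nat.find_min' hex ⟨hn, hn'⟩, ?_, hspec.2⟩
  by_cases h1 : Nat.find hex = 1
  · rw [h1]; exact h0
  · have hlt : Nat.find hex - 1 < Nat.find hex := by omega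
    have hmin := Nat.find_min hex hlt
    have h2 : 1 ≤ Nat.find hex - 1 := by omega
    by_contra hneg
    exact hmin ⟨h2, le_of_lt (not_le.1 hneg)⟩

/-- The interface lemma: a point cannot be out of reach of its lower sector and of its upper
sector at the same time. -/
theorem fanCov_interface (κ μ a b x y τ ρ η ρ' η' : ℝ)
    (hρdef : ρ = τ - x * (κ * a)) (hηdef : η = y - x * (κ * (1 + a ^ 2) / 2))
    (hρ'def : ρ' = (1 - τ) - (-y) * (κ * b)) (hη'def : η' = x - (-y) * (κ * (1 + b ^ 2) / 2))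
    (hκ : 0 ≤ κ) (hμ : 0 ≤ μ) (hc : 0 < 1 - κ - κ ^ 2 - κ * μ * (1 + κ))
    (ha : |a| ≤ 1) (hb : |b| ≤ 1)
    (hε : |η - a * ρ| ≤ μ * ρ) (hε' : |η' - b * ρ'| ≤ μ * ρ')
    (hρ : 1 / 2 + (κ ^ 2 * (a ^ 2 + a ^ 4) / 4 + κ * μ * (1 + κ) / 2) /
      (1 - κ - κ ^ 2 - κ * μ * (1 + κ)) < ρ)
    (hρ' : 1 / 2 + (κ ^ 2 * (b ^ 2 + b ^ 4) / 4 + κ * μ * (1 + κ) / 2) /
      (1 - κ - κ ^ 2 - κ * μ * (1 + κ)) < ρ') : False := by
  obtain ⟨c, hcdef⟩ : ∃ c : ℝ, c = 1 - κ - κ ^ 2 - κ * μ * (1 + κ) := ⟨_, rfl⟩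
  rw [← hcdef] at hc hρ hρ'
  obtain ⟨ha1, ha2⟩ := abs_le.1 ha
  obtain ⟨hb1, hb2⟩ := abs_le.1 hb
  have ha2' : a ^ 2 ≤ 1 := (sq_le_one_iff_abs_le_one a).2 ha
  have hb2' : b ^ 2 ≤ 1 := (sq_le_one_iff_abs_le_one b).2 hb
  obtain ⟨A, hA⟩ : ∃ A : ℝ, A = κ * (1 + a ^ 2) / 2 := ⟨_, rfl⟩
  obtain ⟨A', hA'⟩ : ∃ A' : ℝ, A' = κ * (1 + b ^ 2) / 2 := ⟨_, rfl⟩
  have hA0 : 0 ≤ A := by rw [hA]; positivity
  have hA'0 : 0 ≤ A' := by rw [hA']; positivity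
  have hAκ : A ≤ κ := by
    have h : κ * (1 + a ^ 2) ≤ κ * 2 := mul_le_mul_of_nonneg_left (by linarith) hκ
    rw [hA]; linarith
  have hA'κ : A' ≤ κ := by
    have h : κ * (1 + b ^ 2) ≤ κ * 2 := mul_le_mul_of_nonneg_left (by linarith) hκ
    rw [hA']; linarith
  obtain ⟨ε, hεdef⟩ : ∃ ε : ℝ, ε = η - a * ρ := ⟨_, rfl⟩
  obtain ⟨ε', hε'def⟩ : ∃ ε' : ℝ, ε' = η' - b * ρ' := ⟨_, rfl⟩
  rw [← hεdef] at hε
  rw [← hε'def] at hε'
  -- the exact identity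
  have hid : (1 + A * A') * (ρ + ρ' - 1) = κ * a * b * (ρ - ρ') + κ * (a ^ 2 * A' * ρ + b ^ 2 * A * ρ')
      + κ * ((b + a * A') * ε + (-a + b * A) * ε') := by
    rw [hεdef, hε'def, hρdef, hηdef, hρ'def, hη'def, hA, hA']
    ring
  -- the two reaches
  obtain ⟨pa, hpa⟩ : ∃ pa : ℝ, pa = (κ ^ 2 * (a ^ 2 + a ^ 4) / 4 + κ * μ * (1 + κ) / 2) / c := ⟨_, rfl⟩
  obtain ⟨pb, hpb⟩ : ∃ pb : ℝ, pb = (κ ^ 2 * (b ^ 2 + b ^ 4) / 4 + κ * μ * (1 + κ) / 2) / c := ⟨_, rfl⟩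
  rw [← hpa] at hρ
  rw [← hpb] at hρ'
  have hpa0 : 0 ≤ pa := by rw [hpa]; exact div_nonneg (by positivity) hc.le
  have hpb0 : 0 ≤ pb := by rw [hpb]; exact div_nonneg (by positivity) hc.le
  have hcpa : c * pa = κ ^ 2 * (a ^ 2 + a ^ 4) / 4 + κ * μ * (1 + κ) / 2 := by
    rw [hpa]; field_simp
  have hcpb : c * pb = κ ^ 2 * (b ^ 2 + b ^ 4) / 4 + κ * μ * (1 + κ) / 2 := by
    rw [hpb]; field_simp
  have hρ0 : 0 < ρ := by linarith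
  have hρ'0 : 0 < ρ' := by linarith
  have hu : 0 ≤ ρ - 1 / 2 := by linarith
  have hu' : 0 ≤ ρ' - 1 / 2 := by linarith
  -- error terms
  have hE1 : (b + a * A') * ε ≤ (1 + κ) * (μ * ρ) := by
    have h1 : |b + a * A'| ≤ 1 + κ := by
      calc |b + a * A'| ≤ |b| + |a * A'| := abs_add_le _ _
        _ = |b| + |a| * A' := by rw [abs_mul, abs_of_nonneg hA'0]
        _ ≤ 1 + 1 * κ := add_le_add hb (mul_le_mul ha hA'κ hA'0 zero_le_one)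
        _ = 1 + κ := by ring
    calc (b + a * A') * ε ≤ |(b + a * A') * ε| := le_abs_self _
      _ = |b + a * A'| * |ε| := abs_mul _ _
      _ ≤ (1 + κ) * (μ * ρ) := mul_le_mul h1 hε (abs_nonneg _) (by linarith)
  have hE2 : (-a + b * A) * ε' ≤ (1 + κ) * (μ * ρ') := by
    have h1 : |-a + b * A| ≤ 1 + κ := by
      calc |-a + b * A| ≤ |-a| + |b * A| := abs_add_le _ _
        _ = |a| + |b| * A := by rw [abs_neg, abs_mul, abs_of_nonneg hA0]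
        _ ≤ 1 + 1 * κ := add_le_add ha (mul_le_mul hb hAκ hA0 zero_le_one)
        _ = 1 + κ := by ring
    calc (-a + b * A) * ε' ≤ |(-a + b * A) * ε'| := le_abs_self _
      _ = |-a + b * A| * |ε'| := abs_mul _ _
      _ ≤ (1 + κ) * (μ * ρ') := mul_le_mul h1 hε' (abs_nonneg _) (by linarith)
  have hE : κ * ((b + a * A') * ε + (-a + b * A) * ε') ≤ κ * ((1 + κ) * (μ * ρ) + (1 + κ) * (μ * ρ')) :=
    mul_le_mul_of_nonneg_left (add_le_add hE1 hE2) hκ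
  -- the coefficients of `ρ - 1/2` and `ρ' - 1/2`
  have hAA : 0 ≤ A * A' := mul_nonneg hA0 hA'0
  have hab : |a * b| ≤ 1 := by
    rw [abs_mul]; exact mul_le_one₀ ha (abs_nonneg _) hb
  obtain ⟨hab1, hab2⟩ := abs_le.1 hab
  have hκab1 : κ * (a * b) ≤ κ := by
    have h := mul_le_mul_of_nonneg_left hab2 hκ
    linarith
  have hκab2 : -κ ≤ κ * (a * b) := by
    have h := mul_le_mul_of_nonneg_left hab1 hκ
    linarith
  have ha2A' : κ * (a ^ 2 * A') ≤ κ ^ 2 := by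
    have h1 : a ^ 2 * A' ≤ 1 * κ := mul_le_mul ha2' hA'κ hA'0 (by norm_num)
    have h2 := mul_le_mul_of_nonneg_left h1 hκ
    linarith
  have hb2A : κ * (b ^ 2 * A) ≤ κ ^ 2 := by
    have h1 : b ^ 2 * A ≤ 1 * κ := mul_le_mul hb2' hAκ hA0 (by norm_num)
    have h2 := mul_le_mul_of_nonneg_left h1 hκ
    linarith
  have hα : 1 - κ - κ ^ 2 ≤ 1 + A * A' - κ * (a * b) - κ * (a ^ 2 * A') := by linarith
  have hα' : 1 - κ - κ ^ 2 ≤ 1 + A * A' + κ * (a * b) - κ * (b ^ 2 * A) := by linarith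
  have h1 := mul_le_mul_of_nonneg_left hα hu
  have h2 := mul_le_mul_of_nonneg_left hα' hu'
  -- the main term
  have hmain : κ * (a ^ 2 * A' + b ^ 2 * A) ≤ κ ^ 2 / 2 * (a ^ 2 + b ^ 2 + a ^ 4 + b ^ 4) := by
    rw [hA, hA']
    have h3 : 0 ≤ κ ^ 2 * (a ^ 2 - b ^ 2) ^ 2 := by positivity
    linarith
  -- `c (ρ + ρ' - 1) > c (pa + pb)`
  have h4 : c * (pa + pb) < c * (ρ + ρ' - 1) := mul_lt_mul_of_pos_left (by linarith) hc
  rw [hcdef] at h4 hcpa hcpb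
  linarith [hid, hE, h1, h2, hmain, hcpa, hcpb, h4]


/-- Fan tiling: every point with `|y| ≤ τ` lies in the angular sector of some `k ∈ {1..n}`. -/
theorem fanCov_sector (n : ℕ) (hn : 1 ≤ n) (s : ℕ → ℝ) (κ : ℝ)
    (hs0 : s 0 = -1) (hs1 : s 1 = -1) (hsn : s n = 1) (hsn1 : s (n + 1) = 1)
    (x y τ : ℝ) (hy : |y| ≤ τ) :
    ∃ k, 1 ≤ k ∧ k ≤ n ∧
      (s (k - 1) + s k) / 2 * (τ - x * (κ * s k)) ≤ y - x * (κ * (1 + s k ^ 2) / 2) ∧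
      y - x * (κ * (1 + s k ^ 2) / 2) ≤ (s k + s (k + 1)) / 2 * (τ - x * (κ * s k)) := by
  obtain ⟨hy1, hy2⟩ := abs_le.1 hy
  obtain ⟨k, hk1, hkn, hg1, hg2⟩ := fanCov_ivt
    (fun k => y - (s k + s (k + 1)) / 2 * τ - κ * x * (1 - s k * s (k + 1)) / 2) n hn
    (by
      show 0 ≤ y - (s 0 + s (0 + 1)) / 2 * τ - κ * x * (1 - s 0 * s (0 + 1)) / 2
      rw [zero_add, hs0, hs1]; linarith)
    (by
      show y - (s n + s (n + 1)) / 2 * τ - κ * x * (1 - s n * s (n + 1)) / 2 ≤ 0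
      rw [hsn, hsn1]; linarith)
  have hk : k - 1 + 1 = k := Nat.sub_add_cancel hk1
  have hg1' : 0 ≤ y - (s (k - 1) + s k) / 2 * τ - κ * x * (1 - s (k - 1) * s k) / 2 := by
    have h := hg1
    simp only [hk] at h
    exact h
  have hg2' : y - (s k + s (k + 1)) / 2 * τ - κ * x * (1 - s k * s (k + 1)) / 2 ≤ 0 := hg2
  refine ⟨k, hk1, hkn, ?_, ?_⟩
  · have e : y - x * (κ * (1 + s k ^ 2) / 2) - (s (k - 1) + s k) / 2 * (τ - x * (κ * s k))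
        = y - (s (k - 1) + s k) / 2 * τ - κ * x * (1 - s (k - 1) * s k) / 2 := by ring
    linarith
  · have e : y - x * (κ * (1 + s k ^ 2) / 2) - (s k + s (k + 1)) / 2 * (τ - x * (κ * s k))
        = y - (s k + s (k + 1)) / 2 * τ - κ * x * (1 - s k * s (k + 1)) / 2 := by ring
    linarith

/-- In the angular sector `k`, beyond a positive reach, the deviation from the centre ray is at
most `μ` times the height. -/
theorem fanCov_dev (s : ℕ → ℝ) (μ : ℝ) (hmono : ∀ k, s k ≤ s (k + 1))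
    (hstep : ∀ k, s (k + 1) - s k ≤ 2 * μ) (k : ℕ) (hk1 : 1 ≤ k) (ρ η : ℝ) (hρ : 0 ≤ ρ)
    (h1 : (s (k - 1) + s k) / 2 * ρ ≤ η) (h2 : η ≤ (s k + s (k + 1)) / 2 * ρ) :
    |η - s k * ρ| ≤ μ * ρ := by
  have hk : k - 1 + 1 = k := Nat.sub_add_cancel hk1
  have hm1 := hmono (k - 1)
  have hs1 := hstep (k - 1)
  rw [hk] at hm1 hs1
  have hm2 := hmono k
  have hs2 := hstep k
  rw [abs_le]
  constructor
  · have h3 : -(μ * ρ) ≤ ((s (k - 1) + s k) / 2 - s k) * ρ := by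
      have : -μ ≤ (s (k - 1) + s k) / 2 - s k := by linarith
      have := mul_le_mul_of_nonneg_right this hρ
      linarith
    linarith
  · have h3 : ((s k + s (k + 1)) / 2 - s k) * ρ ≤ μ * ρ := by
      have : (s k + s (k + 1)) / 2 - s k ≤ μ := by linarith
      exact mul_le_mul_of_nonneg_right this hρ
    linarith

/-- **Coverage for a general fan.**  Every point of the slab `|y| ≤ τ`, `|x| ≤ 1 - τ` (which
contains the standard tetrahedron in the coordinates `x, y, τ = z/√2`) lies in a sector of the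
lower family, or its image under `(x, y, τ) ↦ (-y, x, 1 - τ)` does. -/
theorem fanCov_hcov (n : ℕ) (hn : 1 ≤ n) (s P : ℕ → ℝ) (κ μ : ℝ)
    (hs0 : s 0 = -1) (hs1 : s 1 = -1) (hsn : s n = 1) (hsn1 : s (n + 1) = 1)
    (hsabs : ∀ k, |s k| ≤ 1) (hmono : ∀ k, s k ≤ s (k + 1))
    (hstep : ∀ k, s (k + 1) - s k ≤ 2 * μ)
    (hκ : 0 ≤ κ) (hμ : 0 ≤ μ) (hc : 0 < 1 - κ - κ ^ 2 - κ * μ * (1 + κ))
    (hP : ∀ k, 1 ≤ k → k ≤ n →
      1 / 2 + (κ ^ 2 * (s k ^ 2 + s k ^ 4) / 4 + κ * μ * (1 + κ) / 2) /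
        (1 - κ - κ ^ 2 - κ * μ * (1 + κ)) ≤ P k) :
    ∀ x y τ : ℝ, |y| ≤ τ → |x| ≤ 1 - τ →
      (∃ k, 1 ≤ k ∧ k ≤ n ∧ SecMem (κ * (1 + s k ^ 2) / 2) (κ * s k) ((s (k - 1) + s k) / 2)
        ((s k + s (k + 1)) / 2) (P k) x y τ) ∨
      (∃ k, 1 ≤ k ∧ k ≤ n ∧ SecMem (κ * (1 + s k ^ 2) / 2) (κ * s k) ((s (k - 1) + s k) / 2)
        ((s k + s (k + 1)) / 2) (P k) (-y) x (1 - τ)) := by
  intro x y τ hy hx
  obtain ⟨k, hk1, hkn, hk3, hk4⟩ := fanCov_sector n hn s κ hs0 hs1 hsn hsn1 x y τ hy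
  obtain ⟨j, hj1, hjn, hj3, hj4⟩ := fanCov_sector n hn s κ hs0 hs1 hsn hsn1 (-y) x (1 - τ) hx
  by_cases hr : τ - x * (κ * s k) ≤ P k
  · exact Or.inl ⟨k, hk1, hkn, hk3, hk4, hr⟩
  by_cases hr' : (1 - τ) - (-y) * (κ * s j) ≤ P j
  · exact Or.inr ⟨j, hj1, hjn, hj3, hj4, hr'⟩
  exfalso
  rw [not_le] at hr hr'
  have hPk := hP k hk1 hkn
  have hPj := hP j hj1 hjn
  have hnum : ∀ a : ℝ, 0 ≤ (κ ^ 2 * (a ^ 2 + a ^ 4) / 4 + κ * μ * (1 + κ) / 2) /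
      (1 - κ - κ ^ 2 - κ * μ * (1 + κ)) := fun a => div_nonneg (by positivity) hc.le
  have hρ0 : 0 ≤ τ - x * (κ * s k) := by linarith [hnum (s k)]
  have hρ'0 : 0 ≤ (1 - τ) - (-y) * (κ * s j) := by linarith [hnum (s j)]
  exact fanCov_interface κ μ (s k) (s j) x y τ _ _ _ _ rfl rfl rfl rfl hκ hμ hc (hsabs k) (hsabs j)
    (fanCov_dev s μ hmono hstep k hk1 _ _ hρ0 hk3 hk4)
    (fanCov_dev s μ hmono hstep j hj1 _ _ hρ'0 hj3 hj4)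
    (lt_of_le_of_lt hPk hr) (lt_of_le_of_lt hPj hr')

end Crest.Agent.R211
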