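/-
Row 211 (S0324–S0329): assembly of the explicit fan cover of the standard tetrahedron from the
coverage half (`R211_FanCov`, helper20), the cost half (`R211_FanCost`, helper14) and the
geometric glue (`R211_CylGeom`, helper24).  Owner: helper20.
-/
import Mathlib
import Crest.Agent.R211_FanDefs
import Crest.Agent.R211_FanCov
import Crest.Agent.R211_FanCost
import Crest.Agent.R211_CylGeom

set_option autoImplicit false

namespace Crest.Agent.R211

/-- consecutive interior nodes are strictly increasing -/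
theorem fanAsm_lt (k : ℕ) (h1 : 1 ≤ k) (h2 : k + 1 ≤ fanN) : fanS k < fanS (k + 1) := by
  rw [fanS_interior k h1 (by omega), fanS_interior (k + 1) (by omega) h2]
  push_cast
  linarith

/-- the two slopes of every sector are different -/
theorem fanAsm_slopes (k : ℕ) (h1 : 1 ≤ k) (h2 : k ≤ fanN) :
    (fanS (k - 1) + fanS k) / 2 < (fanS k + fanS (k + 1)) / 2 := by
  have hk : k - 1 + 1 = k := Nat.sub_add_cancel h1
  have hm1 : fanS (k - 1) ≤ fanS k := by
    have h := fanS_mono (k - 1)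
    rwa [hk] at h
  have hm2 := fanS_mono k
  by_cases h : k + 1 ≤ fanN
  · have h3 := fanAsm_lt k h1 h
    linarith
  · have hkN : k = fanN := by omega
    have h3 : fanS (k - 1) < fanS (k - 1 + 1) :=
      fanAsm_lt (k - 1) (by rw [hkN]; unfold fanN; norm_num) (by rw [hk]; exact h2)
    rw [hk] at h3
    linarith

/-- **The real-arithmetic core of the explicit cover** (blueprint statement `fan_real`, with
`40001` sectors per family). -/
theorem fanAsm_real : ∃ (n : ℕ) (A B t₁ t₂ ρ : Fin n → ℝ), n + n ≤ 15999998 ∧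
    (∀ i, t₁ i < t₂ i) ∧ (∀ i, 0 < ρ i) ∧
    (∀ x y τ : ℝ, |y| ≤ τ → |x| ≤ 1 - τ →
      (∃ i, SecMem (A i) (B i) (t₁ i) (t₂ i) (ρ i) x y τ) ∨
      (∃ i, SecMem (A i) (B i) (t₁ i) (t₂ i) (ρ i) (-y) x (1 - τ))) ∧
    ∑ i, ρ i ^ 2 * (t₂ i - t₁ i) / Real.sqrt (1 + A i ^ 2 + 2 * B i ^ 2) ≤ 1 / 2 - 1 / 10 ^ 9 := by
  refine ⟨fanN, fun i => fanKap * (1 + fanS (i.val + 1) ^ 2) / 2, fun i => fanKap * fanS (i.val + 1),
    fun i => (fanS i.val + fanS (i.val + 1)) / 2, fun i => (fanS (i.val + 1) + fanS (i.val + 2)) / 2,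
    fun i => fanP (i.val + 1), by unfold fanN; norm_num, ?_, ?_, ?_, ?_⟩
  · intro i
    have h := fanAsm_slopes (i.val + 1) (by omega) (by have := i.isLt; omega)
    simpa using h
  · intro i
    have h := fanP_ge_half (i.val + 1)
    show 0 < fanP (i.val + 1)
    linarith
  · intro x y τ hy hx
    have hc : 0 < 1 - fanKap - fanKap ^ 2 - fanKap * fanMu * (1 + fanKap) := fanC_pos
    have h := fanCov_hcov fanN (by unfold fanN; norm_num) fanS fanP fanKap fanMu fanS_zero fanS_one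
      fanS_last fanS_last_succ fanS_abs fanS_mono
      (fun k => by have h := fanS_step k; unfold fanMu; linarith)
      fanKap_pos.le fanMu_pos.le hc (fun k _ _ => le_rfl) x y τ hy hx
    rcases h with ⟨k, hk1, hkn, hk⟩ | ⟨k, hk1, hkn, hk⟩
    · left
      refine ⟨⟨k - 1, by omega⟩, ?_⟩
      have e : k - 1 + 1 = k := Nat.sub_add_cancel hk1
      have e2 : k - 1 + 2 = k + 1 := by omega
      show SecMem (fanKap * (1 + fanS (k - 1 + 1) ^ 2) / 2) (fanKap * fanS (k - 1 + 1))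
        ((fanS (k - 1) + fanS (k - 1 + 1)) / 2) ((fanS (k - 1 + 1) + fanS (k - 1 + 2)) / 2)
        (fanP (k - 1 + 1)) x y τ
      rw [e, e2]
      exact hk
    · right
      refine ⟨⟨k - 1, by omega⟩, ?_⟩
      have e : k - 1 + 1 = k := Nat.sub_add_cancel hk1
      have e2 : k - 1 + 2 = k + 1 := by omega
      show SecMem (fanKap * (1 + fanS (k - 1 + 1) ^ 2) / 2) (fanKap * fanS (k - 1 + 1))
        ((fanS (k - 1) + fanS (k - 1 + 1)) / 2) ((fanS (k - 1 + 1) + fanS (k - 1 + 2)) / 2)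
        (fanP (k - 1 + 1)) (-y) x (1 - τ)
      rw [e, e2]
      exact hk
  · have h := fanCost_hcost
    rw [← Finset.Ico_add_one_right_eq_Icc, Finset.sum_Ico_eq_sum_range] at h
    have e : fanN + 1 - 1 = fanN := by omega
    rw [e] at h
    rw [Fin.sum_univ_eq_sum_range (fun i => fanP (i + 1) ^ 2 *
      ((fanS (i + 1) + fanS (i + 2)) / 2 - (fanS i + fanS (i + 1)) / 2) /
      Real.sqrt (1 + (fanKap * (1 + fanS (i + 1) ^ 2) / 2) ^ 2 + 2 * (fanKap * fanS (i + 1)) ^ 2)) fanN]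
    refine le_trans (le_of_eq ?_) h
    refine Finset.sum_congr rfl (fun i _ => ?_)
    have e1 : 1 + i + 1 = i + 2 := by omega
    have e2 : 1 + i - 1 = i := by omega
    have e3 : 1 + i = i + 1 := by omega
    rw [e1, e2, e3]
    congr 2
    ring

/-- **The explicit cover of the standard tetrahedron** by `80002` triangle cylinders with total
Gram-form base area at most `√2 (1/2 - 10⁻⁹)`, in the shape expected by `s0325_of_parts`. -/
theorem fanAsm_cover : ∃ (m : ℕ) (u p q r : Fin m → EuclideanSpace ℝ (Fin 3)), m + 1 ≤ 16000000 ∧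
    (∀ i, ‖u i‖ = 1) ∧
    (∀ i, inner ℝ (p i) (u i) = 0 ∧ inner ℝ (q i) (u i) = 0 ∧ inner ℝ (r i) (u i) = 0) ∧
    convexHull ℝ {!₂[1, 0, 0], !₂[-1, 0, 0], !₂[0, 1, Real.sqrt 2], !₂[0, -1, Real.sqrt 2]} ⊆
      ⋃ i, {x : EuclideanSpace ℝ (Fin 3) | ∃ b ∈ convexHull ℝ {p i, q i, r i}, ∃ t : ℝ, x = b + t • u i} ∧
    ∑ i, Real.sqrt (‖q i - p i‖ ^ 2 * ‖r i - p i‖ ^ 2 - inner ℝ (q i - p i) (r i - p i) ^ 2) / 2
      ≤ Real.sqrt 2 * (1 / 2 - 13 / 6000 * (1 / 2000) ^ 2) := by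
  obtain ⟨n, A, B, t₁, t₂, ρ, hn, ht, hρ, hcov, hcost⟩ := fanAsm_real
  obtain ⟨u, p, q, r, hu, hperp, hcover, harea⟩ := fan_cover_of_real A B t₁ t₂ ρ ht hρ hcov
  refine ⟨n + n, u, p, q, r, by omega, hu, hperp, hcover, ?_⟩
  rw [harea]
  have hs2 : 0 ≤ Real.sqrt 2 := Real.sqrt_nonneg 2
  have h1 : (1 : ℝ) / 2 - 1 / 10 ^ 9 ≤ 1 / 2 - 13 / 6000 * (1 / 2000) ^ 2 := by norm_num
  exact mul_le_mul_of_nonneg_left (hcost.trans h1) hs2

end Crest.Agent.R211
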