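/-
Row 211 (owner: helper24): an independent real-arithmetic core `fanB_real` for the explicit
cylinder cover (uniform slopes, `κ = 1/1000`, `N = 4·10⁶` sectors per family), in the `hcov`
shape of `R211_CylGeom.fan_cover_of_real`.  All names are prefixed `fb`.
-/
import Mathlib
import Crest.Agent.R211_CylGeom

set_option autoImplicit false

namespace Crest.Agent.R211

/-- Discrete intermediate value theorem. -/
theorem fb_ivt (f : ℕ → ℝ) :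
    ∀ N : ℕ, 1 ≤ N → 0 ≤ f 0 → f N ≤ 0 → ∃ j, j < N ∧ 0 ≤ f j ∧ f (j + 1) ≤ 0 := by
  intro N
  induction N with
  | zero => intro h; omega
  | succ n ih =>
    intro _ h0 hN
    by_cases hn : 0 ≤ f n
    · exact ⟨n, Nat.lt_succ_self n, hn, hN⟩
    · have hn' : f n < 0 := not_le.mp hn
      rcases Nat.eq_zero_or_pos n with rfl | hpos
      · exact absurd h0 (not_le.mpr hn')
      · obtain ⟨j, hj, h1, h2⟩ := ih hpos h0 hn'.le
        exact ⟨j, Nat.lt_succ_of_lt hj, h1, h2⟩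

/-- The exact interface identity: a point lying on the plane of slope `s` of a lower sector
(velocity `(β, ·)`, `A = α - s β`) and whose `Ψ⁻¹`-image lies on the plane of slope `s'` of another
sector (`β'`, `B = α' - s' β'`) is within reach of one of the two, provided the reaches
`1/2 + a`, `1/2 + b` satisfy the displayed inequality. -/
theorem fb_exact (A B β β' s s' a b x y τ : ℝ)
    (E1 : y = s * τ + A * x) (E2 : x = s' * (1 - τ) - B * y)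
    (hAB : 0 < 1 + A * B)
    (hP1 : 0 < 1 + A * B + β * s' + β * B * s)
    (hP2 : 0 < 1 + A * B - β' * s + β' * A * s')
    (hkey : (1 / 2) * (β' * s - β * s' + β' * A * s' + β * B * s) + β * β' * s * s' ≤
      a * (1 + A * B - β' * s + β' * A * s') + b * (1 + A * B + β * s' + β * B * s)) :
    τ - x * β ≤ 1 / 2 + a ∨ 1 - τ + y * β' ≤ 1 / 2 + b := by
  by_contra hcon
  rw [not_or, not_le, not_le] at hcon
  obtain ⟨H1, H2⟩ := hcon
  have h1 : 0 < (1 + A * B - β' * s + β' * A * s') * ((1 + A * B) * (τ - x * β - 1 / 2 - a)) :=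
    mul_pos hP2 (mul_pos hAB (by linarith))
  have h2 : 0 < (1 + A * B + β * s' + β * B * s) * ((1 + A * B) * (1 / 2 - τ + y * β' - b)) :=
    mul_pos hP1 (mul_pos hAB (by linarith))
  have hid : (1 + A * B - β' * s + β' * A * s') * ((1 + A * B) * (τ - x * β - 1 / 2 - a)) +
      (1 + A * B + β * s' + β * B * s) * ((1 + A * B) * (1 / 2 - τ + y * β' - b)) =
      (1 + A * B) * ((1 / 2) * (β' * s - β * s' + β' * A * s' + β * B * s) + β * β' * s * s'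
        - a * (1 + A * B - β' * s + β' * A * s') - b * (1 + A * B + β * s' + β * B * s)) := by
    linear_combination
      (β * (1 + A * B - β' * s + β' * A * s') * B + β' * (1 + A * B + β * s' + β * B * s)) * E1
      + (-β * (1 + A * B - β' * s + β' * A * s') + β' * (1 + A * B + β * s' + β * B * s) * A) * E2
  have h3 : (1 + A * B) * ((1 / 2) * (β' * s - β * s' + β' * A * s' + β * B * s) + β * β' * s * s'
        - a * (1 + A * B - β' * s + β' * A * s') - b * (1 + A * B + β * s' + β * B * s)) ≤ 0 :=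
    mul_nonpos_of_nonneg_of_nonpos hAB.le (by linarith)
  linarith


theorem fb_abs_mul_le (a b A B : ℝ) (ha : |a| ≤ A) (hb : |b| ≤ B) :
    a * b ≤ A * B ∧ -(A * B) ≤ a * b := by
  have h : |a * b| ≤ A * B := by
    rw [abs_mul]
    exact mul_le_mul ha hb (abs_nonneg _) ((abs_nonneg _).trans ha)
  exact ⟨(le_abs_self _).trans h, by linarith [neg_abs_le (a * b)]⟩

/-- Bounds on `A = α - s β` for a sector with mid-slope `M`, half-width `d`. -/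
theorem fb_A_bounds (κ d M s : ℝ) (hκ0 : 0 ≤ κ) (hd0 : 0 ≤ d) (hM : |M| + d ≤ 1)
    (hs : |s - M| ≤ d) :
    0 ≤ κ * (1 + M ^ 2 - d ^ 2) / 2 - s * (κ * M) ∧
    κ * (1 + M ^ 2 - d ^ 2) / 2 - s * (κ * M) ≤ κ / 2 * (1 - s ^ 2) := by
  have hMabs := abs_nonneg M
  have hM2 : M ^ 2 = |M| ^ 2 := (sq_abs M).symm
  have h1 : (s - M) * M ≤ d * |M| := (fb_abs_mul_le (s - M) M d |M| hs le_rfl).1
  have h2 : (s - M) ^ 2 ≤ d ^ 2 := by
    rw [← sq_abs (s - M)]; exact pow_le_pow_left₀ (abs_nonneg _) hs 2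
  have e : κ * (1 + M ^ 2 - d ^ 2) / 2 - s * (κ * M)
      = κ / 2 * (1 - M ^ 2 - d ^ 2 - 2 * ((s - M) * M)) := by ring
  constructor
  · rw [e]
    apply mul_nonneg (by linarith)
    have hprod : 0 ≤ (1 - |M| - d) * (1 + |M| + d) :=
      mul_nonneg (by linarith) (by linarith)
    nlinarith
  · have e2 : κ / 2 * (1 - s ^ 2) - (κ * (1 + M ^ 2 - d ^ 2) / 2 - s * (κ * M))
        = κ / 2 * (d ^ 2 - (s - M) ^ 2) := by ring
    have : 0 ≤ κ / 2 * (d ^ 2 - (s - M) ^ 2) := mul_nonneg (by linarith) (by linarith)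
    linarith

theorem fb_P_lower (κ A B M s s' : ℝ) (hκ0 : 0 ≤ κ) (hA0 : 0 ≤ A) (hB0 : 0 ≤ B)
    (hB1 : B ≤ κ / 2) (hM : |M| ≤ 1) (hs : |s| ≤ 1) (hs' : |s'| ≤ 1) :
    1 - κ - κ ^ 2 / 2 ≤ 1 + A * B + (κ * M) * s' + (κ * M) * B * s := by
  have h1 : -(1:ℝ) ≤ M * s' := by have := (fb_abs_mul_le M s' 1 1 hM hs').2; linarith
  have h2 : -(1:ℝ) ≤ M * s := by have := (fb_abs_mul_le M s 1 1 hM hs).2; linarith
  have h3 : 0 ≤ A * B := mul_nonneg hA0 hB0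
  have h4 : -κ ≤ κ * (M * s') := by nlinarith
  have h5 : 0 ≤ κ * B := mul_nonneg hκ0 hB0
  have h6 : -(κ * B) ≤ (κ * B) * (M * s) := by nlinarith
  have h7 : κ * B ≤ κ * (κ / 2) := mul_le_mul_of_nonneg_left hB1 hκ0
  nlinarith

theorem fb_P_lower' (κ A B M' s s' : ℝ) (hκ0 : 0 ≤ κ) (hA0 : 0 ≤ A) (hB0 : 0 ≤ B)
    (hA1 : A ≤ κ / 2) (hM : |M'| ≤ 1) (hs : |s| ≤ 1) (hs' : |s'| ≤ 1) :
    1 - κ - κ ^ 2 / 2 ≤ 1 + A * B - (κ * M') * s + (κ * M') * A * s' := by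
  have h1 : M' * s ≤ 1 := by have := (fb_abs_mul_le M' s 1 1 hM hs).1; linarith
  have h2 : -(1:ℝ) ≤ M' * s' := by have := (fb_abs_mul_le M' s' 1 1 hM hs').2; linarith
  have h3 : 0 ≤ A * B := mul_nonneg hA0 hB0
  have h4 : κ * (M' * s) ≤ κ := by nlinarith
  have h5 : 0 ≤ κ * A := mul_nonneg hκ0 hA0
  have h6 : -(κ * A) ≤ (κ * A) * (M' * s') := by nlinarith
  have h7 : κ * A ≤ κ * (κ / 2) := mul_le_mul_of_nonneg_left hA1 hκ0
  nlinarith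


/-- `s² ≤ M² + 2d` and `s⁴ ≤ M⁴ + 4d` for `|s - M| ≤ d`, `|M|, |s| ≤ 1`. -/
theorem fb_pow_bounds (d M s : ℝ) (hM : |M| ≤ 1) (hs1 : |s| ≤ 1) (hs : |s - M| ≤ d) :
    s ^ 2 ≤ M ^ 2 + 2 * d ∧ s ^ 4 ≤ M ^ 4 + 4 * d ∧ 0 ≤ s ^ 2 ∧ s ^ 2 ≤ 1 := by
  have hd0 : 0 ≤ d := (abs_nonneg _).trans hs
  have hsum : |s + M| ≤ 2 := by
    calc |s + M| ≤ |s| + |M| := abs_add_le _ _
      _ ≤ 2 := by linarith
  have h1 : (s - M) * (s + M) ≤ d * 2 := (fb_abs_mul_le (s - M) (s + M) d 2 hs hsum).1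
  have hs2 : s ^ 2 ≤ 1 := by
    rw [← sq_abs s]; exact pow_le_one₀ (abs_nonneg _) hs1
  have hM2 : M ^ 2 ≤ 1 := by
    rw [← sq_abs M]; exact pow_le_one₀ (abs_nonneg _) hM
  have e1 : s ^ 2 = M ^ 2 + (s - M) * (s + M) := by ring
  have h2 : s ^ 2 ≤ M ^ 2 + 2 * d := by linarith
  have hq : |s ^ 2 - M ^ 2| ≤ 2 * d := by
    have : s ^ 2 - M ^ 2 = (s - M) * (s + M) := by ring
    rw [this, abs_mul]
    calc |s - M| * |s + M| ≤ d * 2 := mul_le_mul hs hsum (abs_nonneg _) hd0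
      _ = 2 * d := by ring
  have hp : |s ^ 2 + M ^ 2| ≤ 2 := by
    rw [abs_of_nonneg (by positivity)]; linarith
  have h3 : (s ^ 2 - M ^ 2) * (s ^ 2 + M ^ 2) ≤ 2 * d * 2 :=
    (fb_abs_mul_le _ _ _ _ hq hp).1
  have e2 : s ^ 4 = M ^ 4 + (s ^ 2 - M ^ 2) * (s ^ 2 + M ^ 2) := by ring
  exact ⟨h2, by linarith, sq_nonneg s, hs2⟩

/-- Upper bound for the right-hand side of the exact interface inequality. -/
theorem fb_rhs_upper (κ d M M' s s' A B : ℝ) (hκ0 : 0 ≤ κ) (hκ1 : κ ≤ 1 / 10) (hd0 : 0 ≤ d)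
    (hd1 : d ≤ 1 / 10) (hM : |M| + d ≤ 1) (hM' : |M'| + d ≤ 1) (hs : |s - M| ≤ d)
    (hs' : |s' - M'| ≤ d) (hA0 : 0 ≤ A) (hA1 : A ≤ κ / 2 * (1 - s ^ 2)) (hB0 : 0 ≤ B)
    (hB1 : B ≤ κ / 2 * (1 - s' ^ 2)) :
    (1 / 2) * ((κ * M') * s - (κ * M) * s' + (κ * M') * A * s' + (κ * M) * B * s)
        + (κ * M) * (κ * M') * s * s' ≤
      κ ^ 2 * ((M ^ 2 + M ^ 4) / 4 + (M' ^ 2 + M' ^ 4) / 4) + 2 * (κ * d) := by
  have hMa : |M| ≤ 1 := by linarith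
  have hMa' : |M'| ≤ 1 := by linarith
  have hs1 : |s| ≤ 1 := by
    have : |s| ≤ |s - M| + |M| := by
      have := abs_add_le (s - M) M; simpa using this
    linarith
  have hs1' : |s'| ≤ 1 := by
    have : |s'| ≤ |s' - M'| + |M'| := by
      have := abs_add_le (s' - M') M'; simpa using this
    linarith
  obtain ⟨hX1, hX2, hX0, hXle⟩ := fb_pow_bounds d M s hMa hs1 hs
  obtain ⟨hY1, hY2, hY0, hYle⟩ := fb_pow_bounds d M' s' hMa' hs1' hs'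
  -- T1
  have t1a : M' * (s - M) ≤ 1 * d := (fb_abs_mul_le M' (s - M) 1 d hMa' hs).1
  have t1b : -(1 * d) ≤ M * (s' - M') := (fb_abs_mul_le M (s' - M') 1 d hMa hs').2
  have T1 : M' * s - M * s' ≤ 2 * d := by
    have : M' * s - M * s' = M' * (s - M) - M * (s' - M') := by ring
    linarith
  -- u = M s, u' = M' s'
  have u1 : (s - M) * s ≤ d * 1 := (fb_abs_mul_le (s - M) s d 1 hs hs1).1
  have u2 : -(d * 1) ≤ (s - M) * s := (fb_abs_mul_le (s - M) s d 1 hs hs1).2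
  have u1' : (s' - M') * s' ≤ d * 1 := (fb_abs_mul_le (s' - M') s' d 1 hs' hs1').1
  have u2' : -(d * 1) ≤ (s' - M') * s' := (fb_abs_mul_le (s' - M') s' d 1 hs' hs1').2
  have hu : |M * s| ≤ s ^ 2 + d := by
    have e : M * s = s ^ 2 - (s - M) * s := by ring
    rw [abs_le]; constructor <;> linarith
  have hu' : |M' * s'| ≤ s' ^ 2 + d := by
    have e : M' * s' = s' ^ 2 - (s' - M') * s' := by ring
    rw [abs_le]; constructor <;> linarith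
  have hule : M * s ≤ s ^ 2 + d := (le_abs_self _).trans hu
  have hule' : M' * s' ≤ s' ^ 2 + d := (le_abs_self _).trans hu'
  -- T2
  have T2a : (M' * s') * A ≤ (s' ^ 2 + d) * (κ / 2 * (1 - s ^ 2)) := by
    calc (M' * s') * A ≤ (s' ^ 2 + d) * A := mul_le_mul_of_nonneg_right hule' hA0
      _ ≤ (s' ^ 2 + d) * (κ / 2 * (1 - s ^ 2)) := mul_le_mul_of_nonneg_left hA1 (by linarith)
  have T2b : (M * s) * B ≤ (s ^ 2 + d) * (κ / 2 * (1 - s' ^ 2)) := by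
    calc (M * s) * B ≤ (s ^ 2 + d) * B := mul_le_mul_of_nonneg_right hule hB0
      _ ≤ (s ^ 2 + d) * (κ / 2 * (1 - s' ^ 2)) := mul_le_mul_of_nonneg_left hB1 (by linarith)
  -- T3
  have T3 : (M * s) * (M' * s') ≤ (s ^ 2 + d) * (s' ^ 2 + d) :=
    (fb_abs_mul_le _ _ _ _ hu hu').1
  -- bracket inequality (no κ)
  have hbr : (s' ^ 2 + d) * (1 - s ^ 2) / 4 + (s ^ 2 + d) * (1 - s' ^ 2) / 4
      + (s ^ 2 + d) * (s' ^ 2 + d) ≤
      (M ^ 2 + M ^ 4) / 4 + (M' ^ 2 + M' ^ 4) / 4 + 5 * d + d ^ 2 := by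
    have hXY : s ^ 2 * s' ^ 2 ≤ (s ^ 4 + s' ^ 4) / 2 := by
      have h := sq_nonneg (s ^ 2 - s' ^ 2)
      have e : (s ^ 2 - s' ^ 2) ^ 2 = s ^ 4 + s' ^ 4 - 2 * (s ^ 2 * s' ^ 2) := by ring
      linarith
    have hdX : d * s ^ 2 ≤ d * 1 := mul_le_mul_of_nonneg_left hXle hd0
    have hdY : d * s' ^ 2 ≤ d * 1 := mul_le_mul_of_nonneg_left hYle hd0
    have e : (s' ^ 2 + d) * (1 - s ^ 2) / 4 + (s ^ 2 + d) * (1 - s' ^ 2) / 4
        + (s ^ 2 + d) * (s' ^ 2 + d) =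
        (s ^ 2 + s' ^ 2) / 4 + (s ^ 2 * s' ^ 2) / 2 + d / 2 + 3 / 4 * (d * s ^ 2 + d * s' ^ 2)
          + d ^ 2 := by ring
    rw [e]
    linarith
  -- assemble
  have hκ2 : 0 ≤ κ ^ 2 := sq_nonneg κ
  have step1 : (1 / 2) * ((κ * M') * s - (κ * M) * s' + (κ * M') * A * s' + (κ * M) * B * s)
        + (κ * M) * (κ * M') * s * s' =
      κ / 2 * (M' * s - M * s') + κ / 2 * ((M' * s') * A + (M * s) * B)
        + κ ^ 2 * ((M * s) * (M' * s')) := by ring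
  have step2 : κ / 2 * (M' * s - M * s') ≤ κ / 2 * (2 * d) :=
    mul_le_mul_of_nonneg_left T1 (by linarith)
  have step3 : κ / 2 * ((M' * s') * A + (M * s) * B) ≤
      κ / 2 * ((s' ^ 2 + d) * (κ / 2 * (1 - s ^ 2)) + (s ^ 2 + d) * (κ / 2 * (1 - s' ^ 2))) :=
    mul_le_mul_of_nonneg_left (by linarith) (by linarith)
  have step4 : κ ^ 2 * ((M * s) * (M' * s')) ≤ κ ^ 2 * ((s ^ 2 + d) * (s' ^ 2 + d)) :=
    mul_le_mul_of_nonneg_left T3 hκ2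
  have step5 : κ ^ 2 * ((s' ^ 2 + d) * (1 - s ^ 2) / 4 + (s ^ 2 + d) * (1 - s' ^ 2) / 4
      + (s ^ 2 + d) * (s' ^ 2 + d)) ≤
      κ ^ 2 * ((M ^ 2 + M ^ 4) / 4 + (M' ^ 2 + M' ^ 4) / 4 + 5 * d + d ^ 2) :=
    mul_le_mul_of_nonneg_left hbr hκ2
  have step6 : κ ^ 2 * (5 * d + d ^ 2) ≤ κ * d := by
    have h1 : κ * (5 + d) ≤ 1 := by nlinarith
    have h2 : 0 ≤ κ * d := mul_nonneg hκ0 hd0
    have : κ ^ 2 * (5 * d + d ^ 2) = (κ * (5 + d)) * (κ * d) := by ring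
    rw [this]
    calc (κ * (5 + d)) * (κ * d) ≤ 1 * (κ * d) := mul_le_mul_of_nonneg_right h1 h2
      _ = κ * d := one_mul _
  have step3' : κ / 2 * ((s' ^ 2 + d) * (κ / 2 * (1 - s ^ 2)) + (s ^ 2 + d) * (κ / 2 * (1 - s' ^ 2)))
      + κ ^ 2 * ((s ^ 2 + d) * (s' ^ 2 + d)) =
      κ ^ 2 * ((s' ^ 2 + d) * (1 - s ^ 2) / 4 + (s ^ 2 + d) * (1 - s' ^ 2) / 4
      + (s ^ 2 + d) * (s' ^ 2 + d)) := by ring
  have step5' : κ ^ 2 * ((M ^ 2 + M ^ 4) / 4 + (M' ^ 2 + M' ^ 4) / 4 + 5 * d + d ^ 2) =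
      κ ^ 2 * ((M ^ 2 + M ^ 4) / 4 + (M' ^ 2 + M' ^ 4) / 4) + κ ^ 2 * (5 * d + d ^ 2) := by ring
  have step2' : κ / 2 * (2 * d) = κ * d := by ring
  rw [step1]
  linarith


/-- The interface lemma for two sectors with mid-slopes `M`, `M'` and half-width `d`. -/
theorem fb_core (κ d M M' s s' x y τ : ℝ) (hκ0 : 0 ≤ κ) (hκ1 : κ ≤ 1 / 10) (hd0 : 0 ≤ d)
    (hd1 : d ≤ 1 / 10) (hM : |M| + d ≤ 1) (hM' : |M'| + d ≤ 1) (hs : |s - M| ≤ d)
    (hs' : |s' - M'| ≤ d)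
    (E1 : y - x * (κ * (1 + M ^ 2 - d ^ 2) / 2) = s * (τ - x * (κ * M)))
    (E2 : x + y * (κ * (1 + M' ^ 2 - d ^ 2) / 2) = s' * (1 - τ + y * (κ * M'))) :
    τ - x * (κ * M) ≤ 1 / 2 + (1 + 2 * κ) * (κ ^ 2 * ((M ^ 2 + M ^ 4) / 4) + κ * d) ∨
    1 - τ + y * (κ * M') ≤ 1 / 2 + (1 + 2 * κ) * (κ ^ 2 * ((M' ^ 2 + M' ^ 4) / 4) + κ * d) := by
  obtain ⟨hA0, hA1⟩ := fb_A_bounds κ d M s hκ0 hd0 hM hs
  obtain ⟨hB0, hB1⟩ := fb_A_bounds κ d M' s' hκ0 hd0 hM' hs'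
  obtain ⟨A, hA⟩ : ∃ A, A = κ * (1 + M ^ 2 - d ^ 2) / 2 - s * (κ * M) := ⟨_, rfl⟩
  obtain ⟨B, hB⟩ : ∃ B, B = κ * (1 + M' ^ 2 - d ^ 2) / 2 - s' * (κ * M') := ⟨_, rfl⟩
  rw [← hA] at hA0 hA1
  rw [← hB] at hB0 hB1
  have E1' : y = s * τ + A * x := by rw [hA]; linear_combination E1
  have E2' : x = s' * (1 - τ) - B * y := by rw [hB]; linear_combination E2
  have hMa : |M| ≤ 1 := by linarith
  have hMa' : |M'| ≤ 1 := by linarith
  have hs1 : |s| ≤ 1 := by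
    have : |s| ≤ |s - M| + |M| := by
      have := abs_add_le (s - M) M; simpa using this
    linarith
  have hs1' : |s'| ≤ 1 := by
    have : |s'| ≤ |s' - M'| + |M'| := by
      have := abs_add_le (s' - M') M'; simpa using this
    linarith
  have hA2 : A ≤ κ / 2 := by
    have : κ / 2 * (1 - s ^ 2) ≤ κ / 2 * 1 :=
      mul_le_mul_of_nonneg_left (by linarith [sq_nonneg s]) (by linarith)
    linarith
  have hB2 : B ≤ κ / 2 := by
    have : κ / 2 * (1 - s' ^ 2) ≤ κ / 2 * 1 :=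
      mul_le_mul_of_nonneg_left (by linarith [sq_nonneg s']) (by linarith)
    linarith
  have hP1 := fb_P_lower κ A B M s s' hκ0 hA0 hB0 hB2 hMa hs1 hs1'
  have hP2 := fb_P_lower' κ A B M' s s' hκ0 hA0 hB0 hA2 hMa' hs1 hs1'
  have hκ2 : κ ^ 2 ≤ 1 / 100 := by nlinarith
  have hc : 0 < 1 - κ - κ ^ 2 / 2 := by linarith
  have hrhs := fb_rhs_upper κ d M M' s s' A B hκ0 hκ1 hd0 hd1 hM hM' hs hs' hA0 hA1 hB0 hB1
  have hXa : 0 ≤ κ ^ 2 * ((M ^ 2 + M ^ 4) / 4) + κ * d := by positivity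
  have hXb : 0 ≤ κ ^ 2 * ((M' ^ 2 + M' ^ 4) / 4) + κ * d := by positivity
  have hfac : 1 ≤ (1 + 2 * κ) * (1 - κ - κ ^ 2 / 2) := by
    have e : (1 + 2 * κ) * (1 - κ - κ ^ 2 / 2) = 1 + κ * (1 - 5 / 2 * κ - κ ^ 2) := by ring
    rw [e]
    have : 0 ≤ κ * (1 - 5 / 2 * κ - κ ^ 2) := mul_nonneg hκ0 (by linarith)
    linarith
  have h2κ : 0 ≤ 1 + 2 * κ := by linarith
  have ha0 : 0 ≤ (1 + 2 * κ) * (κ ^ 2 * ((M ^ 2 + M ^ 4) / 4) + κ * d) := mul_nonneg h2κ hXa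
  have hb0 : 0 ≤ (1 + 2 * κ) * (κ ^ 2 * ((M' ^ 2 + M' ^ 4) / 4) + κ * d) := mul_nonneg h2κ hXb
  have hkey : (1 / 2) * ((κ * M') * s - (κ * M) * s' + (κ * M') * A * s' + (κ * M) * B * s)
        + (κ * M) * (κ * M') * s * s' ≤
      (1 + 2 * κ) * (κ ^ 2 * ((M ^ 2 + M ^ 4) / 4) + κ * d)
        * (1 + A * B - (κ * M') * s + (κ * M') * A * s')
      + (1 + 2 * κ) * (κ ^ 2 * ((M' ^ 2 + M' ^ 4) / 4) + κ * d)
        * (1 + A * B + (κ * M) * s' + (κ * M) * B * s) := by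
    have g1 := mul_le_mul_of_nonneg_left hP2 ha0
    have g2 := mul_le_mul_of_nonneg_left hP1 hb0
    have g3 := mul_le_mul_of_nonneg_right hfac hXa
    have g4 := mul_le_mul_of_nonneg_right hfac hXb
    have e3 : (1 + 2 * κ) * (κ ^ 2 * ((M ^ 2 + M ^ 4) / 4) + κ * d) * (1 - κ - κ ^ 2 / 2)
        = (1 + 2 * κ) * (1 - κ - κ ^ 2 / 2) * (κ ^ 2 * ((M ^ 2 + M ^ 4) / 4) + κ * d) := by ring
    have e4 : (1 + 2 * κ) * (κ ^ 2 * ((M' ^ 2 + M' ^ 4) / 4) + κ * d) * (1 - κ - κ ^ 2 / 2)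
        = (1 + 2 * κ) * (1 - κ - κ ^ 2 / 2) * (κ ^ 2 * ((M' ^ 2 + M' ^ 4) / 4) + κ * d) := by ring
    have e5 : κ ^ 2 * ((M ^ 2 + M ^ 4) / 4 + (M' ^ 2 + M' ^ 4) / 4) + 2 * (κ * d) =
        (κ ^ 2 * ((M ^ 2 + M ^ 4) / 4) + κ * d) + (κ ^ 2 * ((M' ^ 2 + M' ^ 4) / 4) + κ * d) := by
      ring
    linarith
  exact fb_exact A B (κ * M) (κ * M') s s' _ _ x y τ E1' E2'
    (by have := mul_nonneg hA0 hB0; linarith) (lt_of_lt_of_le hc hP1) (lt_of_lt_of_le hc hP2) hkey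


/-! ### The concrete family -/

/-- shear parameter -/
noncomputable def fbKap : ℝ := 1 / 1000

/-- number of sectors per family -/
def fbN : ℕ := 4000000

/-- half-width of a sector in the slope variable -/
noncomputable def fbD : ℝ := 1 / 4000000

/-- slope nodes `t_j = -1 + 2 j d` -/
noncomputable def fbT (j : ℕ) : ℝ := -1 + 2 * (j : ℝ) * fbD

/-- mid-slopes `M_j = t_j + d` -/
noncomputable def fbM (j : ℕ) : ℝ := -1 + (2 * (j : ℝ) + 1) * fbD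

/-- `y`-velocity of sector `j` -/
noncomputable def fbA (j : ℕ) : ℝ := fbKap * (1 + fbM j ^ 2 - fbD ^ 2) / 2

/-- `τ`-velocity of sector `j` -/
noncomputable def fbB (j : ℕ) : ℝ := fbKap * fbM j

/-- reach of sector `j` -/
noncomputable def fbRho (j : ℕ) : ℝ :=
  1 / 2 + (1 + 2 * fbKap) * (fbKap ^ 2 * ((fbM j ^ 2 + fbM j ^ 4) / 4) + fbKap * fbD)

theorem fbT_eq (j : ℕ) : fbT j = fbM j - fbD := by unfold fbT fbM; ring

theorem fbT_succ (j : ℕ) : fbT (j + 1) = fbM j + fbD := by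
  unfold fbT fbM; push_cast; ring

theorem fbT_zero : fbT 0 = -1 := by unfold fbT; simp

theorem fbT_last : fbT fbN = 1 := by unfold fbT fbN fbD; norm_num

theorem fbD_pos : 0 < fbD := by unfold fbD; norm_num

theorem fbT_mono {i j : ℕ} (h : i ≤ j) : fbT i ≤ fbT j := by
  unfold fbT
  have : (i : ℝ) ≤ j := by exact_mod_cast h
  have := fbD_pos
  nlinarith

theorem fbM_abs (j : ℕ) (hj : j < fbN) : |fbM j| + fbD ≤ 1 := by
  have h1 : fbT 0 ≤ fbT j := fbT_mono (Nat.zero_le j)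
  have h2 : fbT (j + 1) ≤ fbT fbN := fbT_mono hj
  rw [fbT_zero, fbT_eq] at h1
  rw [fbT_last, fbT_succ] at h2
  have : |fbM j| ≤ 1 - fbD := by
    rw [abs_le]; constructor <;> linarith
  linarith

theorem fbRho_pos (j : ℕ) : 0 < fbRho j := by
  unfold fbRho
  have h1 : (0:ℝ) ≤ (1 + 2 * fbKap) * (fbKap ^ 2 * ((fbM j ^ 2 + fbM j ^ 4) / 4) + fbKap * fbD) := by
    unfold fbKap fbD; positivity
  linarith

/-- the plane functions of the fan -/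
noncomputable def fbL (x y τ : ℝ) (j : ℕ) : ℝ :=
  y - fbT j * τ - x * (fbKap * (1 - fbT j ^ 2) / 2)

theorem fbL_lo (x y τ : ℝ) (j : ℕ) :
    (y - x * fbA j) - fbT j * (τ - x * fbB j) = fbL x y τ j := by
  unfold fbL fbA fbB; rw [fbT_eq]; ring

theorem fbL_hi (x y τ : ℝ) (j : ℕ) :
    (y - x * fbA j) - fbT (j + 1) * (τ - x * fbB j) = fbL x y τ (j + 1) := by
  unfold fbL fbA fbB; rw [fbT_succ]; ring

/-- fan tiling: every point of the wedge `|y| ≤ τ` lies between two consecutive planes -/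
theorem fb_tiling (x y τ : ℝ) (h : |y| ≤ τ) :
    ∃ j, j < fbN ∧ 0 ≤ fbL x y τ j ∧ fbL x y τ (j + 1) ≤ 0 := by
  have h' := abs_le.mp h
  apply fb_ivt (fbL x y τ) fbN (by unfold fbN; norm_num)
  · unfold fbL; rw [fbT_zero]; nlinarith [h'.1]
  · unfold fbL; rw [fbT_last]; nlinarith [h'.2]

/-- **Coverage**: the sectors and their `Ψ`-images cover `{|y| ≤ τ, |x| ≤ 1 - τ}`. -/
theorem fb_hcov (x y τ : ℝ) (hy : |y| ≤ τ) (hx : |x| ≤ 1 - τ) :
    (∃ i : Fin fbN, SecMem (fbA i) (fbB i) (fbT i) (fbT (i + 1)) (fbRho i) x y τ) ∨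
    (∃ i : Fin fbN, SecMem (fbA i) (fbB i) (fbT i) (fbT (i + 1)) (fbRho i) (-y) x (1 - τ)) := by
  obtain ⟨j, hj, hj0, hj1⟩ := fb_tiling x y τ hy
  obtain ⟨j', hj', hj0', hj1'⟩ := fb_tiling (-y) x (1 - τ) hx
  rw [← fbL_lo] at hj0 hj0'
  rw [← fbL_hi] at hj1 hj1'
  by_cases hr : τ - x * fbB j ≤ fbRho j
  · left
    exact ⟨⟨j, hj⟩, by linarith, by linarith, hr⟩
  by_cases hr' : (1 - τ) - (-y) * fbB j' ≤ fbRho j'
  · right
    exact ⟨⟨j', hj'⟩, by linarith, by linarith, hr'⟩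
  exfalso
  have hr1 : fbRho j < τ - x * fbB j := not_le.mp hr
  have hr1' : fbRho j' < (1 - τ) - (-y) * fbB j' := not_le.mp hr'
  have hp : 0 < τ - x * fbB j := lt_trans (fbRho_pos j) hr1
  have hp' : 0 < (1 - τ) - (-y) * fbB j' := lt_trans (fbRho_pos j') hr1'
  -- slopes
  obtain ⟨s, hs⟩ : ∃ s, s = (y - x * fbA j) / (τ - x * fbB j) := ⟨_, rfl⟩
  obtain ⟨s', hs'⟩ : ∃ s', s' = (x - (-y) * fbA j') / ((1 - τ) - (-y) * fbB j') := ⟨_, rfl⟩
  have E1 : y - x * fbA j = s * (τ - x * fbB j) := by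
    rw [hs]; exact (div_mul_cancel₀ _ hp.ne').symm
  have E2 : x - (-y) * fbA j' = s' * ((1 - τ) - (-y) * fbB j') := by
    rw [hs']; exact (div_mul_cancel₀ _ hp'.ne').symm
  have hsd : |s - fbM j| ≤ fbD := by
    rw [abs_le]
    constructor
    · have : fbT j ≤ s := by
        rw [hs, le_div_iff₀ hp]; linarith
      rw [fbT_eq] at this; linarith
    · have : s ≤ fbT (j + 1) := by
        rw [hs, div_le_iff₀ hp]; linarith
      rw [fbT_succ] at this; linarith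
  have hsd' : |s' - fbM j'| ≤ fbD := by
    rw [abs_le]
    constructor
    · have : fbT j' ≤ s' := by
        rw [hs', le_div_iff₀ hp']; linarith
      rw [fbT_eq] at this; linarith
    · have : s' ≤ fbT (j' + 1) := by
        rw [hs', div_le_iff₀ hp']; linarith
      rw [fbT_succ] at this; linarith
  have hκ0 : (0:ℝ) ≤ fbKap := by unfold fbKap; norm_num
  have hκ1 : fbKap ≤ 1 / 10 := by unfold fbKap; norm_num
  have hd1 : fbD ≤ 1 / 10 := by unfold fbD; norm_num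
  have hcore := fb_core fbKap fbD (fbM j) (fbM j') s s' x y τ hκ0 hκ1 fbD_pos.le hd1
    (fbM_abs j hj) (fbM_abs j' hj') hsd hsd'
    (by unfold fbA fbB at E1; linear_combination E1)
    (by unfold fbA fbB at E2; linear_combination E2)
  rcases hcore with h1 | h2
  · unfold fbRho fbB at hr1; linarith
  · unfold fbRho fbB at hr1'; linarith

end Crest.Agent.R211
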