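/-
Row 211 (owner: helper24): cost bound for the independent fan family of `R211_FanB.lean`
and the resulting real-arithmetic core `fanB_real`.  Names prefixed `fb`.
-/
import Mathlib
import Crest.Agent.R211_FanB

set_option autoImplicit false

namespace Crest.Agent.R211

/-- `1/√(1+z) ≤ 1 - z/2 + 3z²/8` for `z ≥ 0`. -/
theorem fb_inv_sqrt (z : ℝ) (hz : 0 ≤ z) :
    1 / Real.sqrt (1 + z) ≤ 1 - z / 2 + 3 * z ^ 2 / 8 := by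
  have hq : 0 < 1 - z / 2 + 3 * z ^ 2 / 8 := by nlinarith [sq_nonneg (z - 2 / 3)]
  have hpoly : 1 ≤ (1 + z) * (1 - z / 2 + 3 * z ^ 2 / 8) ^ 2 := by
    have e : (1 + z) * (1 - z / 2 + 3 * z ^ 2 / 8) ^ 2 - 1
        = z ^ 3 * (5 / 8 - 15 / 64 * z + 9 / 64 * z ^ 2) := by ring
    have h1 : 0 ≤ 5 / 8 - 15 / 64 * z + 9 / 64 * z ^ 2 := by nlinarith [sq_nonneg (z - 5 / 6)]
    have h2 : 0 ≤ z ^ 3 * (5 / 8 - 15 / 64 * z + 9 / 64 * z ^ 2) :=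
      mul_nonneg (pow_nonneg hz 3) h1
    linarith
  have hs : 0 < Real.sqrt (1 + z) := Real.sqrt_pos.mpr (by linarith)
  have h3 : (1 / (1 - z / 2 + 3 * z ^ 2 / 8)) ^ 2 ≤ 1 + z := by
    rw [div_pow, one_pow, div_le_iff₀ (by positivity)]
    linarith
  have h4 : 1 / (1 - z / 2 + 3 * z ^ 2 / 8) ≤ Real.sqrt (1 + z) := Real.le_sqrt_of_sq_le h3
  rw [div_le_iff₀ hs]
  rw [div_le_iff₀ hq] at h4
  linarith

/-- antiderivative of `P(t) = (7/32)t⁴ - (1/16)t² - 1/32` -/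
noncomputable def fbG (t : ℝ) : ℝ := 7 / 160 * t ^ 5 - 1 / 48 * t ^ 3 - t / 32

/-- Per-sector cost bound. -/
theorem fb_sector_cost (κ d M : ℝ) (hκ0 : 0 ≤ κ) (hκ1 : κ ≤ 1 / 100) (hd0 : 0 ≤ d)
    (hd1 : d ≤ 1 / 100) (hM : |M| + d ≤ 1) :
    (1 / 2 + (1 + 2 * κ) * (κ ^ 2 * ((M ^ 2 + M ^ 4) / 4) + κ * d)) ^ 2 * (2 * d) /
        Real.sqrt (1 + (κ * (1 + M ^ 2 - d ^ 2) / 2) ^ 2 + 2 * (κ * M) ^ 2) ≤
      d / 2 + κ ^ 2 * (fbG (M + d) - fbG (M - d)) +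
        2 * d * (κ ^ 3 + 3 * (κ * d) + 35 / 8 * κ ^ 4) := by
  -- basic bounds
  have hMa : |M| ≤ 1 := by linarith
  have hM2 : M ^ 2 ≤ 1 := by rw [← sq_abs M]; exact pow_le_one₀ (abs_nonneg _) hMa
  have hM20 : 0 ≤ M ^ 2 := sq_nonneg M
  have hM4 : M ^ 4 ≤ 1 := by
    have : M ^ 4 = (M ^ 2) ^ 2 := by ring
    rw [this]; exact pow_le_one₀ hM20 hM2
  have hM40 : 0 ≤ M ^ 4 := by positivity
  have hd2 : d ^ 2 ≤ 1 / 10000 := by nlinarith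
  have hd20 : 0 ≤ d ^ 2 := sq_nonneg d
  have hκ2 : κ ^ 2 ≤ 1 / 10000 := by nlinarith
  have hκ20 : 0 ≤ κ ^ 2 := sq_nonneg κ
  have hκd : 0 ≤ κ * d := mul_nonneg hκ0 hd0
  -- generalize the building blocks
  obtain ⟨η, hη⟩ : ∃ η, η = (M ^ 2 + M ^ 4) / 4 := ⟨_, rfl⟩
  have hη0 : 0 ≤ η := by rw [hη]; linarith
  have hη1 : η ≤ 1 / 2 := by rw [hη]; linarith
  obtain ⟨a, ha⟩ : ∃ a, a = (1 + 2 * κ) * (κ ^ 2 * η + κ * d) := ⟨_, rfl⟩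
  obtain ⟨z, hz⟩ : ∃ z, z = (κ * (1 + M ^ 2 - d ^ 2) / 2) ^ 2 + 2 * (κ * M) ^ 2 := ⟨_, rfl⟩
  have hz0 : 0 ≤ z := by rw [hz]; positivity
  have hw : (1 + M ^ 2 - d ^ 2) ^ 2 ≤ 4 := by
    have h1 : 0 ≤ 1 + M ^ 2 - d ^ 2 := by linarith
    have h2 : 1 + M ^ 2 - d ^ 2 ≤ 2 := by linarith
    nlinarith
  have hz1 : z ≤ 3 * κ ^ 2 := by
    have e : z = κ ^ 2 * ((1 + M ^ 2 - d ^ 2) ^ 2 / 4 + 2 * M ^ 2) := by rw [hz]; ring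
    rw [e]
    have : κ ^ 2 * ((1 + M ^ 2 - d ^ 2) ^ 2 / 4 + 2 * M ^ 2) ≤ κ ^ 2 * 3 :=
      mul_le_mul_of_nonneg_left (by linarith) hκ20
    linarith
  have hX0 : 0 ≤ κ ^ 2 * η + κ * d := add_nonneg (mul_nonneg hκ20 hη0) hκd
  have hX1 : κ ^ 2 * η + κ * d ≤ κ ^ 2 / 2 + κ * d := by
    have := mul_le_mul_of_nonneg_left hη1 hκ20
    linarith
  have h2κ : 0 ≤ 1 + 2 * κ := by linarith
  have ha0 : 0 ≤ a := by rw [ha]; exact mul_nonneg h2κ hX0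
  -- a ≤ κ² (crude): (1+2κ)(κ²/2 + κ d) ≤ κ² needs d small relative to κ; instead bound a ≤ 1/100
  have ha1 : a ≤ 2 * (κ ^ 2 / 2 + κ * d) := by
    rw [ha]
    calc (1 + 2 * κ) * (κ ^ 2 * η + κ * d) ≤ 2 * (κ ^ 2 * η + κ * d) :=
          mul_le_mul_of_nonneg_right (by linarith) hX0
      _ ≤ 2 * (κ ^ 2 / 2 + κ * d) := by linarith
  have hκd1 : κ * d ≤ 1 / 10000 := by nlinarith
  have ha2 : a ≤ 1 / 100 := by linarith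
  -- the square root
  have hsq := fb_inv_sqrt z hz0
  have hρ0 : 0 ≤ (1 / 2 + a) ^ 2 * (2 * d) := by positivity
  have hmain : (1 / 2 + a) ^ 2 * (2 * d) / Real.sqrt (1 + z) ≤
      (1 / 2 + a) ^ 2 * (2 * d) * (1 - z / 2 + 3 * z ^ 2 / 8) := by
    rw [div_eq_mul_one_div]
    exact mul_le_mul_of_nonneg_left hsq hρ0
  -- polynomial part: (1/2+a)² (1 - z/2 + 3z²/8) ≤ 1/4 + a - z/8 + a² + 2κ⁴·(27/16)...
  have hz2 : z ^ 2 ≤ 9 * κ ^ 4 := by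
    have : z ^ 2 ≤ (3 * κ ^ 2) ^ 2 := pow_le_pow_left₀ hz0 hz1 2
    have e : (3 * κ ^ 2) ^ 2 = 9 * κ ^ 4 := by ring
    linarith
  have hpoly1 : (1 / 2 + a) ^ 2 * (1 - z / 2 + 3 * z ^ 2 / 8) ≤
      1 / 4 + a - z / 8 + a ^ 2 + 27 / 8 * κ ^ 4 := by
    have hρ1 : (1 / 2 + a) ^ 2 ≤ 1 := by nlinarith
    have hρ2 : 0 ≤ (1 / 2 + a) ^ 2 := sq_nonneg _
    have t1 : (1 / 2 + a) ^ 2 * (3 * z ^ 2 / 8) ≤ 1 * (3 * (9 * κ ^ 4) / 8) :=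
      mul_le_mul hρ1 (by linarith) (by positivity) zero_le_one
    have t2 : 0 ≤ (a + a ^ 2) * (z / 2) := by positivity
    have e : (1 / 2 + a) ^ 2 * (1 - z / 2 + 3 * z ^ 2 / 8) =
        1 / 4 + a + a ^ 2 - z / 8 - (a + a ^ 2) * (z / 2) + (1 / 2 + a) ^ 2 * (3 * z ^ 2 / 8) := by
      ring
    rw [e]; linarith
  -- a - z/8 in terms of P(M)
  have hP : a - z / 8 ≤ κ ^ 2 * (7 / 32 * M ^ 4 - 1 / 16 * M ^ 2 - 1 / 32) + κ ^ 3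
      + (1 + 2 * κ) * (κ * d) + κ ^ 2 * d ^ 2 / 8 := by
    have e : a - z / 8 = κ ^ 2 * (7 / 32 * M ^ 4 - 1 / 16 * M ^ 2 - 1 / 32) + 2 * κ ^ 3 * η
        + (1 + 2 * κ) * (κ * d) + κ ^ 2 / 32 * (2 * d ^ 2 * (1 + M ^ 2) - d ^ 4) := by
      rw [ha, hz, hη]; ring
    have t1 : 2 * κ ^ 3 * η ≤ κ ^ 3 := by
      have h3 : 0 ≤ κ ^ 3 := pow_nonneg hκ0 3
      nlinarith
    have t2 : κ ^ 2 / 32 * (2 * d ^ 2 * (1 + M ^ 2) - d ^ 4) ≤ κ ^ 2 / 32 * (4 * d ^ 2) := by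
      apply mul_le_mul_of_nonneg_left _ (by positivity)
      have : 0 ≤ d ^ 4 := by positivity
      nlinarith
    rw [e]; linarith
  -- a² bound
  have ha3 : a ^ 2 ≤ κ ^ 4 + 4 * κ ^ 2 * (κ * d) + 4 * (κ * d) ^ 2 := by
    have : a ^ 2 ≤ (2 * (κ ^ 2 / 2 + κ * d)) ^ 2 := pow_le_pow_left₀ ha0 ha1 2
    have e : (2 * (κ ^ 2 / 2 + κ * d)) ^ 2 = κ ^ 4 + 4 * κ ^ 2 * (κ * d) + 4 * (κ * d) ^ 2 := by ring
    linarith
  -- crude: 4κ²(κd) + 4(κd)² + (1+2κ)κd + κ²d²/8 ≤ 2 κ d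
  have hcr : 4 * κ ^ 2 * (κ * d) + 4 * (κ * d) ^ 2 + (1 + 2 * κ) * (κ * d) + κ ^ 2 * d ^ 2 / 8
      ≤ 2 * (κ * d) := by
    have e : 4 * κ ^ 2 * (κ * d) + 4 * (κ * d) ^ 2 + (1 + 2 * κ) * (κ * d) + κ ^ 2 * d ^ 2 / 8
        = (4 * κ ^ 2 + 4 * (κ * d) + 1 + 2 * κ + κ * d / 8) * (κ * d) := by ring
    rw [e]
    exact mul_le_mul_of_nonneg_right (by linarith) hκd
  -- Riemann sum of P against G
  have hG : 2 * d * (7 / 32 * M ^ 4 - 1 / 16 * M ^ 2 - 1 / 32) ≤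
      fbG (M + d) - fbG (M - d) + d ^ 3 / 24 := by
    have e : fbG (M + d) - fbG (M - d) = 2 * d * (7 / 32 * M ^ 4 - 1 / 16 * M ^ 2 - 1 / 32)
        + 7 / 8 * d ^ 3 * M ^ 2 + 7 / 80 * d ^ 5 - d ^ 3 / 24 := by
      unfold fbG; ring
    have h1 : 0 ≤ 7 / 8 * d ^ 3 * M ^ 2 := by positivity
    have h2 : 0 ≤ 7 / 80 * d ^ 5 := by positivity
    linarith
  -- assemble
  have hfin : (1 / 2 + a) ^ 2 * (2 * d) * (1 - z / 2 + 3 * z ^ 2 / 8) ≤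
      d / 2 + κ ^ 2 * (fbG (M + d) - fbG (M - d))
        + 2 * d * (κ ^ 3 + 3 * (κ * d) + 35 / 8 * κ ^ 4) := by
    have s1 : (1 / 2 + a) ^ 2 * (2 * d) * (1 - z / 2 + 3 * z ^ 2 / 8) =
        2 * d * ((1 / 2 + a) ^ 2 * (1 - z / 2 + 3 * z ^ 2 / 8)) := by ring
    have s2 : 2 * d * ((1 / 2 + a) ^ 2 * (1 - z / 2 + 3 * z ^ 2 / 8)) ≤
        2 * d * (1 / 4 + κ ^ 2 * (7 / 32 * M ^ 4 - 1 / 16 * M ^ 2 - 1 / 32) + κ ^ 3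
          + 2 * (κ * d) + 35 / 8 * κ ^ 4) := by
      apply mul_le_mul_of_nonneg_left _ (by linarith)
      linarith
    have s3 : κ ^ 2 * (2 * d * (7 / 32 * M ^ 4 - 1 / 16 * M ^ 2 - 1 / 32)) ≤
        κ ^ 2 * (fbG (M + d) - fbG (M - d) + d ^ 3 / 24) :=
      mul_le_mul_of_nonneg_left hG hκ20
    have s4 : κ ^ 2 * (d ^ 3 / 24) ≤ 2 * d * (κ * d) := by
      have e : 2 * d * (κ * d) - κ ^ 2 * (d ^ 3 / 24) = κ * d ^ 2 * (2 - κ * d / 24) := by ring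
      have : 0 ≤ κ * d ^ 2 * (2 - κ * d / 24) := by
        apply mul_nonneg (by positivity) (by linarith)
      linarith
    have e1 : 2 * d * (1 / 4 + κ ^ 2 * (7 / 32 * M ^ 4 - 1 / 16 * M ^ 2 - 1 / 32) + κ ^ 3
          + 2 * (κ * d) + 35 / 8 * κ ^ 4) =
        d / 2 + κ ^ 2 * (2 * d * (7 / 32 * M ^ 4 - 1 / 16 * M ^ 2 - 1 / 32))
          + 2 * d * (κ ^ 3 + 2 * (κ * d) + 35 / 8 * κ ^ 4) := by ring
    have e2 : κ ^ 2 * (fbG (M + d) - fbG (M - d) + d ^ 3 / 24) =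
        κ ^ 2 * (fbG (M + d) - fbG (M - d)) + κ ^ 2 * (d ^ 3 / 24) := by ring
    have e3 : 2 * d * (κ * d) + 2 * d * (κ ^ 3 + 2 * (κ * d) + 35 / 8 * κ ^ 4) =
        2 * d * (κ ^ 3 + 3 * (κ * d) + 35 / 8 * κ ^ 4) := by ring
    rw [s1]
    linarith
  have e0 : (1 / 2 + (1 + 2 * κ) * (κ ^ 2 * ((M ^ 2 + M ^ 4) / 4) + κ * d)) = 1 / 2 + a := by
    rw [ha, hη]
  have e0' : 1 + (κ * (1 + M ^ 2 - d ^ 2) / 2) ^ 2 + 2 * (κ * M) ^ 2 = 1 + z := by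
    rw [hz]; ring
  rw [e0, e0']
  exact le_trans hmain hfin

/-- Per-sector cost bound for the concrete family. -/
theorem fb_term_cost (j : ℕ) (hj : j < fbN) :
    fbRho j ^ 2 * (fbT (j + 1) - fbT j) / Real.sqrt (1 + fbA j ^ 2 + 2 * fbB j ^ 2) ≤
      fbD / 2 + fbKap ^ 2 * (fbG (fbT (j + 1)) - fbG (fbT j)) +
        2 * fbD * (fbKap ^ 3 + 3 * (fbKap * fbD) + 35 / 8 * fbKap ^ 4) := by
  have h := fb_sector_cost fbKap fbD (fbM j) (by unfold fbKap; norm_num)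
    (by unfold fbKap; norm_num) fbD_pos.le (by unfold fbD; norm_num) (fbM_abs j hj)
  have e1 : fbT (j + 1) - fbT j = 2 * fbD := by rw [fbT_succ, fbT_eq]; ring
  rw [e1, fbT_succ, fbT_eq]
  exact h

/-- **Cost**: the total cost of the fan family is below `1/2 - 10⁻⁹`. -/
theorem fb_cost_sum :
    ∑ i : Fin fbN, fbRho i ^ 2 * (fbT (i + 1) - fbT i) /
        Real.sqrt (1 + fbA i ^ 2 + 2 * fbB i ^ 2) ≤ 1 / 2 - 1 / 10 ^ 9 := by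
  calc ∑ i : Fin fbN, fbRho i ^ 2 * (fbT (i + 1) - fbT i) /
        Real.sqrt (1 + fbA i ^ 2 + 2 * fbB i ^ 2)
      = ∑ j ∈ Finset.range fbN, fbRho j ^ 2 * (fbT (j + 1) - fbT j) /
        Real.sqrt (1 + fbA j ^ 2 + 2 * fbB j ^ 2) :=
        Fin.sum_univ_eq_sum_range (fun j : ℕ => fbRho j ^ 2 * (fbT (j + 1) - fbT j) /
          Real.sqrt (1 + fbA j ^ 2 + 2 * fbB j ^ 2)) fbN
    _ ≤ ∑ j ∈ Finset.range fbN, (fbD / 2 + fbKap ^ 2 * (fbG (fbT (j + 1)) - fbG (fbT j)) +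
          2 * fbD * (fbKap ^ 3 + 3 * (fbKap * fbD) + 35 / 8 * fbKap ^ 4)) :=
        Finset.sum_le_sum (fun j hj => fb_term_cost j (Finset.mem_range.mp hj))
    _ = (fbN : ℝ) * (fbD / 2 + 2 * fbD * (fbKap ^ 3 + 3 * (fbKap * fbD) + 35 / 8 * fbKap ^ 4)) +
          fbKap ^ 2 * (fbG (fbT fbN) - fbG (fbT 0)) := by
        rw [Finset.sum_add_distrib, Finset.sum_add_distrib, ← Finset.mul_sum,
          Finset.sum_range_sub (fun j => fbG (fbT j)), Finset.sum_const, Finset.sum_const,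
          Finset.card_range]
        simp only [nsmul_eq_mul]
        ring
    _ ≤ 1 / 2 - 1 / 10 ^ 9 := by
        rw [fbT_last, fbT_zero]
        unfold fbG fbN fbD fbKap
        norm_num

/-- **The real-arithmetic core** (blueprint `fan_real`), independent parameters
`κ = 1/1000`, `4·10⁶` sectors of slope-width `5·10⁻⁷`. -/
theorem fanB_real :
    ∃ (n : ℕ) (A B t₁ t₂ ρ : Fin n → ℝ), n + n ≤ 15999998 ∧ (∀ i, t₁ i < t₂ i) ∧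
      (∀ i, 0 < ρ i) ∧
      (∀ x y τ : ℝ, |y| ≤ τ → |x| ≤ 1 - τ →
        (∃ i, SecMem (A i) (B i) (t₁ i) (t₂ i) (ρ i) x y τ) ∨
        (∃ i, SecMem (A i) (B i) (t₁ i) (t₂ i) (ρ i) (-y) x (1 - τ))) ∧
      ∑ i, ρ i ^ 2 * (t₂ i - t₁ i) / Real.sqrt (1 + A i ^ 2 + 2 * B i ^ 2) ≤ 1 / 2 - 1 / 10 ^ 9 := by
  refine ⟨fbN, fun i => fbA i, fun i => fbB i, fun i => fbT i, fun i => fbT (i + 1),
    fun i => fbRho i, by unfold fbN; norm_num, ?_, fun i => fbRho_pos i, ?_, fb_cost_sum⟩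
  · intro i
    have e : fbT ((i : ℕ) + 1) - fbT i = 2 * fbD := by rw [fbT_succ, fbT_eq]; ring
    have := fbD_pos
    show fbT i < fbT ((i : ℕ) + 1)
    linarith
  · intro x y τ hy hx
    exact fb_hcov x y τ hy hx

end Crest.Agent.R211
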