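/-
Row 211 (S0324–S0329), owner: helper14.  BACKUP of the coverage half of the real-arithmetic core
`fan_real` of the explicit fan cover of the standard tetrahedron (scheme of board #69, statement
shape of board #125), and the assembly `fanCovB_fan_real` (blueprint §1 `fan_real`) with the cost
half `fanCost_hcost` (R211_FanCost) for the concrete parameters of R211_FanDefs.

Sector `k = 1..n` of a family: centre node `a = s k`, shear `A = κ (1 + a²) / 2`, `B = κ a`, slope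
range `[(s (k-1) + s k) / 2, (s k + s (k+1)) / 2]`, reach `P k`.

* `fanCovB_angle`: the angular ranges tile `|y| ≤ τ` (discrete intermediate value theorem for
  `g k = y - t_k τ - κ x (1 - s_k s_{k+1}) / 2`, which is the boundary function of both adjacent
  sectors).
* `fanCovB_reach`: if the point lies in the angular range of sector `a` of the lower family and of
  sector `b` of the upper family, the two reach conditions cannot both fail.  With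
  `ρ = τ - κ a x`, `ρ' = 1 - τ + κ b y`, `ε = y - x A_a - a ρ`, `ε' = x + y A_b - b ρ'` one has
  the identity
  `(1 + A_a A_b) (ρ + ρ' - 1) = κ (a b (ρ - ρ') + a² A_b ρ + b² A_a ρ' + (b + a A_b) ε + (b A_a - a) ε')`.
-/
import Mathlib
import Crest.Agent.R211_CylGeom
import Crest.Agent.R211_FanDefs
import Crest.Agent.R211_FanCost

set_option autoImplicit false

namespace Crest.Agent.R211

/-- discrete intermediate value theorem: a sign change between `0` and `n`. -/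
theorem fanCovB_ivt (g : ℕ → ℝ) (n : ℕ) (h0 : 0 ≤ g 0) (hn : g n ≤ 0) (hn1 : 1 ≤ n) :
    ∃ j, j < n ∧ 0 ≤ g j ∧ g (j + 1) ≤ 0 := by
  induction n with
  | zero => omega
  | succ m ih =>
    by_cases hm : g m ≤ 0
    · by_cases hm0 : m = 0
      · subst hm0
        exact ⟨0, by omega, h0, hn⟩
      · obtain ⟨j, hj1, hj2, hj3⟩ := ih hm (by omega)
        exact ⟨j, by omega, hj2, hj3⟩
    · exact ⟨m, by omega, (not_le.mp hm).le, hn⟩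

/-- product bound from absolute values. -/
theorem fanCovB_mul_le (w e W E : ℝ) (hw : |w| ≤ W) (he : |e| ≤ E) : w * e ≤ W * E := by
  have hW : 0 ≤ W := le_trans (abs_nonneg w) hw
  calc w * e ≤ |w * e| := le_abs_self _
    _ = |w| * |e| := abs_mul w e
    _ ≤ W * E := mul_le_mul hw he (abs_nonneg e) hW

/-- The reach estimate: two sectors (one of each family) whose angular ranges contain the point
cannot both fail to reach it. -/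
theorem fanCovB_reach (κ μ a b x y τ P Q : ℝ) (hκ : 0 ≤ κ) (hμ : 0 ≤ μ)
    (ha : |a| ≤ 1) (hb : |b| ≤ 1)
    (hc : 0 < 1 - κ - κ ^ 2 - κ * μ * (1 + κ))
    (hP : 1 / 2 + (κ ^ 2 * (a ^ 2 + a ^ 4) / 4 + κ * μ * (1 + κ) / 2) /
      (1 - κ - κ ^ 2 - κ * μ * (1 + κ)) ≤ P)
    (hQ : 1 / 2 + (κ ^ 2 * (b ^ 2 + b ^ 4) / 4 + κ * μ * (1 + κ) / 2) /
      (1 - κ - κ ^ 2 - κ * μ * (1 + κ)) ≤ Q)
    (hρ : P < τ - x * (κ * a)) (hρ' : Q < (1 - τ) - (-y) * (κ * b))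
    (hε : |y - x * (κ * (1 + a ^ 2) / 2) - a * (τ - x * (κ * a))| ≤ μ * (τ - x * (κ * a)))
    (hε' : |x - (-y) * (κ * (1 + b ^ 2) / 2) - b * ((1 - τ) - (-y) * (κ * b))|
      ≤ μ * ((1 - τ) - (-y) * (κ * b))) : False := by
  obtain ⟨c, hcdef⟩ : ∃ c : ℝ, c = 1 - κ - κ ^ 2 - κ * μ * (1 + κ) := ⟨_, rfl⟩
  rw [← hcdef] at hc hP hQ
  obtain ⟨Aa, hAa⟩ : ∃ Aa : ℝ, Aa = κ * (1 + a ^ 2) / 2 := ⟨_, rfl⟩
  obtain ⟨Ab, hAb⟩ : ∃ Ab : ℝ, Ab = κ * (1 + b ^ 2) / 2 := ⟨_, rfl⟩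
  obtain ⟨ρ, hρdef⟩ : ∃ ρ : ℝ, ρ = τ - x * (κ * a) := ⟨_, rfl⟩
  obtain ⟨ρ', hρ'def⟩ : ∃ ρ' : ℝ, ρ' = (1 - τ) - (-y) * (κ * b) := ⟨_, rfl⟩
  rw [← hAa, ← hρdef] at hε
  rw [← hAb, ← hρ'def] at hε'
  rw [← hρdef] at hρ
  rw [← hρ'def] at hρ'
  obtain ⟨ε, hεdef⟩ : ∃ ε : ℝ, ε = y - x * Aa - a * ρ := ⟨_, rfl⟩
  obtain ⟨ε', hε'def⟩ : ∃ ε' : ℝ, ε' = x - (-y) * Ab - b * ρ' := ⟨_, rfl⟩
  rw [← hεdef] at hε
  rw [← hε'def] at hε'
  have ha2 : a ^ 2 ≤ 1 := by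
    have h1 : a ^ 2 ≤ 1 ^ 2 := sq_le_sq' (abs_le.mp ha).1 (abs_le.mp ha).2
    simpa using h1
  have hb2 : b ^ 2 ≤ 1 := by
    have h1 : b ^ 2 ≤ 1 ^ 2 := sq_le_sq' (abs_le.mp hb).1 (abs_le.mp hb).2
    simpa using h1
  have hAa0 : 0 ≤ Aa := by rw [hAa]; positivity
  have hAb0 : 0 ≤ Ab := by rw [hAb]; positivity
  have hAa1 : Aa ≤ κ := by
    have h1 : κ * a ^ 2 ≤ κ * 1 := mul_le_mul_of_nonneg_left ha2 hκ
    rw [hAa]; linarith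
  have hAb1 : Ab ≤ κ := by
    have h1 : κ * b ^ 2 ≤ κ * 1 := mul_le_mul_of_nonneg_left hb2 hκ
    rw [hAb]; linarith
  -- the excesses
  have hda : 0 ≤ κ ^ 2 * (a ^ 2 + a ^ 4) / 4 + κ * μ * (1 + κ) / 2 := by positivity
  have hdb : 0 ≤ κ ^ 2 * (b ^ 2 + b ^ 4) / 4 + κ * μ * (1 + κ) / 2 := by positivity
  have hu : κ ^ 2 * (a ^ 2 + a ^ 4) / 4 + κ * μ * (1 + κ) / 2 < c * (ρ - 1 / 2) := by
    have h1 : (κ ^ 2 * (a ^ 2 + a ^ 4) / 4 + κ * μ * (1 + κ) / 2) / c < ρ - 1 / 2 := by linarith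
    rw [div_lt_iff₀ hc] at h1
    linarith
  have hu' : κ ^ 2 * (b ^ 2 + b ^ 4) / 4 + κ * μ * (1 + κ) / 2 < c * (ρ' - 1 / 2) := by
    have h1 : (κ ^ 2 * (b ^ 2 + b ^ 4) / 4 + κ * μ * (1 + κ) / 2) / c < ρ' - 1 / 2 := by linarith
    rw [div_lt_iff₀ hc] at h1
    linarith
  have hu0 : 0 < ρ - 1 / 2 := by
    by_contra hneg
    have : c * (ρ - 1 / 2) ≤ 0 := mul_nonpos_of_nonneg_of_nonpos hc.le (not_lt.mp hneg)
    linarith
  have hu'0 : 0 < ρ' - 1 / 2 := by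
    by_contra hneg
    have : c * (ρ' - 1 / 2) ≤ 0 := mul_nonpos_of_nonneg_of_nonpos hc.le (not_lt.mp hneg)
    linarith
  -- the identity
  have hid : (1 + Aa * Ab) * (ρ + ρ' - 1) =
      κ * (a * b * (ρ - ρ') + a ^ 2 * Ab * ρ + b ^ 2 * Aa * ρ' + (b + a * Ab) * ε
        + (b * Aa - a) * ε') := by
    rw [hεdef, hε'def, hρdef, hρ'def]
    ring
  -- bounds of the five terms
  have hw1 : |b + a * Ab| ≤ 1 + κ := by
    have h1 := abs_le.mp ha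
    have h2 := abs_le.mp hb
    have h3 : 0 ≤ (1 - a) * Ab := mul_nonneg (by linarith) hAb0
    have h4 : 0 ≤ (1 + a) * Ab := mul_nonneg (by linarith) hAb0
    rw [abs_le]
    constructor <;> linarith
  have hw2 : |b * Aa - a| ≤ 1 + κ := by
    have h1 := abs_le.mp ha
    have h2 := abs_le.mp hb
    have h3 : 0 ≤ (1 - b) * Aa := mul_nonneg (by linarith) hAa0
    have h4 : 0 ≤ (1 + b) * Aa := mul_nonneg (by linarith) hAa0
    rw [abs_le]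
    constructor <;> linarith
  have ht4 : (b + a * Ab) * ε ≤ (1 + κ) * (μ * ρ) := fanCovB_mul_le _ _ _ _ hw1 hε
  have ht5 : (b * Aa - a) * ε' ≤ (1 + κ) * (μ * ρ') := fanCovB_mul_le _ _ _ _ hw2 hε'
  have ht1 : a * b * (ρ - ρ') ≤ (ρ - 1 / 2) + (ρ' - 1 / 2) := by
    have hab : |a * b| ≤ 1 := by
      rw [abs_mul]
      calc |a| * |b| ≤ 1 * 1 := mul_le_mul ha hb (abs_nonneg b) zero_le_one
        _ = 1 := one_mul 1
    have hd : |ρ - ρ'| ≤ (ρ - 1 / 2) + (ρ' - 1 / 2) := by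
      rw [abs_le]
      constructor <;> linarith
    have := fanCovB_mul_le _ _ _ _ hab hd
    linarith
  have ht2 : a ^ 2 * Ab * ρ ≤ κ * (ρ - 1 / 2) + κ * a ^ 2 * (1 + b ^ 2) / 4 := by
    have h1 : a ^ 2 * Ab * (ρ - 1 / 2) ≤ 1 * κ * (ρ - 1 / 2) := by
      apply mul_le_mul_of_nonneg_right _ hu0.le
      exact mul_le_mul ha2 hAb1 hAb0 zero_le_one
    have h2 : a ^ 2 * Ab * (1 / 2) = κ * a ^ 2 * (1 + b ^ 2) / 4 := by rw [hAb]; ring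
    have h3 : a ^ 2 * Ab * ρ = a ^ 2 * Ab * (ρ - 1 / 2) + a ^ 2 * Ab * (1 / 2) := by ring
    linarith
  have ht3 : b ^ 2 * Aa * ρ' ≤ κ * (ρ' - 1 / 2) + κ * b ^ 2 * (1 + a ^ 2) / 4 := by
    have h1 : b ^ 2 * Aa * (ρ' - 1 / 2) ≤ 1 * κ * (ρ' - 1 / 2) := by
      apply mul_le_mul_of_nonneg_right _ hu'0.le
      exact mul_le_mul hb2 hAa1 hAa0 zero_le_one
    have h2 : b ^ 2 * Aa * (1 / 2) = κ * b ^ 2 * (1 + a ^ 2) / 4 := by rw [hAa]; ring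
    have h3 : b ^ 2 * Aa * ρ' = b ^ 2 * Aa * (ρ' - 1 / 2) + b ^ 2 * Aa * (1 / 2) := by ring
    linarith
  -- lower bound of the left side
  have hl : (ρ - 1 / 2) + (ρ' - 1 / 2) ≤ (1 + Aa * Ab) * (ρ + ρ' - 1) := by
    have h1 : 0 ≤ Aa * Ab * ((ρ - 1 / 2) + (ρ' - 1 / 2)) :=
      mul_nonneg (mul_nonneg hAa0 hAb0) (by linarith)
    have h2 : (1 + Aa * Ab) * (ρ + ρ' - 1) =
        (ρ - 1 / 2) + (ρ' - 1 / 2) + Aa * Ab * ((ρ - 1 / 2) + (ρ' - 1 / 2)) := by ring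
    linarith
  -- combine
  have hsum : a * b * (ρ - ρ') + a ^ 2 * Ab * ρ + b ^ 2 * Aa * ρ' + (b + a * Ab) * ε
        + (b * Aa - a) * ε' ≤
      ((ρ - 1 / 2) + (ρ' - 1 / 2)) * (1 + κ + (1 + κ) * μ)
        + κ * (a ^ 2 + b ^ 2 + 2 * a ^ 2 * b ^ 2) / 4 + (1 + κ) * μ := by
    have h1 : ((ρ - 1 / 2) + (ρ' - 1 / 2)) * (1 + κ + (1 + κ) * μ)
        + κ * (a ^ 2 + b ^ 2 + 2 * a ^ 2 * b ^ 2) / 4 + (1 + κ) * μ =
        ((ρ - 1 / 2) + (ρ' - 1 / 2)) + (κ * (ρ - 1 / 2) + κ * a ^ 2 * (1 + b ^ 2) / 4)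
          + (κ * (ρ' - 1 / 2) + κ * b ^ 2 * (1 + a ^ 2) / 4) + (1 + κ) * (μ * ρ)
          + (1 + κ) * (μ * ρ') := by ring
    linarith
  have hfin : (ρ - 1 / 2) + (ρ' - 1 / 2) ≤
      κ * (((ρ - 1 / 2) + (ρ' - 1 / 2)) * (1 + κ + (1 + κ) * μ)
        + κ * (a ^ 2 + b ^ 2 + 2 * a ^ 2 * b ^ 2) / 4 + (1 + κ) * μ) := by
    calc (ρ - 1 / 2) + (ρ' - 1 / 2) ≤ (1 + Aa * Ab) * (ρ + ρ' - 1) := hl
      _ = κ * (a * b * (ρ - ρ') + a ^ 2 * Ab * ρ + b ^ 2 * Aa * ρ' + (b + a * Ab) * ε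
        + (b * Aa - a) * ε') := hid
      _ ≤ _ := mul_le_mul_of_nonneg_left hsum hκ
  have h2ab : 2 * a ^ 2 * b ^ 2 ≤ a ^ 4 + b ^ 4 := by
    have h1 : 0 ≤ (a ^ 2 - b ^ 2) ^ 2 := sq_nonneg _
    have h2 : (a ^ 2 - b ^ 2) ^ 2 = a ^ 4 + b ^ 4 - 2 * a ^ 2 * b ^ 2 := by ring
    linarith
  have hk2 : 0 ≤ κ ^ 2 := sq_nonneg κ
  have h2ab' : κ ^ 2 * (2 * a ^ 2 * b ^ 2) ≤ κ ^ 2 * (a ^ 4 + b ^ 4) :=
    mul_le_mul_of_nonneg_left h2ab hk2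
  have hkey : c * ((ρ - 1 / 2) + (ρ' - 1 / 2)) ≤
      κ ^ 2 * (a ^ 2 + b ^ 2 + 2 * a ^ 2 * b ^ 2) / 4 + κ * μ * (1 + κ) := by
    have h1 : c * ((ρ - 1 / 2) + (ρ' - 1 / 2)) = ((ρ - 1 / 2) + (ρ' - 1 / 2))
        - κ * (((ρ - 1 / 2) + (ρ' - 1 / 2)) * (1 + κ + (1 + κ) * μ)) := by
      rw [hcdef]; ring
    have h2 : κ * (((ρ - 1 / 2) + (ρ' - 1 / 2)) * (1 + κ + (1 + κ) * μ)
        + κ * (a ^ 2 + b ^ 2 + 2 * a ^ 2 * b ^ 2) / 4 + (1 + κ) * μ) =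
        κ * (((ρ - 1 / 2) + (ρ' - 1 / 2)) * (1 + κ + (1 + κ) * μ))
          + (κ ^ 2 * (a ^ 2 + b ^ 2 + 2 * a ^ 2 * b ^ 2) / 4 + κ * μ * (1 + κ)) := by ring
    linarith
  have h3 : c * ((ρ - 1 / 2) + (ρ' - 1 / 2)) = c * (ρ - 1 / 2) + c * (ρ' - 1 / 2) := by ring
  have h4 : κ ^ 2 * (a ^ 2 + b ^ 2 + 2 * a ^ 2 * b ^ 2) / 4 =
      κ ^ 2 * (a ^ 2 + b ^ 2) / 4 + κ ^ 2 * (2 * a ^ 2 * b ^ 2) / 4 := by ring
  have h5 : κ ^ 2 * (a ^ 2 + a ^ 4) / 4 + κ * μ * (1 + κ) / 2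
      + (κ ^ 2 * (b ^ 2 + b ^ 4) / 4 + κ * μ * (1 + κ) / 2) =
      κ ^ 2 * (a ^ 2 + b ^ 2) / 4 + κ ^ 2 * (a ^ 4 + b ^ 4) / 4 + κ * μ * (1 + κ) := by ring
  linarith

/-- Angular tiling: the sectors of one family tile the angular range `|y| ≤ τ` (discrete
intermediate value theorem for `g k = y - t_k τ - κ x (1 - s_k s_{k+1}) / 2`). -/
theorem fanCovB_angle (n : ℕ) (hn : 1 ≤ n) (s : ℕ → ℝ) (κ : ℝ) (hs0 : s 0 = -1) (hs1 : s 1 = -1)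
    (hsn : s n = 1) (hsn1 : s (n + 1) = 1) (x y τ : ℝ) (hy : |y| ≤ τ) :
    ∃ j, j < n ∧
      (s j + s (j + 1)) / 2 * (τ - x * (κ * s (j + 1)))
        ≤ y - x * (κ * (1 + s (j + 1) ^ 2) / 2) ∧
      y - x * (κ * (1 + s (j + 1) ^ 2) / 2)
        ≤ (s (j + 1) + s (j + 1 + 1)) / 2 * (τ - x * (κ * s (j + 1))) := by
  have hy' := abs_le.mp hy
  obtain ⟨j, hj, h1, h2⟩ := fanCovB_ivt
    (fun k => y - (s k + s (k + 1)) / 2 * τ - κ * x * (1 - s k * s (k + 1)) / 2) n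
    (by simp only [zero_add]; rw [hs0, hs1]; linarith [hy'.1])
    (by rw [hsn, hsn1]; linarith [hy'.2]) hn
  refine ⟨j, hj, ?_, ?_⟩
  · have h3 : y - x * (κ * (1 + s (j + 1) ^ 2) / 2)
        - (s j + s (j + 1)) / 2 * (τ - x * (κ * s (j + 1)))
        = y - (s j + s (j + 1)) / 2 * τ - κ * x * (1 - s j * s (j + 1)) / 2 := by ring
    linarith
  · have h3 : y - x * (κ * (1 + s (j + 1) ^ 2) / 2)
        - (s (j + 1) + s (j + 1 + 1)) / 2 * (τ - x * (κ * s (j + 1)))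
        = y - (s (j + 1) + s (j + 1 + 1)) / 2 * τ
          - κ * x * (1 - s (j + 1) * s (j + 1 + 1)) / 2 := by ring
    linarith

/-- From the angular condition to the `ε`-bound used in `fanCovB_reach`. -/
theorem fanCovB_eps (a sm sp μ η ρ : ℝ) (hρ : 0 ≤ ρ) (h1 : a - sm ≤ 2 * μ) (h2 : sp - a ≤ 2 * μ)
    (hl : (sm + a) / 2 * ρ ≤ η) (hu : η ≤ (a + sp) / 2 * ρ) : |η - a * ρ| ≤ μ * ρ := by
  have h3 : 0 ≤ ((sm + a) / 2 - (a - μ)) * ρ := mul_nonneg (by linarith) hρ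
  have h4 : 0 ≤ ((a + μ) - (a + sp) / 2) * ρ := mul_nonneg (by linarith) hρ
  rw [abs_le]
  constructor
  · have h5 : ((sm + a) / 2 - (a - μ)) * ρ = (sm + a) / 2 * ρ - a * ρ + μ * ρ := by ring
    linarith
  · have h5 : ((a + μ) - (a + sp) / 2) * ρ = a * ρ + μ * ρ - (a + sp) / 2 * ρ := by ring
    linarith

/-- Coverage by the two fan families (statement of board #125, helper20's shape). -/
theorem fanCovB_hcov (n : ℕ) (hn : 1 ≤ n) (s P : ℕ → ℝ) (κ μ : ℝ) (hs0 : s 0 = -1)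
    (hs1 : s 1 = -1) (hsn : s n = 1) (hsn1 : s (n + 1) = 1) (hsabs : ∀ k, |s k| ≤ 1)
    (hstep : ∀ k, s (k + 1) - s k ≤ 2 * μ) (hκ : 0 ≤ κ) (hμ : 0 ≤ μ)
    (hc : 0 < 1 - κ - κ ^ 2 - κ * μ * (1 + κ))
    (hP : ∀ k, 1 ≤ k → k ≤ n →
      1 / 2 + (κ ^ 2 * (s k ^ 2 + s k ^ 4) / 4 + κ * μ * (1 + κ) / 2) /
        (1 - κ - κ ^ 2 - κ * μ * (1 + κ)) ≤ P k) :
    ∀ x y τ : ℝ, |y| ≤ τ → |x| ≤ 1 - τ →
      (∃ k, 1 ≤ k ∧ k ≤ n ∧ SecMem (κ * (1 + s k ^ 2) / 2) (κ * s k) ((s (k - 1) + s k) / 2)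
        ((s k + s (k + 1)) / 2) (P k) x y τ) ∨
      (∃ k, 1 ≤ k ∧ k ≤ n ∧ SecMem (κ * (1 + s k ^ 2) / 2) (κ * s k) ((s (k - 1) + s k) / 2)
        ((s k + s (k + 1)) / 2) (P k) (-y) x (1 - τ)) := by
  intro x y τ hy hx
  obtain ⟨j, hj, hj1, hj2⟩ := fanCovB_angle n hn s κ hs0 hs1 hsn hsn1 x y τ hy
  obtain ⟨i, hi, hi1, hi2⟩ := fanCovB_angle n hn s κ hs0 hs1 hsn hsn1 (-y) x (1 - τ) hx
  have hPpos : ∀ k, 1 ≤ k → k ≤ n → 0 < P k := by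
    intro k hk1 hk2
    have h1 : 0 ≤ (κ ^ 2 * (s k ^ 2 + s k ^ 4) / 4 + κ * μ * (1 + κ) / 2) /
        (1 - κ - κ ^ 2 - κ * μ * (1 + κ)) := div_nonneg (by positivity) hc.le
    linarith [hP k hk1 hk2]
  by_cases hr : τ - x * (κ * s (j + 1)) ≤ P (j + 1)
  · left
    refine ⟨j + 1, by omega, by omega, ?_⟩
    rw [Nat.add_sub_cancel]
    exact ⟨hj1, hj2, hr⟩
  · by_cases hr' : (1 - τ) - (-y) * (κ * s (i + 1)) ≤ P (i + 1)
    · right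
      refine ⟨i + 1, by omega, by omega, ?_⟩
      rw [Nat.add_sub_cancel]
      exact ⟨hi1, hi2, hr'⟩
    · exfalso
      have hρ0 : 0 ≤ τ - x * (κ * s (j + 1)) := by
        linarith [hPpos (j + 1) (by omega) (by omega), not_le.mp hr]
      have hρ'0 : 0 ≤ (1 - τ) - (-y) * (κ * s (i + 1)) := by
        linarith [hPpos (i + 1) (by omega) (by omega), not_le.mp hr']
      exact fanCovB_reach κ μ (s (j + 1)) (s (i + 1)) x y τ (P (j + 1)) (P (i + 1)) hκ hμ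
        (hsabs _) (hsabs _) hc (hP (j + 1) (by omega) (by omega))
        (hP (i + 1) (by omega) (by omega)) (not_le.mp hr) (not_le.mp hr')
        (fanCovB_eps _ _ _ _ _ _ hρ0 (hstep j) (hstep (j + 1)) hj1 hj2)
        (fanCovB_eps _ _ _ _ _ _ hρ'0 (hstep i) (hstep (i + 1)) hi1 hi2)

/-- reindexing `Fin n` sums as sums over `Finset.Icc 1 n`. -/
theorem fanCovB_sum_reindex (n : ℕ) (F : ℕ → ℝ) :
    ∑ i : Fin n, F ((i : ℕ) + 1) = ∑ k ∈ Finset.Icc 1 n, F k := by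
  rw [Fin.sum_univ_eq_sum_range (fun i => F (i + 1)) n, ← Finset.Ico_add_one_right_eq_Icc,
    Finset.sum_Ico_eq_sum_range]
  simp only [Nat.add_sub_cancel]
  exact Finset.sum_congr rfl (fun i _ => by rw [Nat.add_comm])

/-- consecutive slopes are strictly increasing for the concrete nodes. -/
theorem fanCovB_strict (k : ℕ) (hk : k < fanN) : fanS k < fanS (k + 1 + 1) := by
  have hk' : (k : ℝ) ≤ 40000 := by
    have h : k ≤ 40000 := by unfold fanN at hk; omega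
    exact_mod_cast h
  have hk0 : (0 : ℝ) ≤ k := Nat.cast_nonneg k
  unfold fanS
  push_cast
  refine lt_of_lt_of_le ?_ (le_max_right _ _)
  rw [max_lt_iff, lt_min_iff, lt_min_iff]
  refine ⟨⟨by norm_num, by linarith⟩, ?_, ?_⟩
  · exact lt_of_le_of_lt (min_le_right _ _) (by linarith)
  · exact lt_of_le_of_lt (min_le_right _ _) (by linarith)

/-- The real-arithmetic core `fan_real` of the explicit cover (blueprint §1), with `40001`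
sectors per family. -/
theorem fanCovB_fan_real :
    ∃ (n : ℕ) (A B t₁ t₂ ρ : Fin n → ℝ), n + n ≤ 15999998 ∧ (∀ i, t₁ i < t₂ i) ∧
      (∀ i, 0 < ρ i) ∧
      (∀ x y τ : ℝ, |y| ≤ τ → |x| ≤ 1 - τ →
        (∃ i, SecMem (A i) (B i) (t₁ i) (t₂ i) (ρ i) x y τ) ∨
        (∃ i, SecMem (A i) (B i) (t₁ i) (t₂ i) (ρ i) (-y) x (1 - τ))) ∧
      ∑ i, ρ i ^ 2 * (t₂ i - t₁ i) / Real.sqrt (1 + A i ^ 2 + 2 * B i ^ 2) ≤
        1 / 2 - 1 / 10 ^ 9 := by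
  refine ⟨fanN, fun i => fanKap * (1 + fanS ((i : ℕ) + 1) ^ 2) / 2,
    fun i => fanKap * fanS ((i : ℕ) + 1),
    fun i => (fanS (i : ℕ) + fanS ((i : ℕ) + 1)) / 2,
    fun i => (fanS ((i : ℕ) + 1) + fanS ((i : ℕ) + 1 + 1)) / 2,
    fun i => fanP ((i : ℕ) + 1), ?_, ?_, ?_, ?_, ?_⟩
  · unfold fanN; norm_num
  · intro i
    have := fanCovB_strict i i.2
    show (fanS (i : ℕ) + fanS ((i : ℕ) + 1)) / 2 < (fanS ((i : ℕ) + 1) + fanS ((i : ℕ) + 1 + 1)) / 2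
    linarith
  · intro i
    have := fanP_ge_half ((i : ℕ) + 1)
    show 0 < fanP ((i : ℕ) + 1)
    linarith
  · have hcov := fanCovB_hcov fanN (by unfold fanN; norm_num) fanS fanP fanKap fanMu fanS_zero
      fanS_one fanS_last fanS_last_succ fanS_abs
      (fun k => by have := fanS_step k; unfold fanMu; linarith) fanKap_pos.le fanMu_pos.le
      fanC_pos (fun k _ _ => le_refl _)
    intro x y τ hy hx
    rcases hcov x y τ hy hx with ⟨k, hk1, hk2, hk⟩ | ⟨k, hk1, hk2, hk⟩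
    · left
      obtain ⟨j, rfl⟩ : ∃ j, k = j + 1 := ⟨k - 1, by omega⟩
      rw [Nat.add_sub_cancel] at hk
      exact ⟨⟨j, by omega⟩, hk⟩
    · right
      obtain ⟨j, rfl⟩ : ∃ j, k = j + 1 := ⟨k - 1, by omega⟩
      rw [Nat.add_sub_cancel] at hk
      exact ⟨⟨j, by omega⟩, hk⟩
  · have h := fanCost_hcost
    rw [← fanCovB_sum_reindex fanN (fun k => fanP k ^ 2 * ((fanS (k + 1) - fanS (k - 1)) / 2) /
        Real.sqrt (1 + (fanKap * (1 + fanS k ^ 2) / 2) ^ 2 + 2 * (fanKap * fanS k) ^ 2))] at h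
    refine le_trans (le_of_eq ?_) h
    refine Finset.sum_congr rfl (fun i _ => ?_)
    show fanP ((i : ℕ) + 1) ^ 2 * ((fanS ((i : ℕ) + 1) + fanS ((i : ℕ) + 1 + 1)) / 2
        - (fanS (i : ℕ) + fanS ((i : ℕ) + 1)) / 2) /
        Real.sqrt (1 + (fanKap * (1 + fanS ((i : ℕ) + 1) ^ 2) / 2) ^ 2
          + 2 * (fanKap * fanS ((i : ℕ) + 1)) ^ 2) =
      fanP ((i : ℕ) + 1) ^ 2 * ((fanS ((i : ℕ) + 1 + 1) - fanS ((i : ℕ) + 1 - 1)) / 2) /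
        Real.sqrt (1 + (fanKap * (1 + fanS ((i : ℕ) + 1) ^ 2) / 2) ^ 2
          + 2 * (fanKap * fanS ((i : ℕ) + 1)) ^ 2)
    rw [Nat.add_sub_cancel]
    ring

end Crest.Agent.R211
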