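/-
Row 211 (owner: helper24): from the real-arithmetic core `fan_real` (any sector cover of
`{|y| ≤ τ, |x| ≤ 1 - τ}` with at most `15999998` cylinders and cost `≤ 1/2 - 10⁻⁹`) to the explicit
triangular-cylinder cover of the standard tetrahedron in the shape needed by
`R211_Pad.s0325_of_parts`.
-/
import Mathlib
import Crest.Agent.R211_CylGeom

set_option autoImplicit false

namespace Crest.Agent.R211

/-- The explicit cover (hypothesis `h2` of `s0325_of_parts`) from the real-arithmetic core. -/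
theorem fan_cover_of_fan_real
    (h : ∃ (n : ℕ) (A B t₁ t₂ ρ : Fin n → ℝ), n + n ≤ 15999998 ∧ (∀ i, t₁ i < t₂ i) ∧
      (∀ i, 0 < ρ i) ∧
      (∀ x y τ : ℝ, |y| ≤ τ → |x| ≤ 1 - τ →
        (∃ i, SecMem (A i) (B i) (t₁ i) (t₂ i) (ρ i) x y τ) ∨
        (∃ i, SecMem (A i) (B i) (t₁ i) (t₂ i) (ρ i) (-y) x (1 - τ))) ∧
      ∑ i, ρ i ^ 2 * (t₂ i - t₁ i) / Real.sqrt (1 + A i ^ 2 + 2 * B i ^ 2) ≤ 1 / 2 - 1 / 10 ^ 9) :
    ∃ (m : ℕ) (u p q r : Fin m → EuclideanSpace ℝ (Fin 3)), m + 1 ≤ 16000000 ∧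
      (∀ i, ‖u i‖ = 1) ∧
      (∀ i, inner ℝ (p i) (u i) = 0 ∧ inner ℝ (q i) (u i) = 0 ∧ inner ℝ (r i) (u i) = 0) ∧
      convexHull ℝ {!₂[1, 0, 0], !₂[-1, 0, 0], !₂[0, 1, Real.sqrt 2], !₂[0, -1, Real.sqrt 2]} ⊆
        ⋃ i, {x : EuclideanSpace ℝ (Fin 3) |
          ∃ b ∈ convexHull ℝ {p i, q i, r i}, ∃ t : ℝ, x = b + t • u i} ∧
      ∑ i, Real.sqrt (‖q i - p i‖ ^ 2 * ‖r i - p i‖ ^ 2 - inner ℝ (q i - p i) (r i - p i) ^ 2) / 2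
        ≤ Real.sqrt 2 * (1 / 2 - 13 / 6000 * (1 / 2000) ^ 2) := by
  obtain ⟨n, A, B, t₁, t₂, ρ, hn, ht, hρ, hcov, hS⟩ := h
  obtain ⟨u, p, q, r, hu, hperp, hK, hsum⟩ := fan_cover_of_real A B t₁ t₂ ρ ht hρ hcov
  refine ⟨n + n, u, p, q, r, by omega, hu, hperp, hK, ?_⟩
  rw [hsum]
  apply mul_le_mul_of_nonneg_left _ (Real.sqrt_nonneg 2)
  refine le_trans hS ?_
  norm_num

end Crest.Agent.R211
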