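import Mathlib

/-!
# Row 211, work package 4 (helper17): algebra of the discrete fan cover

Pure real-number lemmas used by the explicit cylinder cover of the regular tetrahedron
(`R211_FanRealGeom`, `R211_FanReal`).  Coordinates `(x, y, τ)` with `τ = z / √2`.
-/

set_option autoImplicit false

namespace Crest.Agent.R211.FanReal

/-- Truncation radius of the fan sector with node `s` (tilt `κ`, half-mesh `μ`). -/
noncomputable def fanP (κ μ s : ℝ) : ℝ :=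
  1 / 2 + κ ^ 2 * (s ^ 2 + s ^ 4) / 4 * (1 + 2 * κ) + κ * μ

theorem fanP_ge_half {κ μ : ℝ} (s : ℝ) (hκ : 0 ≤ κ) (hμ : 0 ≤ μ) : 1 / 2 ≤ fanP κ μ s := by
  unfold fanP
  have h1 : 0 ≤ κ ^ 2 * (s ^ 2 + s ^ 4) / 4 * (1 + 2 * κ) := by positivity
  have h2 : 0 ≤ κ * μ := mul_nonneg hκ hμ
  linarith

/-- auxiliary: the constant `c = 1 - κ - κ² - κ(1+κ)μ` absorbs the relative errors. -/
theorem fan_c_bounds {κ μ : ℝ} (hκ : 0 < κ) (hκ' : κ ≤ 1 / 10) (hμ : 0 ≤ μ) (hμ' : μ ≤ 1 / 10) :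
    1 ≤ (1 + 2 * κ) * (1 - κ - κ ^ 2 - κ * (1 + κ) * μ) ∧
    (1 + κ) / 2 ≤ 1 - κ - κ ^ 2 - κ * (1 + κ) * μ ∧
    0 ≤ κ * (1 + κ) * μ := by
  have hk2 : κ ^ 2 ≤ κ / 10 := by nlinarith
  have hk3 : κ ^ 3 ≤ κ / 100 := by nlinarith
  have hkm : κ * μ ≤ κ / 10 := by nlinarith
  have hk2m : κ ^ 2 * μ ≤ κ / 100 := by nlinarith
  have hk3m : κ ^ 3 * μ ≤ κ / 1000 := by nlinarith
  have hkm0 : 0 ≤ κ * μ := mul_nonneg hκ.le hμ
  have hk2m0 : 0 ≤ κ ^ 2 * μ := by positivity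
  refine ⟨?_, ?_, ?_⟩
  · have : (1 + 2 * κ) * (1 - κ - κ ^ 2 - κ * (1 + κ) * μ) =
        1 + κ - 3 * κ ^ 2 - 2 * κ ^ 3 - κ * μ - 3 * (κ ^ 2 * μ) - 2 * (κ ^ 3 * μ) := by ring
    rw [this]; linarith
  · have : κ * (1 + κ) * μ = κ * μ + κ ^ 2 * μ := by ring
    rw [this]; linarith
  · have : κ * (1 + κ) * μ = κ * μ + κ ^ 2 * μ := by ring
    rw [this]; linarith

/-- auxiliary: `|a * b| ≤ M * B` from `|a| ≤ M`, `|b| ≤ B`. -/
theorem fan_abs_mul_le {a b M B : ℝ} (ha : |a| ≤ M) (hb : |b| ≤ B) :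
    |a * b| ≤ M * B := by
  rw [abs_mul]
  exact mul_le_mul ha hb (abs_nonneg _) ((abs_nonneg _).trans ha)

/-- **Interface inequality.** A point lying in the lower sector with node `s` and (after the
symmetry) in the upper sector with node `s'` is within the truncation radius of one of them. -/
theorem fan_cover_ineq (κ μ s s' x y τ : ℝ) (hκ : 0 < κ) (hκ' : κ ≤ 1 / 10) (hμ : 0 ≤ μ)
    (hμ' : μ ≤ 1 / 10) (hs : |s| ≤ 1) (hs' : |s'| ≤ 1)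
    (hη : |(y - κ * (1 + s ^ 2) / 2 * x) - s * (τ - κ * s * x)| ≤ μ * (τ - κ * s * x))
    (hη' : |(x + κ * (1 + s' ^ 2) / 2 * y) - s' * (1 - τ + κ * s' * y)| ≤
      μ * (1 - τ + κ * s' * y)) :
    τ - κ * s * x ≤ fanP κ μ s ∨ 1 - τ + κ * s' * y ≤ fanP κ μ s' := by
  by_contra hcon
  rw [not_or, not_le, not_le] at hcon
  obtain ⟨h1, h2⟩ := hcon
  have hP := fanP_ge_half s hκ.le hμ
  have hP' := fanP_ge_half s' hκ.le hμ
  obtain ⟨hc1, hc2, hκμ⟩ := fan_c_bounds hκ hκ' hμ hμ'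
  -- abbreviations
  obtain ⟨A, hA⟩ : ∃ A : ℝ, A = κ * (1 + s ^ 2) / 2 := ⟨_, rfl⟩
  obtain ⟨A', hA'⟩ : ∃ A' : ℝ, A' = κ * (1 + s' ^ 2) / 2 := ⟨_, rfl⟩
  obtain ⟨ρ, hρ⟩ : ∃ ρ : ℝ, ρ = τ - κ * s * x := ⟨_, rfl⟩
  obtain ⟨ρ', hρ'⟩ : ∃ ρ' : ℝ, ρ' = 1 - τ + κ * s' * y := ⟨_, rfl⟩
  obtain ⟨ε, hε⟩ : ∃ ε : ℝ, ε = (y - A * x) - s * ρ := ⟨_, rfl⟩
  obtain ⟨ε', hε'⟩ : ∃ ε' : ℝ, ε' = (x + A' * y) - s' * ρ' := ⟨_, rfl⟩
  rw [← hA, ← hρ, ← hε] at hη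
  rw [← hA', ← hρ', ← hε'] at hη'
  rw [← hρ] at h1
  rw [← hρ'] at h2
  have key : (1 + A * A') * (ρ + ρ' - 1) = κ * s * s' * (ρ - ρ') +
      κ * (s ^ 2 * A' * ρ + s' ^ 2 * A * ρ') +
      κ * (s' * ε - s * ε' + s * A' * ε + s' * A * ε') := by
    rw [hε, hε', hρ, hρ', hA, hA']; ring
  -- basic bounds
  have hs2 : s ^ 2 ≤ 1 := (sq_le_one_iff_abs_le_one s).mpr hs
  have hs'2 : s' ^ 2 ≤ 1 := (sq_le_one_iff_abs_le_one s').mpr hs'
  have hs20 : 0 ≤ s ^ 2 := sq_nonneg s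
  have hs'20 : 0 ≤ s' ^ 2 := sq_nonneg s'
  have hA0 : 0 ≤ A := by rw [hA]; positivity
  have hA'0 : 0 ≤ A' := by rw [hA']; positivity
  have hAκ : A ≤ κ := by
    rw [hA]; have := mul_le_mul_of_nonneg_left hs2 hκ.le; linarith
  have hA'κ : A' ≤ κ := by
    rw [hA']; have := mul_le_mul_of_nonneg_left hs'2 hκ.le; linarith
  have hρpos : 0 < ρ := by linarith
  have hρ'pos : 0 < ρ' := by linarith
  -- the four error terms
  have e1 : s' * ε ≤ μ * ρ := by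
    have := (abs_le.mp (fan_abs_mul_le hs' hη)).2; linarith
  have e2 : -(s * ε') ≤ μ * ρ' := by
    have := (abs_le.mp (fan_abs_mul_le hs hη')).1; linarith
  have hsA' : |s * A'| ≤ κ := by
    have := fan_abs_mul_le hs (show |A'| ≤ κ by rw [abs_of_nonneg hA'0]; exact hA'κ)
    linarith
  have hs'A : |s' * A| ≤ κ := by
    have := fan_abs_mul_le hs' (show |A| ≤ κ by rw [abs_of_nonneg hA0]; exact hAκ)
    linarith
  have e3 : s * A' * ε ≤ κ * (μ * ρ) := (abs_le.mp (fan_abs_mul_le hsA' hη)).2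
  have e4 : s' * A * ε' ≤ κ * (μ * ρ') := (abs_le.mp (fan_abs_mul_le hs'A hη')).2
  have herr : κ * (s' * ε - s * ε' + s * A' * ε + s' * A * ε') ≤
      κ * ((1 + κ) * μ * (ρ + ρ')) := by
    apply mul_le_mul_of_nonneg_left _ hκ.le
    linarith
  -- coefficients
  obtain ⟨α, hα⟩ : ∃ α : ℝ, α = 1 + A * A' - κ * s * s' - κ * s ^ 2 * A' - κ * (1 + κ) * μ :=
    ⟨_, rfl⟩
  obtain ⟨α', hα'⟩ : ∃ α' : ℝ, α' = 1 + A * A' + κ * s * s' - κ * s' ^ 2 * A - κ * (1 + κ) * μ :=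
    ⟨_, rfl⟩
  obtain ⟨c, hc⟩ : ∃ c : ℝ, c = 1 - κ - κ ^ 2 - κ * (1 + κ) * μ := ⟨_, rfl⟩
  rw [← hc] at hc1 hc2
  have hmain : ρ * α + ρ' * α' ≤ 1 + A * A' := by
    have : ρ * α + ρ' * α' - (1 + A * A') = (1 + A * A') * (ρ + ρ' - 1) -
        κ * s * s' * (ρ - ρ') - κ * (s ^ 2 * A' * ρ + s' ^ 2 * A * ρ') -
        κ * ((1 + κ) * μ * (ρ + ρ')) := by rw [hα, hα']; ring
    linarith
  have hAA' : 0 ≤ A * A' := mul_nonneg hA0 hA'0
  have hss'b := abs_le.mp (fan_abs_mul_le hs hs')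
  have hαc : c ≤ α := by
    rw [hα, hc]
    have h1 : κ * s * s' ≤ κ := by
      have : κ * (s * s') ≤ κ * (1 * 1) := mul_le_mul_of_nonneg_left hss'b.2 hκ.le
      linarith
    have h2 : κ * s ^ 2 * A' ≤ κ ^ 2 := by
      have h3 : κ * s ^ 2 ≤ κ * 1 := mul_le_mul_of_nonneg_left hs2 hκ.le
      have h4 : κ * s ^ 2 * A' ≤ κ * 1 * κ := mul_le_mul h3 hA'κ hA'0 (by linarith)
      have h5 : κ * 1 * κ = κ ^ 2 := by ring
      linarith
    linarith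
  have hα'c : c ≤ α' := by
    rw [hα', hc]
    have h1 : -(κ * s * s') ≤ κ := by
      have : κ * (-(s * s')) ≤ κ * (1 * 1) :=
        mul_le_mul_of_nonneg_left (by linarith [hss'b.1]) hκ.le
      linarith
    have h2 : κ * s' ^ 2 * A ≤ κ ^ 2 := by
      have h3 : κ * s' ^ 2 ≤ κ * 1 := mul_le_mul_of_nonneg_left hs'2 hκ.le
      have h4 : κ * s' ^ 2 * A ≤ κ * 1 * κ := mul_le_mul h3 hAκ hA0 (by linarith)
      have h5 : κ * 1 * κ = κ ^ 2 := by ring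
      linarith
    linarith
  have hc_pos : 0 < c := by
    have : 0 < (1 + κ) / 2 := by positivity
    linarith
  have hα_pos : 0 < α := by linarith
  have hα'_pos : 0 < α' := by linarith
  -- lower bound of the left side
  obtain ⟨p, hp⟩ : ∃ p : ℝ, p = κ ^ 2 * (s ^ 2 + s ^ 4) / 4 * (1 + 2 * κ) + κ * μ := ⟨_, rfl⟩
  obtain ⟨p', hp'⟩ : ∃ p' : ℝ, p' = κ ^ 2 * (s' ^ 2 + s' ^ 4) / 4 * (1 + 2 * κ) + κ * μ :=
    ⟨_, rfl⟩
  have hPp : fanP κ μ s = 1 / 2 + p := by rw [hp]; unfold fanP; ring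
  have hP'p : fanP κ μ s' = 1 / 2 + p' := by rw [hp']; unfold fanP; ring
  have hp0 : 0 ≤ p := by rw [hp]; positivity
  have hp'0 : 0 ≤ p' := by rw [hp']; positivity
  have hl1 : (1 / 2 + p) * α < ρ * α := by
    apply mul_lt_mul_of_pos_right _ hα_pos; linarith
  have hl2 : (1 / 2 + p') * α' < ρ' * α' := by
    apply mul_lt_mul_of_pos_right _ hα'_pos; linarith
  have hl3 : p * c ≤ p * α := mul_le_mul_of_nonneg_left hαc hp0
  have hl4 : p' * c ≤ p' * α' := mul_le_mul_of_nonneg_left hα'c hp'0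
  have hq : ∀ t : ℝ, κ ^ 2 * (t ^ 2 + t ^ 4) / 4 + κ * μ * (1 + κ) / 2 ≤
      (κ ^ 2 * (t ^ 2 + t ^ 4) / 4 * (1 + 2 * κ) + κ * μ) * c := by
    intro t
    have h0 : 0 ≤ κ ^ 2 * (t ^ 2 + t ^ 4) / 4 := by positivity
    have h1 : κ ^ 2 * (t ^ 2 + t ^ 4) / 4 * 1 ≤ κ ^ 2 * (t ^ 2 + t ^ 4) / 4 * ((1 + 2 * κ) * c) :=
      mul_le_mul_of_nonneg_left hc1 h0
    have h2 : κ * μ * ((1 + κ) / 2) ≤ κ * μ * c :=
      mul_le_mul_of_nonneg_left hc2 (mul_nonneg hκ.le hμ)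
    have h3 : (κ ^ 2 * (t ^ 2 + t ^ 4) / 4 * (1 + 2 * κ) + κ * μ) * c =
        κ ^ 2 * (t ^ 2 + t ^ 4) / 4 * ((1 + 2 * κ) * c) + κ * μ * c := by ring
    linarith
  have hq1 := hq s
  have hq2 := hq s'
  rw [← hp] at hq1
  rw [← hp'] at hq2
  have hfin : κ ^ 2 * (s ^ 2 + s' ^ 2 + 2 * s ^ 2 * s' ^ 2) / 4 ≤
      κ ^ 2 * (s ^ 2 + s ^ 4) / 4 + κ ^ 2 * (s' ^ 2 + s' ^ 4) / 4 := by
    have h0 : 0 ≤ κ ^ 2 * (s ^ 2 - s' ^ 2) ^ 2 := by positivity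
    have h1 : κ ^ 2 * (s ^ 2 + s ^ 4) / 4 + κ ^ 2 * (s' ^ 2 + s' ^ 4) / 4 -
        κ ^ 2 * (s ^ 2 + s' ^ 2 + 2 * s ^ 2 * s' ^ 2) / 4 = κ ^ 2 * (s ^ 2 - s' ^ 2) ^ 2 / 4 := by
      ring
    linarith
  have hsum : (1 / 2) * (α + α') = 1 + A * A' - κ ^ 2 * (s ^ 2 + s' ^ 2 + 2 * s ^ 2 * s' ^ 2) / 4
      - κ * (1 + κ) * μ := by
    rw [hα, hα', hA, hA']; ring
  have hexp1 : (1 / 2 + p) * α = 1 / 2 * α + p * α := by ring
  have hexp2 : (1 / 2 + p') * α' = 1 / 2 * α' + p' * α' := by ring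
  have hexp3 : (1 / 2) * (α + α') = 1 / 2 * α + 1 / 2 * α' := by ring
  have hexp4 : κ * μ * (1 + κ) / 2 + κ * μ * (1 + κ) / 2 = κ * (1 + κ) * μ := by ring
  linarith

/-! ### Nodes and slopes of the fan -/


/-- Clamped uniform nodes: `fanNode N j = -1 + (j-1)·(2/N)` clamped to `[-1, 1]`. -/
noncomputable def fanNode (N : ℕ) (j : ℕ) : ℝ :=
  min 1 (max (-1) (-1 + ((j : ℝ) - 1) * (2 / (N : ℝ))))

/-- Ray slopes: chord slopes of consecutive nodes. -/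
noncomputable def fanSlope (N : ℕ) (j : ℕ) : ℝ := (fanNode N j + fanNode N (j + 1)) / 2

theorem fanNode_mem (N j : ℕ) : -1 ≤ fanNode N j ∧ fanNode N j ≤ 1 := by
  unfold fanNode
  refine ⟨le_min (by norm_num) (le_max_left _ _), min_le_left _ _⟩

theorem fanNode_abs (N j : ℕ) : |fanNode N j| ≤ 1 := abs_le.mpr (fanNode_mem N j)

theorem fanNode_zero (N : ℕ) : fanNode N 0 = -1 := by
  unfold fanNode
  have h : (0 : ℝ) ≤ 2 / (N : ℝ) := by positivity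
  have h1 : -1 + (((0 : ℕ) : ℝ) - 1) * (2 / (N : ℝ)) ≤ -1 := by
    push_cast; linarith
  rw [max_eq_left h1, min_eq_right (by norm_num)]

theorem fanNode_one (N : ℕ) : fanNode N 1 = -1 := by
  unfold fanNode
  norm_num

theorem fanNode_last (N : ℕ) (hN : 0 < N) : fanNode N (N + 1) = 1 := by
  unfold fanNode
  have hN' : (0 : ℝ) < N := by exact_mod_cast hN
  have h1 : -1 + (((N + 1 : ℕ) : ℝ) - 1) * (2 / (N : ℝ)) = 1 := by
    push_cast; field_simp; ring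
  rw [h1]; norm_num

theorem fanNode_last' (N : ℕ) (hN : 0 < N) : fanNode N (N + 1 + 1) = 1 := by
  unfold fanNode
  have hN' : (0 : ℝ) < N := by exact_mod_cast hN
  have h1 : -1 + (((N + 1 + 1 : ℕ) : ℝ) - 1) * (2 / (N : ℝ)) = 1 + 2 / N := by
    push_cast; field_simp; ring
  have h2 : (0 : ℝ) < 2 / N := by positivity
  rw [h1, max_eq_right (by linarith), min_eq_left (by linarith)]

/-- the clamp is monotone and 1-Lipschitz -/
theorem fan_clamp_step {a b : ℝ} (hab : a ≤ b) :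
    0 ≤ min 1 (max (-1) b) - min 1 (max (-1) a) ∧
    min 1 (max (-1) b) - min 1 (max (-1) a) ≤ b - a := by
  constructor
  · have : min 1 (max (-1) a) ≤ min 1 (max (-1) b) :=
      min_le_min le_rfl (max_le_max le_rfl hab)
    linarith
  · rcases le_total b (-1) with hb | hb
    · rw [max_eq_left hb, max_eq_left (hab.trans hb)]; linarith
    · rcases le_total 1 a with ha | ha
      · rw [max_eq_right (by linarith : (-1 : ℝ) ≤ a), max_eq_right hb,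
          min_eq_left ha, min_eq_left (ha.trans hab)]; linarith
      · have h1 : min 1 (max (-1) b) ≤ b := by
          rw [max_eq_right hb]; exact min_le_right _ _
        have h2 : a ≤ min 1 (max (-1) a) := le_min ha (le_max_right _ _)
        linarith

theorem fanNode_step (N j : ℕ) :
    0 ≤ fanNode N (j + 1) - fanNode N j ∧ fanNode N (j + 1) - fanNode N j ≤ 2 / (N : ℝ) := by
  unfold fanNode
  have h : (0 : ℝ) ≤ 2 / (N : ℝ) := by positivity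
  have hab : -1 + ((j : ℝ) - 1) * (2 / (N : ℝ)) ≤ -1 + (((j + 1 : ℕ) : ℝ) - 1) * (2 / (N : ℝ)) := by
    push_cast; nlinarith
  obtain ⟨h1, h2⟩ := fan_clamp_step hab
  refine ⟨h1, h2.trans ?_⟩
  push_cast; linarith

/-- strict increase over two steps inside the range -/
theorem fanNode_lt (N i : ℕ) (hN : 0 < N) (hi : i ≤ N) : fanNode N i < fanNode N (i + 2) := by
  unfold fanNode
  have hN' : (0 : ℝ) < N := by exact_mod_cast hN
  have hh : (0 : ℝ) < 2 / (N : ℝ) := by positivity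
  have hi' : (i : ℝ) ≤ N := by exact_mod_cast hi
  have hi0 : (0 : ℝ) ≤ i := by positivity
  have hNh : (N : ℝ) * (2 / (N : ℝ)) = 2 := by field_simp
  -- a = t_i < 1 and b = t_{i+2} > -1
  have ha : -1 + ((i : ℝ) - 1) * (2 / (N : ℝ)) < 1 := by nlinarith
  have hb : -1 < -1 + (((i + 2 : ℕ) : ℝ) - 1) * (2 / (N : ℝ)) := by
    push_cast; nlinarith
  have hab : -1 + ((i : ℝ) - 1) * (2 / (N : ℝ)) < -1 + (((i + 2 : ℕ) : ℝ) - 1) * (2 / (N : ℝ)) := by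
    push_cast; nlinarith
  rw [min_eq_right (max_le (by norm_num) ha.le), max_eq_right hb.le]
  exact lt_min (max_lt (by norm_num) ha) (max_lt hb hab)

theorem fanSlope_zero (N : ℕ) : fanSlope N 0 = -1 := by
  unfold fanSlope; rw [fanNode_zero, fanNode_one]; norm_num

theorem fanSlope_last (N : ℕ) (hN : 0 < N) : fanSlope N (N + 1) = 1 := by
  unfold fanSlope; rw [fanNode_last N hN, fanNode_last' N hN]; norm_num

theorem fanSlope_lt (N i : ℕ) (hN : 0 < N) (hi : i ≤ N) : fanSlope N i < fanSlope N (i + 1) := by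
  unfold fanSlope
  have := fanNode_lt N i hN hi
  linarith

/-- the slopes of sector `i` (node `fanNode N (i+1)`) deviate from the node by at most `1/N` -/
theorem fanSlope_dev (N i : ℕ) :
    0 ≤ fanNode N (i + 1) - fanSlope N i ∧ fanNode N (i + 1) - fanSlope N i ≤ 1 / (N : ℝ) ∧
    0 ≤ fanSlope N (i + 1) - fanNode N (i + 1) ∧
    fanSlope N (i + 1) - fanNode N (i + 1) ≤ 1 / (N : ℝ) := by
  unfold fanSlope
  obtain ⟨h1, h2⟩ := fanNode_step N i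
  obtain ⟨h3, h4⟩ := fanNode_step N (i + 1)
  have e : (2 : ℝ) / N = 2 * (1 / N) := by ring
  rw [e] at h2 h4
  refine ⟨by linarith, by linarith, by linarith, by linarith⟩

/-- discrete intermediate value theorem -/
theorem fan_ivt (g : ℕ → ℝ) (n : ℕ) (h0 : 0 ≤ g 0) (hn : g (n + 1) ≤ 0) :
    ∃ i, i ≤ n ∧ 0 ≤ g i ∧ g (i + 1) ≤ 0 := by
  induction n with
  | zero => exact ⟨0, le_rfl, h0, hn⟩
  | succ n ih =>
    rcases le_or_gt (g (n + 1)) 0 with h | h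
    · obtain ⟨i, hi, h1, h2⟩ := ih h
      exact ⟨i, Nat.le_succ_of_le hi, h1, h2⟩
    · exact ⟨n + 1, le_rfl, h.le, hn⟩

/-- **Tiling.** Every point of the wedge `|y| ≤ τ` lies, at every height `x`, in one of the
sheared sectors. Sector `i` has node `fanNode N (i+1)` and slopes `fanSlope N i ≤ fanSlope N (i+1)`. -/
theorem fan_tiling (N : ℕ) (hN : 0 < N) (κ x y τ : ℝ) (hy : |y| ≤ τ) :
    ∃ i, i ≤ N ∧
      fanSlope N i * (τ - κ * fanNode N (i + 1) * x) ≤ y - κ * (1 + fanNode N (i + 1) ^ 2) / 2 * x ∧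
      y - κ * (1 + fanNode N (i + 1) ^ 2) / 2 * x ≤
        fanSlope N (i + 1) * (τ - κ * fanNode N (i + 1) * x) := by
  obtain ⟨g, hg⟩ : ∃ g : ℕ → ℝ, g = fun j =>
      y - fanSlope N j * τ - κ * x * (1 - fanNode N j * fanNode N (j + 1)) / 2 := ⟨_, rfl⟩
  have hyb := abs_le.mp hy
  have h0 : 0 ≤ g 0 := by
    rw [hg]; simp only [fanSlope, zero_add, fanNode_zero, fanNode_one]; norm_num; linarith
  have hn : g (N + 1) ≤ 0 := by
    rw [hg]; simp only [fanSlope, fanNode_last N hN, fanNode_last' N hN]; norm_num; linarith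
  obtain ⟨i, hi, h1, h2⟩ := fan_ivt g N h0 hn
  refine ⟨i, hi, ?_, ?_⟩
  · have e : y - κ * (1 + fanNode N (i + 1) ^ 2) / 2 * x -
        fanSlope N i * (τ - κ * fanNode N (i + 1) * x) = g i := by
      rw [hg]; simp only [fanSlope]; ring
    linarith
  · have e : y - κ * (1 + fanNode N (i + 1) ^ 2) / 2 * x -
        fanSlope N (i + 1) * (τ - κ * fanNode N (i + 1) * x) = g (i + 1) := by
      rw [hg]; simp only [fanSlope]; ring
    linarith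

theorem fan_dev_abs {tlo thi σ μ ρ η : ℝ} (hρ : 0 ≤ ρ) (h1 : σ - μ ≤ tlo) (h2 : thi ≤ σ + μ)
    (h3 : tlo * ρ ≤ η) (h4 : η ≤ thi * ρ) : |η - σ * ρ| ≤ μ * ρ := by
  have a1 := mul_le_mul_of_nonneg_right h1 hρ
  have a2 := mul_le_mul_of_nonneg_right h2 hρ
  rw [abs_le]
  constructor
  · nlinarith
  · nlinarith

/-! ### The area sum -/


/-- `F(s) = s⁴ - (1+s²)²/8`, the second-order density of the area change. -/
noncomputable def fanF (s : ℝ) : ℝ := s ^ 4 - (1 + s ^ 2) ^ 2 / 8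

/-- an antiderivative of `fanF` -/
noncomputable def fanG (s : ℝ) : ℝ := 7 / 40 * s ^ 5 - s ^ 3 / 12 - s / 8

theorem fanG_tel (σ a b h : ℝ) (hσ : |σ| ≤ 1) (ha : 0 ≤ a) (hb : 0 ≤ b) (hah : a ≤ h / 2)
    (hbh : b ≤ h / 2) (hh : h ≤ 1) :
    (a + b) * fanF σ ≤ fanG (σ + a) - fanG (σ - b) + (a + b) * (2 * h) := by
  have hh0 : 0 ≤ h := by linarith
  have hσb := abs_le.mp hσ
  have hσ2 : σ ^ 2 ≤ 1 := (sq_le_one_iff_abs_le_one σ).mpr hσ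
  have hσ20 : 0 ≤ σ ^ 2 := sq_nonneg σ
  have hσ3 : |σ ^ 3| ≤ 1 := by
    rw [abs_pow]; exact pow_le_one₀ (abs_nonneg _) hσ
  have hσ3b := abs_le.mp hσ3
  have hab : |a - b| ≤ h / 2 := abs_le.mpr ⟨by linarith, by linarith⟩
  have ha2 : a ^ 2 ≤ (h / 2) ^ 2 := pow_le_pow_left₀ ha hah 2
  have hb2 : b ^ 2 ≤ (h / 2) ^ 2 := pow_le_pow_left₀ hb hbh 2
  have hab0 : 0 ≤ a * b := mul_nonneg ha hb
  have hh2 : h ^ 2 ≤ h := by nlinarith
  have hh3 : h ^ 3 ≤ h := by nlinarith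
  -- the four terms of the bracket
  have hw : |7 / 2 * σ ^ 3 - σ / 2| ≤ 4 := abs_le.mpr ⟨by linarith, by linarith⟩
  have T1 := (abs_le.mp (fan_abs_mul_le hw hab)).1
  have hq : 0 ≤ a ^ 2 - a * b + b ^ 2 := by nlinarith [sq_nonneg (a - b)]
  have T2 : -(1 / 2) * (a ^ 2 - a * b + b ^ 2) ≤ (21 / 2 * σ ^ 2 - 1 / 2) * (a ^ 2 - a * b + b ^ 2) :=
    mul_le_mul_of_nonneg_right (by linarith) hq
  have hs : |a ^ 2 + b ^ 2| ≤ h ^ 2 / 2 := by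
    rw [abs_of_nonneg (by positivity)]; nlinarith
  have T3 := (abs_le.mp (fan_abs_mul_le (fan_abs_mul_le hσ hab) hs)).1
  have T4 : 0 ≤ a ^ 4 - a ^ 3 * b + a ^ 2 * b ^ 2 - a * b ^ 3 + b ^ 4 := by
    nlinarith [sq_nonneg (a - b), sq_nonneg (a ^ 2 - b ^ 2), mul_nonneg hab0 (sq_nonneg (a - b)),
      sq_nonneg (a ^ 2), sq_nonneg (b ^ 2), mul_nonneg (sq_nonneg a) (sq_nonneg b)]
  have key : fanG (σ + a) - fanG (σ - b) - (a + b) * fanF σ = (a + b) *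
      ((7 / 2 * σ ^ 3 - σ / 2) * (a - b) / 2 + (21 / 2 * σ ^ 2 - 1 / 2) * (a ^ 2 - a * b + b ^ 2) / 6 +
        σ * (a - b) * (a ^ 2 + b ^ 2) * (21 / 24) +
        21 / 120 * (a ^ 4 - a ^ 3 * b + a ^ 2 * b ^ 2 - a * b ^ 3 + b ^ 4)) := by
    unfold fanG fanF; ring
  have hbr : -(2 * h) ≤ (7 / 2 * σ ^ 3 - σ / 2) * (a - b) / 2 +
      (21 / 2 * σ ^ 2 - 1 / 2) * (a ^ 2 - a * b + b ^ 2) / 6 +
        σ * (a - b) * (a ^ 2 + b ^ 2) * (21 / 24) +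
        21 / 120 * (a ^ 4 - a ^ 3 * b + a ^ 2 * b ^ 2 - a * b ^ 3 + b ^ 4) := by
    have e1 : 1 * (h / 2) * (h ^ 2 / 2) = h ^ 3 / 4 := by ring
    have e2 : (h / 2) ^ 2 = h ^ 2 / 4 := by ring
    rw [e1] at T3
    rw [e2] at ha2 hb2
    linarith
  have := mul_le_mul_of_nonneg_left hbr (add_nonneg ha hb)
  linarith

theorem fanP_sq_div_le (κ μ σ : ℝ) (hκ : 0 < κ) (hκ' : κ ≤ 1 / 1000) (hμ : 0 ≤ μ) (hμ' : μ ≤ κ ^ 2)
    (hσ : |σ| ≤ 1) :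
    fanP κ μ σ ^ 2 / Real.sqrt (1 + κ ^ 2 * (2 * σ ^ 2 + (1 + σ ^ 2) ^ 2 / 4)) ≤
      (1 + κ ^ 2 * fanF σ + (4 * κ ^ 3 + 4 * κ * μ + 9 * κ ^ 4)) / 4 := by
  have hσ2 : σ ^ 2 ≤ 1 := (sq_le_one_iff_abs_le_one σ).mpr hσ
  have hσ20 : 0 ≤ σ ^ 2 := sq_nonneg σ
  have hσ4 : σ ^ 4 ≤ 1 := by
    have : σ ^ 4 = σ ^ 2 * σ ^ 2 := by ring
    rw [this]; exact mul_le_one₀ hσ2 hσ20 hσ2
  have hσ40 : 0 ≤ σ ^ 4 := by positivity
  obtain ⟨q, hq⟩ : ∃ q : ℝ, q = κ ^ 2 * (2 * σ ^ 2 + (1 + σ ^ 2) ^ 2 / 4) := ⟨_, rfl⟩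
  obtain ⟨p, hp⟩ : ∃ p : ℝ, p = κ ^ 2 * (σ ^ 2 + σ ^ 4) / 4 * (1 + 2 * κ) + κ * μ := ⟨_, rfl⟩
  have hPp : fanP κ μ σ = 1 / 2 + p := by rw [hp]; unfold fanP; ring
  rw [← hq, hPp]
  have hκ2 : 0 < κ ^ 2 := by positivity
  have hq0 : 0 ≤ q := by rw [hq]; positivity
  have hq3 : q ≤ 3 * κ ^ 2 := by
    rw [hq]
    have h1 : 2 * σ ^ 2 + (1 + σ ^ 2) ^ 2 / 4 ≤ 3 := by nlinarith
    calc κ ^ 2 * (2 * σ ^ 2 + (1 + σ ^ 2) ^ 2 / 4) ≤ κ ^ 2 * 3 := mul_le_mul_of_nonneg_left h1 hκ2.le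
      _ = 3 * κ ^ 2 := by ring
  have hp0 : 0 ≤ p := by rw [hp]; positivity
  have hκμ : κ * μ ≤ κ ^ 3 := by
    have := mul_le_mul_of_nonneg_left hμ' hκ.le
    have e : κ * κ ^ 2 = κ ^ 3 := by ring
    linarith
  have hκ3 : κ ^ 3 ≤ κ ^ 2 / 1000 := by
    have := mul_le_mul_of_nonneg_left hκ' hκ2.le
    have e : κ ^ 2 * κ = κ ^ 3 := by ring
    linarith
  have hp1 : p ≤ κ ^ 2 := by
    rw [hp]
    have h1 : κ ^ 2 * (σ ^ 2 + σ ^ 4) / 4 * (1 + 2 * κ) ≤ κ ^ 2 * 2 / 4 * (1 + 2 * κ) := by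
      apply mul_le_mul_of_nonneg_right _ (by positivity)
      have := mul_le_mul_of_nonneg_left (show σ ^ 2 + σ ^ 4 ≤ 2 by linarith) hκ2.le
      linarith
    have e : κ ^ 2 * 2 / 4 * (1 + 2 * κ) = κ ^ 2 / 2 + κ ^ 3 := by ring
    linarith
  -- the bound for 1/sqrt(1+q)
  obtain ⟨B, hB⟩ : ∃ B : ℝ, B = 1 - q / 2 + 3 * q ^ 2 / 8 := ⟨_, rfl⟩
  have hκ2' : κ ^ 2 ≤ 1 / 1000000 := by
    have := pow_le_pow_left₀ hκ.le hκ' 2
    norm_num at this; linarith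
  have hB0 : 0 < B := by rw [hB]; nlinarith [sq_nonneg q]
  have hB1 : 1 ≤ B ^ 2 * (1 + q) := by
    have e : B ^ 2 * (1 + q) = 1 + q ^ 3 * (5 / 8 - 15 * q / 64 + 9 * q ^ 2 / 64) := by
      rw [hB]; ring
    rw [e]
    have : 0 ≤ q ^ 3 * (5 / 8 - 15 * q / 64 + 9 * q ^ 2 / 64) := by
      apply mul_nonneg (by positivity)
      nlinarith [sq_nonneg q]
    linarith
  have hsq : 1 ≤ B * Real.sqrt (1 + q) := by
    have h1 : (0 : ℝ) ≤ B * Real.sqrt (1 + q) := by positivity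
    have h2 : (B * Real.sqrt (1 + q)) ^ 2 = B ^ 2 * (1 + q) := by
      rw [mul_pow, Real.sq_sqrt (by linarith)]
    by_contra hlt
    push Not at hlt
    have : (B * Real.sqrt (1 + q)) ^ 2 < 1 ^ 2 := pow_lt_pow_left₀ hlt h1 (by norm_num)
    rw [h2] at this
    linarith
  have hsqpos : 0 < Real.sqrt (1 + q) := Real.sqrt_pos.mpr (by linarith)
  have step1 : (1 / 2 + p) ^ 2 / Real.sqrt (1 + q) ≤ (1 / 2 + p) ^ 2 * B := by
    rw [div_le_iff₀ hsqpos]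
    have h0 : 0 ≤ (1 / 2 + p) ^ 2 := by positivity
    have := mul_le_mul_of_nonneg_left hsq h0
    linarith
  -- polynomial part
  have hid : 4 * p - q / 2 = κ ^ 2 * fanF σ + 2 * κ ^ 3 * (σ ^ 2 + σ ^ 4) + 4 * κ * μ := by
    rw [hp, hq]; unfold fanF; ring
  have h2k : 2 * κ ^ 3 * (σ ^ 2 + σ ^ 4) ≤ 4 * κ ^ 3 := by
    have := mul_le_mul_of_nonneg_left (show σ ^ 2 + σ ^ 4 ≤ 2 by linarith)
      (show (0 : ℝ) ≤ 2 * κ ^ 3 by positivity)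
    linarith
  have hp2 : p ^ 2 ≤ κ ^ 4 := by
    have := pow_le_pow_left₀ hp0 hp1 2
    have e : (κ ^ 2) ^ 2 = κ ^ 4 := by ring
    linarith
  have hq2 : q ^ 2 ≤ 9 * κ ^ 4 := by
    have := pow_le_pow_left₀ hq0 hq3 2
    have e : (3 * κ ^ 2) ^ 2 = 9 * κ ^ 4 := by ring
    linarith
  have hpp : 4 * p + 4 * p ^ 2 ≤ 8 * κ ^ 2 := by
    have : κ ^ 4 ≤ κ ^ 2 := by
      have e : κ ^ 4 = κ ^ 2 * κ ^ 2 := by ring
      rw [e]; nlinarith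
    linarith
  have hpp0 : 0 ≤ 4 * p + 4 * p ^ 2 := by positivity
  have hcross : (4 * p + 4 * p ^ 2) * (-(q / 2) + 3 * q ^ 2 / 8) ≤ κ ^ 4 := by
    have h1 : -(q / 2) + 3 * q ^ 2 / 8 ≤ 27 / 8 * κ ^ 4 := by linarith
    have h2 : (4 * p + 4 * p ^ 2) * (-(q / 2) + 3 * q ^ 2 / 8) ≤ (4 * p + 4 * p ^ 2) * (27 / 8 * κ ^ 4) :=
      mul_le_mul_of_nonneg_left h1 hpp0
    have h3 : (4 * p + 4 * p ^ 2) * (27 / 8 * κ ^ 4) ≤ 8 * κ ^ 2 * (27 / 8 * κ ^ 4) :=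
      mul_le_mul_of_nonneg_right hpp (by positivity)
    have h4 : 8 * κ ^ 2 * (27 / 8 * κ ^ 4) = 27 * κ ^ 2 * κ ^ 4 := by ring
    have h5 : 27 * κ ^ 2 * κ ^ 4 ≤ 1 * κ ^ 4 := by
      apply mul_le_mul_of_nonneg_right _ (by positivity)
      linarith
    linarith
  have step2 : (1 / 2 + p) ^ 2 * B = (1 + (4 * p - q / 2) + (4 * p ^ 2 + 3 * q ^ 2 / 8 +
      (4 * p + 4 * p ^ 2) * (-(q / 2) + 3 * q ^ 2 / 8))) / 4 := by
    rw [hB]; ring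
  rw [step2] at step1
  have hκ4 : 0 ≤ κ ^ 4 := by positivity
  linarith

/-- area (Gram form value) of the base triangle of the sector with node `σ`, slope width `Δ` -/
noncomputable def fanArea (κ μ σ Δ : ℝ) : ℝ :=
  Real.sqrt 2 * fanP κ μ σ ^ 2 * Δ /
    (2 * Real.sqrt (1 + κ ^ 2 * (2 * σ ^ 2 + (1 + σ ^ 2) ^ 2 / 4)))

theorem fanArea_sum_le (N : ℕ) (hN : 2 ≤ N) (κ μ : ℝ) (hκ : 0 < κ) (hκ' : κ ≤ 1 / 1000)
    (hμ : 0 ≤ μ) (hμ' : μ ≤ κ ^ 2) :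
    ∑ i ∈ Finset.range (N + 1),
        fanArea κ μ (fanNode N (i + 1)) (fanSlope N (i + 1) - fanSlope N i) ≤
      Real.sqrt 2 / 8 * (2 * (1 + (4 * κ ^ 3 + 4 * κ * μ + 9 * κ ^ 4)) +
        κ ^ 2 * (-(1 / 15) + 4 * (2 / (N : ℝ)))) := by
  have hN0 : 0 < N := by omega
  have hNr : (2 : ℝ) ≤ N := by exact_mod_cast hN
  have hNpos : (0 : ℝ) < N := by linarith
  obtain ⟨h, hh⟩ : ∃ h : ℝ, h = 2 / (N : ℝ) := ⟨_, rfl⟩
  have hh1 : h ≤ 1 := by rw [hh, div_le_one hNpos]; exact hNr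
  have hh0 : 0 < h := by rw [hh]; positivity
  obtain ⟨E, hE⟩ : ∃ E : ℝ, E = 4 * κ ^ 3 + 4 * κ * μ + 9 * κ ^ 4 := ⟨_, rfl⟩
  rw [← hh, ← hE]
  have hs2 : (0 : ℝ) < Real.sqrt 2 := Real.sqrt_pos.mpr (by norm_num)
  have hκ2 : 0 ≤ κ ^ 2 := sq_nonneg κ
  have hterm : ∀ i ∈ Finset.range (N + 1),
      fanArea κ μ (fanNode N (i + 1)) (fanSlope N (i + 1) - fanSlope N i) ≤
      Real.sqrt 2 / 8 * ((1 + E + 2 * h * κ ^ 2) * (fanSlope N (i + 1) - fanSlope N i) +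
        κ ^ 2 * (fanG (fanSlope N (i + 1)) - fanG (fanSlope N i))) := by
    intro i _
    obtain ⟨σ, hσ⟩ : ∃ σ : ℝ, σ = fanNode N (i + 1) := ⟨_, rfl⟩
    obtain ⟨tl, htl⟩ : ∃ tl : ℝ, tl = fanSlope N i := ⟨_, rfl⟩
    obtain ⟨th, hth⟩ : ∃ th : ℝ, th = fanSlope N (i + 1) := ⟨_, rfl⟩
    have hdev := fanSlope_dev N i
    rw [← hσ, ← htl, ← hth] at hdev ⊢
    obtain ⟨d1, d2, d3, d4⟩ := hdev
    have hσabs : |σ| ≤ 1 := by rw [hσ]; exact fanNode_abs N (i + 1)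
    have e1 : (1 : ℝ) / N = h / 2 := by rw [hh]; ring
    rw [e1] at d2 d4
    have hΔ : 0 ≤ th - tl := by linarith
    have hdiv := fanP_sq_div_le κ μ σ hκ hκ' hμ hμ' hσabs
    rw [← hE] at hdiv
    have htel := fanG_tel σ (th - σ) (σ - tl) h hσabs d3 d1 d4 d2 hh1
    have e2 : σ + (th - σ) = th := by ring
    have e3 : σ - (σ - tl) = tl := by ring
    have e4 : th - σ + (σ - tl) = th - tl := by ring
    rw [e2, e3, e4] at htel
    have harea : fanArea κ μ σ (th - tl) = Real.sqrt 2 / 2 * (th - tl) *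
        (fanP κ μ σ ^ 2 / Real.sqrt (1 + κ ^ 2 * (2 * σ ^ 2 + (1 + σ ^ 2) ^ 2 / 4))) := by
      unfold fanArea
      have : Real.sqrt (1 + κ ^ 2 * (2 * σ ^ 2 + (1 + σ ^ 2) ^ 2 / 4)) ≠ 0 := by
        apply (Real.sqrt_pos.mpr _).ne'
        positivity
      field_simp
    rw [harea]
    have hc : 0 ≤ Real.sqrt 2 / 2 * (th - tl) := by positivity
    have s1 := mul_le_mul_of_nonneg_left hdiv hc
    have s2 := mul_le_mul_of_nonneg_left htel hκ2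
    have s3 : Real.sqrt 2 / 8 * ((1 + E) * (th - tl) + κ ^ 2 * ((th - tl) * fanF σ)) ≤
        Real.sqrt 2 / 8 * ((1 + E + 2 * h * κ ^ 2) * (th - tl) + κ ^ 2 * (fanG th - fanG tl)) := by
      apply mul_le_mul_of_nonneg_left _ (by positivity)
      have e5 : κ ^ 2 * (fanG th - fanG tl + (th - tl) * (2 * h)) =
          κ ^ 2 * (fanG th - fanG tl) + 2 * h * κ ^ 2 * (th - tl) := by ring
      have e6 : (1 + E + 2 * h * κ ^ 2) * (th - tl) =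
          (1 + E) * (th - tl) + 2 * h * κ ^ 2 * (th - tl) := by ring
      linarith
    have e7 : Real.sqrt 2 / 2 * (th - tl) * ((1 + κ ^ 2 * fanF σ + E) / 4) =
        Real.sqrt 2 / 8 * ((1 + E) * (th - tl) + κ ^ 2 * ((th - tl) * fanF σ)) := by ring
    linarith
  calc ∑ i ∈ Finset.range (N + 1),
        fanArea κ μ (fanNode N (i + 1)) (fanSlope N (i + 1) - fanSlope N i)
      ≤ ∑ i ∈ Finset.range (N + 1), Real.sqrt 2 / 8 *
          ((1 + E + 2 * h * κ ^ 2) * (fanSlope N (i + 1) - fanSlope N i) +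
            κ ^ 2 * (fanG (fanSlope N (i + 1)) - fanG (fanSlope N i))) := Finset.sum_le_sum hterm
    _ = Real.sqrt 2 / 8 * ((1 + E + 2 * h * κ ^ 2) *
          ∑ i ∈ Finset.range (N + 1), (fanSlope N (i + 1) - fanSlope N i) +
            κ ^ 2 * ∑ i ∈ Finset.range (N + 1),
              (fanG (fanSlope N (i + 1)) - fanG (fanSlope N i))) := by
        rw [← Finset.mul_sum, Finset.sum_add_distrib, ← Finset.mul_sum, ← Finset.mul_sum]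
    _ = Real.sqrt 2 / 8 * (2 * (1 + E) + κ ^ 2 * (-(1 / 15) + 4 * h)) := by
        rw [Finset.sum_range_sub (fun i => fanSlope N i),
          Finset.sum_range_sub (fun i => fanG (fanSlope N i)), fanSlope_zero,
          fanSlope_last N hN0]
        unfold fanG
        ring

/-- the concrete instance used for the cover: `κ = 1/1000`, `N = 10⁶` -/
theorem fanArea_sum_concrete :
    ∑ i ∈ Finset.range (1000000 + 1),
        fanArea (1 / 1000) (1 / ((1000000 : ℕ) : ℝ)) (fanNode 1000000 (i + 1))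
          (fanSlope 1000000 (i + 1) - fanSlope 1000000 i) ≤
      Real.sqrt 2 * (1 / 4 - 1 / 10 ^ 9) := by
  have h := fanArea_sum_le 1000000 (by norm_num) (1 / 1000) (1 / ((1000000 : ℕ) : ℝ))
    (by norm_num) (by norm_num) (by positivity) (by norm_num)
  refine h.trans ?_
  have hs2 : (0 : ℝ) ≤ Real.sqrt 2 := Real.sqrt_nonneg 2
  have e : Real.sqrt 2 / 8 * (2 * (1 + (4 * (1 / 1000 : ℝ) ^ 3 +
      4 * (1 / 1000) * (1 / ((1000000 : ℕ) : ℝ)) + 9 * (1 / 1000) ^ 4)) +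
        (1 / 1000) ^ 2 * (-(1 / 15) + 4 * (2 / ((1000000 : ℕ) : ℝ)))) =
      Real.sqrt 2 * ((2 * (1 + (4 * (1 / 1000 : ℝ) ^ 3 +
      4 * (1 / 1000) * (1 / ((1000000 : ℕ) : ℝ)) + 9 * (1 / 1000) ^ 4)) +
        (1 / 1000) ^ 2 * (-(1 / 15) + 4 * (2 / ((1000000 : ℕ) : ℝ)))) / 8) := by ring
  rw [e]
  apply mul_le_mul_of_nonneg_left _ hs2
  norm_num

end Crest.Agent.R211.FanReal
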