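import Mathlib
import Crest.Agent.R211_FanRealAlg

/-!
# Row 211, work package 4 (helper17): geometry of the discrete fan cover

Cylinders over projected triangles in `EuclideanSpace ℝ (Fin 3)`, the two explicit families
(lower family along `≈ e_x`, upper family = its image under `(x,y,τ) ↦ (y,-x,1-τ)`),
membership criteria and Gram determinants of the base triangles.
-/

set_option autoImplicit false

namespace Crest.Agent.R211.FanReal

local notation "𝔼₃" => EuclideanSpace ℝ (Fin 3)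


/-- orthogonal projection onto `u^⊥` (for unit `u`), as a linear map -/
noncomputable def fanProj (u : 𝔼₃) : 𝔼₃ →ₗ[ℝ] 𝔼₃ where
  toFun y := y - inner ℝ y u • u
  map_add' a b := by
    simp only [inner_add_left, add_smul]; abel
  map_smul' c a := by
    simp only [inner_smul_left, smul_sub, smul_smul, RingHom.id_apply]
    simp

theorem fanProj_apply (u y : 𝔼₃) : fanProj u y = y - inner ℝ y u • u := rfl

theorem fanProj_inner (u y : 𝔼₃) (hu : ‖u‖ = 1) : inner ℝ (fanProj u y) u = 0 := by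
  rw [fanProj_apply, inner_sub_left, inner_smul_left, real_inner_self_eq_norm_sq, hu]
  simp

/-- a point of a convex hull of three points given by barycentric coordinates -/
theorem fan_mem_convexHull_triple (P Q R x : 𝔼₃) (a b c : ℝ) (ha : 0 ≤ a) (hb : 0 ≤ b)
    (hc : 0 ≤ c) (habc : a + b + c = 1) (hx : x = a • P + b • Q + c • R) :
    x ∈ convexHull ℝ {P, Q, R} := by
  have hconv := convex_convexHull ℝ ({P, Q, R} : Set 𝔼₃)
  have hP : P ∈ convexHull ℝ ({P, Q, R} : Set 𝔼₃) := subset_convexHull ℝ _ (by simp)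
  have hQ : Q ∈ convexHull ℝ ({P, Q, R} : Set 𝔼₃) := subset_convexHull ℝ _ (by simp)
  have hR : R ∈ convexHull ℝ ({P, Q, R} : Set 𝔼₃) := subset_convexHull ℝ _ (by simp)
  have := hconv.sum_mem (t := Finset.univ) (w := ![a, b, c]) (z := ![P, Q, R])
    (by intro i _; fin_cases i <;> simp [ha, hb, hc])
    (by simp [Fin.sum_univ_three, habc])
    (by intro i _; fin_cases i <;> simp [hP, hQ, hR])
  simp only [Fin.sum_univ_three] at this
  rw [hx]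
  simpa using this

/-- membership in the cylinder over the projected triangle -/
theorem fan_mem_cylinder (u P Q R x : 𝔼₃) (c : ℝ)
    (hx : x - c • u ∈ convexHull ℝ {P, Q, R}) :
    x ∈ {x : 𝔼₃ | ∃ b ∈ convexHull ℝ {fanProj u P, fanProj u Q, fanProj u R},
      ∃ t : ℝ, x = b + t • u} := by
  refine ⟨fanProj u (x - c • u), ?_, inner ℝ (x - c • u) u + c, ?_⟩
  · have h1 : fanProj u (x - c • u) ∈ (fanProj u) '' convexHull ℝ {P, Q, R} :=
      Set.mem_image_of_mem _ hx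
    rw [LinearMap.image_convexHull] at h1
    have h2 : (fanProj u) '' ({P, Q, R} : Set 𝔼₃) = {fanProj u P, fanProj u Q, fanProj u R} := by
      rw [Set.image_insert_eq, Set.image_pair]
    rw [h2] at h1
    exact h1
  · rw [fanProj_apply, add_smul]; abel


theorem fan_norm_sq (v : 𝔼₃) : ‖v‖ ^ 2 = v 0 ^ 2 + v 1 ^ 2 + v 2 ^ 2 := by
  rw [EuclideanSpace.norm_sq_eq]
  simp [Fin.sum_univ_three]

theorem fan_inner (v w : 𝔼₃) : inner ℝ v w = v 0 * w 0 + v 1 * w 1 + v 2 * w 2 := by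
  simp only [PiLp.inner_apply, Fin.sum_univ_three, RCLike.inner_apply, conj_trivial]
  ring

/-- `3 × 3` determinant in coordinates -/
noncomputable def fanDet (a b c : 𝔼₃) : ℝ :=
  a 0 * (b 1 * c 2 - b 2 * c 1) - a 1 * (b 0 * c 2 - b 2 * c 0) + a 2 * (b 0 * c 1 - b 1 * c 0)

theorem fanProj_coord (u a : 𝔼₃) (i : Fin 3) :
    fanProj u a i = a i - (a 0 * u 0 + a 1 * u 1 + a 2 * u 2) * u i := by
  rw [fanProj_apply, ← fan_inner]
  simp

/-- Gram determinant of the projected triangle: squared determinant with the unit axis -/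
theorem fan_gram (u P Q R : 𝔼₃) (hu : ‖u‖ = 1) :
    ‖fanProj u Q - fanProj u P‖ ^ 2 * ‖fanProj u R - fanProj u P‖ ^ 2 -
      inner ℝ (fanProj u Q - fanProj u P) (fanProj u R - fanProj u P) ^ 2 =
      fanDet (Q - P) (R - P) u ^ 2 := by
  rw [← map_sub, ← map_sub]
  obtain ⟨a, ha⟩ : ∃ a : 𝔼₃, a = Q - P := ⟨_, rfl⟩
  obtain ⟨b, hb⟩ : ∃ b : 𝔼₃, b = R - P := ⟨_, rfl⟩
  rw [← ha, ← hb]
  have hu' : u 0 ^ 2 + u 1 ^ 2 + u 2 ^ 2 = 1 := by
    rw [← fan_norm_sq, hu]; norm_num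
  rw [fan_norm_sq, fan_norm_sq, fan_inner]
  simp only [fanProj_coord, fanDet]
  linear_combination (((u 0 ^ 2 + u 1 ^ 2 + u 2 ^ 2 - 1) *
    ((a 1 * b 2 - a 2 * b 1) ^ 2 + (a 2 * b 0 - a 0 * b 2) ^ 2 + (a 0 * b 1 - a 1 * b 0) ^ 2)) -
    (a 0 * (b 1 * u 2 - b 2 * u 1) - a 1 * (b 0 * u 2 - b 2 * u 0) +
      a 2 * (b 0 * u 1 - b 1 * u 0)) ^ 2) * hu'

/-- unit vector and determinant scaling for a normalised axis -/
theorem fan_unit (d : 𝔼₃) (hd : d ≠ 0) : ‖(‖d‖⁻¹ • d : 𝔼₃)‖ = 1 := by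
  rw [norm_smul, norm_inv, norm_norm]
  exact inv_mul_cancel₀ (norm_ne_zero_iff.mpr hd)

theorem fanDet_smul (a b d : 𝔼₃) (c : ℝ) : fanDet a b (c • d) = c * fanDet a b d := by
  simp only [fanDet, PiLp.smul_apply, smul_eq_mul]
  ring

/-! ### The tetrahedron -/

theorem fan_sqrt2_pos : (0 : ℝ) < Real.sqrt 2 := Real.sqrt_pos.mpr (by norm_num)

theorem fan_sqrt2_sq : Real.sqrt 2 * Real.sqrt 2 = 2 := Real.mul_self_sqrt (by norm_num)

/-- the tetrahedron lies in `{|y| ≤ τ, |x| ≤ 1 - τ}`, `τ = z/√2` -/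
theorem fan_tetra_sub (X : 𝔼₃)
    (hX : X ∈ convexHull ℝ ({!₂[1, 0, 0], !₂[-1, 0, 0], !₂[0, 1, Real.sqrt 2],
      !₂[0, -1, Real.sqrt 2]} : Set 𝔼₃)) :
    |X 1| ≤ X 2 / Real.sqrt 2 ∧ |X 0| ≤ 1 - X 2 / Real.sqrt 2 := by
  have h2 := fan_sqrt2_pos
  have key : convexHull ℝ ({!₂[1, 0, 0], !₂[-1, 0, 0], !₂[0, 1, Real.sqrt 2],
      !₂[0, -1, Real.sqrt 2]} : Set 𝔼₃) ⊆
      {X : 𝔼₃ | (X 1 - X 2 / Real.sqrt 2 ≤ 0 ∧ -(X 1) - X 2 / Real.sqrt 2 ≤ 0) ∧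
        (X 0 + X 2 / Real.sqrt 2 ≤ 1 ∧ -(X 0) + X 2 / Real.sqrt 2 ≤ 1)} := by
    apply convexHull_min
    · intro Y hY
      simp only [Set.mem_insert_iff, Set.mem_singleton_iff] at hY
      rcases hY with rfl | rfl | rfl | rfl <;> simp
    · intro Y hY Z hZ a b ha hb hab
      obtain ⟨⟨y1, y2⟩, y3, y4⟩ := hY
      obtain ⟨⟨z1, z2⟩, z3, z4⟩ := hZ
      simp only [Set.mem_ofPred_eq, PiLp.add_apply, PiLp.smul_apply, smul_eq_mul]
      have e : (a * Y 2 + b * Z 2) / Real.sqrt 2 = a * (Y 2 / Real.sqrt 2) + b * (Z 2 / Real.sqrt 2) := by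
        ring
      rw [e]
      have A1 := mul_le_mul_of_nonneg_left y1 ha
      have A2 := mul_le_mul_of_nonneg_left y2 ha
      have A3 := mul_le_mul_of_nonneg_left y3 ha
      have A4 := mul_le_mul_of_nonneg_left y4 ha
      have B1 := mul_le_mul_of_nonneg_left z1 hb
      have B2 := mul_le_mul_of_nonneg_left z2 hb
      have B3 := mul_le_mul_of_nonneg_left z3 hb
      have B4 := mul_le_mul_of_nonneg_left z4 hb
      refine ⟨⟨by linarith, by linarith⟩, by linarith, by linarith⟩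
  obtain ⟨⟨k1, k2⟩, k3, k4⟩ := key hX
  exact ⟨abs_le.mpr ⟨by linarith, by linarith⟩, abs_le.mpr ⟨by linarith, by linarith⟩⟩

/-! ### The two families of cylinders -/

/-- axis of the lower cylinder with node `σ` -/
noncomputable def fanAxisL (κ σ : ℝ) : 𝔼₃ := !₂[1, κ * (1 + σ ^ 2) / 2, Real.sqrt 2 * κ * σ]

/-- far vertices of the lower base triangle (in the plane `x = 0`) -/
noncomputable def fanQL (P t : ℝ) : 𝔼₃ := !₂[0, P * t, Real.sqrt 2 * P]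

/-- axis of the upper cylinder with node `σ` -/
noncomputable def fanAxisU (κ σ : ℝ) : 𝔼₃ := !₂[κ * (1 + σ ^ 2) / 2, -1, -(Real.sqrt 2 * κ * σ)]

/-- apex of the upper base triangles (in the plane `y = 0`) -/
noncomputable def fanOU : 𝔼₃ := !₂[0, 0, Real.sqrt 2]

/-- far vertices of the upper base triangle -/
noncomputable def fanQU (P t : ℝ) : 𝔼₃ := !₂[P * t, 0, Real.sqrt 2 * (1 - P)]

theorem fanAxisL_ne (κ σ : ℝ) : fanAxisL κ σ ≠ 0 := by
  intro h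
  have := congrArg (fun v : 𝔼₃ => v 0) h
  simp [fanAxisL] at this

theorem fanAxisU_ne (κ σ : ℝ) : fanAxisU κ σ ≠ 0 := by
  intro h
  have := congrArg (fun v : 𝔼₃ => v 1) h
  simp [fanAxisU] at this

theorem fanAxisL_norm (κ σ : ℝ) :
    ‖fanAxisL κ σ‖ = Real.sqrt (1 + κ ^ 2 * (2 * σ ^ 2 + (1 + σ ^ 2) ^ 2 / 4)) := by
  have h : ‖fanAxisL κ σ‖ ^ 2 = 1 + κ ^ 2 * (2 * σ ^ 2 + (1 + σ ^ 2) ^ 2 / 4) := by
    rw [fan_norm_sq]
    simp only [fanAxisL]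
    simp
    have := fan_sqrt2_sq
    nlinarith
  rw [← h, Real.sqrt_sq (norm_nonneg _)]

theorem fanAxisU_norm (κ σ : ℝ) :
    ‖fanAxisU κ σ‖ = Real.sqrt (1 + κ ^ 2 * (2 * σ ^ 2 + (1 + σ ^ 2) ^ 2 / 4)) := by
  have h : ‖fanAxisU κ σ‖ ^ 2 = 1 + κ ^ 2 * (2 * σ ^ 2 + (1 + σ ^ 2) ^ 2 / 4) := by
    rw [fan_norm_sq]
    simp only [fanAxisU]
    simp
    have := fan_sqrt2_sq
    nlinarith
  rw [← h, Real.sqrt_sq (norm_nonneg _)]

theorem fan_lower_mem (κ σ P tlo thi : ℝ) (X : 𝔼₃) (hP : 0 < P) (ht : tlo < thi)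
    (h1 : tlo * (X 2 / Real.sqrt 2 - κ * σ * X 0) ≤ X 1 - κ * (1 + σ ^ 2) / 2 * X 0)
    (h2 : X 1 - κ * (1 + σ ^ 2) / 2 * X 0 ≤ thi * (X 2 / Real.sqrt 2 - κ * σ * X 0))
    (h3 : X 2 / Real.sqrt 2 - κ * σ * X 0 ≤ P) :
    X - X 0 • fanAxisL κ σ ∈ convexHull ℝ {(0 : 𝔼₃), fanQL P tlo, fanQL P thi} := by
  have hs := fan_sqrt2_pos
  have hΔ : 0 < thi - tlo := by linarith
  have hPΔ : 0 < P * (thi - tlo) := mul_pos hP hΔ
  obtain ⟨ρ, hρ⟩ : ∃ ρ : ℝ, ρ = X 2 / Real.sqrt 2 - κ * σ * X 0 := ⟨_, rfl⟩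
  obtain ⟨η, hη⟩ : ∃ η : ℝ, η = X 1 - κ * (1 + σ ^ 2) / 2 * X 0 := ⟨_, rfl⟩
  rw [← hρ, ← hη] at h1 h2
  rw [← hρ] at h3
  apply fan_mem_convexHull_triple _ _ _ _ (1 - ρ / P) ((thi * ρ - η) / (P * (thi - tlo)))
    ((η - tlo * ρ) / (P * (thi - tlo)))
  · have : ρ / P ≤ 1 := (div_le_one hP).mpr h3
    linarith
  · exact div_nonneg (by linarith) hPΔ.le
  · exact div_nonneg (by linarith) hPΔ.le
  · field_simp; ring
  · have hX2 : X 2 = Real.sqrt 2 * (ρ + κ * σ * X 0) := by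
      rw [hρ]; field_simp; ring
    ext i
    fin_cases i
    · simp [fanAxisL, fanQL]
    · simp [fanAxisL, fanQL]
      rw [hη]; field_simp; ring
    · simp [fanAxisL, fanQL]
      rw [hX2]; field_simp; ring

theorem fan_upper_mem (κ σ P tlo thi : ℝ) (X : 𝔼₃) (hP : 0 < P) (ht : tlo < thi)
    (h1 : tlo * (1 - X 2 / Real.sqrt 2 + κ * σ * X 1) ≤ X 0 + κ * (1 + σ ^ 2) / 2 * X 1)
    (h2 : X 0 + κ * (1 + σ ^ 2) / 2 * X 1 ≤ thi * (1 - X 2 / Real.sqrt 2 + κ * σ * X 1))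
    (h3 : 1 - X 2 / Real.sqrt 2 + κ * σ * X 1 ≤ P) :
    X - (-(X 1)) • fanAxisU κ σ ∈ convexHull ℝ {fanOU, fanQU P tlo, fanQU P thi} := by
  have hs := fan_sqrt2_pos
  have hΔ : 0 < thi - tlo := by linarith
  have hPΔ : 0 < P * (thi - tlo) := mul_pos hP hΔ
  obtain ⟨ρ, hρ⟩ : ∃ ρ : ℝ, ρ = 1 - X 2 / Real.sqrt 2 + κ * σ * X 1 := ⟨_, rfl⟩
  obtain ⟨η, hη⟩ : ∃ η : ℝ, η = X 0 + κ * (1 + σ ^ 2) / 2 * X 1 := ⟨_, rfl⟩
  rw [← hρ, ← hη] at h1 h2
  rw [← hρ] at h3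
  apply fan_mem_convexHull_triple _ _ _ _ (1 - ρ / P) ((thi * ρ - η) / (P * (thi - tlo)))
    ((η - tlo * ρ) / (P * (thi - tlo)))
  · have : ρ / P ≤ 1 := (div_le_one hP).mpr h3
    linarith
  · exact div_nonneg (by linarith) hPΔ.le
  · exact div_nonneg (by linarith) hPΔ.le
  · field_simp; ring
  · have hX2 : X 2 = Real.sqrt 2 * (1 - ρ + κ * σ * X 1) := by
      rw [hρ]; field_simp; ring
    ext i
    fin_cases i
    · simp [fanAxisU, fanQU, fanOU]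
      rw [hη]; field_simp; ring
    · simp [fanAxisU, fanQU, fanOU]
    · simp [fanAxisU, fanQU, fanOU]
      rw [hX2]; field_simp; ring

theorem fan_lower_det (κ σ P tlo thi : ℝ) :
    fanDet (fanQL P tlo - 0) (fanQL P thi - 0) (fanAxisL κ σ) = -(Real.sqrt 2 * P ^ 2 * (thi - tlo)) := by
  simp [fanDet, fanQL, fanAxisL]
  ring

theorem fan_upper_det (κ σ P tlo thi : ℝ) :
    fanDet (fanQU P tlo - fanOU) (fanQU P thi - fanOU) (fanAxisU κ σ) =
      Real.sqrt 2 * P ^ 2 * (thi - tlo) := by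
  simp [fanDet, fanQU, fanOU, fanAxisU]
  ring

end Crest.Agent.R211.FanReal
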