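import Mathlib
import Crest.Agent.R211_FanRealAlg
import Crest.Agent.R211_FanRealGeom

/-!
# Row 211, work package 4 (helper17): the explicit fan cover of the regular tetrahedron

`fan_cover`: the tetrahedron `K = conv{(±1,0,0),(0,±1,√2)}` is covered by `2·(10⁶+1)` cylinders
with triangular bases (orthogonal to their unit axes) whose total area (in Gram form) is at most
`√2·(1/2 - 2·10⁻⁹)`; this is below half of the least projection area `√2` of `K`.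
-/

set_option autoImplicit false

namespace Crest.Agent.R211.FanReal

local notation "𝔼₃" => EuclideanSpace ℝ (Fin 3)

/-- normalised axis -/
noncomputable def fanU (d : 𝔼₃) : 𝔼₃ := ‖d‖⁻¹ • d

/-- A family of cylinders given by axes `d i ≠ 0` and (unprojected) triangles `O i, Q i, R i`:
unit axes, orthogonality of the projected triangles, membership criterion and Gram areas. -/
theorem fan_family (m : ℕ) (d O Q R : Fin m → 𝔼₃) (hd : ∀ i, d i ≠ 0) :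
    (∀ i, ‖fanU (d i)‖ = 1) ∧
    (∀ i, inner ℝ (fanProj (fanU (d i)) (O i)) (fanU (d i)) = 0 ∧
      inner ℝ (fanProj (fanU (d i)) (Q i)) (fanU (d i)) = 0 ∧
      inner ℝ (fanProj (fanU (d i)) (R i)) (fanU (d i)) = 0) ∧
    (∀ x : 𝔼₃, (∃ i, ∃ c : ℝ, x - c • d i ∈ convexHull ℝ {O i, Q i, R i}) →
      x ∈ ⋃ i, {x : 𝔼₃ | ∃ b ∈ convexHull ℝ {fanProj (fanU (d i)) (O i),
        fanProj (fanU (d i)) (Q i), fanProj (fanU (d i)) (R i)}, ∃ t : ℝ, x = b + t • fanU (d i)}) ∧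
    (∀ i, Real.sqrt (‖fanProj (fanU (d i)) (Q i) - fanProj (fanU (d i)) (O i)‖ ^ 2 *
        ‖fanProj (fanU (d i)) (R i) - fanProj (fanU (d i)) (O i)‖ ^ 2 -
        inner ℝ (fanProj (fanU (d i)) (Q i) - fanProj (fanU (d i)) (O i))
          (fanProj (fanU (d i)) (R i) - fanProj (fanU (d i)) (O i)) ^ 2) / 2 =
      |fanDet (Q i - O i) (R i - O i) (d i)| / (2 * ‖d i‖)) := by
  have hu : ∀ i, ‖fanU (d i)‖ = 1 := fun i => fan_unit (d i) (hd i)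
  refine ⟨hu, fun i => ⟨fanProj_inner _ _ (hu i), fanProj_inner _ _ (hu i),
    fanProj_inner _ _ (hu i)⟩, ?_, ?_⟩
  · rintro x ⟨i, c, hx⟩
    rw [Set.mem_iUnion]
    refine ⟨i, fan_mem_cylinder (fanU (d i)) (O i) (Q i) (R i) x (c * ‖d i‖) ?_⟩
    have hn : ‖d i‖ ≠ 0 := norm_ne_zero_iff.mpr (hd i)
    have : (c * ‖d i‖) • fanU (d i) = c • d i := by
      unfold fanU
      rw [smul_smul, mul_assoc, mul_inv_cancel₀ hn, mul_one]
    rw [this]; exact hx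
  · intro i
    have hn : 0 < ‖d i‖ := norm_pos_iff.mpr (hd i)
    rw [fan_gram _ _ _ _ (hu i)]
    unfold fanU
    rw [fanDet_smul, Real.sqrt_sq_eq_abs, abs_mul, abs_of_pos (inv_pos.mpr hn)]
    field_simp

/-- every point of the tetrahedron lies in a lower or in an upper cylinder -/
theorem fan_cover_point (N : ℕ) (hN : 10 ≤ N) (κ : ℝ) (hκ : 0 < κ) (hκ' : κ ≤ 1 / 10) (X : 𝔼₃)
    (hX : X ∈ convexHull ℝ ({!₂[1, 0, 0], !₂[-1, 0, 0], !₂[0, 1, Real.sqrt 2],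
      !₂[0, -1, Real.sqrt 2]} : Set 𝔼₃)) :
    (∃ i, i ≤ N ∧ X - X 0 • fanAxisL κ (fanNode N (i + 1)) ∈
        convexHull ℝ {(0 : 𝔼₃), fanQL (fanP κ (1 / (N : ℝ)) (fanNode N (i + 1))) (fanSlope N i),
          fanQL (fanP κ (1 / (N : ℝ)) (fanNode N (i + 1))) (fanSlope N (i + 1))}) ∨
    (∃ j, j ≤ N ∧ X - (-(X 1)) • fanAxisU κ (fanNode N (j + 1)) ∈
        convexHull ℝ {fanOU, fanQU (fanP κ (1 / (N : ℝ)) (fanNode N (j + 1))) (fanSlope N j),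
          fanQU (fanP κ (1 / (N : ℝ)) (fanNode N (j + 1))) (fanSlope N (j + 1))}) := by
  have hN0 : 0 < N := by omega
  have hNr : (10 : ℝ) ≤ N := by exact_mod_cast hN
  have hNpos : (0 : ℝ) < N := by linarith
  obtain ⟨μ, hμdef⟩ : ∃ μ : ℝ, μ = 1 / (N : ℝ) := ⟨_, rfl⟩
  have hμ0 : 0 ≤ μ := by rw [hμdef]; positivity
  have hμ1 : μ ≤ 1 / 10 := by
    rw [hμdef]; exact one_div_le_one_div_of_le (by norm_num) hNr
  rw [← hμdef]
  obtain ⟨hy, hx⟩ := fan_tetra_sub X hX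
  obtain ⟨τ, hτ⟩ : ∃ τ : ℝ, τ = X 2 / Real.sqrt 2 := ⟨_, rfl⟩
  rw [← hτ] at hy hx
  obtain ⟨i, hi, hi1, hi2⟩ := fan_tiling N hN0 κ (X 0) (X 1) τ hy
  have hx' : |X 0| ≤ 1 - τ := hx
  obtain ⟨j, hj, hj1, hj2⟩ := fan_tiling N hN0 κ (-(X 1)) (X 0) (1 - τ) hx'
  have e1 : 1 - τ - κ * fanNode N (j + 1) * -(X 1) = 1 - τ + κ * fanNode N (j + 1) * X 1 := by ring
  have e2 : X 0 - κ * (1 + fanNode N (j + 1) ^ 2) / 2 * -(X 1) =
      X 0 + κ * (1 + fanNode N (j + 1) ^ 2) / 2 * X 1 := by ring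
  rw [e1, e2] at hj1 hj2
  have hPi := fanP_ge_half (fanNode N (i + 1)) hκ.le hμ0
  have hPj := fanP_ge_half (fanNode N (j + 1)) hκ.le hμ0
  by_cases hcase : τ - κ * fanNode N (i + 1) * X 0 ≤ fanP κ μ (fanNode N (i + 1))
  · left
    refine ⟨i, hi, ?_⟩
    apply fan_lower_mem κ (fanNode N (i + 1)) _ _ _ X (by linarith) (fanSlope_lt N i hN0 hi)
    · rw [← hτ]; exact hi1
    · rw [← hτ]; exact hi2
    · rw [← hτ]; exact hcase
  · by_cases hcase' : 1 - τ + κ * fanNode N (j + 1) * X 1 ≤ fanP κ μ (fanNode N (j + 1))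
    · right
      refine ⟨j, hj, ?_⟩
      apply fan_upper_mem κ (fanNode N (j + 1)) _ _ _ X (by linarith) (fanSlope_lt N j hN0 hj)
      · rw [← hτ]; exact hj1
      · rw [← hτ]; exact hj2
      · rw [← hτ]; exact hcase'
    · exfalso
      rw [not_le] at hcase hcase'
      obtain ⟨a1, a2, a3, a4⟩ := fanSlope_dev N i
      obtain ⟨b1, b2, b3, b4⟩ := fanSlope_dev N j
      rw [← hμdef] at a2 a4 b2 b4
      have hη := fan_dev_abs (σ := fanNode N (i + 1)) (μ := μ)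
        (show (0 : ℝ) ≤ τ - κ * fanNode N (i + 1) * X 0 by linarith)
        (by linarith) (by linarith) hi1 hi2
      have hη' := fan_dev_abs (σ := fanNode N (j + 1)) (μ := μ)
        (show (0 : ℝ) ≤ 1 - τ + κ * fanNode N (j + 1) * X 1 by linarith)
        (by linarith) (by linarith) hj1 hj2
      rcases fan_cover_ineq κ μ (fanNode N (i + 1)) (fanNode N (j + 1)) (X 0) (X 1) τ hκ hκ' hμ0 hμ1
        (fanNode_abs N (i + 1)) (fanNode_abs N (j + 1)) hη hη' with h | h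
      · linarith
      · linarith

theorem fan_lower_area (κ μ σ tlo thi : ℝ) (ht : tlo ≤ thi) :
    |fanDet (fanQL (fanP κ μ σ) tlo - 0) (fanQL (fanP κ μ σ) thi - 0) (fanAxisL κ σ)| /
      (2 * ‖fanAxisL κ σ‖) = fanArea κ μ σ (thi - tlo) := by
  have h : 0 ≤ Real.sqrt 2 * fanP κ μ σ ^ 2 * (thi - tlo) := by
    have : 0 ≤ thi - tlo := by linarith
    positivity
  rw [fan_lower_det, fanAxisL_norm, abs_neg, abs_of_nonneg h]
  rfl

theorem fan_upper_area (κ μ σ tlo thi : ℝ) (ht : tlo ≤ thi) :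
    |fanDet (fanQU (fanP κ μ σ) tlo - fanOU) (fanQU (fanP κ μ σ) thi - fanOU) (fanAxisU κ σ)| /
      (2 * ‖fanAxisU κ σ‖) = fanArea κ μ σ (thi - tlo) := by
  have h : 0 ≤ Real.sqrt 2 * fanP κ μ σ ^ 2 * (thi - tlo) := by
    have : 0 ≤ thi - tlo := by linarith
    positivity
  rw [fan_upper_det, fanAxisU_norm, abs_of_nonneg h]
  rfl

/-- the fan cover for general parameters: `2(N+1)` cylinders, total Gram area twice the fan sum -/
theorem fan_cover_gen (N : ℕ) (hN : 10 ≤ N) (κ : ℝ) (hκ : 0 < κ) (hκ' : κ ≤ 1 / 10) :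
    ∃ (u p q r : Fin ((N + 1) + (N + 1)) → 𝔼₃), (∀ i, ‖u i‖ = 1) ∧
      (∀ i, inner ℝ (p i) (u i) = 0 ∧ inner ℝ (q i) (u i) = 0 ∧ inner ℝ (r i) (u i) = 0) ∧
      convexHull ℝ ({!₂[1, 0, 0], !₂[-1, 0, 0], !₂[0, 1, Real.sqrt 2],
          !₂[0, -1, Real.sqrt 2]} : Set 𝔼₃) ⊆
        ⋃ i, {x : 𝔼₃ | ∃ b ∈ convexHull ℝ {p i, q i, r i}, ∃ t : ℝ, x = b + t • u i} ∧
      ∑ i, Real.sqrt (‖q i - p i‖ ^ 2 * ‖r i - p i‖ ^ 2 -
          inner ℝ (q i - p i) (r i - p i) ^ 2) / 2 =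
        2 * ∑ i ∈ Finset.range (N + 1),
          fanArea κ (1 / (N : ℝ)) (fanNode N (i + 1)) (fanSlope N (i + 1) - fanSlope N i) := by
  have hN0 : 0 < N := by omega
  obtain ⟨d, hd⟩ : ∃ d : Fin ((N + 1) + (N + 1)) → 𝔼₃, d = Fin.addCases
      (fun i : Fin (N + 1) => fanAxisL κ (fanNode N (i + 1)))
      (fun i : Fin (N + 1) => fanAxisU κ (fanNode N (i + 1))) := ⟨_, rfl⟩
  obtain ⟨O, hO⟩ : ∃ O : Fin ((N + 1) + (N + 1)) → 𝔼₃, O = Fin.addCases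
      (fun _ : Fin (N + 1) => (0 : 𝔼₃)) (fun _ : Fin (N + 1) => fanOU) := ⟨_, rfl⟩
  obtain ⟨Q, hQ⟩ : ∃ Q : Fin ((N + 1) + (N + 1)) → 𝔼₃, Q = Fin.addCases
      (fun i : Fin (N + 1) => fanQL (fanP κ (1 / (N : ℝ)) (fanNode N (i + 1))) (fanSlope N i))
      (fun i : Fin (N + 1) => fanQU (fanP κ (1 / (N : ℝ)) (fanNode N (i + 1))) (fanSlope N i)) :=
    ⟨_, rfl⟩
  obtain ⟨R, hR⟩ : ∃ R : Fin ((N + 1) + (N + 1)) → 𝔼₃, R = Fin.addCases
      (fun i : Fin (N + 1) =>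
        fanQL (fanP κ (1 / (N : ℝ)) (fanNode N (i + 1))) (fanSlope N (i + 1)))
      (fun i : Fin (N + 1) =>
        fanQU (fanP κ (1 / (N : ℝ)) (fanNode N (i + 1))) (fanSlope N (i + 1))) := ⟨_, rfl⟩
  have hdne : ∀ k, d k ≠ 0 := by
    intro k
    rw [hd]
    induction k using Fin.addCases with
    | left i => simp only [Fin.addCases_left]; exact fanAxisL_ne _ _
    | right i => simp only [Fin.addCases_right]; exact fanAxisU_ne _ _
  obtain ⟨h1, h2, h3, h4⟩ := fan_family ((N + 1) + (N + 1)) d O Q R hdne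
  refine ⟨fun k => fanU (d k), fun k => fanProj (fanU (d k)) (O k),
    fun k => fanProj (fanU (d k)) (Q k), fun k => fanProj (fanU (d k)) (R k), h1, h2, ?_, ?_⟩
  · intro X hX
    apply h3
    rcases fan_cover_point N hN κ hκ hκ' X hX with ⟨i, hi, hmem⟩ | ⟨j, hj, hmem⟩
    · refine ⟨Fin.castAdd (N + 1) ⟨i, by omega⟩, X 0, ?_⟩
      rw [hd, hO, hQ, hR]
      simp only [Fin.addCases_left]
      exact hmem
    · refine ⟨Fin.natAdd (N + 1) ⟨j, by omega⟩, -(X 1), ?_⟩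
      rw [hd, hO, hQ, hR]
      simp only [Fin.addCases_right]
      exact hmem
  · rw [Finset.sum_congr rfl (fun k _ => h4 k), Fin.sum_univ_add]
    rw [hd, hO, hQ, hR]
    simp only [Fin.addCases_left, Fin.addCases_right]
    have hle : ∀ i : Fin (N + 1), fanSlope N i ≤ fanSlope N (i + 1) :=
      fun i => (fanSlope_lt N i hN0 (by have := i.2; omega)).le
    rw [Finset.sum_congr rfl (fun i _ => fan_lower_area κ (1 / (N : ℝ)) _ _ _ (hle i)),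
      Finset.sum_congr rfl (fun i _ => fan_upper_area κ (1 / (N : ℝ)) _ _ _ (hle i))]
    rw [Fin.sum_univ_eq_sum_range (fun i : ℕ => fanArea κ (1 / (N : ℝ)) (fanNode N (i + 1))
      (fanSlope N (i + 1) - fanSlope N i)) (N + 1)]
    ring

/-- **The fan cover** (interface theorem of work package 4). -/
theorem fan_cover :
    ∃ (m : ℕ) (u p q r : Fin m → 𝔼₃), m ≤ 15999998 ∧ (∀ i, ‖u i‖ = 1) ∧
      (∀ i, inner ℝ (p i) (u i) = 0 ∧ inner ℝ (q i) (u i) = 0 ∧ inner ℝ (r i) (u i) = 0) ∧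
      convexHull ℝ ({!₂[1, 0, 0], !₂[-1, 0, 0], !₂[0, 1, Real.sqrt 2],
          !₂[0, -1, Real.sqrt 2]} : Set 𝔼₃) ⊆
        ⋃ i, {x : 𝔼₃ | ∃ b ∈ convexHull ℝ {p i, q i, r i}, ∃ t : ℝ, x = b + t • u i} ∧
      ∑ i, Real.sqrt (‖q i - p i‖ ^ 2 * ‖r i - p i‖ ^ 2 -
          inner ℝ (q i - p i) (r i - p i) ^ 2) / 2 ≤
        Real.sqrt 2 * (1 / 2 - 2 / 10 ^ 9) := by
  obtain ⟨u, p, q, r, h1, h2, h3, h4⟩ :=
    fan_cover_gen 1000000 (by norm_num) (1 / 1000) (by norm_num) (by norm_num)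
  refine ⟨(1000000 + 1) + (1000000 + 1), u, p, q, r, by norm_num, h1, h2, h3, ?_⟩
  rw [h4]
  have := fanArea_sum_concrete
  have e : Real.sqrt 2 * (1 / 2 - 2 / 10 ^ 9) = 2 * (Real.sqrt 2 * (1 / 4 - 1 / 10 ^ 9)) := by ring
  rw [e]
  linarith

/-- The explicit cover in exactly the shape of hypothesis `h2` of `R211.s0325_of_parts`
(`R211_Pad.lean`): at most `15999999` cylinders, total Gram area at most
`√2 (1/2 - 13/6000 (1/2000)²)`. -/
theorem fan_h2 :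
    ∃ (m : ℕ) (u p q r : Fin m → EuclideanSpace ℝ (Fin 3)), m + 1 ≤ 16000000 ∧
      (∀ i, ‖u i‖ = 1) ∧
      (∀ i, inner ℝ (p i) (u i) = 0 ∧ inner ℝ (q i) (u i) = 0 ∧ inner ℝ (r i) (u i) = 0) ∧
      convexHull ℝ {!₂[1, 0, 0], !₂[-1, 0, 0], !₂[0, 1, Real.sqrt 2], !₂[0, -1, Real.sqrt 2]} ⊆
        ⋃ i, {x : EuclideanSpace ℝ (Fin 3) |
          ∃ b ∈ convexHull ℝ {p i, q i, r i}, ∃ t : ℝ, x = b + t • u i} ∧
      ∑ i, Real.sqrt (‖q i - p i‖ ^ 2 * ‖r i - p i‖ ^ 2 - inner ℝ (q i - p i) (r i - p i) ^ 2) / 2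
        ≤ Real.sqrt 2 * (1 / 2 - 13 / 6000 * (1 / 2000) ^ 2) := by
  obtain ⟨m, u, p, q, r, hm, h1, h2, h3, h4⟩ := fan_cover
  refine ⟨m, u, p, q, r, by omega, h1, h2, h3, h4.trans ?_⟩
  apply mul_le_mul_of_nonneg_left _ (Real.sqrt_nonneg 2)
  norm_num

end Crest.Agent.R211.FanReal
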