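/-
Row 211 (S0324–S0329): the minimal projection area of the standard regular tetrahedron
(S0325 part (1)).  Owner: helper14.

Every orthogonal projection of `K = conv{(±1,0,0),(0,±1,√2)}` onto a plane has area `≥ √2`, with
equality for the projection along the edge direction `(1,0,0)`.
-/
import Crest.Agent.R211_Area

set_option autoImplicit false
open MeasureTheory
open scoped ENNReal

namespace Crest.Agent.R211



/-- The two-dimensional determinant. -/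
def mpDet2 (a b : EuclideanSpace ℝ (Fin 2)) : ℝ := a 0 * b 1 - a 1 * b 0

theorem mp_gram_eq_det2_sq (a b : EuclideanSpace ℝ (Fin 2)) :
    ‖a‖ ^ 2 * ‖b‖ ^ 2 - inner ℝ a b ^ 2 = mpDet2 a b ^ 2 := by
  simp only [EuclideanSpace.norm_sq_eq, PiLp.inner_apply, Fin.sum_univ_two, mpDet2,
    Real.norm_eq_abs, sq_abs, RCLike.inner_apply, conj_trivial]
  ring

theorem mp_volume_triangle2 (A B C : EuclideanSpace ℝ (Fin 2)) :
    volume (convexHull ℝ {A, B, C}) = ENNReal.ofReal (|mpDet2 (B - A) (C - A)| / 2) := by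
  rw [← EuclideanSpace.euclideanHausdorffMeasure_eq_volume 2, area_triangle, mp_gram_eq_det2_sq,
    Real.sqrt_sq_eq_abs]

theorem mp_abs_sub_le_max {x y : ℝ} (h : 0 ≤ x * y) : |y - x| ≤ max |x| |y| := by
  rcases abs_cases x with ⟨h1, h2⟩ | ⟨h1, h2⟩ <;> rcases abs_cases y with ⟨h3, h4⟩ | ⟨h3, h4⟩ <;>
    rcases abs_cases (y - x) with ⟨h5, h6⟩ | ⟨h5, h6⟩ <;> rw [h1, h3, h5] <;>
    rcases le_total x y with h7 | h7 <;> simp only [le_max_iff] <;>
    first
      | (left; linarith)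
      | (right; linarith)
      | (left; nlinarith)
      | (right; nlinarith)

theorem mp_abs_sub_eq_add {x y : ℝ} (h : x * y < 0) : |y - x| = |x| + |y| := by
  rcases abs_cases x with ⟨h1, h2⟩ | ⟨h1, h2⟩ <;> rcases abs_cases y with ⟨h3, h4⟩ | ⟨h3, h4⟩ <;>
    rcases abs_cases (y - x) with ⟨h5, h6⟩ | ⟨h5, h6⟩ <;> rw [h1, h3, h5] <;>
    first
      | linarith
      | nlinarith

/-- The area of the convex hull of four points of the plane is at least half the absolute value of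
the determinant of the two "diagonals". -/
theorem mp_quad_volume_ge (A B C D : EuclideanSpace ℝ (Fin 2)) :
    ENNReal.ofReal (|mpDet2 (C - A) (D - B)| / 2) ≤ volume (convexHull ℝ {A, B, C, D}) := by
  have hdet : mpDet2 (C - A) (D - B) = mpDet2 (C - A) (D - A) - mpDet2 (C - A) (B - A) := by
    simp only [mpDet2, PiLp.sub_apply]; ring
  have hT1 : volume (convexHull ℝ {A, C, B}) = ENNReal.ofReal (|mpDet2 (C - A) (B - A)| / 2) :=
    mp_volume_triangle2 A C B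
  have hT2 : volume (convexHull ℝ {A, C, D}) = ENNReal.ofReal (|mpDet2 (C - A) (D - A)| / 2) :=
    mp_volume_triangle2 A C D
  have hs1 : convexHull ℝ {A, C, B} ⊆ convexHull ℝ {A, B, C, D} :=
    convexHull_mono (by intro x; simp only [Set.mem_insert_iff, Set.mem_singleton_iff]; tauto)
  have hs2 : convexHull ℝ {A, C, D} ⊆ convexHull ℝ {A, B, C, D} :=
    convexHull_mono (by intro x; simp only [Set.mem_insert_iff, Set.mem_singleton_iff]; tauto)
  rcases le_or_gt 0 (mpDet2 (C - A) (B - A) * mpDet2 (C - A) (D - A)) with hsame | hopp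
  · have hle := mp_abs_sub_le_max hsame
    rw [← hdet] at hle
    rcases le_total |mpDet2 (C - A) (B - A)| |mpDet2 (C - A) (D - A)| with h | h
    · rw [max_eq_right h] at hle
      calc ENNReal.ofReal (|mpDet2 (C - A) (D - B)| / 2)
          ≤ ENNReal.ofReal (|mpDet2 (C - A) (D - A)| / 2) :=
            ENNReal.ofReal_le_ofReal (by linarith)
        _ = volume (convexHull ℝ {A, C, D}) := hT2.symm
        _ ≤ _ := measure_mono hs2
    · rw [max_eq_left h] at hle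
      calc ENNReal.ofReal (|mpDet2 (C - A) (D - B)| / 2)
          ≤ ENNReal.ofReal (|mpDet2 (C - A) (B - A)| / 2) :=
            ENNReal.ofReal_le_ofReal (by linarith)
        _ = volume (convexHull ℝ {A, C, B}) := hT1.symm
        _ ≤ _ := measure_mono hs1
  · have hinter : volume (convexHull ℝ {A, C, B} ∩ convexHull ℝ {A, C, D}) = 0 := by
      apply measure_mono_null (t := convexHull ℝ {A, C, C})
      · rintro x ⟨hx1, hx2⟩
        rw [mem_triangle_iff] at hx1 hx2 ⊢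
        obtain ⟨s, t, hs, ht, hst, rfl⟩ := hx1
        obtain ⟨s', t', hs', ht', hst', h⟩ := hx2
        have e1 : mpDet2 (C - A) (s • (C - A) + t • (B - A)) = t * mpDet2 (C - A) (B - A) := by
          simp only [mpDet2, PiLp.sub_apply, PiLp.add_apply, PiLp.smul_apply, smul_eq_mul]; ring
        have e2 : mpDet2 (C - A) (s' • (C - A) + t' • (D - A)) = t' * mpDet2 (C - A) (D - A) := by
          simp only [mpDet2, PiLp.sub_apply, PiLp.add_apply, PiLp.smul_apply, smul_eq_mul]; ring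
        have e3 : s • (C - A) + t • (B - A) = s' • (C - A) + t' • (D - A) := by
          have : (A + s • (C - A) + t • (B - A)) - A = (A + s' • (C - A) + t' • (D - A)) - A := by
            rw [h]
          rw [add_assoc, add_assoc, add_sub_cancel_left, add_sub_cancel_left] at this
          exact this
        have e4 : t * mpDet2 (C - A) (B - A) = t' * mpDet2 (C - A) (D - A) := by
          rw [← e1, ← e2, e3]
        have ht0 : t = 0 := by
          by_contra hne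
          have htpos : 0 < t := lt_of_le_of_ne ht (Ne.symm hne)
          have h1 : t * (mpDet2 (C - A) (B - A) * mpDet2 (C - A) (D - A)) < 0 :=
            mul_neg_of_pos_of_neg htpos hopp
          have h2 : t * (mpDet2 (C - A) (B - A) * mpDet2 (C - A) (D - A)) =
              t' * mpDet2 (C - A) (D - A) ^ 2 := by
            rw [← mul_assoc, e4]; ring
          have h3 : 0 ≤ t' * mpDet2 (C - A) (D - A) ^ 2 := by positivity
          linarith
        refine ⟨s, 0, hs, le_refl 0, by linarith, ?_⟩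
        rw [ht0]; simp
      · rw [mp_volume_triangle2]
        simp [mpDet2]
        ring_nf
        simp
    have hunion := measure_union_add_inter (μ := volume) (convexHull ℝ {A, C, B})
      (t := convexHull ℝ {A, C, D})
      ((Set.toFinite _).isCompact_convexHull (𝕜 := ℝ)).isClosed.measurableSet
    rw [hinter, add_zero, hT1, hT2] at hunion
    have habs := mp_abs_sub_eq_add hopp
    rw [← hdet] at habs
    calc ENNReal.ofReal (|mpDet2 (C - A) (D - B)| / 2)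
        = ENNReal.ofReal (|mpDet2 (C - A) (B - A)| / 2) + ENNReal.ofReal (|mpDet2 (C - A) (D - A)| / 2) := by
          rw [← ENNReal.ofReal_add (by positivity) (by positivity)]
          congr 1
          rw [habs]; ring
      _ = volume (convexHull ℝ {A, C, B} ∪ convexHull ℝ {A, C, D}) := hunion.symm
      _ ≤ _ := measure_mono (Set.union_subset hs1 hs2)

/-- The triple product `(a × b) · v`. -/
def mpDet3 (a b v : EuclideanSpace ℝ (Fin 3)) : ℝ :=
  (a 1 * b 2 - a 2 * b 1) * v 0 + (a 2 * b 0 - a 0 * b 2) * v 1 + (a 0 * b 1 - a 1 * b 0) * v 2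

section chart
variable {E : Type*} [NormedAddCommGroup E] [InnerProductSpace ℝ E]

theorem mp_chart_inner {v : E} (hv : ‖v‖ = 1) (ι : EuclideanSpace ℝ (Fin 2) →ₗᵢ[ℝ] E)
    (ψ : E →ₗ[ℝ] EuclideanSpace ℝ (Fin 2)) (h1 : ∀ y, ι (ψ y) = y - inner ℝ y v • v) (a b : E) :
    inner ℝ (ψ a) (ψ b) = inner ℝ a b - inner ℝ a v * inner ℝ b v := by
  rw [← ι.inner_map_map, h1, h1]
  simp only [inner_sub_left, inner_sub_right, inner_smul_left, inner_smul_right,
    real_inner_self_eq_norm_sq, hv, conj_trivial]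
  rw [real_inner_comm v b]
  ring

end chart

theorem mp_chart_det2_sq {v : EuclideanSpace ℝ (Fin 3)} (hv : ‖v‖ = 1)
    (ι : EuclideanSpace ℝ (Fin 2) →ₗᵢ[ℝ] EuclideanSpace ℝ (Fin 3))
    (ψ : EuclideanSpace ℝ (Fin 3) →ₗ[ℝ] EuclideanSpace ℝ (Fin 2))
    (h1 : ∀ y, ι (ψ y) = y - inner ℝ y v • v) (a b : EuclideanSpace ℝ (Fin 3)) :
    mpDet2 (ψ a) (ψ b) ^ 2 = mpDet3 a b v ^ 2 := by
  rw [← mp_gram_eq_det2_sq, ← real_inner_self_eq_norm_sq, ← real_inner_self_eq_norm_sq,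
    mp_chart_inner hv ι ψ h1, mp_chart_inner hv ι ψ h1, mp_chart_inner hv ι ψ h1]
  have hv' : v 0 ^ 2 + v 1 ^ 2 + v 2 ^ 2 = 1 := by
    have := EuclideanSpace.norm_sq_eq v
    rw [hv] at this
    simpa [Fin.sum_univ_three] using this.symm
  simp only [PiLp.inner_apply, Fin.sum_univ_three, RCLike.inner_apply, conj_trivial, mpDet3]
  linear_combination (-((a 0 * a 0 + a 1 * a 1 + a 2 * a 2) * (b 0 * b 0 + b 1 * b 1 + b 2 * b 2) -
    (a 0 * b 0 + a 1 * b 1 + a 2 * b 2) ^ 2)) * hv'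

theorem mp_chart_abs_det2 {v : EuclideanSpace ℝ (Fin 3)} (hv : ‖v‖ = 1)
    (ι : EuclideanSpace ℝ (Fin 2) →ₗᵢ[ℝ] EuclideanSpace ℝ (Fin 3))
    (ψ : EuclideanSpace ℝ (Fin 3) →ₗ[ℝ] EuclideanSpace ℝ (Fin 2))
    (h1 : ∀ y, ι (ψ y) = y - inner ℝ y v • v) (a b : EuclideanSpace ℝ (Fin 3)) :
    |mpDet2 (ψ a) (ψ b)| = |mpDet3 a b v| :=
  sq_eq_sq_iff_abs_eq_abs _ _ |>.mp (mp_chart_det2_sq hv ι ψ h1 a b)

/-- Lower bound for the area of a projection of a convex set by a projected inscribed triangle. -/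
theorem mp_proj_area_ge_tri {v : EuclideanSpace ℝ (Fin 3)} (hv : ‖v‖ = 1)
    {S : Set (EuclideanSpace ℝ (Fin 3))} (hS : Convex ℝ S) {A B C : EuclideanSpace ℝ (Fin 3)}
    (hA : A ∈ S) (hB : B ∈ S) (hC : C ∈ S) :
    ENNReal.ofReal (|mpDet3 (B - A) (C - A) v| / 2) ≤
      μHE[2] ((fun y => y - inner ℝ y v • v) '' S) := by
  obtain ⟨ι, ψ, h1, h2, h3⟩ := exists_plane_chart (by simp) v hv
  rw [area_proj_image_eq_volume ι ψ h1, ← mp_chart_abs_det2 hv ι ψ h1, map_sub, map_sub,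
    ← mp_volume_triangle2]
  apply measure_mono
  apply convexHull_min
  · intro x hx
    simp only [Set.mem_insert_iff, Set.mem_singleton_iff] at hx
    rcases hx with rfl | rfl | rfl
    · exact ⟨A, hA, rfl⟩
    · exact ⟨B, hB, rfl⟩
    · exact ⟨C, hC, rfl⟩
  · exact hS.linear_image ψ

/-- Lower bound for the area of a projection of a convex set by a projected inscribed skew
quadrilateral. -/
theorem mp_proj_area_ge_quad {v : EuclideanSpace ℝ (Fin 3)} (hv : ‖v‖ = 1)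
    {S : Set (EuclideanSpace ℝ (Fin 3))} (hS : Convex ℝ S) {A B C D : EuclideanSpace ℝ (Fin 3)}
    (hA : A ∈ S) (hB : B ∈ S) (hC : C ∈ S) (hD : D ∈ S) :
    ENNReal.ofReal (|mpDet3 (C - A) (D - B) v| / 2) ≤
      μHE[2] ((fun y => y - inner ℝ y v • v) '' S) := by
  obtain ⟨ι, ψ, h1, h2, h3⟩ := exists_plane_chart (by simp) v hv
  rw [area_proj_image_eq_volume ι ψ h1, ← mp_chart_abs_det2 hv ι ψ h1, map_sub, map_sub]
  refine le_trans (mp_quad_volume_ge (ψ A) (ψ B) (ψ C) (ψ D)) ?_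
  apply measure_mono
  apply convexHull_min
  · intro x hx
    simp only [Set.mem_insert_iff, Set.mem_singleton_iff] at hx
    rcases hx with rfl | rfl | rfl | rfl
    · exact ⟨A, hA, rfl⟩
    · exact ⟨B, hB, rfl⟩
    · exact ⟨C, hC, rfl⟩
    · exact ⟨D, hD, rfl⟩
  · exact hS.linear_image ψ

/-- The elementary inequality behind the minimal projection area. -/
theorem mp_ineq (x y z : ℝ) (h : x ^ 2 + y ^ 2 + z ^ 2 = 1) :
    Real.sqrt 2 ≤ |Real.sqrt 2 * y - z| ∨ Real.sqrt 2 ≤ |Real.sqrt 2 * y + z| ∨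
    Real.sqrt 2 ≤ |Real.sqrt 2 * x + z| ∨ Real.sqrt 2 ≤ |Real.sqrt 2 * x - z| ∨
    Real.sqrt 2 ≤ 2 * |z| ∨ Real.sqrt 2 ≤ Real.sqrt 2 * |x + y| ∨
    Real.sqrt 2 ≤ Real.sqrt 2 * |x - y| := by
  set r := Real.sqrt 2 with hr
  have hr2 : r ^ 2 = 2 := Real.sq_sqrt (by norm_num)
  have hrpos : 0 < r := Real.sqrt_pos.mpr (by norm_num)
  by_contra hcon
  simp only [not_or, not_le] at hcon
  obtain ⟨h1, h2, h3, h4, h5, h6, h7⟩ := hcon
  rw [abs_lt] at h1 h2 h3 h4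
  have h6' : |x + y| < 1 := by
    by_contra hge
    rw [not_lt] at hge
    nlinarith
  have h7' : |x - y| < 1 := by
    by_contra hge
    rw [not_lt] at hge
    nlinarith
  rw [abs_lt] at h6' h7'
  -- absolute values
  have hX : r * |x| + |z| < r := by
    rcases abs_cases x with ⟨e1, _⟩ | ⟨e1, _⟩ <;> rcases abs_cases z with ⟨e2, _⟩ | ⟨e2, _⟩ <;>
      rw [e1, e2] <;> nlinarith
  have hY : r * |y| + |z| < r := by
    rcases abs_cases y with ⟨e1, _⟩ | ⟨e1, _⟩ <;> rcases abs_cases z with ⟨e2, _⟩ | ⟨e2, _⟩ <;>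
      rw [e1, e2] <;> nlinarith
  have hXY : |x| + |y| < 1 := by
    rcases abs_cases x with ⟨e1, _⟩ | ⟨e1, _⟩ <;> rcases abs_cases y with ⟨e2, _⟩ | ⟨e2, _⟩ <;>
      rw [e1, e2] <;> linarith
  have hsq : |x| ^ 2 + |y| ^ 2 + |z| ^ 2 = 1 := by simpa [sq_abs] using h
  have hX0 := abs_nonneg x
  have hY0 := abs_nonneg y
  have hZ0 := abs_nonneg z
  generalize |x| = X at *
  generalize |y| = Y at *
  generalize |z| = Z at *
  have e1 : 0 ≤ X * (r - Z - r * X) := mul_nonneg hX0 (by linarith)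
  have e2 : 0 ≤ Y * (r - Z - r * Y) := mul_nonneg hY0 (by linarith)
  have e3 : 0 < (r - Z) * (1 - X - Y) := mul_pos (by nlinarith) (by linarith)
  have e4 : r * X ^ 2 + r * Y ^ 2 + r * Z ^ 2 = r := by
    have : r * (X ^ 2 + Y ^ 2 + Z ^ 2) = r * 1 := by rw [hsq]
    linarith
  have e5 : 0 < r * (r - 2 * Z) := mul_pos hrpos (by linarith)
  have e6 : 0 ≤ Z * (1 - r * Z) := mul_nonneg hZ0 (by nlinarith)
  nlinarith

theorem mp_convex_K : Convex ℝ (convexHull ℝ ({!₂[1, 0, 0], !₂[-1, 0, 0], !₂[0, 1, Real.sqrt 2], !₂[0, -1, Real.sqrt 2]} :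
      Set (EuclideanSpace ℝ (Fin 3)))) := convex_convexHull ℝ _

theorem mp_mem_K_1 : (!₂[1, 0, 0] : EuclideanSpace ℝ (Fin 3)) ∈ (convexHull ℝ ({!₂[1, 0, 0], !₂[-1, 0, 0], !₂[0, 1, Real.sqrt 2], !₂[0, -1, Real.sqrt 2]} :
      Set (EuclideanSpace ℝ (Fin 3)))) :=
  subset_convexHull ℝ _ (by simp)
theorem mp_mem_K_2 : (!₂[-1, 0, 0] : EuclideanSpace ℝ (Fin 3)) ∈ (convexHull ℝ ({!₂[1, 0, 0], !₂[-1, 0, 0], !₂[0, 1, Real.sqrt 2], !₂[0, -1, Real.sqrt 2]} :
      Set (EuclideanSpace ℝ (Fin 3)))) :=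
  subset_convexHull ℝ _ (by simp)
theorem mp_mem_K_3 : (!₂[0, 1, Real.sqrt 2] : EuclideanSpace ℝ (Fin 3)) ∈ (convexHull ℝ ({!₂[1, 0, 0], !₂[-1, 0, 0], !₂[0, 1, Real.sqrt 2], !₂[0, -1, Real.sqrt 2]} :
      Set (EuclideanSpace ℝ (Fin 3)))) :=
  subset_convexHull ℝ _ (by simp)
theorem mp_mem_K_4 : (!₂[0, -1, Real.sqrt 2] : EuclideanSpace ℝ (Fin 3)) ∈ (convexHull ℝ ({!₂[1, 0, 0], !₂[-1, 0, 0], !₂[0, 1, Real.sqrt 2], !₂[0, -1, Real.sqrt 2]} :
      Set (EuclideanSpace ℝ (Fin 3)))) :=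
  subset_convexHull ℝ _ (by simp)

/-- S0325 part (1a): every orthogonal projection of the standard tetrahedron has area at least
`√2`. -/
theorem minProj_K (v : EuclideanSpace ℝ (Fin 3)) (hv : ‖v‖ = 1) :
    ENNReal.ofReal (Real.sqrt 2) ≤ μHE[2] ((fun y => y - inner ℝ y v • v) '' (convexHull ℝ ({!₂[1, 0, 0], !₂[-1, 0, 0], !₂[0, 1, Real.sqrt 2], !₂[0, -1, Real.sqrt 2]} :
      Set (EuclideanSpace ℝ (Fin 3))))) := by
  have hv' : v 0 ^ 2 + v 1 ^ 2 + v 2 ^ 2 = 1 := by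
    have := EuclideanSpace.norm_sq_eq v
    rw [hv] at this
    simpa [Fin.sum_univ_three] using this.symm
  have f1 := mp_proj_area_ge_tri hv mp_convex_K mp_mem_K_1 mp_mem_K_2 mp_mem_K_3
  have f2 := mp_proj_area_ge_tri hv mp_convex_K mp_mem_K_1 mp_mem_K_2 mp_mem_K_4
  have f3 := mp_proj_area_ge_tri hv mp_convex_K mp_mem_K_3 mp_mem_K_4 mp_mem_K_1
  have f4 := mp_proj_area_ge_tri hv mp_convex_K mp_mem_K_3 mp_mem_K_4 mp_mem_K_2
  have q1 := mp_proj_area_ge_quad hv mp_convex_K mp_mem_K_1 mp_mem_K_3 mp_mem_K_2 mp_mem_K_4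
  have q2 := mp_proj_area_ge_quad hv mp_convex_K mp_mem_K_1 mp_mem_K_2 mp_mem_K_3 mp_mem_K_4
  have q3 := mp_proj_area_ge_quad hv mp_convex_K mp_mem_K_1 mp_mem_K_2 mp_mem_K_4 mp_mem_K_3
  have e1 : |mpDet3 (!₂[-1, 0, 0] - !₂[1, 0, 0]) (!₂[0, 1, Real.sqrt 2] - !₂[1, 0, 0]) v| / 2 =
      |Real.sqrt 2 * v 1 - v 2| := by
    have : mpDet3 (!₂[-1, 0, 0] - !₂[1, 0, 0]) (!₂[0, 1, Real.sqrt 2] - !₂[1, 0, 0]) v =
        2 * (Real.sqrt 2 * v 1 - v 2) := by
      simp only [mpDet3, PiLp.sub_apply, Matrix.cons_val_zero, Matrix.cons_val_one, Matrix.cons_val]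
      ring
    rw [this, abs_mul]; simp
  have e2 : |mpDet3 (!₂[-1, 0, 0] - !₂[1, 0, 0]) (!₂[0, -1, Real.sqrt 2] - !₂[1, 0, 0]) v| / 2 =
      |Real.sqrt 2 * v 1 + v 2| := by
    have : mpDet3 (!₂[-1, 0, 0] - !₂[1, 0, 0]) (!₂[0, -1, Real.sqrt 2] - !₂[1, 0, 0]) v =
        2 * (Real.sqrt 2 * v 1 + v 2) := by
      simp only [mpDet3, PiLp.sub_apply, Matrix.cons_val_zero, Matrix.cons_val_one, Matrix.cons_val]
      ring
    rw [this, abs_mul]; simp
  have e3 : |mpDet3 (!₂[0, -1, Real.sqrt 2] - !₂[0, 1, Real.sqrt 2])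
      (!₂[1, 0, 0] - !₂[0, 1, Real.sqrt 2]) v| / 2 = |Real.sqrt 2 * v 0 + v 2| := by
    have : mpDet3 (!₂[0, -1, Real.sqrt 2] - !₂[0, 1, Real.sqrt 2])
        (!₂[1, 0, 0] - !₂[0, 1, Real.sqrt 2]) v = 2 * (Real.sqrt 2 * v 0 + v 2) := by
      simp only [mpDet3, PiLp.sub_apply, Matrix.cons_val_zero, Matrix.cons_val_one, Matrix.cons_val]
      ring
    rw [this, abs_mul]; simp
  have e4 : |mpDet3 (!₂[0, -1, Real.sqrt 2] - !₂[0, 1, Real.sqrt 2])
      (!₂[-1, 0, 0] - !₂[0, 1, Real.sqrt 2]) v| / 2 = |Real.sqrt 2 * v 0 - v 2| := by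
    have : mpDet3 (!₂[0, -1, Real.sqrt 2] - !₂[0, 1, Real.sqrt 2])
        (!₂[-1, 0, 0] - !₂[0, 1, Real.sqrt 2]) v = 2 * (Real.sqrt 2 * v 0 - v 2) := by
      simp only [mpDet3, PiLp.sub_apply, Matrix.cons_val_zero, Matrix.cons_val_one, Matrix.cons_val]
      ring
    rw [this, abs_mul]; simp
  have e5 : |mpDet3 (!₂[-1, 0, 0] - !₂[1, 0, 0])
      (!₂[0, -1, Real.sqrt 2] - !₂[0, 1, Real.sqrt 2]) v| / 2 = 2 * |v 2| := by
    have : mpDet3 (!₂[-1, 0, 0] - !₂[1, 0, 0])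
        (!₂[0, -1, Real.sqrt 2] - !₂[0, 1, Real.sqrt 2]) v = 4 * v 2 := by
      simp only [mpDet3, PiLp.sub_apply, Matrix.cons_val_zero, Matrix.cons_val_one, Matrix.cons_val]
      ring
    rw [this, abs_mul]; norm_num; ring
  have e6 : |mpDet3 (!₂[0, 1, Real.sqrt 2] - !₂[1, 0, 0])
      (!₂[0, -1, Real.sqrt 2] - !₂[-1, 0, 0]) v| / 2 = Real.sqrt 2 * |v 0 + v 1| := by
    have : mpDet3 (!₂[0, 1, Real.sqrt 2] - !₂[1, 0, 0])
        (!₂[0, -1, Real.sqrt 2] - !₂[-1, 0, 0]) v = 2 * (Real.sqrt 2 * (v 0 + v 1)) := by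
      simp only [mpDet3, PiLp.sub_apply, Matrix.cons_val_zero, Matrix.cons_val_one, Matrix.cons_val]
      ring
    rw [this, abs_mul, abs_mul, abs_of_nonneg (Real.sqrt_nonneg 2)]; simp
  have e7 : |mpDet3 (!₂[0, -1, Real.sqrt 2] - !₂[1, 0, 0])
      (!₂[0, 1, Real.sqrt 2] - !₂[-1, 0, 0]) v| / 2 = Real.sqrt 2 * |v 0 - v 1| := by
    have : mpDet3 (!₂[0, -1, Real.sqrt 2] - !₂[1, 0, 0])
        (!₂[0, 1, Real.sqrt 2] - !₂[-1, 0, 0]) v = -(2 * (Real.sqrt 2 * (v 0 - v 1))) := by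
      simp only [mpDet3, PiLp.sub_apply, Matrix.cons_val_zero, Matrix.cons_val_one, Matrix.cons_val]
      ring
    rw [this, abs_neg, abs_mul, abs_mul, abs_of_nonneg (Real.sqrt_nonneg 2)]; simp
  rw [e1] at f1
  rw [e2] at f2
  rw [e3] at f3
  rw [e4] at f4
  rw [e5] at q1
  rw [e6] at q2
  rw [e7] at q3
  rcases mp_ineq (v 0) (v 1) (v 2) hv' with h | h | h | h | h | h | h
  · exact le_trans (ENNReal.ofReal_le_ofReal h) f1
  · exact le_trans (ENNReal.ofReal_le_ofReal h) f2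
  · exact le_trans (ENNReal.ofReal_le_ofReal h) f3
  · exact le_trans (ENNReal.ofReal_le_ofReal h) f4
  · exact le_trans (ENNReal.ofReal_le_ofReal h) q1
  · exact le_trans (ENNReal.ofReal_le_ofReal h) q2
  · exact le_trans (ENNReal.ofReal_le_ofReal h) q3

/-- S0325 part (1b): the projection of the standard tetrahedron along an edge has area `√2`. -/
theorem minProj_K_eq : ∃ v : EuclideanSpace ℝ (Fin 3), ‖v‖ = 1 ∧
    μHE[2] ((fun y => y - inner ℝ y v • v) '' (convexHull ℝ ({!₂[1, 0, 0], !₂[-1, 0, 0], !₂[0, 1, Real.sqrt 2], !₂[0, -1, Real.sqrt 2]} :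
      Set (EuclideanSpace ℝ (Fin 3))))) = ENNReal.ofReal (Real.sqrt 2) := by
  refine ⟨!₂[1, 0, 0], ?_, ?_⟩
  · simp [EuclideanSpace.norm_eq, Fin.sum_univ_three]
  · have h1 : projL (!₂[1, 0, 0] : EuclideanSpace ℝ (Fin 3)) !₂[1, 0, 0] = 0 := by
      ext i
      fin_cases i <;> simp [EuclideanSpace.norm_eq, Fin.sum_univ_three]
    have h2 : projL (!₂[1, 0, 0] : EuclideanSpace ℝ (Fin 3)) !₂[-1, 0, 0] = 0 := by
      ext i
      fin_cases i <;> simp [PiLp.inner_apply, Fin.sum_univ_three]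
    have h3 : projL (!₂[1, 0, 0] : EuclideanSpace ℝ (Fin 3)) !₂[0, 1, Real.sqrt 2] =
        !₂[0, 1, Real.sqrt 2] := by
      ext i
      fin_cases i <;> simp [PiLp.inner_apply, Fin.sum_univ_three]
    have h4 : projL (!₂[1, 0, 0] : EuclideanSpace ℝ (Fin 3)) !₂[0, -1, Real.sqrt 2] =
        !₂[0, -1, Real.sqrt 2] := by
      ext i
      fin_cases i <;> simp [PiLp.inner_apply, Fin.sum_univ_three]
    have himg : (fun y => y - inner ℝ y (!₂[1, 0, 0] : EuclideanSpace ℝ (Fin 3)) •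
        (!₂[1, 0, 0] : EuclideanSpace ℝ (Fin 3))) '' (convexHull ℝ ({!₂[1, 0, 0], !₂[-1, 0, 0], !₂[0, 1, Real.sqrt 2], !₂[0, -1, Real.sqrt 2]} :
      Set (EuclideanSpace ℝ (Fin 3)))) =
        convexHull ℝ {0, !₂[0, 1, Real.sqrt 2], !₂[0, -1, Real.sqrt 2]} := by
      rw [← coe_projL, LinearMap.image_convexHull]
      congr 1
      simp only [Set.image_insert_eq, Set.image_singleton, h1, h2, h3, h4]
      simp
    rw [himg, area_triangle]
    congr 1
    have e1 : ‖(!₂[0, 1, Real.sqrt 2] : EuclideanSpace ℝ (Fin 3)) - 0‖ ^ 2 = 3 := by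
      rw [EuclideanSpace.norm_sq_eq]
      simp [Fin.sum_univ_three]
      norm_num
    have e2 : ‖(!₂[0, -1, Real.sqrt 2] : EuclideanSpace ℝ (Fin 3)) - 0‖ ^ 2 = 3 := by
      rw [EuclideanSpace.norm_sq_eq]
      simp [Fin.sum_univ_three]
      norm_num
    have e3 : inner ℝ ((!₂[0, 1, Real.sqrt 2] : EuclideanSpace ℝ (Fin 3)) - 0)
        ((!₂[0, -1, Real.sqrt 2] : EuclideanSpace ℝ (Fin 3)) - 0) = 1 := by
      simp [PiLp.inner_apply, Fin.sum_univ_three]
      norm_num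
    rw [e1, e2, e3]
    have : Real.sqrt (3 * 3 - 1 ^ 2) = 2 * Real.sqrt 2 := by
      rw [show (3:ℝ) * 3 - 1 ^ 2 = 2 ^ 2 * 2 by norm_num, Real.sqrt_mul (by norm_num),
        Real.sqrt_sq (by norm_num)]
    rw [this]
    ring

/-- The orthogonal projection of a compact set of `ℝ³` onto a plane `v^⊥` has finite area. -/
theorem proj_compact_ne_top (v : EuclideanSpace ℝ (Fin 3)) (hv : ‖v‖ = 1)
    {S : Set (EuclideanSpace ℝ (Fin 3))} (hS : IsCompact S) :
    μHE[2] ((fun y => y - inner ℝ y v • v) '' S) ≠ ⊤ := by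
  obtain ⟨ι, ψ, h1, h2, h3⟩ := exists_plane_chart (by simp) v hv
  rw [area_proj_image_eq_volume ι ψ h1]
  exact (hS.image (LinearMap.continuous_of_finiteDimensional ψ)).measure_lt_top.ne

theorem mp_isCompact_K : IsCompact (convexHull ℝ ({!₂[1, 0, 0], !₂[-1, 0, 0], !₂[0, 1, Real.sqrt 2], !₂[0, -1, Real.sqrt 2]} :
      Set (EuclideanSpace ℝ (Fin 3)))) :=
  (Set.toFinite _).isCompact_convexHull (𝕜 := ℝ)

/-- Every projection of the standard tetrahedron has finite area. -/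
theorem proj_K_ne_top (v : EuclideanSpace ℝ (Fin 3)) (hv : ‖v‖ = 1) :
    μHE[2] ((fun y => y - inner ℝ y v • v) '' (convexHull ℝ ({!₂[1, 0, 0], !₂[-1, 0, 0], !₂[0, 1, Real.sqrt 2], !₂[0, -1, Real.sqrt 2]} :
      Set (EuclideanSpace ℝ (Fin 3))))) ≠ ⊤ :=
  proj_compact_ne_top v hv mp_isCompact_K

/-- Real-valued form of `minProj_K`. -/
theorem minProj_K_toReal (v : EuclideanSpace ℝ (Fin 3)) (hv : ‖v‖ = 1) :
    Real.sqrt 2 ≤ (μHE[2] ((fun y => y - inner ℝ y v • v) '' (convexHull ℝ ({!₂[1, 0, 0], !₂[-1, 0, 0], !₂[0, 1, Real.sqrt 2], !₂[0, -1, Real.sqrt 2]} :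
      Set (EuclideanSpace ℝ (Fin 3)))))).toReal := by
  have h := ENNReal.toReal_mono (proj_K_ne_top v hv) (minProj_K v hv)
  rwa [ENNReal.toReal_ofReal (Real.sqrt_nonneg 2)] at h


end Crest.Agent.R211
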