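/-
Row 211 (S0324–S0329): padding of a triangle-cylinder cover of the standard tetrahedron to the
exact index set and the exact total area demanded by part (2) of S0325.  Owner: helper20.
-/
import Mathlib
import Crest.Agent.R211_Area

set_option autoImplicit false
open MeasureTheory
open scoped ENNReal

namespace Crest.Agent.R211

/-- The degenerate triangle `{0,0,0}` has area zero. -/
theorem area_triangle_zero :
    (μHE[2] (convexHull ℝ ({0, 0, 0} : Set (EuclideanSpace ℝ (Fin 3))))).toReal = 0 := by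
  rw [area_triangle]
  simp

/-- The right triangle with legs `a • e₀` and `e₁` has area `a / 2`. -/
theorem area_triangle_dummy (a : ℝ) (ha : 0 ≤ a) :
    (μHE[2] (convexHull ℝ ({0, a • EuclideanSpace.single (0 : Fin 3) (1 : ℝ),
      EuclideanSpace.single (1 : Fin 3) (1 : ℝ)} : Set (EuclideanSpace ℝ (Fin 3))))).toReal
      = a / 2 := by
  rw [area_triangle]
  have h1 : ‖a • EuclideanSpace.single (0 : Fin 3) (1 : ℝ) - 0‖ ^ 2 = a ^ 2 := by
    rw [sub_zero, norm_smul, mul_pow]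
    simp
  have h2 : ‖EuclideanSpace.single (1 : Fin 3) (1 : ℝ) - 0‖ ^ 2 = 1 := by
    simp
  have h3 : inner ℝ (a • EuclideanSpace.single (0 : Fin 3) (1 : ℝ) - 0)
      (EuclideanSpace.single (1 : Fin 3) (1 : ℝ) - 0) = 0 := by
    rw [sub_zero, sub_zero, inner_smul_left, EuclideanSpace.inner_single_left]
    simp
  rw [h1, h2, h3]
  have h4 : Real.sqrt (a ^ 2 * 1 - 0 ^ 2) = a := by
    rw [mul_one]
    simp [Real.sqrt_sq ha]
  rw [h4, ENNReal.toReal_ofReal (by positivity)]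

/-- **Padding.** A cover of the standard tetrahedron by `m ≤ 15999999` triangle cylinders of
total area at most `√2 (1/2 - 13/6000 (1/2000)²)` yields, for every `0 < ε ≤ 1/2000`, a cover by
exactly `2 ⌈2/ε²⌉` triangle cylinders of total area exactly `√2 (1/2 - 13/6000 ε²)`: keep the given
cylinders, add one right triangle of the missing area in the plane `e₂^⊥`, and fill the remaining
indices with the degenerate triangle `{0}`. -/
theorem part2_of_cover (m : ℕ) (hm : m + 1 ≤ 16000000)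
    (u p q r : Fin m → EuclideanSpace ℝ (Fin 3))
    (hu : ∀ i, ‖u i‖ = 1)
    (hperp : ∀ i, inner ℝ (p i) (u i) = 0 ∧ inner ℝ (q i) (u i) = 0 ∧ inner ℝ (r i) (u i) = 0)
    (hcover : convexHull ℝ {!₂[1, 0, 0], !₂[-1, 0, 0], !₂[0, 1, Real.sqrt 2], !₂[0, -1, Real.sqrt 2]} ⊆
      ⋃ i, {x : EuclideanSpace ℝ (Fin 3) | ∃ b ∈ convexHull ℝ {p i, q i, r i}, ∃ t : ℝ, x = b + t • u i})
    (harea : ∑ i, (μHE[2] (convexHull ℝ ({p i, q i, r i} : Set (EuclideanSpace ℝ (Fin 3))))).toReal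
      ≤ Real.sqrt 2 * (1 / 2 - 13 / 6000 * (1 / 2000) ^ 2)) :
    ∀ ε : ℝ, 0 < ε → ε ≤ 1 / 2000 →
      ∃ (u p q r : Fin (2 * ⌈2 / ε ^ 2⌉₊) → EuclideanSpace ℝ (Fin 3)),
        (∀ i, ‖u i‖ = 1) ∧
        (∀ i, inner ℝ (p i) (u i) = 0 ∧ inner ℝ (q i) (u i) = 0 ∧ inner ℝ (r i) (u i) = 0) ∧
        convexHull ℝ {!₂[1, 0, 0], !₂[-1, 0, 0], !₂[0, 1, Real.sqrt 2], !₂[0, -1, Real.sqrt 2]} ⊆
          ⋃ i, {x : EuclideanSpace ℝ (Fin 3) | ∃ b ∈ convexHull ℝ {p i, q i, r i}, ∃ t : ℝ, x = b + t • u i} ∧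
        abs ((∑ i, (μHE[2] (convexHull ℝ ({p i, q i, r i} : Set (EuclideanSpace ℝ (Fin 3))))).toReal) / Real.sqrt 2 -
            (1 / 2 - 13 / 6000 * ε ^ 2)) ≤ 2 * ε ^ 4 := by
  intro ε hε hε'
  obtain ⟨M, hM⟩ : ∃ M : ℕ, M = 2 * ⌈2 / ε ^ 2⌉₊ := ⟨_, rfl⟩
  rw [← hM]
  have hs2 : 0 < Real.sqrt 2 := Real.sqrt_pos.2 (by norm_num)
  -- the index set is large enough
  have hmM : m + 1 ≤ M := by
    have h1 : (8000000 : ℝ) ≤ 2 / ε ^ 2 := by
      rw [le_div_iff₀ (by positivity)]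
      have : ε ^ 2 ≤ (1 / 2000) ^ 2 := pow_le_pow_left₀ hε.le hε' 2
      nlinarith
    have h2 : (8000000 : ℝ) ≤ (⌈2 / ε ^ 2⌉₊ : ℝ) := h1.trans (Nat.le_ceil _)
    have h3 : 8000000 ≤ ⌈2 / ε ^ 2⌉₊ := by exact_mod_cast h2
    omega
  -- the missing area
  obtain ⟨A, hA⟩ : ∃ A : ℝ, A = ∑ i, (μHE[2] (convexHull ℝ ({p i, q i, r i} :
      Set (EuclideanSpace ℝ (Fin 3))))).toReal := ⟨_, rfl⟩
  rw [← hA] at harea
  obtain ⟨a, ha⟩ : ∃ a : ℝ, a = 2 * (Real.sqrt 2 * (1 / 2 - 13 / 6000 * ε ^ 2) - A) := ⟨_, rfl⟩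
  have ha0 : 0 ≤ a := by
    have h1 : ε ^ 2 ≤ (1 / 2000) ^ 2 := pow_le_pow_left₀ hε.le hε' 2
    have h2 : Real.sqrt 2 * (1 / 2 - 13 / 6000 * (1 / 2000) ^ 2)
        ≤ Real.sqrt 2 * (1 / 2 - 13 / 6000 * ε ^ 2) :=
      mul_le_mul_of_nonneg_left (by linarith) hs2.le
    rw [ha]; linarith
  -- the padded family, indexed by natural numbers
  let U : ℕ → EuclideanSpace ℝ (Fin 3) := fun j =>
    if h : j < m then u ⟨j, h⟩ else EuclideanSpace.single (2 : Fin 3) (1 : ℝ)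
  let P : ℕ → EuclideanSpace ℝ (Fin 3) := fun j => if h : j < m then p ⟨j, h⟩ else 0
  let Q : ℕ → EuclideanSpace ℝ (Fin 3) := fun j =>
    if h : j < m then q ⟨j, h⟩ else
      if j = m then a • EuclideanSpace.single (0 : Fin 3) (1 : ℝ) else 0
  let R : ℕ → EuclideanSpace ℝ (Fin 3) := fun j =>
    if h : j < m then r ⟨j, h⟩ else
      if j = m then EuclideanSpace.single (1 : Fin 3) (1 : ℝ) else 0
  have hUlt : ∀ (j : ℕ) (h : j < m), U j = u ⟨j, h⟩ := fun j h => dif_pos h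
  have hPlt : ∀ (j : ℕ) (h : j < m), P j = p ⟨j, h⟩ := fun j h => dif_pos h
  have hQlt : ∀ (j : ℕ) (h : j < m), Q j = q ⟨j, h⟩ := fun j h => dif_pos h
  have hRlt : ∀ (j : ℕ) (h : j < m), R j = r ⟨j, h⟩ := fun j h => dif_pos h
  have hUge : ∀ j : ℕ, ¬ j < m → U j = EuclideanSpace.single (2 : Fin 3) (1 : ℝ) :=
    fun j h => dif_neg h
  have hPge : ∀ j : ℕ, ¬ j < m → P j = 0 := fun j h => dif_neg h
  have hQm : Q m = a • EuclideanSpace.single (0 : Fin 3) (1 : ℝ) := by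
    simp only [Q, lt_irrefl, dif_neg, not_false_eq_true, if_true]
  have hRm : R m = EuclideanSpace.single (1 : Fin 3) (1 : ℝ) := by
    simp only [R, lt_irrefl, dif_neg, not_false_eq_true, if_true]
  have hQgt : ∀ j : ℕ, m < j → Q j = 0 := by
    intro j h
    simp only [Q, dif_neg (not_lt.2 h.le), if_neg h.ne']
  have hRgt : ∀ j : ℕ, m < j → R j = 0 := by
    intro j h
    simp only [R, dif_neg (not_lt.2 h.le), if_neg h.ne']
  refine ⟨fun j => U j.val, fun j => P j.val, fun j => Q j.val, fun j => R j.val, ?_, ?_, ?_, ?_⟩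
  · -- unit directions
    intro j
    by_cases h : j.val < m
    · show ‖U j.val‖ = 1
      rw [hUlt _ h]; exact hu _
    · show ‖U j.val‖ = 1
      rw [hUge _ h]; simp
  · -- bases in the orthogonal planes
    intro j
    show inner ℝ (P j.val) (U j.val) = 0 ∧ inner ℝ (Q j.val) (U j.val) = 0 ∧
      inner ℝ (R j.val) (U j.val) = 0
    by_cases h : j.val < m
    · rw [hUlt _ h, hPlt _ h, hQlt _ h, hRlt _ h]; exact hperp _
    · rw [hUge _ h, hPge _ h]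
      rcases Nat.lt_or_ge m j.val with h' | h'
      · rw [hQgt _ h', hRgt _ h']
        simp
      · have hjm : j.val = m := le_antisymm h' (not_lt.1 h)
        rw [hjm, hQm, hRm]
        refine ⟨by simp, ?_, ?_⟩
        · rw [inner_smul_left, EuclideanSpace.inner_single_left]; simp
        · rw [EuclideanSpace.inner_single_left]; simp
  · -- the cover
    intro x hx
    obtain ⟨i, hi⟩ := Set.mem_iUnion.1 (hcover hx)
    refine Set.mem_iUnion.2 ⟨⟨i.val, lt_of_lt_of_le i.isLt (by omega)⟩, ?_⟩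
    show ∃ b ∈ convexHull ℝ {P i.val, Q i.val, R i.val}, ∃ t : ℝ, x = b + t • U i.val
    rw [hUlt _ i.isLt, hPlt _ i.isLt, hQlt _ i.isLt, hRlt _ i.isLt]
    exact hi
  · -- the total area
    have hsum : ∑ j : Fin M, (μHE[2] (convexHull ℝ ({P j.val, Q j.val, R j.val} :
        Set (EuclideanSpace ℝ (Fin 3))))).toReal = A + a / 2 := by
      rw [Fin.sum_univ_eq_sum_range (fun j => (μHE[2] (convexHull ℝ ({P j, Q j, R j} :
        Set (EuclideanSpace ℝ (Fin 3))))).toReal) M, ← Finset.sum_range_add_sum_Ico _ hmM,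
        Finset.sum_range_succ]
      have e1 : ∑ j ∈ Finset.range m, (μHE[2] (convexHull ℝ ({P j, Q j, R j} :
          Set (EuclideanSpace ℝ (Fin 3))))).toReal = A := by
        rw [hA, Finset.sum_range]
        refine Finset.sum_congr rfl (fun i _ => ?_)
        rw [hPlt _ i.isLt, hQlt _ i.isLt, hRlt _ i.isLt]
      have e2 : (μHE[2] (convexHull ℝ ({P m, Q m, R m} :
          Set (EuclideanSpace ℝ (Fin 3))))).toReal = a / 2 := by
        rw [hPge _ (lt_irrefl m), hQm, hRm]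
        exact area_triangle_dummy a ha0
      have e3 : ∑ j ∈ Finset.Ico (m + 1) M, (μHE[2] (convexHull ℝ ({P j, Q j, R j} :
          Set (EuclideanSpace ℝ (Fin 3))))).toReal = 0 := by
        refine Finset.sum_eq_zero (fun j hj => ?_)
        have hj' : m < j := (Finset.mem_Ico.1 hj).1
        rw [hPge _ (not_lt.2 hj'.le), hQgt _ hj', hRgt _ hj']
        exact area_triangle_zero
      rw [e1, e2, e3, add_zero]
    rw [hsum]
    have h5 : (A + a / 2) / Real.sqrt 2 = 1 / 2 - 13 / 6000 * ε ^ 2 := by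
      rw [ha]; field_simp; ring
    rw [h5, sub_self, abs_zero]
    positivity


/-- **Padding, Gram form.** The same with the areas of the given triangles written in Gram form
(`√(‖q-p‖²‖r-p‖² - ⟪q-p,r-p⟫²)/2`), as produced by the explicit fan construction. -/
theorem part2_of_gram_cover (m : ℕ) (hm : m + 1 ≤ 16000000)
    (u p q r : Fin m → EuclideanSpace ℝ (Fin 3))
    (hu : ∀ i, ‖u i‖ = 1)
    (hperp : ∀ i, inner ℝ (p i) (u i) = 0 ∧ inner ℝ (q i) (u i) = 0 ∧ inner ℝ (r i) (u i) = 0)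
    (hcover : convexHull ℝ {!₂[1, 0, 0], !₂[-1, 0, 0], !₂[0, 1, Real.sqrt 2], !₂[0, -1, Real.sqrt 2]} ⊆
      ⋃ i, {x : EuclideanSpace ℝ (Fin 3) | ∃ b ∈ convexHull ℝ {p i, q i, r i}, ∃ t : ℝ, x = b + t • u i})
    (harea : ∑ i, Real.sqrt (‖q i - p i‖ ^ 2 * ‖r i - p i‖ ^ 2 - inner ℝ (q i - p i) (r i - p i) ^ 2) / 2
      ≤ Real.sqrt 2 * (1 / 2 - 13 / 6000 * (1 / 2000) ^ 2)) :
    ∀ ε : ℝ, 0 < ε → ε ≤ 1 / 2000 →
      ∃ (u p q r : Fin (2 * ⌈2 / ε ^ 2⌉₊) → EuclideanSpace ℝ (Fin 3)),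
        (∀ i, ‖u i‖ = 1) ∧
        (∀ i, inner ℝ (p i) (u i) = 0 ∧ inner ℝ (q i) (u i) = 0 ∧ inner ℝ (r i) (u i) = 0) ∧
        convexHull ℝ {!₂[1, 0, 0], !₂[-1, 0, 0], !₂[0, 1, Real.sqrt 2], !₂[0, -1, Real.sqrt 2]} ⊆
          ⋃ i, {x : EuclideanSpace ℝ (Fin 3) | ∃ b ∈ convexHull ℝ {p i, q i, r i}, ∃ t : ℝ, x = b + t • u i} ∧
        abs ((∑ i, (μHE[2] (convexHull ℝ ({p i, q i, r i} : Set (EuclideanSpace ℝ (Fin 3))))).toReal) / Real.sqrt 2 -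
            (1 / 2 - 13 / 6000 * ε ^ 2)) ≤ 2 * ε ^ 4 := by
  refine part2_of_cover m hm u p q r hu hperp hcover ?_
  have h : ∀ i, (μHE[2] (convexHull ℝ ({p i, q i, r i} : Set (EuclideanSpace ℝ (Fin 3))))).toReal
      = Real.sqrt (‖q i - p i‖ ^ 2 * ‖r i - p i‖ ^ 2 - inner ℝ (q i - p i) (r i - p i) ^ 2) / 2 := by
    intro i
    rw [area_triangle, ENNReal.toReal_ofReal (by positivity)]
  simp only [h]
  exact harea

/-- Assembly of statement S0325 from its part (1) and an explicit cover (Gram-form areas) by at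
most `15999999` triangle cylinders of total area at most `√2 (1/2 - 13/6000 (1/2000)²)`. -/
theorem s0325_of_parts
    (h1 : (∀ v : EuclideanSpace ℝ (Fin 3), ‖v‖ = 1 →
        ENNReal.ofReal (Real.sqrt 2) ≤ μHE[2] ((fun y => y - inner ℝ y v • v) '' convexHull ℝ {!₂[1, 0, 0], !₂[-1, 0, 0], !₂[0, 1, Real.sqrt 2], !₂[0, -1, Real.sqrt 2]})) ∧
      ∃ v : EuclideanSpace ℝ (Fin 3), ‖v‖ = 1 ∧
        μHE[2] ((fun y => y - inner ℝ y v • v) '' convexHull ℝ {!₂[1, 0, 0], !₂[-1, 0, 0], !₂[0, 1, Real.sqrt 2], !₂[0, -1, Real.sqrt 2]}) = ENNReal.ofReal (Real.sqrt 2))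
    (h2 : ∃ (m : ℕ) (u p q r : Fin m → EuclideanSpace ℝ (Fin 3)), m + 1 ≤ 16000000 ∧
      (∀ i, ‖u i‖ = 1) ∧
      (∀ i, inner ℝ (p i) (u i) = 0 ∧ inner ℝ (q i) (u i) = 0 ∧ inner ℝ (r i) (u i) = 0) ∧
      convexHull ℝ {!₂[1, 0, 0], !₂[-1, 0, 0], !₂[0, 1, Real.sqrt 2], !₂[0, -1, Real.sqrt 2]} ⊆
        ⋃ i, {x : EuclideanSpace ℝ (Fin 3) | ∃ b ∈ convexHull ℝ {p i, q i, r i}, ∃ t : ℝ, x = b + t • u i} ∧
      ∑ i, Real.sqrt (‖q i - p i‖ ^ 2 * ‖r i - p i‖ ^ 2 - inner ℝ (q i - p i) (r i - p i) ^ 2) / 2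
        ≤ Real.sqrt 2 * (1 / 2 - 13 / 6000 * (1 / 2000) ^ 2)) :
    ((∀ v : EuclideanSpace ℝ (Fin 3), ‖v‖ = 1 →
        ENNReal.ofReal (Real.sqrt 2) ≤ μHE[2] ((fun y => y - inner ℝ y v • v) '' convexHull ℝ {!₂[1, 0, 0], !₂[-1, 0, 0], !₂[0, 1, Real.sqrt 2], !₂[0, -1, Real.sqrt 2]})) ∧
      ∃ v : EuclideanSpace ℝ (Fin 3), ‖v‖ = 1 ∧
        μHE[2] ((fun y => y - inner ℝ y v • v) '' convexHull ℝ {!₂[1, 0, 0], !₂[-1, 0, 0], !₂[0, 1, Real.sqrt 2], !₂[0, -1, Real.sqrt 2]}) = ENNReal.ofReal (Real.sqrt 2)) ∧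
    ∀ ε : ℝ, 0 < ε → ε ≤ 1 / 2000 →
      ∃ (u p q r : Fin (2 * ⌈2 / ε ^ 2⌉₊) → EuclideanSpace ℝ (Fin 3)),
        (∀ i, ‖u i‖ = 1) ∧
        (∀ i, inner ℝ (p i) (u i) = 0 ∧ inner ℝ (q i) (u i) = 0 ∧ inner ℝ (r i) (u i) = 0) ∧
        convexHull ℝ {!₂[1, 0, 0], !₂[-1, 0, 0], !₂[0, 1, Real.sqrt 2], !₂[0, -1, Real.sqrt 2]} ⊆
          ⋃ i, {x : EuclideanSpace ℝ (Fin 3) | ∃ b ∈ convexHull ℝ {p i, q i, r i}, ∃ t : ℝ, x = b + t • u i} ∧
        abs ((∑ i, (μHE[2] (convexHull ℝ ({p i, q i, r i} : Set (EuclideanSpace ℝ (Fin 3))))).toReal) / Real.sqrt 2 -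
            (1 / 2 - 13 / 6000 * ε ^ 2)) ≤ 2 * ε ^ 4 := by
  obtain ⟨m, u, p, q, r, hm, hu, hperp, hcover, harea⟩ := h2
  exact ⟨h1, part2_of_gram_cover m hm u p q r hu hperp hcover harea⟩

end Crest.Agent.R211
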