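import Mathlib

set_option autoImplicit false
open MeasureTheory
open scoped ENNReal

namespace Crest.Agent.R211

/-- On `ℝ³`, the plain Hausdorff measure `μH[2]` is a positive constant multiple of the
Lebesgue-normalised one `μHE[2]`. -/
theorem hausdorff_two_eq_ofReal_mul_euclidean :
    ∃ κ : ℝ, 0 < κ ∧ ∀ s : Set (EuclideanSpace ℝ (Fin 3)),
      μH[(2 : ℝ)] s = ENNReal.ofReal κ * μHE[2] s := by
  obtain ⟨c₀, hc₀⟩ : ∃ c₀ : NNReal, c₀ = Measure.addHaarScalarFactor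
      (volume : Measure (EuclideanSpace ℝ (Fin 2))) μH[((2 : ℕ) : ℝ)] := ⟨_, rfl⟩
  have hc : c₀ ≠ 0 := by
    rw [hc₀]; exact Measure.addHaarScalarFactor_volume_hausdorffMeasure_ne_zero 2
  have hcpos : 0 < c₀ := pos_iff_ne_zero.2 hc
  refine ⟨((c₀⁻¹ : NNReal) : ℝ), by positivity, fun s => ?_⟩
  rw [Measure.euclideanHausdorffMeasure_def, Measure.smul_apply, ← hc₀]
  rw [ENNReal.ofReal_coe_nnreal]
  have h2 : ((2 : ℕ) : ℝ) = (2 : ℝ) := by norm_num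
  rw [h2]
  rw [ENNReal.smul_def, smul_eq_mul, ← mul_assoc]
  rw [ENNReal.coe_inv hc, ENNReal.inv_mul_cancel (by simpa using hc) ENNReal.coe_ne_top, one_mul]

/-- The orthogonal projection of a compact set of `ℝ³` to the plane `v^⊥` has finite area. -/
theorem euclideanHausdorff_two_proj_lt_top (v : EuclideanSpace ℝ (Fin 3)) (hv : ‖v‖ = 1)
    (K : Set (EuclideanSpace ℝ (Fin 3))) (hK : IsCompact K) :
    μHE[2] ((fun y => y - inner ℝ y v • v) '' K) < ⊤ := by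
  obtain ⟨W, hW⟩ : ∃ W : Submodule ℝ (EuclideanSpace ℝ (Fin 3)), W = (ℝ ∙ v)ᗮ := ⟨_, rfl⟩
  have hv0 : v ≠ 0 := by
    intro h; rw [h, norm_zero] at hv; exact zero_ne_one hv
  have : Fact (Module.finrank ℝ (EuclideanSpace ℝ (Fin 3)) = 2 + 1) := ⟨by simp⟩
  have hWrank : Module.finrank ℝ W = 2 := by
    rw [hW]; exact Submodule.finrank_orthogonal_span_singleton hv0
  have hproj : ∀ y : EuclideanSpace ℝ (Fin 3),
      y - inner ℝ y v • v = ((W.orthogonalProjectionOnto y : W) : EuclideanSpace ℝ (Fin 3)) := by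
    intro y
    rw [Submodule.coe_orthogonalProjectionOnto_apply]
    subst hW
    rw [Submodule.starProjection_orthogonal_val, Submodule.starProjection_unit_singleton ℝ hv,
      real_inner_comm]
  have himg : (fun y => y - inner ℝ y v • v) '' K
      = (Subtype.val : W → EuclideanSpace ℝ (Fin 3)) '' (W.orthogonalProjectionOnto '' K) := by
    rw [Set.image_image]
    exact Set.image_congr (fun y _ => hproj y)
  rw [himg, Isometry.euclideanHausdorffMeasure_image isometry_subtype_coe]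
  have hvol : (μHE[2] : Measure W) = volume := by
    rw [← hWrank]; exact InnerProductSpace.euclideanHausdorffMeasure_eq_volume
  rw [hvol]
  exact (hK.image W.orthogonalProjectionOnto.continuous).measure_lt_top


/-- Reduction of statement S0324 to statement S0325: the cover of part (2) of S0325 at
`ε = 1/2000` has total area below `√2/2` by a definite margin, part (1) of S0325 bounds every
projection area below by `√2`, and `μH[2]` is a constant multiple of `μHE[2]`. -/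
theorem s0324_of_s0325
    (h325 : ((∀ v : EuclideanSpace ℝ (Fin 3), ‖v‖ = 1 →
        ENNReal.ofReal (Real.sqrt 2) ≤ μHE[2] ((fun y => y - inner ℝ y v • v) '' convexHull ℝ {!₂[1, 0, 0], !₂[-1, 0, 0], !₂[0, 1, Real.sqrt 2], !₂[0, -1, Real.sqrt 2]})) ∧
      ∃ v : EuclideanSpace ℝ (Fin 3), ‖v‖ = 1 ∧
        μHE[2] ((fun y => y - inner ℝ y v • v) '' convexHull ℝ {!₂[1, 0, 0], !₂[-1, 0, 0], !₂[0, 1, Real.sqrt 2], !₂[0, -1, Real.sqrt 2]}) = ENNReal.ofReal (Real.sqrt 2)) ∧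
    ∀ ε : ℝ, 0 < ε → ε ≤ 1 / 2000 →
      ∃ (u p q r : Fin (2 * ⌈2 / ε ^ 2⌉₊) → EuclideanSpace ℝ (Fin 3)),
        (∀ i, ‖u i‖ = 1) ∧
        (∀ i, inner ℝ (p i) (u i) = 0 ∧ inner ℝ (q i) (u i) = 0 ∧ inner ℝ (r i) (u i) = 0) ∧
        convexHull ℝ {!₂[1, 0, 0], !₂[-1, 0, 0], !₂[0, 1, Real.sqrt 2], !₂[0, -1, Real.sqrt 2]} ⊆
          ⋃ i, {x : EuclideanSpace ℝ (Fin 3) | ∃ b ∈ convexHull ℝ {p i, q i, r i}, ∃ t : ℝ, x = b + t • u i} ∧
        abs ((∑ i, (μHE[2] (convexHull ℝ ({p i, q i, r i} : Set (EuclideanSpace ℝ (Fin 3))))).toReal) / Real.sqrt 2 -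
            (1 / 2 - 13 / 6000 * ε ^ 2)) ≤ 2 * ε ^ 4) :
    ∃ (m : ℕ) (u p q r : Fin m → EuclideanSpace ℝ (Fin 3)),
      (∀ i, ‖u i‖ = 1) ∧
      (∀ i, inner ℝ (p i) (u i) = 0 ∧ inner ℝ (q i) (u i) = 0 ∧ inner ℝ (r i) (u i) = 0) ∧
      convexHull ℝ {!₂[1, 0, 0], !₂[-1, 0, 0], !₂[0, 1, Real.sqrt 2], !₂[0, -1, Real.sqrt 2]} ⊆
        ⋃ i, {x : EuclideanSpace ℝ (Fin 3) | ∃ b ∈ convexHull ℝ {p i, q i, r i}, ∃ t : ℝ, x = b + t • u i} ∧
      ∃ δ : ℝ, 0 < δ ∧ ∀ v : EuclideanSpace ℝ (Fin 3), ‖v‖ = 1 →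
        ∑ i, (μH[(2 : ℝ)] (convexHull ℝ {p i, q i, r i})).toReal + δ ≤
          (μH[(2 : ℝ)] ((fun y => y - inner ℝ y v • v) '' convexHull ℝ {!₂[1, 0, 0], !₂[-1, 0, 0], !₂[0, 1, Real.sqrt 2], !₂[0, -1, Real.sqrt 2]})).toReal / 2 := by
  obtain ⟨⟨hmin, -⟩, hcov⟩ := h325
  obtain ⟨u, p, q, r, hu, hperp, hcover, habs⟩ := hcov (1 / 2000) (by norm_num) le_rfl
  obtain ⟨κ, hκ, hκeq⟩ := hausdorff_two_eq_ofReal_mul_euclidean
  have hKc : IsCompact (convexHull ℝ ({!₂[1, 0, 0], !₂[-1, 0, 0], !₂[0, 1, Real.sqrt 2],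
      !₂[0, -1, Real.sqrt 2]} : Set (EuclideanSpace ℝ (Fin 3)))) :=
    Set.Finite.isCompact_convexHull (𝕜 := ℝ) (Set.toFinite _)
  have hs2 : 0 < Real.sqrt 2 := Real.sqrt_pos.2 (by norm_num)
  refine ⟨_, u, p, q, r, hu, hperp, hcover, κ * (Real.sqrt 2 * (1 / 10 ^ 10)), by positivity,
    fun v hv => ?_⟩
  have hsum : ∑ i, (μH[(2 : ℝ)] (convexHull ℝ {p i, q i, r i})).toReal
      = κ * ∑ i, (μHE[2] (convexHull ℝ ({p i, q i, r i} : Set (EuclideanSpace ℝ (Fin 3))))).toReal := by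
    rw [Finset.mul_sum]
    refine Finset.sum_congr rfl (fun i _ => ?_)
    rw [hκeq, ENNReal.toReal_mul, ENNReal.toReal_ofReal hκ.le]
  have hproj : (μH[(2 : ℝ)] ((fun y => y - inner ℝ y v • v) '' convexHull ℝ {!₂[1, 0, 0],
      !₂[-1, 0, 0], !₂[0, 1, Real.sqrt 2], !₂[0, -1, Real.sqrt 2]})).toReal
      = κ * (μHE[2] ((fun y => y - inner ℝ y v • v) '' convexHull ℝ {!₂[1, 0, 0],
      !₂[-1, 0, 0], !₂[0, 1, Real.sqrt 2], !₂[0, -1, Real.sqrt 2]})).toReal := by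
    rw [hκeq, ENNReal.toReal_mul, ENNReal.toReal_ofReal hκ.le]
  have hge : Real.sqrt 2 ≤ (μHE[2] ((fun y => y - inner ℝ y v • v) '' convexHull ℝ {!₂[1, 0, 0],
      !₂[-1, 0, 0], !₂[0, 1, Real.sqrt 2], !₂[0, -1, Real.sqrt 2]})).toReal := by
    have h1 := hmin v hv
    have h2 := euclideanHausdorff_two_proj_lt_top v hv _ hKc
    have h3 := ENNReal.toReal_mono h2.ne h1
    rwa [ENNReal.toReal_ofReal (Real.sqrt_nonneg 2)] at h3
  rw [hsum, hproj]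
  obtain ⟨A, hA⟩ : ∃ A : ℝ, A = ∑ i, (μHE[2] (convexHull ℝ ({p i, q i, r i} :
      Set (EuclideanSpace ℝ (Fin 3))))).toReal := ⟨_, rfl⟩
  rw [← hA] at habs ⊢
  have h4 := (abs_le.1 habs).2
  have h5 : A / Real.sqrt 2 ≤ 1 / 2 - 1 / 10 ^ 10 := by
    have : (1 : ℝ) / 2 - 13 / 6000 * (1 / 2000) ^ 2 + 2 * (1 / 2000) ^ 4 ≤ 1 / 2 - 1 / 10 ^ 10 := by
      norm_num
    linarith
  have h6 : A ≤ (1 / 2 - 1 / 10 ^ 10) * Real.sqrt 2 := (div_le_iff₀ hs2).1 h5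
  obtain ⟨B, hB⟩ : ∃ B : ℝ, B = (μHE[2] ((fun y => y - inner ℝ y v • v) '' convexHull ℝ
      {!₂[1, 0, 0], !₂[-1, 0, 0], !₂[0, 1, Real.sqrt 2], !₂[0, -1, Real.sqrt 2]})).toReal :=
    ⟨_, rfl⟩
  rw [← hB] at hge ⊢
  have h7 : κ * A ≤ κ * ((1 / 2 - 1 / 10 ^ 10) * Real.sqrt 2) := mul_le_mul_of_nonneg_left h6 hκ.le
  have h8 : κ * Real.sqrt 2 ≤ κ * B := mul_le_mul_of_nonneg_left hge hκ.le
  linarith

end Crest.Agent.R211
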