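/-
Row 211, statement S0326: the integer covering lemma for sheared unit-square lattices
(owner: helper22).
-/
import Mathlib

set_option autoImplicit false

namespace Crest.Agent.R211

/-- Unit squares attached to the sheared lattice `(j + t₁ k, k + t₂ j)` cover the plane as soon as
`0 ≤ t₁ t₂ < 1`: every point `(q₁, q₂)` lies in `[j + t₁ k, j + t₁ k + 1) × [k + t₂ j, k + t₂ j + 1)`
for some integers `j, k`. -/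
theorem int_cover (t₁ t₂ q₁ q₂ : ℝ) (h0 : 0 ≤ t₁ * t₂) (h1 : t₁ * t₂ < 1) :
    ∃ j k : ℤ, 0 ≤ q₁ - j - t₁ * k ∧ q₁ - j - t₁ * k < 1 ∧ 0 ≤ q₂ - k - t₂ * j ∧
      q₂ - k - t₂ * j < 1 := by
  -- the monotone map whose fixed points are the solutions
  obtain ⟨F, hF⟩ : ∃ F : ℤ → ℤ, ∀ k, F k = ⌊q₂ - t₂ * (⌊q₁ - t₁ * k⌋ : ℤ)⌋ := ⟨_, fun _ => rfl⟩
  have hmono : ∀ k k' : ℤ, k ≤ k' → F k ≤ F k' := by
    intro k k' hkk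
    have hkk' : (k : ℝ) ≤ k' := by exact_mod_cast hkk
    rw [hF, hF]
    apply Int.floor_le_floor
    rcases mul_nonneg_iff.mp h0 with ⟨ht1, ht2⟩ | ⟨ht1, ht2⟩
    · have h2 : ⌊q₁ - t₁ * k'⌋ ≤ ⌊q₁ - t₁ * k⌋ :=
        Int.floor_le_floor (by nlinarith)
      have h3 : ((⌊q₁ - t₁ * k'⌋ : ℤ) : ℝ) ≤ (⌊q₁ - t₁ * k⌋ : ℤ) := by exact_mod_cast h2
      nlinarith
    · have h2 : ⌊q₁ - t₁ * k⌋ ≤ ⌊q₁ - t₁ * k'⌋ :=
        Int.floor_le_floor (by nlinarith)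
      have h3 : ((⌊q₁ - t₁ * k⌋ : ℤ) : ℝ) ≤ (⌊q₁ - t₁ * k'⌋ : ℤ) := by exact_mod_cast h2
      nlinarith
  -- `F k` is within `|t₂| + 1` of the affine function `(q₂ - t₂ q₁) + t₁ t₂ k`
  have hup : ∀ k : ℤ, (F k : ℝ) ≤ (q₂ - t₂ * q₁) + t₁ * t₂ * k + |t₂| := by
    intro k
    rw [hF]
    have h2 := Int.floor_le (q₂ - t₂ * (⌊q₁ - t₁ * k⌋ : ℤ))
    have h3 := Int.floor_le (q₁ - t₁ * k)
    have h4 := Int.lt_floor_add_one (q₁ - t₁ * k)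
    have h5 : |t₂ * ((q₁ - t₁ * k) - (⌊q₁ - t₁ * k⌋ : ℤ))| ≤ |t₂| := by
      rw [abs_mul]
      have : |(q₁ - t₁ * k) - (⌊q₁ - t₁ * k⌋ : ℤ)| ≤ 1 := by
        rw [abs_le]; constructor <;> linarith
      calc |t₂| * |(q₁ - t₁ * k) - (⌊q₁ - t₁ * k⌋ : ℤ)| ≤ |t₂| * 1 :=
            mul_le_mul_of_nonneg_left this (abs_nonneg _)
        _ = |t₂| := mul_one _
    have h6 := (abs_le.mp h5).2
    nlinarith
  have hlo : ∀ k : ℤ, (q₂ - t₂ * q₁) + t₁ * t₂ * k - |t₂| - 1 < (F k : ℝ) := by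
    intro k
    rw [hF]
    have h2 := Int.lt_floor_add_one (q₂ - t₂ * (⌊q₁ - t₁ * k⌋ : ℤ))
    have h3 := Int.floor_le (q₁ - t₁ * k)
    have h4 := Int.lt_floor_add_one (q₁ - t₁ * k)
    have h5 : |t₂ * ((q₁ - t₁ * k) - (⌊q₁ - t₁ * k⌋ : ℤ))| ≤ |t₂| := by
      rw [abs_mul]
      have : |(q₁ - t₁ * k) - (⌊q₁ - t₁ * k⌋ : ℤ)| ≤ 1 := by
        rw [abs_le]; constructor <;> linarith
      calc |t₂| * |(q₁ - t₁ * k) - (⌊q₁ - t₁ * k⌋ : ℤ)| ≤ |t₂| * 1 :=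
            mul_le_mul_of_nonneg_left this (abs_nonneg _)
        _ = |t₂| := mul_one _
    have h6 := (abs_le.mp h5).1
    nlinarith
  have hlam : 0 < 1 - t₁ * t₂ := by linarith
  -- the set `{k | k ≤ F k}` is nonempty and bounded above
  have hne : ∃ k : ℤ, k ≤ F k := by
    refine ⟨⌊((q₂ - t₂ * q₁) - |t₂| - 1) / (1 - t₁ * t₂)⌋, ?_⟩
    have h2 := Int.floor_le (((q₂ - t₂ * q₁) - |t₂| - 1) / (1 - t₁ * t₂))
    rw [le_div_iff₀ hlam] at h2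
    have h3 := hlo ⌊((q₂ - t₂ * q₁) - |t₂| - 1) / (1 - t₁ * t₂)⌋
    have h4 : ((⌊((q₂ - t₂ * q₁) - |t₂| - 1) / (1 - t₁ * t₂)⌋ : ℤ) : ℝ) <
        (F ⌊((q₂ - t₂ * q₁) - |t₂| - 1) / (1 - t₁ * t₂)⌋ : ℝ) := by nlinarith
    exact le_of_lt (by exact_mod_cast h4)
  have hbdd : ∃ b : ℤ, ∀ k : ℤ, k ≤ F k → k ≤ b := by
    refine ⟨⌈((q₂ - t₂ * q₁) + |t₂|) / (1 - t₁ * t₂)⌉, ?_⟩
    intro k hk
    have hk' : (k : ℝ) ≤ F k := by exact_mod_cast hk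
    have h2 := hup k
    have h3 : (k : ℝ) ≤ ((q₂ - t₂ * q₁) + |t₂|) / (1 - t₁ * t₂) := by
      rw [le_div_iff₀ hlam]; nlinarith
    exact Int.le_ceil_iff.mpr (by linarith)
  obtain ⟨k, hk, hmax⟩ := Int.exists_greatest_of_bdd hbdd hne
  have hfix : F k = k := le_antisymm (hmax _ (hmono _ _ hk)) hk
  refine ⟨⌊q₁ - t₁ * k⌋, k, ?_, ?_, ?_, ?_⟩
  · linarith [Int.floor_le (q₁ - t₁ * k)]
  · linarith [Int.lt_floor_add_one (q₁ - t₁ * k)]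
  · have h2 := Int.floor_le (q₂ - t₂ * (⌊q₁ - t₁ * k⌋ : ℤ))
    rw [← hF, hfix] at h2
    linarith
  · have h2 := Int.lt_floor_add_one (q₂ - t₂ * (⌊q₁ - t₁ * k⌋ : ℤ))
    rw [← hF, hfix] at h2
    linarith

end Crest.Agent.R211
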