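/-
Row 211, statement S0326: the local covering lemma for one block (owner: helper22).

For a linear map `A` of the plane with zero diagonal in an orthonormal frame (`A e₁ = c e₂`,
`A e₂ = b e₁`, `0 ≤ b c`, `L² b c ≤ 1 - γ`), every point `p + s • vp` with `|s| ≤ L` lies in the
sheared `δ`-square with corner `p₀ + δ (j e₁ + k e₂)` and velocity `v₀ + A (δ (j e₁ + k e₂))` for
suitable integers `j, k`, and that corner is close to `p`.
-/
import Mathlib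
import Crest.Agent.R211_S0326_Int

set_option autoImplicit false

namespace Crest.Agent.R211

theorem block_inner_eq (x y : EuclideanSpace ℝ (Fin 2)) :
    inner ℝ x y = x 0 * y 0 + x 1 * y 1 := by
  simp [inner, Fin.sum_univ_two]
  ring

theorem block_norm_sq_eq (x : EuclideanSpace ℝ (Fin 2)) : ‖x‖ ^ 2 = x 0 ^ 2 + x 1 ^ 2 := by
  rw [← real_inner_self_eq_norm_sq, block_inner_eq]; ring

/-- Expansion of a vector of the plane in an orthonormal frame. -/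
theorem block_frame_decomp (e₁ e₂ : EuclideanSpace ℝ (Fin 2)) (h1 : ‖e₁‖ = 1) (h2 : ‖e₂‖ = 1)
    (h12 : inner ℝ e₁ e₂ = 0) (x : EuclideanSpace ℝ (Fin 2)) :
    x = inner ℝ x e₁ • e₁ + inner ℝ x e₂ • e₂ := by
  have k1 : e₁ 0 ^ 2 + e₁ 1 ^ 2 = 1 := by rw [← block_norm_sq_eq, h1]; norm_num
  have k2 : e₂ 0 ^ 2 + e₂ 1 ^ 2 = 1 := by rw [← block_norm_sq_eq, h2]; norm_num
  have k12 : e₁ 0 * e₂ 0 + e₁ 1 * e₂ 1 = 0 := by rw [← block_inner_eq, h12]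
  have hA : e₁ 0 ^ 2 + e₂ 0 ^ 2 = 1 := by
    linear_combination (e₁ 0 * e₂ 0 - e₁ 1 * e₂ 1) * k12 + e₂ 1 ^ 2 * k1 + (1 - e₁ 0 ^ 2) * k2
  have hB : e₁ 1 ^ 2 + e₂ 1 ^ 2 = 1 := by
    linear_combination (e₁ 1 * e₂ 1 - e₁ 0 * e₂ 0) * k12 + e₂ 0 ^ 2 * k1 + (1 - e₁ 1 ^ 2) * k2
  have hC : e₁ 0 * e₁ 1 + e₂ 0 * e₂ 1 = 0 := by
    linear_combination (e₁ 1 * e₂ 0 + e₁ 0 * e₂ 1) * k12 - e₁ 0 * e₁ 1 * k2 - e₂ 0 * e₂ 1 * k1
  ext i
  fin_cases i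
  · simp only [Fin.zero_eta, PiLp.add_apply, PiLp.smul_apply, smul_eq_mul, block_inner_eq]
    linear_combination (-(x 0)) * hA - x 1 * hC
  · simp only [Fin.mk_one, PiLp.add_apply, PiLp.smul_apply, smul_eq_mul, block_inner_eq]
    linear_combination (-(x 1)) * hB - x 0 * hC

/-- Norm of a combination of an orthonormal pair. -/
theorem block_norm_comb_le (e₁ e₂ : EuclideanSpace ℝ (Fin 2)) (h1 : ‖e₁‖ = 1) (h2 : ‖e₂‖ = 1)
    (h12 : inner ℝ e₁ e₂ = 0) (x y : ℝ) (hx : |x| ≤ 1) (hy : |y| ≤ 1) :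
    ‖x • e₁ + y • e₂‖ ≤ Real.sqrt 2 := by
  rw [Real.le_sqrt (norm_nonneg _) (by norm_num), ← real_inner_self_eq_norm_sq]
  simp only [inner_add_left, inner_add_right, inner_smul_left, inner_smul_right,
    real_inner_self_eq_norm_sq, h1, h2, h12, real_inner_comm e₁ e₂, conj_trivial]
  have hx2 : x ^ 2 ≤ 1 := by
    have := abs_le.mp hx
    nlinarith
  have hy2 : y ^ 2 ≤ 1 := by
    have := abs_le.mp hy
    nlinarith
  nlinarith

theorem block_cover (A : EuclideanSpace ℝ (Fin 2) →L[ℝ] EuclideanSpace ℝ (Fin 2))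
    (e₁ e₂ : EuclideanSpace ℝ (Fin 2)) (b c : ℝ)
    (h1 : ‖e₁‖ = 1) (h2 : ‖e₂‖ = 1) (h12 : inner ℝ e₁ e₂ = 0)
    (hA1 : A e₁ = c • e₂) (hA2 : A e₂ = b • e₁)
    (L γ : ℝ) (hL : 0 < L) (hγ : 0 < γ) (hbc0 : 0 ≤ b * c) (hbc : L ^ 2 * (b * c) ≤ 1 - γ)
    (δ : ℝ) (hδ : 0 < δ) (p₀ v₀ p vp : EuclideanSpace ℝ (Fin 2)) (s : ℝ) (hs : |s| ≤ L) :
    ∃ j k : ℤ, ∃ x ∈ Set.Ico (0 : ℝ) 1, ∃ y ∈ Set.Ico (0 : ℝ) 1,
      p + s • vp = (p₀ + δ • ((j : ℝ) • e₁ + (k : ℝ) • e₂)) + x • (δ • e₁) + y • (δ • e₂)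
          + s • (v₀ + A (δ • ((j : ℝ) • e₁ + (k : ℝ) • e₂))) ∧
      ‖p - (p₀ + δ • ((j : ℝ) • e₁ + (k : ℝ) • e₂))‖ ≤
        (1 + L * ‖A‖) / γ * (Real.sqrt 2 * δ + L * ‖vp - v₀ - A (p - p₀)‖) := by
  have hs2 : s ^ 2 ≤ L ^ 2 := by
    have := abs_le.mp hs
    nlinarith
  have hsbc : s ^ 2 * (b * c) ≤ 1 - γ :=
    (mul_le_mul_of_nonneg_right hs2 hbc0).trans hbc
  -- the point relative to the moving base point
  obtain ⟨w, hw⟩ : ∃ w : EuclideanSpace ℝ (Fin 2), w = p + s • vp - p₀ - s • v₀ := ⟨_, rfl⟩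
  obtain ⟨j, k, hx0, hx1, hy0, hy1⟩ := int_cover (s * b) (s * c) (inner ℝ w e₁ / δ)
    (inner ℝ w e₂ / δ) (by nlinarith [sq_nonneg s]) (by nlinarith)
  obtain ⟨x, hxdef⟩ : ∃ x : ℝ, x = inner ℝ w e₁ / δ - j - s * b * k := ⟨_, rfl⟩
  obtain ⟨y, hydef⟩ : ∃ y : ℝ, y = inner ℝ w e₂ / δ - k - s * c * j := ⟨_, rfl⟩
  rw [← hxdef] at hx0 hx1
  rw [← hydef] at hy0 hy1
  have hwe1 : inner ℝ w e₁ = δ * (x + j + s * b * k) := by
    rw [hxdef]; field_simp; ring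
  have hwe2 : inner ℝ w e₂ = δ * (y + k + s * c * j) := by
    rw [hydef]; field_simp; ring
  have hwdec := block_frame_decomp e₁ e₂ h1 h2 h12 w
  rw [hwe1, hwe2] at hwdec
  -- the lattice vector and its image
  obtain ⟨ℓ, hℓ⟩ : ∃ ℓ : EuclideanSpace ℝ (Fin 2), ℓ = δ • ((j : ℝ) • e₁ + (k : ℝ) • e₂) :=
    ⟨_, rfl⟩
  have hAℓ : A ℓ = δ • ((j : ℝ) • c • e₂ + (k : ℝ) • b • e₁) := by
    rw [hℓ, map_smul, map_add, map_smul, map_smul, hA1, hA2]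
  have hwℓ : w = ℓ + s • A ℓ + x • (δ • e₁) + y • (δ • e₂) := by
    rw [hAℓ, hℓ, hwdec]; module
  refine ⟨j, k, x, ⟨hx0, hx1⟩, y, ⟨hy0, hy1⟩, ?_, ?_⟩
  · rw [← hℓ]
    have : p + s • vp = w + p₀ + s • v₀ := by rw [hw]; abel
    rw [this, hwℓ]; module
  · rw [← hℓ]
    -- `(I + s A) d = u`
    obtain ⟨d, hd⟩ : ∃ d : EuclideanSpace ℝ (Fin 2), d = p - (p₀ + ℓ) := ⟨_, rfl⟩
    obtain ⟨err, herr⟩ : ∃ err : EuclideanSpace ℝ (Fin 2), err = vp - v₀ - A (p - p₀) := ⟨_, rfl⟩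
    obtain ⟨u, hu⟩ : ∃ u : EuclideanSpace ℝ (Fin 2), u = x • (δ • e₁) + y • (δ • e₂) - s • err :=
      ⟨_, rfl⟩
    rw [← hd, ← herr]
    have hdu : d + s • A d = u := by
      have h3 : A d = A (p - p₀) - A ℓ := by rw [hd, ← map_sub]; congr 1; abel
      have h4 : w = (p - p₀) + s • A (p - p₀) + s • err := by
        rw [hw, herr]; module
      have h5 : x • (δ • e₁) + y • (δ • e₂) = w - ℓ - s • A ℓ := by rw [hwℓ]; abel
      rw [hu, h5, h4, h3, hd]; module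
    -- `A² = (b c) • id`
    have hAA : ∀ v : EuclideanSpace ℝ (Fin 2), A (A v) = (b * c) • v := by
      intro v
      have hv := block_frame_decomp e₁ e₂ h1 h2 h12 v
      have h6 : A v = inner ℝ v e₁ • c • e₂ + inner ℝ v e₂ • b • e₁ := by
        conv_lhs => rw [hv]
        rw [map_add, map_smul, map_smul, hA1, hA2]
      have h7 : A (A v) = inner ℝ v e₁ • c • b • e₁ + inner ℝ v e₂ • b • c • e₂ := by
        rw [h6, map_add, map_smul, map_smul, map_smul, map_smul, hA1, hA2]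
      rw [h7]
      conv_rhs => rw [hv]
      module
    have hinv : (1 - s ^ 2 * (b * c)) • d = u - s • A u := by
      rw [← hdu, map_add, map_smul, hAA]; module
    have hpos : γ ≤ 1 - s ^ 2 * (b * c) := by linarith
    have hnu : ‖u‖ ≤ Real.sqrt 2 * δ + L * ‖err‖ := by
      have h8 : x • (δ • e₁) + y • (δ • e₂) = δ • (x • e₁ + y • e₂) := by module
      rw [hu, h8]
      refine (norm_sub_le _ _).trans ?_
      rw [norm_smul, norm_smul, Real.norm_eq_abs, Real.norm_eq_abs, abs_of_pos hδ]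
      have h9 := block_norm_comb_le e₁ e₂ h1 h2 h12 x y
        (by rw [abs_le]; constructor <;> linarith) (by rw [abs_le]; constructor <;> linarith)
      have h10 : |s| * ‖err‖ ≤ L * ‖err‖ := mul_le_mul_of_nonneg_right hs (norm_nonneg _)
      have h11 : δ * ‖x • e₁ + y • e₂‖ ≤ δ * Real.sqrt 2 := mul_le_mul_of_nonneg_left h9 hδ.le
      linarith
    have hnd : γ * ‖d‖ ≤ (1 + L * ‖A‖) * ‖u‖ := by
      have h12' : ‖(1 - s ^ 2 * (b * c)) • d‖ = (1 - s ^ 2 * (b * c)) * ‖d‖ := by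
        rw [norm_smul, Real.norm_eq_abs, abs_of_pos (by linarith)]
      have h13 : ‖u - s • A u‖ ≤ ‖u‖ + L * (‖A‖ * ‖u‖) := by
        refine (norm_sub_le _ _).trans ?_
        rw [norm_smul, Real.norm_eq_abs]
        have := A.le_opNorm u
        have h14 : |s| * ‖A u‖ ≤ L * (‖A‖ * ‖u‖) :=
          mul_le_mul hs this (norm_nonneg _) hL.le
        linarith
      rw [hinv] at h12'
      have h15 : γ * ‖d‖ ≤ (1 - s ^ 2 * (b * c)) * ‖d‖ :=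
        mul_le_mul_of_nonneg_right hpos (norm_nonneg _)
      nlinarith
    have hA0 : 0 ≤ 1 + L * ‖A‖ := by positivity
    rw [div_mul_eq_mul_div, le_div_iff₀ hγ]
    calc ‖d‖ * γ = γ * ‖d‖ := mul_comm _ _
      _ ≤ (1 + L * ‖A‖) * ‖u‖ := hnd
      _ ≤ (1 + L * ‖A‖) * (Real.sqrt 2 * δ + L * ‖err‖) := mul_le_mul_of_nonneg_left hnu hA0

end Crest.Agent.R211
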