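/-
Row 211, S0326 sub-package 326C (owner: helper24): half-open lattice squares of an orthonormal
frame of the Euclidean plane — membership, measurability, disjointness, volume, counting —
and the volume of a sup-norm box.  Statements exactly as in `blueprints/row211.md` §6.
-/
import Mathlib
import Crest.Agent.R211_Area

set_option autoImplicit false
set_option linter.unusedVariables false
open MeasureTheory
open scoped ENNReal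

namespace Crest.Agent.R211

/-- half-open lattice square with index `jk` of the lattice `p₀ + δ (ℤ e₁ + ℤ e₂)` -/
def latSq (e₁ e₂ p₀ : EuclideanSpace ℝ (Fin 2)) (δ : ℝ) (jk : ℤ × ℤ) :
    Set (EuclideanSpace ℝ (Fin 2)) :=
  {z | ∃ x ∈ Set.Ico (0:ℝ) 1, ∃ y ∈ Set.Ico (0:ℝ) 1,
    z = p₀ + δ • ((jk.1 : ℝ) • e₁ + (jk.2 : ℝ) • e₂) + x • (δ • e₁) + y • (δ • e₂)}

theorem latSq_inner2 (v w : EuclideanSpace ℝ (Fin 2)) :
    inner ℝ v w = v 0 * w 0 + v 1 * w 1 := by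
  simp [PiLp.inner_apply, Fin.sum_univ_two]; ring

/-- An orthonormal pair of the Euclidean plane is a basis (coordinate form). -/
theorem latSq_decomp (e₁ e₂ : EuclideanSpace ℝ (Fin 2)) (h1 : ‖e₁‖ = 1) (h2 : ‖e₂‖ = 1)
    (h12 : inner ℝ e₁ e₂ = 0) (x : EuclideanSpace ℝ (Fin 2)) :
    x = inner ℝ x e₁ • e₁ + inner ℝ x e₂ • e₂ := by
  have H1 : e₁ 0 * e₁ 0 + e₁ 1 * e₁ 1 = 1 := by
    rw [← latSq_inner2, real_inner_self_eq_norm_sq, h1]; norm_num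
  have H2 : e₂ 0 * e₂ 0 + e₂ 1 * e₂ 1 = 1 := by
    rw [← latSq_inner2, real_inner_self_eq_norm_sq, h2]; norm_num
  have H12 : e₁ 0 * e₂ 0 + e₁ 1 * e₂ 1 = 0 := by
    rw [← latSq_inner2, h12]
  ext i
  fin_cases i
  · simp only [latSq_inner2, PiLp.add_apply, PiLp.smul_apply, smul_eq_mul]
    simp
    linear_combination (-(x 0 * e₂ 1 ^ 2 - x 1 * (e₂ 0 * e₂ 1))) * H1
      + (-(x 0 * (1 - e₁ 0 ^ 2) - x 1 * (e₁ 0 * e₁ 1))) * H2
      + (-(x 0 * (e₁ 0 * e₂ 0 - e₁ 1 * e₂ 1) + x 1 * (e₁ 1 * e₂ 0 + e₁ 0 * e₂ 1))) * H12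
  · simp only [latSq_inner2, PiLp.add_apply, PiLp.smul_apply, smul_eq_mul]
    simp
    linear_combination (-(x 1 * e₂ 0 ^ 2 - x 0 * (e₂ 0 * e₂ 1))) * H1
      + (-(x 1 * (1 - e₁ 1 ^ 2) - x 0 * (e₁ 0 * e₁ 1))) * H2
      + (-(x 1 * (e₁ 1 * e₂ 1 - e₁ 0 * e₂ 0) + x 0 * (e₁ 1 * e₂ 0 + e₁ 0 * e₂ 1))) * H12

theorem mem_latSq_iff (e₁ e₂ p₀ : EuclideanSpace ℝ (Fin 2)) (h1 : ‖e₁‖ = 1) (h2 : ‖e₂‖ = 1)
    (h12 : inner ℝ e₁ e₂ = 0) (δ : ℝ) (hδ : 0 < δ) (jk : ℤ × ℤ)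
    (z : EuclideanSpace ℝ (Fin 2)) :
    z ∈ latSq e₁ e₂ p₀ δ jk ↔
      ⌊inner ℝ (z - p₀) e₁ / δ⌋ = jk.1 ∧ ⌊inner ℝ (z - p₀) e₂ / δ⌋ = jk.2 := by
  have h21 : inner ℝ e₂ e₁ = 0 := by rw [real_inner_comm]; exact h12
  have h11 : inner ℝ e₁ e₁ = (1:ℝ) := by rw [real_inner_self_eq_norm_sq, h1]; norm_num
  have h22 : inner ℝ e₂ e₂ = (1:ℝ) := by rw [real_inner_self_eq_norm_sq, h2]; norm_num
  constructor
  · rintro ⟨x, hx, y, hy, rfl⟩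
    have e1 : inner ℝ (p₀ + δ • ((jk.1 : ℝ) • e₁ + (jk.2 : ℝ) • e₂) + x • (δ • e₁)
        + y • (δ • e₂) - p₀) e₁ / δ = jk.1 + x := by
      have : p₀ + δ • ((jk.1 : ℝ) • e₁ + (jk.2 : ℝ) • e₂) + x • (δ • e₁) + y • (δ • e₂) - p₀
          = (δ * (jk.1 + x)) • e₁ + (δ * (jk.2 + y)) • e₂ := by module
      rw [this, inner_add_left, inner_smul_left, inner_smul_left, h11, h21]
      simp
      field_simp
    have e2 : inner ℝ (p₀ + δ • ((jk.1 : ℝ) • e₁ + (jk.2 : ℝ) • e₂) + x • (δ • e₁)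
        + y • (δ • e₂) - p₀) e₂ / δ = jk.2 + y := by
      have : p₀ + δ • ((jk.1 : ℝ) • e₁ + (jk.2 : ℝ) • e₂) + x • (δ • e₁) + y • (δ • e₂) - p₀
          = (δ * (jk.1 + x)) • e₁ + (δ * (jk.2 + y)) • e₂ := by module
      rw [this, inner_add_left, inner_smul_left, inner_smul_left, h22, h12]
      simp
      field_simp
    rw [e1, e2]
    constructor
    · rw [Int.floor_eq_iff]; exact ⟨by linarith [hx.1], by linarith [hx.2]⟩
    · rw [Int.floor_eq_iff]; exact ⟨by linarith [hy.1], by linarith [hy.2]⟩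
  · rintro ⟨hj, hk⟩
    rw [Int.floor_eq_iff] at hj hk
    refine ⟨inner ℝ (z - p₀) e₁ / δ - jk.1, ⟨by linarith [hj.1], by linarith [hj.2]⟩,
      inner ℝ (z - p₀) e₂ / δ - jk.2, ⟨by linarith [hk.1], by linarith [hk.2]⟩, ?_⟩
    have hd := latSq_decomp e₁ e₂ h1 h2 h12 (z - p₀)
    have q1 : inner ℝ (z - p₀) e₁ = δ * (inner ℝ (z - p₀) e₁ / δ) := by field_simp
    have q2 : inner ℝ (z - p₀) e₂ = δ * (inner ℝ (z - p₀) e₂ / δ) := by field_simp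
    have hz : z = p₀ + (z - p₀) := by abel
    rw [hd, q1, q2] at hz
    generalize inner ℝ (z - p₀) e₁ / δ = a at hz ⊢
    generalize inner ℝ (z - p₀) e₂ / δ = b at hz ⊢
    rw [hz]
    module

theorem measurableSet_latSq (e₁ e₂ p₀ : EuclideanSpace ℝ (Fin 2)) (h1 : ‖e₁‖ = 1)
    (h2 : ‖e₂‖ = 1) (h12 : inner ℝ e₁ e₂ = 0) (δ : ℝ) (hδ : 0 < δ) (jk : ℤ × ℤ) :
    MeasurableSet (latSq e₁ e₂ p₀ δ jk) := by
  have e : latSq e₁ e₂ p₀ δ jk =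
      (fun z : EuclideanSpace ℝ (Fin 2) => ⌊inner ℝ (z - p₀) e₁ / δ⌋) ⁻¹' {jk.1} ∩
      (fun z : EuclideanSpace ℝ (Fin 2) => ⌊inner ℝ (z - p₀) e₂ / δ⌋) ⁻¹' {jk.2} := by
    ext z
    rw [mem_latSq_iff e₁ e₂ p₀ h1 h2 h12 δ hδ jk z]
    simp
  rw [e]
  have c1 : Continuous fun z : EuclideanSpace ℝ (Fin 2) => inner ℝ (z - p₀) e₁ / δ :=
    ((continuous_id.sub continuous_const).inner continuous_const).div_const δ
  have c2 : Continuous fun z : EuclideanSpace ℝ (Fin 2) => inner ℝ (z - p₀) e₂ / δ :=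
    ((continuous_id.sub continuous_const).inner continuous_const).div_const δ
  exact ((Int.measurable_floor.comp c1.measurable) (measurableSet_singleton _)).inter
    ((Int.measurable_floor.comp c2.measurable) (measurableSet_singleton _))

theorem latSq_disjoint (e₁ e₂ p₀ : EuclideanSpace ℝ (Fin 2)) (h1 : ‖e₁‖ = 1) (h2 : ‖e₂‖ = 1)
    (h12 : inner ℝ e₁ e₂ = 0) (δ : ℝ) (hδ : 0 < δ) {jk jk' : ℤ × ℤ} (h : jk ≠ jk') :
    Disjoint (latSq e₁ e₂ p₀ δ jk) (latSq e₁ e₂ p₀ δ jk') := by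
  rw [Set.disjoint_left]
  intro z hz hz'
  rw [mem_latSq_iff e₁ e₂ p₀ h1 h2 h12 δ hδ] at hz hz'
  exact h (Prod.ext (hz.1.symm.trans hz'.1) (hz.2.symm.trans hz'.2))

/-- the half-open unit square has volume one -/
theorem latSq_volume_unitSqIco :
    volume {x : EuclideanSpace ℝ (Fin 2) | x 0 ∈ Set.Ico (0:ℝ) 1 ∧ x 1 ∈ Set.Ico (0:ℝ) 1} = 1 := by
  apply le_antisymm
  · rw [← volume_unitSq]
    apply measure_mono
    intro x hx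
    exact ⟨⟨hx.1.1, hx.1.2.le⟩, ⟨hx.2.1, hx.2.2.le⟩⟩
  · rw [← volume_unitSqO]
    apply measure_mono
    intro x hx
    exact ⟨⟨hx.1.1.le, hx.1.2⟩, ⟨hx.2.1.le, hx.2.2⟩⟩

theorem volume_latSq (e₁ e₂ p₀ : EuclideanSpace ℝ (Fin 2)) (h1 : ‖e₁‖ = 1) (h2 : ‖e₂‖ = 1)
    (h12 : inner ℝ e₁ e₂ = 0) (δ : ℝ) (hδ : 0 < δ) (jk : ℤ × ℤ) :
    volume (latSq e₁ e₂ p₀ δ jk) = ENNReal.ofReal (δ ^ 2) := by
  have e : latSq e₁ e₂ p₀ δ jk =
      (fun x => (p₀ + δ • ((jk.1 : ℝ) • e₁ + (jk.2 : ℝ) • e₂)) + lin2 (δ • e₁) (δ • e₂) x) ''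
        {x : EuclideanSpace ℝ (Fin 2) | x 0 ∈ Set.Ico (0:ℝ) 1 ∧ x 1 ∈ Set.Ico (0:ℝ) 1} := by
    ext z
    constructor
    · rintro ⟨x, hx, y, hy, rfl⟩
      exact ⟨!₂[x, y], ⟨by simpa using hx, by simpa using hy⟩, by simp [add_assoc]⟩
    · rintro ⟨w, ⟨h0, h1'⟩, rfl⟩
      exact ⟨w 0, h0, w 1, h1', by simp [add_assoc]⟩
  have h := area_lin2_image (p₀ + δ • ((jk.1 : ℝ) • e₁ + (jk.2 : ℝ) • e₂)) (δ • e₁) (δ • e₂)
    {x : EuclideanSpace ℝ (Fin 2) | x 0 ∈ Set.Ico (0:ℝ) 1 ∧ x 1 ∈ Set.Ico (0:ℝ) 1}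
  rw [EuclideanSpace.euclideanHausdorffMeasure_eq_volume 2] at h
  rw [e, h, latSq_volume_unitSqIco, mul_one]
  congr 1
  rw [norm_smul, norm_smul, h1, h2, inner_smul_left, inner_smul_right, h12]
  simp only [Real.norm_eq_abs, mul_one, mul_zero, sq_abs]
  have : δ ^ 2 * δ ^ 2 - 0 ^ 2 = (δ ^ 2) ^ 2 := by ring
  rw [this, Real.sqrt_sq (by positivity)]

theorem lattice_count (e₁ e₂ p₀ : EuclideanSpace ℝ (Fin 2)) (h1 : ‖e₁‖ = 1) (h2 : ‖e₂‖ = 1)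
    (h12 : inner ℝ e₁ e₂ = 0) (δ : ℝ) (hδ : 0 < δ) (I : Finset (ℤ × ℤ))
    (S : Set (EuclideanSpace ℝ (Fin 2))) (hS : ∀ jk ∈ I, latSq e₁ e₂ p₀ δ jk ⊆ S) :
    (I.card : ENNReal) * ENNReal.ofReal (δ ^ 2) ≤ volume S := by
  have hsum : ∑ jk ∈ I, volume (latSq e₁ e₂ p₀ δ jk) = (I.card : ENNReal) * ENNReal.ofReal (δ ^ 2) := by
    simp [volume_latSq e₁ e₂ p₀ h1 h2 h12 δ hδ, Finset.sum_const, nsmul_eq_mul]
  rw [← hsum, ← measure_biUnion_finset]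
  · exact measure_mono (Set.iUnion₂_subset hS)
  · intro a _ b _ hab
    exact latSq_disjoint e₁ e₂ p₀ h1 h2 h12 δ hδ hab
  · intro b _
    exact measurableSet_latSq e₁ e₂ p₀ h1 h2 h12 δ hδ b

theorem volume_supBox (z : EuclideanSpace ℝ (Fin 2)) (R : ℝ) (hR : 0 ≤ R) :
    volume {x : EuclideanSpace ℝ (Fin 2) | ∀ i, |x i - z i| ≤ R} = ENNReal.ofReal ((2 * R) ^ 2) := by
  have h := (PiLp.volume_preserving_ofLp (Fin 2)).measure_preimage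
    (s := Set.pi Set.univ (fun i => Set.Icc (z i - R) (z i + R)))
    (MeasurableSet.univ_pi (fun _ => measurableSet_Icc)).nullMeasurableSet
  have e : {x : EuclideanSpace ℝ (Fin 2) | ∀ i, |x i - z i| ≤ R} =
      (@WithLp.ofLp 2 (Fin 2 → ℝ)) ⁻¹' (Set.pi Set.univ (fun i => Set.Icc (z i - R) (z i + R))) := by
    ext x
    simp only [Set.mem_ofPred_eq, Set.mem_preimage, Set.mem_pi, Set.mem_univ, forall_true_left,
      Set.mem_Icc, abs_le]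
    constructor
    · intro hx i; exact ⟨by linarith [(hx i).1], by linarith [(hx i).2]⟩
    · intro hx i; exact ⟨by linarith [(hx i).1], by linarith [(hx i).2]⟩
  rw [e, h, volume_pi_pi]
  simp only [Real.volume_Icc, Fin.prod_univ_two]
  have e1 : z 0 + R - (z 0 - R) = 2 * R := by ring
  have e2 : z 1 + R - (z 1 - R) = 2 * R := by ring
  rw [e1, e2, ← ENNReal.ofReal_mul (by linarith)]
  congr 1
  ring

theorem norm_le_sqrt_two_mul (x : EuclideanSpace ℝ (Fin 2)) (R : ℝ) (h : ∀ i, |x i| ≤ R) :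
    ‖x‖ ≤ Real.sqrt 2 * R := by
  have hR : 0 ≤ R := le_trans (abs_nonneg _) (h 0)
  have h0 : x 0 ^ 2 ≤ R ^ 2 := by
    have := h 0
    rw [← sq_abs]; exact pow_le_pow_left₀ (abs_nonneg _) this 2
  have h1 : x 1 ^ 2 ≤ R ^ 2 := by
    have := h 1
    rw [← sq_abs]; exact pow_le_pow_left₀ (abs_nonneg _) this 2
  have hs : ‖x‖ ^ 2 = x 0 ^ 2 + x 1 ^ 2 := by
    rw [← real_inner_self_eq_norm_sq, latSq_inner2]; ring
  have hrhs : 0 ≤ Real.sqrt 2 * R := mul_nonneg (Real.sqrt_nonneg _) hR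
  have hsq : ‖x‖ ^ 2 ≤ (Real.sqrt 2 * R) ^ 2 := by
    rw [hs, mul_pow, Real.sq_sqrt (by norm_num)]; linarith
  exact (pow_le_pow_iff_left₀ (norm_nonneg _) hrhs two_ne_zero).mp hsq

end Crest.Agent.R211
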