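/-
Row 211 (S0324–S0329), S0326 sub-lemma 326B: a trace-free operator of the Euclidean plane has, in
a suitable orthonormal frame, zero diagonal.  Owner: helper20.
-/
import Mathlib

set_option autoImplicit false
open MeasureTheory
open scoped ENNReal

namespace Crest.Agent.R211

/-- A unit vector `(x, y)` on which the trace-free quadratic form `m x² + 2 s x y - m y²`
vanishes. -/
theorem frame_unit_root (m s : ℝ) :
    ∃ x y : ℝ, x ^ 2 + y ^ 2 = 1 ∧ x ^ 2 * m + 2 * s * (x * y) - y ^ 2 * m = 0 := by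
  by_cases hm : m = 0
  · exact ⟨1, 0, by norm_num, by rw [hm]; ring⟩
  · obtain ⟨r, hr⟩ : ∃ r : ℝ, r = Real.sqrt (s ^ 2 + m ^ 2) := ⟨_, rfl⟩
    have hr2 : r ^ 2 = s ^ 2 + m ^ 2 := by
      rw [hr]; exact Real.sq_sqrt (by positivity)
    have hn2 : 0 < (r - s) ^ 2 + m ^ 2 := by positivity
    obtain ⟨n, hn⟩ : ∃ n : ℝ, n = Real.sqrt ((r - s) ^ 2 + m ^ 2) := ⟨_, rfl⟩
    have hnsq : n ^ 2 = (r - s) ^ 2 + m ^ 2 := by
      rw [hn]; exact Real.sq_sqrt hn2.le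
    have hnpos : 0 < n := by rw [hn]; exact Real.sqrt_pos.2 hn2
    have hn0 : n ≠ 0 := hnpos.ne'
    refine ⟨(r - s) / n, m / n, ?_, ?_⟩
    · field_simp
      linarith
    · field_simp
      linear_combination m * hr2

/-- **326B.** A continuous linear operator of the Euclidean plane with zero trace maps a suitable
orthonormal frame `e₁, e₂` to `A e₁ = c • e₂`, `A e₂ = b • e₁`; then `det A = -(b c)`. -/
theorem frame_of_trace_zero
    (A : EuclideanSpace ℝ (Fin 2) →L[ℝ] EuclideanSpace ℝ (Fin 2))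
    (htr : LinearMap.trace ℝ _ A.toLinearMap = 0) :
    ∃ (e₁ e₂ : EuclideanSpace ℝ (Fin 2)) (b c : ℝ), ‖e₁‖ = 1 ∧ ‖e₂‖ = 1 ∧ inner ℝ e₁ e₂ = 0 ∧
      A e₁ = c • e₂ ∧ A e₂ = b • e₁ ∧ LinearMap.det A.toLinearMap = -(b * c) := by
  -- matrix entries in the standard basis
  obtain ⟨a00, h00⟩ : ∃ a : ℝ, a = A (EuclideanSpace.single 0 1) 0 := ⟨_, rfl⟩
  obtain ⟨a10, h10⟩ : ∃ a : ℝ, a = A (EuclideanSpace.single 0 1) 1 := ⟨_, rfl⟩
  obtain ⟨a01, h01⟩ : ∃ a : ℝ, a = A (EuclideanSpace.single 1 1) 0 := ⟨_, rfl⟩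
  obtain ⟨a11, h11⟩ : ∃ a : ℝ, a = A (EuclideanSpace.single 1 1) 1 := ⟨_, rfl⟩
  have hA : ∀ x y : ℝ, A !₂[x, y] = !₂[x * a00 + y * a01, x * a10 + y * a11] := by
    intro x y
    have h : (!₂[x, y] : EuclideanSpace ℝ (Fin 2))
        = x • EuclideanSpace.single 0 1 + y • EuclideanSpace.single 1 1 := by
      ext i; fin_cases i <;> simp
    rw [h, map_add, map_smul, map_smul]
    ext i; fin_cases i <;> simp [h00, h01, h10, h11]
  have htr' : a00 + a11 = 0 := by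
    have h := LinearMap.trace_eq_sum_inner A.toLinearMap (EuclideanSpace.basisFun (Fin 2) ℝ)
    rw [htr, Fin.sum_univ_two] at h
    simp only [EuclideanSpace.basisFun_apply, ContinuousLinearMap.coe_coe,
      EuclideanSpace.inner_single_left, map_one, one_mul] at h
    rw [h00, h11]; linarith
  have hdet : LinearMap.det A.toLinearMap = a00 * a11 - a01 * a10 := by
    rw [← LinearMap.det_toMatrix (EuclideanSpace.basisFun (Fin 2) ℝ).toBasis, Matrix.det_fin_two]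
    simp [LinearMap.toMatrix_apply, h00, h01, h10, h11]
  obtain ⟨x, y, hunit, hq⟩ := frame_unit_root a00 ((a01 + a10) / 2)
  have hd1 : x ^ 2 * a00 + x * y * a01 + x * y * a10 + y ^ 2 * a11 = 0 := by
    linear_combination hq + y ^ 2 * htr'
  have hd2 : y ^ 2 * a00 - x * y * a01 - x * y * a10 + x ^ 2 * a11 = 0 := by
    linear_combination (-1 : ℝ) * hd1 + (x ^ 2 + y ^ 2) * htr'
  refine ⟨!₂[x, y], !₂[-y, x], -(x * y) * a00 + x ^ 2 * a01 - y ^ 2 * a10 + x * y * a11,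
    -(x * y) * a00 - y ^ 2 * a01 + x ^ 2 * a10 + x * y * a11, ?_, ?_, ?_, ?_, ?_, ?_⟩
  · rw [EuclideanSpace.norm_eq, Fin.sum_univ_two]
    simp [hunit]
  · rw [EuclideanSpace.norm_eq, Fin.sum_univ_two]
    simp only [Matrix.cons_val_zero, Matrix.cons_val_one, Real.norm_eq_abs, sq_abs]
    rw [show (-y) ^ 2 + x ^ 2 = x ^ 2 + y ^ 2 by ring, hunit, Real.sqrt_one]
  · simp [inner, Fin.sum_univ_two]
    ring
  · rw [hA]
    ext i; fin_cases i
    · simp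
      linear_combination x * hd1 - (x * a00 + y * a01) * hunit
    · simp
      linear_combination y * hd1 - (x * a10 + y * a11) * hunit
  · rw [hA]
    ext i; fin_cases i
    · simp
      linear_combination (-y) * hd2 - (-y * a00 + x * a01) * hunit
    · simp
      linear_combination x * hd2 - (-y * a10 + x * a11) * hunit
  · rw [hdet]
    linear_combination (y ^ 2 * a00 - x * y * a01 - x * y * a10 + x ^ 2 * a11) * hd1
      - (a00 * a11 - a01 * a10) * (1 + (x ^ 2 + y ^ 2)) * hunit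

/-- Expansion of a vector of the Euclidean plane in an orthonormal frame. -/
theorem frame_decomp (e₁ e₂ : EuclideanSpace ℝ (Fin 2)) (h1 : ‖e₁‖ = 1) (h2 : ‖e₂‖ = 1)
    (h12 : inner ℝ e₁ e₂ = 0) (x : EuclideanSpace ℝ (Fin 2)) :
    x = inner ℝ x e₁ • e₁ + inner ℝ x e₂ • e₂ := by
  have hn1 : e₁ 0 ^ 2 + e₁ 1 ^ 2 = 1 := by
    have h := h1
    rw [EuclideanSpace.norm_eq, Fin.sum_univ_two] at h
    simp only [Real.norm_eq_abs, sq_abs] at h
    have h' := congrArg (fun t : ℝ => t ^ 2) h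
    simp only [one_pow] at h'
    rw [Real.sq_sqrt (by positivity)] at h'
    exact h'
  have hn2 : e₂ 0 ^ 2 + e₂ 1 ^ 2 = 1 := by
    have h := h2
    rw [EuclideanSpace.norm_eq, Fin.sum_univ_two] at h
    simp only [Real.norm_eq_abs, sq_abs] at h
    have h' := congrArg (fun t : ℝ => t ^ 2) h
    simp only [one_pow] at h'
    rw [Real.sq_sqrt (by positivity)] at h'
    exact h'
  have hn12 : e₁ 0 * e₂ 0 + e₁ 1 * e₂ 1 = 0 := by
    have h := h12
    simp only [inner, Fin.sum_univ_two] at h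
    simp at h
    linarith
  -- the determinant of the frame is `±1`
  have hdet : (e₁ 0 * e₂ 1 - e₁ 1 * e₂ 0) ^ 2 = 1 := by
    have : (e₁ 0 * e₂ 1 - e₁ 1 * e₂ 0) ^ 2
        = (e₁ 0 ^ 2 + e₁ 1 ^ 2) * (e₂ 0 ^ 2 + e₂ 1 ^ 2) - (e₁ 0 * e₂ 0 + e₁ 1 * e₂ 1) ^ 2 := by
      ring
    rw [this, hn1, hn2, hn12]; norm_num
  have hx1 : inner ℝ x e₁ = x 0 * e₁ 0 + x 1 * e₁ 1 := by
    simp only [inner, Fin.sum_univ_two]
    simp
    ring
  have hx2 : inner ℝ x e₂ = x 0 * e₂ 0 + x 1 * e₂ 1 := by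
    simp only [inner, Fin.sum_univ_two]
    simp
    ring
  -- rows of an orthogonal matrix are orthonormal as well
  have hd : e₂ 1 = (e₁ 0 * e₂ 1 - e₁ 1 * e₂ 0) * e₁ 0 := by
    linear_combination e₁ 1 * hn12 - e₂ 1 * hn1
  have hc : e₂ 0 = -((e₁ 0 * e₂ 1 - e₁ 1 * e₂ 0) * e₁ 1) := by
    linear_combination e₁ 0 * hn12 - e₂ 0 * hn1
  have hr00 : e₁ 0 ^ 2 + e₂ 0 ^ 2 = 1 := by
    linear_combination hn1 + e₁ 1 ^ 2 * hdet + (e₂ 0 - (e₁ 0 * e₂ 1 - e₁ 1 * e₂ 0) * e₁ 1) * hc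
  have hr11 : e₁ 1 ^ 2 + e₂ 1 ^ 2 = 1 := by
    linear_combination hn1 + e₁ 0 ^ 2 * hdet + (e₂ 1 + (e₁ 0 * e₂ 1 - e₁ 1 * e₂ 0) * e₁ 0) * hd
  have hr01 : e₁ 0 * e₁ 1 + e₂ 0 * e₂ 1 = 0 := by
    linear_combination (-(e₁ 0 * e₁ 1)) * hdet + e₂ 0 * hd + ((e₁ 0 * e₂ 1 - e₁ 1 * e₂ 0) * e₁ 0) * hc
  rw [hx1, hx2]
  ext i; fin_cases i
  · simp
    linear_combination (-(x 0)) * hr00 - x 1 * hr01
  · simp
    linear_combination (-(x 1)) * hr11 - x 0 * hr01

end Crest.Agent.R211
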