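/-
Row 211, S0326 global assembly, parts (G2) and (G3) (owner: helper24):
blocks of the standard `r`-grid meeting a compact set, their number, and the upper Riemann sum
over the blocks; reindexing of a finite family by `Fin k`.  Names are prefixed `asm_`.
-/
import Mathlib
import Crest.Agent.R211_S0326_Count

set_option autoImplicit false
set_option linter.unusedVariables false
open MeasureTheory
open scoped ENNReal

namespace Crest.Agent.R211

/-- (G3) Reindexing of a finite family by `Fin k`. -/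
theorem asm_reindex {σ : Type*} (I : Finset σ) :
    ∃ (k : ℕ) (φ : Fin k → σ), (∀ i, φ i ∈ I) ∧ (∀ x ∈ I, ∃ i, φ i = x) ∧
      ∀ f : σ → ℝ, ∑ i, f (φ i) = ∑ x ∈ I, f x := by
  refine ⟨I.card, fun i => (I.equivFin.symm i : σ), fun i => (I.equivFin.symm i).2, ?_, ?_⟩
  · intro x hx
    exact ⟨I.equivFin ⟨x, hx⟩, by simp⟩
  · intro f
    rw [← Finset.sum_coe_sort I f]
    exact Equiv.sum_comp I.equivFin.symm (fun x : I => f x)

theorem asm_ex_norm : ‖(!₂[1, 0] : EuclideanSpace ℝ (Fin 2))‖ = 1 := by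
  have h : ‖(!₂[1, 0] : EuclideanSpace ℝ (Fin 2))‖ ^ 2 = 1 ^ 2 := by
    rw [← real_inner_self_eq_norm_sq, latSq_inner2]; simp
  exact (pow_left_inj₀ (norm_nonneg _) zero_le_one two_ne_zero).mp h

theorem asm_ey_norm : ‖(!₂[0, 1] : EuclideanSpace ℝ (Fin 2))‖ = 1 := by
  have h : ‖(!₂[0, 1] : EuclideanSpace ℝ (Fin 2))‖ ^ 2 = 1 ^ 2 := by
    rw [← real_inner_self_eq_norm_sq, latSq_inner2]; simp
  exact (pow_left_inj₀ (norm_nonneg _) zero_le_one two_ne_zero).mp h

theorem asm_ex_ey : inner ℝ (!₂[1, 0] : EuclideanSpace ℝ (Fin 2)) !₂[0, 1] = 0 := by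
  rw [latSq_inner2]; simp

/-- Membership in a block of the standard grid. -/
theorem asm_mem_block_iff (r : ℝ) (hr : 0 < r) (m : ℤ × ℤ) (q : EuclideanSpace ℝ (Fin 2)) :
    q ∈ latSq !₂[1, 0] !₂[0, 1] 0 r m ↔ ⌊q 0 / r⌋ = m.1 ∧ ⌊q 1 / r⌋ = m.2 := by
  rw [mem_latSq_iff _ _ _ asm_ex_norm asm_ey_norm asm_ex_ey r hr]
  simp [latSq_inner2]

/-- (G2b) Two points of a block are at distance at most `√2 r`. -/
theorem asm_block_diam (r : ℝ) (hr : 0 < r) (m : ℤ × ℤ) (q q' : EuclideanSpace ℝ (Fin 2))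
    (hq : q ∈ latSq !₂[1, 0] !₂[0, 1] 0 r m) (hq' : q' ∈ latSq !₂[1, 0] !₂[0, 1] 0 r m) :
    ‖q - q'‖ ≤ Real.sqrt 2 * r := by
  rw [asm_mem_block_iff r hr] at hq hq'
  obtain ⟨h0, h1⟩ := hq
  obtain ⟨h0', h1'⟩ := hq'
  rw [Int.floor_eq_iff] at h0 h1 h0' h1'
  have key : ∀ a b : ℝ, ∀ z : ℤ, ((z:ℝ) ≤ a / r ∧ a / r < z + 1) → ((z:ℝ) ≤ b / r ∧ b / r < z + 1) →
      |a - b| ≤ r := by
    intro a b z ha hb
    have h1 : a / r - b / r < 1 := by linarith [ha.2, hb.1]
    have h2 : b / r - a / r < 1 := by linarith [ha.1, hb.2]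
    have e : a - b = (a / r - b / r) * r := by field_simp
    rw [abs_le]
    constructor
    · rw [e]; nlinarith
    · rw [e]; nlinarith
  apply norm_le_sqrt_two_mul
  intro i
  fin_cases i
  · simpa using key (q 0) (q' 0) m.1 h0 h0'
  · simpa using key (q 1) (q' 1) m.2 h1 h1'

/-- (G2a) The finitely many blocks of the standard `r`-grid meeting a compact set. -/
theorem asm_blocks_exist (D : Set (EuclideanSpace ℝ (Fin 2))) (hD : IsCompact D) (r : ℝ)
    (hr : 0 < r) :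
    ∃ Ms : Finset (ℤ × ℤ), (∀ m ∈ Ms, (latSq !₂[1, 0] !₂[0, 1] 0 r m ∩ D).Nonempty) ∧
      ∀ q ∈ D, ∃ m ∈ Ms, q ∈ latSq !₂[1, 0] !₂[0, 1] 0 r m := by
  classical
  obtain ⟨R, hR⟩ := hD.isBounded.exists_norm_le
  set K : ℤ := ⌈R / r⌉ + 1 with hK
  refine ⟨((Finset.Icc (-K) K) ×ˢ (Finset.Icc (-K) K)).filter
    (fun m => (latSq !₂[1, 0] !₂[0, 1] 0 r m ∩ D).Nonempty), ?_, ?_⟩
  · intro m hm
    exact (Finset.mem_filter.mp hm).2
  · intro q hq
    have hb : ∀ i : Fin 2, -K ≤ ⌊q i / r⌋ ∧ ⌊q i / r⌋ ≤ K := by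
      intro i
      have h1 : |q i| ≤ R := le_trans (by simpa using PiLp.norm_apply_le q i) (hR q hq)
      have h2 : |q i / r| ≤ R / r := by
        rw [abs_div, abs_of_pos hr]; exact div_le_div_of_nonneg_right h1 hr.le
      have h3 := abs_le.mp h2
      have h4 : R / r ≤ ⌈R / r⌉ := Int.le_ceil _
      constructor
      · rw [Int.le_floor, hK]; push_cast; linarith [h3.1]
      · have : (⌊q i / r⌋ : ℝ) ≤ q i / r := Int.floor_le _
        have h5 : (⌊q i / r⌋ : ℝ) ≤ (K : ℝ) := by rw [hK]; push_cast; linarith [h3.2]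
        exact_mod_cast h5
    have hmem : q ∈ latSq !₂[1, 0] !₂[0, 1] 0 r (⌊q 0 / r⌋, ⌊q 1 / r⌋) := by
      rw [asm_mem_block_iff r hr]; exact ⟨rfl, rfl⟩
    refine ⟨(⌊q 0 / r⌋, ⌊q 1 / r⌋), ?_, hmem⟩
    rw [Finset.mem_filter, Finset.mem_product, Finset.mem_Icc, Finset.mem_Icc]
    exact ⟨⟨hb 0, hb 1⟩, ⟨q, hmem, hq⟩⟩

/-- A block meeting `D` lies in the `√2 r`-thickening of `D`. -/
theorem asm_block_subset_cthickening (D : Set (EuclideanSpace ℝ (Fin 2))) (r : ℝ) (hr : 0 < r)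
    (m : ℤ × ℤ) (hm : (latSq !₂[1, 0] !₂[0, 1] 0 r m ∩ D).Nonempty) :
    latSq !₂[1, 0] !₂[0, 1] 0 r m ⊆ Metric.cthickening (Real.sqrt 2 * r) D := by
  obtain ⟨q₀, hq₀, hq₀D⟩ := hm
  intro q hq
  refine Metric.mem_cthickening_of_dist_le q q₀ _ D hq₀D ?_
  rw [dist_eq_norm]
  exact asm_block_diam r hr m q q₀ hq hq₀

/-- (G2c) The number of blocks meeting `D`. -/
theorem asm_blocks_card (D : Set (EuclideanSpace ℝ (Fin 2))) (hD : IsCompact D) (r : ℝ)
    (hr : 0 < r) (Ms : Finset (ℤ × ℤ))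
    (hMs : ∀ m ∈ Ms, (latSq !₂[1, 0] !₂[0, 1] 0 r m ∩ D).Nonempty) :
    (Ms.card : ℝ) * r ^ 2 ≤ (volume (Metric.cthickening (Real.sqrt 2 * r) D)).toReal := by
  have h := lattice_count !₂[1, 0] !₂[0, 1] 0 asm_ex_norm asm_ey_norm asm_ex_ey r hr Ms
    (Metric.cthickening (Real.sqrt 2 * r) D)
    (fun m hm => asm_block_subset_cthickening D r hr m (hMs m hm))
  have hfin : volume (Metric.cthickening (Real.sqrt 2 * r) D) ≠ ⊤ :=
    (hD.cthickening).measure_lt_top.ne
  have h2 := ENNReal.toReal_mono hfin h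
  rw [ENNReal.toReal_mul, ENNReal.toReal_natCast, ENNReal.toReal_ofReal (sq_nonneg r)] at h2
  exact h2

/-- (G2d) Upper Riemann sum over the blocks meeting `D`. -/
theorem asm_riemann_upper (D : Set (EuclideanSpace ℝ (Fin 2))) (hD : IsCompact D)
    (F : EuclideanSpace ℝ (Fin 2) → ℝ) (hF : ContinuousOn F D) (hF0 : ∀ q ∈ D, 0 ≤ F q)
    (hF1 : ∀ q ∈ D, F q ≤ 1) (r : ℝ) (hr : 0 < r) (Ms : Finset (ℤ × ℤ))
    (p : ℤ × ℤ → EuclideanSpace ℝ (Fin 2))
    (hp : ∀ m ∈ Ms, p m ∈ latSq !₂[1, 0] !₂[0, 1] 0 r m ∩ D) (ε₂ : ℝ) (hε₂ : 0 ≤ ε₂)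
    (hosc : ∀ m ∈ Ms, ∀ q ∈ latSq !₂[1, 0] !₂[0, 1] 0 r m ∩ D, F (p m) ≤ F q + ε₂) :
    ∑ m ∈ Ms, r ^ 2 * F (p m) ≤ (∫ q in D, F q) + ε₂ * (volume D).toReal +
      ((volume (Metric.cthickening (Real.sqrt 2 * r) D)).toReal - (volume D).toReal) := by
  -- notation
  set B : ℤ × ℤ → Set (EuclideanSpace ℝ (Fin 2)) := fun m => latSq !₂[1, 0] !₂[0, 1] 0 r m with hB
  have hBmeas : ∀ m, MeasurableSet (B m) := fun m =>
    measurableSet_latSq _ _ _ asm_ex_norm asm_ey_norm asm_ex_ey r hr m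
  have hBvol : ∀ m, volume (B m) = ENNReal.ofReal (r ^ 2) := fun m =>
    volume_latSq _ _ _ asm_ex_norm asm_ey_norm asm_ex_ey r hr m
  have hBdisj : ∀ m m', m ≠ m' → Disjoint (B m) (B m') := fun m m' h =>
    latSq_disjoint _ _ _ asm_ex_norm asm_ey_norm asm_ex_ey r hr h
  have hDmeas : MeasurableSet D := hD.measurableSet
  have hDfin : volume D ≠ ⊤ := hD.measure_lt_top.ne
  have hFint : IntegrableOn F D volume := hF.integrableOn_compact hD
  have hcint : IntegrableOn (fun _ : EuclideanSpace ℝ (Fin 2) => ε₂) D volume :=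
    integrableOn_const hDfin
  have hGint : IntegrableOn (fun q => F q + ε₂) D volume := hFint.add hcint
  have hBfin : ∀ m, volume (B m) ≠ ⊤ := fun m => by rw [hBvol]; exact ENNReal.ofReal_ne_top
  have hIfin : ∀ m, volume (B m ∩ D) ≠ ⊤ := fun m =>
    ne_top_of_le_ne_top (hBfin m) (measure_mono Set.inter_subset_left)
  have hOfin : ∀ m, volume (B m \ D) ≠ ⊤ := fun m =>
    ne_top_of_le_ne_top (hBfin m) (measure_mono Set.sdiff_subset)
  have hsplit : ∀ m, (volume (B m ∩ D)).toReal + (volume (B m \ D)).toReal = r ^ 2 := by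
    intro m
    rw [← ENNReal.toReal_add (hIfin m) (hOfin m), measure_inter_add_sdiff (B m) hDmeas, hBvol,
      ENNReal.toReal_ofReal (sq_nonneg r)]
  -- Step 1+2: per block
  have hblock : ∀ m ∈ Ms, r ^ 2 * F (p m) ≤
      (∫ q in B m ∩ D, (F q + ε₂)) + (volume (B m \ D)).toReal := by
    intro m hm
    have hpm := hp m hm
    have h1 : F (p m) ≤ 1 := hF1 _ hpm.2
    have h0 : 0 ≤ F (p m) := hF0 _ hpm.2
    have hconst : ∫ q in B m ∩ D, F (p m) = (volume (B m ∩ D)).toReal * F (p m) := by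
      rw [setIntegral_const, smul_eq_mul]; rfl
    have hmono : ∫ q in B m ∩ D, F (p m) ≤ ∫ q in B m ∩ D, (F q + ε₂) := by
      apply setIntegral_mono_on
      · exact integrableOn_const (hIfin m)
      · exact hGint.mono_set Set.inter_subset_right
      · exact (hBmeas m).inter hDmeas
      · intro q hq; exact hosc m hm q hq
    have hO : 0 ≤ (volume (B m \ D)).toReal := ENNReal.toReal_nonneg
    calc r ^ 2 * F (p m)
        = (volume (B m ∩ D)).toReal * F (p m) + (volume (B m \ D)).toReal * F (p m) := by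
          rw [← hsplit m]; ring
      _ ≤ (volume (B m ∩ D)).toReal * F (p m) + (volume (B m \ D)).toReal := by
          have := mul_le_mul_of_nonneg_left h1 hO
          linarith
      _ ≤ (∫ q in B m ∩ D, (F q + ε₂)) + (volume (B m \ D)).toReal := by
          rw [← hconst]; linarith
  -- Step 3: the integrals
  have hsumI : ∑ m ∈ Ms, ∫ q in B m ∩ D, (F q + ε₂) ≤ (∫ q in D, F q) + ε₂ * (volume D).toReal := by
    have hdisj : Set.Pairwise (↑Ms) (Function.onFun Disjoint fun m => B m ∩ D) := by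
      intro m _ m' _ hmm'
      exact (hBdisj m m' hmm').mono Set.inter_subset_left Set.inter_subset_left
    rw [← integral_biUnion_finset Ms (fun m _ => (hBmeas m).inter hDmeas) hdisj
      (fun m _ => hGint.mono_set Set.inter_subset_right)]
    have hsub : (⋃ m ∈ Ms, B m ∩ D) ⊆ D := Set.iUnion₂_subset (fun m _ => Set.inter_subset_right)
    have hnn : 0 ≤ᵐ[volume.restrict D] fun q => F q + ε₂ := by
      filter_upwards [ae_restrict_mem hDmeas] with q hq
      have := hF0 q hq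
      simp only [Pi.zero_apply]; linarith
    calc ∫ q in ⋃ m ∈ Ms, B m ∩ D, (F q + ε₂)
        ≤ ∫ q in D, (F q + ε₂) :=
          setIntegral_mono_set hGint hnn (Filter.Eventually.of_forall hsub)
      _ = (∫ q in D, F q) + ε₂ * (volume D).toReal := by
          rw [integral_add hFint hcint, setIntegral_const, smul_eq_mul]
          congr 1
          rw [mul_comm]; rfl
  -- Step 4: the outer parts
  have hsumO : ∑ m ∈ Ms, (volume (B m \ D)).toReal ≤
      (volume (Metric.cthickening (Real.sqrt 2 * r) D)).toReal - (volume D).toReal := by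
    have hCfin : volume (Metric.cthickening (Real.sqrt 2 * r) D) ≠ ⊤ :=
      (hD.cthickening).measure_lt_top.ne
    have hDsub : D ⊆ Metric.cthickening (Real.sqrt 2 * r) D :=
      Metric.self_subset_cthickening D
    rw [← ENNReal.toReal_sum (fun m _ => hOfin m), ← measure_biUnion_finset
      (fun m _ m' _ hmm' => (hBdisj m m' hmm').mono Set.sdiff_subset Set.sdiff_subset)
      (fun m _ => (hBmeas m).diff hDmeas)]
    rw [← ENNReal.toReal_sub_of_le (measure_mono hDsub) hCfin,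
      ← measure_sdiff hDsub hDmeas.nullMeasurableSet hDfin]
    apply ENNReal.toReal_mono
    · exact ne_top_of_le_ne_top hCfin (measure_mono Set.sdiff_subset)
    · apply measure_mono
      apply Set.iUnion₂_subset
      intro m hm q hq
      exact ⟨asm_block_subset_cthickening D r hr m ⟨p m, hp m hm⟩ hq.1, hq.2⟩
  calc ∑ m ∈ Ms, r ^ 2 * F (p m)
      ≤ ∑ m ∈ Ms, ((∫ q in B m ∩ D, (F q + ε₂)) + (volume (B m \ D)).toReal) :=
        Finset.sum_le_sum hblock
    _ = ∑ m ∈ Ms, (∫ q in B m ∩ D, (F q + ε₂)) + ∑ m ∈ Ms, (volume (B m \ D)).toReal :=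
        Finset.sum_add_distrib
    _ ≤ _ := by linarith

end Crest.Agent.R211
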