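/-
Row 211, S0326 sub-package 326D (owner: helper24): uniform estimates from compactness.
Statements exactly as in `blueprints/row211.md` §6.
-/
import Mathlib

set_option autoImplicit false
set_option linter.unusedVariables false
open MeasureTheory
open scoped ENNReal

namespace Crest.Agent.R211

/-- the weight `J` of S0326 -/
noncomputable def Jf (h : ℝ) (g : EuclideanSpace ℝ (Fin 2)) : ℝ :=
  1 / Real.sqrt (1 + (g 0) ^ 2 + h ^ 2 * (g 1) ^ 2)

theorem continuous_Jf (h : ℝ) : Continuous (Jf h) := by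
  unfold Jf
  have hpos : ∀ g : EuclideanSpace ℝ (Fin 2), Real.sqrt (1 + (g 0) ^ 2 + h ^ 2 * (g 1) ^ 2) ≠ 0 := by
    intro g
    exact (Real.sqrt_pos.mpr (by positivity)).ne'
  have h0 : Continuous fun g : EuclideanSpace ℝ (Fin 2) => g 0 :=
    (PiLp.continuous_apply 2 (fun _ : Fin 2 => ℝ) 0)
  have h1 : Continuous fun g : EuclideanSpace ℝ (Fin 2) => g 1 :=
    (PiLp.continuous_apply 2 (fun _ : Fin 2 => ℝ) 1)
  refine Continuous.div continuous_const ?_ hpos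
  exact Real.continuous_sqrt.comp
    ((continuous_const.add (h0.pow 2)).add (continuous_const.mul (h1.pow 2)))

theorem unif_deriv (D U : Set (EuclideanSpace ℝ (Fin 2))) (hD : IsCompact D) (hU : IsOpen U)
    (hDU : D ⊆ U) (V : EuclideanSpace ℝ (Fin 2) → EuclideanSpace ℝ (Fin 2))
    (hV : ContDiffOn ℝ 1 V U) (ω : ℝ) (hω : 0 < ω) :
    ∃ r₀ : ℝ, 0 < r₀ ∧ ∀ p ∈ D, ∀ q : EuclideanSpace ℝ (Fin 2), ‖q - p‖ ≤ r₀ →
      ‖V q - V p - fderiv ℝ V p (q - p)‖ ≤ ω * ‖q - p‖ := by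
  obtain ⟨δ₀, hδ₀, hsub⟩ := hD.exists_cthickening_subset_open hU hDU
  have hK : IsCompact (Metric.cthickening δ₀ D) := hD.cthickening
  have hcont : ContinuousOn (fderiv ℝ V) (Metric.cthickening δ₀ D) :=
    (hV.continuousOn_fderiv_of_isOpen hU le_rfl).mono hsub
  have huc := hK.uniformContinuousOn_of_continuous hcont
  rw [Metric.uniformContinuousOn_iff] at huc
  obtain ⟨δ₁, hδ₁, hδ₁'⟩ := huc ω hω
  refine ⟨min δ₀ δ₁ / 2, by positivity, ?_⟩
  intro p hp q hq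
  have hr0 : min δ₀ δ₁ / 2 ≤ δ₀ := by
    have := min_le_left δ₀ δ₁; linarith
  have hr1 : min δ₀ δ₁ / 2 < δ₁ := by
    have := min_le_right δ₀ δ₁; linarith
  have hpK : p ∈ Metric.cthickening δ₀ D := Metric.self_subset_cthickening D hp
  have hball : Metric.closedBall p (min δ₀ δ₁ / 2) ⊆ Metric.cthickening δ₀ D := by
    intro z hz
    exact Metric.mem_cthickening_of_dist_le z p δ₀ D hp (le_trans (Metric.mem_closedBall.mp hz) hr0)
  have hderiv : ∀ z ∈ Metric.closedBall p (min δ₀ δ₁ / 2),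
      HasFDerivWithinAt V (fderiv ℝ V z) (Metric.closedBall p (min δ₀ δ₁ / 2)) z := by
    intro z hz
    have hzU : z ∈ U := hsub (hball hz)
    have hd : DifferentiableAt ℝ V z :=
      (hV.differentiableOn one_ne_zero z hzU).differentiableAt (hU.mem_nhds hzU)
    exact hd.hasFDerivAt.hasFDerivWithinAt
  have hbound : ∀ z ∈ Metric.closedBall p (min δ₀ δ₁ / 2),
      ‖fderiv ℝ V z - fderiv ℝ V p‖ ≤ ω := by
    intro z hz
    have hdz : dist z p < δ₁ := lt_of_le_of_lt (Metric.mem_closedBall.mp hz) hr1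
    have := hδ₁' z (hball hz) p hpK hdz
    rw [dist_eq_norm] at this
    exact this.le
  have hpB : p ∈ Metric.closedBall p (min δ₀ δ₁ / 2) :=
    Metric.mem_closedBall_self (by positivity)
  have hqB : q ∈ Metric.closedBall p (min δ₀ δ₁ / 2) := by
    rw [Metric.mem_closedBall, dist_eq_norm]; exact hq
  exact (convex_closedBall p _).norm_image_sub_le_of_norm_hasFDerivWithin_le' hderiv hbound hpB hqB

theorem fderiv_bound (D U : Set (EuclideanSpace ℝ (Fin 2))) (hD : IsCompact D) (hU : IsOpen U)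
    (hDU : D ⊆ U) (V : EuclideanSpace ℝ (Fin 2) → EuclideanSpace ℝ (Fin 2))
    (hV : ContDiffOn ℝ 1 V U) :
    ∃ M₁ : ℝ, 0 ≤ M₁ ∧ ∀ p ∈ D, ‖fderiv ℝ V p‖ ≤ M₁ := by
  have hcont : ContinuousOn (fderiv ℝ V) D :=
    (hV.continuousOn_fderiv_of_isOpen hU le_rfl).mono hDU
  obtain ⟨C, hC⟩ := hD.exists_bound_of_continuousOn hcont
  exact ⟨max C 0, le_max_right _ _, fun p hp => le_trans (hC p hp) (le_max_left _ _)⟩

theorem det_gap (D U : Set (EuclideanSpace ℝ (Fin 2))) (hD : IsCompact D) (hU : IsOpen U)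
    (hDU : D ⊆ U) (V : EuclideanSpace ℝ (Fin 2) → EuclideanSpace ℝ (Fin 2))
    (hV : ContDiffOn ℝ 1 V U) (L : ℝ) (hL : 0 < L)
    (hdet : ∀ p ∈ D, -(L ^ 2)⁻¹ < LinearMap.det (fderiv ℝ V p).toLinearMap) :
    ∃ γ : ℝ, 0 < γ ∧ ∀ p ∈ D, L ^ 2 * (-LinearMap.det (fderiv ℝ V p).toLinearMap) ≤ 1 - γ := by
  rcases D.eq_empty_or_nonempty with rfl | hne
  · exact ⟨1, one_pos, fun p hp => absurd hp (Set.notMem_empty p)⟩
  have hcont : ContinuousOn (fun p => L ^ 2 * (-LinearMap.det (fderiv ℝ V p).toLinearMap)) D := by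
    have h1 : ContinuousOn (fderiv ℝ V) D :=
      (hV.continuousOn_fderiv_of_isOpen hU le_rfl).mono hDU
    have h2 : ContinuousOn (fun p => (fderiv ℝ V p).det) D :=
      ContinuousLinearMap.continuous_det.comp_continuousOn h1
    exact continuousOn_const.mul h2.neg
  obtain ⟨p₀, hp₀, hmax⟩ := hD.exists_isMaxOn hne hcont
  have hL2 : 0 < L ^ 2 := by positivity
  have hlt : L ^ 2 * (-LinearMap.det (fderiv ℝ V p₀).toLinearMap) < 1 := by
    have := hdet p₀ hp₀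
    have h3 : -LinearMap.det (fderiv ℝ V p₀).toLinearMap < (L ^ 2)⁻¹ := by linarith
    calc L ^ 2 * (-LinearMap.det (fderiv ℝ V p₀).toLinearMap) < L ^ 2 * (L ^ 2)⁻¹ :=
          mul_lt_mul_of_pos_left h3 hL2
      _ = 1 := mul_inv_cancel₀ hL2.ne'
  refine ⟨1 - L ^ 2 * (-LinearMap.det (fderiv ℝ V p₀).toLinearMap), by linarith, ?_⟩
  intro p hp
  have := hmax hp
  simp only [Set.mem_ofPred_eq] at this
  linarith

theorem J_unif_shift (D U : Set (EuclideanSpace ℝ (Fin 2))) (hD : IsCompact D) (hU : IsOpen U)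
    (hDU : D ⊆ U) (V : EuclideanSpace ℝ (Fin 2) → EuclideanSpace ℝ (Fin 2))
    (hV : ContDiffOn ℝ 1 V U) (h : ℝ) (ε₁ : ℝ) (hε₁ : 0 < ε₁) :
    ∃ d : ℝ, 0 < d ∧ ∀ p ∈ D, ∀ ζ : EuclideanSpace ℝ (Fin 2), ‖ζ‖ ≤ d →
      |Jf h (V p + ζ) - Jf h (V p)| ≤ ε₁ := by
  have hVD : IsCompact (V '' D) := hD.image_of_continuousOn (hV.continuousOn.mono hDU)
  have hK : IsCompact (Metric.cthickening 1 (V '' D)) := hVD.cthickening
  have huc := hK.uniformContinuousOn_of_continuous (continuous_Jf h).continuousOn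
  rw [Metric.uniformContinuousOn_iff] at huc
  obtain ⟨δ, hδ, hδ'⟩ := huc ε₁ hε₁
  refine ⟨min 1 (δ / 2), by positivity, ?_⟩
  intro p hp ζ hζ
  have hζ1 : ‖ζ‖ ≤ 1 := le_trans hζ (min_le_left _ _)
  have hζ2 : ‖ζ‖ < δ := by
    have := le_trans hζ (min_le_right _ _); linarith
  have hVp : V p ∈ V '' D := Set.mem_image_of_mem V hp
  have h1 : V p ∈ Metric.cthickening 1 (V '' D) := Metric.self_subset_cthickening _ hVp
  have h2 : V p + ζ ∈ Metric.cthickening 1 (V '' D) := by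
    refine Metric.mem_cthickening_of_dist_le _ (V p) 1 _ hVp ?_
    rw [dist_eq_norm]; simpa using hζ1
  have h3 : dist (V p + ζ) (V p) < δ := by
    rw [dist_eq_norm]; simpa using hζ2
  have := hδ' _ h2 _ h1 h3
  rw [Real.dist_eq] at this
  exact this.le

theorem J_unif_base (D U : Set (EuclideanSpace ℝ (Fin 2))) (hD : IsCompact D) (hU : IsOpen U)
    (hDU : D ⊆ U) (V : EuclideanSpace ℝ (Fin 2) → EuclideanSpace ℝ (Fin 2))
    (hV : ContDiffOn ℝ 1 V U) (h : ℝ) (ε₂ : ℝ) (hε₂ : 0 < ε₂) :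
    ∃ r₁ : ℝ, 0 < r₁ ∧ ∀ p ∈ D, ∀ p' ∈ D, ‖p - p'‖ ≤ r₁ →
      |Jf h (V p) - Jf h (V p')| ≤ ε₂ := by
  have hcont : ContinuousOn (fun p => Jf h (V p)) D :=
    (continuous_Jf h).comp_continuousOn (hV.continuousOn.mono hDU)
  have huc := hD.uniformContinuousOn_of_continuous hcont
  rw [Metric.uniformContinuousOn_iff] at huc
  obtain ⟨δ, hδ, hδ'⟩ := huc ε₂ hε₂
  refine ⟨δ / 2, by positivity, ?_⟩
  intro p hp p' hp' hpp'
  have h3 : dist p p' < δ := by
    rw [dist_eq_norm]; linarith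
  have := hδ' p hp p' hp' h3
  rw [Real.dist_eq] at this
  exact this.le

theorem J_integrableOn (D U : Set (EuclideanSpace ℝ (Fin 2))) (hD : IsCompact D) (hU : IsOpen U)
    (hDU : D ⊆ U) (V : EuclideanSpace ℝ (Fin 2) → EuclideanSpace ℝ (Fin 2))
    (hV : ContDiffOn ℝ 1 V U) (h : ℝ) :
    IntegrableOn (fun p => Jf h (V p)) D volume := by
  have hcont : ContinuousOn (fun p => Jf h (V p)) D :=
    (continuous_Jf h).comp_continuousOn (hV.continuousOn.mono hDU)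
  exact hcont.integrableOn_compact hD

theorem cthickening_volume_le (D : Set (EuclideanSpace ℝ (Fin 2))) (hD : IsCompact D) (ε₃ : ℝ)
    (hε₃ : 0 < ε₃) :
    ∃ r₂ : ℝ, 0 < r₂ ∧ ∀ r : ℝ, 0 < r → r ≤ r₂ →
      (volume (Metric.cthickening r D)).toReal ≤ (volume D).toReal + ε₃ := by
  have ht := tendsto_measure_cthickening_of_isCompact (μ := (volume : Measure (EuclideanSpace ℝ (Fin 2)))) hD
  have hfin : volume D ≠ ⊤ := hD.measure_lt_top.ne
  have ht' := (ENNReal.tendsto_toReal hfin).comp ht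
  have hev : ∀ᶠ r in nhds (0:ℝ), (volume (Metric.cthickening r D)).toReal < (volume D).toReal + ε₃ :=
    ht'.eventually (gt_mem_nhds (by linarith))
  rw [Metric.eventually_nhds_iff] at hev
  obtain ⟨ε, hε, hε'⟩ := hev
  refine ⟨ε / 2, by positivity, ?_⟩
  intro r hr hr2
  have : dist r 0 < ε := by
    rw [Real.dist_eq, sub_zero, abs_of_pos hr]; linarith
  exact (hε' this).le

end Crest.Agent.R211
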