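/-
Row 211, statement S0326: per-block covering statement and global glue (owner: helper22).
All names are prefixed `glue_`.
-/
import Mathlib
import Crest.Agent.R211_S0326_Frame
import Crest.Agent.R211_S0326_Count
import Crest.Agent.R211_S0326_Unif
import Crest.Agent.R211_S0326_Block
import Crest.Agent.R211_S0326_Riem

set_option autoImplicit false
open MeasureTheory
open scoped ENNReal

namespace Crest.Agent.R211

theorem glue_ex_norm : ‖(!₂[1, 0] : EuclideanSpace ℝ (Fin 2))‖ = 1 := by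
  rw [EuclideanSpace.norm_eq, Real.sqrt_eq_one]; simp [Fin.sum_univ_two]

theorem glue_ey_norm : ‖(!₂[0, 1] : EuclideanSpace ℝ (Fin 2))‖ = 1 := by
  rw [EuclideanSpace.norm_eq, Real.sqrt_eq_one]; simp [Fin.sum_univ_two]

theorem glue_exy : inner ℝ (!₂[1, 0] : EuclideanSpace ℝ (Fin 2)) !₂[0, 1] = 0 := by
  rw [block_inner_eq]; simp

/-- Coordinate description of the blocks of the standard grid. -/
theorem glue_mem_blk {r : ℝ} (hr : 0 < r) (m : ℤ × ℤ) (z : EuclideanSpace ℝ (Fin 2)) :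
    z ∈ latSq !₂[1, 0] !₂[0, 1] 0 r m ↔
      (r * m.1 ≤ z 0 ∧ z 0 < r * (m.1 + 1)) ∧ (r * m.2 ≤ z 1 ∧ z 1 < r * (m.2 + 1)) := by
  rw [mem_latSq_iff _ _ _ glue_ex_norm glue_ey_norm glue_exy r hr, Int.floor_eq_iff,
    Int.floor_eq_iff]
  have h0 : inner ℝ (z - 0) (!₂[1, 0] : EuclideanSpace ℝ (Fin 2)) = z 0 := by
    rw [block_inner_eq]; simp
  have h1 : inner ℝ (z - 0) (!₂[0, 1] : EuclideanSpace ℝ (Fin 2)) = z 1 := by
    rw [block_inner_eq]; simp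
  rw [h0, h1, le_div_iff₀ hr, div_lt_iff₀ hr, le_div_iff₀ hr, div_lt_iff₀ hr]
  constructor
  · rintro ⟨⟨a, b⟩, c, d⟩
    exact ⟨⟨by linarith, by linarith⟩, by linarith, by linarith⟩
  · rintro ⟨⟨a, b⟩, c, d⟩
    exact ⟨⟨by linarith, by linarith⟩, by linarith, by linarith⟩

/-- Real form of the lattice count in a sup-box. -/
theorem glue_count_real (e₁ e₂ p₀ : EuclideanSpace ℝ (Fin 2)) (h1 : ‖e₁‖ = 1) (h2 : ‖e₂‖ = 1)
    (h12 : inner ℝ e₁ e₂ = 0) (δ : ℝ) (hδ : 0 < δ) (I : Finset (ℤ × ℤ))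
    (zc : EuclideanSpace ℝ (Fin 2)) (R : ℝ) (hR : 0 ≤ R)
    (hS : ∀ jk ∈ I, latSq e₁ e₂ p₀ δ jk ⊆ {x : EuclideanSpace ℝ (Fin 2) | ∀ i, |x i - zc i| ≤ R}) :
    (I.card : ℝ) * δ ^ 2 ≤ (2 * R) ^ 2 := by
  have hcount := lattice_count e₁ e₂ p₀ h1 h2 h12 δ hδ I _ hS
  rw [volume_supBox zc R hR] at hcount
  have h3 : ENNReal.ofReal ((I.card : ℝ) * δ ^ 2) ≤ ENNReal.ofReal ((2 * R) ^ 2) := by
    rw [ENNReal.ofReal_mul (Nat.cast_nonneg _), ENNReal.ofReal_natCast]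
    exact hcount
  exact (ENNReal.ofReal_le_ofReal_iff (sq_nonneg _)).mp h3

theorem glue_block
    (D : Set (EuclideanSpace ℝ (Fin 2)))
    (V : EuclideanSpace ℝ (Fin 2) → EuclideanSpace ℝ (Fin 2)) (L h : ℝ) (hL : 0 < L)
    (htr : ∀ p ∈ D, LinearMap.trace ℝ _ (fderiv ℝ V p).toLinearMap = 0)
    (hdet0 : ∀ p ∈ D, LinearMap.det (fderiv ℝ V p).toLinearMap ≤ 0)
    (M₁ γ : ℝ) (hM₁ : ∀ p ∈ D, ‖fderiv ℝ V p‖ ≤ M₁) (hγ : 0 < γ)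
    (hγ' : ∀ p ∈ D, L ^ 2 * (-LinearMap.det (fderiv ℝ V p).toLinearMap) ≤ 1 - γ)
    (ω r₀ : ℝ) (hω : 0 ≤ ω)
    (hunif : ∀ p ∈ D, ∀ q : EuclideanSpace ℝ (Fin 2), ‖q - p‖ ≤ r₀ →
      ‖V q - V p - fderiv ℝ V p (q - p)‖ ≤ ω * ‖q - p‖)
    (ε₁ d : ℝ)
    (hshift : ∀ p ∈ D, ∀ ζ : EuclideanSpace ℝ (Fin 2), ‖ζ‖ ≤ d →
      |Jf h (V p + ζ) - Jf h (V p)| ≤ ε₁)
    (r δ η : ℝ) (hr : 0 < r) (hδ : 0 < δ) (hrr₀ : Real.sqrt 2 * r ≤ r₀)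
    (hη : (1 + L * M₁) / γ * (Real.sqrt 2 * δ + L * (ω * (Real.sqrt 2 * r))) ≤ η)
    (hd : M₁ * (Real.sqrt 2 * (2 * (r / 2 + η + Real.sqrt 2 * δ))) ≤ d)
    (m : ℤ × ℤ) (pm : EuclideanSpace ℝ (Fin 2)) (hpmD : pm ∈ D)
    (hpm : pm ∈ latSq !₂[1, 0] !₂[0, 1] 0 r m) :
    ∃ (I : Finset (ℤ × ℤ)) (C A B G : ℤ × ℤ → EuclideanSpace ℝ (Fin 2)),
      (∀ jk ∈ I, A jk ≠ 0 ∧ ‖B jk‖ = ‖A jk‖ ∧ inner ℝ (A jk) (B jk) = 0 ∧
        ‖A jk‖ ^ 2 = δ ^ 2) ∧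
      (∀ jk ∈ I, Jf h (G jk) ≤ Jf h (V pm) + ε₁) ∧
      (I.card : ℝ) * δ ^ 2 ≤ (2 * (r / 2 + η + Real.sqrt 2 * δ)) ^ 2 ∧
      ∀ p ∈ D, p ∈ latSq !₂[1, 0] !₂[0, 1] 0 r m → ∀ s : ℝ, |s| ≤ L →
        ∃ jk ∈ I, ∃ x ∈ Set.Icc (0 : ℝ) 1, ∃ y ∈ Set.Icc (0 : ℝ) 1,
          p + s • V p = C jk + x • A jk + y • B jk + s • G jk := by
  classical
  obtain ⟨e₁, e₂, b, c, h1, h2, h12, hA1, hA2, hdetbc⟩ :=
    frame_of_trace_zero (fderiv ℝ V pm) (htr pm hpmD)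
  have hbc0 : 0 ≤ b * c := by
    have := hdet0 pm hpmD
    rw [hdetbc] at this
    linarith
  have hbc : L ^ 2 * (b * c) ≤ 1 - γ := by
    have := hγ' pm hpmD
    rw [hdetbc, neg_neg] at this
    exact this
  have hM₁0 : 0 ≤ M₁ := (norm_nonneg _).trans (hM₁ pm hpmD)
  have hs2 : (0 : ℝ) ≤ Real.sqrt 2 := Real.sqrt_nonneg 2
  have hη0 : 0 ≤ η := by
    refine le_trans ?_ hη
    have : 0 ≤ Real.sqrt 2 * δ + L * (ω * (Real.sqrt 2 * r)) := by positivity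
    positivity
  obtain ⟨R, hR⟩ : ∃ R : ℝ, R = r / 2 + η + Real.sqrt 2 * δ := ⟨_, rfl⟩
  rw [← hR] at hd ⊢
  have hR0 : 0 ≤ R := by rw [hR]; positivity
  have hrR : r / 2 ≤ R := by rw [hR]; nlinarith [mul_nonneg hs2 hδ.le]
  obtain ⟨zc, hzc⟩ : ∃ zc : EuclideanSpace ℝ (Fin 2),
      zc = !₂[r * ((m.1 : ℝ) + 1 / 2), r * ((m.2 : ℝ) + 1 / 2)] := ⟨_, rfl⟩
  have hblk : ∀ q ∈ latSq !₂[1, 0] !₂[0, 1] 0 r m, ∀ i, |q i - zc i| ≤ r / 2 := by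
    intro q hq i
    rw [glue_mem_blk hr] at hq
    fin_cases i
    · have : zc 0 = r * ((m.1 : ℝ) + 1 / 2) := by rw [hzc]; simp
      simp only [Fin.zero_eta]
      rw [this, abs_le]
      constructor <;> nlinarith [hq.1.1, hq.1.2]
    · have : zc 1 = r * ((m.2 : ℝ) + 1 / 2) := by rw [hzc]; simp
      simp only [Fin.mk_one]
      rw [this, abs_le]
      constructor <;> nlinarith [hq.2.1, hq.2.2]
  have hcoord : ∀ (v : EuclideanSpace ℝ (Fin 2)) (i : Fin 2), |v i| ≤ ‖v‖ := by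
    intro v i
    have := PiLp.norm_apply_le v i
    rwa [Real.norm_eq_abs] at this
  -- the finite index set
  have hfin : {jk : ℤ × ℤ | latSq e₁ e₂ pm δ jk ⊆
      {x : EuclideanSpace ℝ (Fin 2) | ∀ i, |x i - zc i| ≤ R}}.Finite := by
    by_contra hinf
    obtain ⟨t, ht, htc⟩ := (Set.not_finite.mp hinf).exists_subset_card_eq
      (⌈(2 * R) ^ 2 / δ ^ 2⌉₊ + 1)
    have hcount := glue_count_real e₁ e₂ pm h1 h2 h12 δ hδ t zc R hR0 (fun jk hjk => ht hjk)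
    rw [htc] at hcount
    have h3 : (2 * R) ^ 2 / δ ^ 2 ≤ (⌈(2 * R) ^ 2 / δ ^ 2⌉₊ : ℝ) := Nat.le_ceil _
    have hδ2 : 0 < δ ^ 2 := by positivity
    rw [div_le_iff₀ hδ2] at h3
    push_cast at hcount
    nlinarith
  refine ⟨hfin.toFinset, fun jk => pm + δ • ((jk.1 : ℝ) • e₁ + (jk.2 : ℝ) • e₂),
    fun _ => δ • e₁, fun _ => δ • e₂,
    fun jk => V pm + fderiv ℝ V pm (δ • ((jk.1 : ℝ) • e₁ + (jk.2 : ℝ) • e₂)), ?_, ?_, ?_, ?_⟩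
  · intro jk _
    have he1 : e₁ ≠ 0 := by
      intro h0; rw [h0, norm_zero] at h1; exact zero_ne_one h1
    refine ⟨smul_ne_zero hδ.ne' he1, ?_, ?_, ?_⟩
    · rw [norm_smul, norm_smul, h1, h2]
    · rw [inner_smul_left, inner_smul_right, h12]; simp
    · rw [norm_smul, h1, Real.norm_eq_abs, abs_of_pos hδ, mul_one]
  · intro jk hjk
    rw [Set.Finite.mem_toFinset] at hjk
    have hcorner : pm + δ • ((jk.1 : ℝ) • e₁ + (jk.2 : ℝ) • e₂) ∈ latSq e₁ e₂ pm δ jk :=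
      ⟨0, ⟨le_refl _, zero_lt_one⟩, 0, ⟨le_refl _, zero_lt_one⟩, by simp⟩
    have hcb := hjk hcorner
    have hℓ : ‖δ • ((jk.1 : ℝ) • e₁ + (jk.2 : ℝ) • e₂)‖ ≤ Real.sqrt 2 * (2 * R) := by
      apply norm_le_sqrt_two_mul
      intro i
      have h3 := hcb i
      have h4 := hblk pm hpm i
      have h5 : (δ • ((jk.1 : ℝ) • e₁ + (jk.2 : ℝ) • e₂)) i =
          ((pm + δ • ((jk.1 : ℝ) • e₁ + (jk.2 : ℝ) • e₂)) i - zc i) - (pm i - zc i) := by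
        simp
      rw [h5]
      have := abs_sub (((pm + δ • ((jk.1 : ℝ) • e₁ + (jk.2 : ℝ) • e₂)) i - zc i)) (pm i - zc i)
      linarith
    have hζ : ‖fderiv ℝ V pm (δ • ((jk.1 : ℝ) • e₁ + (jk.2 : ℝ) • e₂))‖ ≤ d := by
      refine ((fderiv ℝ V pm).le_opNorm _).trans ?_
      refine le_trans (mul_le_mul (hM₁ pm hpmD) hℓ (norm_nonneg _) hM₁0) hd
    have := (abs_le.mp (hshift pm hpmD _ hζ)).2
    linarith
  · exact glue_count_real e₁ e₂ pm h1 h2 h12 δ hδ hfin.toFinset zc R hR0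
      (fun jk hjk => (Set.Finite.mem_toFinset hfin).mp hjk)
  · intro p hpD hpblk s hs
    have hppm : ‖p - pm‖ ≤ Real.sqrt 2 * r := by
      apply norm_le_sqrt_two_mul
      intro i
      have h3 := hblk p hpblk i
      have h4 := hblk pm hpm i
      have h5 : (p - pm) i = (p i - zc i) - (pm i - zc i) := by simp
      rw [h5]
      have := abs_sub (p i - zc i) (pm i - zc i)
      linarith
    have herr : ‖V p - V pm - fderiv ℝ V pm (p - pm)‖ ≤ ω * (Real.sqrt 2 * r) :=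
      (hunif pm hpmD p (hppm.trans hrr₀)).trans (mul_le_mul_of_nonneg_left hppm hω)
    obtain ⟨j, k, x, hx, y, hy, heq, hnorm⟩ := block_cover (fderiv ℝ V pm) e₁ e₂ b c h1 h2 h12
      hA1 hA2 L γ hL hγ hbc0 hbc δ hδ pm (V pm) p (V p) s hs
    have hnorm' : ‖p - (pm + δ • ((j : ℝ) • e₁ + (k : ℝ) • e₂))‖ ≤ η := by
      refine hnorm.trans (le_trans ?_ hη)
      have h6 : (1 + L * ‖fderiv ℝ V pm‖) / γ ≤ (1 + L * M₁) / γ := by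
        apply div_le_div_of_nonneg_right _ hγ.le
        have := mul_le_mul_of_nonneg_left (hM₁ pm hpmD) hL.le
        linarith
      have h7 : Real.sqrt 2 * δ + L * ‖V p - V pm - fderiv ℝ V pm (p - pm)‖ ≤
          Real.sqrt 2 * δ + L * (ω * (Real.sqrt 2 * r)) := by
        have := mul_le_mul_of_nonneg_left herr hL.le
        linarith
      have h8 : 0 ≤ Real.sqrt 2 * δ + L * ‖V p - V pm - fderiv ℝ V pm (p - pm)‖ := by positivity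
      have h9 : 0 ≤ (1 + L * M₁) / γ := by positivity
      exact mul_le_mul h6 h7 h8 h9
    refine ⟨(j, k), ?_, x, ⟨hx.1, hx.2.le⟩, y, ⟨hy.1, hy.2.le⟩, heq⟩
    rw [Set.Finite.mem_toFinset]
    rintro q ⟨x', hx', y', hy', rfl⟩ i
    have h10 : ‖x' • (δ • e₁) + y' • (δ • e₂)‖ ≤ Real.sqrt 2 * δ := by
      have h11 : x' • (δ • e₁) + y' • (δ • e₂) = δ • (x' • e₁ + y' • e₂) := by module
      rw [h11, norm_smul, Real.norm_eq_abs, abs_of_pos hδ, mul_comm]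
      exact mul_le_mul_of_nonneg_right (block_norm_comb_le e₁ e₂ h1 h2 h12 x' y'
        (by rw [abs_le]; constructor <;> linarith [hx'.1, hx'.2])
        (by rw [abs_le]; constructor <;> linarith [hy'.1, hy'.2])) hδ.le
    have h12' := hcoord (x' • (δ • e₁) + y' • (δ • e₂)) i
    have h13 := hcoord (p - (pm + δ • ((j : ℝ) • e₁ + (k : ℝ) • e₂))) i
    have h14 := hblk p hpblk i
    show |(pm + δ • ((j : ℝ) • e₁ + (k : ℝ) • e₂) + x' • (δ • e₁) + y' • (δ • e₂)) i - zc i| ≤ R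
    have h15 : (pm + δ • ((j : ℝ) • e₁ + (k : ℝ) • e₂) +
        x' • (δ • e₁) + y' • (δ • e₂)) i - zc i =
        (x' • (δ • e₁) + y' • (δ • e₂)) i
          - (p - (pm + δ • ((j : ℝ) • e₁ + (k : ℝ) • e₂))) i + (p i - zc i) := by
      simp
      ring
    rw [h15]
    have h16 := abs_add_three ((x' • (δ • e₁) + y' • (δ • e₂)) i)
      (-(p - (pm + δ • ((j : ℝ) • e₁ + (k : ℝ) • e₂))) i) (p i - zc i)
    rw [abs_neg] at h16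
    rw [hR]
    have h17 : (x' • (δ • e₁) + y' • (δ • e₂)) i
          - (p - (pm + δ • ((j : ℝ) • e₁ + (k : ℝ) • e₂))) i + (p i - zc i) =
        (x' • (δ • e₁) + y' • (δ • e₂)) i
          + -(p - (pm + δ • ((j : ℝ) • e₁ + (k : ℝ) • e₂))) i + (p i - zc i) := by ring
    rw [h17]
    linarith


theorem glue_Jf_nonneg (h : ℝ) (g : EuclideanSpace ℝ (Fin 2)) : 0 ≤ Jf h g := by
  unfold Jf; positivity

theorem glue_Jf_le_one (h : ℝ) (g : EuclideanSpace ℝ (Fin 2)) : Jf h g ≤ 1 := by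
  unfold Jf
  have h1 : (1 : ℝ) ≤ Real.sqrt (1 + (g 0) ^ 2 + h ^ 2 * (g 1) ^ 2) := by
    rw [Real.one_le_sqrt]
    nlinarith [sq_nonneg (g 0), sq_nonneg (h * g 1)]
  rw [div_le_one (by positivity)]
  exact h1

/-- Bookkeeping of the error terms. -/
theorem glue_eps (I₀ v ε : ℝ) (hI0 : 0 ≤ I₀) (hIv : I₀ ≤ v) (hε : 0 < ε) :
    ∃ θ ε₁ ε₂ ε₃ : ℝ, 0 < θ ∧ θ ≤ 1 ∧ 0 < ε₁ ∧ 0 < ε₂ ∧ 0 < ε₃ ∧
      (1 + θ) ^ 2 * (I₀ + ε₂ * v + ε₃ + ε₁ * (v + ε₃)) ≤ I₀ + ε := by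
  have hv : 0 ≤ v := hI0.trans hIv
  obtain ⟨w, hw⟩ : ∃ w : ℝ, w = v + 1 := ⟨_, rfl⟩
  have hw0 : 0 < w := by rw [hw]; linarith
  obtain ⟨θ, hθdef⟩ : ∃ θ : ℝ, θ = min 1 (ε / (12 * w)) := ⟨_, rfl⟩
  obtain ⟨e, hedef⟩ : ∃ e : ℝ, e = ε / (32 * w) := ⟨_, rfl⟩
  obtain ⟨e₃, he₃def⟩ : ∃ e₃ : ℝ, e₃ = min 1 (ε / 32) := ⟨_, rfl⟩
  have hθ0 : 0 < θ := by rw [hθdef]; positivity
  have hθ1 : θ ≤ 1 := by rw [hθdef]; exact min_le_left _ _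
  have hθw : θ * w ≤ ε / 12 := by
    have h1 : θ ≤ ε / (12 * w) := by rw [hθdef]; exact min_le_right _ _
    calc θ * w ≤ ε / (12 * w) * w := mul_le_mul_of_nonneg_right h1 hw0.le
      _ = ε / 12 := by field_simp
  have he0 : 0 < e := by rw [hedef]; positivity
  have hew : e * w = ε / 32 := by rw [hedef]; field_simp
  have he₃0 : 0 < e₃ := by rw [he₃def]; positivity
  have he₃1 : e₃ ≤ 1 := by rw [he₃def]; exact min_le_left _ _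
  have he₃ε : e₃ ≤ ε / 32 := by rw [he₃def]; exact min_le_right _ _
  refine ⟨θ, e, e, e₃, hθ0, hθ1, he0, he0, he₃0, ?_⟩
  have h1 : (1 + θ) ^ 2 ≤ 1 + 3 * θ := by nlinarith
  have h2 : (1 + θ) ^ 2 ≤ 4 := by nlinarith
  have hX : 0 ≤ e * v + e₃ + e * (v + e₃) := by positivity
  have h3 : θ * I₀ ≤ ε / 12 := by
    have : θ * I₀ ≤ θ * w := mul_le_mul_of_nonneg_left (by rw [hw]; linarith) hθ0.le
    linarith
  have h4 : e * v ≤ ε / 32 := by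
    have : e * v ≤ e * w := mul_le_mul_of_nonneg_left (by rw [hw]; linarith) he0.le
    linarith
  have h5 : e * (v + e₃) ≤ ε / 32 := by
    have : e * (v + e₃) ≤ e * w := mul_le_mul_of_nonneg_left (by rw [hw]; linarith) he0.le
    linarith
  calc (1 + θ) ^ 2 * (I₀ + e * v + e₃ + e * (v + e₃))
      = (1 + θ) ^ 2 * I₀ + (1 + θ) ^ 2 * (e * v + e₃ + e * (v + e₃)) := by ring
    _ ≤ (1 + 3 * θ) * I₀ + 4 * (e * v + e₃ + e * (v + e₃)) :=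
        add_le_add (mul_le_mul_of_nonneg_right h1 hI0) (mul_le_mul_of_nonneg_right h2 hX)
    _ ≤ I₀ + ε := by linarith

/-- Choice of the scales `r` (blocks), `δ` (small squares), `η` (margin). -/
theorem glue_params (L M₁ γ θ ω r₀ r₁ r₂ d : ℝ) (hL : 0 < L) (hM₁ : 0 ≤ M₁) (hγ : 0 < γ)
    (hθ : 0 < θ) (hθ1 : θ ≤ 1)
    (hω : (1 + L * M₁) / γ * (L * (ω * Real.sqrt 2)) ≤ θ / 8)
    (hr₀ : 0 < r₀) (hr₁ : 0 < r₁) (hr₂ : 0 < r₂) (hd : 0 < d) :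
    ∃ r δ η : ℝ, 0 < r ∧ 0 < δ ∧ Real.sqrt 2 * r ≤ r₀ ∧ Real.sqrt 2 * r ≤ r₁ ∧
      Real.sqrt 2 * r ≤ r₂ ∧
      (1 + L * M₁) / γ * (Real.sqrt 2 * δ + L * (ω * (Real.sqrt 2 * r))) ≤ η ∧
      M₁ * (Real.sqrt 2 * (2 * (r / 2 + η + Real.sqrt 2 * δ))) ≤ d ∧
      2 * (r / 2 + η + Real.sqrt 2 * δ) ≤ (1 + θ) * r := by
  obtain ⟨Cη, hCη⟩ : ∃ Cη : ℝ, Cη = (1 + L * M₁) / γ := ⟨_, rfl⟩
  rw [← hCη] at hω ⊢
  have hCη0 : 0 < Cη := by rw [hCη]; positivity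
  have hs2 : Real.sqrt 2 ≤ 3 / 2 := Real.sqrt_le_iff.mpr ⟨by norm_num, by norm_num⟩
  have hs20 : 0 < Real.sqrt 2 := Real.sqrt_pos.mpr (by norm_num)
  obtain ⟨M', hM'⟩ : ∃ M' : ℝ, M' = M₁ + 1 := ⟨_, rfl⟩
  have hM'0 : 0 < M' := by rw [hM']; linarith
  obtain ⟨r, hrdef⟩ : ∃ r : ℝ, r = min (min r₀ r₁) (min r₂ (d / M')) / 3 := ⟨_, rfl⟩
  have hr : 0 < r := by rw [hrdef]; positivity
  have hmin : 3 * r = min (min r₀ r₁) (min r₂ (d / M')) := by rw [hrdef]; ring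
  have h3r₀ : 3 * r ≤ r₀ := by rw [hmin]; exact (min_le_left _ _).trans (min_le_left _ _)
  have h3r₁ : 3 * r ≤ r₁ := by rw [hmin]; exact (min_le_left _ _).trans (min_le_right _ _)
  have h3r₂ : 3 * r ≤ r₂ := by rw [hmin]; exact (min_le_right _ _).trans (min_le_left _ _)
  have h3rd : 3 * r ≤ d / M' := by rw [hmin]; exact (min_le_right _ _).trans (min_le_right _ _)
  have h3rd' : 3 * r * M' ≤ d := by rwa [le_div_iff₀ hM'0] at h3rd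
  obtain ⟨C', hC'⟩ : ∃ C' : ℝ, C' = Cη + 1 := ⟨_, rfl⟩
  have hC'0 : 0 < C' := by rw [hC']; linarith
  obtain ⟨q, hqdef⟩ : ∃ q : ℝ, q = θ * r / (8 * C') := ⟨_, rfl⟩
  have hq0 : 0 < q := by rw [hqdef]; positivity
  have hqC : C' * q = θ * r / 8 := by rw [hqdef]; field_simp
  have hsq : Real.sqrt 2 * (q / Real.sqrt 2) = q := by field_simp
  have hθr : 0 < θ * r := by positivity
  have hCq : Cη * q ≤ θ * r / 8 := by rw [hC'] at hqC; nlinarith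
  have hq' : q ≤ θ * r / 8 := by rw [hC'] at hqC; nlinarith
  have hsr : Real.sqrt 2 * r ≤ 3 / 2 * r := mul_le_mul_of_nonneg_right hs2 hr.le
  refine ⟨r, q / Real.sqrt 2, θ * r / 4, hr, by positivity, ?_, ?_, ?_, ?_, ?_, ?_⟩
  · linarith
  · linarith
  · linarith
  · rw [hsq]
    have h2 : Cη * (L * (ω * (Real.sqrt 2 * r))) = (Cη * (L * (ω * Real.sqrt 2))) * r := by ring
    have h3 : (Cη * (L * (ω * Real.sqrt 2))) * r ≤ θ / 8 * r :=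
      mul_le_mul_of_nonneg_right hω hr.le
    rw [mul_add, h2]; linarith
  · rw [hsq]
    have h1 : 2 * (r / 2 + θ * r / 4 + q) ≤ 2 * r := by nlinarith
    have h2 : Real.sqrt 2 * (2 * (r / 2 + θ * r / 4 + q)) ≤ 3 / 2 * (2 * r) :=
      mul_le_mul hs2 h1 (by positivity) (by norm_num)
    calc M₁ * (Real.sqrt 2 * (2 * (r / 2 + θ * r / 4 + q))) ≤ M₁ * (3 / 2 * (2 * r)) :=
          mul_le_mul_of_nonneg_left h2 hM₁
      _ ≤ d := by rw [hM'] at h3rd'; nlinarith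
  · rw [hsq]
    nlinarith

/-- Global form of S0326, in terms of `Jf`. -/
theorem glue_main
    (D : Set (EuclideanSpace ℝ (Fin 2))) (hD : IsCompact D)
    (V : EuclideanSpace ℝ (Fin 2) → EuclideanSpace ℝ (Fin 2)) (U : Set (EuclideanSpace ℝ (Fin 2)))
    (hU : IsOpen U) (hDU : D ⊆ U) (hV : ContDiffOn ℝ 1 V U) (L h : ℝ) (hL : 0 < L)
    (htr : ∀ p ∈ D, LinearMap.trace ℝ _ (fderiv ℝ V p).toLinearMap = 0)
    (hdet : ∀ p ∈ D, -(L ^ 2)⁻¹ < LinearMap.det (fderiv ℝ V p).toLinearMap ∧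
      LinearMap.det (fderiv ℝ V p).toLinearMap ≤ 0)
    (ε : ℝ) (hε : 0 < ε) :
    ∃ (k : ℕ) (c a b g : Fin k → EuclideanSpace ℝ (Fin 2)),
      (∀ i, a i ≠ 0 ∧ ‖b i‖ = ‖a i‖ ∧ inner ℝ (a i) (b i) = 0) ∧
      (∀ p ∈ D, ∀ s : ℝ, |s| ≤ L → ∃ i, ∃ x ∈ Set.Icc (0 : ℝ) 1, ∃ y ∈ Set.Icc (0 : ℝ) 1,
          p + s • V p = c i + x • a i + y • b i + s • g i) ∧
      ∑ i, ‖a i‖ ^ 2 * Jf h (g i) ≤ (∫ p in D, Jf h (V p)) + ε := by
  classical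
  obtain ⟨M₁, hM₁0, hM₁⟩ := fderiv_bound D U hD hU hDU V hV
  obtain ⟨γ, hγ, hγ'⟩ := det_gap D U hD hU hDU V hV L hL (fun p hp => (hdet p hp).1)
  obtain ⟨v, hv⟩ : ∃ v : ℝ, v = (volume D).toReal := ⟨_, rfl⟩
  obtain ⟨I₀, hI₀⟩ : ∃ I₀ : ℝ, I₀ = ∫ p in D, Jf h (V p) := ⟨_, rfl⟩
  have hDfin : volume D ≠ ⊤ := hD.measure_lt_top.ne
  have hI0 : 0 ≤ I₀ := by
    rw [hI₀]; exact setIntegral_nonneg hD.measurableSet (fun p _ => glue_Jf_nonneg h _)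
  have hIv : I₀ ≤ v := by
    have h1 : ∫ p in D, Jf h (V p) ≤ ∫ p in D, (1 : ℝ) :=
      setIntegral_mono_on (J_integrableOn D U hD hU hDU V hV h) (integrableOn_const hDfin)
        hD.measurableSet (fun p _ => glue_Jf_le_one h _)
    rw [hI₀, hv]
    refine h1.trans (le_of_eq ?_)
    simp [Measure.real]
  obtain ⟨θ, ε₁, ε₂, ε₃, hθ, hθ1, hε₁, hε₂, hε₃, hbook⟩ := glue_eps I₀ v ε hI0 hIv hε
  obtain ⟨d, hd, hshift⟩ := J_unif_shift D U hD hU hDU V hV h ε₁ hε₁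
  obtain ⟨r₁, hr₁, hbase⟩ := J_unif_base D U hD hU hDU V hV h ε₂ hε₂
  obtain ⟨r₂, hr₂, hthick⟩ := cthickening_volume_le D hD ε₃ hε₃
  have hs20 : 0 < Real.sqrt 2 := Real.sqrt_pos.mpr (by norm_num)
  have hCη0 : 0 < (1 + L * M₁) / γ := by positivity
  obtain ⟨K, hK⟩ : ∃ K : ℝ, K = (1 + L * M₁) / γ * (L * Real.sqrt 2) := ⟨_, rfl⟩
  have hK0 : 0 < K := by rw [hK]; positivity
  obtain ⟨ω, hωdef⟩ : ∃ ω : ℝ, ω = θ / (8 * K) := ⟨_, rfl⟩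
  have hω0 : 0 < ω := by rw [hωdef]; positivity
  have hω : (1 + L * M₁) / γ * (L * (ω * Real.sqrt 2)) ≤ θ / 8 := by
    have h1 : (1 + L * M₁) / γ * (L * (ω * Real.sqrt 2)) = K * ω := by rw [hK]; ring
    rw [h1, hωdef]
    apply le_of_eq; field_simp
  obtain ⟨r₀, hr₀, hunif⟩ := unif_deriv D U hD hU hDU V hV ω hω0
  obtain ⟨r, δ, η, hr, hδ, hrr₀, hrr₁, hrr₂, hη, hdd, hside⟩ :=
    glue_params L M₁ γ θ ω r₀ r₁ r₂ d hL hM₁0 hγ hθ hθ1 hω hr₀ hr₁ hr₂ hd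
  have hη0 : 0 ≤ η := by
    refine le_trans ?_ hη
    have : 0 ≤ Real.sqrt 2 * δ + L * (ω * (Real.sqrt 2 * r)) := by positivity
    positivity
  obtain ⟨Ms, hMs, hMcov⟩ := asm_blocks_exist D hD r hr
  have hpmex : ∀ m : ℤ × ℤ, ∃ pm : EuclideanSpace ℝ (Fin 2),
      m ∈ Ms → pm ∈ latSq !₂[1, 0] !₂[0, 1] 0 r m ∩ D := by
    intro m
    by_cases hm : m ∈ Ms
    · obtain ⟨q, hq⟩ := hMs m hm
      exact ⟨q, fun _ => hq⟩
    · exact ⟨0, fun h => absurd h hm⟩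
  choose pm hpm using hpmex
  have hblock : ∀ m : ℤ × ℤ, ∃ (I : Finset (ℤ × ℤ))
      (C A B G : ℤ × ℤ → EuclideanSpace ℝ (Fin 2)), m ∈ Ms →
      ((∀ jk ∈ I, A jk ≠ 0 ∧ ‖B jk‖ = ‖A jk‖ ∧ inner ℝ (A jk) (B jk) = 0 ∧
        ‖A jk‖ ^ 2 = δ ^ 2) ∧
      (∀ jk ∈ I, Jf h (G jk) ≤ Jf h (V (pm m)) + ε₁) ∧
      (I.card : ℝ) * δ ^ 2 ≤ (2 * (r / 2 + η + Real.sqrt 2 * δ)) ^ 2 ∧
      ∀ p ∈ D, p ∈ latSq !₂[1, 0] !₂[0, 1] 0 r m → ∀ s : ℝ, |s| ≤ L →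
        ∃ jk ∈ I, ∃ x ∈ Set.Icc (0 : ℝ) 1, ∃ y ∈ Set.Icc (0 : ℝ) 1,
          p + s • V p = C jk + x • A jk + y • B jk + s • G jk) := by
    intro m
    by_cases hm : m ∈ Ms
    · obtain ⟨I, C, A, B, G, h1, h2, h3, h4⟩ := glue_block D V L h hL htr
        (fun p hp => (hdet p hp).2) M₁ γ hM₁ hγ hγ' ω r₀ hω0.le hunif ε₁ d hshift r δ η hr hδ
        hrr₀ hη hdd m (pm m) (hpm m hm).2 (hpm m hm).1
      exact ⟨I, C, A, B, G, fun _ => ⟨h1, h2, h3, h4⟩⟩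
    · exact ⟨∅, fun _ => 0, fun _ => 0, fun _ => 0, fun _ => 0, fun h => absurd h hm⟩
  choose I C A B G hdata using hblock
  obtain ⟨k, φ, hφmem, hφsurj, hφsum⟩ := asm_reindex (Ms.sigma I)
  refine ⟨k, fun i => C (φ i).1 (φ i).2, fun i => A (φ i).1 (φ i).2, fun i => B (φ i).1 (φ i).2,
    fun i => G (φ i).1 (φ i).2, ?_, ?_, ?_⟩
  · intro i
    have hi := Finset.mem_sigma.mp (hφmem i)
    obtain ⟨h1, h2, h3, _⟩ := (hdata (φ i).1 hi.1).1 (φ i).2 hi.2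
    exact ⟨h1, h2, h3⟩
  · intro p hp s hs
    obtain ⟨m, hm, hpm'⟩ := hMcov p hp
    obtain ⟨jk, hjk, x, hx, y, hy, heq⟩ := (hdata m hm).2.2.2 p hp hpm' s hs
    obtain ⟨i, hi⟩ := hφsurj ⟨m, jk⟩ (Finset.mem_sigma.mpr ⟨hm, hjk⟩)
    refine ⟨i, x, hx, y, hy, ?_⟩
    show p + s • V p = C (φ i).1 (φ i).2 + x • A (φ i).1 (φ i).2 + y • B (φ i).1 (φ i).2
      + s • G (φ i).1 (φ i).2
    rw [hi]
    exact heq
  · have hsum1 := hφsum (fun x => ‖A x.1 x.2‖ ^ 2 * Jf h (G x.1 x.2))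
    rw [hsum1, Finset.sum_sigma, ← hI₀]
    have hper : ∀ m ∈ Ms, ∑ jk ∈ I m, ‖A m jk‖ ^ 2 * Jf h (G m jk) ≤
        (1 + θ) ^ 2 * (r ^ 2 * Jf h (V (pm m)) + r ^ 2 * ε₁) := by
      intro m hm
      obtain ⟨h1, h2, h3, _⟩ := hdata m hm
      have hJ0 : 0 ≤ Jf h (V (pm m)) + ε₁ := by
        have := glue_Jf_nonneg h (V (pm m)); linarith
      calc ∑ jk ∈ I m, ‖A m jk‖ ^ 2 * Jf h (G m jk)
          ≤ ∑ jk ∈ I m, δ ^ 2 * (Jf h (V (pm m)) + ε₁) := by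
            apply Finset.sum_le_sum
            intro jk hjk
            rw [(h1 jk hjk).2.2.2]
            exact mul_le_mul_of_nonneg_left (h2 jk hjk) (sq_nonneg _)
        _ = ((I m).card : ℝ) * δ ^ 2 * (Jf h (V (pm m)) + ε₁) := by
            rw [Finset.sum_const, nsmul_eq_mul]; ring
        _ ≤ (2 * (r / 2 + η + Real.sqrt 2 * δ)) ^ 2 * (Jf h (V (pm m)) + ε₁) :=
            mul_le_mul_of_nonneg_right h3 hJ0
        _ ≤ ((1 + θ) * r) ^ 2 * (Jf h (V (pm m)) + ε₁) := by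
            apply mul_le_mul_of_nonneg_right _ hJ0
            exact pow_le_pow_left₀ (by positivity) hside 2
        _ = (1 + θ) ^ 2 * (r ^ 2 * Jf h (V (pm m)) + r ^ 2 * ε₁) := by ring
    have hR := asm_riemann_upper D hD (fun q => Jf h (V q))
      ((continuous_Jf h).comp_continuousOn (hV.continuousOn.mono hDU))
      (fun q _ => glue_Jf_nonneg h _) (fun q _ => glue_Jf_le_one h _) r hr Ms pm hpm ε₂ hε₂.le
      (by
        intro m hm q hq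
        have h1 : ‖pm m - q‖ ≤ r₁ :=
          (asm_block_diam r hr m (pm m) q (hpm m hm).1 hq.1).trans hrr₁
        have := (abs_le.mp (hbase (pm m) (hpm m hm).2 q hq.2 h1)).2
        linarith)
    have hcard := asm_blocks_card D hD r hr Ms hMs
    have hth := hthick (Real.sqrt 2 * r) (by positivity) hrr₂
    rw [← hv] at hR hth
    rw [← hI₀] at hR
    calc ∑ m ∈ Ms, ∑ jk ∈ I m, ‖A m jk‖ ^ 2 * Jf h (G m jk)
        ≤ ∑ m ∈ Ms, (1 + θ) ^ 2 * (r ^ 2 * Jf h (V (pm m)) + r ^ 2 * ε₁) :=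
          Finset.sum_le_sum hper
      _ = (1 + θ) ^ 2 * (∑ m ∈ Ms, r ^ 2 * Jf h (V (pm m)) + (Ms.card : ℝ) * r ^ 2 * ε₁) := by
          rw [← Finset.mul_sum, Finset.sum_add_distrib, Finset.sum_const, nsmul_eq_mul]; ring
      _ ≤ (1 + θ) ^ 2 * (I₀ + ε₂ * v + ε₃ + ε₁ * (v + ε₃)) := by
          apply mul_le_mul_of_nonneg_left _ (sq_nonneg _)
          have h5 : (Ms.card : ℝ) * r ^ 2 * ε₁ ≤ (v + ε₃) * ε₁ :=
            mul_le_mul_of_nonneg_right (by linarith) hε₁.le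
          linarith
      _ ≤ I₀ + ε := hbook

end Crest.Agent.R211
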