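import Mathlib

/-!
# Row 211: every regular tetrahedron is a similar image of the standard one

`Kstd = conv{(±1,0,0), (0,±1,√2)}` has edge length `2`.  For four points `w 0, …, w 3` of `ℝ³` with
all pairwise distances equal to `ℓ > 0` we construct an explicit orthonormal frame and hence a
linear isometric equivalence `ι₃` and a point `m₀` with
`(fun x => m₀ + (ℓ/2) • ι₃ x) '' Kstd = convexHull ℝ (Set.range w)`.
We also record how parallelogram cylinders and areas of orthogonal projections behave under such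
a similarity.
-/

set_option autoImplicit false
open MeasureTheory
open scoped ENNReal Pointwise

namespace Crest.Agent.R211

/-- The six inner-product identities of the edge frame of a regular tetrahedron. -/
theorem regTet_inner (w : Fin 4 → EuclideanSpace ℝ (Fin 3)) (ℓ : ℝ)
    (hw : ∀ i j, i ≠ j → dist (w i) (w j) = ℓ) :
    inner ℝ (w 0 - w 1) (w 0 - w 1) = ℓ ^ 2 ∧
    inner ℝ (w 2 - w 3) (w 2 - w 3) = ℓ ^ 2 ∧
    inner ℝ (w 2 + w 3 - w 0 - w 1) (w 2 + w 3 - w 0 - w 1) = 2 * ℓ ^ 2 ∧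
    inner ℝ (w 0 - w 1) (w 2 - w 3) = 0 ∧
    inner ℝ (w 0 - w 1) (w 2 + w 3 - w 0 - w 1) = 0 ∧
    inner ℝ (w 2 - w 3) (w 2 + w 3 - w 0 - w 1) = 0 := by
  have key : ∀ i j, i ≠ j →
      inner ℝ (w i) (w i) - 2 * inner ℝ (w i) (w j) + inner ℝ (w j) (w j) = ℓ ^ 2 := by
    intro i j hij
    have h := hw i j hij
    rw [dist_eq_norm] at h
    have h2 : ‖w i - w j‖ ^ 2 = ℓ ^ 2 := by rw [h]
    rw [← real_inner_self_eq_norm_sq, inner_sub_left, inner_sub_right, inner_sub_right,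
      real_inner_comm (w i) (w j)] at h2
    linarith
  have h01 := key 0 1 (by decide)
  have h02 := key 0 2 (by decide)
  have h03 := key 0 3 (by decide)
  have h12 := key 1 2 (by decide)
  have h13 := key 1 3 (by decide)
  have h23 := key 2 3 (by decide)
  have c10 := real_inner_comm (w 0) (w 1)
  have c20 := real_inner_comm (w 0) (w 2)
  have c30 := real_inner_comm (w 0) (w 3)
  have c21 := real_inner_comm (w 1) (w 2)
  have c31 := real_inner_comm (w 1) (w 3)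
  have c32 := real_inner_comm (w 2) (w 3)
  refine ⟨?_, ?_, ?_, ?_, ?_, ?_⟩ <;>
    simp only [inner_sub_left, inner_sub_right, inner_add_left, inner_add_right] <;>
    linarith

theorem range_fin4 {α : Type*} (w : Fin 4 → α) : Set.range w = {w 0, w 1, w 2, w 3} := by
  ext y
  constructor
  · rintro ⟨i, rfl⟩
    fin_cases i <;> simp
  · intro hy
    simp only [Set.mem_insert_iff, Set.mem_singleton_iff] at hy
    rcases hy with rfl | rfl | rfl | rfl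
    · exact ⟨0, rfl⟩
    · exact ⟨1, rfl⟩
    · exact ⟨2, rfl⟩
    · exact ⟨3, rfl⟩

/-- Every regular tetrahedron of edge `ℓ` is the image of the standard one under a similarity
`x ↦ m₀ + (ℓ/2) • ι₃ x` with `ι₃` a linear isometric equivalence. -/
theorem regTet_frame (w : Fin 4 → EuclideanSpace ℝ (Fin 3)) (ℓ : ℝ) (hℓ : 0 < ℓ)
    (hw : ∀ i j, i ≠ j → dist (w i) (w j) = ℓ) :
    ∃ (ι₃ : EuclideanSpace ℝ (Fin 3) ≃ₗᵢ[ℝ] EuclideanSpace ℝ (Fin 3))
      (m₀ : EuclideanSpace ℝ (Fin 3)),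
      (fun x => m₀ + (ℓ / 2) • ι₃ x) '' convexHull ℝ {!₂[1, 0, 0], !₂[-1, 0, 0],
          !₂[0, 1, Real.sqrt 2], !₂[0, -1, Real.sqrt 2]} = convexHull ℝ (Set.range w) := by
  obtain ⟨h1, h2, h3, h4, h5, h6⟩ := regTet_inner w ℓ hw
  have h4' : inner ℝ (w 2 - w 3) (w 0 - w 1) = 0 := by rw [real_inner_comm]; exact h4
  have h5' : inner ℝ (w 2 + w 3 - w 0 - w 1) (w 0 - w 1) = 0 := by rw [real_inner_comm]; exact h5
  have h6' : inner ℝ (w 2 + w 3 - w 0 - w 1) (w 2 - w 3) = 0 := by rw [real_inner_comm]; exact h6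
  have hℓ0 : ℓ ≠ 0 := hℓ.ne'
  have hs2 : (0 : ℝ) < Real.sqrt 2 := by positivity
  have hs2' : Real.sqrt 2 * Real.sqrt 2 = 2 := Real.mul_self_sqrt (by norm_num)
  set f : Fin 3 → EuclideanSpace ℝ (Fin 3) :=
    ![(1 / ℓ) • (w 0 - w 1), (1 / ℓ) • (w 2 - w 3),
      (1 / (Real.sqrt 2 * ℓ)) • (w 2 + w 3 - w 0 - w 1)] with hf
  have hf0 : f 0 = (1 / ℓ) • (w 0 - w 1) := by simp [hf]
  have hf1 : f 1 = (1 / ℓ) • (w 2 - w 3) := by simp [hf]
  have hf2 : f 2 = (1 / (Real.sqrt 2 * ℓ)) • (w 2 + w 3 - w 0 - w 1) := by simp [hf]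
  have hon : Orthonormal ℝ f := by
    rw [orthonormal_iff_ite]
    intro i j
    fin_cases i <;> fin_cases j
    · show inner ℝ (f 0) (f 0) = _
      rw [hf0, inner_smul_left, inner_smul_right, h1]
      simp
      field_simp
    · show inner ℝ (f 0) (f 1) = _
      rw [hf0, hf1, inner_smul_left, inner_smul_right, h4]
      simp
    · show inner ℝ (f 0) (f 2) = _
      rw [hf0, hf2, inner_smul_left, inner_smul_right, h5]
      simp
    · show inner ℝ (f 1) (f 0) = _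
      rw [hf0, hf1, inner_smul_left, inner_smul_right, h4']
      simp
    · show inner ℝ (f 1) (f 1) = _
      rw [hf1, inner_smul_left, inner_smul_right, h2]
      simp
      field_simp
    · show inner ℝ (f 1) (f 2) = _
      rw [hf1, hf2, inner_smul_left, inner_smul_right, h6]
      simp
    · show inner ℝ (f 2) (f 0) = _
      rw [hf0, hf2, inner_smul_left, inner_smul_right, h5']
      simp
    · show inner ℝ (f 2) (f 1) = _
      rw [hf1, hf2, inner_smul_left, inner_smul_right, h6']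
      simp
    · show inner ℝ (f 2) (f 2) = _
      rw [hf2, inner_smul_left, inner_smul_right, h3]
      simp
      field_simp
      nlinarith
  set bs := basisOfOrthonormalOfCardEqFinrank hon (by simp) with hbs
  have hbs_coe : (bs : Fin 3 → EuclideanSpace ℝ (Fin 3)) = f :=
    coe_basisOfOrthonormalOfCardEqFinrank hon (by simp)
  set ob : OrthonormalBasis (Fin 3) ℝ (EuclideanSpace ℝ (Fin 3)) :=
    bs.toOrthonormalBasis (by rw [hbs_coe]; exact hon) with hob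
  have hob_coe : (ob : Fin 3 → EuclideanSpace ℝ (Fin 3)) = f := by
    rw [hob, Module.Basis.coe_toOrthonormalBasis, hbs_coe]
  have hι : ∀ x : EuclideanSpace ℝ (Fin 3),
      ob.repr.symm x = x 0 • f 0 + x 1 • f 1 + x 2 • f 2 := by
    intro x
    rw [← ob.sum_repr_symm x, Fin.sum_univ_three, hob_coe]
  refine ⟨ob.repr.symm, (1 / 2 : ℝ) • (w 0 + w 1), ?_⟩
  set A : EuclideanSpace ℝ (Fin 3) →ᵃ[ℝ] EuclideanSpace ℝ (Fin 3) :=
    (AffineEquiv.constVAdd ℝ (EuclideanSpace ℝ (Fin 3)) ((1 / 2 : ℝ) • (w 0 + w 1))).toAffineMap.comp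
      (((ℓ / 2) • (ob.repr.symm.toLinearEquiv : EuclideanSpace ℝ (Fin 3) →ₗ[ℝ]
        EuclideanSpace ℝ (Fin 3))).toAffineMap) with hA
  have hAapp : ∀ x, A x = (1 / 2 : ℝ) • (w 0 + w 1) + (ℓ / 2) • ob.repr.symm x := by
    intro x
    simp [hA]
    abel
  have hfun : (fun x => (1 / 2 : ℝ) • (w 0 + w 1) + (ℓ / 2) • ob.repr.symm x) = A := by
    funext x
    exact (hAapp x).symm
  have hLι : ∀ x : EuclideanSpace ℝ (Fin 3), (ℓ / 2) • ob.repr.symm x =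
      (x 0 / 2) • (w 0 - w 1) + (x 1 / 2) • (w 2 - w 3) +
        (x 2 / (2 * Real.sqrt 2)) • (w 2 + w 3 - w 0 - w 1) := by
    intro x
    rw [hι, hf0, hf1, hf2, smul_add, smul_add, smul_smul, smul_smul, smul_smul, smul_smul,
      smul_smul, smul_smul]
    have c0 : ℓ / 2 * x 0 * (1 / ℓ) = x 0 / 2 := by field_simp
    have c1 : ℓ / 2 * x 1 * (1 / ℓ) = x 1 / 2 := by field_simp
    have c2 : ℓ / 2 * x 2 * (1 / (Real.sqrt 2 * ℓ)) = x 2 / (2 * Real.sqrt 2) := by field_simp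
    rw [c0, c1, c2]
  rw [hfun, A.image_convexHull, range_fin4]
  congr 1
  have hq : Real.sqrt 2 / (2 * Real.sqrt 2) = 1 / 2 := by field_simp
  have e0 : A !₂[1, 0, 0] = w 0 := by
    rw [hAapp, hLι]
    simp
    module
  have e1 : A !₂[-1, 0, 0] = w 1 := by
    rw [hAapp, hLι]
    simp
    module
  have e2 : A !₂[0, 1, Real.sqrt 2] = w 2 := by
    rw [hAapp, hLι]
    have x0 : (!₂[0, 1, Real.sqrt 2] : EuclideanSpace ℝ (Fin 3)) 0 = 0 := by simp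
    have x1 : (!₂[0, 1, Real.sqrt 2] : EuclideanSpace ℝ (Fin 3)) 1 = 1 := by simp
    have x2 : (!₂[0, 1, Real.sqrt 2] : EuclideanSpace ℝ (Fin 3)) 2 = Real.sqrt 2 := by simp
    rw [x0, x1, x2, hq]
    module
  have e3 : A !₂[0, -1, Real.sqrt 2] = w 3 := by
    rw [hAapp, hLι]
    have x0 : (!₂[0, -1, Real.sqrt 2] : EuclideanSpace ℝ (Fin 3)) 0 = 0 := by simp
    have x1 : (!₂[0, -1, Real.sqrt 2] : EuclideanSpace ℝ (Fin 3)) 1 = -1 := by simp
    have x2 : (!₂[0, -1, Real.sqrt 2] : EuclideanSpace ℝ (Fin 3)) 2 = Real.sqrt 2 := by simp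
    rw [x0, x1, x2, hq]
    module
  simp only [Set.image_insert_eq, Set.image_singleton, e0, e1, e2, e3]

/-- Orthogonal projections commute with similarities `x ↦ m₀ + r • ι₃ x`. -/
theorem simil_proj_image (ι₃ : EuclideanSpace ℝ (Fin 3) ≃ₗᵢ[ℝ] EuclideanSpace ℝ (Fin 3))
    (m₀ : EuclideanSpace ℝ (Fin 3)) (r : ℝ) (v : EuclideanSpace ℝ (Fin 3))
    (S : Set (EuclideanSpace ℝ (Fin 3))) :
    (fun y => y - inner ℝ y v • v) '' ((fun x => m₀ + r • ι₃ x) '' S) =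
      (fun y => (m₀ - inner ℝ m₀ v • v) + r • ι₃ y) ''
        ((fun y => y - inner ℝ y (ι₃.symm v) • ι₃.symm v) '' S) := by
  rw [Set.image_image, Set.image_image]
  apply Set.image_congr
  intro x _
  have h1 : inner ℝ (ι₃ x) v = inner ℝ x (ι₃.symm v) := by
    rw [← ι₃.inner_map_map x (ι₃.symm v), LinearIsometryEquiv.apply_symm_apply]
  simp only [inner_add_left, inner_smul_left, map_sub, map_smul,
    LinearIsometryEquiv.apply_symm_apply, h1, RCLike.conj_to_real]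
  module

/-- Areas scale by `r²` under a similarity of ratio `r`. -/
theorem simil_area (ι₃ : EuclideanSpace ℝ (Fin 3) ≃ₗᵢ[ℝ] EuclideanSpace ℝ (Fin 3))
    (c : EuclideanSpace ℝ (Fin 3)) (r : ℝ) (hr : 0 < r) (S : Set (EuclideanSpace ℝ (Fin 3))) :
    μHE[2] ((fun y => c + r • ι₃ y) '' S) = ENNReal.ofReal (r ^ 2) * μHE[2] S := by
  have e : (fun y => c + r • ι₃ y) '' S = (fun z => c + z) '' (r • (ι₃ '' S)) := by
    rw [← Set.image_smul, Set.image_image, Set.image_image]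
  rw [e, (isometry_add_left c).euclideanHausdorffMeasure_image,
    Measure.euclideanHausdorffMeasure_smul₀ 2 hr.ne', ι₃.isometry.euclideanHausdorffMeasure_image]
  have h2 : ((‖r‖₊ ^ 2 : NNReal) : ℝ≥0∞) = ENNReal.ofReal (r ^ 2) := by
    rw [ENNReal.ofReal_pow hr.le, ENNReal.coe_pow]
    congr 1
    rw [← enorm_eq_nnnorm, Real.enorm_eq_ofReal hr.le]
  rw [ENNReal.smul_def, smul_eq_mul, h2]

/-- A parallelogram cylinder is mapped by a similarity to a parallelogram cylinder (base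
re-projected to the plane through the origin orthogonal to the new axis). -/
theorem simil_par_cyl (ι₃ : EuclideanSpace ℝ (Fin 3) ≃ₗᵢ[ℝ] EuclideanSpace ℝ (Fin 3))
    (m₀ : EuclideanSpace ℝ (Fin 3)) (r : ℝ) (u c a b : EuclideanSpace ℝ (Fin 3))
    (hu : ‖u‖ = 1) (hc : inner ℝ c u = 0) (ha : inner ℝ a u = 0) (hb : inner ℝ b u = 0) :
    ‖ι₃ u‖ = 1 ∧
    inner ℝ ((m₀ - inner ℝ m₀ (ι₃ u) • ι₃ u) + r • ι₃ c) (ι₃ u) = 0 ∧
    inner ℝ (r • ι₃ a) (ι₃ u) = 0 ∧ inner ℝ (r • ι₃ b) (ι₃ u) = 0 ∧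
    (∀ (x : EuclideanSpace ℝ (Fin 3)) (s t τ : ℝ), x = c + s • a + t • b + τ • u →
      ∃ τ' : ℝ, m₀ + r • ι₃ x =
        ((m₀ - inner ℝ m₀ (ι₃ u) • ι₃ u) + r • ι₃ c) + s • (r • ι₃ a) + t • (r • ι₃ b) +
          τ' • ι₃ u) ∧
    Real.sqrt (‖r • ι₃ a‖ ^ 2 * ‖r • ι₃ b‖ ^ 2 - inner ℝ (r • ι₃ a) (r • ι₃ b) ^ 2) =
      r ^ 2 * Real.sqrt (‖a‖ ^ 2 * ‖b‖ ^ 2 - inner ℝ a b ^ 2) := by
  have hu' : ‖ι₃ u‖ = 1 := by rw [ι₃.norm_map, hu]
  have huu : inner ℝ u u = 1 := by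
    rw [real_inner_self_eq_norm_sq, hu]; norm_num
  refine ⟨hu', ?_, ?_, ?_, ?_, ?_⟩
  · simp only [inner_add_left, inner_sub_left, inner_smul_left, ι₃.inner_map_map, hc, huu,
      RCLike.conj_to_real]
    ring
  · simp only [inner_smul_left, ι₃.inner_map_map, ha, RCLike.conj_to_real]
    ring
  · simp only [inner_smul_left, ι₃.inner_map_map, hb, RCLike.conj_to_real]
    ring
  · intro x s t τ hx
    refine ⟨inner ℝ m₀ (ι₃ u) + r * τ, ?_⟩
    rw [hx]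
    simp only [map_add, map_smul]
    module
  · have e1 : ‖r • ι₃ a‖ ^ 2 = r ^ 2 * ‖a‖ ^ 2 := by
      rw [norm_smul, ι₃.norm_map, mul_pow, Real.norm_eq_abs, sq_abs]
    have e2 : ‖r • ι₃ b‖ ^ 2 = r ^ 2 * ‖b‖ ^ 2 := by
      rw [norm_smul, ι₃.norm_map, mul_pow, Real.norm_eq_abs, sq_abs]
    have e3 : inner ℝ (r • ι₃ a) (r • ι₃ b) = r ^ 2 * inner ℝ a b := by
      rw [inner_smul_left, inner_smul_right, ι₃.inner_map_map]
      simp
      ring
    rw [e1, e2, e3]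
    have e4 : r ^ 2 * ‖a‖ ^ 2 * (r ^ 2 * ‖b‖ ^ 2) - (r ^ 2 * inner ℝ a b) ^ 2 =
        (r ^ 2) ^ 2 * (‖a‖ ^ 2 * ‖b‖ ^ 2 - inner ℝ a b ^ 2) := by ring
    rw [e4, Real.sqrt_mul (by positivity), Real.sqrt_sq (by positivity)]

/-- Transfer of a cover by parallelogram cylinders along a similarity. -/
theorem simil_par_cover (ι₃ : EuclideanSpace ℝ (Fin 3) ≃ₗᵢ[ℝ] EuclideanSpace ℝ (Fin 3))
    (m₀ : EuclideanSpace ℝ (Fin 3)) (r : ℝ) (K : Set (EuclideanSpace ℝ (Fin 3))) {k : ℕ}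
    (u c a b : Fin k → EuclideanSpace ℝ (Fin 3)) (hu : ∀ i, ‖u i‖ = 1)
    (horth : ∀ i, inner ℝ (c i) (u i) = 0 ∧ inner ℝ (a i) (u i) = 0 ∧ inner ℝ (b i) (u i) = 0)
    (hcov : K ⊆ ⋃ i, {x : EuclideanSpace ℝ (Fin 3) |
        ∃ s ∈ Set.Icc (0 : ℝ) 1, ∃ t ∈ Set.Icc (0 : ℝ) 1, ∃ τ : ℝ,
          x = c i + s • a i + t • b i + τ • u i}) :
    ∃ (u' c' a' b' : Fin k → EuclideanSpace ℝ (Fin 3)),
      (∀ i, ‖u' i‖ = 1) ∧
      (∀ i, inner ℝ (c' i) (u' i) = 0 ∧ inner ℝ (a' i) (u' i) = 0 ∧ inner ℝ (b' i) (u' i) = 0) ∧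
      (fun x => m₀ + r • ι₃ x) '' K ⊆ ⋃ i, {x : EuclideanSpace ℝ (Fin 3) |
        ∃ s ∈ Set.Icc (0 : ℝ) 1, ∃ t ∈ Set.Icc (0 : ℝ) 1, ∃ τ : ℝ,
          x = c' i + s • a' i + t • b' i + τ • u' i} ∧
      ∀ i, Real.sqrt (‖a' i‖ ^ 2 * ‖b' i‖ ^ 2 - inner ℝ (a' i) (b' i) ^ 2) =
        r ^ 2 * Real.sqrt (‖a i‖ ^ 2 * ‖b i‖ ^ 2 - inner ℝ (a i) (b i) ^ 2) := by
  have H := fun i => simil_par_cyl ι₃ m₀ r (u i) (c i) (a i) (b i) (hu i) (horth i).1
    (horth i).2.1 (horth i).2.2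
  refine ⟨fun i => ι₃ (u i), fun i => (m₀ - inner ℝ m₀ (ι₃ (u i)) • ι₃ (u i)) + r • ι₃ (c i),
    fun i => r • ι₃ (a i), fun i => r • ι₃ (b i), fun i => (H i).1,
    fun i => ⟨(H i).2.1, (H i).2.2.1, (H i).2.2.2.1⟩, ?_, fun i => (H i).2.2.2.2.2⟩
  rintro _ ⟨x, hx, rfl⟩
  obtain ⟨i, hi⟩ := Set.mem_iUnion.mp (hcov hx)
  obtain ⟨s, hs, t, ht, τ, hτ⟩ := hi
  obtain ⟨τ', hτ'⟩ := (H i).2.2.2.2.1 x s t τ hτ
  exact Set.mem_iUnion.mpr ⟨i, s, hs, t, ht, τ', hτ'⟩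

end Crest.Agent.R211
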