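import Crest.Agent.R211_Area

/-!
# Row 211: changing the shape of the bases of a cylinder cover

* `tri_to_par_cover`: a cover by cylinders over triangles gives a cover by cylinders over
  parallelograms (each triangle is cut into `m` strips), the total area growing by the factor
  `1 + 1/m`;
* `exists_open_base`: a bounded base in the plane `u^⊥` is contained in a bounded relatively
  open base of almost the same area (outer regularity in a chart of the plane);
* `proj_area_lt_top`: the projection of a bounded set has finite area;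
* `ratio_sum_lt_half`: the ratio condition of S0327 follows from the margin condition.
-/

set_option autoImplicit false
open MeasureTheory
open scoped ENNReal

namespace Crest.Agent.R211

theorem sum_fin_cast (m : ℕ) : ∑ j : Fin m, (j : ℝ) = (m : ℝ) * ((m : ℝ) - 1) / 2 := by
  rw [Fin.sum_univ_eq_sum_range (fun j => (j : ℝ)) m]
  induction m with
  | zero => simp
  | succ n ih =>
    rw [Finset.sum_range_succ, ih]
    push_cast
    ring

/-- A cover by cylinders over triangles yields a cover by cylinders over parallelograms; each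
triangle is cut into `m` strips and the total area is multiplied by `1 + 1/m`. -/
theorem tri_to_par_cover (K : Set (EuclideanSpace ℝ (Fin 3))) {N : ℕ}
    (u p q r : Fin N → EuclideanSpace ℝ (Fin 3)) (hu : ∀ i, ‖u i‖ = 1)
    (horth : ∀ i, inner ℝ (p i) (u i) = 0 ∧ inner ℝ (q i) (u i) = 0 ∧ inner ℝ (r i) (u i) = 0)
    (hcov : K ⊆ ⋃ i, {x : EuclideanSpace ℝ (Fin 3) |
        ∃ b ∈ convexHull ℝ {p i, q i, r i}, ∃ t : ℝ, x = b + t • u i})
    (m : ℕ) (hm : 0 < m) :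
    ∃ (k : ℕ) (u' c a b : Fin k → EuclideanSpace ℝ (Fin 3)),
      (∀ i, ‖u' i‖ = 1) ∧
      (∀ i, inner ℝ (c i) (u' i) = 0 ∧ inner ℝ (a i) (u' i) = 0 ∧ inner ℝ (b i) (u' i) = 0) ∧
      K ⊆ ⋃ i, {x : EuclideanSpace ℝ (Fin 3) |
        ∃ s ∈ Set.Icc (0 : ℝ) 1, ∃ t ∈ Set.Icc (0 : ℝ) 1, ∃ τ : ℝ,
          x = c i + s • a i + t • b i + τ • u' i} ∧
      ∑ i, Real.sqrt (‖a i‖ ^ 2 * ‖b i‖ ^ 2 - inner ℝ (a i) (b i) ^ 2) =
        (1 + 1 / (m : ℝ)) * ∑ i, Real.sqrt (‖q i - p i‖ ^ 2 * ‖r i - p i‖ ^ 2 -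
          inner ℝ (q i - p i) (r i - p i) ^ 2) / 2 := by
  have hm0 : (0 : ℝ) < m := by exact_mod_cast hm
  have hmne : (m : ℝ) ≠ 0 := hm0.ne'
  set e : Fin (N * m) ≃ Fin N × Fin m := finProdFinEquiv.symm with he
  -- strip data indexed by pairs
  set U : Fin N × Fin m → EuclideanSpace ℝ (Fin 3) := fun z => u z.1 with hU
  set C : Fin N × Fin m → EuclideanSpace ℝ (Fin 3) :=
    fun z => p z.1 + ((z.2 : ℝ) / m) • (q z.1 - p z.1) with hC
  set A : Fin N × Fin m → EuclideanSpace ℝ (Fin 3) :=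
    fun z => (1 / (m : ℝ)) • (q z.1 - p z.1) with hA
  set B : Fin N × Fin m → EuclideanSpace ℝ (Fin 3) :=
    fun z => (1 - (z.2 : ℝ) / m) • (r z.1 - p z.1) with hB
  have hjm : ∀ j : Fin m, (j : ℝ) / m ≤ 1 - 1 / m := by
    intro j
    have h1 : ((j : ℕ) : ℝ) + 1 ≤ m := by exact_mod_cast j.2
    rw [div_le_iff₀ hm0]
    field_simp
    linarith
  have hjm' : ∀ j : Fin m, 0 < 1 - (j : ℝ) / m := by
    intro j
    have := hjm j
    have : 0 < 1 / (m : ℝ) := by positivity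
    linarith
  refine ⟨N * m, fun i => U (e i), fun i => C (e i), fun i => A (e i), fun i => B (e i),
    fun i => hu _, ?_, ?_, ?_⟩
  · intro i
    obtain ⟨h1, h2, h3⟩ := horth (e i).1
    refine ⟨?_, ?_, ?_⟩
    · simp only [hC, hU, inner_add_left, inner_smul_left, inner_sub_left, h1, h2]
      simp
    · simp only [hA, hU, inner_smul_left, inner_sub_left, h1, h2]
      simp
    · simp only [hB, hU, inner_smul_left, inner_sub_left, h1, h3]
      simp
  · intro x hx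
    obtain ⟨i, hi⟩ := Set.mem_iUnion.mp (hcov hx)
    obtain ⟨b₀, hb₀, τ, hτ⟩ := hi
    obtain ⟨s, t, hs, ht, hst, hb₀'⟩ := (mem_triangle_iff _ _ _ _).mp hb₀
    -- choose the strip
    set j₀ : ℕ := ⌊s * m⌋₊ with hj₀
    set j : ℕ := min j₀ (m - 1) with hj
    have hjlt : j < m := lt_of_le_of_lt (min_le_right _ _) (Nat.sub_lt hm Nat.one_pos)
    have hsm : 0 ≤ s * m := by positivity
    have hs1 : s ≤ 1 := by linarith
    have hj1 : (j : ℝ) ≤ s * m := by
      have h1 : (j : ℝ) ≤ (j₀ : ℝ) := by exact_mod_cast min_le_left _ _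
      have h2 : (j₀ : ℝ) ≤ s * m := Nat.floor_le hsm
      linarith
    have hj2 : s * m ≤ (j : ℝ) + 1 := by
      rcases le_total j₀ (m - 1) with h | h
      · have : j = j₀ := min_eq_left h
        rw [this]
        exact (Nat.lt_floor_add_one _).le
      · have hjeq : j = m - 1 := min_eq_right h
        have : (j : ℝ) + 1 = m := by
          rw [hjeq]
          have : m - 1 + 1 = m := Nat.sub_add_cancel hm
          exact_mod_cast this
        rw [this]
        nlinarith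
    have hden : 0 < 1 - (j : ℝ) / m := hjm' ⟨j, hjlt⟩
    have hjs : (j : ℝ) / m ≤ s := by
      rw [div_le_iff₀ hm0]; exact hj1
    refine Set.mem_iUnion.mpr ⟨e.symm (i, ⟨j, hjlt⟩), s * m - j, ⟨by linarith, by linarith⟩,
      t / (1 - (j : ℝ) / m), ⟨by positivity, ?_⟩, τ, ?_⟩
    · rw [div_le_one hden]; linarith
    · simp only [Equiv.apply_symm_apply, hC, hA, hB, hU]
      rw [hτ, hb₀', smul_smul, smul_smul, div_mul_cancel₀ _ hden.ne']
      have : (s * m - j) * (1 / (m : ℝ)) = s - (j : ℝ) / m := by field_simp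
      rw [this]
      module
  · -- areas
    have hG : ∀ z : Fin N × Fin m,
        Real.sqrt (‖A z‖ ^ 2 * ‖B z‖ ^ 2 - inner ℝ (A z) (B z) ^ 2) =
          (1 / (m : ℝ)) * (1 - (z.2 : ℝ) / m) *
            Real.sqrt (‖q z.1 - p z.1‖ ^ 2 * ‖r z.1 - p z.1‖ ^ 2 -
              inner ℝ (q z.1 - p z.1) (r z.1 - p z.1) ^ 2) := by
      intro z
      have h0 : 0 < 1 - (z.2 : ℝ) / m := hjm' z.2
      have e1 : ‖A z‖ ^ 2 = (1 / (m : ℝ)) ^ 2 * ‖q z.1 - p z.1‖ ^ 2 := by
        simp only [hA]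
        rw [norm_smul, mul_pow, Real.norm_eq_abs, sq_abs]
      have e2 : ‖B z‖ ^ 2 = (1 - (z.2 : ℝ) / m) ^ 2 * ‖r z.1 - p z.1‖ ^ 2 := by
        simp only [hB]
        rw [norm_smul, mul_pow, Real.norm_eq_abs, sq_abs]
      have e3 : inner ℝ (A z) (B z) =
          (1 / (m : ℝ)) * (1 - (z.2 : ℝ) / m) * inner ℝ (q z.1 - p z.1) (r z.1 - p z.1) := by
        simp only [hA, hB]
        rw [inner_smul_left, inner_smul_right]
        simp
        ring
      rw [e1, e2, e3]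
      have e4 : (1 / (m : ℝ)) ^ 2 * ‖q z.1 - p z.1‖ ^ 2 *
          ((1 - (z.2 : ℝ) / m) ^ 2 * ‖r z.1 - p z.1‖ ^ 2) -
          ((1 / (m : ℝ)) * (1 - (z.2 : ℝ) / m) * inner ℝ (q z.1 - p z.1) (r z.1 - p z.1)) ^ 2 =
          ((1 / (m : ℝ)) * (1 - (z.2 : ℝ) / m)) ^ 2 *
            (‖q z.1 - p z.1‖ ^ 2 * ‖r z.1 - p z.1‖ ^ 2 -
              inner ℝ (q z.1 - p z.1) (r z.1 - p z.1) ^ 2) := by ring
      rw [e4, Real.sqrt_mul (by positivity), Real.sqrt_sq (by positivity)]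
    have hsum : ∑ j : Fin m, (1 / (m : ℝ)) * (1 - (j : ℝ) / m) = (1 + 1 / (m : ℝ)) / 2 := by
      rw [← Finset.mul_sum, Finset.sum_sub_distrib, ← Finset.sum_div, sum_fin_cast]
      simp only [Finset.sum_const, Finset.card_univ, Fintype.card_fin, nsmul_eq_mul, mul_one]
      field_simp
      ring
    rw [Equiv.sum_comp e (fun z => Real.sqrt (‖A z‖ ^ 2 * ‖B z‖ ^ 2 - inner ℝ (A z) (B z) ^ 2)),
      Fintype.sum_prod_type, Finset.mul_sum]
    apply Finset.sum_congr rfl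
    intro i _
    simp only [hG]
    rw [← Finset.sum_mul, hsum]
    ring

/-- The ratio condition of S0327 follows from the margin condition. -/
theorem ratio_sum_lt_half {k : ℕ} (x d : Fin k → ℝ) (hx : ∀ i, 0 ≤ x i) (δ : ℝ) (hδ : 0 < δ)
    (h : ∀ i, ∑ j, x j + δ ≤ d i / 2) : ∑ i, x i / d i < 1 / 2 := by
  set A : ℝ := ∑ j, x j with hA
  have hA0 : 0 ≤ A := Finset.sum_nonneg (fun i _ => hx i)
  have hpos : 0 < 2 * (A + δ) := by positivity
  have h1 : ∀ i, x i / d i ≤ x i / (2 * (A + δ)) := by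
    intro i
    have hd : 2 * (A + δ) ≤ d i := by linarith [h i]
    exact div_le_div_of_nonneg_left (hx i) hpos hd
  calc ∑ i, x i / d i ≤ ∑ i, x i / (2 * (A + δ)) := Finset.sum_le_sum (fun i _ => h1 i)
    _ = A / (2 * (A + δ)) := by rw [← Finset.sum_div]
    _ < 1 / 2 := by
      rw [div_lt_div_iff₀ hpos (by norm_num)]
      linarith

/-- The orthogonal projection of a bounded set has finite area. -/
theorem proj_area_lt_top (v : EuclideanSpace ℝ (Fin 3)) (hv : ‖v‖ = 1)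
    (S : Set (EuclideanSpace ℝ (Fin 3))) (hS : Bornology.IsBounded S) :
    μHE[2] ((fun y => y - inner ℝ y v • v) '' S) < ⊤ := by
  obtain ⟨ι, ψ, h1, -, -⟩ := exists_plane_chart (E := EuclideanSpace ℝ (Fin 3)) (by simp) v hv
  rw [area_proj_image_eq_volume ι ψ h1 S]
  have hb : Bornology.IsBounded (ψ '' S) :=
    (LinearMap.toContinuousLinearMap ψ).lipschitz.isBounded_image hS
  exact hb.measure_lt_top

/-- A bounded subset of the plane `u^⊥` is contained in a bounded relatively open subset of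
that plane of almost the same area. -/
theorem exists_open_base (u : EuclideanSpace ℝ (Fin 3)) (hu : ‖u‖ = 1)
    (Q : Set (EuclideanSpace ℝ (Fin 3))) (hQ : ∀ x ∈ Q, inner ℝ x u = 0)
    (hQb : Bornology.IsBounded Q) (ε : ℝ) (hε : 0 < ε) :
    ∃ B : Set (EuclideanSpace ℝ (Fin 3)), Bornology.IsBounded B ∧
      (∃ O : Set (EuclideanSpace ℝ (Fin 3)), IsOpen O ∧ B = O ∩ {x | inner ℝ x u = 0}) ∧
      Q ⊆ B ∧ μHE[2] B ≤ μHE[2] Q + ENNReal.ofReal ε := by
  obtain ⟨ι, ψ, h1, h2, h3⟩ := exists_plane_chart (E := EuclideanSpace ℝ (Fin 3)) (by simp) u hu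
  have hψc : Continuous ψ := (LinearMap.toContinuousLinearMap ψ).continuous
  have hSb : Bornology.IsBounded (ψ '' Q) :=
    (LinearMap.toContinuousLinearMap ψ).lipschitz.isBounded_image hQb
  have hQeq : μHE[2] Q = volume (ψ '' Q) := area_eq_volume_chart ι ψ h1 Q hQ
  have hfin : (volume : Measure (EuclideanSpace ℝ (Fin 2))) (ψ '' Q) ≠ ⊤ :=
    (hSb.measure_lt_top).ne
  obtain ⟨U, hSU, hUo, hUvol⟩ := Set.exists_isOpen_lt_add (ψ '' Q) hfin
    (ENNReal.ofReal_pos.mpr hε).ne'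
  obtain ⟨R, hR⟩ := hSb.subset_ball (0 : EuclideanSpace ℝ (Fin 2))
  set U' : Set (EuclideanSpace ℝ (Fin 2)) := U ∩ Metric.ball 0 R with hU'
  have hU'o : IsOpen U' := hUo.inter Metric.isOpen_ball
  have hself : ∀ x : EuclideanSpace ℝ (Fin 3), inner ℝ x u = 0 → ι (ψ x) = x := by
    intro x hx
    rw [h1, hx, zero_smul, sub_zero]
  refine ⟨ι '' U', ?_, ⟨ψ ⁻¹' U', hU'o.preimage hψc, ?_⟩, ?_, ?_⟩
  · exact ι.lipschitz.isBounded_image (Metric.isBounded_ball.subset Set.inter_subset_right)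
  · ext x
    constructor
    · rintro ⟨y, hy, rfl⟩
      exact ⟨by simpa [h2] using hy, h3 y⟩
    · rintro ⟨hx1, hx2⟩
      exact ⟨ψ x, hx1, hself x hx2⟩
  · intro x hx
    exact ⟨ψ x, ⟨hSU ⟨x, hx, rfl⟩, hR ⟨x, hx, rfl⟩⟩, hself x (hQ x hx)⟩
  · rw [area_chart_image ι U', hQeq]
    exact (measure_mono Set.inter_subset_left).trans hUvol.le

/-- A parallelogram is bounded. -/
theorem par_isBounded (c a b : EuclideanSpace ℝ (Fin 3)) :
    Bornology.IsBounded {x : EuclideanSpace ℝ (Fin 3) |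
      ∃ s ∈ Set.Icc (0 : ℝ) 1, ∃ t ∈ Set.Icc (0 : ℝ) 1, x = c + s • a + t • b} := by
  rw [isBounded_iff_forall_norm_le]
  refine ⟨‖c‖ + ‖a‖ + ‖b‖, ?_⟩
  rintro x ⟨s, hs, t, ht, rfl⟩
  have h1 : ‖s • a‖ ≤ ‖a‖ := by
    rw [norm_smul, Real.norm_eq_abs, abs_of_nonneg hs.1]
    exact mul_le_of_le_one_left (norm_nonneg _) hs.2
  have h2 : ‖t • b‖ ≤ ‖b‖ := by
    rw [norm_smul, Real.norm_eq_abs, abs_of_nonneg ht.1]
    exact mul_le_of_le_one_left (norm_nonneg _) ht.2
  calc ‖c + s • a + t • b‖ ≤ ‖c‖ + ‖s • a‖ + ‖t • b‖ := norm_add₃_le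
    _ ≤ ‖c‖ + ‖a‖ + ‖b‖ := by linarith

/-- A parallelogram spanned by vectors orthogonal to `u` lies in `u^⊥`. -/
theorem par_orth (u c a b : EuclideanSpace ℝ (Fin 3)) (hc : inner ℝ c u = 0)
    (ha : inner ℝ a u = 0) (hb : inner ℝ b u = 0) :
    ∀ x ∈ {x : EuclideanSpace ℝ (Fin 3) |
      ∃ s ∈ Set.Icc (0 : ℝ) 1, ∃ t ∈ Set.Icc (0 : ℝ) 1, x = c + s • a + t • b},
      inner ℝ x u = 0 := by
  rintro x ⟨s, -, t, -, rfl⟩
  simp [inner_add_left, inner_smul_left, hc, ha, hb]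

end Crest.Agent.R211
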