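import Crest.Agent.R211_Area
import Crest.Agent.R211_Simil
import Crest.Agent.R211_Strips

/-!
# Row 211: S0327 from the two parts of S0325

`regTet_cover_of_core`: given the lower bound `√2` for the areas of the projections of the
standard tetrahedron (S0325, part 1) and one cover of it by cylinders over triangles of total
area `≤ √2 (1/2 - c₀)`, `c₀ > 0` (S0325, part 2, for one `ε`), every regular tetrahedron admits
the two covers required by S0327.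
-/

set_option autoImplicit false
open MeasureTheory
open scoped ENNReal

namespace Crest.Agent.R211

theorem regTet_cover_of_core
    (H1 : ∀ v : EuclideanSpace ℝ (Fin 3), ‖v‖ = 1 →
        ENNReal.ofReal (Real.sqrt 2) ≤ μHE[2] ((fun y => y - inner ℝ y v • v) ''
          convexHull ℝ {!₂[1, 0, 0], !₂[-1, 0, 0], !₂[0, 1, Real.sqrt 2], !₂[0, -1, Real.sqrt 2]}))
    (c₀ : ℝ) (hc₀ : 0 < c₀)
    (H2 : ∃ (N : ℕ) (u p q r : Fin N → EuclideanSpace ℝ (Fin 3)),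
        (∀ i, ‖u i‖ = 1) ∧
        (∀ i, inner ℝ (p i) (u i) = 0 ∧ inner ℝ (q i) (u i) = 0 ∧ inner ℝ (r i) (u i) = 0) ∧
        convexHull ℝ {!₂[1, 0, 0], !₂[-1, 0, 0], !₂[0, 1, Real.sqrt 2], !₂[0, -1, Real.sqrt 2]} ⊆
          ⋃ i, {x : EuclideanSpace ℝ (Fin 3) |
            ∃ b ∈ convexHull ℝ {p i, q i, r i}, ∃ t : ℝ, x = b + t • u i} ∧
        ∑ i, (μHE[2] (convexHull ℝ ({p i, q i, r i} : Set (EuclideanSpace ℝ (Fin 3))))).toReal ≤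
          Real.sqrt 2 * (1 / 2 - c₀))
    (w : Fin 4 → EuclideanSpace ℝ (Fin 3)) (ℓ : ℝ) (hℓ : 0 < ℓ)
    (hw : ∀ i j, i ≠ j → dist (w i) (w j) = ℓ) :
    (∃ (k : ℕ) (u c a b : Fin k → EuclideanSpace ℝ (Fin 3)),
      (∀ i, ‖u i‖ = 1) ∧
      (∀ i, inner ℝ (c i) (u i) = 0 ∧ inner ℝ (a i) (u i) = 0 ∧ inner ℝ (b i) (u i) = 0) ∧
      convexHull ℝ (Set.range w) ⊆ ⋃ i, {x : EuclideanSpace ℝ (Fin 3) |
        ∃ s ∈ Set.Icc (0 : ℝ) 1, ∃ t ∈ Set.Icc (0 : ℝ) 1, ∃ τ : ℝ,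
          x = c i + s • a i + t • b i + τ • u i} ∧
      (∃ δ : ℝ, 0 < δ ∧ ∀ v : EuclideanSpace ℝ (Fin 3), ‖v‖ = 1 →
        (∑ i, (μHE[2] {x : EuclideanSpace ℝ (Fin 3) |
            ∃ s ∈ Set.Icc (0 : ℝ) 1, ∃ t ∈ Set.Icc (0 : ℝ) 1,
              x = c i + s • a i + t • b i}).toReal) + δ ≤
          (μHE[2] ((fun y => y - inner ℝ y v • v) '' convexHull ℝ (Set.range w))).toReal / 2) ∧
      ∑ i, (μHE[2] {x : EuclideanSpace ℝ (Fin 3) |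
            ∃ s ∈ Set.Icc (0 : ℝ) 1, ∃ t ∈ Set.Icc (0 : ℝ) 1,
              x = c i + s • a i + t • b i}).toReal /
          (μHE[2] ((fun y => y - inner ℝ y (u i) • u i) '' convexHull ℝ (Set.range w))).toReal
        < 1 / 2) ∧
    (∃ (k : ℕ) (u : Fin k → EuclideanSpace ℝ (Fin 3)) (B : Fin k → Set (EuclideanSpace ℝ (Fin 3))),
      (∀ i, ‖u i‖ = 1) ∧
      (∀ i, Bornology.IsBounded (B i) ∧ ∃ O : Set (EuclideanSpace ℝ (Fin 3)), IsOpen O ∧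
        B i = O ∩ {x | inner ℝ x (u i) = 0}) ∧
      convexHull ℝ (Set.range w) ⊆
        ⋃ i, {x : EuclideanSpace ℝ (Fin 3) | ∃ y ∈ B i, ∃ τ : ℝ, x = y + τ • u i} ∧
      (∃ δ : ℝ, 0 < δ ∧ ∀ v : EuclideanSpace ℝ (Fin 3), ‖v‖ = 1 →
        (∑ i, (μHE[2] (B i)).toReal) + δ ≤
          (μHE[2] ((fun y => y - inner ℝ y v • v) '' convexHull ℝ (Set.range w))).toReal / 2) ∧
      ∑ i, (μHE[2] (B i)).toReal /
          (μHE[2] ((fun y => y - inner ℝ y (u i) • u i) '' convexHull ℝ (Set.range w))).toReal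
        < 1 / 2) := by
  obtain ⟨N, u, p, q, r, hu, horth, hcov, hsum⟩ := H2
  have hs2 : (0 : ℝ) < Real.sqrt 2 := by positivity
  -- triangle areas in Gram form
  have harea : ∀ i, (μHE[2] (convexHull ℝ ({p i, q i, r i} : Set (EuclideanSpace ℝ (Fin 3))))).toReal
      = Real.sqrt (‖q i - p i‖ ^ 2 * ‖r i - p i‖ ^ 2 - inner ℝ (q i - p i) (r i - p i) ^ 2) / 2 := by
    intro i
    rw [area_triangle, ENNReal.toReal_ofReal (by positivity)]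
  simp only [harea] at hsum
  -- the number of strips
  obtain ⟨m, hm, hm'⟩ : ∃ m : ℕ, 0 < m ∧ 1 / (m : ℝ) ≤ c₀ := by
    refine ⟨⌈1 / c₀⌉₊ + 1, Nat.succ_pos _, ?_⟩
    have h1 : 1 / c₀ ≤ (⌈1 / c₀⌉₊ : ℝ) := Nat.le_ceil _
    have h2 : (0 : ℝ) < ((⌈1 / c₀⌉₊ + 1 : ℕ) : ℝ) := by positivity
    rw [div_le_iff₀ h2]
    push_cast
    have h3 : 1 / c₀ * c₀ = 1 := by field_simp
    nlinarith
  have hm0 : (0 : ℝ) < m := by exact_mod_cast hm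
  obtain ⟨k, u1, c1, a1, b1, hu1, horth1, hcov1, hsum1⟩ :=
    tri_to_par_cover _ u p q r hu horth hcov m hm
  -- the similarity
  obtain ⟨ι₃, m₀, hΦ⟩ := regTet_frame w ℓ hℓ hw
  have hr : 0 < ℓ / 2 := by positivity
  obtain ⟨u2, c2, a2, b2, hu2, horth2, hcov2, hgram2⟩ :=
    simil_par_cover ι₃ m₀ (ℓ / 2) _ u1 c1 a1 b1 hu1 horth1 hcov1
  rw [hΦ] at hcov2
  -- areas of the new parallelograms
  have hpar_area : ∀ i, (μHE[2] {x : EuclideanSpace ℝ (Fin 3) |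
      ∃ s ∈ Set.Icc (0 : ℝ) 1, ∃ t ∈ Set.Icc (0 : ℝ) 1, x = c2 i + s • a2 i + t • b2 i}).toReal =
      (ℓ / 2) ^ 2 * Real.sqrt (‖a1 i‖ ^ 2 * ‖b1 i‖ ^ 2 - inner ℝ (a1 i) (b1 i) ^ 2) := by
    intro i
    rw [area_parallelogram, ENNReal.toReal_ofReal (Real.sqrt_nonneg _), hgram2 i]
  have hX0 : 0 ≤ ∑ i, Real.sqrt (‖q i - p i‖ ^ 2 * ‖r i - p i‖ ^ 2 -
      inner ℝ (q i - p i) (r i - p i) ^ 2) / 2 :=
    Finset.sum_nonneg (fun i _ => by positivity)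
  have hS : ∑ i, (μHE[2] {x : EuclideanSpace ℝ (Fin 3) |
      ∃ s ∈ Set.Icc (0 : ℝ) 1, ∃ t ∈ Set.Icc (0 : ℝ) 1, x = c2 i + s • a2 i + t • b2 i}).toReal ≤
      (ℓ / 2) ^ 2 * (Real.sqrt 2 * (1 / 2 - c₀ / 2)) := by
    simp only [hpar_area]
    rw [← Finset.mul_sum, hsum1]
    apply mul_le_mul_of_nonneg_left _ (by positivity)
    set X : ℝ := ∑ i, Real.sqrt (‖q i - p i‖ ^ 2 * ‖r i - p i‖ ^ 2 -
      inner ℝ (q i - p i) (r i - p i) ^ 2) / 2 with hX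
    have hc1 : c₀ ≤ 1 / 2 := by
      by_contra hcon
      have h' : 1 / 2 - c₀ < 0 := by linarith [not_le.mp hcon]
      have : Real.sqrt 2 * (1 / 2 - c₀) < 0 := mul_neg_of_pos_of_neg hs2 h'
      linarith
    have h1 : (1 + 1 / (m : ℝ)) * X ≤ (1 + c₀) * X :=
      mul_le_mul_of_nonneg_right (by linarith) hX0
    have h2 : (1 + c₀) * X ≤ (1 + c₀) * (Real.sqrt 2 * (1 / 2 - c₀)) :=
      mul_le_mul_of_nonneg_left hsum (by linarith)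
    have h3 : (1 + c₀) * (Real.sqrt 2 * (1 / 2 - c₀)) ≤ Real.sqrt 2 * (1 / 2 - c₀ / 2) := by
      have : (1 + c₀) * (1 / 2 - c₀) ≤ 1 / 2 - c₀ / 2 := by nlinarith
      calc (1 + c₀) * (Real.sqrt 2 * (1 / 2 - c₀)) = Real.sqrt 2 * ((1 + c₀) * (1 / 2 - c₀)) := by
            ring
        _ ≤ Real.sqrt 2 * (1 / 2 - c₀ / 2) := mul_le_mul_of_nonneg_left this hs2.le
    linarith
  -- projection areas of the regular tetrahedron
  have hK'bdd : Bornology.IsBounded (convexHull ℝ (Set.range w)) :=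
    isBounded_convexHull.mpr (Set.finite_range w).isBounded
  have hproj : ∀ v : EuclideanSpace ℝ (Fin 3), ‖v‖ = 1 → (ℓ / 2) ^ 2 * Real.sqrt 2 ≤
      (μHE[2] ((fun y => y - inner ℝ y v • v) '' convexHull ℝ (Set.range w))).toReal := by
    intro v hv
    have hfin := proj_area_lt_top v hv _ hK'bdd
    have h1 : ENNReal.ofReal ((ℓ / 2) ^ 2 * Real.sqrt 2) ≤
        μHE[2] ((fun y => y - inner ℝ y v • v) '' convexHull ℝ (Set.range w)) := by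
      rw [← hΦ, simil_proj_image, simil_area _ _ _ hr, ENNReal.ofReal_mul (by positivity)]
      gcongr
      exact H1 (ι₃.symm v) (by rw [LinearIsometryEquiv.norm_map]; exact hv)
    exact (ENNReal.ofReal_le_iff_le_toReal hfin.ne).mp h1
  set δ : ℝ := (ℓ / 2) ^ 2 * Real.sqrt 2 * c₀ / 2 with hδdef
  have hδ : 0 < δ := by positivity
  have hmargin : ∀ v : EuclideanSpace ℝ (Fin 3), ‖v‖ = 1 →
      (∑ i, (μHE[2] {x : EuclideanSpace ℝ (Fin 3) |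
        ∃ s ∈ Set.Icc (0 : ℝ) 1, ∃ t ∈ Set.Icc (0 : ℝ) 1, x = c2 i + s • a2 i + t • b2 i}).toReal)
        + δ ≤
      (μHE[2] ((fun y => y - inner ℝ y v • v) '' convexHull ℝ (Set.range w))).toReal / 2 := by
    intro v hv
    have h1 := hproj v hv
    have h2 : (ℓ / 2) ^ 2 * (Real.sqrt 2 * (1 / 2 - c₀ / 2)) + δ = (ℓ / 2) ^ 2 * Real.sqrt 2 / 2 := by
      rw [hδdef]; ring
    linarith
  refine ⟨⟨k, u2, c2, a2, b2, hu2, horth2, hcov2, ⟨δ, hδ, hmargin⟩, ?_⟩, ?_⟩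
  · exact ratio_sum_lt_half
      (fun i => (μHE[2] {x : EuclideanSpace ℝ (Fin 3) |
        ∃ s ∈ Set.Icc (0 : ℝ) 1, ∃ t ∈ Set.Icc (0 : ℝ) 1, x = c2 i + s • a2 i + t • b2 i}).toReal)
      (fun i => (μHE[2] ((fun y => y - inner ℝ y (u2 i) • u2 i) ''
        convexHull ℝ (Set.range w))).toReal)
      (fun i => ENNReal.toReal_nonneg) δ hδ (fun i => hmargin (u2 i) (hu2 i))
  · -- relatively open bases
    have hk0 : (0 : ℝ) < 2 * ((k : ℝ) + 1) := by positivity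
    set ε' : ℝ := δ / (2 * ((k : ℝ) + 1)) with hε'def
    have hε' : 0 < ε' := by positivity
    choose B hBb hBo hBsub hBarea using fun i =>
      exists_open_base (u2 i) (hu2 i) _
        (par_orth (u2 i) (c2 i) (a2 i) (b2 i) (horth2 i).1 (horth2 i).2.1 (horth2 i).2.2)
        (par_isBounded (c2 i) (a2 i) (b2 i)) ε' hε'
    have hBreal : ∀ i, (μHE[2] (B i)).toReal ≤ (μHE[2] {x : EuclideanSpace ℝ (Fin 3) |
        ∃ s ∈ Set.Icc (0 : ℝ) 1, ∃ t ∈ Set.Icc (0 : ℝ) 1, x = c2 i + s • a2 i + t • b2 i}).toReal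
        + ε' := by
      intro i
      have hfin : μHE[2] {x : EuclideanSpace ℝ (Fin 3) |
          ∃ s ∈ Set.Icc (0 : ℝ) 1, ∃ t ∈ Set.Icc (0 : ℝ) 1, x = c2 i + s • a2 i + t • b2 i} ≠ ⊤ := by
        rw [area_parallelogram]; exact ENNReal.ofReal_ne_top
      have h := ENNReal.toReal_mono (ENNReal.add_ne_top.mpr ⟨hfin, ENNReal.ofReal_ne_top⟩)
        (hBarea i)
      rwa [ENNReal.toReal_add hfin ENNReal.ofReal_ne_top, ENNReal.toReal_ofReal hε'.le] at h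
    have hmargin2 : ∀ v : EuclideanSpace ℝ (Fin 3), ‖v‖ = 1 →
        (∑ i, (μHE[2] (B i)).toReal) + δ / 2 ≤
        (μHE[2] ((fun y => y - inner ℝ y v • v) '' convexHull ℝ (Set.range w))).toReal / 2 := by
      intro v hv
      have h1 : ∑ i, (μHE[2] (B i)).toReal ≤ (∑ i, (μHE[2] {x : EuclideanSpace ℝ (Fin 3) |
          ∃ s ∈ Set.Icc (0 : ℝ) 1, ∃ t ∈ Set.Icc (0 : ℝ) 1,
            x = c2 i + s • a2 i + t • b2 i}).toReal) + (k : ℝ) * ε' := by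
        calc ∑ i, (μHE[2] (B i)).toReal
            ≤ ∑ i, ((μHE[2] {x : EuclideanSpace ℝ (Fin 3) |
              ∃ s ∈ Set.Icc (0 : ℝ) 1, ∃ t ∈ Set.Icc (0 : ℝ) 1,
                x = c2 i + s • a2 i + t • b2 i}).toReal + ε') :=
              Finset.sum_le_sum (fun i _ => hBreal i)
          _ = _ := by
              rw [Finset.sum_add_distrib]
              simp
      have h2 : (k : ℝ) * ε' ≤ δ / 2 := by
        rw [hε'def, ← mul_div_assoc, div_le_iff₀ hk0]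
        nlinarith
      linarith [hmargin v hv]
    refine ⟨k, u2, B, hu2, fun i => ⟨hBb i, hBo i⟩, ?_, ⟨δ / 2, by positivity, hmargin2⟩, ?_⟩
    · intro x hx
      obtain ⟨i, hi⟩ := Set.mem_iUnion.mp (hcov2 hx)
      obtain ⟨s, hs, t, ht, τ, hτ⟩ := hi
      exact Set.mem_iUnion.mpr ⟨i, c2 i + s • a2 i + t • b2 i, hBsub i ⟨s, hs, t, ht, rfl⟩, τ, hτ⟩
    · exact ratio_sum_lt_half (fun i => (μHE[2] (B i)).toReal)
        (fun i => (μHE[2] ((fun y => y - inner ℝ y (u2 i) • u2 i) ''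
          convexHull ℝ (Set.range w))).toReal)
        (fun i => ENNReal.toReal_nonneg) (δ / 2) (by positivity)
        (fun i => hmargin2 (u2 i) (hu2 i))

/-- S0327 from the statement of S0325 (used as a black box). -/
theorem regTet_cover_of_S0325
    (H : ((∀ v : EuclideanSpace ℝ (Fin 3), ‖v‖ = 1 →
        ENNReal.ofReal (Real.sqrt 2) ≤ μHE[2] ((fun y => y - inner ℝ y v • v) '' convexHull ℝ {!₂[1, 0, 0], !₂[-1, 0, 0], !₂[0, 1, Real.sqrt 2], !₂[0, -1, Real.sqrt 2]})) ∧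
      ∃ v : EuclideanSpace ℝ (Fin 3), ‖v‖ = 1 ∧
        μHE[2] ((fun y => y - inner ℝ y v • v) '' convexHull ℝ {!₂[1, 0, 0], !₂[-1, 0, 0], !₂[0, 1, Real.sqrt 2], !₂[0, -1, Real.sqrt 2]}) = ENNReal.ofReal (Real.sqrt 2)) ∧
    ∀ ε : ℝ, 0 < ε → ε ≤ 1 / 2000 →
      ∃ (u p q r : Fin (2 * ⌈2 / ε ^ 2⌉₊) → EuclideanSpace ℝ (Fin 3)),
        (∀ i, ‖u i‖ = 1) ∧
        (∀ i, inner ℝ (p i) (u i) = 0 ∧ inner ℝ (q i) (u i) = 0 ∧ inner ℝ (r i) (u i) = 0) ∧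
        convexHull ℝ {!₂[1, 0, 0], !₂[-1, 0, 0], !₂[0, 1, Real.sqrt 2], !₂[0, -1, Real.sqrt 2]} ⊆
          ⋃ i, {x : EuclideanSpace ℝ (Fin 3) | ∃ b ∈ convexHull ℝ {p i, q i, r i}, ∃ t : ℝ, x = b + t • u i} ∧
        abs ((∑ i, (μHE[2] (convexHull ℝ ({p i, q i, r i} : Set (EuclideanSpace ℝ (Fin 3))))).toReal) / Real.sqrt 2 -
            (1 / 2 - 13 / 6000 * ε ^ 2)) ≤ 2 * ε ^ 4)
    (w : Fin 4 → EuclideanSpace ℝ (Fin 3)) (ℓ : ℝ) (hℓ : 0 < ℓ)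
    (hw : ∀ i j, i ≠ j → dist (w i) (w j) = ℓ) :
    (∃ (k : ℕ) (u c a b : Fin k → EuclideanSpace ℝ (Fin 3)),
      (∀ i, ‖u i‖ = 1) ∧
      (∀ i, inner ℝ (c i) (u i) = 0 ∧ inner ℝ (a i) (u i) = 0 ∧ inner ℝ (b i) (u i) = 0) ∧
      convexHull ℝ (Set.range w) ⊆ ⋃ i, {x : EuclideanSpace ℝ (Fin 3) |
        ∃ s ∈ Set.Icc (0 : ℝ) 1, ∃ t ∈ Set.Icc (0 : ℝ) 1, ∃ τ : ℝ, x = c i + s • a i + t • b i + τ • u i} ∧
      (∃ δ : ℝ, 0 < δ ∧ ∀ v : EuclideanSpace ℝ (Fin 3), ‖v‖ = 1 →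
        (∑ i, (μHE[2] {x : EuclideanSpace ℝ (Fin 3) |
            ∃ s ∈ Set.Icc (0 : ℝ) 1, ∃ t ∈ Set.Icc (0 : ℝ) 1, x = c i + s • a i + t • b i}).toReal) + δ ≤
          (μHE[2] ((fun y => y - inner ℝ y v • v) '' convexHull ℝ (Set.range w))).toReal / 2) ∧
      ∑ i, (μHE[2] {x : EuclideanSpace ℝ (Fin 3) |
            ∃ s ∈ Set.Icc (0 : ℝ) 1, ∃ t ∈ Set.Icc (0 : ℝ) 1, x = c i + s • a i + t • b i}).toReal /
          (μHE[2] ((fun y => y - inner ℝ y (u i) • u i) '' convexHull ℝ (Set.range w))).toReal < 1 / 2) ∧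
    (∃ (k : ℕ) (u : Fin k → EuclideanSpace ℝ (Fin 3)) (B : Fin k → Set (EuclideanSpace ℝ (Fin 3))),
      (∀ i, ‖u i‖ = 1) ∧
      (∀ i, Bornology.IsBounded (B i) ∧ ∃ O : Set (EuclideanSpace ℝ (Fin 3)), IsOpen O ∧
        B i = O ∩ {x | inner ℝ x (u i) = 0}) ∧
      convexHull ℝ (Set.range w) ⊆
        ⋃ i, {x : EuclideanSpace ℝ (Fin 3) | ∃ y ∈ B i, ∃ τ : ℝ, x = y + τ • u i} ∧
      (∃ δ : ℝ, 0 < δ ∧ ∀ v : EuclideanSpace ℝ (Fin 3), ‖v‖ = 1 →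
        (∑ i, (μHE[2] (B i)).toReal) + δ ≤
          (μHE[2] ((fun y => y - inner ℝ y v • v) '' convexHull ℝ (Set.range w))).toReal / 2) ∧
      ∑ i, (μHE[2] (B i)).toReal /
          (μHE[2] ((fun y => y - inner ℝ y (u i) • u i) '' convexHull ℝ (Set.range w))).toReal < 1 / 2) := by
  obtain ⟨⟨H1, -⟩, H2⟩ := H
  obtain ⟨u, p, q, r, hu, horth, hcov, habs⟩ := H2 (1 / 2000) (by norm_num) (by norm_num)
  have hs2 : (0 : ℝ) < Real.sqrt 2 := by positivity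
  refine regTet_cover_of_core H1 (13 / 6000 * (1 / 2000) ^ 2 - 2 * (1 / 2000) ^ 4) (by norm_num)
    ⟨_, u, p, q, r, hu, horth, hcov, ?_⟩ w ℓ hℓ hw
  have h := (abs_le.mp habs).2
  set A : ℝ := ∑ i, (μHE[2] (convexHull ℝ ({p i, q i, r i} :
    Set (EuclideanSpace ℝ (Fin 3))))).toReal with hA
  have h2 : A / Real.sqrt 2 ≤ 1 / 2 - (13 / 6000 * (1 / 2000) ^ 2 - 2 * (1 / 2000) ^ 4) := by
    linarith
  calc A = Real.sqrt 2 * (A / Real.sqrt 2) := by field_simp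
    _ ≤ Real.sqrt 2 * (1 / 2 - (13 / 6000 * (1 / 2000) ^ 2 - 2 * (1 / 2000) ^ 4)) :=
      mul_le_mul_of_nonneg_left h2 hs2.le

end Crest.Agent.R211
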