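/-
Row 211, statement S0328 (radial sweep): geometric and analytic lemmas (owner: helper22).
Everything lives in the sub-namespace `Crest.Agent.R211.S0328` so that no name clashes with the
other row-211 libraries.
-/
import Mathlib
import Crest.Agent.R211_Area

set_option autoImplicit false
open MeasureTheory
open scoped ENNReal

namespace Crest.Agent.R211.S0328

/-- shorthand -/
abbrev E3 := EuclideanSpace ℝ (Fin 3)

/-- Gram determinant of a pair. -/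
noncomputable def gram2 (a b : E3) : ℝ := ‖a‖ ^ 2 * ‖b‖ ^ 2 - inner ℝ a b ^ 2

theorem gram2_pos {a b : E3} (hab : LinearIndependent ℝ ![a, b]) : 0 < gram2 a b := by
  rw [LinearIndependent.pair_iff] at hab
  have hb : b ≠ 0 := by
    intro h
    have := hab 0 1 (by simp [h])
    simp at this
  have hb2 : 0 < ‖b‖ ^ 2 := by positivity
  set v : E3 := (‖b‖ ^ 2) • a - (inner ℝ a b) • b with hv
  have hv0 : v ≠ 0 := by
    intro h
    have := hab (‖b‖ ^ 2) (-(inner ℝ a b)) (by rw [← h, hv]; simp [sub_eq_add_neg])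
    exact hb2.ne' this.1
  have hn : ‖v‖ ^ 2 = ‖b‖ ^ 2 * gram2 a b := by
    rw [← real_inner_self_eq_norm_sq, hv]
    simp only [inner_sub_left, inner_sub_right, inner_smul_left, inner_smul_right,
      real_inner_self_eq_norm_sq, gram2, real_inner_comm a b]
    simp
    ring
  have h1 : 0 < ‖v‖ ^ 2 := by positivity
  rw [hn] at h1
  exact (pos_iff_pos_of_mul_pos h1).mp hb2

theorem exists_decomp {e a b : E3} (he : ‖e‖ = 1) (ha : inner ℝ a e = 0) (hb : inner ℝ b e = 0)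
    (hab : LinearIndependent ℝ ![a, b]) (v : E3) (hv : inner ℝ v e = 0) :
    ∃ x y : ℝ, v = x • a + y • b := by
  have he0 : e ≠ 0 := by intro h; simp [h] at he
  have : Fact (Module.finrank ℝ E3 = 2 + 1) := ⟨by simp⟩
  have hfin : Module.finrank ℝ (ℝ ∙ e)ᗮ = 2 := Submodule.finrank_orthogonal_span_singleton he0
  have hmem : ∀ u : E3, inner ℝ u e = 0 → u ∈ (ℝ ∙ e)ᗮ := by
    intro u hu
    rw [Submodule.mem_orthogonal_singleton_iff_inner_left]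
    exact hu
  have hle : Submodule.span ℝ (Set.range ![a, b]) ≤ (ℝ ∙ e)ᗮ := by
    rw [Submodule.span_le]
    rintro _ ⟨i, rfl⟩
    fin_cases i
    · exact hmem _ ha
    · exact hmem _ hb
  have hfr : Module.finrank ℝ (Submodule.span ℝ (Set.range ![a, b])) = 2 := by
    rw [finrank_span_eq_card hab]; simp
  have heq : Submodule.span ℝ (Set.range ![a, b]) = (ℝ ∙ e)ᗮ :=
    Submodule.eq_of_le_of_finrank_eq hle (by rw [hfr, hfin])
  have hvm : v ∈ Submodule.span ℝ (Set.range ![a, b]) := by rw [heq]; exact hmem v hv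
  have hr : Set.range ![a, b] = {a, b} := by
    ext z; simp [eq_comm, or_comm]
  rw [hr, Submodule.mem_span_pair] at hvm
  obtain ⟨x, y, hxy⟩ := hvm
  exact ⟨x, y, hxy.symm⟩


theorem exists_dual {a b : E3} (hab : LinearIndependent ℝ ![a, b]) :
    ∃ φa φb : E3 →L[ℝ] ℝ, φa a = 1 ∧ φa b = 0 ∧ φb a = 0 ∧ φb b = 1 := by
  have hG := gram2_pos hab
  have hG' : gram2 a b ≠ 0 := hG.ne'
  have hGd : gram2 a b = ‖a‖ ^ 2 * ‖b‖ ^ 2 - inner ℝ a b ^ 2 := rfl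
  refine ⟨(‖b‖ ^ 2 / gram2 a b) • innerSL ℝ a - (inner ℝ a b / gram2 a b) • innerSL ℝ b,
    (‖a‖ ^ 2 / gram2 a b) • innerSL ℝ b - (inner ℝ a b / gram2 a b) • innerSL ℝ a, ?_, ?_, ?_, ?_⟩
  · simp only [sub_apply, smul_apply, innerSL_apply_apply,
      real_inner_self_eq_norm_sq, smul_eq_mul, real_inner_comm a b]
    field_simp
    rw [hGd]; ring
  · simp only [sub_apply, smul_apply, innerSL_apply_apply,
      real_inner_self_eq_norm_sq, smul_eq_mul]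
    field_simp
    ring
  · simp only [sub_apply, smul_apply, innerSL_apply_apply,
      real_inner_self_eq_norm_sq, smul_eq_mul, real_inner_comm a b]
    field_simp
    ring
  · simp only [sub_apply, smul_apply, innerSL_apply_apply,
      real_inner_self_eq_norm_sq, smul_eq_mul]
    field_simp
    rw [hGd]

theorem mem_convexHull_triple {x y z : E3} {a b c : ℝ} (ha : 0 ≤ a) (hb : 0 ≤ b) (hc : 0 ≤ c)
    (h : a + b + c = 1) : a • x + b • y + c • z ∈ convexHull ℝ ({x, y, z} : Set E3) := by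
  have hconv := convex_convexHull ℝ ({x, y, z} : Set E3)
  have := hconv.sum_mem (t := Finset.univ) (w := ![a, b, c]) (z := ![x, y, z])
    (by intro i _; fin_cases i <;> simp [ha, hb, hc])
    (by simp [Fin.sum_univ_three, h])
    (by
      intro i _
      fin_cases i
      · exact subset_convexHull ℝ _ (by simp)
      · exact subset_convexHull ℝ _ (by simp)
      · exact subset_convexHull ℝ _ (by simp))
  simpa [Fin.sum_univ_three] using this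

theorem mem_tri {p₀ u v : E3} {m D κm κp X Z : ℝ} (hD : 0 < D) (hκ : κm < κp)
    (hX : X ≤ D - m) (hZ1 : κm * (X + m) ≤ Z) (hZ2 : Z ≤ κp * (X + m)) :
    p₀ + X • u + Z • v ∈ convexHull ℝ ({p₀ - m • u, p₀ + (D - m) • u + (κm * D) • v,
      p₀ + (D - m) • u + (κp * D) • v} : Set E3) := by
  have hκ' : 0 < κp - κm := by linarith
  have hD0 : D ≠ 0 := hD.ne'
  have hk0 : κp - κm ≠ 0 := hκ'.ne'
  set wA : ℝ := (D - m - X) / D with hwA
  set wB : ℝ := (κp * (X + m) - Z) / (D * (κp - κm)) with hwB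
  set wC : ℝ := (Z - κm * (X + m)) / (D * (κp - κm)) with hwC
  have h1 : wA + wB + wC = 1 := by
    rw [hwA, hwB, hwC]; field_simp; ring
  have h2 : -m * wA + (D - m) * (wB + wC) = X := by
    rw [hwA, hwB, hwC]; field_simp; ring
  have h3 : κm * D * wB + κp * D * wC = Z := by
    rw [hwB, hwC]; field_simp; ring
  have hA : 0 ≤ wA := div_nonneg (by linarith) hD.le
  have hB : 0 ≤ wB := div_nonneg (by linarith) (by positivity)
  have hC : 0 ≤ wC := div_nonneg (by linarith) (by positivity)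
  have key : p₀ + X • u + Z • v = wA • (p₀ - m • u) + wB • (p₀ + (D - m) • u + (κm * D) • v)
      + wC • (p₀ + (D - m) • u + (κp * D) • v) := by
    have hp : p₀ = (wA + wB + wC) • p₀ := by rw [h1, one_smul]
    rw [← h2, ← h3]
    nth_rewrite 1 [hp]
    module
  rw [key]
  exact mem_convexHull_triple hA hB hC h1


theorem exists_shift_coords {e a b : E3} (he : ‖e‖ = 1) (ha : inner ℝ a e = 0)
    (hb : inner ℝ b e = 0) (hab : LinearIndependent ℝ ![a, b]) {α β : ℝ} {w : ℝ → E3}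
    (hw : ∀ t ∈ Set.Icc α β, inner ℝ (w t) e = 0) {lam : ℝ → ℝ}
    (hw' : ∀ t ∈ Set.Icc α β, HasDerivWithinAt w (lam t • (a + t • b)) (Set.Icc α β) t)
    {Λ : ℝ} (hΛ : ∀ t ∈ Set.Icc α β, |lam t| ≤ Λ)
    {lo hi c τ : ℝ} (hlo : α ≤ lo) (hhi : hi ≤ β) (hc : c ∈ Set.Icc lo hi)
    (hτ : τ ∈ Set.Icc lo hi) :
    ∃ I₀ J : ℝ, w τ - w c = I₀ • (a + c • b) + J • b ∧ |I₀| ≤ Λ * (hi - lo) ∧
      |J| ≤ Λ * (hi - lo) ^ 2 := by
  obtain ⟨φa, φb, haa, hab', hba, hbb⟩ := exists_dual hab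
  have sub : Set.Icc lo hi ⊆ Set.Icc α β := Set.Icc_subset_Icc hlo hhi
  have hΛ0 : 0 ≤ Λ := le_trans (abs_nonneg _) (hΛ c (sub hc))
  have hlohi : lo ≤ hi := le_trans hc.1 hc.2
  have hda : ∀ σ ∈ Set.Icc lo hi,
      HasDerivWithinAt (fun σ => φa (w σ)) (lam σ) (Set.Icc lo hi) σ := by
    intro σ hσ
    have h := φa.hasFDerivAt.comp_hasDerivWithinAt σ ((hw' σ (sub hσ)).mono sub)
    have e1 : φa (lam σ • (a + σ • b)) = lam σ := by
      simp [haa, hab']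
    rw [e1] at h
    exact h
  have hdb : ∀ σ ∈ Set.Icc lo hi,
      HasDerivWithinAt (fun σ => φb (w σ)) (lam σ * σ) (Set.Icc lo hi) σ := by
    intro σ hσ
    have h := φb.hasFDerivAt.comp_hasDerivWithinAt σ ((hw' σ (sub hσ)).mono sub)
    have e1 : φb (lam σ • (a + σ • b)) = lam σ * σ := by
      simp [hba, hbb]
    rw [e1] at h
    exact h
  have hdF : ∀ σ ∈ Set.Icc lo hi, HasDerivWithinAt (fun σ => φb (w σ) - c * φa (w σ))
      (lam σ * σ - c * lam σ) (Set.Icc lo hi) σ :=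
    fun σ hσ => (hdb σ hσ).sub ((hda σ hσ).const_mul c)
  have b1 := Convex.norm_image_sub_le_of_norm_hasDerivWithin_le (f := fun σ => φa (w σ))
    (f' := lam) (C := Λ) hda
    (fun σ hσ => by rw [Real.norm_eq_abs]; exact hΛ σ (sub hσ)) (convex_Icc lo hi) hc hτ
  have b2 := Convex.norm_image_sub_le_of_norm_hasDerivWithin_le
    (f := fun σ => φb (w σ) - c * φa (w σ))
    (f' := fun σ => lam σ * σ - c * lam σ) (C := Λ * (hi - lo)) hdF
    (fun σ hσ => by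
      rw [Real.norm_eq_abs]
      have : lam σ * σ - c * lam σ = lam σ * (σ - c) := by ring
      rw [this, abs_mul]
      have h1 := hΛ σ (sub hσ)
      have h2 : |σ - c| ≤ hi - lo := by
        rw [abs_le]; constructor <;> linarith [hσ.1, hσ.2, hc.1, hc.2]
      exact mul_le_mul h1 h2 (abs_nonneg _) hΛ0)
    (convex_Icc lo hi) hc hτ
  have hτc : ‖τ - c‖ ≤ hi - lo := by
    rw [Real.norm_eq_abs, abs_le]; constructor <;> linarith [hτ.1, hτ.2, hc.1, hc.2]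
  obtain ⟨x, y, hxy⟩ := exists_decomp he ha hb hab (w τ - w c)
    (by rw [inner_sub_left, hw τ (sub hτ), hw c (sub hc), sub_zero])
  have hx : x = φa (w τ) - φa (w c) := by
    have := congrArg φa hxy
    simp [haa, hab'] at this
    linarith
  have hy : y = φb (w τ) - φb (w c) := by
    have := congrArg φb hxy
    simp [hba, hbb] at this
    linarith
  refine ⟨x, y - c * x, ?_, ?_, ?_⟩
  · rw [hxy]; module
  · rw [hx, ← Real.norm_eq_abs]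
    exact b1.trans (mul_le_mul_of_nonneg_left hτc hΛ0)
  · have : y - c * x = (φb (w τ) - c * φa (w τ)) - (φb (w c) - c * φa (w c)) := by
      rw [hx, hy]; ring
    rw [this, ← Real.norm_eq_abs]
    refine b2.trans ?_
    rw [pow_two, ← mul_assoc]
    exact mul_le_mul_of_nonneg_left hτc (mul_nonneg hΛ0 (by linarith))

/-- Orthogonal projection onto the plane `n^⊥` as a linear map. -/
noncomputable def projL (n : E3) : E3 →ₗ[ℝ] E3 where
  toFun y := y - (inner ℝ y n / ‖n‖ ^ 2) • n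
  map_add' x y := by
    simp only [inner_add_left, add_div, add_smul]; abel
  map_smul' r x := by
    simp only [inner_smul_left, RingHom.id_apply, smul_sub, mul_div_assoc, mul_smul]
    simp

theorem projL_apply (n y : E3) : projL n y = y - (inner ℝ y n / ‖n‖ ^ 2) • n := rfl

theorem inner_projL_self {n : E3} (hn : n ≠ 0) (y : E3) : inner ℝ (projL n y) n = 0 := by
  rw [projL_apply, inner_sub_left, inner_smul_left, real_inner_self_eq_norm_sq]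
  have : ‖n‖ ^ 2 ≠ 0 := by positivity
  simp only [conj_trivial]
  field_simp
  ring

theorem projL_eq_self {n y : E3} (h : inner ℝ y n = 0) : projL n y = y := by
  simp [projL_apply, h]

theorem projL_self {n : E3} (hn : n ≠ 0) : projL n n = 0 := by
  rw [projL_apply, real_inner_self_eq_norm_sq, div_self (by positivity), one_smul, sub_self]

theorem inner_projL_projL {n : E3} (hn : n ≠ 0) (u v : E3) :
    inner ℝ (projL n u) (projL n v) = inner ℝ u v - inner ℝ u n * inner ℝ v n / ‖n‖ ^ 2 := by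
  have h0 : ‖n‖ ^ 2 ≠ 0 := by positivity
  simp only [projL_apply, inner_sub_left, inner_sub_right, inner_smul_left, inner_smul_right,
    real_inner_self_eq_norm_sq, real_inner_comm v n, conj_trivial]
  field_simp
  ring


theorem inner_comb (a b : E3) (x₁ y₁ x₂ y₂ : ℝ) :
    inner ℝ (x₁ • a + y₁ • b) (x₂ • a + y₂ • b) =
      x₁ * x₂ * ‖a‖ ^ 2 + (x₁ * y₂ + y₁ * x₂) * inner ℝ a b + y₁ * y₂ * ‖b‖ ^ 2 := by
  simp only [inner_add_left, inner_add_right, inner_smul_left, inner_smul_right,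
    real_inner_self_eq_norm_sq, real_inner_comm a b, conj_trivial]
  ring

theorem gram_alg (A B C x₁ y₁ x₂ y₂ ξ ζ N : ℝ)
    (hN : N = 1 + (ξ ^ 2 * A + 2 * ξ * ζ * C + ζ ^ 2 * B)) (hN0 : N ≠ 0) :
    ((x₁ * x₁ * A + (x₁ * y₁ + y₁ * x₁) * C + y₁ * y₁ * B)
        - (x₁ * ξ * A + (x₁ * ζ + y₁ * ξ) * C + y₁ * ζ * B)
          * (x₁ * ξ * A + (x₁ * ζ + y₁ * ξ) * C + y₁ * ζ * B) / N)
      * ((x₂ * x₂ * A + (x₂ * y₂ + y₂ * x₂) * C + y₂ * y₂ * B)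
        - (x₂ * ξ * A + (x₂ * ζ + y₂ * ξ) * C + y₂ * ζ * B)
          * (x₂ * ξ * A + (x₂ * ζ + y₂ * ξ) * C + y₂ * ζ * B) / N)
      - ((x₁ * x₂ * A + (x₁ * y₂ + y₁ * x₂) * C + y₁ * y₂ * B)
        - (x₁ * ξ * A + (x₁ * ζ + y₁ * ξ) * C + y₁ * ζ * B)
          * (x₂ * ξ * A + (x₂ * ζ + y₂ * ξ) * C + y₂ * ζ * B) / N) ^ 2
      = (x₁ * y₂ - x₂ * y₁) ^ 2 * (A * B - C ^ 2) / N := by
  have key : ((x₁ * x₁ * A + (x₁ * y₁ + y₁ * x₁) * C + y₁ * y₁ * B) * N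
        - (x₁ * ξ * A + (x₁ * ζ + y₁ * ξ) * C + y₁ * ζ * B)
          * (x₁ * ξ * A + (x₁ * ζ + y₁ * ξ) * C + y₁ * ζ * B))
      * ((x₂ * x₂ * A + (x₂ * y₂ + y₂ * x₂) * C + y₂ * y₂ * B) * N
        - (x₂ * ξ * A + (x₂ * ζ + y₂ * ξ) * C + y₂ * ζ * B)
          * (x₂ * ξ * A + (x₂ * ζ + y₂ * ξ) * C + y₂ * ζ * B))
      - ((x₁ * x₂ * A + (x₁ * y₂ + y₁ * x₂) * C + y₁ * y₂ * B) * N
        - (x₁ * ξ * A + (x₁ * ζ + y₁ * ξ) * C + y₁ * ζ * B)
          * (x₂ * ξ * A + (x₂ * ζ + y₂ * ξ) * C + y₂ * ζ * B)) ^ 2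
      = (x₁ * y₂ - x₂ * y₁) ^ 2 * (A * B - C ^ 2) * N := by
    subst hN; ring
  field_simp
  linear_combination key

theorem gram2_proj {e a b w₀ : E3} (he : ‖e‖ = 1) (ha : inner ℝ a e = 0) (hb : inner ℝ b e = 0)
    (hab : LinearIndependent ℝ ![a, b]) (hw₀ : inner ℝ w₀ e = 0) (x₁ y₁ x₂ y₂ : ℝ) :
    gram2 (projL (e + w₀) (x₁ • a + y₁ • b)) (projL (e + w₀) (x₂ • a + y₂ • b)) =
      (x₁ * y₂ - x₂ * y₁) ^ 2 * gram2 a b / (1 + ‖w₀‖ ^ 2) := by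
  obtain ⟨ξ, ζ, hξζ⟩ := exists_decomp he ha hb hab w₀ hw₀
  have hnn : ‖e + w₀‖ ^ 2 = 1 + ‖w₀‖ ^ 2 := by
    rw [norm_add_sq_real, he, real_inner_comm, hw₀]; ring
  have hpos : (0:ℝ) < 1 + ‖w₀‖ ^ 2 := by positivity
  have hn0 : e + w₀ ≠ 0 := by
    intro h; rw [h] at hnn; simp at hnn; linarith
  have hun : ∀ x y : ℝ, inner ℝ (x • a + y • b) (e + w₀) =
      x * ξ * ‖a‖ ^ 2 + (x * ζ + y * ξ) * inner ℝ a b + y * ζ * ‖b‖ ^ 2 := by
    intro x y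
    rw [inner_add_right]
    have h0 : inner ℝ (x • a + y • b) e = 0 := by
      simp [inner_add_left, inner_smul_left, ha, hb]
    rw [h0, zero_add, hξζ, inner_comb]
  have hww : 1 + ‖w₀‖ ^ 2 = 1 + (ξ ^ 2 * ‖a‖ ^ 2 + 2 * ξ * ζ * inner ℝ a b + ζ ^ 2 * ‖b‖ ^ 2) := by
    congr 1
    rw [← real_inner_self_eq_norm_sq w₀, hξζ, inner_comb]; ring
  have h := gram_alg (‖a‖ ^ 2) (‖b‖ ^ 2) (inner ℝ a b) x₁ y₁ x₂ y₂ ξ ζ (1 + ‖w₀‖ ^ 2) hww hpos.ne'
  unfold gram2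
  rw [← real_inner_self_eq_norm_sq (projL (e + w₀) (x₁ • a + y₁ • b)),
    ← real_inner_self_eq_norm_sq (projL (e + w₀) (x₂ • a + y₂ • b)),
    inner_projL_projL hn0, inner_projL_projL hn0, inner_projL_projL hn0, hnn, hun, hun,
    inner_comb, inner_comb, inner_comb]
  exact h

theorem affineIndependent_of_gram2_pos {p q r : E3} (h : 0 < gram2 (q - p) (r - p)) :
    AffineIndependent ℝ ![p, q, r] := by
  rw [affineIndependent_iff_not_collinear_set]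
  intro hcol
  rw [collinear_iff_of_mem (p₀ := p) (by simp)] at hcol
  obtain ⟨v, hv⟩ := hcol
  obtain ⟨r₁, h1⟩ := hv q (by simp)
  obtain ⟨r₂, h2⟩ := hv r (by simp)
  have e1 : q - p = r₁ • v := by rw [h1]; simp
  have e2 : r - p = r₂ • v := by rw [h2]; simp
  rw [e1, e2] at h
  have : gram2 (r₁ • v) (r₂ • v) = 0 := by
    simp only [gram2, norm_smul, inner_smul_left, inner_smul_right, real_inner_self_eq_norm_sq,
      conj_trivial, Real.norm_eq_abs]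
    have h1 : |r₁| ^ 2 = r₁ ^ 2 := sq_abs r₁
    have h2 : |r₂| ^ 2 = r₂ ^ 2 := sq_abs r₂
    simp only [mul_pow, h1, h2]
    ring
  linarith


theorem area_proj_triangle {e a b p₀ w₀ : E3} (he : ‖e‖ = 1) (ha : inner ℝ a e = 0)
    (hb : inner ℝ b e = 0) (hab : LinearIndependent ℝ ![a, b]) (hw₀ : inner ℝ w₀ e = 0)
    (X₁ Y₁ X₂ Y₂ X₃ Y₃ : ℝ) :
    μHE[2] (convexHull ℝ ({projL (e + w₀) (p₀ + X₁ • a + Y₁ • b),
        projL (e + w₀) (p₀ + X₂ • a + Y₂ • b),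
        projL (e + w₀) (p₀ + X₃ • a + Y₃ • b)} : Set E3)) =
      ENNReal.ofReal (|(X₂ - X₁) * (Y₃ - Y₁) - (X₃ - X₁) * (Y₂ - Y₁)| * Real.sqrt (gram2 a b) /
        (2 * Real.sqrt (1 + ‖w₀‖ ^ 2))) := by
  rw [Crest.Agent.R211.area_triangle]
  congr 1
  have e1 : projL (e + w₀) (p₀ + X₂ • a + Y₂ • b) - projL (e + w₀) (p₀ + X₁ • a + Y₁ • b) =
      projL (e + w₀) ((X₂ - X₁) • a + (Y₂ - Y₁) • b) := by
    rw [← map_sub]; congr 1; module
  have e2 : projL (e + w₀) (p₀ + X₃ • a + Y₃ • b) - projL (e + w₀) (p₀ + X₁ • a + Y₁ • b) =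
      projL (e + w₀) ((X₃ - X₁) • a + (Y₃ - Y₁) • b) := by
    rw [← map_sub]; congr 1; module
  rw [e1, e2]
  have hg := gram2_proj he ha hb hab hw₀ (X₂ - X₁) (Y₂ - Y₁) (X₃ - X₁) (Y₃ - Y₁)
  have hG := (gram2_pos hab).le
  change Real.sqrt (gram2 _ _) / 2 = _
  rw [hg, Real.sqrt_div (mul_nonneg (sq_nonneg _) hG), Real.sqrt_mul (sq_nonneg _),
    Real.sqrt_sq_eq_abs]
  ring

theorem gram2_proj_pos {e a b p₀ w₀ : E3} (he : ‖e‖ = 1) (ha : inner ℝ a e = 0)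
    (hb : inner ℝ b e = 0) (hab : LinearIndependent ℝ ![a, b]) (hw₀ : inner ℝ w₀ e = 0)
    (X₁ Y₁ X₂ Y₂ X₃ Y₃ : ℝ) (hne : (X₂ - X₁) * (Y₃ - Y₁) - (X₃ - X₁) * (Y₂ - Y₁) ≠ 0) :
    AffineIndependent ℝ ![projL (e + w₀) (p₀ + X₁ • a + Y₁ • b),
        projL (e + w₀) (p₀ + X₂ • a + Y₂ • b),
        projL (e + w₀) (p₀ + X₃ • a + Y₃ • b)] := by
  apply affineIndependent_of_gram2_pos
  have e1 : projL (e + w₀) (p₀ + X₂ • a + Y₂ • b) - projL (e + w₀) (p₀ + X₁ • a + Y₁ • b) =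
      projL (e + w₀) ((X₂ - X₁) • a + (Y₂ - Y₁) • b) := by
    rw [← map_sub]; congr 1; module
  have e2 : projL (e + w₀) (p₀ + X₃ • a + Y₃ • b) - projL (e + w₀) (p₀ + X₁ • a + Y₁ • b) =
      projL (e + w₀) ((X₃ - X₁) • a + (Y₃ - Y₁) • b) := by
    rw [← map_sub]; congr 1; module
  rw [e1, e2, gram2_proj he ha hb hab hw₀]
  have hG := gram2_pos hab
  have h2 : 0 < ((X₂ - X₁) * (Y₃ - Y₁) - (X₃ - X₁) * (Y₂ - Y₁)) ^ 2 := by positivity
  positivity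

theorem inner_tri_subset {a b p₀ : E3} {R : ℝ → ℝ} {lo hi r₀ : ℝ} (hlohi : lo ≤ hi)
    (hr₀ : 0 ≤ r₀) (hR : ∀ τ ∈ Set.Icc lo hi, r₀ ≤ R τ) :
    convexHull ℝ ({p₀ + (0 : ℝ) • a + (0 : ℝ) • b, p₀ + r₀ • a + (r₀ * lo) • b,
        p₀ + r₀ • a + (r₀ * hi) • b} : Set E3) ⊆
      {x | ∃ τ ∈ Set.Icc lo hi, ∃ ρ ∈ Set.Icc 0 (R τ), x = p₀ + ρ • (a + τ • b)} := by
  have hconv : Convex ℝ {x : E3 | ∃ X Y : ℝ, 0 ≤ X ∧ X ≤ r₀ ∧ lo * X ≤ Y ∧ Y ≤ hi * X ∧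
      x = p₀ + X • a + Y • b} := by
    rintro x ⟨X₁, Y₁, h1, h2, h3, h4, rfl⟩ y ⟨X₂, Y₂, k1, k2, k3, k4, rfl⟩ s t hs ht hst
    refine ⟨s * X₁ + t * X₂, s * Y₁ + t * Y₂, by positivity, ?_, ?_, ?_, ?_⟩
    · calc s * X₁ + t * X₂ ≤ s * r₀ + t * r₀ := by gcongr
        _ = r₀ := by rw [← add_mul, hst, one_mul]
    · have := mul_le_mul_of_nonneg_left h3 hs
      have := mul_le_mul_of_nonneg_left k3 ht
      nlinarith
    · have := mul_le_mul_of_nonneg_left h4 hs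
      have := mul_le_mul_of_nonneg_left k4 ht
      nlinarith
    · have hp : p₀ = (s + t) • p₀ := by rw [hst, one_smul]
      nth_rewrite 3 [hp]
      module
  have hsub : ({p₀ + (0 : ℝ) • a + (0 : ℝ) • b, p₀ + r₀ • a + (r₀ * lo) • b,
        p₀ + r₀ • a + (r₀ * hi) • b} : Set E3) ⊆ {x : E3 | ∃ X Y : ℝ, 0 ≤ X ∧ X ≤ r₀ ∧
          lo * X ≤ Y ∧ Y ≤ hi * X ∧ x = p₀ + X • a + Y • b} := by
    rintro x (rfl | rfl | rfl)
    · exact ⟨0, 0, le_refl _, hr₀, by simp, by simp, rfl⟩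
    · exact ⟨r₀, r₀ * lo, hr₀, le_refl _, by linarith [mul_comm r₀ lo],
        by nlinarith, rfl⟩
    · exact ⟨r₀, r₀ * hi, hr₀, le_refl _, by nlinarith, by linarith [mul_comm r₀ hi], rfl⟩
  refine (convexHull_min hsub hconv).trans ?_
  rintro x ⟨X, Y, h1, h2, h3, h4, rfl⟩
  rcases h1.eq_or_lt with h0 | hpos
  · subst h0
    have hY : Y = 0 := by
      have : lo * 0 ≤ Y := h3
      have : Y ≤ hi * 0 := h4
      linarith
    subst hY
    refine ⟨lo, ⟨le_refl _, hlohi⟩, 0, ⟨le_refl _, hr₀.trans (hR lo ⟨le_refl _, hlohi⟩)⟩, ?_⟩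
    module
  · have hτ : Y / X ∈ Set.Icc lo hi := by
      constructor
      · rw [le_div_iff₀ hpos]; exact h3
      · rw [div_le_iff₀ hpos]; exact h4
    refine ⟨Y / X, hτ, X, ⟨hpos.le, h2.trans (hR _ hτ)⟩, ?_⟩
    have : X * (Y / X) = Y := by field_simp
    rw [smul_add, smul_smul, this, add_assoc]


theorem exists_piece : ∀ (N : ℕ) (t : Fin (N + 1) → ℝ) (τ : ℝ), t 0 ≤ τ → τ ≤ t (Fin.last N) →
    t 0 < t (Fin.last N) → ∃ i : Fin N, t i.castSucc ≤ τ ∧ τ ≤ t i.succ := by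
  intro N
  induction N with
  | zero =>
    intro t τ _ _ h
    exact absurd h (lt_irrefl _)
  | succ N ih =>
    intro t τ h0 h1 _
    by_cases h : t (Fin.last N).castSucc ≤ τ
    · exact ⟨Fin.last N, h, by rw [Fin.succ_last]; exact h1⟩
    · rw [not_le] at h
      obtain ⟨i, hi1, hi2⟩ := ih (fun j => t j.castSucc) τ h0 h.le (lt_of_le_of_lt h0 h)
      refine ⟨i.castSucc, hi1, ?_⟩
      rw [Fin.succ_castSucc]
      exact hi2

theorem sum_adjacent (f : ℝ → ℝ) : ∀ (N : ℕ) (t : Fin (N + 1) → ℝ),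
    (∀ i j : Fin (N + 1), IntervalIntegrable f volume (t i) (t j)) →
    ∑ i : Fin N, ∫ x in (t i.castSucc)..(t i.succ), f x = ∫ x in (t 0)..(t (Fin.last N)), f x := by
  intro N
  induction N with
  | zero =>
    intro t _
    simp
  | succ N ih =>
    intro t hint
    rw [Fin.sum_univ_castSucc]
    have h1 := ih (fun j => t j.castSucc) (fun i j => hint i.castSucc j.castSucc)
    have h2 : ∑ i : Fin N, ∫ x in (t i.castSucc.castSucc)..(t i.castSucc.succ), f x =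
        ∑ i : Fin N, ∫ x in (t i.castSucc.castSucc)..(t i.succ.castSucc), f x := by
      refine Finset.sum_congr rfl (fun i _ => ?_)
      rw [Fin.succ_castSucc]
    rw [h2, h1, Fin.succ_last]
    exact intervalIntegral.integral_add_adjacent_intervals (hint _ _) (hint _ _)

theorem sum_diff (N : ℕ) (t : Fin (N + 1) → ℝ) :
    ∑ i : Fin N, (t i.succ - t i.castSucc) = t (Fin.last N) - t 0 := by
  have h := sum_adjacent (fun _ => (1 : ℝ)) N t (fun i j => intervalIntegrable_const)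
  simpa using h

theorem riemann_sum_close (f : ℝ → ℝ) (ε₀ : ℝ) (N : ℕ) (t : Fin (N + 1) → ℝ) (g : Fin N → ℝ)
    (hmono : Monotone t)
    (hint : ∀ i j : Fin (N + 1), IntervalIntegrable f volume (t i) (t j))
    (hg : ∀ i : Fin N, ∀ τ ∈ Set.Icc (t i.castSucc) (t i.succ), |g i - f τ| ≤ ε₀) :
    |∑ i : Fin N, g i * (t i.succ - t i.castSucc) - ∫ τ in (t 0)..(t (Fin.last N)), f τ| ≤
      ε₀ * (t (Fin.last N) - t 0) := by
  rw [← sum_adjacent f N t hint, ← Finset.sum_sub_distrib, ← sum_diff N t, Finset.mul_sum]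
  refine (Finset.abs_sum_le_sum_abs _ _).trans (Finset.sum_le_sum (fun i _ => ?_))
  have hle : t i.castSucc ≤ t i.succ := hmono (Fin.castSucc_lt_succ).le
  have h1 : g i * (t i.succ - t i.castSucc) = ∫ _x in (t i.castSucc)..(t i.succ), g i := by
    rw [intervalIntegral.integral_const, smul_eq_mul, mul_comm]
  rw [h1, ← intervalIntegral.integral_sub intervalIntegrable_const (hint _ _)]
  have h2 := intervalIntegral.norm_integral_le_of_norm_le_const (a := t i.castSucc)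
    (b := t i.succ) (C := ε₀) (f := fun x => g i - f x) (by
      intro x hx
      rw [Set.uIoc_of_le hle] at hx
      rw [Real.norm_eq_abs]
      exact hg i x ⟨hx.1.le, hx.2⟩)
  rw [Real.norm_eq_abs, abs_of_nonneg (sub_nonneg.mpr hle)] at h2
  exact h2

/-- Apex of the outer triangle (in the plane `p₀ + span{a,b}`). -/
noncomputable def vA (a b p₀ : E3) (m c : ℝ) : E3 := p₀ + (-m) • a + (-m * c) • b

/-- Far vertices of the outer triangle. -/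
noncomputable def vB (a b p₀ : E3) (M m c k : ℝ) : E3 :=
  p₀ + (M + m) • a + ((M + m) * c + k * (M + 2 * m)) • b

theorem piece_cover {e a b p₀ : E3} (he : ‖e‖ = 1) (ha : inner ℝ a e = 0)
    (hb : inner ℝ b e = 0) (hab : LinearIndependent ℝ ![a, b]) {α β : ℝ} {w : ℝ → E3}
    (hw : ∀ t ∈ Set.Icc α β, inner ℝ (w t) e = 0) {lam : ℝ → ℝ}
    (hw' : ∀ t ∈ Set.Icc α β, HasDerivWithinAt w (lam t • (a + t • b)) (Set.Icc α β) t)
    {Λ : ℝ} (hΛ : ∀ t ∈ Set.Icc α β, |lam t| ≤ Λ) {L : ℝ} (hL : 0 ≤ L) {R : ℝ → ℝ}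
    {lo hi c : ℝ} (hlo : α ≤ lo) (hhi : hi ≤ β) (hc : c ∈ Set.Icc lo hi) (hlohi : lo < hi)
    {M m θ : ℝ} (hM : ∀ τ ∈ Set.Icc lo hi, R τ ≤ M) (hθ : 0 < θ)
    (hm1 : L * Λ * (hi - lo) ≤ m) (hm2 : L * Λ * (hi - lo) ≤ θ * (m - L * Λ * (hi - lo)))
    (hD : 0 < M + 2 * m)
    {τ ρ s : ℝ} (hτ : τ ∈ Set.Icc lo hi) (hρ : ρ ∈ Set.Icc 0 (R τ)) (hs : |s| ≤ L) :
    p₀ + ρ • (a + τ • b) + s • (w τ - w c) ∈
      convexHull ℝ ({vA a b p₀ m c, vB a b p₀ M m c (lo - c - θ * (hi - lo)),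
        vB a b p₀ M m c (hi - c + θ * (hi - lo))} : Set E3) := by
  obtain ⟨I₀, J, hIJ, hI, hJ⟩ := exists_shift_coords he ha hb hab hw hw' hΛ hlo hhi hc hτ
  have hΔ : 0 < hi - lo := sub_pos.mpr hlohi
  have hΛ0 : 0 ≤ Λ := le_trans (abs_nonneg _) (hΛ c ⟨hlo.trans hc.1, hc.2.trans hhi⟩)
  have key : p₀ + ρ • (a + τ • b) + s • (w τ - w c) =
      p₀ + (ρ + s * I₀) • (a + c • b) + (ρ * (τ - c) + s * J) • b := by
    rw [hIJ]; module
  have hsI : |s * I₀| ≤ L * Λ * (hi - lo) := by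
    rw [abs_mul, mul_assoc]
    exact mul_le_mul hs hI (abs_nonneg _) hL
  have hsJ : |s * J| ≤ L * Λ * (hi - lo) * (hi - lo) := by
    rw [abs_mul, mul_assoc, mul_assoc, ← pow_two]
    exact mul_le_mul hs hJ (abs_nonneg _) hL
  have hsI' := abs_le.mp hsI
  have hsJ' := abs_le.mp hsJ
  have hθΔ : 0 < θ * (hi - lo) := mul_pos hθ hΔ
  have hκ : lo - c - θ * (hi - lo) < hi - c + θ * (hi - lo) := by linarith
  have hX : ρ + s * I₀ ≤ M + 2 * m - m := by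
    have := hM τ hτ
    linarith [hρ.2]
  have hμ : 0 ≤ m - L * Λ * (hi - lo) := by linarith
  have hY₀ : 0 ≤ s * I₀ + L * Λ * (hi - lo) := by linarith
  have f2 : 0 ≤ θ * (hi - lo) * (ρ + (s * I₀ + L * Λ * (hi - lo))) :=
    mul_nonneg hθΔ.le (add_nonneg hρ.1 hY₀)
  have f4 : L * Λ * (hi - lo) * (hi - lo) ≤ θ * (m - L * Λ * (hi - lo)) * (hi - lo) :=
    mul_le_mul_of_nonneg_right hm2 hΔ.le
  have hZ1 : (lo - c - θ * (hi - lo)) * (ρ + s * I₀ + m) ≤ ρ * (τ - c) + s * J := by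
    have f1 : 0 ≤ (c - lo) * ((m - L * Λ * (hi - lo)) + (s * I₀ + L * Λ * (hi - lo))) :=
      mul_nonneg (sub_nonneg.mpr hc.1) (add_nonneg hμ hY₀)
    have f3 : 0 ≤ (τ - lo) * ρ := mul_nonneg (sub_nonneg.mpr hτ.1) hρ.1
    nlinarith [f1, f2, f3, f4, hsJ'.1]
  have hZ2 : ρ * (τ - c) + s * J ≤ (hi - c + θ * (hi - lo)) * (ρ + s * I₀ + m) := by
    have g1 : 0 ≤ (hi - c) * ((m - L * Λ * (hi - lo)) + (s * I₀ + L * Λ * (hi - lo))) :=
      mul_nonneg (sub_nonneg.mpr hc.2) (add_nonneg hμ hY₀)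
    have g3 : 0 ≤ (hi - τ) * ρ := mul_nonneg (sub_nonneg.mpr hτ.2) hρ.1
    nlinarith [g1, f2, g3, f4, hsJ'.2]
  have hmem := mem_tri (p₀ := p₀) (u := a + c • b) (v := b) (m := m) (D := M + 2 * m)
    (κm := lo - c - θ * (hi - lo)) (κp := hi - c + θ * (hi - lo)) (X := ρ + s * I₀)
    (Z := ρ * (τ - c) + s * J) hD hκ hX hZ1 hZ2
  have hA : p₀ - m • (a + c • b) = vA a b p₀ m c := by
    unfold vA; module
  have hB : ∀ k : ℝ, p₀ + (M + 2 * m - m) • (a + c • b) + (k * (M + 2 * m)) • b =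
      vB a b p₀ M m c k := by
    intro k; unfold vB; module
  rw [hA, hB, hB] at hmem
  rw [key]
  exact hmem

theorem proj_piece_subset {e a b p₀ : E3} (he : ‖e‖ = 1) (ha : inner ℝ a e = 0)
    (hb : inner ℝ b e = 0) (hab : LinearIndependent ℝ ![a, b]) {α β : ℝ} {w : ℝ → E3}
    (hw : ∀ t ∈ Set.Icc α β, inner ℝ (w t) e = 0) {lam : ℝ → ℝ}
    (hw' : ∀ t ∈ Set.Icc α β, HasDerivWithinAt w (lam t • (a + t • b)) (Set.Icc α β) t)
    {Λ : ℝ} (hΛ : ∀ t ∈ Set.Icc α β, |lam t| ≤ Λ) {L : ℝ} (hL : 0 ≤ L) {R : ℝ → ℝ}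
    {lo hi c : ℝ} (hlo : α ≤ lo) (hhi : hi ≤ β) (hc : c ∈ Set.Icc lo hi) (hlohi : lo < hi)
    {M m θ : ℝ} (hM : ∀ τ ∈ Set.Icc lo hi, R τ ≤ M) (hθ : 0 < θ)
    (hm1 : L * Λ * (hi - lo) ≤ m) (hm2 : L * Λ * (hi - lo) ≤ θ * (m - L * Λ * (hi - lo)))
    (hD : 0 < M + 2 * m) :
    (projL (e + w c)) '' {x : E3 | ∃ τ ∈ Set.Icc lo hi, ∃ ρ ∈ Set.Icc 0 (R τ), ∃ s : ℝ,
        |s| ≤ L ∧ x = p₀ + ρ • (a + τ • b) + s • (e + w τ)} ⊆
      convexHull ℝ ({projL (e + w c) (vA a b p₀ m c),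
        projL (e + w c) (vB a b p₀ M m c (lo - c - θ * (hi - lo))),
        projL (e + w c) (vB a b p₀ M m c (hi - c + θ * (hi - lo)))} : Set E3) := by
  have hcI : c ∈ Set.Icc α β := ⟨hlo.trans hc.1, hc.2.trans hhi⟩
  have hn0 : e + w c ≠ 0 := by
    intro h
    have h1 : inner ℝ (e + w c) e = 0 := by rw [h]; simp
    rw [inner_add_left, hw c hcI, real_inner_self_eq_norm_sq, he] at h1
    norm_num at h1
  rintro _ ⟨x, ⟨τ, hτ, ρ, hρ, s, hs, rfl⟩, rfl⟩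
  have hx : p₀ + ρ • (a + τ • b) + s • (e + w τ) =
      (p₀ + ρ • (a + τ • b) + s • (w τ - w c)) + s • (e + w c) := by module
  rw [hx, map_add, map_smul, projL_self hn0, smul_zero, add_zero]
  have hmem := piece_cover (p₀ := p₀) he ha hb hab hw hw' hΛ hL hlo hhi hc hlohi hM hθ hm1 hm2 hD
    hτ hρ hs
  have himg := Set.mem_image_of_mem (projL (e + w c)) hmem
  rw [LinearMap.image_convexHull, Set.image_insert_eq, Set.image_insert_eq,
    Set.image_singleton] at himg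
  exact himg

theorem projL_coe (n : E3) : ⇑(projL n) = fun y => y - (inner ℝ y n / ‖n‖ ^ 2) • n := rfl

theorem piece_area {e a b p₀ w₀ : E3} (he : ‖e‖ = 1) (ha : inner ℝ a e = 0)
    (hb : inner ℝ b e = 0) (hab : LinearIndependent ℝ ![a, b]) (hw₀ : inner ℝ w₀ e = 0)
    (M m c k₁ k₂ : ℝ) (hk : k₁ ≤ k₂) :
    μHE[2] (convexHull ℝ ({projL (e + w₀) (vA a b p₀ m c), projL (e + w₀) (vB a b p₀ M m c k₁),
        projL (e + w₀) (vB a b p₀ M m c k₂)} : Set E3)) =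
      ENNReal.ofReal ((M + 2 * m) ^ 2 * (k₂ - k₁) * Real.sqrt (gram2 a b) /
        (2 * Real.sqrt (1 + ‖w₀‖ ^ 2))) := by
  unfold vA vB
  rw [area_proj_triangle he ha hb hab hw₀]
  have h1 : ((M + m) - (-m)) * (((M + m) * c + k₂ * (M + 2 * m)) - (-m * c)) -
      ((M + m) - (-m)) * (((M + m) * c + k₁ * (M + 2 * m)) - (-m * c)) =
      (M + 2 * m) ^ 2 * (k₂ - k₁) := by ring
  rw [h1, abs_of_nonneg (mul_nonneg (sq_nonneg _) (sub_nonneg.mpr hk))]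

theorem piece_affine {e a b p₀ w₀ : E3} (he : ‖e‖ = 1) (ha : inner ℝ a e = 0)
    (hb : inner ℝ b e = 0) (hab : LinearIndependent ℝ ![a, b]) (hw₀ : inner ℝ w₀ e = 0)
    (M m c k₁ k₂ : ℝ) (hD : M + 2 * m ≠ 0) (hk : k₁ < k₂) :
    AffineIndependent ℝ ![projL (e + w₀) (vA a b p₀ m c), projL (e + w₀) (vB a b p₀ M m c k₁),
        projL (e + w₀) (vB a b p₀ M m c k₂)] := by
  unfold vA vB
  apply gram2_proj_pos he ha hb hab hw₀
  have h1 : ((M + m) - (-m)) * (((M + m) * c + k₂ * (M + 2 * m)) - (-m * c)) -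
      ((M + m) - (-m)) * (((M + m) * c + k₁ * (M + 2 * m)) - (-m * c)) =
      (M + 2 * m) ^ 2 * (k₂ - k₁) := by ring
  rw [h1]
  exact mul_ne_zero (pow_ne_zero 2 hD) (sub_ne_zero.mpr hk.ne')

theorem inner_area_le {e a b p₀ w₀ : E3} (he : ‖e‖ = 1) (ha : inner ℝ a e = 0)
    (hb : inner ℝ b e = 0) (hab : LinearIndependent ℝ ![a, b]) (hw₀ : inner ℝ w₀ e = 0)
    {L : ℝ} (hL : 0 ≤ L) {R : ℝ → ℝ} {w : ℝ → E3} {lo hi r₀ : ℝ} (hlohi : lo ≤ hi)
    (hr₀ : 0 ≤ r₀) (hR : ∀ τ ∈ Set.Icc lo hi, r₀ ≤ R τ) :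
    ENNReal.ofReal (r₀ ^ 2 * (hi - lo) * Real.sqrt (gram2 a b) /
        (2 * Real.sqrt (1 + ‖w₀‖ ^ 2))) ≤
      μHE[2] ((projL (e + w₀)) '' {x : E3 | ∃ τ ∈ Set.Icc lo hi, ∃ ρ ∈ Set.Icc 0 (R τ), ∃ s : ℝ,
        |s| ≤ L ∧ x = p₀ + ρ • (a + τ • b) + s • (e + w τ)}) := by
  have harea := area_proj_triangle (p₀ := p₀) he ha hb hab hw₀ 0 0 r₀ (r₀ * lo) r₀ (r₀ * hi)
  have hdet : |(r₀ - 0) * (r₀ * hi - 0) - (r₀ - 0) * (r₀ * lo - 0)| = r₀ ^ 2 * (hi - lo) := by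
    have h1 : (r₀ - 0) * (r₀ * hi - 0) - (r₀ - 0) * (r₀ * lo - 0) = r₀ ^ 2 * (hi - lo) := by ring
    rw [h1, abs_of_nonneg (mul_nonneg (sq_nonneg _) (sub_nonneg.mpr hlohi))]
  rw [hdet] at harea
  rw [← harea]
  apply measure_mono
  have himg : ({projL (e + w₀) (p₀ + (0 : ℝ) • a + (0 : ℝ) • b),
      projL (e + w₀) (p₀ + r₀ • a + (r₀ * lo) • b),
      projL (e + w₀) (p₀ + r₀ • a + (r₀ * hi) • b)} : Set E3) =
      (projL (e + w₀)) '' {p₀ + (0 : ℝ) • a + (0 : ℝ) • b, p₀ + r₀ • a + (r₀ * lo) • b,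
        p₀ + r₀ • a + (r₀ * hi) • b} := by
    rw [Set.image_insert_eq, Set.image_insert_eq, Set.image_singleton]
  rw [himg, ← LinearMap.image_convexHull]
  apply Set.image_mono
  refine (inner_tri_subset hlohi hr₀ hR).trans ?_
  rintro x ⟨τ, hτ, ρ, hρ, rfl⟩
  exact ⟨τ, hτ, ρ, hρ, 0, by simpa using hL, by simp⟩

theorem bound_outer {B ε₀ Rc ε' h : ℝ} (hB : 1 ≤ B) (hε₀ : 0 < ε₀) (hRc0 : 0 ≤ Rc)
    (hRcB : Rc ≤ B) (hε'0 : 0 ≤ ε') (hε'1 : ε' ≤ 1) (hε'2 : ε' ≤ ε₀ / (8 * B)) (hh : 2 ≤ h) :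
    |(1 + 2 * (ε₀ / (16 * B ^ 2))) * (Rc + ε') ^ 2 / h - Rc ^ 2 / h| ≤ ε₀ / 2 := by
  have hB0 : 0 < B := by linarith
  have hh0 : 0 < h := by linarith
  have hθB : ε₀ / (16 * B ^ 2) * B ^ 2 = ε₀ / 16 := by field_simp
  have hθ0 : 0 ≤ ε₀ / (16 * B ^ 2) := by positivity
  have hε'B : ε' * B ≤ ε₀ / 8 := by
    have := mul_le_mul_of_nonneg_right hε'2 hB0.le
    have h2 : ε₀ / (8 * B) * B = ε₀ / 8 := by field_simp
    linarith
  have hnum0 : 0 ≤ (1 + 2 * (ε₀ / (16 * B ^ 2))) * (Rc + ε') ^ 2 - Rc ^ 2 := by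
    have h1 : Rc ^ 2 ≤ (Rc + ε') ^ 2 := by nlinarith
    have h2 : 0 ≤ 2 * (ε₀ / (16 * B ^ 2)) * (Rc + ε') ^ 2 := by positivity
    nlinarith
  have hnum1 : (1 + 2 * (ε₀ / (16 * B ^ 2))) * (Rc + ε') ^ 2 - Rc ^ 2 ≤ ε₀ := by
    have h1 : (Rc + ε') ^ 2 ≤ 4 * B ^ 2 := by nlinarith
    have h2 : ε₀ / (16 * B ^ 2) * (Rc + ε') ^ 2 ≤ ε₀ / (16 * B ^ 2) * (4 * B ^ 2) :=
      mul_le_mul_of_nonneg_left h1 hθ0
    have h3 : ε' * (2 * Rc + ε') ≤ ε' * (3 * B) :=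
      mul_le_mul_of_nonneg_left (by linarith) hε'0
    nlinarith
  rw [← sub_div, abs_div, abs_of_nonneg hnum0, abs_of_pos hh0, div_le_iff₀ hh0]
  nlinarith

theorem bound_inner {B ε₀ Rc ω h : ℝ} (hB : 1 ≤ B) (hε₀ : 0 < ε₀) (hRc0 : 0 ≤ Rc)
    (hRcB : Rc ≤ B) (hω0 : 0 ≤ ω) (hω : ω ≤ ε₀ / (16 * B)) (hh : 2 ≤ h) :
    |(max (Rc - ω) 0) ^ 2 / h - Rc ^ 2 / h| ≤ ε₀ / 2 := by
  have hB0 : 0 < B := by linarith
  have hh0 : 0 < h := by linarith
  have hωB : ω * B ≤ ε₀ / 16 := by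
    have := mul_le_mul_of_nonneg_right hω hB0.le
    have h2 : ε₀ / (16 * B) * B = ε₀ / 16 := by field_simp
    linarith
  have hr0 : 0 ≤ max (Rc - ω) 0 := le_max_right _ _
  have hr1 : max (Rc - ω) 0 ≤ Rc := max_le (by linarith) hRc0
  have hr2 : Rc - ω ≤ max (Rc - ω) 0 := le_max_left _ _
  have hnum0 : 0 ≤ Rc ^ 2 - (max (Rc - ω) 0) ^ 2 := by nlinarith
  have hnum1 : Rc ^ 2 - (max (Rc - ω) 0) ^ 2 ≤ ε₀ := by
    have h1 : Rc ^ 2 - (max (Rc - ω) 0) ^ 2 =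
        (Rc - max (Rc - ω) 0) * (Rc + max (Rc - ω) 0) := by ring
    have h2 : (Rc - max (Rc - ω) 0) * (Rc + max (Rc - ω) 0) ≤ ω * (2 * B) :=
      mul_le_mul (by linarith) (by linarith) (by linarith) hω0
    linarith
  rw [← sub_div, abs_div, abs_of_nonpos (by linarith), abs_of_pos hh0, div_le_iff₀ hh0]
  nlinarith

end Crest.Agent.R211.S0328
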