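import Mathlib

/-!
# Row 211, S0329: from sheared square cylinders in `ℝ × ℝ²` to cylinders with open bases in `ℝ³`

Everything here is elementary linear algebra in coordinates.  The two inputs (the square-tile
cover of the ruled set, i.e. the conclusion of S0326, and the upper bound for the area of a
parallelogram) are taken as hypotheses, so this file has no dependency on other team files.
-/

set_option autoImplicit false
open MeasureTheory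
open scoped ENNReal

namespace Crest.Agent.R211

/-- inner product of `ℝ³` in coordinates -/
theorem ruled3_inner3 (x y : EuclideanSpace ℝ (Fin 3)) :
    inner ℝ x y = x 0 * y 0 + x 1 * y 1 + x 2 * y 2 := by
  simp [PiLp.inner_apply, Fin.sum_univ_three]
  ring

/-- inner product of `ℝ²` in coordinates -/
theorem ruled3_inner2 (x y : EuclideanSpace ℝ (Fin 2)) :
    inner ℝ x y = x 0 * y 0 + x 1 * y 1 := by
  simp [PiLp.inner_apply, Fin.sum_univ_two]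
  ring

theorem ruled3_normsq3 (x : EuclideanSpace ℝ (Fin 3)) :
    ‖x‖ ^ 2 = x 0 ^ 2 + x 1 ^ 2 + x 2 ^ 2 := by
  rw [EuclideanSpace.norm_sq_eq]
  simp [Fin.sum_univ_three]

theorem ruled3_normsq2 (x : EuclideanSpace ℝ (Fin 2)) :
    ‖x‖ ^ 2 = x 0 ^ 2 + x 1 ^ 2 := by
  rw [EuclideanSpace.norm_sq_eq]
  simp [Fin.sum_univ_two]

theorem ruled3_ext3 {x y : EuclideanSpace ℝ (Fin 3)} (h0 : x 0 = y 0) (h1 : x 1 = y 1)
    (h2 : x 2 = y 2) : x = y := by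
  ext i
  fin_cases i <;> simp [h0, h1, h2]

theorem ruled3_ext2 {x y : EuclideanSpace ℝ (Fin 2)} (h0 : x 0 = y 0) (h1 : x 1 = y 1) :
    x = y := by
  ext i
  fin_cases i <;> simp [h0, h1]

/-- The lift `ξ ↦ (0, ξ₀, h ξ₁)` of the plane into `ℝ³`. -/
noncomputable def ruled3Lift (h : ℝ) : EuclideanSpace ℝ (Fin 2) →ₗ[ℝ] EuclideanSpace ℝ (Fin 3) where
  toFun ξ := !₂[0, ξ 0, h * ξ 1]
  map_add' ξ ζ := by
    apply ruled3_ext3 <;> simp
    ring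
  map_smul' r ξ := by
    apply ruled3_ext3 <;> simp
    ring

theorem ruled3Lift_apply (h : ℝ) (ξ : EuclideanSpace ℝ (Fin 2)) :
    ruled3Lift h ξ = !₂[0, ξ 0, h * ξ 1] := rfl

/-- The orthogonal projection `w ↦ w - ⟪w, u⟫ u` (for unit `u`). -/
noncomputable def ruled3Proj (u : EuclideanSpace ℝ (Fin 3)) :
    EuclideanSpace ℝ (Fin 3) →ₗ[ℝ] EuclideanSpace ℝ (Fin 3) where
  toFun w := w - inner ℝ w u • u
  map_add' w z := by
    simp only [inner_add_left, add_smul]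
    abel
  map_smul' r w := by
    simp only [inner_smul_left, RingHom.id_apply, smul_sub, mul_smul]
    simp

theorem ruled3Proj_apply (u w : EuclideanSpace ℝ (Fin 3)) :
    ruled3Proj u w = w - inner ℝ w u • u := rfl

theorem ruled3Proj_inner (u : EuclideanSpace ℝ (Fin 3)) (hu : ‖u‖ = 1)
    (A B : EuclideanSpace ℝ (Fin 3)) :
    inner ℝ (ruled3Proj u A) (ruled3Proj u B) = inner ℝ A B - inner ℝ A u * inner ℝ B u := by
  simp only [ruled3Proj_apply, inner_sub_left, inner_sub_right, inner_smul_left, inner_smul_right,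
    real_inner_self_eq_norm_sq, hu, RCLike.conj_to_real]
  rw [real_inner_comm B u]
  ring

theorem ruled3Proj_normsq (u : EuclideanSpace ℝ (Fin 3)) (hu : ‖u‖ = 1)
    (A : EuclideanSpace ℝ (Fin 3)) :
    ‖ruled3Proj u A‖ ^ 2 = ‖A‖ ^ 2 - inner ℝ A u ^ 2 := by
  rw [← real_inner_self_eq_norm_sq, ruled3Proj_inner u hu, real_inner_self_eq_norm_sq]
  ring

theorem ruled3Proj_self (u : EuclideanSpace ℝ (Fin 3)) (hu : ‖u‖ = 1) : ruled3Proj u u = 0 := by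
  simp [ruled3Proj_apply, hu]

theorem ruled3Proj_of_orth (u y : EuclideanSpace ℝ (Fin 3)) (hy : inner ℝ y u = 0) :
    ruled3Proj u y = y := by
  simp [ruled3Proj_apply, hy]

/-- orthogonal decomposition of a plane vector along an orthogonal pair -/
theorem ruled3_decomp2 (a b v : EuclideanSpace ℝ (Fin 2)) (ha : a ≠ 0) (hba : ‖b‖ = ‖a‖)
    (hab : inner ℝ a b = 0) :
    v = (inner ℝ v a / ‖a‖ ^ 2) • a + (inner ℝ v b / ‖a‖ ^ 2) • b := by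
  have hna : ‖a‖ ^ 2 ≠ 0 := by
    have : ‖a‖ ≠ 0 := norm_ne_zero_iff.mpr ha
    positivity
  have hb2 : ‖b‖ ^ 2 = ‖a‖ ^ 2 := by rw [hba]
  rw [ruled3_inner2] at hab
  rw [ruled3_normsq2] at hb2
  have ha2 := ruled3_normsq2 a
  rw [ha2] at hna hb2
  have h1 : b 0 ^ 2 = a 1 ^ 2 := by
    have : (b 0 ^ 2 - a 1 ^ 2) * (a 0 ^ 2 + a 1 ^ 2) = 0 := by
      linear_combination (a 0 * b 0 - a 1 * b 1) * hab + a 1 ^ 2 * hb2
    rcases mul_eq_zero.mp this with h | h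
    · linarith
    · exact absurd h hna
  have h2 : b 0 * b 1 = -(a 0 * a 1) := by
    have : (b 0 * b 1 + a 0 * a 1) * (a 0 ^ 2 + a 1 ^ 2) = 0 := by
      linear_combination (a 0 * b 1 + a 1 * b 0) * hab - a 0 * a 1 * hb2
    rcases mul_eq_zero.mp this with h | h
    · linarith
    · exact absurd h hna
  have h3 : b 1 ^ 2 = a 0 ^ 2 := by linarith
  apply ruled3_ext2
  · simp only [PiLp.add_apply, PiLp.smul_apply, smul_eq_mul, ruled3_inner2, ha2]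
    rw [div_mul_eq_mul_div, div_mul_eq_mul_div, ← add_div, eq_div_iff hna]
    linear_combination (-v 0) * h1 - v 1 * h2
  · simp only [PiLp.add_apply, PiLp.smul_apply, smul_eq_mul, ruled3_inner2, ha2]
    rw [div_mul_eq_mul_div, div_mul_eq_mul_div, ← add_div, eq_div_iff hna]
    linear_combination (-v 1) * h3 - v 0 * h2

/-- One sheared square cylinder `{(x, ξ) : ξ ∈ c + [0,1]a + [0,1]b + x g}` of `ℝ × ℝ²`, pushed to
`ℝ³` by `(x, ξ) ↦ (x, ξ₀, h ξ₁)`, lies in a cylinder with unit axis `u` over a bounded relatively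
open base `B ⊆ u^⊥` of area at most `(1+2η)² h ‖a‖² / √(1 + g₀² + h² g₁²)`. -/
theorem ruled3_single
    (HA : ∀ (c a b : EuclideanSpace ℝ (Fin 3)),
      μHE[2] {x : EuclideanSpace ℝ (Fin 3) | ∃ s ∈ Set.Icc (0 : ℝ) 1, ∃ t ∈ Set.Icc (0 : ℝ) 1,
        x = c + s • a + t • b}
        ≤ ENNReal.ofReal (Real.sqrt (‖a‖ ^ 2 * ‖b‖ ^ 2 - inner ℝ a b ^ 2)))
    (h : ℝ) (hh : 0 < h) (c a b g : EuclideanSpace ℝ (Fin 2))
    (ha : a ≠ 0) (hba : ‖b‖ = ‖a‖) (hab : inner ℝ a b = 0) (η : ℝ) (hη : 0 < η) :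
    ∃ (u : EuclideanSpace ℝ (Fin 3)) (B : Set (EuclideanSpace ℝ (Fin 3))),
      ‖u‖ = 1 ∧ Bornology.IsBounded B ∧
      (∃ O : Set (EuclideanSpace ℝ (Fin 3)), IsOpen O ∧ B = O ∩ {x | inner ℝ x u = 0}) ∧
      (∀ (x s t : ℝ) (ξ : EuclideanSpace ℝ (Fin 2)), s ∈ Set.Icc (0 : ℝ) 1 →
          t ∈ Set.Icc (0 : ℝ) 1 → ξ = c + s • a + t • b + x • g →
          ∃ y ∈ B, ∃ τ : ℝ, (!₂[x, ξ 0, h * ξ 1] : EuclideanSpace ℝ (Fin 3)) = y + τ • u) ∧
      (μHE[2] B).toReal ≤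
        (1 + 2 * η) ^ 2 * (h * (‖a‖ ^ 2 / Real.sqrt (1 + g 0 ^ 2 + h ^ 2 * g 1 ^ 2))) := by
  classical
  have hrad : (0 : ℝ) < 1 + g 0 ^ 2 + h ^ 2 * g 1 ^ 2 := by positivity
  set n : ℝ := Real.sqrt (1 + g 0 ^ 2 + h ^ 2 * g 1 ^ 2) with hn
  have hn2 : n ^ 2 = 1 + g 0 ^ 2 + h ^ 2 * g 1 ^ 2 := Real.sq_sqrt hrad.le
  have hn0 : 0 < n := Real.sqrt_pos.mpr hrad
  have hnne : n ≠ 0 := hn0.ne'
  have hhne : h ≠ 0 := hh.ne'
  have hnorma : ‖a‖ ≠ 0 := norm_ne_zero_iff.mpr ha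
  have hna : ‖a‖ ^ 2 ≠ 0 := by positivity
  have ha2 := ruled3_normsq2 a
  have hb2 : b 0 ^ 2 + b 1 ^ 2 = a 0 ^ 2 + a 1 ^ 2 := by
    rw [← ruled3_normsq2, ← ruled3_normsq2, hba]
  have hab' : a 0 * b 0 + a 1 * b 1 = 0 := by rw [← ruled3_inner2]; exact hab
  -- the axis
  set u : EuclideanSpace ℝ (Fin 3) := !₂[1 / n, g 0 / n, h * g 1 / n] with hu
  have hu0 : u 0 = 1 / n := by simp [hu]
  have hu1 : u 1 = g 0 / n := by simp [hu]
  have hu2 : u 2 = h * g 1 / n := by simp [hu]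
  have hunorm : ‖u‖ = 1 := by
    have h1 : ‖u‖ ^ 2 = 1 := by
      rw [ruled3_normsq3, hu0, hu1, hu2]
      field_simp
      linarith
    have h2 : 0 ≤ ‖u‖ := norm_nonneg u
    nlinarith
  -- the two coordinate functionals
  set σ : EuclideanSpace ℝ (Fin 3) → ℝ := fun y =>
    ((y 1 - y 0 * g 0 - c 0) * a 0 + (y 2 / h - y 0 * g 1 - c 1) * a 1) / ‖a‖ ^ 2 with hσ
  set ρ : EuclideanSpace ℝ (Fin 3) → ℝ := fun y =>
    ((y 1 - y 0 * g 0 - c 0) * b 0 + (y 2 / h - y 0 * g 1 - c 1) * b 1) / ‖a‖ ^ 2 with hρ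
  have hσc : Continuous σ := by fun_prop
  have hρc : Continuous ρ := by fun_prop
  set O : Set (EuclideanSpace ℝ (Fin 3)) :=
    (σ ⁻¹' Set.Ioo (-η) (1 + η)) ∩ (ρ ⁻¹' Set.Ioo (-η) (1 + η)) with hO
  have hOopen : IsOpen O := (isOpen_Ioo.preimage hσc).inter (isOpen_Ioo.preimage hρc)
  set B : Set (EuclideanSpace ℝ (Fin 3)) := O ∩ {x | inner ℝ x u = 0} with hB
  -- the big closed parallelogram containing `B`
  set PL : EuclideanSpace ℝ (Fin 2) →ₗ[ℝ] EuclideanSpace ℝ (Fin 3) :=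
    (ruled3Proj u).comp (ruled3Lift h) with hPL
  set c2 : EuclideanSpace ℝ (Fin 3) := PL (c - η • a - η • b) with hc2
  set a2 : EuclideanSpace ℝ (Fin 3) := (1 + 2 * η) • PL a with ha2'
  set b2 : EuclideanSpace ℝ (Fin 3) := (1 + 2 * η) • PL b with hb2'
  set Q : Set (EuclideanSpace ℝ (Fin 3)) :=
    {x | ∃ s ∈ Set.Icc (0 : ℝ) 1, ∃ t ∈ Set.Icc (0 : ℝ) 1, x = c2 + s • a2 + t • b2} with hQ
  -- every `y ⊥ u` is the projection of the lift of its shadow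
  have key : ∀ y : EuclideanSpace ℝ (Fin 3), inner ℝ y u = 0 →
      y = PL (c + σ y • a + ρ y • b) := by
    intro y hy
    set ψ : EuclideanSpace ℝ (Fin 2) := !₂[y 1 - y 0 * g 0, y 2 / h - y 0 * g 1] with hψ
    have e1 : ψ = c + σ y • a + ρ y • b := by
      have hdec := ruled3_decomp2 a b (ψ - c) ha hba hab
      have hs : inner ℝ (ψ - c) a / ‖a‖ ^ 2 = σ y := by
        simp [hσ, ruled3_inner2, hψ]
      have hr : inner ℝ (ψ - c) b / ‖a‖ ^ 2 = ρ y := by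
        simp [hρ, ruled3_inner2, hψ]
      rw [hs, hr] at hdec
      rw [add_assoc, ← hdec]
      abel
    have e2 : y = ruled3Lift h ψ + (y 0 * n) • u := by
      apply ruled3_ext3
      · simp [ruled3Lift_apply, hu]
        field_simp
      · simp [ruled3Lift_apply, hu, hψ]
        field_simp
        ring
      · simp [ruled3Lift_apply, hu, hψ]
        field_simp
        ring
    calc y = ruled3Proj u y := (ruled3Proj_of_orth u y hy).symm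
      _ = ruled3Proj u (ruled3Lift h ψ + (y 0 * n) • u) := by rw [← e2]
      _ = ruled3Proj u (ruled3Lift h ψ) := by
          rw [map_add, map_smul, ruled3Proj_self u hunorm]
          simp
      _ = PL (c + σ y • a + ρ y • b) := by rw [← e1]; rfl
  have hBQ : B ⊆ Q := by
    rintro y ⟨⟨⟨h1, h2⟩, ⟨h3, h4⟩⟩, hy⟩
    have hy' : inner ℝ y u = 0 := hy
    have hpos : 0 < 1 + 2 * η := by linarith
    refine ⟨(σ y + η) / (1 + 2 * η), ⟨div_nonneg (by linarith) hpos.le, ?_⟩,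
      (ρ y + η) / (1 + 2 * η), ⟨div_nonneg (by linarith) hpos.le, ?_⟩, ?_⟩
    · rw [div_le_one hpos]; linarith
    · rw [div_le_one hpos]; linarith
    · conv_lhs => rw [key y hy']
      simp only [hc2, ha2', hb2', map_add, map_sub, map_smul, smul_smul]
      rw [div_mul_cancel₀ _ hpos.ne', div_mul_cancel₀ _ hpos.ne']
      module
  have hQbdd : Bornology.IsBounded Q := by
    rw [isBounded_iff_forall_norm_le]
    refine ⟨‖c2‖ + ‖a2‖ + ‖b2‖, ?_⟩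
    rintro x ⟨s, hs, t, ht, rfl⟩
    have h1 : ‖s • a2‖ ≤ ‖a2‖ := by
      rw [norm_smul, Real.norm_eq_abs, abs_of_nonneg hs.1]
      exact mul_le_of_le_one_left (norm_nonneg _) hs.2
    have h2 : ‖t • b2‖ ≤ ‖b2‖ := by
      rw [norm_smul, Real.norm_eq_abs, abs_of_nonneg ht.1]
      exact mul_le_of_le_one_left (norm_nonneg _) ht.2
    calc ‖c2 + s • a2 + t • b2‖ ≤ ‖c2‖ + ‖s • a2‖ + ‖t • b2‖ := norm_add₃_le
      _ ≤ ‖c2‖ + ‖a2‖ + ‖b2‖ := by linarith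
  have hcov : ∀ (x s t : ℝ) (ξ : EuclideanSpace ℝ (Fin 2)), s ∈ Set.Icc (0 : ℝ) 1 →
      t ∈ Set.Icc (0 : ℝ) 1 → ξ = c + s • a + t • b + x • g →
      ∃ y ∈ B, ∃ τ : ℝ, (!₂[x, ξ 0, h * ξ 1] : EuclideanSpace ℝ (Fin 3)) = y + τ • u := by
    intro x s t ξ hs ht hξ
    set z : EuclideanSpace ℝ (Fin 3) := !₂[x, ξ 0, h * ξ 1] with hz
    set r : ℝ := inner ℝ z u with hr
    have hξ0 : ξ 0 = c 0 + s * a 0 + t * b 0 + x * g 0 := by rw [hξ]; simp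
    have hξ1 : ξ 1 = c 1 + s * a 1 + t * b 1 + x * g 1 := by rw [hξ]; simp
    have e0 : (z - r • u) 0 = x - r / n := by simp [hz, hu]; ring
    have e1 : (z - r • u) 1 = ξ 0 - r * g 0 / n := by simp [hz, hu]; ring
    have e2 : (z - r • u) 2 = h * ξ 1 - r * h * g 1 / n := by simp [hz, hu]; ring
    have eA : (z - r • u) 1 - (z - r • u) 0 * g 0 - c 0 = s * a 0 + t * b 0 := by
      rw [e0, e1, hξ0]; field_simp; ring
    have eB : (z - r • u) 2 / h - (z - r • u) 0 * g 1 - c 1 = s * a 1 + t * b 1 := by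
      rw [e0, e2, hξ1]; field_simp; ring
    have hσz : σ (z - r • u) = s := by
      show (((z - r • u) 1 - (z - r • u) 0 * g 0 - c 0) * a 0 +
        ((z - r • u) 2 / h - (z - r • u) 0 * g 1 - c 1) * a 1) / ‖a‖ ^ 2 = s
      rw [eA, eB, div_eq_iff hna, ha2]
      linear_combination t * hab'
    have hρz : ρ (z - r • u) = t := by
      show (((z - r • u) 1 - (z - r • u) 0 * g 0 - c 0) * b 0 +
        ((z - r • u) 2 / h - (z - r • u) 0 * g 1 - c 1) * b 1) / ‖a‖ ^ 2 = t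
      rw [eA, eB, div_eq_iff hna, ha2]
      linear_combination s * hab' + t * hb2
    refine ⟨z - r • u, ⟨⟨⟨?_, ?_⟩, ⟨?_, ?_⟩⟩, ?_⟩, r, by abel⟩
    · rw [hσz]; linarith [hs.1]
    · rw [hσz]; linarith [hs.2]
    · rw [hρz]; linarith [ht.1]
    · rw [hρz]; linarith [ht.2]
    · show inner ℝ (z - r • u) u = 0
      rw [inner_sub_left, inner_smul_left, real_inner_self_eq_norm_sq, hunorm]
      simp [hr]
  have harea : (μHE[2] B).toReal ≤ (1 + 2 * η) ^ 2 * (h * (‖a‖ ^ 2 / n)) := by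
    have hle : μHE[2] B ≤ ENNReal.ofReal (Real.sqrt (‖a2‖ ^ 2 * ‖b2‖ ^ 2 - inner ℝ a2 b2 ^ 2)) :=
      (measure_mono hBQ).trans (HA c2 a2 b2)
    have hLa : inner ℝ (ruled3Lift h a) u = (a 0 * g 0 + h ^ 2 * a 1 * g 1) / n := by
      rw [ruled3_inner3, hu0, hu1, hu2]
      simp [ruled3Lift_apply]
      field_simp
    have hLb : inner ℝ (ruled3Lift h b) u = (b 0 * g 0 + h ^ 2 * b 1 * g 1) / n := by
      rw [ruled3_inner3, hu0, hu1, hu2]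
      simp [ruled3Lift_apply]
      field_simp
    have hLaa : ‖ruled3Lift h a‖ ^ 2 = a 0 ^ 2 + h ^ 2 * a 1 ^ 2 := by
      rw [ruled3_normsq3]
      simp [ruled3Lift_apply]
      ring
    have hLbb : ‖ruled3Lift h b‖ ^ 2 = b 0 ^ 2 + h ^ 2 * b 1 ^ 2 := by
      rw [ruled3_normsq3]
      simp [ruled3Lift_apply]
      ring
    have hLab : inner ℝ (ruled3Lift h a) (ruled3Lift h b) = a 0 * b 0 + h ^ 2 * a 1 * b 1 := by
      rw [ruled3_inner3]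
      simp [ruled3Lift_apply]
      ring
    have hPa : ‖PL a‖ ^ 2 = a 0 ^ 2 + h ^ 2 * a 1 ^ 2 - ((a 0 * g 0 + h ^ 2 * a 1 * g 1) / n) ^ 2 := by
      show ‖ruled3Proj u (ruled3Lift h a)‖ ^ 2 = _
      rw [ruled3Proj_normsq u hunorm, hLaa, hLa]
    have hPb : ‖PL b‖ ^ 2 = b 0 ^ 2 + h ^ 2 * b 1 ^ 2 - ((b 0 * g 0 + h ^ 2 * b 1 * g 1) / n) ^ 2 := by
      show ‖ruled3Proj u (ruled3Lift h b)‖ ^ 2 = _
      rw [ruled3Proj_normsq u hunorm, hLbb, hLb]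
    have hPab : inner ℝ (PL a) (PL b) = a 0 * b 0 + h ^ 2 * a 1 * b 1 -
        ((a 0 * g 0 + h ^ 2 * a 1 * g 1) / n) * ((b 0 * g 0 + h ^ 2 * b 1 * g 1) / n) := by
      show inner ℝ (ruled3Proj u (ruled3Lift h a)) (ruled3Proj u (ruled3Lift h b)) = _
      rw [ruled3Proj_inner u hunorm, hLab, hLa, hLb]
    have hd : (a 0 * b 1 - a 1 * b 0) ^ 2 = (‖a‖ ^ 2) ^ 2 := by
      rw [ha2]
      linear_combination (a 0 ^ 2 + a 1 ^ 2) * hb2 - (a 0 * b 0 + a 1 * b 1) * hab'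
    have hpos : 0 < 1 + 2 * η := by linarith
    have hG : ‖a2‖ ^ 2 * ‖b2‖ ^ 2 - inner ℝ a2 b2 ^ 2 =
        ((1 + 2 * η) ^ 2 * (h * (‖a‖ ^ 2 / n))) ^ 2 := by
      have e1 : ‖a2‖ ^ 2 = (1 + 2 * η) ^ 2 * ‖PL a‖ ^ 2 := by
        rw [ha2', norm_smul, mul_pow, Real.norm_eq_abs, sq_abs]
      have e2 : ‖b2‖ ^ 2 = (1 + 2 * η) ^ 2 * ‖PL b‖ ^ 2 := by
        rw [hb2', norm_smul, mul_pow, Real.norm_eq_abs, sq_abs]
      have e3 : inner ℝ a2 b2 = (1 + 2 * η) ^ 2 * inner ℝ (PL a) (PL b) := by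
        rw [ha2', hb2', inner_smul_left, inner_smul_right]
        simp
        ring
      rw [e1, e2, e3, hPa, hPb, hPab]
      have hfield : (a 0 ^ 2 + h ^ 2 * a 1 ^ 2 - ((a 0 * g 0 + h ^ 2 * a 1 * g 1) / n) ^ 2) *
          (b 0 ^ 2 + h ^ 2 * b 1 ^ 2 - ((b 0 * g 0 + h ^ 2 * b 1 * g 1) / n) ^ 2) -
          (a 0 * b 0 + h ^ 2 * a 1 * b 1 -
            ((a 0 * g 0 + h ^ 2 * a 1 * g 1) / n) * ((b 0 * g 0 + h ^ 2 * b 1 * g 1) / n)) ^ 2 =
          h ^ 2 * (‖a‖ ^ 2) ^ 2 / n ^ 2 := by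
        rw [← hd, eq_div_iff (by positivity)]
        field_simp
        linear_combination (h ^ 2 * (a 0 * b 1 - a 1 * b 0) ^ 2 * n ^ 2) * hn2
      have : (1 + 2 * η) ^ 2 * (a 0 ^ 2 + h ^ 2 * a 1 ^ 2 - ((a 0 * g 0 + h ^ 2 * a 1 * g 1) / n) ^ 2) *
          ((1 + 2 * η) ^ 2 * (b 0 ^ 2 + h ^ 2 * b 1 ^ 2 - ((b 0 * g 0 + h ^ 2 * b 1 * g 1) / n) ^ 2)) -
          ((1 + 2 * η) ^ 2 * (a 0 * b 0 + h ^ 2 * a 1 * b 1 -
            ((a 0 * g 0 + h ^ 2 * a 1 * g 1) / n) * ((b 0 * g 0 + h ^ 2 * b 1 * g 1) / n))) ^ 2 =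
          ((1 + 2 * η) ^ 2) ^ 2 * (h ^ 2 * (‖a‖ ^ 2) ^ 2 / n ^ 2) := by
        rw [← hfield]; ring
      rw [this]
      field_simp
    rw [hG, Real.sqrt_sq (by positivity)] at hle
    exact ENNReal.toReal_le_of_le_ofReal (by positivity) hle
  exact ⟨u, B, hunorm, hQbdd.subset hBQ, ⟨O, hOopen, rfl⟩, hcov, harea⟩

/-- S0329 from the conclusion of S0326 (square-tile cover of the ruled set in `ℝ × ℝ²`) and the
upper bound for the area of a parallelogram. -/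
theorem ruled3_cover_of_squares
    (HA : ∀ (c a b : EuclideanSpace ℝ (Fin 3)),
      μHE[2] {x : EuclideanSpace ℝ (Fin 3) | ∃ s ∈ Set.Icc (0 : ℝ) 1, ∃ t ∈ Set.Icc (0 : ℝ) 1,
        x = c + s • a + t • b}
        ≤ ENNReal.ofReal (Real.sqrt (‖a‖ ^ 2 * ‖b‖ ^ 2 - inner ℝ a b ^ 2)))
    (h M : ℝ) (hh : 0 < h) (D : Set (EuclideanSpace ℝ (Fin 2)))
    (V : EuclideanSpace ℝ (Fin 2) → EuclideanSpace ℝ (Fin 2))
    (H : ∀ ε' : ℝ, 0 < ε' → ∃ (k : ℕ) (c a b g : Fin k → EuclideanSpace ℝ (Fin 2)),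
      (∀ i, a i ≠ 0 ∧ ‖b i‖ = ‖a i‖ ∧ inner ℝ (a i) (b i) = 0) ∧
      {z : ℝ × EuclideanSpace ℝ (Fin 2) | ∃ p ∈ D, abs z.1 ≤ M ∧ z.2 = p + z.1 • V p} ⊆
        ⋃ i, {z : ℝ × EuclideanSpace ℝ (Fin 2) | ∃ x ∈ Set.Icc (0 : ℝ) 1, ∃ y ∈ Set.Icc (0 : ℝ) 1,
          z.2 = c i + x • a i + y • b i + z.1 • g i} ∧
      ∑ i, ‖a i‖ ^ 2 / Real.sqrt (1 + (g i 0) ^ 2 + h ^ 2 * (g i 1) ^ 2) ≤
        (∫ p in D, 1 / Real.sqrt (1 + (V p 0) ^ 2 + h ^ 2 * (V p 1) ^ 2)) + ε')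
    (ε : ℝ) (hε : 0 < ε) :
    ∃ (k : ℕ) (u : Fin k → EuclideanSpace ℝ (Fin 3)) (B : Fin k → Set (EuclideanSpace ℝ (Fin 3))),
      (∀ i, ‖u i‖ = 1) ∧
      (∀ i, Bornology.IsBounded (B i) ∧ ∃ O : Set (EuclideanSpace ℝ (Fin 3)), IsOpen O ∧
        B i = O ∩ {x | inner ℝ x (u i) = 0}) ∧
      {z : EuclideanSpace ℝ (Fin 3) | ∃ p ∈ D, ∃ x : ℝ, abs x ≤ M ∧
          z = !₂[x, p 0 + x * V p 0, h * (p 1 + x * V p 1)]} ⊆
        ⋃ i, {z : EuclideanSpace ℝ (Fin 3) | ∃ y ∈ B i, ∃ τ : ℝ, z = y + τ • u i} ∧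
      ∑ i, (μHE[2] (B i)).toReal ≤
        h * (∫ p in D, 1 / Real.sqrt (1 + (V p 0) ^ 2 + h ^ 2 * (V p 1) ^ 2)) + ε := by
  obtain ⟨k, c, a, b, g, hsq, hcov, hsum⟩ := H (ε / (2 * h)) (by positivity)
  set I : ℝ := ∫ p in D, 1 / Real.sqrt (1 + (V p 0) ^ 2 + h ^ 2 * (V p 1) ^ 2) with hI
  set S : ℝ := ∑ i, ‖a i‖ ^ 2 / Real.sqrt (1 + (g i 0) ^ 2 + h ^ 2 * (g i 1) ^ 2) with hS
  have hS0 : 0 ≤ S := Finset.sum_nonneg (fun i _ => by positivity)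
  have hhS : 0 ≤ h * S := mul_nonneg hh.le hS0
  have hden : 0 < 16 * (h * S) + 16 * ε := by positivity
  set η : ℝ := ε / (16 * (h * S) + 16 * ε) with hη
  have hη0 : 0 < η := by positivity
  have hη1 : η ≤ 1 / 16 := by
    rw [hη, div_le_div_iff₀ hden (by norm_num)]
    nlinarith
  choose u B hu hBb hBo hBc hBa using fun i =>
    ruled3_single HA h hh (c i) (a i) (b i) (g i) (hsq i).1 (hsq i).2.1 (hsq i).2.2 η hη0
  refine ⟨k, u, B, hu, fun i => ⟨hBb i, hBo i⟩, ?_, ?_⟩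
  · rintro z ⟨p, hp, x, hx, rfl⟩
    have hmem : ((x, p + x • V p) : ℝ × EuclideanSpace ℝ (Fin 2)) ∈
        {z : ℝ × EuclideanSpace ℝ (Fin 2) | ∃ p ∈ D, abs z.1 ≤ M ∧ z.2 = p + z.1 • V p} :=
      ⟨p, hp, hx, rfl⟩
    obtain ⟨i, hi⟩ := Set.mem_iUnion.mp (hcov hmem)
    obtain ⟨s, hs, t, ht, hst⟩ := hi
    obtain ⟨y, hy, τ, hτ⟩ := hBc i x s t (p + x • V p) hs ht hst
    refine Set.mem_iUnion.mpr ⟨i, y, hy, τ, ?_⟩
    rw [← hτ]
    simp
  · calc ∑ i, (μHE[2] (B i)).toReal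
        ≤ ∑ i, (1 + 2 * η) ^ 2 *
            (h * (‖a i‖ ^ 2 / Real.sqrt (1 + g i 0 ^ 2 + h ^ 2 * g i 1 ^ 2))) :=
          Finset.sum_le_sum (fun i _ => hBa i)
      _ = (1 + 2 * η) ^ 2 * (h * S) := by
          rw [hS, Finset.mul_sum, Finset.mul_sum]
      _ ≤ h * I + ε := by
          have h1 : h * S ≤ h * I + ε / 2 := by
            have h1' := mul_le_mul_of_nonneg_left hsum hh.le
            rw [mul_add] at h1'
            have e : h * (ε / (2 * h)) = ε / 2 := by field_simp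
            linarith
          have h2 : 8 * η * (h * S) ≤ ε / 2 := by
            rw [hη, show 8 * (ε / (16 * (h * S) + 16 * ε)) * (h * S) =
              (8 * ε * (h * S)) / (16 * (h * S) + 16 * ε) by ring, div_le_iff₀ hden]
            nlinarith
          have h3 : (1 + 2 * η) ^ 2 * (h * S) ≤ h * S + 8 * η * (h * S) := by
            have h4 : (1 + 2 * η) ^ 2 ≤ 1 + 8 * η := by nlinarith
            nlinarith
          linarith

end Crest.Agent.R211
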