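import Crest.Agent.S0047_Cert

/-!
# S0047 (Snaky): kernel-evaluated checker for family/footprint certificates

A *summary* is one natural number `X = F ||| (R <<< 4096)`: the footprint `F` (bits `< 4096`, the
cells Maker may claim) and the requirement set `R` (cells Maker must already own).  `SemX X d`
says that the summary is sound with at most `d` claims (`FWin` of `S0047_Cert`).

The checker `go` reads a token stream (a list of words, tokens in the low bits first, below a
sentinel bit) in continuation-passing style.  It is written with raw recursors and small closed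
helper definitions so that the kernel evaluates it quickly.  Soundness (`go_spec`, `chunk_sound`)
does not depend on how the stream is cut into tokens.
-/

set_option autoImplicit false

namespace Crest.Agent.S0047.FC
open Crest.Agent.S0047

/-- `B[b, t, e]` is `if b then t else e` on `ℕ`, by `Bool.rec`. -/
local notation "B[" b ", " t ", " e "]" => @Bool.rec (fun _ => ℕ) e t b

/-! ### The checker -/

/-- table lookup, `(0, 0)` when out of range -/
noncomputable def lookup : List (ℕ × ℕ) → ℕ → ℕ × ℕ :=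
  @List.rec (ℕ × ℕ) (fun _ => ℕ → ℕ × ℕ) (fun _ => (0, 0))
    (fun y _ ih k => @Nat.rec (fun _ => ℕ × ℕ) y (fun k' _ => ih k') k)

/-- summary of a win leaf: Maker claims `m` and then owns the copy `(t, o)`; `0` = invalid -/
def winX (m t o d : ℕ) : ℕ :=
  B[Nat.ble 1 d,
    B[Nat.ble (Nat.land t 63) 59,
      B[Nat.beq (Nat.land (cmaskAt t o) (Nat.shiftLeft 1 m)) 0, 0,
        Nat.lor (Nat.shiftLeft 1 m)
          (Nat.shiftLeft (Nat.xor (cmaskAt t o) (Nat.shiftLeft 1 m)) 4096)],
      0],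
    0]

/-- summary of an inner node with move `m` from the union `U` of its kids' summaries -/
def nodeX (m U : ℕ) : ℕ :=
  B[Nat.beq U 0, 0,
    B[Nat.beq (Nat.land U (Nat.shiftLeft 1 m)) 0,
      Nat.lor (Nat.xor (Nat.lor U (Nat.shiftLeft 1 (Nat.add m 4096))) (Nat.shiftLeft 1 (Nat.add m 4096)))
        (Nat.shiftLeft 1 m),
      0]]

/-- summary of a node with exactly two kids with summaries `A`, `T` -/
def pairX (m A T d : ℕ) : ℕ :=
  B[Nat.ble 1 d,
    B[Nat.beq A 0, 0,
      B[Nat.beq T 0, 0,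
        B[Nat.beq (Nat.land (Nat.land A T) full) 0, nodeX m (Nat.lor A T), 0]]],
    0]

/-- summary of a reference to the table entry `(X, h)` -/
def refX (p : ℕ × ℕ) (d : ℕ) : ℕ :=
  B[Nat.ble p.2 d, p.1, 0]

/-- continuations: summary, current word, remaining words -/
abbrev Kont : Type := ℕ → ℕ → List ℕ → ℕ
/-- the type of the checker: mode (`true` = list), current word, remaining words, depth budget,
the two accumulators, continuation -/
abbrev Go : Type := Bool → ℕ → List ℕ → ℕ → ℕ → ℕ → Kont → ℕ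

/-- continuation of a forcing token -/
def contForce (m f t o d : ℕ) (k : Kont) : Kont :=
  fun T c r => k (pairX m (winX f t o (Nat.sub d 1)) T d) c r

/-- forcing move: `m:12 f:12 t:12 o:3` after the 1-bit tag `0`, then one tree -/
def stepForce (ih : Go) (c : ℕ) (r : List ℕ) (d : ℕ) (k : Kont) : ℕ :=
  ih false (Nat.shiftRight c 40) r (Nat.sub d 1) 0 0
    (contForce (Nat.land (Nat.shiftRight c 1) 4095) (Nat.land (Nat.shiftRight c 13) 4095)
      (Nat.land (Nat.shiftRight c 25) 4095) (Nat.land (Nat.shiftRight c 37) 7) d k)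

/-- win leaf: `m:12 t:12 o:3` after the 2-bit tag `01` -/
def stepWin (c : ℕ) (r : List ℕ) (d : ℕ) (k : Kont) : ℕ :=
  k (winX (Nat.land (Nat.shiftRight c 2) 4095) (Nat.land (Nat.shiftRight c 14) 4095)
      (Nat.land (Nat.shiftRight c 26) 7) d) (Nat.shiftRight c 29) r

/-- double threat: `m:12 a:12 t:12 o:3 b:12 t:12 o:3` after the 3-bit tag `011` -/
def stepDwin (c : ℕ) (r : List ℕ) (d : ℕ) (k : Kont) : ℕ :=
  k (pairX (Nat.land (Nat.shiftRight c 3) 4095)
      (winX (Nat.land (Nat.shiftRight c 15) 4095) (Nat.land (Nat.shiftRight c 27) 4095)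
        (Nat.land (Nat.shiftRight c 39) 7) (Nat.sub d 1))
      (winX (Nat.land (Nat.shiftRight c 42) 4095) (Nat.land (Nat.shiftRight c 54) 4095)
        (Nat.land (Nat.shiftRight c 66) 7) (Nat.sub d 1)) d)
    (Nat.shiftRight c 69) r

/-- continuation after all kids of a general node -/
def contNode2 (m d : ℕ) (k : Kont) : Kont :=
  fun U c r => k (B[Nat.ble 1 d, nodeX m U, 0]) c r

/-- continuation after the first kid of a general node -/
def contNode1 (ih : Go) (m d : ℕ) (k : Kont) : Kont :=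
  fun X c r => B[Nat.beq X 0, 0, ih true c r (Nat.sub d 1) X X (contNode2 m d k)]

/-- tokens with low bits `111`: then 2 bits: `1` node `m:12` (then ≥ 1 trees and the end marker),
`2` ref `k:12`; the end marker `0` is invalid in tree mode -/
noncomputable def stepOther (tbl : List (ℕ × ℕ)) (ih : Go) (c : ℕ) (r : List ℕ) (d : ℕ)
    (k : Kont) : ℕ :=
  B[Nat.beq (Nat.land c 8) 0,
    B[Nat.beq (Nat.land c 16) 0, 0,
      k (refX (lookup tbl (Nat.land (Nat.shiftRight c 5) 4095)) d) (Nat.shiftRight c 17) r],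
    B[Nat.beq (Nat.land c 16) 0,
      ih false (Nat.shiftRight c 17) r (Nat.sub d 1) 0 0
        (contNode1 ih (Nat.land (Nat.shiftRight c 5) 4095) d k),
      0]]

/-- tree mode: parse one tree at depth budget `d` and pass its summary (`0` = invalid) on -/
noncomputable def stepT (tbl : List (ℕ × ℕ)) (ih : Go) (c : ℕ) (r : List ℕ) (d : ℕ)
    (k : Kont) : ℕ :=
  B[Nat.beq (Nat.land c 1) 0,
    stepForce ih c r d k,
    B[Nat.beq (Nat.land c 2) 0,
      stepWin c r d k,
      B[Nat.beq (Nat.land c 4) 0,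
        stepDwin c r d k,
        stepOther tbl ih c r d k]]]

/-- continuation after a kid in list mode -/
def contL (ih : Go) (d aI aU : ℕ) (k : Kont) : Kont :=
  fun X c r => B[Nat.beq X 0, 0, ih true c r d (Nat.land aI X) (Nat.lor aU X) k]

/-- list mode: parse trees up to the end marker (`00111`) and pass on `aU ||| summaries`,
or `0` unless the footprint part of `aI &&& summaries` is empty -/
def stepL (ih : Go) (c : ℕ) (r : List ℕ) (d aI aU : ℕ) (k : Kont) : ℕ :=
  B[Nat.beq (Nat.land c 31) 7,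
    k (B[Nat.beq (Nat.land aI full) 0, aU, 0]) (Nat.shiftRight c 5) r,
    ih false c r d 0 0 (contL ih d aI aU k)]

/-- one step on a nonempty current word -/
noncomputable def stepMain (tbl : List (ℕ × ℕ)) (ih : Go) (md : Bool) (c : ℕ) (r : List ℕ)
    (d aI aU : ℕ) (k : Kont) : ℕ :=
  B[md, stepL ih c r d aI aU k, stepT tbl ih c r d k]

/-- The checker; the stream is a current word `c` and a list `r` of further words, each word
holding whole tokens (low bits first) below a sentinel top bit. -/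
noncomputable def go (tbl : List (ℕ × ℕ)) : ℕ → Go :=
  @Nat.rec (fun _ => Go)
    (fun _ _ _ _ _ _ _ => 0)
    (fun _ ih md c r d aI aU k =>
      B[Nat.ble c 1,
        @List.rec ℕ (fun _ => ℕ) 0 (fun c' r' _ => stepMain tbl ih md c' r' d aI aU k) r,
        stepMain tbl ih md c r d aI aU k])

/-- a chunk: the stream `l` holds one tree with summary `X ≠ 0` at depth budget `h` -/
noncomputable def chunkOk (tbl : List (ℕ × ℕ)) (fuel : ℕ) (l : List ℕ) (h X : ℕ) : Bool :=
  Nat.ble 1 X && Nat.beq (go tbl fuel false 1 l h 0 0 (fun X _ _ => X)) X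

/-! ### Soundness -/

/-- the packed summary `X` is sound with at most `d` claims -/
def SemX (X d : ℕ) : Prop := FWin (X >>> 4096) (X &&& full) d

/-- all table entries are sound -/
def AllSem : List (ℕ × ℕ) → Prop
  | [] => True
  | p :: l => SemX p.1 p.2 ∧ AllSem l

theorem brec_ind {P : ℕ → Prop} {b : Bool} {t e : ℕ} (ht : b = true → P t)
    (he : b = false → P e) : P (B[b, t, e]) := by
  cases b
  · exact he rfl
  · exact ht rfl

theorem tb_full_iff (c : ℕ) : tb full c = true ↔ c < 4096 := by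
  simp [tb, full, Nat.testBit_two_pow_sub_one]

theorem tb_fof (X c : ℕ) : tb (X &&& full) c = true ↔ tb X c = true ∧ c < 4096 := by
  rw [tb_and, tb_full_iff]

theorem tb_rof (X c : ℕ) : tb (X >>> 4096) c = tb X (4096 + c) := by
  simp [tb, Nat.testBit_shiftRight]

theorem tb_bit (m c : ℕ) : tb (Nat.shiftLeft 1 m) c = true ↔ c = m := by
  show Nat.testBit (1 <<< m) c = true ↔ c = m
  rw [Nat.one_shiftLeft, Nat.testBit_two_pow]
  simp [eq_comm]

theorem tb_lor (s t d : ℕ) : tb (Nat.lor s t) d = true ↔ tb s d = true ∨ tb t d = true :=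
  tb_or s t d

theorem tb_land (s t d : ℕ) : tb (Nat.land s t) d = true ↔ tb s d = true ∧ tb t d = true :=
  tb_and s t d

theorem tb_xor (s t d : ℕ) : tb (Nat.xor s t) d = (tb s d != tb t d) := by
  show Nat.testBit (s ^^^ t) d = _
  simp [tb, Nat.testBit_xor]

theorem tb_false_of_land_bit {U m : ℕ} (h : Nat.land U (Nat.shiftLeft 1 m) = 0) :
    tb U m = false := by
  cases hU : tb U m with
  | false => rfl
  | true =>
    have : tb (Nat.land U (Nat.shiftLeft 1 m)) m = true := (tb_land _ _ _).mpr ⟨hU, (tb_bit m m).mpr rfl⟩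
    rw [h, tb_zero] at this
    exact Bool.noConfusion this

theorem lookup_nil (k : ℕ) : lookup [] k = (0, 0) := rfl
theorem lookup_cons_zero (y : ℕ × ℕ) (l : List (ℕ × ℕ)) : lookup (y :: l) 0 = y := rfl
theorem lookup_cons_succ (y : ℕ × ℕ) (l : List (ℕ × ℕ)) (k : ℕ) :
    lookup (y :: l) (k + 1) = lookup l k := rfl

theorem lookup_sem : ∀ (tbl : List (ℕ × ℕ)), AllSem tbl → ∀ k : ℕ,
    lookup tbl k = (0, 0) ∨ SemX (lookup tbl k).1 (lookup tbl k).2
  | [], _, k => Or.inl (lookup_nil k)
  | y :: l, h, 0 => Or.inr (by rw [lookup_cons_zero]; exact h.1)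
  | y :: l, h, k + 1 => by rw [lookup_cons_succ]; exact lookup_sem l h.2 k

theorem winX_sem {m t o d : ℕ} (hm : m < 4096) (ho : o < 8) :
    winX m t o d ≠ 0 → SemX (winX m t o d) d := by
  unfold winX
  refine brec_ind (P := fun X => X ≠ 0 → SemX X d) (fun h1 => ?_) (fun _ h => absurd rfl h)
  refine brec_ind (P := fun X => X ≠ 0 → SemX X d) (fun h2 => ?_) (fun _ h => absurd rfl h)
  refine brec_ind (P := fun X => X ≠ 0 → SemX X d) (fun _ h => absurd rfl h) (fun h3 => ?_)
  intro _
  have hd : 1 ≤ d := Nat.le_of_ble_eq_true h1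
  have ht : t % 64 ≤ 59 := by
    have := Nat.le_of_ble_eq_true h2
    have e : Nat.land t 63 = t % 64 := Nat.and_two_pow_sub_one_eq_mod t 6
    omega
  have hw : FWin (Nat.xor (cmaskAt t o) (Nat.shiftLeft 1 m)) (sb 0 m) 1 := by
    refine FWin.winMask ho ht hm (fun c hc => ?_)
    by_cases hcm : c = m
    · exact Or.inl hcm
    · right
      rw [tb_xor, hc]
      have : tb (Nat.shiftLeft 1 m) c = false := by
        cases hb : tb (Nat.shiftLeft 1 m) c with
        | false => rfl
        | true => exact absurd ((tb_bit m c).mp hb) hcm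
      rw [this]; rfl
  refine FWin.mono hw ?_ ?_ (fun c hc => ((tb_fof _ c).mp hc).2) hd
  · intro c hc
    rw [tb_rof]
    refine (tb_lor _ _ _).mpr (Or.inr ?_)
    show Nat.testBit ((Nat.xor (cmaskAt t o) (Nat.shiftLeft 1 m)) <<< 4096) (4096 + c) = true
    rw [Nat.testBit_shiftLeft]
    simpa [tb] using hc
  · intro c hc
    rcases (tb_sb 0 m c).mp hc with h0 | rfl
    · rw [tb_zero] at h0; exact Bool.noConfusion h0
    · exact (tb_fof _ c).mpr ⟨(tb_lor _ _ _).mpr (Or.inl ((tb_bit c c).mpr rfl)), hm⟩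

/-- the accumulators of a list of sound kids: for every cell `m` outside their footprints they
form a family in the sense of `Fam` -/
def PreFam (d aI aU : ℕ) : Prop :=
  ∀ m, tb aU m = false → Fam m (aU >>> 4096) (aU &&& full) (aI &&& full) d

theorem preFam_single {X d : ℕ} (h : SemX X d) : PreFam d X X := by
  intro m hm
  refine Fam.single h ?_
  cases hc : tb (X &&& full) m with
  | false => rfl
  | true => rw [((tb_fof X m).mp hc).1] at hm; exact Bool.noConfusion hm

theorem preFam_add {d aI aU X : ℕ} (hf : PreFam d aI aU) (h : SemX X d) :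
    PreFam d (Nat.land aI X) (Nat.lor aU X) := by
  intro m hm
  have hmU : tb aU m = false := by
    cases hc : tb aU m with
    | false => rfl
    | true => rw [(tb_lor aU X m).mpr (Or.inl hc)] at hm; exact Bool.noConfusion hm
  have hmX : tb (X &&& full) m = false := by
    cases hc : tb (X &&& full) m with
    | false => rfl
    | true =>
      rw [(tb_lor aU X m).mpr (Or.inr ((tb_fof X m).mp hc).1)] at hm; exact Bool.noConfusion hm
  have := Fam.add (hf m hmU) h hmX
  refine Fam.mono this ?_ ?_ (fun c hc => ((tb_fof _ c).mp hc).2) ?_ (by simp)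
  · intro c hc
    rw [tb_rof]
    rcases (tb_or _ _ c).mp hc with h1 | h1
    · rw [tb_rof] at h1; exact (tb_lor _ _ _).mpr (Or.inl h1)
    · rw [tb_rof] at h1; exact (tb_lor _ _ _).mpr (Or.inr h1)
  · intro c hc
    rcases (tb_or _ _ c).mp hc with h1 | h1
    · have := (tb_fof _ c).mp h1
      exact (tb_fof _ c).mpr ⟨(tb_lor _ _ _).mpr (Or.inl this.1), this.2⟩
    · have := (tb_fof _ c).mp h1
      exact (tb_fof _ c).mpr ⟨(tb_lor _ _ _).mpr (Or.inr this.1), this.2⟩
  · intro c hc
    obtain ⟨h1, h2⟩ := (tb_and _ _ c).mp hc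
    have h1' := (tb_fof _ c).mp h1
    have h2' := (tb_fof _ c).mp h2
    exact (tb_fof _ c).mpr ⟨(tb_land _ _ _).mpr ⟨h1'.1, h2'.1⟩, h1'.2⟩

theorem nodeX_sem {m d aI aU : ℕ} (hm : m < 4096)
    (hf : aU ≠ 0 → PreFam d aI aU ∧ Nat.land aI full = 0) :
    nodeX m aU ≠ 0 → SemX (nodeX m aU) (d + 1) := by
  unfold nodeX
  refine brec_ind (P := fun X => X ≠ 0 → SemX X (d + 1)) (fun _ h => absurd rfl h) (fun h1 => ?_)
  refine brec_ind (P := fun X => X ≠ 0 → SemX X (d + 1)) (fun h2 => ?_) (fun _ h => absurd rfl h)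
  intro _
  have hU : aU ≠ 0 := Nat.ne_of_beq_eq_false h1
  obtain ⟨hpf, hI⟩ := hf hU
  have hmU : tb aU m = false := tb_false_of_land_bit (Nat.eq_of_beq_eq_true h2)
  have hfam := hpf m hmU
  have key : ∀ c, tb (Nat.xor (Nat.lor aU (Nat.shiftLeft 1 (Nat.add m 4096)))
      (Nat.shiftLeft 1 (Nat.add m 4096))) c = true ↔ tb aU c = true ∧ c ≠ m + 4096 := by
    intro c
    rw [tb_xor]
    by_cases hc : c = m + 4096
    · have hb : tb (Nat.shiftLeft 1 (Nat.add m 4096)) c = true := (tb_bit _ c).mpr hc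
      have hl : tb (Nat.lor aU (Nat.shiftLeft 1 (Nat.add m 4096))) c = true :=
        (tb_lor _ _ _).mpr (Or.inr hb)
      rw [hb, hl]; simp [hc]
    · have hb : tb (Nat.shiftLeft 1 (Nat.add m 4096)) c = false := by
        cases hb : tb (Nat.shiftLeft 1 (Nat.add m 4096)) c with
        | false => rfl
        | true => exact absurd ((tb_bit _ c).mp hb) hc
      rw [hb]
      cases hU' : tb aU c with
      | true =>
        have hl : tb (Nat.lor aU (Nat.shiftLeft 1 (Nat.add m 4096))) c = true :=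
          (tb_lor _ _ _).mpr (Or.inl hU')
        rw [hl]; simp [hc]
      | false =>
        have hl : tb (Nat.lor aU (Nat.shiftLeft 1 (Nat.add m 4096))) c = false := by
          cases hl : tb (Nat.lor aU (Nat.shiftLeft 1 (Nat.add m 4096))) c with
          | false => rfl
          | true =>
            rcases (tb_lor _ _ _).mp hl with h' | h'
            · rw [hU'] at h'; exact Bool.noConfusion h'
            · rw [hb] at h'; exact Bool.noConfusion h'
        rw [hl]; simp
  have hnode := FWin.node (R := (Nat.lor (Nat.xor (Nat.lor aU (Nat.shiftLeft 1 (Nat.add m 4096)))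
      (Nat.shiftLeft 1 (Nat.add m 4096))) (Nat.shiftLeft 1 m)) >>> 4096) hfam hI hm (by
    intro c hc
    rw [tb_rof] at hc
    by_cases hcm : c = m
    · exact Or.inr hcm
    · left
      rw [tb_rof]
      exact (tb_lor _ _ _).mpr (Or.inl ((key _).mpr ⟨hc, by omega⟩)))
  refine FWin.mono hnode (fun c hc => hc) ?_ (fun c hc => ((tb_fof _ c).mp hc).2) (le_refl _)
  intro c hc
  rcases (tb_sb _ m c).mp hc with h' | rfl
  · have := (tb_fof _ c).mp h'
    exact (tb_fof _ c).mpr ⟨(tb_lor _ _ _).mpr (Or.inl ((key _).mpr ⟨this.1, by omega⟩)), this.2⟩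
  · exact (tb_fof _ c).mpr ⟨(tb_lor _ _ _).mpr (Or.inr ((tb_bit c c).mpr rfl)), hm⟩

theorem pairX_sem {m A T d : ℕ} (hm : m < 4096) (hA : A ≠ 0 → SemX A (d - 1))
    (hT : T ≠ 0 → SemX T (d - 1)) : pairX m A T d ≠ 0 → SemX (pairX m A T d) d := by
  unfold pairX
  refine brec_ind (P := fun X => X ≠ 0 → SemX X d) (fun h1 => ?_) (fun _ h => absurd rfl h)
  refine brec_ind (P := fun X => X ≠ 0 → SemX X d) (fun _ h => absurd rfl h) (fun h2 => ?_)
  refine brec_ind (P := fun X => X ≠ 0 → SemX X d) (fun _ h => absurd rfl h) (fun h3 => ?_)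
  refine brec_ind (P := fun X => X ≠ 0 → SemX X d) (fun h4 => ?_) (fun _ h => absurd rfl h)
  intro h
  have hd : 1 ≤ d := Nat.le_of_ble_eq_true h1
  have hpf : PreFam (d - 1) (Nat.land A T) (Nat.lor A T) :=
    preFam_add (preFam_single (hA (Nat.ne_of_beq_eq_false h2))) (hT (Nat.ne_of_beq_eq_false h3))
  have := nodeX_sem hm (fun _ => ⟨hpf, Nat.eq_of_beq_eq_true h4⟩) h
  have e : d - 1 + 1 = d := by omega
  rw [e] at this
  exact this

theorem refX_sem {p : ℕ × ℕ} {d : ℕ} (hp : p = (0, 0) ∨ SemX p.1 p.2) :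
    refX p d ≠ 0 → SemX (refX p d) d := by
  unfold refX
  refine brec_ind (P := fun X => X ≠ 0 → SemX X d) (fun h1 => ?_) (fun _ h => absurd rfl h)
  intro h
  rcases hp with rfl | hp
  · exact absurd rfl h
  · exact FWin.mono hp (fun c hc => hc) (fun c hc => hc) (fun c hc => ((tb_fof _ c).mp hc).2)
      (Nat.le_of_ble_eq_true h1)

/-- tree mode: the continuation is called at most once, with a sound (or zero) summary -/
def TreeSpec (g : Go) : Prop :=
  ∀ (c : ℕ) (r : List ℕ) (d aI aU : ℕ) (k : Kont),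
    g false c r d aI aU k = 0 ∨
      ∃ X c' r', g false c r d aI aU k = k X c' r' ∧ (X ≠ 0 → SemX X d)

/-- list mode: the continuation is called at most once, with the union of a family whose
footprints have empty intersection (or zero) -/
def ListSpec (g : Go) : Prop :=
  ∀ (c : ℕ) (r : List ℕ) (d aI aU : ℕ) (k : Kont), PreFam d aI aU →
    g true c r d aI aU k = 0 ∨
      ∃ U I c' r', g true c r d aI aU k = k U c' r' ∧
        (U ≠ 0 → PreFam d I U ∧ Nat.land I full = 0)

theorem land_4095_lt (x : ℕ) : Nat.land x 4095 < 4096 :=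
  Nat.lt_of_le_of_lt (Nat.and_le_right (n := x) (m := 4095)) (by norm_num)

theorem land_7_lt (x : ℕ) : Nat.land x 7 < 8 :=
  Nat.lt_of_le_of_lt (Nat.and_le_right (n := x) (m := 7)) (by norm_num)

theorem stepT_spec (tbl : List (ℕ × ℕ)) (htbl : AllSem tbl) (g : Go) (hT : TreeSpec g)
    (hL : ListSpec g) (c : ℕ) (r : List ℕ) (d : ℕ) (k : Kont) :
    stepT tbl g c r d k = 0 ∨ ∃ X c' r', stepT tbl g c r d k = k X c' r' ∧ (X ≠ 0 → SemX X d) := by
  unfold stepT
  refine brec_ind (P := fun v => v = 0 ∨ ∃ X c' r', v = k X c' r' ∧ (X ≠ 0 → SemX X d))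
    (fun _ => ?_) (fun _ => ?_)
  · -- force
    unfold stepForce
    rcases hT (Nat.shiftRight c 40) r (Nat.sub d 1) 0 0
      (contForce (Nat.land (Nat.shiftRight c 1) 4095) (Nat.land (Nat.shiftRight c 13) 4095)
        (Nat.land (Nat.shiftRight c 25) 4095) (Nat.land (Nat.shiftRight c 37) 7) d k)
      with h | ⟨X, c', r', h, hX⟩
    · exact Or.inl h
    · exact Or.inr ⟨_, c', r', h, pairX_sem (land_4095_lt _)
        (winX_sem (land_4095_lt _) (land_7_lt _)) hX⟩
  refine brec_ind (P := fun v => v = 0 ∨ ∃ X c' r', v = k X c' r' ∧ (X ≠ 0 → SemX X d))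
    (fun _ => ?_) (fun _ => ?_)
  · -- win
    exact Or.inr ⟨_, _, _, rfl, winX_sem (land_4095_lt _) (land_7_lt _)⟩
  refine brec_ind (P := fun v => v = 0 ∨ ∃ X c' r', v = k X c' r' ∧ (X ≠ 0 → SemX X d))
    (fun _ => ?_) (fun _ => ?_)
  · -- dwin
    exact Or.inr ⟨_, _, _, rfl, pairX_sem (land_4095_lt _)
      (winX_sem (land_4095_lt _) (land_7_lt _)) (winX_sem (land_4095_lt _) (land_7_lt _))⟩
  unfold stepOther
  refine brec_ind (P := fun v => v = 0 ∨ ∃ X c' r', v = k X c' r' ∧ (X ≠ 0 → SemX X d))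
    (fun _ => ?_) (fun _ => ?_)
  · refine brec_ind (P := fun v => v = 0 ∨ ∃ X c' r', v = k X c' r' ∧ (X ≠ 0 → SemX X d))
      (fun _ => Or.inl rfl) (fun _ => ?_)
    -- ref
    exact Or.inr ⟨_, _, _, rfl, refX_sem (lookup_sem tbl htbl _)⟩
  · refine brec_ind (P := fun v => v = 0 ∨ ∃ X c' r', v = k X c' r' ∧ (X ≠ 0 → SemX X d))
      (fun _ => ?_) (fun _ => Or.inl rfl)
    -- node
    rcases hT (Nat.shiftRight c 17) r (Nat.sub d 1) 0 0
      (contNode1 g (Nat.land (Nat.shiftRight c 5) 4095) d k) with h | ⟨X1, c1, r1, h, hX1⟩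
    · exact Or.inl h
    · rw [h]
      show B[Nat.beq X1 0, 0, g true c1 r1 (Nat.sub d 1) X1 X1
        (contNode2 (Nat.land (Nat.shiftRight c 5) 4095) d k)] = 0 ∨ _
      refine brec_ind (P := fun v => v = 0 ∨ ∃ X c' r', v = k X c' r' ∧ (X ≠ 0 → SemX X d))
        (fun _ => Or.inl rfl) (fun h6 => ?_)
      have hX1' : SemX X1 (d - 1) := hX1 (Nat.ne_of_beq_eq_false h6)
      rcases hL c1 r1 (Nat.sub d 1) X1 X1
        (contNode2 (Nat.land (Nat.shiftRight c 5) 4095) d k) (preFam_single hX1')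
        with h' | ⟨U, I, c2, r2, h', hU⟩
      · exact Or.inl h'
      · refine Or.inr ⟨_, c2, r2, h', ?_⟩
        refine brec_ind (P := fun X => X ≠ 0 → SemX X d) (fun h7 => ?_) (fun _ h => absurd rfl h)
        intro hne
        have hd : 1 ≤ d := Nat.le_of_ble_eq_true h7
        have := nodeX_sem (d := d - 1) (land_4095_lt _) hU hne
        have e : d - 1 + 1 = d := by omega
        rw [e] at this
        exact this

theorem stepL_spec (g : Go) (hT : TreeSpec g) (hL : ListSpec g) (c : ℕ) (r : List ℕ)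
    (d aI aU : ℕ) (k : Kont) (hpf : PreFam d aI aU) :
    stepL g c r d aI aU k = 0 ∨ ∃ U I c' r', stepL g c r d aI aU k = k U c' r' ∧
      (U ≠ 0 → PreFam d I U ∧ Nat.land I full = 0) := by
  unfold stepL
  refine brec_ind (P := fun v => v = 0 ∨ ∃ U I c' r', v = k U c' r' ∧
      (U ≠ 0 → PreFam d I U ∧ Nat.land I full = 0)) (fun _ => ?_) (fun _ => ?_)
  · refine Or.inr ⟨_, aI, _, _, rfl, ?_⟩
    refine brec_ind (P := fun U => U ≠ 0 → PreFam d aI U ∧ Nat.land aI full = 0)
      (fun h2 _ => ⟨hpf, Nat.eq_of_beq_eq_true h2⟩) (fun _ h => absurd rfl h)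
  · rcases hT c r d 0 0 (contL g d aI aU k) with h | ⟨X, c', r', h, hX⟩
    · exact Or.inl h
    · rw [h]
      show B[Nat.beq X 0, 0, g true c' r' d (Nat.land aI X) (Nat.lor aU X) k] = 0 ∨ _
      refine brec_ind (P := fun v => v = 0 ∨ ∃ U I c' r', v = k U c' r' ∧
        (U ≠ 0 → PreFam d I U ∧ Nat.land I full = 0)) (fun _ => Or.inl rfl) (fun h2 => ?_)
      exact hL c' r' d (Nat.land aI X) (Nat.lor aU X) k
        (preFam_add hpf (hX (Nat.ne_of_beq_eq_false h2)))

theorem go_succ (tbl : List (ℕ × ℕ)) (f : ℕ) (md : Bool) (c : ℕ) (r : List ℕ) (d aI aU : ℕ)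
    (k : Kont) : go tbl (f + 1) md c r d aI aU k =
      B[Nat.ble c 1,
        @List.rec ℕ (fun _ => ℕ) 0 (fun c' r' _ => stepMain tbl (go tbl f) md c' r' d aI aU k) r,
        stepMain tbl (go tbl f) md c r d aI aU k] := rfl

theorem go_spec (tbl : List (ℕ × ℕ)) (htbl : AllSem tbl) :
    ∀ f : ℕ, TreeSpec (go tbl f) ∧ ListSpec (go tbl f) := by
  intro f
  induction f with
  | zero => exact ⟨fun _ _ _ _ _ _ => Or.inl rfl, fun _ _ _ _ _ _ _ => Or.inl rfl⟩
  | succ f ih =>
    obtain ⟨hT, hL⟩ := ih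
    refine ⟨?_, ?_⟩
    · intro c r d aI aU k
      rw [go_succ]
      refine brec_ind (P := fun v => v = 0 ∨ ∃ X c' r', v = k X c' r' ∧ (X ≠ 0 → SemX X d))
        (fun _ => ?_) (fun _ => stepT_spec tbl htbl _ hT hL c r d k)
      cases r with
      | nil => exact Or.inl rfl
      | cons c' r' => exact stepT_spec tbl htbl _ hT hL c' r' d k
    · intro c r d aI aU k hpf
      rw [go_succ]
      refine brec_ind (P := fun v => v = 0 ∨ ∃ U I c' r', v = k U c' r' ∧
        (U ≠ 0 → PreFam d I U ∧ Nat.land I full = 0))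
        (fun _ => ?_) (fun _ => stepL_spec _ hT hL c r d aI aU k hpf)
      cases r with
      | nil => exact Or.inl rfl
      | cons c' r' => exact stepL_spec _ hT hL c' r' d aI aU k hpf

/-- An accepted chunk proves that its summary is sound. -/
theorem chunk_sound (tbl : List (ℕ × ℕ)) (htbl : AllSem tbl) (fuel : ℕ) (l : List ℕ) (h X : ℕ)
    (hc : chunkOk tbl fuel l h X = true) : SemX X h := by
  unfold chunkOk at hc
  rw [Bool.and_eq_true] at hc
  obtain ⟨h1, h2⟩ := hc
  have hX : X ≠ 0 := by have := Nat.le_of_ble_eq_true h1; omega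
  have h2' := Nat.eq_of_beq_eq_true h2
  rcases (go_spec tbl htbl fuel).1 1 l h 0 0 (fun X _ _ => X) with h0 | ⟨X', c', r', h', hX'⟩
  · rw [h0] at h2'; exact absurd h2'.symm hX
  · rw [h'] at h2'
    subst h2'
    exact hX' hX

/-- A sound root summary with empty requirement and at most 21 claims proves the frozen
statement of S0047. -/
theorem result_of_root {X h : ℕ} (hs : SemX X h) (hR : X >>> 4096 = 0) (hh : h ≤ 21) :
    ∃ σ : List (ℤ × ℤ) → ℤ × ℤ, ∀ b : ℕ → ℤ × ℤ,
      (∀ k : ℕ, k < 20 →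
        (∀ j : ℕ, j ≤ k → b k ≠ Crest.CombinatoricsR.PolyominoGame.makerClaim σ b j) ∧
        (∀ j : ℕ, j < k → b k ≠ b j)) →
      (∀ k : ℕ, k ≤ 20 →
        (∀ j : ℕ, j < k → Crest.CombinatoricsR.PolyominoGame.makerClaim σ b k ≠
          Crest.CombinatoricsR.PolyominoGame.makerClaim σ b j) ∧
        (∀ j : ℕ, j < k → Crest.CombinatoricsR.PolyominoGame.makerClaim σ b k ≠ b j)) ∧
      Crest.CombinatoricsR.PolyominoGame.ContainsCopy
        {c | ∃ j : ℕ, j ≤ 20 ∧ c = Crest.CombinatoricsR.PolyominoGame.makerClaim σ b j} := by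
  unfold SemX at hs
  rw [hR] at hs
  exact result_of_fwin hs hh

end Crest.Agent.S0047.FC
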