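import Crest.Agent.S0047_Cert

/-!
# S0047: the kernel-oriented checker for footprint certificates

A footprint certificate is a tree: a leaf `win a t o` (Maker claims the cell `a` and then owns
the copy with corner `t` and orientation `o`), or a node `a [T_1, …, T_n]` (Maker claims `a`;
whatever Breaker replies, some kid `T_i` has a footprint avoiding the reply).  Every subtree has
a context-free summary `(R, F, h)` (`FWin`, file `S0047_Cert`).

The tree is written as a sequence of 32-bit tokens (bits 0–2 tag, bits 3–14 cell `a`,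
bits 15–17 orientation `o`, bits 18–29 corner `t`):

* tag 0 `LEAF a t o` : a leaf;
* tag 1 `OPEN a`     : start of a node claiming `a`; its kids follow;
* tag 2 `CLOSE`      : end of the current node;
* tag 3 `REF`        : a kid whose summary is the next obligation (proved elsewhere);
* tag ≥ 4 `NOP`      : padding, no effect.

The tokens `tok_0, …, tok_{K-1}` of a chunk are packed in the number
`salt + 2^64 * Σ_j tok_j * 2^(32 * (K - 1 - j))` with an arbitrary `salt < 2^64` (never read).
The machine keeps for every open node the accumulator `(m, RU, FU, FI, hmax)` of its family.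
-/

set_option autoImplicit false

namespace Crest.Agent.S0047

/-- Stack of family accumulators `(m, RU, FU, FI, hmax)`. -/
inductive Stk : Type
  | nil : Stk
  | cons (m RU FU FI hmax : ℕ) (tail : Stk) : Stk

/-- Lists of obligations: summaries `(R, F, h)` proved elsewhere. -/
inductive Obl : Type
  | nil : Obl
  | cons (R F h : ℕ) (tail : Obl) : Obl

/-- Every accumulator of the stack is a sound family. -/
def AllFam : Stk → Prop
  | .nil => True
  | .cons m RU FU FI hmax tail => FamB (sb 0 m) RU FU FI hmax ∧ AllFam tail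

/-- Every obligation is a sound summary. -/
def AllF : Obl → Prop
  | .nil => True
  | .cons R F h tail => FWin R F h ∧ AllF tail

/-- Continuations of the machine: `m RU FU FI hmax stk obl ↦ Bool`. -/
abbrev KS : Type := ℕ → ℕ → ℕ → ℕ → ℕ → Stk → Obl → Bool

local notation "bb⟨" x "," y "⟩" => Bool.rec (motive := fun _ => Bool) false x y

/-- The cell of a token. -/
def fA (w : ℕ) : ℕ := Nat.land (Nat.shiftRight w 3) 4095

/-- The bit of the cell of a token. -/
def bA (w : ℕ) : ℕ := Nat.shiftLeft 1 (Nat.land (Nat.shiftRight w 3) 4095)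

/-- The copy mask of a leaf token. -/
def cmW (w : ℕ) : ℕ :=
  Nat.shiftLeft
    (Nat.land (Nat.shiftRight cmaskTable (Nat.mul (Nat.land (Nat.shiftRight w 15) 7) 512)) m512)
    (Nat.land (Nat.shiftRight w 18) 4095)

/-- The requirement of a leaf token: the copy without the claimed cell. -/
def lR (w : ℕ) : ℕ := Nat.land (cmW w) (Nat.xor (cmW w) (bA w))

/-- No wrap-around of the copy of a leaf token. -/
def wrapOK (w : ℕ) : Bool := Nat.ble (Nat.land (Nat.shiftRight w 18) 63) 59

/-- `2^4095 - 1`. -/
def c4095 : ℕ := 2 ^ 4095 - 1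

/-- Add the kid summary `(R, F, h)` to the current family, then continue. -/
noncomputable def foldK (ih : KS) (R F h : ℕ) : KS := fun m RU FU FI hmax stk obl =>
  bb⟨ih m (Nat.lor RU R) (Nat.lor FU F) (Nat.land FI F) (Nat.add hmax (Nat.sub h hmax)) stk obl,
    Nat.ble (Nat.add (Nat.add (Nat.add hmax (Nat.sub h hmax))
        (Nat.mul 0 (Nat.lor (Nat.lor RU R) (Nat.land FI F))))
      (Nat.mul 22 (Nat.land (Nat.lor FU F) (Nat.shiftLeft 1 m)))) 21⟩

noncomputable def stepLeaf (ih : KS) (w : ℕ) : KS := fun m RU FU FI hmax stk obl =>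
  bb⟨foldK ih (lR w) (bA w) 1 m RU FU FI hmax stk obl, wrapOK w⟩

noncomputable def stepOpen (ih : KS) (w : ℕ) : KS := fun m RU FU FI hmax stk obl =>
  ih (fA w) 0 0 full 0 (Stk.cons m RU FU FI hmax stk) obl

noncomputable def stepClose (ih : KS) : KS := fun m RU FU FI hmax stk obl =>
  bb⟨Stk.rec (motive := fun _ => Bool) false
      (fun m' RU' FU' FI' hmax' tl _ =>
        foldK ih (Nat.land RU (Nat.xor RU (Nat.shiftLeft 1 m))) (Nat.lor FU (Nat.shiftLeft 1 m))
          (Nat.add hmax 1) m' RU' FU' FI' hmax' tl obl) stk,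
    Nat.ble (Nat.add m (Nat.mul FI 4096)) 4095⟩

noncomputable def stepRef (ih : KS) : KS := fun m RU FU FI hmax stk obl =>
  Obl.rec (motive := fun _ => Bool) false
    (fun R F h obl' _ => foldK ih R F h m RU FU FI hmax stk obl') obl

/-- One token: dispatch on the tag. -/
noncomputable def stepTok (ih : KS) (w : ℕ) : KS :=
  Nat.rec (motive := fun _ => KS) (stepLeaf ih w)
    (fun t1 _ => Nat.rec (motive := fun _ => KS) (stepOpen ih w)
      (fun t2 _ => Nat.rec (motive := fun _ => KS) (stepClose ih)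
        (fun t3 _ => Nat.rec (motive := fun _ => KS) (stepRef ih) (fun _ _ => ih) t3) t2) t1)
    (Nat.land w 7)

/-- The tokens of one chunk `c` (already shifted right by 64), from slot `n - 1` down to `0`. -/
noncomputable def inner (k : KS) (c : ℕ) (n : ℕ) : KS :=
  Nat.rec (motive := fun _ => KS) k
    (fun n' ih => stepTok ih (Nat.shiftRight c (Nat.mul n' 32))) n

/-- The final test: all nodes are closed and the family of the top level (which holds exactly
the root summary) is bounded by the expected summary `(Rk, Fk, hk)`. -/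
noncomputable def finChk (Rk Fk hk : ℕ) : KS := fun _ RU FU FI hmax stk _ =>
  Stk.rec (motive := fun _ => Bool)
    (bb⟨bb⟨bb⟨Nat.ble FI c4095, Nat.ble hmax hk⟩, Nat.beq FU Fk⟩, Nat.beq RU Rk⟩)
    (fun _ _ _ _ _ _ _ => false) stk

/-- The machine: `K` tokens per chunk; the expected summary is `(Rk, Fk, hk)`. -/
noncomputable def mach (K : ℕ) (chunks : List ℕ) (Rk Fk hk : ℕ) : KS :=
  List.rec (motive := fun _ => KS) (finChk Rk Fk hk)
    (fun c _ ih => inner ih (Nat.shiftRight c 64) K) chunks

/-! ### Soundness -/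

/-- A continuation is sound if acceptance in a state whose accumulators are sound families
implies the expected summary. -/
def Sound (Rk Fk hk : ℕ) (k : KS) : Prop :=
  ∀ m RU FU FI hmax stk obl, k m RU FU FI hmax stk obl = true →
    FamB (sb 0 m) RU FU FI hmax → AllFam stk → AllF obl → FWin Rk Fk hk

theorem bb_true {x y : Bool} (h : Bool.rec (motive := fun _ => Bool) false x y = true) :
    y = true ∧ x = true := by
  cases y
  · exact Bool.noConfusion h
  · exact ⟨rfl, h⟩

theorem shl_one_eq (m : ℕ) : Nat.shiftLeft 1 m = 2 ^ m := Nat.one_shiftLeft m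

theorem tb_pow_self (m : ℕ) : tb (2 ^ m) m = true := Nat.testBit_two_pow_self

theorem tb_pow_ne {m c : ℕ} (h : c ≠ m) : tb (2 ^ m) c = false := by
  show Nat.testBit (2 ^ m) c = false
  rw [Nat.testBit_two_pow]
  exact decide_eq_false (fun h' => h h'.symm)

theorem tb_clear (S m c : ℕ) (hc : tb S c = true) (hcm : c ≠ m) :
    tb (Nat.land S (Nat.xor S (Nat.shiftLeft 1 m))) c = true := by
  show Nat.testBit (S &&& (S ^^^ Nat.shiftLeft 1 m)) c = true
  rw [Nat.testBit_and, Nat.testBit_xor, shl_one_eq]
  have h1 : Nat.testBit S c = true := hc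
  have h2 : Nat.testBit (2 ^ m) c = false := tb_pow_ne hcm
  rw [h1, h2]
  rfl

theorem sound_fold {Rk Fk hk : ℕ} {ih : KS} (hs : Sound Rk Fk hk ih) (R F h : ℕ)
    (hw : FWin R F h) : Sound Rk Fk hk (foldK ih R F h) := by
  intro m RU FU FI hmax stk obl hrun hf hstk hobl
  obtain ⟨hc, hih⟩ := bb_true hrun
  have h1 : hmax + (h - hmax) + 0 * ((RU ||| R) ||| (FI &&& F)) +
      22 * ((FU ||| F) &&& Nat.shiftLeft 1 m) ≤ 21 := Nat.le_of_ble_eq_true hc
  have hX : (FU ||| F) &&& Nat.shiftLeft 1 m = 0 := by omega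
  have hFm : tb F m = false := by
    have h2 : Nat.testBit ((FU ||| F) &&& Nat.shiftLeft 1 m) m = false := by
      rw [hX]; exact Nat.zero_testBit m
    rw [Nat.testBit_and, shl_one_eq, Nat.testBit_two_pow_self, Bool.and_true,
      Nat.testBit_or] at h2
    cases hF : tb F m with
    | false => rfl
    | true =>
      have hF' : Nat.testBit F m = true := hF
      rw [hF', Bool.or_true] at h2
      exact Bool.noConfusion h2
  have hm : ∀ c, tb F c = true → tb (sb 0 m) c = false := by
    intro c hc'
    cases hsb : tb (sb 0 m) c with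
    | false => rfl
    | true =>
      rcases (tb_sb 0 m c).mp hsb with h | h
      · rw [tb_zero] at h; exact Bool.noConfusion h
      · rw [h, hFm] at hc'; exact Bool.noConfusion hc'
  have hadd := FamB.add hf hw hm
  have hfam : FamB (sb 0 m) (Nat.lor RU R) (Nat.lor FU F) (Nat.land FI F)
      (Nat.add hmax (Nat.sub h hmax)) :=
    hadd.mono (fun _ hc => hc) (fun _ hc => hc) hadd.1 (fun _ hc => hc)
      (Nat.max_le.mpr ⟨Nat.le_add_right _ _, by show h ≤ hmax + (h - hmax); omega⟩)
  exact hs m _ _ _ _ stk obl hih hfam hstk hobl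

theorem leaf_fwin (w : ℕ) (hwrap : wrapOK w = true) : FWin (lR w) (bA w) 1 := by
  have ho : Nat.land (Nat.shiftRight w 15) 7 < 8 :=
    Nat.lt_succ_of_le (Nat.and_le_right (n := Nat.shiftRight w 15) (m := 7))
  have hm : fA w < 4096 :=
    Nat.lt_succ_of_le (Nat.and_le_right (n := Nat.shiftRight w 3) (m := 4095))
  have ht : Nat.land (Nat.shiftRight w 18) 4095 % 64 ≤ 59 := by
    have h1 : Nat.shiftRight w 18 &&& 63 ≤ 59 := Nat.le_of_ble_eq_true hwrap
    have e1 : Nat.shiftRight w 18 &&& 63 = Nat.shiftRight w 18 % 64 :=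
      Nat.and_two_pow_sub_one_eq_mod (Nat.shiftRight w 18) 6
    have e2 : Nat.land (Nat.shiftRight w 18) 4095 = Nat.shiftRight w 18 % 4096 :=
      Nat.and_two_pow_sub_one_eq_mod (Nat.shiftRight w 18) 12
    rw [e2, Nat.mod_mod_of_dvd _ (by norm_num : 64 ∣ 4096), ← e1]
    exact h1
  have key := FWin.winMask (R := lR w) ho ht hm (fun c hc => by
    by_cases hcm : c = fA w
    · exact Or.inl hcm
    · exact Or.inr (tb_clear _ _ c hc hcm))
  have e : bA w = sb 0 (fA w) := by
    show Nat.shiftLeft 1 (fA w) = 0 ||| 2 ^ fA w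
    rw [Nat.zero_or, shl_one_eq]
  rw [e]
  exact key

theorem sound_leaf {Rk Fk hk : ℕ} {ih : KS} (hs : Sound Rk Fk hk ih) (w : ℕ) :
    Sound Rk Fk hk (stepLeaf ih w) := by
  intro m RU FU FI hmax stk obl hrun hf hstk hobl
  obtain ⟨hwrap, hfold⟩ := bb_true hrun
  exact sound_fold hs (lR w) (bA w) 1 (leaf_fwin w hwrap) m RU FU FI hmax stk obl hfold hf
    hstk hobl

theorem sound_open {Rk Fk hk : ℕ} {ih : KS} (hs : Sound Rk Fk hk ih) (w : ℕ) :
    Sound Rk Fk hk (stepOpen ih w) := by
  intro m RU FU FI hmax stk obl hrun hf hstk hobl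
  exact hs (fA w) 0 0 full 0 (Stk.cons m RU FU FI hmax stk) obl hrun (FamB.nil _) ⟨hf, hstk⟩ hobl

theorem sound_close {Rk Fk hk : ℕ} {ih : KS} (hs : Sound Rk Fk hk ih) :
    Sound Rk Fk hk (stepClose ih) := by
  intro m RU FU FI hmax stk obl hrun hf hstk hobl
  obtain ⟨hchk, hrest⟩ := bb_true hrun
  have h1 : m + FI * 4096 ≤ 4095 := Nat.le_of_ble_eq_true hchk
  have hFI : FI = 0 := by omega
  have hm : m < 4096 := by omega
  cases stk with
  | nil => exact Bool.noConfusion hrest
  | cons m' RU' FU' FI' hmax' tl =>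
    obtain ⟨hf', htl⟩ := hstk
    have hnode := FWin.nodeB (R := Nat.land RU (Nat.xor RU (Nat.shiftLeft 1 m))) hf hFI hm
      (fun c hc => by
        by_cases hcm : c = m
        · exact Or.inr hcm
        · exact Or.inl (tb_clear RU m c hc hcm))
    have e : sb FU m = Nat.lor FU (Nat.shiftLeft 1 m) := by
      show FU ||| 2 ^ m = FU ||| Nat.shiftLeft 1 m
      rw [shl_one_eq]
    rw [e] at hnode
    exact sound_fold hs _ _ _ hnode m' RU' FU' FI' hmax' tl obl hrest hf' htl hobl

theorem sound_ref {Rk Fk hk : ℕ} {ih : KS} (hs : Sound Rk Fk hk ih) :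
    Sound Rk Fk hk (stepRef ih) := by
  intro m RU FU FI hmax stk obl hrun hf hstk hobl
  cases obl with
  | nil => exact Bool.noConfusion hrun
  | cons R F h obl' =>
    obtain ⟨hw, hobl'⟩ := hobl
    exact sound_fold hs R F h hw m RU FU FI hmax stk obl' hrun hf hstk hobl'

theorem sound_tok {Rk Fk hk : ℕ} {ih : KS} (hs : Sound Rk Fk hk ih) (w : ℕ) :
    Sound Rk Fk hk (stepTok ih w) := by
  unfold stepTok
  generalize Nat.land w 7 = tag
  rcases tag with _ | _ | _ | _ | n
  · exact sound_leaf hs w
  · exact sound_open hs w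
  · exact sound_close hs
  · exact sound_ref hs
  · exact hs

theorem sound_inner {Rk Fk hk : ℕ} {k : KS} (hs : Sound Rk Fk hk k) (c : ℕ) :
    ∀ n, Sound Rk Fk hk (inner k c n) := by
  intro n
  induction n with
  | zero => exact hs
  | succ n ih => exact sound_tok ih _

theorem sound_fin (Rk Fk hk : ℕ) : Sound Rk Fk hk (finChk Rk Fk hk) := by
  intro m RU FU FI hmax stk obl hrun hf hstk hobl
  cases stk with
  | cons => exact Bool.noConfusion hrun
  | nil =>
    obtain ⟨h1, hrun⟩ := bb_true hrun
    obtain ⟨h2, hrun⟩ := bb_true hrun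
    obtain ⟨h3, h4⟩ := bb_true hrun
    have e1 : RU = Rk := Nat.eq_of_beq_eq_true h1
    have e2 : FU = Fk := Nat.eq_of_beq_eq_true h2
    have e3 : hmax ≤ hk := Nat.le_of_ble_eq_true h3
    have e4 : FI ≤ 2 ^ 4095 - 1 := Nat.le_of_ble_eq_true h4
    subst e1 e2
    have hlt : FI < 2 ^ 4095 := Nat.lt_of_le_of_lt e4 (Nat.sub_lt (Nat.two_pow_pos _) Nat.one_pos)
    have hbit : tb FI 4095 = false := Nat.testBit_lt_two_pow hlt
    have hw := FWin.ofFamB hf hbit
    exact hw.mono (fun _ hc => hc) (fun _ hc => hc) hw.1 e3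

theorem sound_mach (K Rk Fk hk : ℕ) :
    ∀ chunks : List ℕ, Sound Rk Fk hk (mach K chunks Rk Fk hk) := by
  intro chunks
  induction chunks with
  | nil => exact sound_fin Rk Fk hk
  | cons c cs ih => exact sound_inner ih _ K

/-- If the machine accepts the certificate stream, the expected summary is sound. -/
theorem fwin_of_mach {K : ℕ} {chunks : List ℕ} {Rk Fk hk : ℕ} {obl : Obl}
    (h : mach K chunks Rk Fk hk 4096 0 0 full 0 Stk.nil obl = true) (ho : AllF obl) :
    FWin Rk Fk hk :=
  sound_mach K Rk Fk hk chunks 4096 0 0 full 0 Stk.nil obl h (FamB.nil _) trivial ho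

end Crest.Agent.S0047
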