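import Mathlib

/-!
# S0066 (row 47): the "zig-zag" design — definitions

Index types `Row h`, `Col h` (finite linear orders of cardinality `(386 h + 2) 2^h` for `h ≥ 1`),
the matrix `M h : Row h → Col h → Bool`, and the fixed pattern `H66`.

Blueprint: `blueprints/row47.md` (helper8).  Everything here is definitional; no proof of the
result.
-/

set_option autoImplicit false

namespace Crest.Agent.S0066

/-! ### Thresholds and digits (addresses are natural numbers `< 2^h`) -/

/-- The threshold `Θ_k(x)`: `start_k(x)` for `k ≤ h`, `end_{2h+1-k}(x)+1` for `k > h`. -/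
def Th (h k x : ℕ) : ℕ :=
  if k ≤ h then x / 2 ^ (h - k) * 2 ^ (h - k) else (x / 2 ^ (k - h - 1) + 1) * 2 ^ (k - h - 1)

/-- The digit of `x` read at step `k` (digit `k+1` for `k < h`, digit `2h+1-k` for `k > h`);
irrelevant for `k = h`. -/
def bit (h k x : ℕ) : ℕ :=
  if k < h then x / 2 ^ (h - k - 1) % 2 else x / 2 ^ (k - h - 1) % 2

/-- The digit condition at step `k`: the line with address `x` is read with digit `d`. At the
middle step `k = h` there is no digit: only `d = 0` is accepted. -/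
def dg (h k x d : ℕ) : Prop := (k = h ∧ d = 0) ∨ (k ≠ h ∧ bit h k x = d)

instance (h k x d : ℕ) : Decidable (dg h k x d) := by unfold dg; infer_instance

/-! ### Index types -/

/-- Number of filler (all-zero) rows. -/
@[irreducible] def fillR (h : ℕ) : ℕ := (373 * h - 131) * 2 ^ h
/-- Number of filler (all-zero) columns. -/
@[irreducible] def fillC (h : ℕ) : ℕ := (369 * h - 136) * 2 ^ h

/-- Rows. `zero j t`: 63 all-zero twin classes; `fill`: filler zero rows; `tau k t` (`τ_k`,
non-zero only for even `k`), `rho k d t` (`ρ_k^d`): twin classes of step `k`; `spec x a`: the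
special row `R(x,a)` of leaf `x` and class `a`. -/
inductive Row (h : ℕ) : Type
  | zero (j : Fin 63) (t : Fin (2 * 2 ^ h))
  | fill (t : Fin (fillR h))
  | tau (k : Fin (2 * h + 1)) (t : Fin (2 * 2 ^ h))
  | rho (k : Fin (2 * h + 1)) (d : Fin 2) (t : Fin (2 * 2 ^ h))
  | spec (x : Fin (2 ^ h)) (a : Fin (h + 1))

/-- Columns. `lam t`: the twin class `Λ`; `spec u b`: the special column `C(u, b+1)` of group `u`
and class `b+1 ∈ [1,h]`; `om e t`: the twin classes `Ω^e`; `gam k d t` (`γ_k^d`), `tt k t`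
(`t_k`, non-zero only for odd `k`), `psi k t` (`ψ_k`): twin classes of step `k`; `zero j t`: 62
all-zero twin classes; `fill`: filler zero columns. -/
inductive Col (h : ℕ) : Type
  | lam (t : Fin (2 * 2 ^ h))
  | spec (u : Fin (2 ^ h)) (b : Fin h)
  | om (e : Fin 2) (t : Fin (2 * 2 ^ h))
  | gam (k : Fin (2 * h + 1)) (d : Fin 2) (t : Fin (2 * 2 ^ h))
  | tt (k : Fin (2 * h + 1)) (t : Fin (2 * 2 ^ h))
  | psi (k : Fin (2 * h + 1)) (t : Fin (2 * 2 ^ h))
  | zero (j : Fin 62) (t : Fin (2 * 2 ^ h))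
  | fill (t : Fin (fillC h))

/-- Position of the twin class `Ω^e` among the column groups (in half-groups): `Ω^0` sits just
before group `2^(h-1)`, `Ω^1` after all groups. -/
def omPos (h : ℕ) (e : Fin 2) : ℕ := (1 + e.val) * 2 ^ h

theorem omPos_eq (h : ℕ) (e : Fin 2) :
    (e.val = 0 ∧ omPos h e = 2 ^ h) ∨ (e.val = 1 ∧ omPos h e = 2 * 2 ^ h) := by
  unfold omPos
  rcases (by omega : e.val = 0 ∨ e.val = 1) with h0 | h0 <;> simp [h0]

variable {h : ℕ}

/-- Lexicographic comparison of 4-tuples of naturals, spelled out. -/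
def lex4 (p q : ℕ × ℕ × ℕ × ℕ) : Prop :=
  p.1 < q.1 ∨ (p.1 = q.1 ∧ (p.2.1 < q.2.1 ∨ (p.2.1 = q.2.1 ∧
    (p.2.2.1 < q.2.2.1 ∨ (p.2.2.1 = q.2.2.1 ∧ p.2.2.2 < q.2.2.2)))))

/-- The 4-tuple as an element of the lexicographic product. -/
def toKey (p : ℕ × ℕ × ℕ × ℕ) : ℕ ×ₗ ℕ ×ₗ ℕ ×ₗ ℕ :=
  toLex (p.1, toLex (p.2.1, toLex (p.2.2.1, p.2.2.2)))

theorem toKey_injective : Function.Injective toKey := by
  rintro ⟨a, b, c, d⟩ ⟨a', b', c', d'⟩ hpq
  simpa [toKey, Prod.ext_iff] using hpq

theorem toKey_lt (p q : ℕ × ℕ × ℕ × ℕ) : toKey p < toKey q ↔ lex4 p q := by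
  simp only [toKey, lex4, Prod.Lex.toLex_lt_toLex]

namespace Row

/-- Sum-of-products normal form of `Row h`. -/
def equivSum : Row h ≃ (Fin 63 × Fin (2 * 2 ^ h)) ⊕ Fin (fillR h) ⊕
    (Fin (2 * h + 1) × Fin (2 * 2 ^ h)) ⊕ (Fin (2 * h + 1) × Fin 2 × Fin (2 * 2 ^ h)) ⊕
    (Fin (2 ^ h) × Fin (h + 1)) where
  toFun
    | zero j t => .inl (j, t)
    | fill t => .inr (.inl t)
    | tau k t => .inr (.inr (.inl (k, t)))
    | rho k d t => .inr (.inr (.inr (.inl (k, d, t))))
    | spec x a => .inr (.inr (.inr (.inr (x, a))))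
  invFun
    | .inl (j, t) => zero j t
    | .inr (.inl t) => fill t
    | .inr (.inr (.inl (k, t))) => tau k t
    | .inr (.inr (.inr (.inl (k, d, t)))) => rho k d t
    | .inr (.inr (.inr (.inr (x, a)))) => spec x a
  left_inv r := by cases r <;> rfl
  right_inv s := by rcases s with ⟨j, t⟩ | t | ⟨k, t⟩ | ⟨k, d, t⟩ | ⟨x, a⟩ <;> rfl

instance : Fintype (Row h) := Fintype.ofEquiv _ equivSum.symm
instance : DecidableEq (Row h) := equivSum.decidableEq

theorem card (h1 : 1 ≤ h) : Fintype.card (Row h) = (386 * h + 2) * 2 ^ h := by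
  rw [Fintype.card_congr equivSum]
  simp only [Fintype.card_sum, Fintype.card_prod, Fintype.card_fin]
  have hF : fillR h = (373 * h - 131) * 2 ^ h := by unfold fillR; rfl
  rw [hF]
  obtain ⟨F, hF⟩ : ∃ F, 373 * h = F + 131 := ⟨373 * h - 131, by omega⟩
  have : 373 * h - 131 = F := by omega
  rw [this]
  generalize 2 ^ h = N
  nlinarith [hF]

/-- The position key of a row (lexicographic). -/
def k4 : Row h → ℕ × ℕ × ℕ × ℕ
  | zero j t => (0, j.val, t.val, 0)
  | fill t => (0, 63, t.val, 0)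
  | tau k t => (1, k.val, 0, t.val)
  | rho k d t => (1, k.val, 1 + d.val, t.val)
  | spec x a => (2, x.val, h - a.val, 0)

theorem k4_injective : Function.Injective (k4 (h := h)) := by
  intro r r' hk
  cases r <;> cases r' <;> simp only [k4, Prod.mk.injEq] at hk <;> (try omega) <;>
    (congr 1 <;> apply Fin.ext <;> omega)

instance : LinearOrder (Row h) :=
  LinearOrder.lift' (fun r => toKey (k4 r)) (toKey_injective.comp k4_injective)

theorem lt_iff (r r' : Row h) : r < r' ↔ lex4 (k4 r) (k4 r') := toKey_lt _ _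

end Row

namespace Col

/-- Sum-of-products normal form of `Col h`. -/
def equivSum : Col h ≃ Fin (2 * 2 ^ h) ⊕ (Fin (2 ^ h) × Fin h) ⊕ (Fin 2 × Fin (2 * 2 ^ h)) ⊕
    (Fin (2 * h + 1) × Fin 2 × Fin (2 * 2 ^ h)) ⊕ (Fin (2 * h + 1) × Fin (2 * 2 ^ h)) ⊕
    (Fin (2 * h + 1) × Fin (2 * 2 ^ h)) ⊕ (Fin 62 × Fin (2 * 2 ^ h)) ⊕ Fin (fillC h) where
  toFun
    | lam t => .inl t
    | spec u b => .inr (.inl (u, b))
    | om e t => .inr (.inr (.inl (e, t)))
    | gam k d t => .inr (.inr (.inr (.inl (k, d, t))))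
    | tt k t => .inr (.inr (.inr (.inr (.inl (k, t)))))
    | psi k t => .inr (.inr (.inr (.inr (.inr (.inl (k, t))))))
    | zero j t => .inr (.inr (.inr (.inr (.inr (.inr (.inl (j, t)))))))
    | fill t => .inr (.inr (.inr (.inr (.inr (.inr (.inr t))))))
  invFun
    | .inl t => lam t
    | .inr (.inl (u, b)) => spec u b
    | .inr (.inr (.inl (e, t))) => om e t
    | .inr (.inr (.inr (.inl (k, d, t)))) => gam k d t
    | .inr (.inr (.inr (.inr (.inl (k, t))))) => tt k t
    | .inr (.inr (.inr (.inr (.inr (.inl (k, t)))))) => psi k t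
    | .inr (.inr (.inr (.inr (.inr (.inr (.inl (j, t))))))) => zero j t
    | .inr (.inr (.inr (.inr (.inr (.inr (.inr t)))))) => fill t
  left_inv c := by cases c <;> rfl
  right_inv s := by
    rcases s with t | ⟨u, b⟩ | ⟨e, t⟩ | ⟨k, d, t⟩ | ⟨k, t⟩ | ⟨k, t⟩ | ⟨j, t⟩ | t <;> rfl

instance : Fintype (Col h) := Fintype.ofEquiv _ equivSum.symm
instance : DecidableEq (Col h) := equivSum.decidableEq

theorem card (h1 : 1 ≤ h) : Fintype.card (Col h) = (386 * h + 2) * 2 ^ h := by
  rw [Fintype.card_congr equivSum]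
  simp only [Fintype.card_sum, Fintype.card_prod, Fintype.card_fin]
  have hF : fillC h = (369 * h - 136) * 2 ^ h := by unfold fillC; rfl
  rw [hF]
  obtain ⟨F, hF⟩ : ∃ F, 369 * h = F + 136 := ⟨369 * h - 136, by omega⟩
  have : 369 * h - 136 = F := by omega
  rw [this]
  generalize 2 ^ h = N
  nlinarith [hF]

/-- The position key of a column (lexicographic). `Ω^0` sits just before group `2^(h-1)`,
`Ω^1` after all groups. -/
def k4 : Col h → ℕ × ℕ × ℕ × ℕ
  | lam t => (0, 0, 0, t.val)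
  | spec u b => (1, 2 * u.val + 1, b.val, 0)
  | om e t => (1, omPos h e, h, t.val + 1)
  | gam k d t => (2, k.val, d.val, t.val)
  | tt k t => (2, k.val, 2, t.val)
  | psi k t => (2, k.val, 3, t.val)
  | zero j t => (3, j.val, t.val, 0)
  | fill t => (3, 62, t.val, 0)

theorem k4_injective : Function.Injective (k4 (h := h)) := by
  intro c c' hk
  cases c <;> cases c' <;> simp only [k4, Prod.mk.injEq] at hk <;> (try omega)
  case om.om e t e' t' =>
    have h1 := omPos_eq h e
    have h2 := omPos_eq h e'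
    have hpos : 0 < 2 ^ h := Nat.two_pow_pos h
    congr 1 <;> apply Fin.ext <;> omega
  all_goals (congr 1 <;> apply Fin.ext <;> omega)

instance : LinearOrder (Col h) :=
  LinearOrder.lift' (fun c => toKey (k4 c)) (toKey_injective.comp k4_injective)

theorem lt_iff (c c' : Col h) : c < c' ↔ lex4 (k4 c) (k4 c') := toKey_lt _ _

end Col

/-! ### The matrix -/

/-- The matrix `A` of the design (entries not listed are `false`). -/
def M (h : ℕ) : Row h → Col h → Bool
  -- special rows
  | .spec _ a, .lam _ => decide (a.val = 0)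
  | .spec x a, .spec u b =>
      decide ((b.val + 1 = a.val ∧ Th h (2 * a.val) x.val ≤ u.val) ∨
        (b.val = a.val ∧ Th h (2 * a.val + 1) x.val ≤ u.val))
  | .spec x a, .gam k d _ =>
      decide ((k.val + 1 = 2 * a.val ∨ k.val = 2 * a.val) ∧ dg h k.val x.val d.val)
  | .spec _ a, .tt k _ => decide (k.val + 1 = 2 * a.val ∨ k.val = 2 * a.val + 1)
  | .spec _ a, .psi k _ =>
      decide (k.val + 1 = 2 * a.val ∨ k.val = 2 * a.val ∨ k.val = 2 * a.val + 1)
  -- the rows `ρ_k^d`
  | .rho k d _, .spec u b => decide (b.val = k.val / 2 ∧ dg h k.val u.val d.val)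
  | .rho k d _, .om e _ => decide (k.val = 2 * h ∧ e = d)
  | .rho k d _, .gam k' d' _ => decide (k' = k ∧ d' = d)
  | .rho k _ _, .psi k' _ => decide (k' = k)
  -- the rows `τ_k` (`k` even)
  | .tau k _, .lam _ => decide (k.val = 0)
  | .tau k _, .spec _ b =>
      decide (k.val % 2 = 0 ∧ (b.val + 1 = k.val / 2 ∨ b.val = k.val / 2))
  | .tau k _, .om _ _ => decide (k.val = 2 * h)
  | .tau k _, .psi k' _ => decide (k.val % 2 = 0 ∧ k' = k)
  | _, _ => false

/-- The core pattern `K = [1101; 0111; 1011]` on naturals (`i < 3`, `j < 4`). -/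
def Kc (i j : ℕ) : Prop :=
  j < 4 ∧ ((i = 0 ∧ j ≠ 2) ∨ (i = 1 ∧ j ≠ 0) ∨ (i = 2 ∧ j ≠ 1))

instance (i j : ℕ) : Decidable (Kc i j) := by unfold Kc; infer_instance

/-- The fixed pattern: zero except for the core `K` at rows `63,64,65` × columns `0,1,2,3`. -/
def H66 : Fin 66 → Fin 66 → Bool := fun i j => decide (63 ≤ i.val ∧ Kc (i.val - 63) j.val)

/-- Generates the equation lemmas of `M` in this module, so that the modules using them share
one copy (no proof content). -/
theorem M_eqns_here : True := (fun _ => trivial) @M.eq_1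

end Crest.Agent.S0066
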