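import Mathlib

/-!
# S0066 (row 47): threshold arithmetic of the zig-zag design

Addresses are natural numbers `x, u < 2^h`.  `dstart h j x` is the left end of the level-`j`
dyadic interval of `x` (length `2^(h-j)`), `Theta h k x` the thresholds
`Θ_0 = 0 ≤ Θ_1 = start_1 ≤ … ≤ Θ_h = x < Θ_{h+1} = x+1 ≤ … ≤ Θ_{2h} = end_1+1 ≤ Θ_{2h+1} = 2^h`,
`dig h j x` the `j`-th most significant binary digit (`1 ≤ j ≤ h`), `mu h k` the digit index read at
step `k`.

Main facts: `Theta_mono_x`, `Theta_mono_k`, `Theta_self`, `Theta_succ_self`,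
`Theta_le_iff_low`, `Theta_le_iff_high` (prefix comparisons), and `factZ`:
`Θ_k(x) ≤ u < Θ_{k+1}(x)` together with agreement of the digit `mu h k` forces `k = h ∧ u = x`.
-/

set_option autoImplicit false

namespace Crest.Agent.S0066

/-- Left end of the level-`j` dyadic interval of `x` (interval length `2^(h-j)`). -/
def dstart (h j x : ℕ) : ℕ := x / 2 ^ (h - j) * 2 ^ (h - j)

/-- The thresholds `Θ_k(x)`, `0 ≤ k ≤ 2h+1`. -/
def Theta (h k x : ℕ) : ℕ :=
  if k ≤ h then dstart h k x else dstart h (2 * h + 1 - k) x + 2 ^ (h - (2 * h + 1 - k))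

/-- The `j`-th most significant binary digit of `x < 2^h` (`1 ≤ j ≤ h`). -/
def dig (h j x : ℕ) : ℕ := x / 2 ^ (h - j) % 2

/-- The digit index read at step `k` (irrelevant for `k = h`). -/
def mu (h k : ℕ) : ℕ := if k < h then k + 1 else 2 * h + 1 - k

theorem dig_lt_two (h j x : ℕ) : dig h j x < 2 := Nat.mod_lt _ (by norm_num)

theorem mu_of_lt {h k : ℕ} (hk : k < h) : mu h k = k + 1 := by simp [mu, hk]

theorem mu_of_gt {h k : ℕ} (hk : h < k) : mu h k = 2 * h + 1 - k := by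
  simp [mu, Nat.not_lt.mpr hk.le]

theorem dstart_le (h j x : ℕ) : dstart h j x ≤ x := Nat.div_mul_le_self _ _

theorem lt_dstart_add (h j x : ℕ) : x < dstart h j x + 2 ^ (h - j) := by
  unfold dstart
  have hp : 0 < 2 ^ (h - j) := by positivity
  have := Nat.lt_div_mul_add (a := x) hp
  omega

theorem dstart_mono {h j x y : ℕ} (hxy : x ≤ y) : dstart h j x ≤ dstart h j y :=
  Nat.mul_le_mul_right _ (Nat.div_le_div_right hxy)

theorem dstart_self (h x : ℕ) : dstart h h x = x := by simp [dstart]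

theorem dstart_zero {h x : ℕ} (hx : x < 2 ^ h) : dstart h 0 x = 0 := by
  simp [dstart, Nat.div_eq_of_lt hx]

/-- `start_j(x) ≤ u` iff the length-`j` prefix of `x` is `≤` that of `u`. -/
theorem dstart_le_iff (h j x u : ℕ) : dstart h j x ≤ u ↔ x / 2 ^ (h - j) ≤ u / 2 ^ (h - j) := by
  unfold dstart
  have hp : 0 < 2 ^ (h - j) := by positivity
  exact (Nat.le_div_iff_mul_le hp).symm

/-- `end_j(x) + 1 ≤ u` iff the length-`j` prefix of `x` is `<` that of `u`. -/
theorem dstart_add_le_iff (h j x u : ℕ) :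
    dstart h j x + 2 ^ (h - j) ≤ u ↔ x / 2 ^ (h - j) < u / 2 ^ (h - j) := by
  unfold dstart
  have hp : 0 < 2 ^ (h - j) := by positivity
  rw [Nat.lt_iff_add_one_le, Nat.le_div_iff_mul_le hp, Nat.add_mul, Nat.one_mul]

/-- Coarser starts are smaller. -/
theorem dstart_mono_level {h j j' : ℕ} (x : ℕ) (hjj : j ≤ j') (hj : j' ≤ h) :
    dstart h j x ≤ dstart h j' x := by
  rw [dstart_le_iff]
  obtain ⟨d, hd⟩ : ∃ d, h - j = (h - j') + d := ⟨j' - j, by omega⟩
  have hp : 0 < 2 ^ (h - j') := by positivity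
  have h1 : dstart h j' x / 2 ^ (h - j') = x / 2 ^ (h - j') := by
    unfold dstart; exact Nat.mul_div_cancel _ hp
  rw [hd, pow_add, ← Nat.div_div_eq_div_mul, ← Nat.div_div_eq_div_mul, h1]

/-- Coarser ends are larger. -/
theorem dend_mono_level {h j j' : ℕ} (x : ℕ) (hjj : j ≤ j') (hj : j' ≤ h) :
    dstart h j' x + 2 ^ (h - j') ≤ dstart h j x + 2 ^ (h - j) := by
  obtain ⟨d, hd⟩ : ∃ d, h - j = (h - j') + d := ⟨j' - j, by omega⟩
  have hp : 0 < 2 ^ (h - j') := by positivity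
  have hd0 : 0 < 2 ^ d := by positivity
  -- x / p ≤ (x / (p * 2^d)) * 2^d + (2^d - 1)
  have h1 : x / 2 ^ (h - j') < (x / 2 ^ (h - j) + 1) * 2 ^ d := by
    rw [hd, pow_add, ← Nat.div_div_eq_div_mul]
    exact Nat.lt_mul_of_div_lt (Nat.lt_succ_self _) hd0
  unfold dstart
  calc x / 2 ^ (h - j') * 2 ^ (h - j') + 2 ^ (h - j')
      = (x / 2 ^ (h - j') + 1) * 2 ^ (h - j') := by ring
    _ ≤ ((x / 2 ^ (h - j) + 1) * 2 ^ d) * 2 ^ (h - j') := Nat.mul_le_mul_right _ h1
    _ = x / 2 ^ (h - j) * 2 ^ (h - j) + 2 ^ (h - j) := by rw [hd, pow_add]; ring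

theorem Theta_of_le {h k : ℕ} (x : ℕ) (hk : k ≤ h) : Theta h k x = dstart h k x := by
  simp [Theta, hk]

theorem Theta_of_gt {h k : ℕ} (x : ℕ) (hk : h < k) :
    Theta h k x = dstart h (2 * h + 1 - k) x + 2 ^ (h - (2 * h + 1 - k)) := by
  simp [Theta, Nat.not_le.mpr hk]

@[simp] theorem Theta_self (h x : ℕ) : Theta h h x = x := by
  rw [Theta_of_le x le_rfl, dstart_self]

@[simp] theorem Theta_succ_self (h x : ℕ) : Theta h (h + 1) x = x + 1 := by
  rw [Theta_of_gt x (Nat.lt_succ_self h)]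
  have : 2 * h + 1 - (h + 1) = h := by omega
  rw [this, dstart_self]; simp

theorem Theta_zero {h x : ℕ} (hx : x < 2 ^ h) : Theta h 0 x = 0 := by
  rw [Theta_of_le x (Nat.zero_le h), dstart_zero hx]

theorem Theta_top {h x : ℕ} (hx : x < 2 ^ h) : Theta h (2 * h + 1) x = 2 ^ h := by
  rw [Theta_of_gt x (by omega)]
  have : 2 * h + 1 - (2 * h + 1) = 0 := by omega
  rw [this, dstart_zero hx]; simp

/-- `Θ_k` is monotone in the address. -/
theorem Theta_mono_x {h k x y : ℕ} (hxy : x ≤ y) : Theta h k x ≤ Theta h k y := by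
  unfold Theta
  split
  · exact dstart_mono hxy
  · exact Nat.add_le_add_right (dstart_mono hxy) _

/-- Prefix form of `G_k` for `k ≤ h`. -/
theorem Theta_le_iff_low {h k : ℕ} (x u : ℕ) (hk : k ≤ h) :
    Theta h k x ≤ u ↔ x / 2 ^ (h - k) ≤ u / 2 ^ (h - k) := by
  rw [Theta_of_le x hk, dstart_le_iff]

/-- Prefix form of `G_k` for `k > h` (with `j = 2h+1-k`). -/
theorem Theta_le_iff_high {h k : ℕ} (x u : ℕ) (hk : h < k) :
    Theta h k x ≤ u ↔
      x / 2 ^ (h - (2 * h + 1 - k)) < u / 2 ^ (h - (2 * h + 1 - k)) := by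
  rw [Theta_of_gt x hk, dstart_add_le_iff]

/-- `Θ_k ≤ Θ_{k'}` for `k ≤ k' ≤ 2h+1`. -/
theorem Theta_mono_k {h k k' : ℕ} (x : ℕ) (hkk : k ≤ k') (hk' : k' ≤ 2 * h + 1) :
    Theta h k x ≤ Theta h k' x := by
  rcases Nat.lt_or_ge h k with hk | hk
  · -- both above h
    rw [Theta_of_gt x hk, Theta_of_gt x (lt_of_lt_of_le hk hkk)]
    exact dend_mono_level x (by omega) (by omega)
  · rcases Nat.lt_or_ge h k' with hk2 | hk2
    · rw [Theta_of_le x hk, Theta_of_gt x hk2]
      exact le_trans (dstart_le h k x) (lt_dstart_add h _ x).le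
    · rw [Theta_of_le x hk, Theta_of_le x hk2]
      exact dstart_mono_level x hkk hk2

theorem Theta_le_pow {h k x : ℕ} (hx : x < 2 ^ h) (hk : k ≤ 2 * h + 1) : Theta h k x ≤ 2 ^ h := by
  rw [← Theta_top hx]; exact Theta_mono_k x hk le_rfl

/-- `Θ_{2h}(x) = end_1(x)+1` is `2^(h-1)` for `x` in the left half and `2^h` in the right half. -/
theorem Theta_two_mul {h x : ℕ} (h1 : 1 ≤ h) (hx : x < 2 ^ h) :
    Theta h (2 * h) x = if dig h 1 x = 0 then 2 ^ (h - 1) else 2 ^ h := by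
  rw [Theta_of_gt x (by omega)]
  have e : 2 * h + 1 - 2 * h = 1 := by omega
  rw [e]
  unfold dstart dig
  have hp : 0 < 2 ^ (h - 1) := by positivity
  have h2 : 2 ^ h = 2 ^ (h - 1) * 2 := by
    rw [← pow_succ]; congr 1; omega
  have hlt : x / 2 ^ (h - 1) < 2 := by
    rw [Nat.div_lt_iff_lt_mul hp]; omega
  rcases Nat.lt_succ_iff.mp hlt with hq
  interval_cases hq' : x / 2 ^ (h - 1)
  · simp
  · simp [h2]; ring

/-- **Fact Z.** A column address `u` in the zone `[Θ_k(x), Θ_{k+1}(x))` of `x` whose digit `mu h k`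
agrees with that of `x` (no condition for `k = h`) exists only for `k = h`, `u = x`. -/
theorem factZ {h k x u : ℕ} (hk : k ≤ 2 * h)
    (h1 : Theta h k x ≤ u) (h2 : u < Theta h (k + 1) x)
    (hd : k = h ∨ dig h (mu h k) u = dig h (mu h k) x) : k = h ∧ u = x := by
  rcases Nat.lt_trichotomy k h with hlt | rfl | hgt
  · exfalso
    have hd' : dig h (k + 1) u = dig h (k + 1) x := by
      rcases hd with hd | hd
      · omega
      · rwa [mu_of_lt hlt] at hd
    rw [Theta_le_iff_low x u hlt.le] at h1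
    have h2' : ¬ Theta h (k + 1) x ≤ u := Nat.not_le.mpr h2
    rw [Theta_le_iff_low x u (Nat.succ_le_of_lt hlt)] at h2'
    unfold dig at hd'
    have e : h - k = (h - (k + 1)) + 1 := by omega
    rw [e, pow_succ, ← Nat.div_div_eq_div_mul, ← Nat.div_div_eq_div_mul] at h1
    generalize x / 2 ^ (h - (k + 1)) = B at *
    generalize u / 2 ^ (h - (k + 1)) = A at *
    omega
  · simp only [Theta_self, Theta_succ_self] at h1 h2
    exact ⟨rfl, by omega⟩
  · exfalso
    have hd' : dig h (2 * h + 1 - k) u = dig h (2 * h + 1 - k) x := by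
      rcases hd with hd | hd
      · omega
      · rwa [mu_of_gt hgt] at hd
    rw [Theta_le_iff_high x u hgt] at h1
    have h2' : ¬ Theta h (k + 1) x ≤ u := Nat.not_le.mpr h2
    rw [Theta_le_iff_high x u (by omega)] at h2'
    unfold dig at hd'
    have e1 : 2 * h + 1 - (k + 1) = (2 * h + 1 - k) - 1 := by omega
    have e : h - (2 * h + 1 - (k + 1)) = (h - (2 * h + 1 - k)) + 1 := by omega
    rw [e, pow_succ, ← Nat.div_div_eq_div_mul, ← Nat.div_div_eq_div_mul] at h2'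
    generalize x / 2 ^ (h - (2 * h + 1 - k)) = B at *
    generalize u / 2 ^ (h - (2 * h + 1 - k)) = A at *
    omega

/-! ### The Boolean form `G` used by the entry table

`G h k x u = [Θ_k(x) ≤ u]`; for addresses `< 2^h` one has `G 0 ≡ true` and `G (2h+1) ≡ false`,
so the twin classes `Λ = (u := 0, b := 0)` and `Ω^ε = (u := 2^(h-1)-1 resp. 2^h-1, b := h+1)` are
ordinary special columns. -/

/-- `G_k(x,u) = [u ≥ Θ_k(x)]`. -/
def G (h k x u : ℕ) : Bool := decide (Theta h k x ≤ u)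

theorem G_eq_true_iff {h k x u : ℕ} : G h k x u = true ↔ Theta h k x ≤ u := by simp [G]

theorem G_eq_false_iff {h k x u : ℕ} : G h k x u = false ↔ u < Theta h k x := by simp [G]

/-- `G_0 ≡ 1`. -/
theorem G_zero {h x : ℕ} (u : ℕ) (hx : x < 2 ^ h) : G h 0 x u = true := by
  rw [G_eq_true_iff, Theta_zero hx]; exact Nat.zero_le _

/-- `G_{2h+1} ≡ 0`. -/
theorem G_top {h x u : ℕ} (hx : x < 2 ^ h) (hu : u < 2 ^ h) : G h (2 * h + 1) x u = false := by
  rw [G_eq_false_iff, Theta_top hx]; exact hu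

/-- (M1) `G_{k+1} ⇒ G_k`. -/
theorem G_M1 {h k x u : ℕ} (hk : k ≤ 2 * h) (hG : G h (k + 1) x u = true) : G h k x u = true := by
  rw [G_eq_true_iff] at hG ⊢
  exact le_trans (Theta_mono_k x (Nat.le_succ k) (by omega)) hG

/-- (M1) iterated: `G_{k'} ⇒ G_k` for `k ≤ k' ≤ 2h+1`. -/
theorem G_M1' {h k k' x u : ℕ} (hkk : k ≤ k') (hk : k' ≤ 2 * h + 1) (hG : G h k' x u = true) :
    G h k x u = true := by
  rw [G_eq_true_iff] at hG ⊢
  exact le_trans (Theta_mono_k x hkk hk) hG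

/-- (M2) `G_k(x,·)` is monotone in the column address. -/
theorem G_M2 {h k x u u' : ℕ} (hG : G h k x u = true) (huu : u ≤ u') : G h k x u' = true := by
  rw [G_eq_true_iff] at hG ⊢
  exact le_trans hG huu

/-- (M3) `G_k(·,u)` is antitone in the row address. -/
theorem G_M3 {h k x x' u : ℕ} (hG : G h k x' u = true) (hxx : x ≤ x') : G h k x u = true := by
  rw [G_eq_true_iff] at hG ⊢
  exact le_trans (Theta_mono_x hxx) hG

/-- (Z), row-step form: `G_k(x,u1)`, `u1 ≤ u2`, `¬G_{k+1}(x,u2)` and agreement of the digit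
`mu h k` of `u2` and `x` force `k = h`, `u1 = u2 = x`. -/
theorem G_Z {h k x u1 u2 : ℕ} (hk : k ≤ 2 * h) (h1 : G h k x u1 = true) (h12 : u1 ≤ u2)
    (h2 : G h (k + 1) x u2 = false)
    (hd : k ≠ h → dig h (mu h k) u2 = dig h (mu h k) x) : k = h ∧ u1 = x ∧ u2 = x := by
  rw [G_eq_true_iff] at h1
  rw [G_eq_false_iff] at h2
  have hd' : k = h ∨ dig h (mu h k) u2 = dig h (mu h k) x := by
    by_cases hkh : k = h
    · exact Or.inl hkh
    · exact Or.inr (hd hkh)
  obtain ⟨rfl, rfl⟩ := factZ hk (le_trans h1 h12) h2 hd'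
  rw [Theta_self] at h1
  exact ⟨rfl, le_antisymm h12 h1, rfl⟩

/-- (ZC), column-step form: `G_k(x1,u)`, `x2 ≤ x1`, `¬G_{k+1}(x2,u)` and agreement of the digit
`mu h k` of `u` and `x2` force `k = h`, `u = x2 = x1`. -/
theorem G_ZC {h k x1 x2 u : ℕ} (hk : k ≤ 2 * h) (h1 : G h k x1 u = true) (h21 : x2 ≤ x1)
    (h2 : G h (k + 1) x2 u = false)
    (hd : k ≠ h → dig h (mu h k) u = dig h (mu h k) x2) : k = h ∧ u = x2 ∧ x1 = x2 := by
  rw [G_eq_true_iff] at h1
  rw [G_eq_false_iff] at h2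
  have hd' : k = h ∨ dig h (mu h k) u = dig h (mu h k) x2 := by
    by_cases hkh : k = h
    · exact Or.inl hkh
    · exact Or.inr (hd hkh)
  obtain ⟨rfl, rfl⟩ := factZ hk (le_trans (Theta_mono_x h21) h1) h2 hd'
  rw [Theta_self] at h1
  exact ⟨rfl, rfl, le_antisymm h1 h21⟩

/-- On the diagonal (`u = x`) the chain is natively `1` exactly for `k ≤ h`. -/
theorem G_diag {h k x : ℕ} (hk : k ≤ 2 * h + 1) : G h k x x = decide (k ≤ h) := by
  by_cases hkh : k ≤ h
  · simp only [hkh, decide_true]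
    rw [G_eq_true_iff]
    calc Theta h k x ≤ Theta h h x := Theta_mono_k x hkh (by omega)
      _ = x := Theta_self h x
  · simp only [hkh, decide_false]
    rw [G_eq_false_iff]
    calc x < Theta h (h + 1) x := by simp
      _ ≤ Theta h k x := Theta_mono_k x (by omega) hk

/-! ### Digits of the two `Ω` addresses -/

/-- The first digit is `0` exactly on the left half. -/
theorem dig_one_eq_zero_iff {h x : ℕ} (h1 : 1 ≤ h) (hx : x < 2 ^ h) :
    dig h 1 x = 0 ↔ x < 2 ^ (h - 1) := by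
  unfold dig
  have hp : 0 < 2 ^ (h - 1) := by positivity
  have h2 : 2 ^ h = 2 ^ (h - 1) * 2 := by
    rw [← pow_succ]; congr 1; omega
  have hlt : x / 2 ^ (h - 1) < 2 := by
    rw [Nat.div_lt_iff_lt_mul hp]; omega
  constructor
  · intro h0
    have : x / 2 ^ (h - 1) = 0 := by
      generalize x / 2 ^ (h - 1) = q at h0 hlt
      omega
    exact (Nat.div_eq_zero_iff_lt hp).mp this
  · intro hx'
    rw [Nat.div_eq_of_lt hx']

/-- `Ω⁰` sits at address `2^(h-1) - 1`, whose first digit is `0`. -/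
theorem dig_one_half_pred {h : ℕ} (h1 : 1 ≤ h) : dig h 1 (2 ^ (h - 1) - 1) = 0 := by
  have hp : 0 < 2 ^ (h - 1) := by positivity
  have h2 : 2 ^ h = 2 ^ (h - 1) * 2 := by
    rw [← pow_succ]; congr 1; omega
  exact (dig_one_eq_zero_iff h1 (by omega)).mpr (by omega)

/-- `Ω¹` sits at address `2^h - 1`, whose first digit is `1`. -/
theorem dig_one_top {h : ℕ} (h1 : 1 ≤ h) : dig h 1 (2 ^ h - 1) = 1 := by
  have hp : 0 < 2 ^ (h - 1) := by positivity
  have h2 : 2 ^ h = 2 ^ (h - 1) * 2 := by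
    rw [← pow_succ]; congr 1; omega
  have hne : ¬ dig h 1 (2 ^ h - 1) = 0 := by
    rw [dig_one_eq_zero_iff h1 (by omega)]; omega
  have := dig_lt_two h 1 (2 ^ h - 1)
  omega

end Crest.Agent.S0066
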