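import Mathlib
import Crest.Agent.S0066_Thresh

/-!
# S0066 (row 47): class-level description of the zig-zag matrix (helper8's design v2)

Twin lines are identical, so every entry of the matrix is a function of the *classes* of its row and
column.  This file fixes the class types `RC`, `CC`, the entry function `zzEntry`, the order keys of
the classes and the validity predicates.  Conventions (board #487, #497):

* rows: `zero z` (all-zero classes), `tau k` (`k` even), `rho k d`, `R x a` (special row of leaf `x`,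
  class `a ≤ h`);
* columns: `spec u b` (special column of group `u`, class `b ≤ h+1`; `Λ = spec 0 0`,
  `Ω⁰ = spec (2^(h-1)-1) (h+1)`, `Ω¹ = spec (2^h-1) (h+1)`), `gam k d`, `t k` (`k` odd), `psi k`,
  `zero z`;
* `R x a × spec u b = [b ∈ {a,a+1}] ∧ Θ_{a+b}(x) ≤ u`, etc.

Order: rows `zero < (tau k < rho k 0 < rho k 1)_k < R` (`R`: `x` major, `a` decreasing);
columns `spec` (`u` major, `b` increasing) `< (gam k 0 < gam k 1 < t k < psi k)_k < zero`.
-/

set_option autoImplicit false

namespace Crest.Agent.S0066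

/-- Row classes. -/
inductive RC where
  | zero (z : ℕ)
  | tau (k : ℕ)
  | rho (k : ℕ) (d : Bool)
  | R (x a : ℕ)
  deriving DecidableEq, Repr

/-- Column classes. -/
inductive CC where
  | spec (u b : ℕ)
  | gam (k : ℕ) (d : Bool)
  | t (k : ℕ)
  | psi (k : ℕ)
  | zero (z : ℕ)
  deriving DecidableEq, Repr

/-- `G_k(x,u) = [Θ_k(x) ≤ u]`. -/
def zzG (h k x u : ℕ) : Bool := decide (Theta h k x ≤ u)

/-- Digit condition `D(k,d,z)`: `d = 0` if `k = h`, else "digit `μ(k)` of `z` is `d`". -/
def zzD (h k : ℕ) (d : Bool) (z : ℕ) : Bool :=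
  if k = h then !d else decide (dig h (mu h k) z = d.toNat)

/-- The class-level entry function of the zig-zag matrix. -/
def zzEntry (h : ℕ) : RC → CC → Bool
  | .tau k, .spec _ b => decide (b = k / 2 ∨ b = k / 2 + 1)
  | .tau k, .psi k' => decide (k' = k)
  | .rho k d, .spec u b => decide (b = k / 2 + 1) && zzD h k d u
  | .rho k d, .gam k' d' => decide (k' = k ∧ d' = d)
  | .rho k _, .psi k' => decide (k' = k)
  | .R x a, .spec u b => decide (b = a ∨ b = a + 1) && zzG h (a + b) x u
  | .R x a, .gam k d => decide (k + 1 = 2 * a ∨ k = 2 * a) && zzD h k d x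
  | .R _ a, .t k => decide (k + 1 = 2 * a ∨ k = 2 * a + 1)
  | .R _ a, .psi k => decide (k + 1 = 2 * a ∨ k = 2 * a ∨ k = 2 * a + 1)
  | _, _ => false

/-- Validity of a row class. -/
def RC.Valid (h : ℕ) : RC → Prop
  | .zero _ => True
  | .tau k => k % 2 = 0 ∧ k ≤ 2 * h
  | .rho k _ => k ≤ 2 * h
  | .R x a => x < 2 ^ h ∧ a ≤ h

/-- Validity of a column class. -/
def CC.Valid (h : ℕ) : CC → Prop
  | .spec u b => u < 2 ^ h ∧ b ≤ h + 1
  | .gam k _ => k ≤ 2 * h
  | .t k => k % 2 = 1 ∧ k ≤ 2 * h
  | .psi k => k ≤ 2 * h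
  | .zero _ => True

/-- Order key of a row class (lexicographic). -/
def RC.key (h : ℕ) : RC → ℕ × ℕ × ℕ
  | .zero z => (0, z, 0)
  | .tau k => (1, 3 * k, 0)
  | .rho k d => (1, 3 * k + 1 + d.toNat, 0)
  | .R x a => (2, x, h - a)

/-- Order key of a column class (lexicographic). -/
def CC.key : CC → ℕ × ℕ × ℕ
  | .spec u b => (0, u, b)
  | .gam k d => (1, 4 * k + d.toNat, 0)
  | .t k => (1, 4 * k + 2, 0)
  | .psi k => (1, 4 * k + 3, 0)
  | .zero z => (2, z, 0)

/-- Weak lexicographic order on key triples. -/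
def lexLe (p q : ℕ × ℕ × ℕ) : Prop :=
  p.1 < q.1 ∨ (p.1 = q.1 ∧ (p.2.1 < q.2.1 ∨ (p.2.1 = q.2.1 ∧ p.2.2 ≤ q.2.2)))

/-- The core pattern `K = [1101; 0111; 1011]`. -/
def zzK : Fin 3 → Fin 4 → Bool :=
  ![![true, true, false, true], ![false, true, true, true], ![true, false, true, true]]

/-- A class-level copy of `K`: classes weakly increasing in the key order, valid, entries = `K`. -/
structure KCopy (h : ℕ) (r : Fin 3 → RC) (c : Fin 4 → CC) : Prop where
  rv : ∀ i, (r i).Valid h
  cv : ∀ j, (c j).Valid h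
  rle : ∀ i i', i ≤ i' → lexLe ((r i).key h) ((r i').key h)
  cle : ∀ j j', j ≤ j' → lexLe ((c j).key) ((c j').key)
  ent : ∀ i j, zzEntry h (r i) (c j) = zzK i j

/-- Generates the equation lemmas of the class-level definitions in this module, so that the
modules using them share one copy (no proof content). -/
theorem zz_eqns_here : True :=
  (fun _ _ _ _ _ => trivial) @zzEntry.eq_1 @CC.key.eq_1 @RC.key.eq_1 @lexLe.eq_1 @zzG.eq_1

end Crest.Agent.S0066
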