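import Mathlib
import Crest.Agent.S0066_Design
import Crest.Agent.S0066_ZZClass

/-!
# S0066 (row 47): bridge between `S0066_Design` and `S0066_Thresh` / `S0066_ZZClass`

`S0066_Design` (the official concrete matrix) spells out its own thresholds `Th`, digits `bit` and
digit condition `dg`; the type-forcing proof works with `Theta`, `dig`, `mu`, `zzG`, `zzD`.  They
agree in the relevant range (`k ≤ 2h+1` for thresholds, `k ≤ 2h` for digits):

* `Th_eq_Theta`, `Th_le_iff_zzG`, `bit_eq_dig`, `bit_lt_two`, `dg_iff_zzD`, `zzD_iff_dg`;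
* `zzG_eq_G`, `zzG_iff`: `zzG` is the `G` of `S0066_Thresh` (so `G_M1 … G_ZC` apply verbatim);
* `zzDel h k x : Bool` (the digit read at step `k`), `zzD_iff`, `zzD_del`, `zzD_eq_decide`,
  `dig_eq_of_zzD` (two lines accepted with the same digit agree in the digit `mu h k`);
* the ends: `zzEntry_R_lam` (`R x a × Λ = [a = 0]`), `zzEntry_R_om` (`R × Ω = 0`),
  `zzEntry_rho_om0`, `zzEntry_rho_om1` (`ρ_k^d × Ω^e = [k = 2h ∧ d = e]`), `zzDel_two_mul`,
  `zzDel_om0`, `zzDel_om1`, `le_om_of_zzDel` (the column `C(x,h)` precedes the `Ω` of its half).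

`Λ = CC.spec 0 0`, `Ω⁰ = CC.spec (2^(h-1)-1) (h+1)`, `Ω¹ = CC.spec (2^h-1) (h+1)`.
-/

set_option autoImplicit false

namespace Crest.Agent.S0066

/-! ### `Th`, `bit`, `dg` of the design versus `Theta`, `dig`, `zzD` -/

/-- The design's threshold is `Theta` for `k ≤ 2h+1`. -/
theorem Th_eq_Theta {h k : ℕ} (x : ℕ) (hk : k ≤ 2 * h + 1) : Th h k x = Theta h k x := by
  unfold Th Theta dstart
  by_cases hkh : k ≤ h
  · simp only [hkh, if_true]
  · simp only [hkh, if_false]
    have e1 : h - (2 * h + 1 - k) = k - h - 1 := by omega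
    rw [e1, Nat.add_mul, Nat.one_mul]

/-- The design's digit is `dig h (mu h k)` for `k ≤ 2h`, `k ≠ h`. -/
theorem bit_eq_dig {h k : ℕ} (x : ℕ) (hk : k ≤ 2 * h) (_hkh : k ≠ h) :
    bit h k x = dig h (mu h k) x := by
  unfold bit dig mu
  by_cases hlt : k < h
  · simp only [hlt, if_true]
    have e1 : h - (k + 1) = h - k - 1 := by omega
    rw [e1]
  · simp only [hlt, if_false]
    have e1 : h - (2 * h + 1 - k) = k - h - 1 := by omega
    rw [e1]

theorem bit_lt_two (h k x : ℕ) : bit h k x < 2 := by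
  unfold bit
  split <;> exact Nat.mod_lt _ (by norm_num)

/-- `zzG` is the `G` of `S0066_Thresh`. -/
theorem zzG_eq_G (h k x u : ℕ) : zzG h k x u = G h k x u := rfl

theorem zzG_iff {h k x u : ℕ} : zzG h k x u = true ↔ Theta h k x ≤ u := by simp [zzG]

/-- The design's threshold comparison is `zzG` for `k ≤ 2h+1`. -/
theorem Th_le_iff_zzG {h k : ℕ} (x u : ℕ) (hk : k ≤ 2 * h + 1) :
    Th h k x ≤ u ↔ zzG h k x u = true := by
  rw [Th_eq_Theta x hk]; simp [zzG]

/-- The design's digit condition is `zzD` (digits `d < 2`, `k ≤ 2h`). -/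
theorem dg_iff_zzD {h k : ℕ} (x d : ℕ) (hk : k ≤ 2 * h) (hd : d < 2) :
    dg h k x d ↔ zzD h k (decide (d = 1)) x = true := by
  unfold dg zzD
  by_cases hkh : k = h
  · subst hkh
    have : d = 0 ∨ d = 1 := by omega
    rcases this with rfl | rfl <;> simp
  · rw [bit_eq_dig x hk hkh]
    have hdig := dig_lt_two h (mu h k) x
    have : d = 0 ∨ d = 1 := by omega
    rcases this with rfl | rfl <;> simp [hkh]

/-- `zzD` with an explicit Boolean digit, back to the design's `dg`. -/
theorem zzD_iff_dg {h k : ℕ} (x : ℕ) (d : Bool) (hk : k ≤ 2 * h) :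
    zzD h k d x = true ↔ dg h k x d.toNat := by
  rw [dg_iff_zzD x d.toNat hk (by cases d <;> simp)]
  cases d <;> simp

/-! ### The digit read at step `k` -/

/-- The digit with which address `x` is read at step `k` (`false` at the middle step `k = h`). -/
def zzDel (h k x : ℕ) : Bool := if k = h then false else decide (dig h (mu h k) x = 1)

/-- The digit condition holds exactly for the digit `zzDel`. -/
theorem zzD_iff {h k : ℕ} (d : Bool) (x : ℕ) : zzD h k d x = true ↔ d = zzDel h k x := by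
  unfold zzD zzDel
  by_cases hkh : k = h
  · cases d <;> simp [hkh]
  · have hdig := dig_lt_two h (mu h k) x
    have h01 : dig h (mu h k) x = 0 ∨ dig h (mu h k) x = 1 := by omega
    rcases h01 with h0 | h0 <;> cases d <;> simp [hkh, h0]

theorem zzD_del (h k x : ℕ) : zzD h k (zzDel h k x) x = true := (zzD_iff _ _).mpr rfl

theorem zzD_eq_decide {h k : ℕ} (d : Bool) (x : ℕ) :
    zzD h k d x = decide (d = zzDel h k x) := by
  rw [Bool.eq_iff_iff, zzD_iff]; simp

/-- For `k ≠ h` two addresses with the same `zzDel` have the same digit `mu h k`. -/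
theorem dig_eq_of_zzDel_eq {h k x y : ℕ} (hkh : k ≠ h) (hxy : zzDel h k x = zzDel h k y) :
    dig h (mu h k) x = dig h (mu h k) y := by
  unfold zzDel at hxy
  simp only [hkh, if_false] at hxy
  have hx := dig_lt_two h (mu h k) x
  have hy := dig_lt_two h (mu h k) y
  have h01 : dig h (mu h k) x = 0 ∨ dig h (mu h k) x = 1 := by omega
  have h01' : dig h (mu h k) y = 0 ∨ dig h (mu h k) y = 1 := by omega
  rcases h01 with h0 | h0 <;> rcases h01' with h0' | h0' <;> simp [h0, h0'] at hxy ⊢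

/-- Two lines accepted with the same digit at step `k ≠ h` agree in the digit `mu h k`
(the hypothesis of `G_Z` / `G_ZC`). -/
theorem dig_eq_of_zzD {h k x y : ℕ} {d : Bool} (hx : zzD h k d x = true)
    (hy : zzD h k d y = true) (hkh : k ≠ h) : dig h (mu h k) x = dig h (mu h k) y :=
  dig_eq_of_zzDel_eq hkh (((zzD_iff d x).mp hx).symm.trans ((zzD_iff d y).mp hy))

/-- The digit read at the last step `2h` is the first digit. -/
theorem zzDel_two_mul {h : ℕ} (h1 : 1 ≤ h) (x : ℕ) :
    zzDel h (2 * h) x = decide (dig h 1 x = 1) := by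
  have hne : 2 * h ≠ h := by omega
  have hmu : mu h (2 * h) = 1 := by rw [mu_of_gt (by omega)]; omega
  simp [zzDel, hne, hmu]

/-- The address of `Ω⁰` has first digit `0`. -/
theorem zzDel_om0 {h : ℕ} (h1 : 1 ≤ h) : zzDel h (2 * h) (2 ^ (h - 1) - 1) = false := by
  rw [zzDel_two_mul h1]; simp [dig_one_half_pred h1]

/-- The address of `Ω¹` has first digit `1`. -/
theorem zzDel_om1 {h : ℕ} (h1 : 1 ≤ h) : zzDel h (2 * h) (2 ^ h - 1) = true := by
  rw [zzDel_two_mul h1]; simp [dig_one_top h1]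

/-! ### The ends `Λ`, `Ω` as special columns -/

/-- `Λ = spec 0 0`: a special row `R x a` reads `[a = 0]` there. -/
theorem zzEntry_R_lam {h x a : ℕ} (hx : x < 2 ^ h) :
    zzEntry h (.R x a) (.spec 0 0) = decide (a = 0) := by
  show (decide (0 = a ∨ 0 = a + 1) && zzG h (a + 0) x 0) = decide (a = 0)
  by_cases ha : a = 0
  · subst ha
    simp [zzG, Theta_zero hx]
  · have : ¬ (0 = a ∨ 0 = a + 1) := by omega
    rw [decide_eq_false this, decide_eq_false ha]; rfl

/-- `Ω = spec u (h+1)`: every special row reads `0` there. -/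
theorem zzEntry_R_om {h x a u : ℕ} (hx : x < 2 ^ h) (hu : u < 2 ^ h) (ha : a ≤ h) :
    zzEntry h (.R x a) (.spec u (h + 1)) = false := by
  show (decide (h + 1 = a ∨ h + 1 = a + 1) && zzG h (a + (h + 1)) x u) = false
  by_cases hah : a = h
  · subst hah
    have e : a + (a + 1) = 2 * a + 1 := by omega
    have := G_top hx hu
    simp only [zzG_eq_G, e, this, Bool.and_false]
  · have : ¬ (h + 1 = a ∨ h + 1 = a + 1) := by omega
    rw [decide_eq_false this]; rfl

/-- `ρ_k^d × Ω⁰`: `1` iff `k = 2h` and `d = 0`. -/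
theorem zzEntry_rho_om0 {h k : ℕ} (d : Bool) (h1 : 1 ≤ h) (hk : k ≤ 2 * h) :
    zzEntry h (.rho k d) (.spec (2 ^ (h - 1) - 1) (h + 1)) = decide (k = 2 * h ∧ d = false) := by
  show (decide (h + 1 = k / 2 + 1) && zzD h k d (2 ^ (h - 1) - 1)) = decide (k = 2 * h ∧ d = false)
  by_cases hk2 : k = 2 * h
  · subst hk2
    have e1 : h + 1 = 2 * h / 2 + 1 := by omega
    rw [Bool.eq_iff_iff, Bool.and_eq_true, decide_eq_true_eq, decide_eq_true_eq, zzD_iff,
      zzDel_om0 h1]
    exact ⟨fun hh => ⟨rfl, hh.2⟩, fun hh => ⟨e1, hh.2⟩⟩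
  · have : ¬ (h + 1 = k / 2 + 1) := by omega
    have h2 : ¬ (k = 2 * h ∧ d = false) := fun hh => hk2 hh.1
    rw [decide_eq_false this, decide_eq_false h2]; rfl

/-- `ρ_k^d × Ω¹`: `1` iff `k = 2h` and `d = 1`. -/
theorem zzEntry_rho_om1 {h k : ℕ} (d : Bool) (h1 : 1 ≤ h) (hk : k ≤ 2 * h) :
    zzEntry h (.rho k d) (.spec (2 ^ h - 1) (h + 1)) = decide (k = 2 * h ∧ d = true) := by
  show (decide (h + 1 = k / 2 + 1) && zzD h k d (2 ^ h - 1)) = decide (k = 2 * h ∧ d = true)
  by_cases hk2 : k = 2 * h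
  · subst hk2
    have e1 : h + 1 = 2 * h / 2 + 1 := by omega
    rw [Bool.eq_iff_iff, Bool.and_eq_true, decide_eq_true_eq, decide_eq_true_eq, zzD_iff,
      zzDel_om1 h1]
    exact ⟨fun hh => ⟨rfl, hh.2⟩, fun hh => ⟨e1, hh.2⟩⟩
  · have : ¬ (h + 1 = k / 2 + 1) := by omega
    have h2 : ¬ (k = 2 * h ∧ d = true) := fun hh => hk2 hh.1
    rw [decide_eq_false this, decide_eq_false h2]; rfl

/-- The special column `C(x,h)` precedes the twin class `Ω^δ` of its own half: `x` is at most
the address of `Ω^δ` for `δ` the first digit of `x`. -/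
theorem le_om_of_zzDel {h x : ℕ} (h1 : 1 ≤ h) (hx : x < 2 ^ h) :
    x ≤ if zzDel h (2 * h) x then 2 ^ h - 1 else 2 ^ (h - 1) - 1 := by
  rw [zzDel_two_mul h1]
  by_cases h0 : dig h 1 x = 0
  · have : x < 2 ^ (h - 1) := (dig_one_eq_zero_iff h1 hx).mp h0
    simp [h0]; omega
  · have hlt := dig_lt_two h 1 x
    have h1' : dig h 1 x = 1 := by omega
    simp [h1']; omega

end Crest.Agent.S0066
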