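import Mathlib
import Crest.Agent.S0066_Design
import Crest.Agent.S0066_ZZClass
import Crest.Agent.S0066_ThrBridge

/-!
# S0066 (row 47): adapter from the concrete matrix `M` (`S0066_Design`) to the class level
(`S0066_ZZClass`)  — helper8

* `Row.cls : Row h → RC`, `Col.cls : Col h → CC`: the class of a line (all-zero lines, i.e.
  `zero`, `fill`, `tau k` with `k` odd, `tt k` with `k` even, go to `zero` classes);
* `M_eq_zzEntry : M h r c = zzEntry h r.cls c.cls`;
* `kcopy_of_copy`: an ordered copy of `zzK` in `M h` is a class-level `KCopy`;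
* `Row.spec_of_cls`, `Col.spec_of_cls`: special classes determine the line.
-/

set_option autoImplicit false
set_option linter.unusedSimpArgs false
set_option linter.unusedTactic false

namespace Crest.Agent.S0066

variable {h : ℕ}

/-- Address of the twin class `Ω^e` as a special column of class `h+1`. -/
def omAddr (h : ℕ) (e : Fin 2) : ℕ := if e.val = 1 then 2 ^ h - 1 else 2 ^ (h - 1) - 1

theorem omAddr_lt (h : ℕ) (e : Fin 2) : omAddr h e < 2 ^ h := by
  have h1 : 0 < 2 ^ h := Nat.two_pow_pos h
  have h2 : 2 ^ (h - 1) ≤ 2 ^ h := Nat.pow_le_pow_right (by norm_num) (Nat.sub_le h 1)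
  unfold omAddr
  split <;> omega

/-- The class of a row. -/
def Row.cls : Row h → RC
  | .zero j _ => .zero j.val
  | .fill _ => .zero 63
  | .tau k _ => if k.val % 2 = 0 then .tau k.val else .zero 64
  | .rho k d _ => .rho k.val (decide (d.val = 1))
  | .spec x a => .R x.val a.val

/-- The class of a column. -/
def Col.cls : Col h → CC
  | .lam _ => .spec 0 0
  | .spec u b => .spec u.val (b.val + 1)
  | .om e _ => .spec (omAddr h e) (h + 1)
  | .gam k d _ => .gam k.val (decide (d.val = 1))
  | .tt k _ => if k.val % 2 = 1 then .t k.val else .zero 63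
  | .psi k _ => .psi k.val
  | .zero j _ => .zero j.val
  | .fill _ => .zero 62

theorem Row.cls_valid (r : Row h) : r.cls.Valid h := by
  rcases r with ⟨j, t⟩ | t | ⟨k, t⟩ | ⟨k, d, t⟩ | ⟨x, a⟩ <;> simp only [Row.cls]
  · trivial
  · trivial
  · split
    · exact ⟨by assumption, by omega⟩
    · trivial
  · show k.val ≤ 2 * h
    omega
  · exact ⟨x.isLt, by omega⟩

theorem Col.cls_valid (c : Col h) : c.cls.Valid h := by
  rcases c with t | ⟨u, b⟩ | ⟨e, t⟩ | ⟨k, d, t⟩ | ⟨k, t⟩ | ⟨k, t⟩ | ⟨j, t⟩ | t <;>
    simp only [Col.cls]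
  · exact ⟨Nat.two_pow_pos h, by omega⟩
  · exact ⟨u.isLt, by omega⟩
  · exact ⟨omAddr_lt h e, le_rfl⟩
  · show k.val ≤ 2 * h
    omega
  · split
    · exact ⟨by assumption, by omega⟩
    · trivial
  · show k.val ≤ 2 * h
    omega
  · trivial
  · trivial

theorem decide_fin2_eq (d d' : Fin 2) : (decide (d.val = 1) = decide (d'.val = 1)) ↔ d = d' := by
  constructor
  · intro hd
    apply Fin.ext
    have h1 := d.isLt
    have h2 := d'.isLt
    by_cases hd1 : d.val = 1 <;> by_cases hd2 : d'.val = 1 <;> simp [hd1, hd2] at hd <;> omega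
  · rintro rfl; rfl

/-- The matrix is the class-level entry of the classes. -/
theorem M_eq_zzEntry (h1 : 1 ≤ h) (r : Row h) (c : Col h) : M h r c = zzEntry h r.cls c.cls := by
  rcases r with ⟨j, t⟩ | t | ⟨k, t⟩ | ⟨k, d, t⟩ | ⟨x, a⟩ <;>
    rcases c with t' | ⟨u, b⟩ | ⟨e, t'⟩ | ⟨k', d', t'⟩ | ⟨k', t'⟩ | ⟨k', t'⟩ | ⟨j', t'⟩ | t' <;>
    simp only [M, Row.cls, Col.cls, zzEntry]
  all_goals (first | rfl | skip)
  case tau.lam =>
    split_ifs with hk
    · rw [decide_eq_decide]; omega
    · exact decide_eq_false (by omega)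
  case tau.spec =>
    split_ifs with hk
    · rw [decide_eq_decide]; omega
    · exact decide_eq_false (by omega)
  case tau.om =>
    split_ifs with hk
    · rw [decide_eq_decide]; omega
    · exact decide_eq_false (by omega)
  case tau.gam => split_ifs <;> rfl
  case tau.tt => split_ifs <;> rfl
  case tau.psi =>
    split_ifs with hk
    · rw [decide_eq_decide, Fin.ext_iff]; omega
    · exact decide_eq_false (by omega)
  case tau.zero => split_ifs <;> rfl
  case tau.fill => split_ifs <;> rfl
  case rho.spec =>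
    have hz := dg_iff_zzD (h := h) (k := k.val) u.val d.val (by omega) d.isLt
    rw [Bool.eq_iff_iff]
    simp only [decide_eq_true_eq, Bool.and_eq_true, hz]
    constructor
    · rintro ⟨hb, hD⟩; exact ⟨by omega, hD⟩
    · rintro ⟨hb, hD⟩; exact ⟨by omega, hD⟩
  case rho.om =>
    have hk : k.val ≤ 2 * h := by omega
    rcases (by omega : e.val = 0 ∨ e.val = 1) with he | he
    · have h0 := zzEntry_rho_om0 (h := h) (k := k.val) (decide (d.val = 1)) h1 hk
      have ho : omAddr h e = 2 ^ (h - 1) - 1 := by simp [omAddr, he]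
      rw [ho]
      refine Eq.trans ?_ h0.symm
      rw [decide_eq_decide, Fin.ext_iff]
      simp only [decide_eq_false_iff_not]
      omega
    · have h0 := zzEntry_rho_om1 (h := h) (k := k.val) (decide (d.val = 1)) h1 hk
      have ho : omAddr h e = 2 ^ h - 1 := by simp [omAddr, he]
      rw [ho]
      refine Eq.trans ?_ h0.symm
      rw [decide_eq_decide, Fin.ext_iff]
      simp only [decide_eq_true_eq]
      omega
  case rho.gam => rw [decide_eq_decide, decide_fin2_eq, Fin.ext_iff]
  case rho.tt => split_ifs <;> rfl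
  case rho.psi => rw [decide_eq_decide, Fin.ext_iff]
  case spec.lam => exact (zzEntry_R_lam x.isLt).symm
  case spec.spec =>
    have ha : a.val ≤ h := by omega
    have e1 := Th_le_iff_zzG (h := h) (k := 2 * a.val) x.val u.val (by omega)
    have e2 := Th_le_iff_zzG (h := h) (k := 2 * a.val + 1) x.val u.val (by omega)
    rw [Bool.eq_iff_iff]
    simp only [decide_eq_true_eq, Bool.and_eq_true, e1, e2]
    constructor
    · rintro (⟨hb, hG⟩ | ⟨hb, hG⟩)
      · refine ⟨Or.inl hb, ?_⟩
        have : a.val + (b.val + 1) = 2 * a.val := by omega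
        rw [this]; exact hG
      · refine ⟨Or.inr (by omega), ?_⟩
        have : a.val + (b.val + 1) = 2 * a.val + 1 := by omega
        rw [this]; exact hG
    · rintro ⟨hb | hb, hG⟩
      · left
        have : a.val + (b.val + 1) = 2 * a.val := by omega
        rw [this] at hG; exact ⟨hb, hG⟩
      · right
        have : a.val + (b.val + 1) = 2 * a.val + 1 := by omega
        rw [this] at hG; exact ⟨by omega, hG⟩
  case spec.om => exact (zzEntry_R_om x.isLt (omAddr_lt h e) (by omega)).symm
  case spec.gam =>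
    have hz := dg_iff_zzD (h := h) (k := k'.val) x.val d'.val (by omega) d'.isLt
    rw [Bool.eq_iff_iff]
    simp only [decide_eq_true_eq, Bool.and_eq_true, hz]
  case spec.tt =>
    split_ifs with hk
    · rfl
    · exact decide_eq_false (by omega)

theorem toNat_decide_fin2 (d : Fin 2) : (decide (d.val = 1)).toNat = d.val := by
  rcases (by omega : d.val = 0 ∨ d.val = 1) with hd | hd <;> simp [hd]

theorem Row.tau_even {k : Fin (2 * h + 1)} {t : Fin (2 * 2 ^ h)}
    (hr : ∀ z, (Row.tau k t : Row h).cls ≠ .zero z) : k.val % 2 = 0 := by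
  by_contra hk
  apply hr 64
  simp only [Row.cls, hk, if_false]

theorem Row.cls_tau {k : Fin (2 * h + 1)} {t : Fin (2 * 2 ^ h)} (hk : k.val % 2 = 0) :
    (Row.tau k t : Row h).cls = .tau k.val := by
  simp only [Row.cls, hk, if_true]

theorem Col.tt_odd {k : Fin (2 * h + 1)} {t : Fin (2 * 2 ^ h)}
    (hc : ∀ z, (Col.tt k t : Col h).cls ≠ .zero z) : k.val % 2 = 1 := by
  by_contra hk
  apply hc 63
  simp only [Col.cls, hk, if_false]

theorem Col.cls_tt {k : Fin (2 * h + 1)} {t : Fin (2 * 2 ^ h)} (hk : k.val % 2 = 1) :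
    (Col.tt k t : Col h).cls = .t k.val := by
  simp only [Col.cls, hk, if_true]

/-- Non-zero rows in increasing position have weakly increasing class keys. -/
theorem Row.key_le_of_le {r r' : Row h} (hr : ∀ z, r.cls ≠ .zero z) (hr' : ∀ z, r'.cls ≠ .zero z)
    (hle : r ≤ r') : lexLe (RC.key h r.cls) (RC.key h r'.cls) := by
  rcases eq_or_lt_of_le hle with rfl | hlt
  · exact Or.inr ⟨rfl, Or.inr ⟨rfl, le_rfl⟩⟩
  rw [Row.lt_iff] at hlt
  rcases r with ⟨j, t⟩ | t | ⟨k, t⟩ | ⟨k, d, t⟩ | ⟨x, a⟩
  · exact absurd rfl (hr _)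
  · exact absurd rfl (hr _)
  all_goals
    rcases r' with ⟨j', t'⟩ | t' | ⟨k', t'⟩ | ⟨k', d', t'⟩ | ⟨x', a'⟩
    · exact absurd rfl (hr' _)
    · exact absurd rfl (hr' _)
  all_goals simp only [lex4, Row.k4, true_and, lt_self_iff_false, false_or] at hlt
  · rw [Row.cls_tau (Row.tau_even hr), Row.cls_tau (Row.tau_even hr')]
    dsimp only [RC.key, lexLe]; (try simp only [true_and, lt_self_iff_false, false_or, le_refl, and_true]); omega
  · rw [Row.cls_tau (Row.tau_even hr)]
    dsimp only [Row.cls, RC.key, lexLe]; (try simp only [toNat_decide_fin2, true_and, lt_self_iff_false, false_or, le_refl, and_true]); omega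
  · rw [Row.cls_tau (Row.tau_even hr)]
    dsimp only [Row.cls, RC.key, lexLe]; (try simp only [true_and, lt_self_iff_false, false_or, le_refl, and_true]); omega
  · rw [Row.cls_tau (Row.tau_even hr')]
    dsimp only [Row.cls, RC.key, lexLe]; (try simp only [toNat_decide_fin2, true_and, lt_self_iff_false, false_or, le_refl, and_true]); omega
  · dsimp only [Row.cls, RC.key, lexLe]; (try simp only [toNat_decide_fin2, true_and, lt_self_iff_false, false_or, le_refl, and_true]); omega
  · dsimp only [Row.cls, RC.key, lexLe]; (try simp only [toNat_decide_fin2, true_and, lt_self_iff_false, false_or, le_refl, and_true]); omega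
  · rw [Row.cls_tau (Row.tau_even hr')]
    dsimp only [Row.cls, RC.key, lexLe]; (try simp only [true_and, lt_self_iff_false, false_or, le_refl, and_true]); omega
  · dsimp only [Row.cls, RC.key, lexLe]; (try simp only [toNat_decide_fin2, true_and, lt_self_iff_false, false_or, le_refl, and_true]); omega
  · dsimp only [Row.cls, RC.key, lexLe]; (try simp only [true_and, lt_self_iff_false, false_or, le_refl, and_true]); omega

/-- The position of `Ω^e` in the design's column key, in terms of its class address. -/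
theorem omAddr_omPos (h1 : 1 ≤ h) (e : Fin 2) : omPos h e = 2 * omAddr h e + 2 := by
  have hp : 2 ^ h = 2 * 2 ^ (h - 1) := by
    rw [← pow_succ']; congr 1; omega
  have hpos : 0 < 2 ^ (h - 1) := Nat.two_pow_pos _
  rcases omPos_eq h e with ⟨he, ho⟩ | ⟨he, ho⟩
  · rw [ho]; simp only [omAddr, he]; norm_num; omega
  · rw [ho]; simp only [omAddr, he]; norm_num; omega

/-- Non-zero columns in increasing position have weakly increasing class keys. -/
theorem Col.key_le_of_le (h1 : 1 ≤ h) {c c' : Col h} (hc : ∀ z, c.cls ≠ .zero z)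
    (hc' : ∀ z, c'.cls ≠ .zero z) (hle : c ≤ c') : lexLe (CC.key c.cls) (CC.key c'.cls) := by
  rcases eq_or_lt_of_le hle with rfl | hlt
  · exact Or.inr ⟨rfl, Or.inr ⟨rfl, le_rfl⟩⟩
  rw [Col.lt_iff] at hlt
  rcases c with t | ⟨u, b⟩ | ⟨e, t⟩ | ⟨k, d, t⟩ | ⟨k, t⟩ | ⟨k, t⟩ | ⟨j, t⟩ | t <;>
    rcases c' with t' | ⟨u', b'⟩ | ⟨e', t'⟩ | ⟨k', d', t'⟩ | ⟨k', t'⟩ | ⟨k', t'⟩ | ⟨j', t'⟩ | t'
  all_goals first
    | exact absurd rfl (hc _)
    | exact absurd rfl (hc' _)
    | skip
  all_goals simp only [lex4, Col.k4, true_and, lt_self_iff_false, false_or] at hlt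
  all_goals
    first
    | (have ho := omAddr_omPos h1 e
       have ho' := omAddr_omPos h1 e'
       (try rw [Col.cls_tt (Col.tt_odd hc)])
       (try rw [Col.cls_tt (Col.tt_odd hc')])
       dsimp only [Col.cls, CC.key, lexLe]
       (try simp only [toNat_decide_fin2, true_and, lt_self_iff_false, false_or, le_refl,
         and_true])
       first | done | omega)
    | (have ho := omAddr_omPos h1 e
       (try rw [Col.cls_tt (Col.tt_odd hc)])
       (try rw [Col.cls_tt (Col.tt_odd hc')])
       dsimp only [Col.cls, CC.key, lexLe]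
       (try simp only [toNat_decide_fin2, true_and, lt_self_iff_false, false_or, le_refl,
         and_true])
       first | done | omega)
    | (have ho' := omAddr_omPos h1 e'
       (try rw [Col.cls_tt (Col.tt_odd hc)])
       (try rw [Col.cls_tt (Col.tt_odd hc')])
       dsimp only [Col.cls, CC.key, lexLe]
       (try simp only [toNat_decide_fin2, true_and, lt_self_iff_false, false_or, le_refl,
         and_true])
       first | done | omega)
    | ((try rw [Col.cls_tt (Col.tt_odd hc)])
       (try rw [Col.cls_tt (Col.tt_odd hc')])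
       dsimp only [Col.cls, CC.key, lexLe]
       (try simp only [toNat_decide_fin2, true_and, lt_self_iff_false, false_or, le_refl,
         and_true])
       first | done | omega)

theorem zzEntry_zero_row (h z : ℕ) (c : CC) : zzEntry h (.zero z) c = false := by
  cases c <;> rfl

theorem zzEntry_zero_col (h : ℕ) (r : RC) (z : ℕ) : zzEntry h r (.zero z) = false := by
  cases r <;> rfl

theorem zzK_row_true : ∀ i : Fin 3, zzK i 3 = true := by decide

theorem zzK_col_true : ∀ j : Fin 4, ∃ i : Fin 3, zzK i j = true := by decide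

/-- **Adapter.** An ordered copy of the core `zzK` in the matrix `M h` is a class-level copy. -/
theorem kcopy_of_copy (h1 : 1 ≤ h) (r : Fin 3 → Row h) (c : Fin 4 → Col h)
    (hr : StrictMono r) (hc : StrictMono c) (hM : ∀ i j, M h (r i) (c j) = zzK i j) :
    KCopy h (fun i => (r i).cls) (fun j => (c j).cls) := by
  have hlr : ∀ i z, (r i).cls ≠ .zero z := by
    intro i z hz
    have h3 := hM i 3
    rw [M_eq_zzEntry h1, hz, zzEntry_zero_row, zzK_row_true] at h3
    exact Bool.noConfusion h3
  have hlc : ∀ j z, (c j).cls ≠ .zero z := by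
    intro j z hz
    obtain ⟨i, hi⟩ := zzK_col_true j
    have h3 := hM i j
    rw [M_eq_zzEntry h1, hz, zzEntry_zero_col, hi] at h3
    exact Bool.noConfusion h3
  exact
    { rv := fun _ => Row.cls_valid _
      cv := fun _ => Col.cls_valid _
      rle := fun i i' hii => Row.key_le_of_le (hlr i) (hlr i') (hr.monotone hii)
      cle := fun j j' hjj => Col.key_le_of_le h1 (hlc j) (hlc j') (hc.monotone hjj)
      ent := fun i j => by rw [← M_eq_zzEntry h1]; exact hM i j }

/-- A row whose class is `RC.R x a` is the special row `R(x,a)`. -/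
theorem Row.spec_of_cls {r : Row h} {x a : ℕ} (hr : r.cls = .R x a) :
    ∃ (hx : x < 2 ^ h) (ha : a < h + 1), r = Row.spec ⟨x, hx⟩ ⟨a, ha⟩ := by
  rcases r with ⟨j, t⟩ | t | ⟨k, t⟩ | ⟨k, d, t⟩ | ⟨x', a'⟩
  · exact RC.noConfusion hr
  · exact RC.noConfusion hr
  · simp only [Row.cls] at hr
    split_ifs at hr
  · exact RC.noConfusion hr
  · simp only [Row.cls, RC.R.injEq] at hr
    obtain ⟨rfl, rfl⟩ := hr
    exact ⟨x'.isLt, a'.isLt, rfl⟩

/-- A column whose class is `CC.spec u (b+1)` with `b < h` is the special column `C(u,b+1)`. -/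
theorem Col.spec_of_cls {c : Col h} {u b : ℕ} (hc : c.cls = .spec u (b + 1)) (hb : b < h) :
    ∃ (hu : u < 2 ^ h), c = Col.spec ⟨u, hu⟩ ⟨b, hb⟩ := by
  rcases c with t | ⟨u', b'⟩ | ⟨e, t⟩ | ⟨k, d, t⟩ | ⟨k, t⟩ | ⟨k, t⟩ | ⟨j, t⟩ | t
  · simp only [Col.cls, CC.spec.injEq] at hc
    omega
  · simp only [Col.cls, CC.spec.injEq] at hc
    obtain ⟨rfl, hb'⟩ := hc
    have : b'.val = b := by omega
    subst this
    exact ⟨u'.isLt, rfl⟩
  · simp only [Col.cls, CC.spec.injEq] at hc
    omega
  · exact CC.noConfusion hc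
  · simp only [Col.cls] at hc
    split_ifs at hc
  · exact CC.noConfusion hc
  · exact CC.noConfusion hc
  · exact CC.noConfusion hc

end Crest.Agent.S0066
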