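import Mathlib
import Crest.Prelude.Def_OrderedMatrix

/-!
# S0066 (row 47): design-independent part

* API over the frozen `orderedCopyCount` (`count_ne_zero_of_embedding`, `count_le_choose_sq`,
  `count_le_pinned`).
* `Good H h A`: the two requirements of the frozen statement in `ℕ`-form, and
  `frozen_of_good` converting them to the frozen real inequalities.
* `small_regime`: for an ARBITRARY pattern `H` and every `h ≤ 580` the tiling matrix `tile H h` is
  `Good` (4^h cell-disjoint copies; the trivial count bound `C(n,66)² ≤ n^132/(66!)²` is enough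
  because `(386·580+2)²·2^580 ≤ (66!)²`).
* `result_of_large`: the frozen statement from `∀ h ≥ 581, ∃ A, Good H h A`.
-/

set_option autoImplicit false
set_option exponentiation.threshold 2000

namespace Crest.Agent.S0066
open Crest.CombinatoricsR.OrderedMatrix

/-- An explicit embedding gives a nonzero count. -/
theorem count_ne_zero_of_embedding {k n : ℕ} (H : Fin k → Fin k → Bool) (B : Fin n → Fin n → Bool)
    (r c : Fin k → Fin n) (hr : StrictMono r) (hc : StrictMono c)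
    (h : ∀ i j, B (r i) (c j) = H i j) : orderedCopyCount H B ≠ 0 := by
  unfold orderedCopyCount
  intro h0
  exact (Fintype.card_eq_zero_iff.mp h0).false ⟨(r, c), hr, hc, h⟩

/-- The number of strictly monotone maps `Fin k → Fin n` is `C(n,k)`. -/
theorem card_strictMono (k n : ℕ) :
    Nat.card {f : Fin k → Fin n // StrictMono f} = n.choose k := by
  have e : {f : Fin k → Fin n // StrictMono f} ≃ (Fin k ↪o Fin n) :=
    { toFun := fun f => OrderEmbedding.ofStrictMono f.1 f.2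
      invFun := fun e => ⟨e, e.strictMono⟩
      left_inv := fun f => by ext; simp
      right_inv := fun e => by ext; simp }
  rw [Nat.card_congr (e.trans Set.powersetCard.ofFinEmbEquiv), Set.powersetCard.card]
  simp

/-- Trivial bound: at most `C(n,k)²` copies. -/
theorem count_le_choose_sq {k n : ℕ} (H : Fin k → Fin k → Bool) (A : Fin n → Fin n → Bool) :
    orderedCopyCount H A ≤ (n.choose k) ^ 2 := by
  unfold orderedCopyCount
  rw [← Nat.card_eq_fintype_card, sq]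
  rw [← card_strictMono k n, ← Nat.card_prod]
  refine Nat.card_le_card_of_injective
    (fun x => (⟨x.1.1, x.2.1⟩, ⟨x.1.2, x.2.2.1⟩)) ?_
  intro x y hxy
  simp only [Prod.mk.injEq, Subtype.mk.injEq] at hxy
  exact Subtype.ext (Prod.ext hxy.1 hxy.2)

/-- Pinned bound: if in every copy the images of the `H`-row `i0` and the `H`-column `j0` form a
cell of `S`, then there are at most `|S| · C(n,k)²` copies (`H` of size `k+1`). -/
theorem count_le_pinned {k n : ℕ} (H : Fin (k + 1) → Fin (k + 1) → Bool)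
    (A : Fin n → Fin n → Bool) (i0 j0 : Fin (k + 1)) (S : Finset (Fin n × Fin n))
    (hS : ∀ r c : Fin (k + 1) → Fin n, StrictMono r → StrictMono c →
      (∀ i j, A (r i) (c j) = H i j) → (r i0, c j0) ∈ S) :
    orderedCopyCount H A ≤ S.card * (n.choose k) ^ 2 := by
  unfold orderedCopyCount
  rw [← Nat.card_eq_fintype_card, sq, ← card_strictMono k n]
  have hS' : S.card = Nat.card S := by simp
  rw [hS', ← Nat.card_prod, ← Nat.card_prod]
  refine Nat.card_le_card_of_injective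
    (fun x => (⟨(x.1.1 i0, x.1.2 j0), hS _ _ x.2.1 x.2.2.1 x.2.2.2⟩,
      (⟨x.1.1 ∘ i0.succAbove, x.2.1.comp (Fin.strictMono_succAbove i0)⟩,
       ⟨x.1.2 ∘ j0.succAbove, x.2.2.1.comp (Fin.strictMono_succAbove j0)⟩))) ?_
  intro x y hxy
  simp only [Prod.mk.injEq, Subtype.mk.injEq] at hxy
  obtain ⟨⟨h1, h2⟩, h3, h4⟩ := hxy
  apply Subtype.ext
  apply Prod.ext
  · funext i
    rcases Fin.eq_self_or_eq_succAbove i0 i with rfl | ⟨j, rfl⟩
    · exact h1
    · exact congrFun h3 j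
  · funext i
    rcases Fin.eq_self_or_eq_succAbove j0 i with rfl | ⟨j, rfl⟩
    · exact h2
    · exact congrFun h4 j

/-- The two requirements of the frozen statement, in `ℕ`-form. -/
def Good (H : Fin 66 → Fin 66 → Bool) (h : ℕ)
    (A : Fin ((386 * h + 2) * 2 ^ h) → Fin ((386 * h + 2) * 2 ^ h) → Bool) : Prop :=
  (∀ B : Fin ((386 * h + 2) * 2 ^ h) → Fin ((386 * h + 2) * 2 ^ h) → Bool,
      orderedCopyCount H B = 0 →
        4 ^ h ≤ (Finset.univ.filter
          (fun rc : Fin ((386 * h + 2) * 2 ^ h) × Fin ((386 * h + 2) * 2 ^ h) =>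
            A rc.1 rc.2 ≠ B rc.1 rc.2)).card) ∧
    orderedCopyCount H A * ((386 * h + 2) ^ 2 * 2 ^ h) ≤ ((386 * h + 2) * 2 ^ h) ^ 132

theorem far_real_of_nat (h d : ℕ) (hd : 4 ^ h ≤ d) :
    ((386 * (h : ℝ) + 2) ^ 2)⁻¹ * (((386 * h + 2) * 2 ^ h : ℕ) : ℝ) ^ 2 ≤ (d : ℝ) := by
  have hm : (0 : ℝ) < (386 * (h : ℝ) + 2) ^ 2 := by positivity
  have h4 : ((2 : ℝ) ^ h) ^ 2 = (4 : ℝ) ^ h := by
    rw [← pow_mul, mul_comm, pow_mul]; norm_num
  have hd' : (4 : ℝ) ^ h ≤ (d : ℝ) := by exact_mod_cast hd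
  push_cast
  rw [mul_pow, ← mul_assoc, inv_mul_cancel₀ hm.ne', one_mul, h4]
  exact hd'

theorem few_real_of_nat (h cnt : ℕ)
    (hc : cnt * ((386 * h + 2) ^ 2 * 2 ^ h) ≤ ((386 * h + 2) * 2 ^ h) ^ 132) :
    (cnt : ℝ) / (((386 * h + 2) * 2 ^ h : ℕ) : ℝ) ^ 132 ≤
      ((386 * (h : ℝ) + 2) ^ 2)⁻¹ * (2 : ℝ)⁻¹ ^ h := by
  have hn : (0 : ℝ) < (((386 * h + 2) * 2 ^ h : ℕ) : ℝ) ^ 132 := by positivity
  have hk : (0 : ℝ) < (((386 * h + 2) ^ 2 * 2 ^ h : ℕ) : ℝ) := by positivity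
  have e : ((386 * (h : ℝ) + 2) ^ 2)⁻¹ * (2 : ℝ)⁻¹ ^ h
      = (((386 * h + 2) ^ 2 * 2 ^ h : ℕ) : ℝ)⁻¹ := by
    push_cast; rw [mul_inv, inv_pow]
  rw [e, div_le_iff₀ hn, inv_mul_eq_div, le_div_iff₀ hk]
  exact_mod_cast hc

/-- `Good` gives the two frozen inequalities. -/
theorem frozen_of_good (H : Fin 66 → Fin 66 → Bool) (h : ℕ)
    (A : Fin ((386 * h + 2) * 2 ^ h) → Fin ((386 * h + 2) * 2 ^ h) → Bool) (hA : Good H h A) :
    (∀ B : Fin ((386 * h + 2) * 2 ^ h) → Fin ((386 * h + 2) * 2 ^ h) → Bool,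
      Crest.CombinatoricsR.OrderedMatrix.orderedCopyCount H B = 0 →
        ((386 * (h : ℝ) + 2) ^ 2)⁻¹ * (((386 * h + 2) * 2 ^ h : ℕ) : ℝ) ^ 2 ≤
          ((Finset.univ.filter
            (fun rc : Fin ((386 * h + 2) * 2 ^ h) × Fin ((386 * h + 2) * 2 ^ h) =>
              A rc.1 rc.2 ≠ B rc.1 rc.2)).card : ℝ)) ∧
    (Crest.CombinatoricsR.OrderedMatrix.orderedCopyCount H A : ℝ) /
        (((386 * h + 2) * 2 ^ h : ℕ) : ℝ) ^ 132 ≤
      ((386 * (h : ℝ) + 2) ^ 2)⁻¹ * (2 : ℝ)⁻¹ ^ h :=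
  ⟨fun B hB => far_real_of_nat h _ (hA.1 B hB), few_real_of_nat h _ hA.2⟩

/-! ### The small regime `h ≤ 580` (any pattern) -/

/-- The tiling matrix: `H` repeated on the top-left `66·2^h` square, `false` elsewhere. -/
def tile (H : Fin 66 → Fin 66 → Bool) (h : ℕ) :
    Fin ((386 * h + 2) * 2 ^ h) → Fin ((386 * h + 2) * 2 ^ h) → Bool :=
  fun i j =>
    if (i : ℕ) < 66 * 2 ^ h ∧ (j : ℕ) < 66 * 2 ^ h then
      H ⟨(i : ℕ) % 66, Nat.mod_lt _ (by norm_num)⟩ ⟨(j : ℕ) % 66, Nat.mod_lt _ (by norm_num)⟩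
    else false

/-- Index of the `p`-th line of the `a`-th tile. -/
def tidx (h : ℕ) (hh : 1 ≤ h) (a : Fin (2 ^ h)) (p : Fin 66) : Fin ((386 * h + 2) * 2 ^ h) :=
  ⟨66 * (a : ℕ) + (p : ℕ), by
    have ha := a.2
    have hp := p.2
    have h1 : 66 * (a : ℕ) + (p : ℕ) < 66 * 2 ^ h := by omega
    have h2 : 66 * 2 ^ h ≤ (386 * h + 2) * 2 ^ h :=
      Nat.mul_le_mul_right _ (by omega)
    omega⟩

theorem tidx_val (h : ℕ) (hh : 1 ≤ h) (a : Fin (2 ^ h)) (p : Fin 66) :
    ((tidx h hh a p : Fin ((386 * h + 2) * 2 ^ h)) : ℕ) = 66 * (a : ℕ) + (p : ℕ) := rfl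

theorem tidx_lt (h : ℕ) (hh : 1 ≤ h) (a : Fin (2 ^ h)) (p : Fin 66) :
    ((tidx h hh a p : Fin ((386 * h + 2) * 2 ^ h)) : ℕ) < 66 * 2 ^ h := by
  have ha := a.2
  have hp := p.2
  rw [tidx_val]; omega

theorem tidx_strictMono (h : ℕ) (hh : 1 ≤ h) (a : Fin (2 ^ h)) : StrictMono (tidx h hh a) := by
  intro p q hpq
  rw [Fin.lt_def, tidx_val, tidx_val]
  have : (p : ℕ) < (q : ℕ) := hpq
  omega

theorem tile_tidx (H : Fin 66 → Fin 66 → Bool) (h : ℕ) (hh : 1 ≤ h) (a b : Fin (2 ^ h))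
    (p q : Fin 66) : tile H h (tidx h hh a p) (tidx h hh b q) = H p q := by
  unfold tile
  rw [if_pos ⟨tidx_lt h hh a p, tidx_lt h hh b q⟩]
  have e1 : (⟨((tidx h hh a p : Fin ((386 * h + 2) * 2 ^ h)) : ℕ) % 66,
      Nat.mod_lt _ (by norm_num)⟩ : Fin 66) = p := by
    apply Fin.ext
    simp only [tidx_val]
    have hp := p.2
    omega
  have e2 : (⟨((tidx h hh b q : Fin ((386 * h + 2) * 2 ^ h)) : ℕ) % 66,
      Nat.mod_lt _ (by norm_num)⟩ : Fin 66) = q := by
    apply Fin.ext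
    simp only [tidx_val]
    have hq := q.2
    omega
  rw [e1, e2]

/-- Every tile of an `H`-free matrix contains a cell where it differs from the tiling. -/
theorem tile_diff (H : Fin 66 → Fin 66 → Bool) (h : ℕ) (hh : 1 ≤ h)
    (B : Fin ((386 * h + 2) * 2 ^ h) → Fin ((386 * h + 2) * 2 ^ h) → Bool)
    (hB : orderedCopyCount H B = 0) (a b : Fin (2 ^ h)) :
    ∃ p q : Fin 66, tile H h (tidx h hh a p) (tidx h hh b q) ≠ B (tidx h hh a p) (tidx h hh b q) := by
  by_contra hcon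
  simp only [not_exists, ne_eq, not_not] at hcon
  refine count_ne_zero_of_embedding H B (tidx h hh a) (tidx h hh b) (tidx_strictMono h hh a)
    (tidx_strictMono h hh b) ?_ hB
  intro p q
  rw [← hcon p q, tile_tidx]

theorem tile_far (H : Fin 66 → Fin 66 → Bool) (h : ℕ) (hh : 1 ≤ h)
    (B : Fin ((386 * h + 2) * 2 ^ h) → Fin ((386 * h + 2) * 2 ^ h) → Bool)
    (hB : orderedCopyCount H B = 0) :
    4 ^ h ≤ (Finset.univ.filter
      (fun rc : Fin ((386 * h + 2) * 2 ^ h) × Fin ((386 * h + 2) * 2 ^ h) =>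
        tile H h rc.1 rc.2 ≠ B rc.1 rc.2)).card := by
  classical
  choose P Q hPQ using fun ab : Fin (2 ^ h) × Fin (2 ^ h) => tile_diff H h hh B hB ab.1 ab.2
  have hcard : (Finset.univ : Finset (Fin (2 ^ h) × Fin (2 ^ h))).card = 4 ^ h := by
    rw [Finset.card_univ, Fintype.card_prod, Fintype.card_fin, ← mul_pow]
    norm_num
  rw [← hcard]
  refine Finset.card_le_card_of_injOn
    (fun ab => (tidx h hh ab.1 (P ab), tidx h hh ab.2 (Q ab))) ?_ ?_
  · intro ab _
    rw [Finset.mem_coe, Finset.mem_filter]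
    exact ⟨Finset.mem_univ _, hPQ ab⟩
  · intro ab _ ab' _ heq
    simp only [Prod.mk.injEq] at heq
    have h1 := congrArg (fun x : Fin ((386 * h + 2) * 2 ^ h) => (x : ℕ)) heq.1
    have h2 := congrArg (fun x : Fin ((386 * h + 2) * 2 ^ h) => (x : ℕ)) heq.2
    simp only [tidx_val] at h1 h2
    have hp := (P ab).2
    have hp' := (P ab').2
    have hq := (Q ab).2
    have hq' := (Q ab').2
    apply Prod.ext
    · apply Fin.ext; omega
    · apply Fin.ext; omega

theorem num_580 : (386 * 580 + 2) ^ 2 * 2 ^ 580 ≤ (Nat.factorial 66) ^ 2 := by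
  decide

/-- The trivial count bound suffices for `h ≤ 580`, for every matrix. -/
theorem count_small (H : Fin 66 → Fin 66 → Bool) (h : ℕ) (hh : h ≤ 580)
    (A : Fin ((386 * h + 2) * 2 ^ h) → Fin ((386 * h + 2) * 2 ^ h) → Bool) :
    orderedCopyCount H A * ((386 * h + 2) ^ 2 * 2 ^ h) ≤ ((386 * h + 2) * 2 ^ h) ^ 132 := by
  have h1 : orderedCopyCount H A ≤ (((386 * h + 2) * 2 ^ h).choose 66) ^ 2 :=
    count_le_choose_sq H A
  have h2 : (386 * h + 2) ^ 2 * 2 ^ h ≤ (Nat.factorial 66) ^ 2 := by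
    refine le_trans ?_ num_580
    exact Nat.mul_le_mul (Nat.pow_le_pow_left (by omega) 2)
      (Nat.pow_le_pow_right (by norm_num) hh)
  have h3 : Nat.factorial 66 * ((386 * h + 2) * 2 ^ h).choose 66 ≤ ((386 * h + 2) * 2 ^ h) ^ 66 := by
    rw [← Nat.descFactorial_eq_factorial_mul_choose]
    exact Nat.descFactorial_le_pow _ 66
  calc orderedCopyCount H A * ((386 * h + 2) ^ 2 * 2 ^ h)
      ≤ (((386 * h + 2) * 2 ^ h).choose 66) ^ 2 * (Nat.factorial 66) ^ 2 := Nat.mul_le_mul h1 h2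
    _ = (Nat.factorial 66 * ((386 * h + 2) * 2 ^ h).choose 66) ^ 2 := by ring
    _ ≤ (((386 * h + 2) * 2 ^ h) ^ 66) ^ 2 := Nat.pow_le_pow_left h3 2
    _ = ((386 * h + 2) * 2 ^ h) ^ 132 := by rw [← pow_mul]

/-- Small regime: for every pattern and every `1 ≤ h ≤ 580` the tiling matrix is `Good`. -/
theorem small_regime (H : Fin 66 → Fin 66 → Bool) (h : ℕ) (h1 : 1 ≤ h) (hh : h ≤ 580) :
    Good H h (tile H h) :=
  ⟨fun B hB => tile_far H h h1 B hB, count_small H h hh _⟩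

/-- The frozen statement follows from the large regime `h ≥ 581` alone. -/
theorem result_of_large (H : Fin 66 → Fin 66 → Bool)
    (hl : ∀ h : ℕ, 581 ≤ h →
      ∃ A : Fin ((386 * h + 2) * 2 ^ h) → Fin ((386 * h + 2) * 2 ^ h) → Bool, Good H h A) :
    ∃ H : Fin 66 → Fin 66 → Bool, ∀ h : ℕ, 1 ≤ h →
      ∃ A : Fin ((386 * h + 2) * 2 ^ h) → Fin ((386 * h + 2) * 2 ^ h) → Bool,
        (∀ B : Fin ((386 * h + 2) * 2 ^ h) → Fin ((386 * h + 2) * 2 ^ h) → Bool,
          Crest.CombinatoricsR.OrderedMatrix.orderedCopyCount H B = 0 →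
            ((386 * (h : ℝ) + 2) ^ 2)⁻¹ * (((386 * h + 2) * 2 ^ h : ℕ) : ℝ) ^ 2 ≤
              ((Finset.univ.filter (fun rc : Fin ((386 * h + 2) * 2 ^ h) × Fin ((386 * h + 2) * 2 ^ h) =>
                A rc.1 rc.2 ≠ B rc.1 rc.2)).card : ℝ)) ∧
        (Crest.CombinatoricsR.OrderedMatrix.orderedCopyCount H A : ℝ) /
            (((386 * h + 2) * 2 ^ h : ℕ) : ℝ) ^ 132 ≤
          ((386 * (h : ℝ) + 2) ^ 2)⁻¹ * (2 : ℝ)⁻¹ ^ h := by
  refine ⟨H, fun h h1 => ?_⟩
  by_cases hh : h ≤ 580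
  · exact ⟨tile H h, frozen_of_good H h _ (small_regime H h h1 hh)⟩
  · obtain ⟨A, hA⟩ := hl h (by omega)
    exact ⟨A, frozen_of_good H h A hA⟩

/-! ### Transfer from a structured index type

The large-regime construction can be written over ANY finite linearly ordered index types `ι`
(rows) and `κ` (columns) of the right cardinality (for instance lexicographic sums of classes);
`good_of_structured` moves it to `Fin n` along the order isomorphisms. -/

section transfer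

variable {ι κ : Type} [Fintype ι] [LinearOrder ι] [Fintype κ] [LinearOrder κ]

/-- An ordered copy of `H` in a matrix over linearly ordered index types. -/
def HasCopy {k : ℕ} (H : Fin k → Fin k → Bool) (M : ι → κ → Bool) : Prop :=
  ∃ (r : Fin k → ι) (c : Fin k → κ), StrictMono r ∧ StrictMono c ∧ ∀ i j, M (r i) (c j) = H i j

theorem good_of_structured (H : Fin 66 → Fin 66 → Bool) (h : ℕ)
    (hι : Fintype.card ι = (386 * h + 2) * 2 ^ h) (hκ : Fintype.card κ = (386 * h + 2) * 2 ^ h)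
    (M : ι → κ → Bool)
    (hfar : ∀ B : ι → κ → Bool, ¬ HasCopy H B →
      4 ^ h ≤ (Finset.univ.filter (fun p : ι × κ => M p.1 p.2 ≠ B p.1 p.2)).card)
    (hfew : Nat.card {rc : (Fin 66 → ι) × (Fin 66 → κ) //
        StrictMono rc.1 ∧ StrictMono rc.2 ∧ ∀ i j, M (rc.1 i) (rc.2 j) = H i j} *
          ((386 * h + 2) ^ 2 * 2 ^ h) ≤ ((386 * h + 2) * 2 ^ h) ^ 132) :
    ∃ A : Fin ((386 * h + 2) * 2 ^ h) → Fin ((386 * h + 2) * 2 ^ h) → Bool, Good H h A := by
  classical
  let e : Fin ((386 * h + 2) * 2 ^ h) ≃o ι := Fintype.orderIsoFinOfCardEq ι hι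
  let f : Fin ((386 * h + 2) * 2 ^ h) ≃o κ := Fintype.orderIsoFinOfCardEq κ hκ
  refine ⟨fun i j => M (e i) (f j), ?_, ?_⟩
  · intro B hB
    have hno : ¬ HasCopy H (fun x y => B (e.symm x) (f.symm y)) := by
      rintro ⟨r, c, hr, hc, hrc⟩
      exact count_ne_zero_of_embedding H B (fun i => e.symm (r i)) (fun j => f.symm (c j))
        (e.symm.strictMono.comp hr) (f.symm.strictMono.comp hc) hrc hB
    refine le_trans (hfar _ hno) ?_
    refine Finset.card_le_card_of_injOn (fun p : ι × κ => (e.symm p.1, f.symm p.2)) ?_ ?_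
    · intro p hp
      rw [Finset.mem_coe, Finset.mem_filter] at hp ⊢
      refine ⟨Finset.mem_univ _, ?_⟩
      simpa using hp.2
    · intro p _ q _ hpq
      simp only [Prod.mk.injEq, EmbeddingLike.apply_eq_iff_eq] at hpq
      exact Prod.ext hpq.1 hpq.2
  · refine le_trans (Nat.mul_le_mul_right _ ?_) hfew
    unfold orderedCopyCount
    rw [← Nat.card_eq_fintype_card]
    refine Nat.card_le_card_of_injective
      (fun x => ⟨(fun i => e (x.1.1 i), fun j => f (x.1.2 j)),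
        e.strictMono.comp x.2.1, f.strictMono.comp x.2.2.1, x.2.2.2⟩) ?_
    intro x y hxy
    simp only [Subtype.mk.injEq, Prod.mk.injEq] at hxy
    apply Subtype.ext
    apply Prod.ext
    · funext i
      exact e.injective (congrFun hxy.1 i)
    · funext j
      exact f.injective (congrFun hxy.2 j)

/-- Pinned count over structured index types: if in every copy the images of the `H`-row `i0`
and the `H`-column `j0` form a cell of `S`, there are at most `|S|·C(|ι|,k)·C(|κ|,k)` copies. -/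
theorem structured_count_le_pinned {k : ℕ} (H : Fin (k + 1) → Fin (k + 1) → Bool)
    (M : ι → κ → Bool) (i0 j0 : Fin (k + 1)) (S : Finset (ι × κ))
    (hS : ∀ (r : Fin (k + 1) → ι) (c : Fin (k + 1) → κ), StrictMono r → StrictMono c →
      (∀ i j, M (r i) (c j) = H i j) → (r i0, c j0) ∈ S) :
    Nat.card {rc : (Fin (k + 1) → ι) × (Fin (k + 1) → κ) //
        StrictMono rc.1 ∧ StrictMono rc.2 ∧ ∀ i j, M (rc.1 i) (rc.2 j) = H i j} ≤
      S.card * ((Fintype.card ι).choose k * (Fintype.card κ).choose k) := by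
  classical
  have c1 : Nat.card {g : Fin k → ι // StrictMono g} = (Fintype.card ι).choose k := by
    have e : {g : Fin k → ι // StrictMono g} ≃ (Fin k ↪o ι) :=
      { toFun := fun g => OrderEmbedding.ofStrictMono g.1 g.2
        invFun := fun e => ⟨e, e.strictMono⟩
        left_inv := fun g => by ext; simp
        right_inv := fun e => by ext; simp }
    rw [Nat.card_congr (e.trans Set.powersetCard.ofFinEmbEquiv), Set.powersetCard.card,
      Nat.card_eq_fintype_card]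
  have c2 : Nat.card {g : Fin k → κ // StrictMono g} = (Fintype.card κ).choose k := by
    have e : {g : Fin k → κ // StrictMono g} ≃ (Fin k ↪o κ) :=
      { toFun := fun g => OrderEmbedding.ofStrictMono g.1 g.2
        invFun := fun e => ⟨e, e.strictMono⟩
        left_inv := fun g => by ext; simp
        right_inv := fun e => by ext; simp }
    rw [Nat.card_congr (e.trans Set.powersetCard.ofFinEmbEquiv), Set.powersetCard.card,
      Nat.card_eq_fintype_card]
  have hS' : S.card = Nat.card S := by simp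
  rw [← c1, ← c2, hS', ← Nat.card_prod, ← Nat.card_prod]
  refine Nat.card_le_card_of_injective
    (fun x => (⟨(x.1.1 i0, x.1.2 j0), hS _ _ x.2.1 x.2.2.1 x.2.2.2⟩,
      (⟨x.1.1 ∘ i0.succAbove, x.2.1.comp (Fin.strictMono_succAbove i0)⟩,
       ⟨x.1.2 ∘ j0.succAbove, x.2.2.1.comp (Fin.strictMono_succAbove j0)⟩))) ?_
  intro x y hxy
  simp only [Prod.mk.injEq, Subtype.mk.injEq] at hxy
  obtain ⟨⟨h1, h2⟩, h3, h4⟩ := hxy
  apply Subtype.ext
  apply Prod.ext
  · funext i
    rcases Fin.eq_self_or_eq_succAbove i0 i with rfl | ⟨j, rfl⟩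
    · exact h1
    · exact congrFun h3 j
  · funext i
    rcases Fin.eq_self_or_eq_succAbove j0 i with rfl | ⟨j, rfl⟩
    · exact h2
    · exact congrFun h4 j

/-- The count requirement from a pin: every copy uses a cell of `S` at the fixed `H`-position
`(i0, j0)`, and `|S| ≤ (65!)²·2^h`. -/
theorem structured_few_of_pinned (H : Fin 66 → Fin 66 → Bool) (h : ℕ)
    (hι : Fintype.card ι = (386 * h + 2) * 2 ^ h) (hκ : Fintype.card κ = (386 * h + 2) * 2 ^ h)
    (M : ι → κ → Bool) (i0 j0 : Fin 66) (S : Finset (ι × κ))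
    (hScard : S.card ≤ (Nat.factorial 65) ^ 2 * 2 ^ h)
    (hS : ∀ (r : Fin 66 → ι) (c : Fin 66 → κ), StrictMono r → StrictMono c →
      (∀ i j, M (r i) (c j) = H i j) → (r i0, c j0) ∈ S) :
    Nat.card {rc : (Fin 66 → ι) × (Fin 66 → κ) //
        StrictMono rc.1 ∧ StrictMono rc.2 ∧ ∀ i j, M (rc.1 i) (rc.2 j) = H i j} *
          ((386 * h + 2) ^ 2 * 2 ^ h) ≤ ((386 * h + 2) * 2 ^ h) ^ 132 := by
  have h1 := structured_count_le_pinned (k := 65) H M i0 j0 S hS
  rw [hι, hκ] at h1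
  have h3 : Nat.factorial 65 * ((386 * h + 2) * 2 ^ h).choose 65 ≤ ((386 * h + 2) * 2 ^ h) ^ 65 := by
    rw [← Nat.descFactorial_eq_factorial_mul_choose]
    exact Nat.descFactorial_le_pow _ 65
  calc Nat.card {rc : (Fin 66 → ι) × (Fin 66 → κ) //
        StrictMono rc.1 ∧ StrictMono rc.2 ∧ ∀ i j, M (rc.1 i) (rc.2 j) = H i j} *
          ((386 * h + 2) ^ 2 * 2 ^ h)
      ≤ (S.card * (((386 * h + 2) * 2 ^ h).choose 65 * ((386 * h + 2) * 2 ^ h).choose 65)) *
          ((386 * h + 2) ^ 2 * 2 ^ h) := Nat.mul_le_mul_right _ h1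
    _ ≤ ((Nat.factorial 65) ^ 2 * 2 ^ h *
          (((386 * h + 2) * 2 ^ h).choose 65 * ((386 * h + 2) * 2 ^ h).choose 65)) *
          ((386 * h + 2) ^ 2 * 2 ^ h) :=
        Nat.mul_le_mul_right _ (Nat.mul_le_mul_right _ hScard)
    _ = (Nat.factorial 65 * ((386 * h + 2) * 2 ^ h).choose 65) ^ 2 *
          ((386 * h + 2) * 2 ^ h) ^ 2 := by ring
    _ ≤ (((386 * h + 2) * 2 ^ h) ^ 65) ^ 2 * ((386 * h + 2) * 2 ^ h) ^ 2 :=
        Nat.mul_le_mul_right _ (Nat.pow_le_pow_left h3 2)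
    _ = ((386 * h + 2) * 2 ^ h) ^ 132 := by rw [← pow_mul, ← pow_add]

end transfer

end Crest.Agent.S0066
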