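import Mathlib
import Crest.Prelude.Def_OrderedMatrix
import Crest.Agent.S0066_Small

/-!
# S0066 — design-independent transfer lemmas (helper21)

Ordered copies of a pattern in matrices indexed by arbitrary (finite, linearly ordered) index
types, and the transport of "few copies + far from free" statements to matrices indexed by
`Fin n`, in the shape of the frozen statement S0066.

Main declarations (namespace `Crest.Agent.S0066`):
* `IsCopy H A r c`, `HFree H A`, `copyCount H A`, `diffCount A B` for `A B : R → C → Bool`;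
* `orderedCopyCount_eq_copyCount`, `orderedCopyCount_eq_zero_iff`, `card_filter_ne_eq_diffCount`:
  the frozen notions on `Fin n` are the same things;
* `HFree.comp`, `diffCount_comp_le`: sub-matrices along strictly monotone maps;
* `copyCount_orderIso`, `hFree_orderIso`, `diffCount_equiv`: transport along order isomorphisms;
* `exists_fin_matrix`: a design on index types of cardinality exactly `n` gives a matrix on `Fin n`;
* `padMat`, `exists_fin_matrix_of_le`: the same when the index types have at most `n` elements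
  (padding by all-`false` lines at the end; needs that `H` has no all-`false` row or column);
* `frozen_of_nat`, `frozen_of_design`: the two real inequalities of the frozen statement from
  farness `4 ^ h` and at most `2 ^ h * n ^ 130` copies;
* `good_of_structured_le`: the padded version of `good_of_structured` of `S0066_Small` (helper29):
  a design with AT MOST `n` rows and columns gives a `Good` matrix.
-/

set_option autoImplicit false

namespace Crest.Agent.S0066

open Crest.CombinatoricsR.OrderedMatrix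

section Defs

variable {k : ℕ} {R C : Type*} [Preorder R] [Preorder C]

/-- `(r, c)` is an ordered copy of the pattern `H` in the matrix `A`. -/
def IsCopy (H : Fin k → Fin k → Bool) (A : R → C → Bool) (r : Fin k → R) (c : Fin k → C) : Prop :=
  StrictMono r ∧ StrictMono c ∧ ∀ i j, A (r i) (c j) = H i j

/-- `A` contains no ordered copy of `H`. -/
def HFree (H : Fin k → Fin k → Bool) (A : R → C → Bool) : Prop :=
  ∀ (r : Fin k → R) (c : Fin k → C), ¬ IsCopy H A r c

/-- The number of ordered copies of `H` in `A`. -/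
noncomputable def copyCount (H : Fin k → Fin k → Bool) (A : R → C → Bool) : ℕ :=
  Nat.card {rc : (Fin k → R) × (Fin k → C) // IsCopy H A rc.1 rc.2}

end Defs

/-- The number of cells in which two matrices differ. -/
noncomputable def diffCount {R C : Type*} (A B : R → C → Bool) : ℕ :=
  Nat.card {p : R × C // A p.1 p.2 ≠ B p.1 p.2}

section Frozen

variable {k n : ℕ}

theorem orderedCopyCount_eq_copyCount (H : Fin k → Fin k → Bool) (A : Fin n → Fin n → Bool) :
    orderedCopyCount H A = copyCount H A := by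
  unfold orderedCopyCount copyCount
  rw [← Nat.card_eq_fintype_card]
  exact Nat.card_congr (Equiv.subtypeEquivRight (fun _ => Iff.rfl))

theorem copyCount_eq_zero_iff {R C : Type*} [Preorder R] [Preorder C] [Finite R] [Finite C]
    (H : Fin k → Fin k → Bool) (A : R → C → Bool) : copyCount H A = 0 ↔ HFree H A := by
  unfold copyCount HFree
  rw [Nat.card_eq_zero]
  constructor
  · rintro (h | h)
    · exact fun r c hc => h.false ⟨(r, c), hc⟩
    · exact absurd h (not_infinite_iff_finite.mpr inferInstance)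
  · intro h
    left
    exact ⟨fun x => h x.1.1 x.1.2 x.2⟩

theorem orderedCopyCount_eq_zero_iff (H : Fin k → Fin k → Bool) (A : Fin n → Fin n → Bool) :
    orderedCopyCount H A = 0 ↔ HFree H A := by
  rw [orderedCopyCount_eq_copyCount, copyCount_eq_zero_iff]

theorem card_filter_ne_eq_diffCount (A B : Fin n → Fin n → Bool) :
    (Finset.univ.filter (fun rc : Fin n × Fin n => A rc.1 rc.2 ≠ B rc.1 rc.2)).card
      = diffCount A B := by
  unfold diffCount
  rw [Nat.card_eq_fintype_card, Fintype.card_subtype]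

end Frozen

section Comp

variable {k : ℕ} {R₁ C₁ R₂ C₂ : Type*} [Preorder R₁] [Preorder C₁] [Preorder R₂] [Preorder C₂]

theorem IsCopy.comp {H : Fin k → Fin k → Bool} {A : R₂ → C₂ → Bool} {f : R₁ → R₂} {g : C₁ → C₂}
    (hf : StrictMono f) (hg : StrictMono g) {r : Fin k → R₁} {c : Fin k → C₁}
    (h : IsCopy H (fun x y => A (f x) (g y)) r c) : IsCopy H A (f ∘ r) (g ∘ c) :=
  ⟨hf.comp h.1, hg.comp h.2.1, h.2.2⟩

/-- A sub-matrix (along strictly monotone maps) of an `H`-free matrix is `H`-free. -/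
theorem HFree.comp {H : Fin k → Fin k → Bool} {A : R₂ → C₂ → Bool} (hA : HFree H A)
    {f : R₁ → R₂} {g : C₁ → C₂} (hf : StrictMono f) (hg : StrictMono g) :
    HFree H (fun x y => A (f x) (g y)) :=
  fun _ _ h => hA _ _ (h.comp hf hg)

end Comp

/-- Restricting two matrices along injective maps does not increase the number of differences. -/
theorem diffCount_comp_le {R₁ C₁ R₂ C₂ : Type*} [Finite R₂] [Finite C₂] (A B : R₂ → C₂ → Bool)
    {f : R₁ → R₂} {g : C₁ → C₂} (hf : Function.Injective f) (hg : Function.Injective g) :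
    diffCount (fun x y => A (f x) (g y)) (fun x y => B (f x) (g y)) ≤ diffCount A B := by
  unfold diffCount
  refine Nat.card_le_card_of_injective
    (fun p : {p : R₁ × C₁ // A (f p.1) (g p.2) ≠ B (f p.1) (g p.2)} =>
      (⟨(f p.1.1, g p.1.2), p.2⟩ : {p : R₂ × C₂ // A p.1 p.2 ≠ B p.1 p.2})) ?_
  rintro ⟨⟨a, b⟩, h1⟩ ⟨⟨a', b'⟩, h2⟩ h
  simp only [Subtype.mk.injEq, Prod.mk.injEq] at h
  obtain ⟨h3, h4⟩ := h
  cases hf h3
  cases hg h4
  rfl

/-- Transport of the difference count along equivalences. -/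
theorem diffCount_equiv {R₁ C₁ R₂ C₂ : Type*} (A B : R₂ → C₂ → Bool) (e : R₁ ≃ R₂) (e' : C₁ ≃ C₂) :
    diffCount (fun x y => A (e x) (e' y)) (fun x y => B (e x) (e' y)) = diffCount A B := by
  unfold diffCount
  exact Nat.card_congr ((e.prodCongr e').subtypeEquiv (fun _ => Iff.rfl))

section Iso

variable {k : ℕ} {R₁ C₁ R₂ C₂ : Type*} [Preorder R₁] [Preorder C₁] [Preorder R₂] [Preorder C₂]

theorem isCopy_orderIso (H : Fin k → Fin k → Bool) (A : R₂ → C₂ → Bool) (e : R₁ ≃o R₂)
    (e' : C₁ ≃o C₂) (r : Fin k → R₁) (c : Fin k → C₁) :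
    IsCopy H (fun x y => A (e x) (e' y)) r c ↔ IsCopy H A (e ∘ r) (e' ∘ c) := by
  unfold IsCopy
  constructor
  · rintro ⟨h1, h2, h3⟩
    exact ⟨e.strictMono.comp h1, e'.strictMono.comp h2, h3⟩
  · rintro ⟨h1, h2, h3⟩
    refine ⟨?_, ?_, h3⟩
    · intro a b hab
      exact e.lt_iff_lt.mp (h1 hab)
    · intro a b hab
      exact e'.lt_iff_lt.mp (h2 hab)

/-- Transport of the copy count along order isomorphisms. -/
theorem copyCount_orderIso (H : Fin k → Fin k → Bool) (A : R₂ → C₂ → Bool) (e : R₁ ≃o R₂)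
    (e' : C₁ ≃o C₂) : copyCount H (fun x y => A (e x) (e' y)) = copyCount H A := by
  unfold copyCount
  refine Nat.card_congr
    (((Equiv.arrowCongr (Equiv.refl (Fin k)) e.toEquiv).prodCongr
      (Equiv.arrowCongr (Equiv.refl (Fin k)) e'.toEquiv)).subtypeEquiv ?_)
  rintro ⟨r, c⟩
  exact isCopy_orderIso H A e e' r c

theorem hFree_orderIso (H : Fin k → Fin k → Bool) (A : R₂ → C₂ → Bool) (e : R₁ ≃o R₂)
    (e' : C₁ ≃o C₂) : HFree H (fun x y => A (e x) (e' y)) ↔ HFree H A := by
  constructor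
  · intro h r c hc
    refine h (e.symm ∘ r) (e'.symm ∘ c) ?_
    rw [isCopy_orderIso]
    have h1 : (e ∘ e.symm ∘ r) = r := by funext i; simp
    have h2 : (e' ∘ e'.symm ∘ c) = c := by funext i; simp
    rw [h1, h2]
    exact hc
  · intro h
    exact h.comp e.strictMono e'.strictMono

end Iso


section Pad

variable {k : ℕ} {R C P Q : Type*}

/-- Pad a matrix by all-`false` rows (indexed by `P`, placed after all rows of `R`) and
all-`false` columns (indexed by `Q`, placed after all columns of `C`). -/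
def padMat (A : R → C → Bool) : R ⊕ₗ P → C ⊕ₗ Q → Bool :=
  fun x y => Sum.elim (fun r => Sum.elim (fun c => A r c) (fun _ => false) (ofLex y))
    (fun _ => false) (ofLex x)

@[simp] theorem padMat_inl_inl (A : R → C → Bool) (r : R) (c : C) :
    padMat (P := P) (Q := Q) A (toLex (Sum.inl r)) (toLex (Sum.inl c)) = A r c := rfl

theorem padMat_eq_true (A : R → C → Bool) {x : R ⊕ₗ P} {y : C ⊕ₗ Q}
    (h : padMat A x y = true) : ∃ r c, x = toLex (Sum.inl r) ∧ y = toLex (Sum.inl c) := by
  induction x using Lex.rec with | _ x => ?_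
  induction y using Lex.rec with | _ y => ?_
  rcases x with r | p
  · rcases y with c | q
    · exact ⟨r, c, rfl, rfl⟩
    · simp [padMat] at h
  · simp [padMat] at h

theorem diffCount_padMat_ge [Finite R] [Finite C] [Finite P] [Finite Q] (A : R → C → Bool)
    (B : R ⊕ₗ P → C ⊕ₗ Q → Bool) :
    diffCount A (fun r c => B (toLex (Sum.inl r)) (toLex (Sum.inl c))) ≤ diffCount (padMat A) B := by
  have : Finite (R ⊕ₗ P) := Finite.of_equiv (R ⊕ P) toLex
  have : Finite (C ⊕ₗ Q) := Finite.of_equiv (C ⊕ Q) toLex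
  have h := diffCount_comp_le (padMat (P := P) (Q := Q) A) B
    (f := fun r : R => (toLex (Sum.inl r) : R ⊕ₗ P)) (g := fun c : C => (toLex (Sum.inl c) : C ⊕ₗ Q))
    (fun a b hab => Sum.inl_injective (toLex.injective hab))
    (fun a b hab => Sum.inl_injective (toLex.injective hab))
  exact h

variable [LinearOrder R] [LinearOrder C] [LinearOrder P] [LinearOrder Q]

/-- A copy of `H` in the padded matrix lives in the original matrix, provided `H` has no
all-`false` row and no all-`false` column. -/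
theorem IsCopy.of_padMat {H : Fin k → Fin k → Bool} (hrow : ∀ i, ∃ j, H i j = true)
    (hcol : ∀ j, ∃ i, H i j = true) {A : R → C → Bool} {r : Fin k → R ⊕ₗ P}
    {c : Fin k → C ⊕ₗ Q} (h : IsCopy H (padMat A) r c) :
    ∃ (r' : Fin k → R) (c' : Fin k → C), (∀ i, r i = toLex (Sum.inl (r' i))) ∧
      (∀ j, c j = toLex (Sum.inl (c' j))) ∧ IsCopy H A r' c' := by
  have hr : ∀ i, ∃ r₀, r i = toLex (Sum.inl r₀) := by
    intro i
    obtain ⟨j, hj⟩ := hrow i
    have h1 : padMat A (r i) (c j) = true := by rw [h.2.2 i j, hj]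
    obtain ⟨r₀, -, h2, -⟩ := padMat_eq_true A h1
    exact ⟨r₀, h2⟩
  have hc : ∀ j, ∃ c₀, c j = toLex (Sum.inl c₀) := by
    intro j
    obtain ⟨i, hi⟩ := hcol j
    have h1 : padMat A (r i) (c j) = true := by rw [h.2.2 i j, hi]
    obtain ⟨-, c₀, -, h2⟩ := padMat_eq_true A h1
    exact ⟨c₀, h2⟩
  choose r' hr' using hr
  choose c' hc' using hc
  refine ⟨r', c', hr', hc', ?_, ?_, ?_⟩
  · intro a b hab
    have := h.1 hab
    rw [hr' a, hr' b] at this
    exact Sum.Lex.inl_lt_inl_iff.mp this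
  · intro a b hab
    have := h.2.1 hab
    rw [hc' a, hc' b] at this
    exact Sum.Lex.inl_lt_inl_iff.mp this
  · intro i j
    have := h.2.2 i j
    rw [hr' i, hc' j] at this
    exact this

theorem copyCount_padMat_le [Finite R] [Finite C] {H : Fin k → Fin k → Bool}
    (hrow : ∀ i, ∃ j, H i j = true) (hcol : ∀ j, ∃ i, H i j = true) (A : R → C → Bool) :
    copyCount H (padMat (P := P) (Q := Q) A) ≤ copyCount H A := by
  unfold copyCount
  have key : ∀ x : {rc : (Fin k → R ⊕ₗ P) × (Fin k → C ⊕ₗ Q) // IsCopy H (padMat A) rc.1 rc.2},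
      ∃ y : {rc : (Fin k → R) × (Fin k → C) // IsCopy H A rc.1 rc.2},
        (∀ i, x.1.1 i = toLex (Sum.inl (y.1.1 i))) ∧ (∀ j, x.1.2 j = toLex (Sum.inl (y.1.2 j))) := by
    rintro ⟨⟨r, c⟩, h⟩
    obtain ⟨r', c', h1, h2, h3⟩ := h.of_padMat hrow hcol
    exact ⟨⟨(r', c'), h3⟩, h1, h2⟩
  choose f hf using key
  refine Nat.card_le_card_of_injective f ?_
  rintro ⟨⟨r₁, c₁⟩, h₁⟩ ⟨⟨r₂, c₂⟩, h₂⟩ h
  have e1 := hf ⟨⟨r₁, c₁⟩, h₁⟩
  have e2 := hf ⟨⟨r₂, c₂⟩, h₂⟩
  rw [h] at e1
  simp only [Subtype.mk.injEq, Prod.mk.injEq]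
  constructor
  · funext i
    exact (e1.1 i).trans (e2.1 i).symm
  · funext j
    exact (e1.2 j).trans (e2.2 j).symm

end Pad

section Main

variable {k : ℕ}

/-- **Transfer, exact cardinalities.** A design `A'` on finite linearly ordered index types with
exactly `n` rows and `n` columns yields a matrix on `Fin n` with the same number of copies and the
same farness, in the shape used by the frozen statement. -/
theorem exists_fin_matrix (H : Fin k → Fin k → Bool) (n D K : ℕ) {R C : Type*}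
    [LinearOrder R] [Fintype R] [LinearOrder C] [Fintype C]
    (hR : Fintype.card R = n) (hC : Fintype.card C = n) (A' : R → C → Bool)
    (hfar : ∀ B' : R → C → Bool, HFree H B' → D ≤ diffCount A' B')
    (hcount : copyCount H A' ≤ K) :
    ∃ A : Fin n → Fin n → Bool,
      (∀ B : Fin n → Fin n → Bool, orderedCopyCount H B = 0 →
        D ≤ (Finset.univ.filter (fun rc : Fin n × Fin n => A rc.1 rc.2 ≠ B rc.1 rc.2)).card) ∧
      orderedCopyCount H A ≤ K := by
  let e : Fin n ≃o R := Fintype.orderIsoFinOfCardEq R hR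
  let e' : Fin n ≃o C := Fintype.orderIsoFinOfCardEq C hC
  obtain ⟨A, hA⟩ : ∃ A : Fin n → Fin n → Bool, A = fun i j => A' (e i) (e' j) := ⟨_, rfl⟩
  refine ⟨A, ?_, ?_⟩
  · intro B hB
    rw [orderedCopyCount_eq_zero_iff] at hB
    rw [card_filter_ne_eq_diffCount A B]
    have hB' : HFree H (fun x y => B (e.symm x) (e'.symm y)) :=
      hB.comp e.symm.strictMono e'.symm.strictMono
    have h1 := hfar _ hB'
    have h2 := diffCount_equiv A' (fun x y => B (e.symm x) (e'.symm y)) e.toEquiv e'.toEquiv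
    have h3 : (fun (x : Fin n) (y : Fin n) =>
        (fun x y => B (e.symm x) (e'.symm y)) (e.toEquiv x) (e'.toEquiv y)) = B := by
      funext x y
      simp
    have h4 : (fun (x : Fin n) (y : Fin n) => A' (e.toEquiv x) (e'.toEquiv y)) = A := by
      rw [hA]
      rfl
    rw [h3, h4] at h2
    exact h1.trans_eq h2.symm
  · rw [orderedCopyCount_eq_copyCount, hA, copyCount_orderIso H A' e e']
    exact hcount

/-- **Transfer with padding.** A design `A'` on finite linearly ordered index types with at most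
`n` rows and at most `n` columns yields a matrix on `Fin n` (pad by all-`false` lines at the end),
provided the pattern has no all-`false` row and no all-`false` column. -/
theorem exists_fin_matrix_of_le (H : Fin k → Fin k → Bool) (hrow : ∀ i, ∃ j, H i j = true)
    (hcol : ∀ j, ∃ i, H i j = true) (n D K : ℕ) {R C : Type*}
    [LinearOrder R] [Fintype R] [LinearOrder C] [Fintype C]
    (hR : Fintype.card R ≤ n) (hC : Fintype.card C ≤ n) (A' : R → C → Bool)
    (hfar : ∀ B' : R → C → Bool, HFree H B' → D ≤ diffCount A' B')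
    (hcount : copyCount H A' ≤ K) :
    ∃ A : Fin n → Fin n → Bool,
      (∀ B : Fin n → Fin n → Bool, orderedCopyCount H B = 0 →
        D ≤ (Finset.univ.filter (fun rc : Fin n × Fin n => A rc.1 rc.2 ≠ B rc.1 rc.2)).card) ∧
      orderedCopyCount H A ≤ K := by
  refine exists_fin_matrix H n D K (R := R ⊕ₗ Fin (n - Fintype.card R))
    (C := C ⊕ₗ Fin (n - Fintype.card C)) ?_ ?_ (padMat A') ?_ ?_
  · rw [Fintype.card_lex, Fintype.card_sum, Fintype.card_fin]
    omega
  · rw [Fintype.card_lex, Fintype.card_sum, Fintype.card_fin]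
    omega
  · intro B' hB'
    have h1 : HFree H (fun r c => B' (toLex (Sum.inl r)) (toLex (Sum.inl c))) :=
      hB'.comp Sum.Lex.inl_strictMono Sum.Lex.inl_strictMono
    exact (hfar _ h1).trans (diffCount_padMat_ge A' B')
  · exact (copyCount_padMat_le hrow hcol A').trans hcount

end Main

section FrozenShape

/-- Arithmetic core of the count inequality. -/
theorem frozen_aux (m t x : ℝ) (hm : 0 < m) (ht : 0 < t) (hx : x ≤ t * (m * t) ^ 130) :
    x / (m * t) ^ 132 ≤ (m ^ 2)⁻¹ * t⁻¹ := by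
  have hP : 0 < (m * t) ^ 130 := by positivity
  have e : (m * t) ^ 132 = (m * t) ^ 130 * (m * t) ^ 2 := by rw [← pow_add]
  rw [e, div_le_iff₀ (by positivity)]
  refine hx.trans (le_of_eq ?_)
  generalize (m * t) ^ 130 = P
  field_simp

/-- The two real inequalities of the frozen statement S0066 follow from their natural-number
forms: farness `4 ^ h` and at most `2 ^ h * n ^ 130` copies, `n = (386 * h + 2) * 2 ^ h`. -/
theorem frozen_of_nat (H : Fin 66 → Fin 66 → Bool) (h : ℕ)
    (A : Fin ((386 * h + 2) * 2 ^ h) → Fin ((386 * h + 2) * 2 ^ h) → Bool)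
    (hfar : ∀ B : Fin ((386 * h + 2) * 2 ^ h) → Fin ((386 * h + 2) * 2 ^ h) → Bool,
      orderedCopyCount H B = 0 →
        4 ^ h ≤ (Finset.univ.filter (fun rc : Fin ((386 * h + 2) * 2 ^ h) ×
          Fin ((386 * h + 2) * 2 ^ h) => A rc.1 rc.2 ≠ B rc.1 rc.2)).card)
    (hcount : orderedCopyCount H A ≤ 2 ^ h * ((386 * h + 2) * 2 ^ h) ^ 130) :
    (∀ B : Fin ((386 * h + 2) * 2 ^ h) → Fin ((386 * h + 2) * 2 ^ h) → Bool,
        orderedCopyCount H B = 0 →
          ((386 * (h : ℝ) + 2) ^ 2)⁻¹ * (((386 * h + 2) * 2 ^ h : ℕ) : ℝ) ^ 2 ≤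
            ((Finset.univ.filter (fun rc : Fin ((386 * h + 2) * 2 ^ h) ×
              Fin ((386 * h + 2) * 2 ^ h) => A rc.1 rc.2 ≠ B rc.1 rc.2)).card : ℝ)) ∧
      (orderedCopyCount H A : ℝ) / (((386 * h + 2) * 2 ^ h : ℕ) : ℝ) ^ 132 ≤
        ((386 * (h : ℝ) + 2) ^ 2)⁻¹ * (2 : ℝ)⁻¹ ^ h := by
  have hm : (0 : ℝ) < 386 * (h : ℝ) + 2 := by positivity
  have h2 : (0 : ℝ) < (2 : ℝ) ^ h := by positivity
  have hn : (((386 * h + 2) * 2 ^ h : ℕ) : ℝ) = (386 * (h : ℝ) + 2) * 2 ^ h := by push_cast; ring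
  constructor
  · intro B hB
    have h1 := hfar B hB
    have h3 : ((4 ^ h : ℕ) : ℝ) ≤ ((Finset.univ.filter (fun rc : Fin ((386 * h + 2) * 2 ^ h) ×
        Fin ((386 * h + 2) * 2 ^ h) => A rc.1 rc.2 ≠ B rc.1 rc.2)).card : ℝ) := by
      exact_mod_cast h1
    refine le_trans (le_of_eq ?_) h3
    rw [hn]
    push_cast
    have h4 : ((4 : ℝ)) ^ h = (2 ^ h) ^ 2 := by
      rw [← pow_mul, mul_comm, pow_mul]; norm_num
    rw [h4]
    field_simp
  · have h1 : ((orderedCopyCount H A : ℕ) : ℝ) ≤ (2 : ℝ) ^ h * ((386 * (h : ℝ) + 2) * 2 ^ h) ^ 130 := by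
      have : ((orderedCopyCount H A : ℕ) : ℝ) ≤ ((2 ^ h * ((386 * h + 2) * 2 ^ h) ^ 130 : ℕ) : ℝ) := by
        exact_mod_cast hcount
      refine this.trans (le_of_eq ?_)
      rw [Nat.cast_mul, Nat.cast_pow, Nat.cast_pow, hn]
      norm_num
    rw [hn, inv_pow]
    exact frozen_aux _ _ _ hm h2 h1

/-- **One-step interface for the large regime.** For a pattern without all-`false` rows/columns
and a design `A'` on finite linear orders with at most `n = (386 * h + 2) * 2 ^ h` rows and
columns, farness `4 ^ h` and at most `2 ^ h * n ^ 130` copies give the frozen clause for `h`. -/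
theorem frozen_of_design (H : Fin 66 → Fin 66 → Bool) (hrow : ∀ i, ∃ j, H i j = true)
    (hcol : ∀ j, ∃ i, H i j = true) (h : ℕ) {R C : Type*}
    [LinearOrder R] [Fintype R] [LinearOrder C] [Fintype C]
    (hR : Fintype.card R ≤ (386 * h + 2) * 2 ^ h) (hC : Fintype.card C ≤ (386 * h + 2) * 2 ^ h)
    (A' : R → C → Bool)
    (hfar : ∀ B' : R → C → Bool, HFree H B' → 4 ^ h ≤ diffCount A' B')
    (hcount : copyCount H A' ≤ 2 ^ h * ((386 * h + 2) * 2 ^ h) ^ 130) :
    ∃ A : Fin ((386 * h + 2) * 2 ^ h) → Fin ((386 * h + 2) * 2 ^ h) → Bool,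
      (∀ B : Fin ((386 * h + 2) * 2 ^ h) → Fin ((386 * h + 2) * 2 ^ h) → Bool,
        orderedCopyCount H B = 0 →
          ((386 * (h : ℝ) + 2) ^ 2)⁻¹ * (((386 * h + 2) * 2 ^ h : ℕ) : ℝ) ^ 2 ≤
            ((Finset.univ.filter (fun rc : Fin ((386 * h + 2) * 2 ^ h) ×
              Fin ((386 * h + 2) * 2 ^ h) => A rc.1 rc.2 ≠ B rc.1 rc.2)).card : ℝ)) ∧
      (orderedCopyCount H A : ℝ) / (((386 * h + 2) * 2 ^ h : ℕ) : ℝ) ^ 132 ≤
        ((386 * (h : ℝ) + 2) ^ 2)⁻¹ * (2 : ℝ)⁻¹ ^ h := by
  obtain ⟨A, hA1, hA2⟩ := exists_fin_matrix_of_le H hrow hcol _ (4 ^ h)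
    (2 ^ h * ((386 * h + 2) * 2 ^ h) ^ 130) hR hC A' hfar hcount
  exact ⟨A, frozen_of_nat H h A hA1 hA2⟩

end FrozenShape

section Bridge

/-! ### Bridge to `S0066_Small` (helper29): `Good` from a design with AT MOST `n` lines -/

theorem hFree_iff_not_hasCopy {k : ℕ} {ι κ : Type} [Fintype ι] [LinearOrder ι] [Fintype κ]
    [LinearOrder κ] (H : Fin k → Fin k → Bool) (M : ι → κ → Bool) :
    HFree H M ↔ ¬ HasCopy H M := by
  unfold HFree HasCopy IsCopy
  constructor
  · rintro h ⟨r, c, hc⟩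
    exact h r c hc
  · intro h r c hc
    exact h ⟨r, c, hc⟩

theorem diffCount_eq_card_filter {ι κ : Type} [Fintype ι] [Fintype κ] (A B : ι → κ → Bool) :
    diffCount A B = (Finset.univ.filter (fun p : ι × κ => A p.1 p.2 ≠ B p.1 p.2)).card := by
  unfold diffCount
  rw [Nat.card_eq_fintype_card, Fintype.card_subtype]

/-- **Design interface with padding** (in the vocabulary of `S0066_Small`): a design `M` over
finite linear orders with at most `n = (386 * h + 2) * 2 ^ h` rows and columns, for a pattern `H`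
with a `true` in every row and every column, gives a `Good` matrix on `Fin n`. -/
theorem good_of_structured_le (H : Fin 66 → Fin 66 → Bool) (hrow : ∀ i, ∃ j, H i j = true)
    (hcol : ∀ j, ∃ i, H i j = true) (h : ℕ) {ι κ : Type} [Fintype ι] [LinearOrder ι] [Fintype κ]
    [LinearOrder κ]
    (hι : Fintype.card ι ≤ (386 * h + 2) * 2 ^ h) (hκ : Fintype.card κ ≤ (386 * h + 2) * 2 ^ h)
    (M : ι → κ → Bool)
    (hfar : ∀ B : ι → κ → Bool, ¬ HasCopy H B →
      4 ^ h ≤ (Finset.univ.filter (fun p : ι × κ => M p.1 p.2 ≠ B p.1 p.2)).card)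
    (hfew : Nat.card {rc : (Fin 66 → ι) × (Fin 66 → κ) //
        StrictMono rc.1 ∧ StrictMono rc.2 ∧ ∀ i j, M (rc.1 i) (rc.2 j) = H i j} *
          ((386 * h + 2) ^ 2 * 2 ^ h) ≤ ((386 * h + 2) * 2 ^ h) ^ 132) :
    ∃ A : Fin ((386 * h + 2) * 2 ^ h) → Fin ((386 * h + 2) * 2 ^ h) → Bool, Good H h A := by
  refine good_of_structured H h (ι := ι ⊕ₗ Fin ((386 * h + 2) * 2 ^ h - Fintype.card ι))
    (κ := κ ⊕ₗ Fin ((386 * h + 2) * 2 ^ h - Fintype.card κ)) ?_ ?_ (padMat M) ?_ ?_
  · rw [Fintype.card_lex, Fintype.card_sum, Fintype.card_fin]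
    omega
  · rw [Fintype.card_lex, Fintype.card_sum, Fintype.card_fin]
    omega
  · intro B hB
    rw [← hFree_iff_not_hasCopy] at hB
    have h1 : HFree H (fun r c => B (toLex (Sum.inl r)) (toLex (Sum.inl c))) :=
      hB.comp Sum.Lex.inl_strictMono Sum.Lex.inl_strictMono
    rw [hFree_iff_not_hasCopy] at h1
    have h2 := hfar _ h1
    have h3 := diffCount_padMat_ge M B
    rw [diffCount_eq_card_filter, diffCount_eq_card_filter] at h3
    exact h2.trans h3
  · refine le_trans (Nat.mul_le_mul_right _ ?_) hfew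
    exact copyCount_padMat_le hrow hcol M

end Bridge

end Crest.Agent.S0066
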