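import Mathlib
import Crest.Prelude.Def_OrderedMatrix
import Crest.Agent.S0066_Small
import Crest.Agent.S0066_Transfer

/-!
# S0066 — padding for patterns with all-`false` lines: the "core pin" interface (helper21)

The pattern of the zig-zag design is a small core `K` (`a × b`, with a `true` in every row and
every column) sitting inside an otherwise all-`false` `66 × 66` pattern `H`.  For such a pattern the
padding lemma `good_of_structured_le` of `S0066_Transfer` does not apply (it needs a `true` in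
every line of `H`).  This file gives the replacement:

* `RectCopy K M r c` : `(r, c)` is an ordered copy of a rectangular pattern `K` in `M`;
* `padMat_core_pinned` : if every copy of the core `K` in `M` is pinned to a cell of `S` at the
  `K`-position `(i0, j0)`, then every copy of `H` in the padded matrix `padMat M` is pinned to the
  image of `S` at the `H`-position `(ρ i0, γ j0)`;
* `good_of_core_pinned` : **one-step interface** — a design `M` on finite linear orders with AT
  MOST `n = (386 h + 2) 2 ^ h` rows and columns, farness `4 ^ h` from `H`-freeness, and all copies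
  of the core `K` pinned to a set `S` of at most `(65!)² · 2 ^ h` cells gives a `Good` matrix on
  `Fin n`;
* `result_of_core_design` : the frozen statement from a family of such designs for all `h ≥ 1`
  (or only `h ≥ 581`, see `result_of_core_design_large`);
* `cornerPattern K` : the `66 × 66` pattern which is `K` in the bottom-left corner (last `a` rows,
  first `b` columns) and `false` elsewhere, with `cornerRow`, `cornerCol` (the positions of the
  core), `cornerPattern_core`, `cornerPattern_of_lt`, `cornerPattern_of_ge`;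
* `hasCopy_cornerPattern` : exhibiting a copy of `cornerPattern K` (for the farness side);
* `good_of_corner_pinned`, `result_of_corner_design` : the interfaces specialised to
  `H = cornerPattern K`.
-/

set_option autoImplicit false

namespace Crest.Agent.S0066

open Crest.CombinatoricsR.OrderedMatrix

/-- `(r, c)` is an ordered copy of the rectangular pattern `K` in the matrix `M`. -/
def RectCopy {a b : ℕ} {R C : Type*} [Preorder R] [Preorder C] (K : Fin a → Fin b → Bool)
    (M : R → C → Bool) (r : Fin a → R) (c : Fin b → C) : Prop :=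
  StrictMono r ∧ StrictMono c ∧ ∀ i j, M (r i) (c j) = K i j

theorem rectCopy_iff_isCopy {k : ℕ} {R C : Type*} [Preorder R] [Preorder C]
    (H : Fin k → Fin k → Bool) (M : R → C → Bool) (r : Fin k → R) (c : Fin k → C) :
    RectCopy H M r c ↔ IsCopy H M r c := Iff.rfl

/-- A copy of `H` restricts to a copy of every sub-pattern of `H`. -/
theorem RectCopy.sub {k a b : ℕ} {R C : Type*} [Preorder R] [Preorder C]
    {H : Fin k → Fin k → Bool} {K : Fin a → Fin b → Bool} {ρ : Fin a → Fin k} {γ : Fin b → Fin k}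
    (hρ : StrictMono ρ) (hγ : StrictMono γ) (hHK : ∀ i j, H (ρ i) (γ j) = K i j)
    {M : R → C → Bool} {r : Fin k → R} {c : Fin k → C}
    (hr : StrictMono r) (hc : StrictMono c) (hM : ∀ i j, M (r i) (c j) = H i j) :
    RectCopy K M (r ∘ ρ) (c ∘ γ) :=
  ⟨hr.comp hρ, hc.comp hγ, fun i j => by simp only [Function.comp_apply, hM, hHK]⟩

section PadPin

variable {R C P Q : Type*} [LinearOrder R] [LinearOrder C] [LinearOrder P] [LinearOrder Q]

/-- A copy in the padded matrix of a rectangular pattern with a `true` in every row and column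
lives in the original matrix. -/
theorem RectCopy.of_padMat {a b : ℕ} {K : Fin a → Fin b → Bool}
    (hrow : ∀ i, ∃ j, K i j = true) (hcol : ∀ j, ∃ i, K i j = true) {M : R → C → Bool}
    {r : Fin a → R ⊕ₗ P} {c : Fin b → C ⊕ₗ Q} (h : RectCopy K (padMat M) r c) :
    ∃ (r' : Fin a → R) (c' : Fin b → C), (∀ i, r i = toLex (Sum.inl (r' i))) ∧
      (∀ j, c j = toLex (Sum.inl (c' j))) ∧ RectCopy K M r' c' := by
  have hr : ∀ i, ∃ r₀, r i = toLex (Sum.inl r₀) := by
    intro i
    obtain ⟨j, hj⟩ := hrow i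
    have h1 : padMat M (r i) (c j) = true := by rw [h.2.2 i j, hj]
    obtain ⟨r₀, -, h2, -⟩ := padMat_eq_true M h1
    exact ⟨r₀, h2⟩
  have hc : ∀ j, ∃ c₀, c j = toLex (Sum.inl c₀) := by
    intro j
    obtain ⟨i, hi⟩ := hcol j
    have h1 : padMat M (r i) (c j) = true := by rw [h.2.2 i j, hi]
    obtain ⟨-, c₀, -, h2⟩ := padMat_eq_true M h1
    exact ⟨c₀, h2⟩
  choose r' hr' using hr
  choose c' hc' using hc
  refine ⟨r', c', hr', hc', ?_, ?_, ?_⟩
  · intro x y hxy
    have := h.1 hxy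
    rw [hr' x, hr' y] at this
    exact Sum.Lex.inl_lt_inl_iff.mp this
  · intro x y hxy
    have := h.2.1 hxy
    rw [hc' x, hc' y] at this
    exact Sum.Lex.inl_lt_inl_iff.mp this
  · intro i j
    have := h.2.2 i j
    rw [hr' i, hc' j] at this
    exact this

/-- **Pins survive padding.** If every copy of the core `K` in `M` uses a cell of `S` at the
`K`-position `(i0, j0)`, then every copy of a pattern `H` containing `K` (at rows `ρ`, columns `γ`)
in the padded matrix uses a cell of the image of `S` at the `H`-position `(ρ i0, γ j0)`. -/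
theorem padMat_core_pinned [DecidableEq (R ⊕ₗ P)] [DecidableEq (C ⊕ₗ Q)] {k a b : ℕ}
    (H : Fin k → Fin k → Bool) (K : Fin a → Fin b → Bool) (ρ : Fin a → Fin k) (γ : Fin b → Fin k)
    (hρ : StrictMono ρ) (hγ : StrictMono γ) (hHK : ∀ i j, H (ρ i) (γ j) = K i j)
    (hKrow : ∀ i, ∃ j, K i j = true) (hKcol : ∀ j, ∃ i, K i j = true)
    (M : R → C → Bool) (i0 : Fin a) (j0 : Fin b) (S : Finset (R × C))
    (hS : ∀ (r : Fin a → R) (c : Fin b → C), StrictMono r → StrictMono c →
      (∀ i j, M (r i) (c j) = K i j) → (r i0, c j0) ∈ S)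
    (r : Fin k → R ⊕ₗ P) (c : Fin k → C ⊕ₗ Q) (hr : StrictMono r) (hc : StrictMono c)
    (hM : ∀ i j, padMat M (r i) (c j) = H i j) :
    (r (ρ i0), c (γ j0)) ∈
      S.image (fun p : R × C => ((toLex (Sum.inl p.1) : R ⊕ₗ P), (toLex (Sum.inl p.2) : C ⊕ₗ Q))) := by
  have h1 : RectCopy K (padMat (P := P) (Q := Q) M) (r ∘ ρ) (c ∘ γ) :=
    RectCopy.sub hρ hγ hHK hr hc hM
  obtain ⟨r', c', e1, e2, h2⟩ := h1.of_padMat hKrow hKcol
  rw [Finset.mem_image]
  refine ⟨(r' i0, c' j0), hS r' c' h2.1 h2.2.1 h2.2.2, ?_⟩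
  have e1' := e1 i0
  have e2' := e2 j0
  simp only [Function.comp_apply] at e1' e2'
  rw [e1', e2']

end PadPin

section Main

variable {ι κ : Type} [Fintype ι] [LinearOrder ι] [Fintype κ] [LinearOrder κ]

/-- **One-step design interface for a pattern with an isolated core.**  `H` contains the core
`K` at rows `ρ` and columns `γ`; `K` has a `true` in every row and every column (the rest of `H`
is arbitrary — in the intended use all-`false`).  A design `M` over finite linear orders with at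
most `n = (386 * h + 2) * 2 ^ h` rows and columns which is `4 ^ h`-far from `H`-free and in which
every copy of `K` is pinned (at the `K`-cell `(i0, j0)`) to a set `S` of at most `(65!)² · 2 ^ h`
cells gives a `Good` matrix on `Fin n` (pad by all-`false` lines at the end). -/
theorem good_of_core_pinned (H : Fin 66 → Fin 66 → Bool) (h : ℕ) {a b : ℕ}
    (K : Fin a → Fin b → Bool) (ρ : Fin a → Fin 66) (γ : Fin b → Fin 66)
    (hρ : StrictMono ρ) (hγ : StrictMono γ) (hHK : ∀ i j, H (ρ i) (γ j) = K i j)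
    (hKrow : ∀ i, ∃ j, K i j = true) (hKcol : ∀ j, ∃ i, K i j = true)
    (hι : Fintype.card ι ≤ (386 * h + 2) * 2 ^ h) (hκ : Fintype.card κ ≤ (386 * h + 2) * 2 ^ h)
    (M : ι → κ → Bool)
    (hfar : ∀ B : ι → κ → Bool, ¬ HasCopy H B →
      4 ^ h ≤ (Finset.univ.filter (fun p : ι × κ => M p.1 p.2 ≠ B p.1 p.2)).card)
    (i0 : Fin a) (j0 : Fin b) (S : Finset (ι × κ))
    (hScard : S.card ≤ (Nat.factorial 65) ^ 2 * 2 ^ h)
    (hS : ∀ (r : Fin a → ι) (c : Fin b → κ), StrictMono r → StrictMono c →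
      (∀ i j, M (r i) (c j) = K i j) → (r i0, c j0) ∈ S) :
    ∃ A : Fin ((386 * h + 2) * 2 ^ h) → Fin ((386 * h + 2) * 2 ^ h) → Bool, Good H h A := by
  classical
  have cι : Fintype.card (ι ⊕ₗ Fin ((386 * h + 2) * 2 ^ h - Fintype.card ι)) =
      (386 * h + 2) * 2 ^ h := by
    rw [Fintype.card_lex, Fintype.card_sum, Fintype.card_fin]
    omega
  have cκ : Fintype.card (κ ⊕ₗ Fin ((386 * h + 2) * 2 ^ h - Fintype.card κ)) =
      (386 * h + 2) * 2 ^ h := by
    rw [Fintype.card_lex, Fintype.card_sum, Fintype.card_fin]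
    omega
  refine good_of_structured H h (ι := ι ⊕ₗ Fin ((386 * h + 2) * 2 ^ h - Fintype.card ι))
    (κ := κ ⊕ₗ Fin ((386 * h + 2) * 2 ^ h - Fintype.card κ)) cι cκ (padMat M) ?_ ?_
  · intro B hB
    rw [← hFree_iff_not_hasCopy] at hB
    have h1 : HFree H (fun r c => B (toLex (Sum.inl r)) (toLex (Sum.inl c))) :=
      hB.comp Sum.Lex.inl_strictMono Sum.Lex.inl_strictMono
    rw [hFree_iff_not_hasCopy] at h1
    have h2 := hfar _ h1
    have h3 := diffCount_padMat_ge M B
    rw [diffCount_eq_card_filter, diffCount_eq_card_filter] at h3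
    exact h2.trans h3
  · refine structured_few_of_pinned H h cι cκ (padMat M) (ρ i0) (γ j0)
      (S.image (fun p : ι × κ =>
        ((toLex (Sum.inl p.1) : ι ⊕ₗ Fin ((386 * h + 2) * 2 ^ h - Fintype.card ι)),
         (toLex (Sum.inl p.2) : κ ⊕ₗ Fin ((386 * h + 2) * 2 ^ h - Fintype.card κ))))) ?_ ?_
    · exact Finset.card_image_le.trans hScard
    · intro r c hr hc hM
      exact padMat_core_pinned H K ρ γ hρ hγ hHK hKrow hKcol M i0 j0 S hS r c hr hc hM

/-- The frozen statement from core-pinned designs for all `h ≥ 581` (the small regime is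
`small_regime` of `S0066_Small`). -/
theorem result_of_core_design_large (H : Fin 66 → Fin 66 → Bool) {a b : ℕ}
    (K : Fin a → Fin b → Bool) (ρ : Fin a → Fin 66) (γ : Fin b → Fin 66)
    (hρ : StrictMono ρ) (hγ : StrictMono γ) (hHK : ∀ i j, H (ρ i) (γ j) = K i j)
    (hKrow : ∀ i, ∃ j, K i j = true) (hKcol : ∀ j, ∃ i, K i j = true)
    (i0 : Fin a) (j0 : Fin b)
    (design : ∀ h : ℕ, 581 ≤ h → ∃ (ι κ : Type) (_ : Fintype ι) (_ : LinearOrder ι)
      (_ : Fintype κ) (_ : LinearOrder κ) (M : ι → κ → Bool) (S : Finset (ι × κ)),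
      Fintype.card ι ≤ (386 * h + 2) * 2 ^ h ∧ Fintype.card κ ≤ (386 * h + 2) * 2 ^ h ∧
      (∀ B : ι → κ → Bool, ¬ HasCopy H B →
        4 ^ h ≤ (Finset.univ.filter (fun p : ι × κ => M p.1 p.2 ≠ B p.1 p.2)).card) ∧
      S.card ≤ (Nat.factorial 65) ^ 2 * 2 ^ h ∧
      (∀ (r : Fin a → ι) (c : Fin b → κ), StrictMono r → StrictMono c →
        (∀ i j, M (r i) (c j) = K i j) → (r i0, c j0) ∈ S)) :
    ∃ H : Fin 66 → Fin 66 → Bool, ∀ h : ℕ, 1 ≤ h →
      ∃ A : Fin ((386 * h + 2) * 2 ^ h) → Fin ((386 * h + 2) * 2 ^ h) → Bool,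
        (∀ B : Fin ((386 * h + 2) * 2 ^ h) → Fin ((386 * h + 2) * 2 ^ h) → Bool,
          Crest.CombinatoricsR.OrderedMatrix.orderedCopyCount H B = 0 →
            ((386 * (h : ℝ) + 2) ^ 2)⁻¹ * (((386 * h + 2) * 2 ^ h : ℕ) : ℝ) ^ 2 ≤
              ((Finset.univ.filter (fun rc : Fin ((386 * h + 2) * 2 ^ h) × Fin ((386 * h + 2) * 2 ^ h) =>
                A rc.1 rc.2 ≠ B rc.1 rc.2)).card : ℝ)) ∧
        (Crest.CombinatoricsR.OrderedMatrix.orderedCopyCount H A : ℝ) /
            (((386 * h + 2) * 2 ^ h : ℕ) : ℝ) ^ 132 ≤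
          ((386 * (h : ℝ) + 2) ^ 2)⁻¹ * (2 : ℝ)⁻¹ ^ h := by
  refine result_of_large H (fun h hh => ?_)
  obtain ⟨ι, κ, i1, i2, i3, i4, M, S, hι, hκ, hfar, hScard, hS⟩ := design h hh
  exact good_of_core_pinned H h K ρ γ hρ hγ hHK hKrow hKcol hι hκ M hfar i0 j0 S hScard hS

/-- The frozen statement from core-pinned designs for all `h ≥ 1`. -/
theorem result_of_core_design (H : Fin 66 → Fin 66 → Bool) {a b : ℕ}
    (K : Fin a → Fin b → Bool) (ρ : Fin a → Fin 66) (γ : Fin b → Fin 66)
    (hρ : StrictMono ρ) (hγ : StrictMono γ) (hHK : ∀ i j, H (ρ i) (γ j) = K i j)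
    (hKrow : ∀ i, ∃ j, K i j = true) (hKcol : ∀ j, ∃ i, K i j = true)
    (i0 : Fin a) (j0 : Fin b)
    (design : ∀ h : ℕ, 1 ≤ h → ∃ (ι κ : Type) (_ : Fintype ι) (_ : LinearOrder ι)
      (_ : Fintype κ) (_ : LinearOrder κ) (M : ι → κ → Bool) (S : Finset (ι × κ)),
      Fintype.card ι ≤ (386 * h + 2) * 2 ^ h ∧ Fintype.card κ ≤ (386 * h + 2) * 2 ^ h ∧
      (∀ B : ι → κ → Bool, ¬ HasCopy H B →
        4 ^ h ≤ (Finset.univ.filter (fun p : ι × κ => M p.1 p.2 ≠ B p.1 p.2)).card) ∧
      S.card ≤ (Nat.factorial 65) ^ 2 * 2 ^ h ∧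
      (∀ (r : Fin a → ι) (c : Fin b → κ), StrictMono r → StrictMono c →
        (∀ i j, M (r i) (c j) = K i j) → (r i0, c j0) ∈ S)) :
    ∃ H : Fin 66 → Fin 66 → Bool, ∀ h : ℕ, 1 ≤ h →
      ∃ A : Fin ((386 * h + 2) * 2 ^ h) → Fin ((386 * h + 2) * 2 ^ h) → Bool,
        (∀ B : Fin ((386 * h + 2) * 2 ^ h) → Fin ((386 * h + 2) * 2 ^ h) → Bool,
          Crest.CombinatoricsR.OrderedMatrix.orderedCopyCount H B = 0 →
            ((386 * (h : ℝ) + 2) ^ 2)⁻¹ * (((386 * h + 2) * 2 ^ h : ℕ) : ℝ) ^ 2 ≤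
              ((Finset.univ.filter (fun rc : Fin ((386 * h + 2) * 2 ^ h) × Fin ((386 * h + 2) * 2 ^ h) =>
                A rc.1 rc.2 ≠ B rc.1 rc.2)).card : ℝ)) ∧
        (Crest.CombinatoricsR.OrderedMatrix.orderedCopyCount H A : ℝ) /
            (((386 * h + 2) * 2 ^ h : ℕ) : ℝ) ^ 132 ≤
          ((386 * (h : ℝ) + 2) ^ 2)⁻¹ * (2 : ℝ)⁻¹ ^ h :=
  result_of_core_design_large H K ρ γ hρ hγ hHK hKrow hKcol i0 j0
    (fun h hh => design h (by omega))

end Main

section Corner

/-- The `66 × 66` pattern equal to `K` on the last `a` rows × first `b` columns and `false`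
elsewhere. -/
def cornerPattern {a b : ℕ} (K : Fin a → Fin b → Bool) : Fin 66 → Fin 66 → Bool :=
  fun i j => if h : 66 - a ≤ i.val ∧ i.val - (66 - a) < a ∧ j.val < b then
    K ⟨i.val - (66 - a), h.2.1⟩ ⟨j.val, h.2.2⟩ else false

/-- Row of `cornerPattern K` carrying the `i`-th row of `K`. -/
def cornerRow {a : ℕ} (ha : a ≤ 66) (i : Fin a) : Fin 66 := ⟨66 - a + i.val, by omega⟩

/-- Column of `cornerPattern K` carrying the `j`-th column of `K`. -/
def cornerCol {b : ℕ} (hb : b ≤ 66) (j : Fin b) : Fin 66 := ⟨j.val, by omega⟩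

theorem cornerRow_strictMono {a : ℕ} (ha : a ≤ 66) : StrictMono (cornerRow ha) := by
  intro x y hxy
  have : x.val < y.val := hxy
  show (cornerRow ha x).val < (cornerRow ha y).val
  simp only [cornerRow]
  omega

theorem cornerCol_strictMono {b : ℕ} (hb : b ≤ 66) : StrictMono (cornerCol hb) := by
  intro x y hxy
  exact hxy

theorem cornerPattern_core {a b : ℕ} (ha : a ≤ 66) (hb : b ≤ 66) (K : Fin a → Fin b → Bool)
    (i : Fin a) (j : Fin b) : cornerPattern K (cornerRow ha i) (cornerCol hb j) = K i j := by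
  unfold cornerPattern cornerRow cornerCol
  have h1 : 66 - a + i.val - (66 - a) = i.val := by omega
  have hc : 66 - a ≤ 66 - a + i.val ∧ 66 - a + i.val - (66 - a) < a ∧ j.val < b :=
    ⟨by omega, by omega, j.2⟩
  simp only [dif_pos hc]
  congr 1
  exact Fin.ext h1

theorem cornerPattern_of_lt {a b : ℕ} (K : Fin a → Fin b → Bool) (i j : Fin 66)
    (hi : i.val < 66 - a) : cornerPattern K i j = false := by
  unfold cornerPattern
  rw [dif_neg]
  omega

theorem cornerPattern_of_ge {a b : ℕ} (K : Fin a → Fin b → Bool) (i j : Fin 66)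
    (hj : b ≤ j.val) : cornerPattern K i j = false := by
  unfold cornerPattern
  rw [dif_neg]
  omega

/-- Every entry of `cornerPattern K` is either an entry of the core or `false`. -/
theorem cornerPattern_cases {a b : ℕ} (ha : a ≤ 66) (hb : b ≤ 66) (K : Fin a → Fin b → Bool)
    (i j : Fin 66) :
    (i.val < 66 - a ∧ cornerPattern K i j = false) ∨ (b ≤ j.val ∧ cornerPattern K i j = false) ∨
      ∃ (i' : Fin a) (j' : Fin b), i = cornerRow ha i' ∧ j = cornerCol hb j' ∧
        cornerPattern K i j = K i' j' := by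
  by_cases hi : i.val < 66 - a
  · exact Or.inl ⟨hi, cornerPattern_of_lt K i j hi⟩
  · by_cases hj : b ≤ j.val
    · exact Or.inr (Or.inl ⟨hj, cornerPattern_of_ge K i j hj⟩)
    · refine Or.inr (Or.inr ⟨⟨i.val - (66 - a), by omega⟩, ⟨j.val, by omega⟩, ?_, ?_, ?_⟩)
      · apply Fin.ext
        simp only [cornerRow]
        omega
      · rfl
      · have e1 : i = cornerRow ha ⟨i.val - (66 - a), by omega⟩ := by
          apply Fin.ext
          simp only [cornerRow]
          omega
        have e2 : j = cornerCol hb ⟨j.val, by omega⟩ := rfl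
        conv_lhs => rw [e1, e2]
        exact cornerPattern_core ha hb K _ _

variable {ι κ : Type} [Fintype ι] [LinearOrder ι] [Fintype κ] [LinearOrder κ]

omit [Fintype ι] [Fintype κ] in
/-- **Exhibiting a copy of `cornerPattern K`** (farness side): `66` increasing rows and `66`
increasing columns such that the last `a` rows × first `b` columns show `K`, the first `66 - a`
rows are `false` on all chosen columns, and the last `66 - b` columns are `false` on all chosen
rows. -/
theorem hasCopy_cornerPattern {a b : ℕ} (ha : a ≤ 66) (hb : b ≤ 66) (K : Fin a → Fin b → Bool)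
    (B : ι → κ → Bool) (r : Fin 66 → ι) (c : Fin 66 → κ) (hr : StrictMono r) (hc : StrictMono c)
    (hK : ∀ (i : Fin a) (j : Fin b), B (r (cornerRow ha i)) (c (cornerCol hb j)) = K i j)
    (hrow : ∀ i j : Fin 66, i.val < 66 - a → B (r i) (c j) = false)
    (hcol : ∀ i j : Fin 66, b ≤ j.val → B (r i) (c j) = false) :
    HasCopy (cornerPattern K) B := by
  refine ⟨r, c, hr, hc, fun i j => ?_⟩
  rcases cornerPattern_cases ha hb K i j with ⟨hi, e⟩ | ⟨hj, e⟩ | ⟨i', j', rfl, rfl, e⟩
  · rw [e]; exact hrow i j hi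
  · rw [e]; exact hcol i j hj
  · rw [e]; exact hK i' j'

/-- `good_of_core_pinned` for `H = cornerPattern K`. -/
theorem good_of_corner_pinned (h : ℕ) {a b : ℕ} (ha : a ≤ 66) (hb : b ≤ 66)
    (K : Fin a → Fin b → Bool)
    (hKrow : ∀ i, ∃ j, K i j = true) (hKcol : ∀ j, ∃ i, K i j = true)
    (hι : Fintype.card ι ≤ (386 * h + 2) * 2 ^ h) (hκ : Fintype.card κ ≤ (386 * h + 2) * 2 ^ h)
    (M : ι → κ → Bool)
    (hfar : ∀ B : ι → κ → Bool, ¬ HasCopy (cornerPattern K) B →
      4 ^ h ≤ (Finset.univ.filter (fun p : ι × κ => M p.1 p.2 ≠ B p.1 p.2)).card)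
    (i0 : Fin a) (j0 : Fin b) (S : Finset (ι × κ))
    (hScard : S.card ≤ (Nat.factorial 65) ^ 2 * 2 ^ h)
    (hS : ∀ (r : Fin a → ι) (c : Fin b → κ), StrictMono r → StrictMono c →
      (∀ i j, M (r i) (c j) = K i j) → (r i0, c j0) ∈ S) :
    ∃ A : Fin ((386 * h + 2) * 2 ^ h) → Fin ((386 * h + 2) * 2 ^ h) → Bool,
      Good (cornerPattern K) h A :=
  good_of_core_pinned (cornerPattern K) h K (cornerRow ha) (cornerCol hb)
    (cornerRow_strictMono ha) (cornerCol_strictMono hb) (cornerPattern_core ha hb K)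
    hKrow hKcol hι hκ M hfar i0 j0 S hScard hS

/-- The frozen statement from corner-pattern designs for all `h ≥ 581`. -/
theorem result_of_corner_design {a b : ℕ} (ha : a ≤ 66) (hb : b ≤ 66)
    (K : Fin a → Fin b → Bool)
    (hKrow : ∀ i, ∃ j, K i j = true) (hKcol : ∀ j, ∃ i, K i j = true)
    (i0 : Fin a) (j0 : Fin b)
    (design : ∀ h : ℕ, 581 ≤ h → ∃ (ι κ : Type) (_ : Fintype ι) (_ : LinearOrder ι)
      (_ : Fintype κ) (_ : LinearOrder κ) (M : ι → κ → Bool) (S : Finset (ι × κ)),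
      Fintype.card ι ≤ (386 * h + 2) * 2 ^ h ∧ Fintype.card κ ≤ (386 * h + 2) * 2 ^ h ∧
      (∀ B : ι → κ → Bool, ¬ HasCopy (cornerPattern K) B →
        4 ^ h ≤ (Finset.univ.filter (fun p : ι × κ => M p.1 p.2 ≠ B p.1 p.2)).card) ∧
      S.card ≤ (Nat.factorial 65) ^ 2 * 2 ^ h ∧
      (∀ (r : Fin a → ι) (c : Fin b → κ), StrictMono r → StrictMono c →
        (∀ i j, M (r i) (c j) = K i j) → (r i0, c j0) ∈ S)) :
    ∃ H : Fin 66 → Fin 66 → Bool, ∀ h : ℕ, 1 ≤ h →
      ∃ A : Fin ((386 * h + 2) * 2 ^ h) → Fin ((386 * h + 2) * 2 ^ h) → Bool,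
        (∀ B : Fin ((386 * h + 2) * 2 ^ h) → Fin ((386 * h + 2) * 2 ^ h) → Bool,
          Crest.CombinatoricsR.OrderedMatrix.orderedCopyCount H B = 0 →
            ((386 * (h : ℝ) + 2) ^ 2)⁻¹ * (((386 * h + 2) * 2 ^ h : ℕ) : ℝ) ^ 2 ≤
              ((Finset.univ.filter (fun rc : Fin ((386 * h + 2) * 2 ^ h) × Fin ((386 * h + 2) * 2 ^ h) =>
                A rc.1 rc.2 ≠ B rc.1 rc.2)).card : ℝ)) ∧
        (Crest.CombinatoricsR.OrderedMatrix.orderedCopyCount H A : ℝ) /
            (((386 * h + 2) * 2 ^ h : ℕ) : ℝ) ^ 132 ≤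
          ((386 * (h : ℝ) + 2) ^ 2)⁻¹ * (2 : ℝ)⁻¹ ^ h :=
  result_of_core_design_large (cornerPattern K) K (cornerRow ha) (cornerCol hb)
    (cornerRow_strictMono ha) (cornerCol_strictMono hb) (cornerPattern_core ha hb K)
    hKrow hKcol i0 j0 design

end Corner

end Crest.Agent.S0066
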