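import Mathlib
import Crest.Agent.S0066_Design
import Crest.Agent.S0066_ZZClass
import Crest.Agent.S0066_Pin

/-!
# S0066 — index-side facts for the zig-zag design (helper21, module [Idx])

On top of helper8's `S0066_Design` (types `Row h`, `Col h`, keys, order, `M`, `H66`), helper6's
`S0066_ZZClass` (`zzK`) and `S0066_Pin` (`cornerPattern`):

* the pattern: `zzK_eq_Kc`, `H66_eq_cornerPattern : H66 = cornerPattern zzK`, `zzK_row`, `zzK_col`
  (a `true` in every line), `zzK_injective`, `zzK_col_injective` (pairwise distinct lines);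
* cardinalities in the `≤` form used by `good_of_corner_pinned`: `Row.card_le`, `Col.card_le`;
* the twin classes as finsets, each of cardinality `2 * 2 ^ h`, with membership lemmas:
  `Row.zeroCl j`, `Row.tauCl k`, `Row.rhoCl k d`, `Col.lamCl`, `Col.omCl e`, `Col.gamCl k d`,
  `Col.ttCl k`, `Col.psiCl k`, `Col.zeroCl j`;
* the leaf maps `Row.leaf`, `Col.leaf` (`some x` exactly on the special lines of leaf `x`) and
  the fact that twin classes consist of non-special lines;
* zero lines: `M_zero_row`, `M_fill_row`, `M_zero_col`, `M_fill_col`, `M_of_mem_zeroCl_row`,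
  `M_of_mem_zeroCl_col`;
* zone order: zero rows come first and are ordered by class (`Row.zeroCl_lt_zeroCl`,
  `Row.zeroCl_lt`), special rows come after all twin rows (`Row.lt_spec`), zero columns come
  after all non-zero, non-filler columns (`Col.zeroCl_lt_zeroCl`, `Col.lt_zeroCl`).
-/

set_option autoImplicit false

namespace Crest.Agent.S0066

/-! ### The pattern -/

theorem zzK_eq_Kc : ∀ (i : Fin 3) (j : Fin 4), zzK i j = decide (Kc i.val j.val) := by decide

theorem zzK_row : ∀ i, ∃ j, zzK i j = true := by decide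

theorem zzK_col : ∀ j, ∃ i, zzK i j = true := by decide

/-- The rows of `K` are pairwise distinct. -/
theorem zzK_injective : Function.Injective zzK := by
  intro i i' hii
  have h : ∀ i i' : Fin 3, (∀ j, zzK i j = zzK i' j) → i = i' := by decide
  exact h i i' (fun j => congrFun hii j)

/-- The columns of `K` are pairwise distinct. -/
theorem zzK_col_injective : ∀ j j' : Fin 4, (∀ i, zzK i j = zzK i j') → j = j' := by decide

/-- helper8's `H66` is the corner pattern of `zzK` (last 3 rows × first 4 columns). -/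
theorem H66_eq_cornerPattern : H66 = cornerPattern zzK := by
  funext i j
  rcases cornerPattern_cases (a := 3) (b := 4) (by norm_num) (by norm_num) zzK i j with
    ⟨hi, e⟩ | ⟨hj, e⟩ | ⟨i', j', rfl, rfl, e⟩
  · rw [e]
    unfold H66
    rw [decide_eq_false_iff_not]
    omega
  · rw [e]
    unfold H66 Kc
    rw [decide_eq_false_iff_not]
    omega
  · rw [e, zzK_eq_Kc]
    unfold H66
    have h1 : (cornerRow (a := 3) (by norm_num) i').val = 63 + i'.val := rfl
    have h2 : (cornerCol (b := 4) (by norm_num) j').val = j'.val := rfl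
    rw [h1, h2]
    have h3 : 63 + i'.val - 63 = i'.val := by omega
    rw [h3]
    have h4 : 63 ≤ 63 + i'.val := by omega
    simp only [h4, true_and]

variable {h : ℕ}

/-! ### Cardinalities (`≤` form) -/

theorem Row.card_le (h1 : 1 ≤ h) : Fintype.card (Row h) ≤ (386 * h + 2) * 2 ^ h :=
  (Row.card h1).le

theorem Col.card_le (h1 : 1 ≤ h) : Fintype.card (Col h) ≤ (386 * h + 2) * 2 ^ h :=
  (Col.card h1).le

/-! ### Leaf maps -/

/-- The leaf of a special row; `none` for every other row. -/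
def Row.leaf : Row h → Option (Fin (2 ^ h))
  | .spec x _ => some x
  | _ => none

/-- The leaf of a special column; `none` for every other column. -/
def Col.leaf : Col h → Option (Fin (2 ^ h))
  | .spec u _ => some u
  | _ => none

@[simp] theorem Row.leaf_spec (x : Fin (2 ^ h)) (a : Fin (h + 1)) :
    (Row.spec x a).leaf = some x := rfl
@[simp] theorem Row.leaf_zero (j : Fin 63) (t : Fin (2 * 2 ^ h)) :
    (Row.zero j t : Row h).leaf = none := rfl
@[simp] theorem Row.leaf_fill (t : Fin (fillR h)) : (Row.fill t : Row h).leaf = none := rfl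
@[simp] theorem Row.leaf_tau (k : Fin (2 * h + 1)) (t : Fin (2 * 2 ^ h)) :
    (Row.tau k t : Row h).leaf = none := rfl
@[simp] theorem Row.leaf_rho (k : Fin (2 * h + 1)) (d : Fin 2) (t : Fin (2 * 2 ^ h)) :
    (Row.rho k d t : Row h).leaf = none := rfl

@[simp] theorem Col.leaf_spec (u : Fin (2 ^ h)) (b : Fin h) : (Col.spec u b).leaf = some u := rfl
@[simp] theorem Col.leaf_lam (t : Fin (2 * 2 ^ h)) : (Col.lam t : Col h).leaf = none := rfl
@[simp] theorem Col.leaf_om (e : Fin 2) (t : Fin (2 * 2 ^ h)) :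
    (Col.om e t : Col h).leaf = none := rfl
@[simp] theorem Col.leaf_gam (k : Fin (2 * h + 1)) (d : Fin 2) (t : Fin (2 * 2 ^ h)) :
    (Col.gam k d t : Col h).leaf = none := rfl
@[simp] theorem Col.leaf_tt (k : Fin (2 * h + 1)) (t : Fin (2 * 2 ^ h)) :
    (Col.tt k t : Col h).leaf = none := rfl
@[simp] theorem Col.leaf_psi (k : Fin (2 * h + 1)) (t : Fin (2 * 2 ^ h)) :
    (Col.psi k t : Col h).leaf = none := rfl
@[simp] theorem Col.leaf_zero (j : Fin 62) (t : Fin (2 * 2 ^ h)) :
    (Col.zero j t : Col h).leaf = none := rfl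
@[simp] theorem Col.leaf_fill (t : Fin (fillC h)) : (Col.fill t : Col h).leaf = none := rfl

theorem Row.leaf_eq_some_iff (r : Row h) (x : Fin (2 ^ h)) :
    r.leaf = some x ↔ ∃ a, r = Row.spec x a := by
  cases r <;> simp [Row.leaf]

theorem Col.leaf_eq_some_iff (c : Col h) (u : Fin (2 ^ h)) :
    c.leaf = some u ↔ ∃ b, c = Col.spec u b := by
  cases c <;> simp [Col.leaf]

/-! ### Twin classes of rows -/

namespace Row

/-- The `j`-th all-zero twin class of rows. -/
def zeroCl (j : Fin 63) : Finset (Row h) :=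
  Finset.univ.map ⟨Row.zero j, fun _ _ e => Row.zero.inj e |>.2⟩

/-- The twin class `τ_k`. -/
def tauCl (k : Fin (2 * h + 1)) : Finset (Row h) :=
  Finset.univ.map ⟨Row.tau k, fun _ _ e => Row.tau.inj e |>.2⟩

/-- The twin class `ρ_k^d`. -/
def rhoCl (k : Fin (2 * h + 1)) (d : Fin 2) : Finset (Row h) :=
  Finset.univ.map ⟨Row.rho k d, fun _ _ e => Row.rho.inj e |>.2.2⟩

@[simp] theorem mem_zeroCl {j : Fin 63} {r : Row h} : r ∈ zeroCl j ↔ ∃ t, Row.zero j t = r := by
  simp [zeroCl]

@[simp] theorem mem_tauCl {k : Fin (2 * h + 1)} {r : Row h} :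
    r ∈ tauCl k ↔ ∃ t, Row.tau k t = r := by
  simp [tauCl]

@[simp] theorem mem_rhoCl {k : Fin (2 * h + 1)} {d : Fin 2} {r : Row h} :
    r ∈ rhoCl k d ↔ ∃ t, Row.rho k d t = r := by
  simp [rhoCl]

@[simp] theorem card_zeroCl (j : Fin 63) : (zeroCl (h := h) j).card = 2 * 2 ^ h := by
  simp [zeroCl]

@[simp] theorem card_tauCl (k : Fin (2 * h + 1)) : (tauCl k).card = 2 * 2 ^ h := by
  simp [tauCl]

@[simp] theorem card_rhoCl (k : Fin (2 * h + 1)) (d : Fin 2) : (rhoCl k d).card = 2 * 2 ^ h := by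
  simp [rhoCl]

theorem leaf_of_mem_zeroCl {j : Fin 63} {r : Row h} (hr : r ∈ zeroCl j) : r.leaf = none := by
  obtain ⟨t, rfl⟩ := mem_zeroCl.mp hr
  rfl

theorem leaf_of_mem_tauCl {k : Fin (2 * h + 1)} {r : Row h} (hr : r ∈ tauCl k) :
    r.leaf = none := by
  obtain ⟨t, rfl⟩ := mem_tauCl.mp hr
  rfl

theorem leaf_of_mem_rhoCl {k : Fin (2 * h + 1)} {d : Fin 2} {r : Row h} (hr : r ∈ rhoCl k d) :
    r.leaf = none := by
  obtain ⟨t, rfl⟩ := mem_rhoCl.mp hr
  rfl

end Row

/-! ### Twin classes of columns -/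

namespace Col

/-- The twin class `Λ`. -/
def lamCl : Finset (Col h) :=
  Finset.univ.map ⟨Col.lam, fun _ _ e => Col.lam.inj e⟩

/-- The twin class `Ω^e`. -/
def omCl (e : Fin 2) : Finset (Col h) :=
  Finset.univ.map ⟨Col.om e, fun _ _ e' => Col.om.inj e' |>.2⟩

/-- The twin class `γ_k^d`. -/
def gamCl (k : Fin (2 * h + 1)) (d : Fin 2) : Finset (Col h) :=
  Finset.univ.map ⟨Col.gam k d, fun _ _ e => Col.gam.inj e |>.2.2⟩

/-- The twin class `t_k`. -/
def ttCl (k : Fin (2 * h + 1)) : Finset (Col h) :=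
  Finset.univ.map ⟨Col.tt k, fun _ _ e => Col.tt.inj e |>.2⟩

/-- The twin class `ψ_k`. -/
def psiCl (k : Fin (2 * h + 1)) : Finset (Col h) :=
  Finset.univ.map ⟨Col.psi k, fun _ _ e => Col.psi.inj e |>.2⟩

/-- The `j`-th all-zero twin class of columns. -/
def zeroCl (j : Fin 62) : Finset (Col h) :=
  Finset.univ.map ⟨Col.zero j, fun _ _ e => Col.zero.inj e |>.2⟩

@[simp] theorem mem_lamCl {c : Col h} : c ∈ lamCl ↔ ∃ t, Col.lam t = c := by
  simp [lamCl]

@[simp] theorem mem_omCl {e : Fin 2} {c : Col h} : c ∈ omCl e ↔ ∃ t, Col.om e t = c := by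
  simp [omCl]

@[simp] theorem mem_gamCl {k : Fin (2 * h + 1)} {d : Fin 2} {c : Col h} :
    c ∈ gamCl k d ↔ ∃ t, Col.gam k d t = c := by
  simp [gamCl]

@[simp] theorem mem_ttCl {k : Fin (2 * h + 1)} {c : Col h} : c ∈ ttCl k ↔ ∃ t, Col.tt k t = c := by
  simp [ttCl]

@[simp] theorem mem_psiCl {k : Fin (2 * h + 1)} {c : Col h} :
    c ∈ psiCl k ↔ ∃ t, Col.psi k t = c := by
  simp [psiCl]

@[simp] theorem mem_zeroCl {j : Fin 62} {c : Col h} : c ∈ zeroCl j ↔ ∃ t, Col.zero j t = c := by
  simp [zeroCl]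

@[simp] theorem card_lamCl : (lamCl (h := h)).card = 2 * 2 ^ h := by
  simp [lamCl]

@[simp] theorem card_omCl (e : Fin 2) : (omCl (h := h) e).card = 2 * 2 ^ h := by
  simp [omCl]

@[simp] theorem card_gamCl (k : Fin (2 * h + 1)) (d : Fin 2) : (gamCl k d).card = 2 * 2 ^ h := by
  simp [gamCl]

@[simp] theorem card_ttCl (k : Fin (2 * h + 1)) : (ttCl k).card = 2 * 2 ^ h := by
  simp [ttCl]

@[simp] theorem card_psiCl (k : Fin (2 * h + 1)) : (psiCl k).card = 2 * 2 ^ h := by
  simp [psiCl]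

@[simp] theorem card_zeroCl (j : Fin 62) : (zeroCl (h := h) j).card = 2 * 2 ^ h := by
  simp [zeroCl]

theorem leaf_of_mem_lamCl {c : Col h} (hc : c ∈ lamCl) : c.leaf = none := by
  obtain ⟨t, rfl⟩ := mem_lamCl.mp hc
  rfl

theorem leaf_of_mem_omCl {e : Fin 2} {c : Col h} (hc : c ∈ omCl e) : c.leaf = none := by
  obtain ⟨t, rfl⟩ := mem_omCl.mp hc
  rfl

theorem leaf_of_mem_gamCl {k : Fin (2 * h + 1)} {d : Fin 2} {c : Col h} (hc : c ∈ gamCl k d) :
    c.leaf = none := by
  obtain ⟨t, rfl⟩ := mem_gamCl.mp hc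
  rfl

theorem leaf_of_mem_ttCl {k : Fin (2 * h + 1)} {c : Col h} (hc : c ∈ ttCl k) : c.leaf = none := by
  obtain ⟨t, rfl⟩ := mem_ttCl.mp hc
  rfl

theorem leaf_of_mem_psiCl {k : Fin (2 * h + 1)} {c : Col h} (hc : c ∈ psiCl k) :
    c.leaf = none := by
  obtain ⟨t, rfl⟩ := mem_psiCl.mp hc
  rfl

theorem leaf_of_mem_zeroCl {j : Fin 62} {c : Col h} (hc : c ∈ zeroCl j) : c.leaf = none := by
  obtain ⟨t, rfl⟩ := mem_zeroCl.mp hc
  rfl

end Col

/-! ### Zero lines -/

@[simp] theorem M_zero_row (j : Fin 63) (t : Fin (2 * 2 ^ h)) (c : Col h) :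
    M h (Row.zero j t) c = false := by
  cases c <;> rfl

@[simp] theorem M_fill_row (t : Fin (fillR h)) (c : Col h) : M h (Row.fill t) c = false := by
  cases c <;> rfl

@[simp] theorem M_zero_col (r : Row h) (j : Fin 62) (t : Fin (2 * 2 ^ h)) :
    M h r (Col.zero j t) = false := by
  cases r <;> rfl

@[simp] theorem M_fill_col (r : Row h) (t : Fin (fillC h)) : M h r (Col.fill t) = false := by
  cases r <;> rfl

theorem M_of_mem_zeroCl_row {j : Fin 63} {r : Row h} (hr : r ∈ Row.zeroCl j) (c : Col h) :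
    M h r c = false := by
  obtain ⟨t, rfl⟩ := Row.mem_zeroCl.mp hr
  exact M_zero_row j t c

theorem M_of_mem_zeroCl_col {j : Fin 62} {c : Col h} (hc : c ∈ Col.zeroCl j) (r : Row h) :
    M h r c = false := by
  obtain ⟨t, rfl⟩ := Col.mem_zeroCl.mp hc
  exact M_zero_col r j t

/-! ### Zone order -/

/-- Zero rows of an earlier class come before zero rows of a later class. -/
theorem Row.zero_lt_zero {j j' : Fin 63} (hj : j < j') (t t' : Fin (2 * 2 ^ h)) :
    (Row.zero j t : Row h) < Row.zero j' t' := by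
  rw [Row.lt_iff]
  have : j.val < j'.val := hj
  simp only [lex4, Row.k4, true_and]
  omega

theorem Row.zeroCl_lt_zeroCl {j j' : Fin 63} (hj : j < j') {r r' : Row h}
    (hr : r ∈ Row.zeroCl j) (hr' : r' ∈ Row.zeroCl j') : r < r' := by
  obtain ⟨t, rfl⟩ := Row.mem_zeroCl.mp hr
  obtain ⟨t', rfl⟩ := Row.mem_zeroCl.mp hr'
  exact Row.zero_lt_zero hj t t'

/-- A zero row comes before every row which is not a zero row. -/
theorem Row.zero_lt (j : Fin 63) (t : Fin (2 * 2 ^ h)) {r' : Row h}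
    (hr' : ∀ j' t', r' ≠ Row.zero j' t') : (Row.zero j t : Row h) < r' := by
  rw [Row.lt_iff]
  have := j.isLt
  cases r' with
  | zero j' t' => exact absurd rfl (hr' j' t')
  | fill t' => simp only [lex4, Row.k4, true_and]; omega
  | tau k t' => simp only [lex4, Row.k4]; omega
  | rho k d t' => simp only [lex4, Row.k4]; omega
  | spec x a => simp only [lex4, Row.k4]; omega

theorem Row.zeroCl_lt {j : Fin 63} {r r' : Row h} (hr : r ∈ Row.zeroCl j)
    (hr' : ∀ j' t', r' ≠ Row.zero j' t') : r < r' := by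
  obtain ⟨t, rfl⟩ := Row.mem_zeroCl.mp hr
  exact Row.zero_lt j t hr'

/-- Every twin (non-special) row comes before every special row. -/
theorem Row.lt_spec {r : Row h} (hr : r.leaf = none) (x : Fin (2 ^ h)) (a : Fin (h + 1)) :
    r < Row.spec x a := by
  rw [Row.lt_iff]
  cases r with
  | zero j t => simp only [lex4, Row.k4]; omega
  | fill t => simp only [lex4, Row.k4]; omega
  | tau k t => simp only [lex4, Row.k4]; omega
  | rho k d t => simp only [lex4, Row.k4]; omega
  | spec x' a' => simp [Row.leaf] at hr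

/-- Zero columns of an earlier class come before zero columns of a later class. -/
theorem Col.zero_lt_zero {j j' : Fin 62} (hj : j < j') (t t' : Fin (2 * 2 ^ h)) :
    (Col.zero j t : Col h) < Col.zero j' t' := by
  rw [Col.lt_iff]
  have : j.val < j'.val := hj
  simp only [lex4, Col.k4, true_and]
  omega

theorem Col.zeroCl_lt_zeroCl {j j' : Fin 62} (hj : j < j') {c c' : Col h}
    (hc : c ∈ Col.zeroCl j) (hc' : c' ∈ Col.zeroCl j') : c < c' := by
  obtain ⟨t, rfl⟩ := Col.mem_zeroCl.mp hc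
  obtain ⟨t', rfl⟩ := Col.mem_zeroCl.mp hc'
  exact Col.zero_lt_zero hj t t'

/-- Every column which is neither a zero column nor a filler column comes before every zero
column. -/
theorem Col.lt_zero {c : Col h} (hc : ∀ j' t', c ≠ Col.zero j' t') (hc' : ∀ t', c ≠ Col.fill t')
    (j : Fin 62) (t : Fin (2 * 2 ^ h)) : c < (Col.zero j t : Col h) := by
  rw [Col.lt_iff]
  cases c with
  | lam t' => simp only [lex4, Col.k4]; omega
  | spec u b => simp only [lex4, Col.k4]; omega
  | om e t' => simp only [lex4, Col.k4]; omega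
  | gam k d t' => simp only [lex4, Col.k4]; omega
  | tt k t' => simp only [lex4, Col.k4]; omega
  | psi k t' => simp only [lex4, Col.k4]; omega
  | zero j' t' => exact absurd rfl (hc j' t')
  | fill t' => exact absurd rfl (hc' t')

theorem Col.lt_zeroCl {j : Fin 62} {c c' : Col h} (hc : ∀ j' t', c ≠ Col.zero j' t')
    (hcf : ∀ t', c ≠ Col.fill t') (hc' : c' ∈ Col.zeroCl j) : c < c' := by
  obtain ⟨t, rfl⟩ := Col.mem_zeroCl.mp hc'
  exact Col.lt_zero hc hcf j t

end Crest.Agent.S0066
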