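import Mathlib
import Crest.Agent.S0066_Thresh
import Crest.Agent.S0066_ZZClass

/-!
# S0066 (row 47), zig-zag v2, type-forcing: exactly one special row

If a class-level copy of `K` has its third row `R x a` special and its second row not special, then
it is the row-step seed: `a = h/2` and the first column is `spec x ((h+1)/2)`.
-/

set_option autoImplicit false

namespace Crest.Agent.S0066

/-! ### One-sets of the robust rows -/

theorem SeedS1.zero_row (h z : ℕ) (c : CC) : zzEntry h (.zero z) c = false := by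
  cases c <;> rfl

theorem SeedS1.tau_true {h k : ℕ} {c : CC} (e : zzEntry h (.tau k) c = true) :
    (∃ u b, c = .spec u b ∧ (b = k / 2 ∨ b = k / 2 + 1)) ∨ c = .psi k := by
  cases c with
  | spec u b => exact Or.inl ⟨u, b, rfl, by simpa [zzEntry] using e⟩
  | psi k' =>
    have : k' = k := by simpa [zzEntry] using e
    exact Or.inr (by rw [this])
  | gam k' d' => simp [zzEntry] at e
  | t k' => simp [zzEntry] at e
  | zero z => simp [zzEntry] at e

theorem SeedS1.rho_true {h k : ℕ} {d : Bool} {c : CC} (e : zzEntry h (.rho k d) c = true) :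
    (∃ u, c = .spec u (k / 2 + 1) ∧ zzD h k d u = true) ∨ c = .gam k d ∨ c = .psi k := by
  cases c with
  | spec u b =>
    have : b = k / 2 + 1 ∧ zzD h k d u = true := by simpa [zzEntry] using e
    exact Or.inl ⟨u, by rw [this.1], this.2⟩
  | gam k' d' =>
    have : k' = k ∧ d' = d := by simpa [zzEntry] using e
    exact Or.inr (Or.inl (by rw [this.1, this.2]))
  | psi k' =>
    have : k' = k := by simpa [zzEntry] using e
    exact Or.inr (Or.inr (by rw [this]))
  | t k' => simp [zzEntry] at e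
  | zero z => simp [zzEntry] at e

theorem SeedS1.zzD_inj {h k : ℕ} {d d' : Bool} {z : ℕ} (e : zzD h k d z = true)
    (e' : zzD h k d' z = true) : d = d' := by
  unfold zzD at e e'
  by_cases hk : k = h
  · simp only [hk, if_true] at e e'
    cases d <;> cases d' <;> simp_all
  · simp only [hk, if_false, decide_eq_true_eq] at e e'
    cases d <;> cases d' <;> simp_all

theorem SeedS1.zzD_agree {h k : ℕ} {d : Bool} {z z' : ℕ} (e : zzD h k d z = true)
    (e' : zzD h k d z' = true) (hk : k ≠ h) : dig h (mu h k) z = dig h (mu h k) z' := by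
  unfold zzD at e e'
  simp only [hk, if_false, decide_eq_true_eq] at e e'
  rw [e, e']

theorem SeedS1.M2 {h k x u u' : ℕ} (hG : zzG h k x u = true) (huu : u ≤ u') :
    zzG h k x u' = true := G_M2 (h := h) hG huu

theorem SeedS1.Z {h k x u1 u2 : ℕ} (hk : k ≤ 2 * h) (h1 : zzG h k x u1 = true) (h12 : u1 ≤ u2)
    (h2 : zzG h (k + 1) x u2 = false)
    (hd : k ≠ h → dig h (mu h k) u2 = dig h (mu h k) x) : k = h ∧ u1 = x ∧ u2 = x :=
  G_Z hk h1 h12 h2 hd

/-- Two `τ` rows: impossible. -/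
theorem SeedS1.tau_tau {h k k' x a : ℕ} {C0 C1 C2 C3 : CC}
    (v0 : k % 2 = 0) (v1 : k' % 2 = 0) (r01 : k ≤ k')
    (c01 : lexLe C0.key C1.key) (c23 : lexLe C2.key C3.key)
    (e00 : zzEntry h (.tau k) C0 = true) (e01 : zzEntry h (.tau k) C1 = true)
    (e02 : zzEntry h (.tau k) C2 = false) (e03 : zzEntry h (.tau k) C3 = true)
    (e10 : zzEntry h (.tau k') C0 = false) (e11 : zzEntry h (.tau k') C1 = true)
    (e12 : zzEntry h (.tau k') C2 = true) (e13 : zzEntry h (.tau k') C3 = true)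
    (e20 : zzEntry h (.R x a) C0 = true) (e22 : zzEntry h (.R x a) C2 = true) : False := by
  have hne : k ≠ k' := by
    rintro rfl
    rw [e00] at e10; exact absurd e10 (by simp)
  rcases SeedS1.tau_true e01 with ⟨u1, b1, rfl, hb1⟩ | rfl
  swap
  · simp [zzEntry] at e11
    exact hne e11
  rcases SeedS1.tau_true e03 with ⟨u3, b3, rfl, hb3⟩ | rfl
  swap
  · simp [zzEntry] at e13
    exact hne e13
  rcases SeedS1.tau_true e00 with ⟨u0, b0, rfl, hb0⟩ | rfl
  swap
  · simp [lexLe, CC.key] at c01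
  rcases SeedS1.tau_true e12 with ⟨u2, b2, rfl, hb2⟩ | rfl
  swap
  · simp [lexLe, CC.key] at c23
  simp [zzEntry] at e10 e11 e02 e20 e22
  omega

/-- `ρ` then `τ`: impossible. -/
theorem SeedS1.rho_tau {h k k' : ℕ} {d : Bool} {C0 C3 : CC}
    (r01 : 3 * k + 1 + d.toNat ≤ 3 * k')
    (c03 : lexLe C0.key C3.key)
    (e00 : zzEntry h (.rho k d) C0 = true) (e03 : zzEntry h (.rho k d) C3 = true)
    (e10 : zzEntry h (.tau k') C0 = false) (e13 : zzEntry h (.tau k') C3 = true) : False := by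
  rcases SeedS1.rho_true e03 with ⟨u3, rfl, hd3⟩ | rfl | rfl
  · rcases SeedS1.rho_true e00 with ⟨u0, rfl, hd0⟩ | rfl | rfl
    · simp [zzEntry] at e10 e13
      omega
    · simp [lexLe, CC.key] at c03
    · simp [lexLe, CC.key] at c03
  · simp [zzEntry] at e13
  · simp [zzEntry] at e13
    omega

/-- Two `ρ` rows: impossible. -/
theorem SeedS1.rho_rho {h k k' x a : ℕ} {d d' : Bool} {C0 C1 C3 : CC}
    (r01 : 3 * k + 1 + d.toNat ≤ 3 * k' + 1 + d'.toNat)
    (c01 : lexLe C0.key C1.key) (c03 : lexLe C0.key C3.key) (c13 : lexLe C1.key C3.key)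
    (e00 : zzEntry h (.rho k d) C0 = true) (e01 : zzEntry h (.rho k d) C1 = true)
    (e03 : zzEntry h (.rho k d) C3 = true)
    (e10 : zzEntry h (.rho k' d') C0 = false) (e11 : zzEntry h (.rho k' d') C1 = true)
    (e13 : zzEntry h (.rho k' d') C3 = true)
    (e20 : zzEntry h (.R x a) C0 = true) (e21 : zzEntry h (.R x a) C1 = false)
    (e23 : zzEntry h (.R x a) C3 = true) : False := by
  have hne : ¬ (k = k' ∧ d = d') := by
    rintro ⟨rfl, rfl⟩
    rw [e00] at e10; exact absurd e10 (by simp)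
  rcases SeedS1.rho_true e03 with ⟨u3, rfl, hd3⟩ | rfl | rfl
  · -- `C3` special: `C0`, `C1` special of the same class, contradiction with (M2)
    rcases SeedS1.rho_true e00 with ⟨u0, rfl, hd0⟩ | rfl | rfl
    · rcases SeedS1.rho_true e01 with ⟨u1, rfl, hd1⟩ | rfl | rfl
      · simp [zzEntry] at e20 e21
        simp [lexLe, CC.key] at c01
        have hu : u0 ≤ u1 := by omega
        have := SeedS1.M2 e20.2 hu
        rw [e21 e20.1] at this
        exact absurd this (by simp)
      · simp [lexLe, CC.key] at c13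
      · simp [lexLe, CC.key] at c13
    · simp [lexLe, CC.key] at c03
    · simp [lexLe, CC.key] at c03
  · -- `C3 = γ_k^d`
    simp [zzEntry] at e13
    exact hne ⟨e13.1, e13.2⟩
  · -- `C3 = ψ_k`
    have hk : k = k' := by simpa [zzEntry] using e13
    subst hk
    rcases SeedS1.rho_true e01 with ⟨u1, rfl, hd1⟩ | rfl | rfl
    · have : zzD h k d' u1 = true := by
        simp [zzEntry] at e11; exact e11
      exact hne ⟨rfl, SeedS1.zzD_inj hd1 this⟩
    · simp [zzEntry] at e11
      exact hne ⟨rfl, e11⟩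
    · rw [e23] at e21; exact absurd e21 (by simp)

/-- `τ` then `ρ`: the row-step seed. -/
theorem SeedS1.tau_rho {h k k' x a : ℕ} {d : Bool} {C0 C1 C2 C3 : CC}
    (v0 : k % 2 = 0) (v2 : a ≤ h)
    (c01 : lexLe C0.key C1.key) (c23 : lexLe C2.key C3.key)
    (e00 : zzEntry h (.tau k) C0 = true) (e01 : zzEntry h (.tau k) C1 = true)
    (e02 : zzEntry h (.tau k) C2 = false) (e03 : zzEntry h (.tau k) C3 = true)
    (e10 : zzEntry h (.rho k' d) C0 = false) (e11 : zzEntry h (.rho k' d) C1 = true)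
    (e12 : zzEntry h (.rho k' d) C2 = true) (e13 : zzEntry h (.rho k' d) C3 = true)
    (e20 : zzEntry h (.R x a) C0 = true) (e21 : zzEntry h (.R x a) C1 = false)
    (e22 : zzEntry h (.R x a) C2 = true) (e23 : zzEntry h (.R x a) C3 = true) :
    a = h / 2 ∧ C0 = CC.spec x ((h + 1) / 2) := by
  rcases SeedS1.rho_true e13 with ⟨u3, rfl, hd3⟩ | rfl | rfl
  · -- `C3` special: then `C2` is special of the same class, where `τ_k` is `1`
    exfalso
    rcases SeedS1.rho_true e12 with ⟨u2, rfl, hd2⟩ | rfl | rfl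
    · simp [zzEntry] at e02 e03
      omega
    · simp [lexLe, CC.key] at c23
    · simp [lexLe, CC.key] at c23
  · -- `C3 = γ`: `τ_k` is `0` there
    simp [zzEntry] at e03
  · -- `C3 = ψ_k'`, so `k' = k`
    have hk : k' = k := by simpa [zzEntry] using e03
    subst hk
    -- `C2 = γ_k^d`
    rcases SeedS1.rho_true e12 with ⟨u2, rfl, hd2⟩ | rfl | rfl
    · simp [zzEntry] at e02
    swap
    · simp [zzEntry] at e02
    -- `C1` is special of class `k/2+1`
    rcases SeedS1.rho_true e11 with ⟨u1, rfl, hd1⟩ | rfl | rfl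
    swap
    · simp [zzEntry] at e01
    swap
    · rw [e23] at e21; exact absurd e21 (by simp)
    -- `C0` is special
    rcases SeedS1.tau_true e00 with ⟨u0, b0, rfl, hb0⟩ | rfl
    swap
    · simp [zzEntry] at e10
    simp [zzEntry] at e10 e20 e21 e22 e23
    simp [lexLe, CC.key] at c01
    have hkk : k' = a + a := by omega
    subst hkk
    have hk2 : (a + a) / 2 = a := by omega
    rw [hk2] at e21 hb0 c01 e10
    have g1 : zzG h (a + a + 1) x u1 = false := by
      rw [Nat.add_assoc]; exact e21 (Or.inr rfl)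
    have hu : u0 ≤ u1 := by omega
    rcases e20.1 with hb | hb
    · subst hb
      obtain ⟨hh, hx0, hx1⟩ := SeedS1.Z (by omega) e20.2 hu g1
        (fun hne => SeedS1.zzD_agree hd1 e22.2 hne)
      refine ⟨by omega, ?_⟩
      rw [hx0]
      congr 1
      omega
    · exfalso
      subst hb
      have := SeedS1.M2 e20.2 hu
      rw [← Nat.add_assoc, g1] at this
      exact absurd this (by simp)

/-- The case "exactly one special row", on explicit lines. -/
theorem SeedS1.core {h : ℕ} {R0 R1 : RC} {x a : ℕ} {C0 C1 C2 C3 : CC}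
    (v0 : R0.Valid h) (v1 : R1.Valid h) (v2 : (RC.R x a).Valid h)
    (r01 : lexLe (R0.key h) (R1.key h))
    (c01 : lexLe C0.key C1.key) (c03 : lexLe C0.key C3.key) (c13 : lexLe C1.key C3.key)
    (c23 : lexLe C2.key C3.key)
    (n1 : ∀ x a, R1 ≠ RC.R x a)
    (e00 : zzEntry h R0 C0 = true) (e01 : zzEntry h R0 C1 = true)
    (e02 : zzEntry h R0 C2 = false) (e03 : zzEntry h R0 C3 = true)
    (e10 : zzEntry h R1 C0 = false) (e11 : zzEntry h R1 C1 = true)
    (e12 : zzEntry h R1 C2 = true) (e13 : zzEntry h R1 C3 = true)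
    (e20 : zzEntry h (.R x a) C0 = true) (e21 : zzEntry h (.R x a) C1 = false)
    (e22 : zzEntry h (.R x a) C2 = true) (e23 : zzEntry h (.R x a) C3 = true) :
    a = h / 2 ∧ C0 = CC.spec x ((h + 1) / 2) := by
  have v2' : x < 2 ^ h ∧ a ≤ h := v2
  rcases R1 with z1 | k1 | ⟨k1, d1⟩ | ⟨x1, a1⟩
  · rw [SeedS1.zero_row] at e11; exact absurd e11 (by simp)
  · have v1' : k1 % 2 = 0 ∧ k1 ≤ 2 * h := v1
    rcases R0 with z0 | k0 | ⟨k0, d0⟩ | ⟨x0, a0⟩
    · rw [SeedS1.zero_row] at e00; exact absurd e00 (by simp)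
    · exfalso
      have v0' : k0 % 2 = 0 ∧ k0 ≤ 2 * h := v0
      simp [lexLe, RC.key] at r01
      exact SeedS1.tau_tau v0'.1 v1'.1 (by omega) c01 c23 e00 e01 e02 e03 e10 e11 e12 e13 e20 e22
    · exfalso
      simp [lexLe, RC.key] at r01
      exact SeedS1.rho_tau (by omega) c03 e00 e03 e10 e13
    · simp [lexLe, RC.key] at r01
  · rcases R0 with z0 | k0 | ⟨k0, d0⟩ | ⟨x0, a0⟩
    · rw [SeedS1.zero_row] at e00; exact absurd e00 (by simp)
    · have v0' : k0 % 2 = 0 ∧ k0 ≤ 2 * h := v0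
      exact SeedS1.tau_rho v0'.1 v2'.2 c01 c23 e00 e01 e02 e03 e10 e11 e12 e13 e20 e21 e22 e23
    · exfalso
      simp [lexLe, RC.key] at r01
      exact SeedS1.rho_rho (by omega) c01 c03 c13 e00 e01 e03 e10 e11 e13 e20 e21 e23
    · simp [lexLe, RC.key] at r01
  · exact absurd rfl (n1 x1 a1)

/-- **Exactly one special row.** If the third row of a class-level copy of `K` is the special row
`R x a` and the second row is not special, the copy is the row-step seed. -/
theorem seedS1 {h : ℕ} (_h1 : 1 ≤ h) {r : Fin 3 → RC} {c : Fin 4 → CC} (hK : KCopy h r c)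
    (hr1 : ∀ x a, r 1 ≠ RC.R x a) {x a : ℕ} (hr2 : r 2 = RC.R x a) :
    a = h / 2 ∧ c 0 = CC.spec x ((h + 1) / 2) := by
  have v2 := hK.rv 2
  have e20 : zzEntry h (r 2) (c 0) = true := hK.ent 2 0
  have e21 : zzEntry h (r 2) (c 1) = false := hK.ent 2 1
  have e22 : zzEntry h (r 2) (c 2) = true := hK.ent 2 2
  have e23 : zzEntry h (r 2) (c 3) = true := hK.ent 2 3
  rw [hr2] at v2 e20 e21 e22 e23
  exact SeedS1.core (hK.rv 0) (hK.rv 1) v2 (hK.rle 0 1 (by decide))
    (hK.cle 0 1 (by decide)) (hK.cle 0 3 (by decide)) (hK.cle 1 3 (by decide))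
    (hK.cle 2 3 (by decide)) hr1
    (hK.ent 0 0) (hK.ent 0 1) (hK.ent 0 2) (hK.ent 0 3)
    (hK.ent 1 0) (hK.ent 1 1) (hK.ent 1 2) (hK.ent 1 3) e20 e21 e22 e23

end Crest.Agent.S0066
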