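import Mathlib
import Crest.Agent.S0066_Thresh
import Crest.Agent.S0066_ZZClass
import Crest.Agent.S0066_SeedS1

/-!
# S0066 (row 47), zig-zag v2, type-forcing: no special row

A class-level copy of `K` always uses a special row as its third row.
-/

set_option autoImplicit false

namespace Crest.Agent.S0066

/-- `τ, τ, ·`: impossible. -/
theorem SeedS0b.tau_tau {h k0 k1 : ℕ} {R2 : RC} {C1 C2 C3 : CC}
    (v0 : k0 % 2 = 0) (v1 : k1 % 2 = 0) (r01 : k0 ≤ k1) (n2 : ∀ x a, R2 ≠ RC.R x a)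
    (c23 : lexLe C2.key C3.key)
    (e00 : zzEntry h (.tau k0) C1 = true) (e02 : zzEntry h (.tau k0) C2 = false)
    (e03 : zzEntry h (.tau k0) C3 = true)
    (e11 : zzEntry h (.tau k1) C1 = true)
    (e12 : zzEntry h (.tau k1) C2 = true) (e13 : zzEntry h (.tau k1) C3 = true)
    (e21 : zzEntry h R2 C1 = false)
    (e22 : zzEntry h R2 C2 = true) (e23 : zzEntry h R2 C3 = true)
    (hne : k0 ≠ k1) : False := by
  rcases SeedS1.tau_true e00 with ⟨u1, b1, rfl, hb1⟩ | rfl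
  swap
  · simp [zzEntry] at e11
    exact hne e11
  rcases SeedS1.tau_true e03 with ⟨u3, b3, rfl, hb3⟩ | rfl
  swap
  · simp [zzEntry] at e13
    exact hne e13
  rcases SeedS1.tau_true e12 with ⟨u2, b2, rfl, hb2⟩ | rfl
  swap
  · simp [lexLe, CC.key] at c23
  simp [zzEntry] at e11 e13 e02
  rcases R2 with z2 | k2 | ⟨k2, d2⟩ | ⟨x2, a2⟩
  · rw [SeedS1.zero_row] at e22; exact absurd e22 (by simp)
  · simp [zzEntry] at e21 e23
    omega
  · simp [zzEntry] at e22 e23
    omega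
  · exact n2 x2 a2 rfl

/-- `τ, ρ, ·`: impossible. -/
theorem SeedS0b.tau_rho {h k0 k1 : ℕ} {d1 : Bool} {R2 : RC} {C2 C3 : CC}
    (n2 : ∀ x a, R2 ≠ RC.R x a)
    (c23 : lexLe C2.key C3.key)
    (e02 : zzEntry h (.tau k0) C2 = false) (e03 : zzEntry h (.tau k0) C3 = true)
    (e12 : zzEntry h (.rho k1 d1) C2 = true) (e13 : zzEntry h (.rho k1 d1) C3 = true)
    (e22 : zzEntry h R2 C2 = true)
    (hne : R2 ≠ .rho k1 d1) : False := by
  rcases SeedS1.rho_true e13 with ⟨u3, rfl, hd3⟩ | rfl | rfl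
  · rcases SeedS1.rho_true e12 with ⟨u2, rfl, hd2⟩ | rfl | rfl
    · simp [zzEntry] at e02 e03
      omega
    · simp [lexLe, CC.key] at c23
    · simp [lexLe, CC.key] at c23
  · simp [zzEntry] at e03
  · have hk : k1 = k0 := by simpa [zzEntry] using e03
    subst hk
    rcases SeedS1.rho_true e12 with ⟨u2, rfl, hd2⟩ | rfl | rfl
    · simp [zzEntry] at e02
    · rcases R2 with z2 | k2 | ⟨k2, d2⟩ | ⟨x2, a2⟩
      · rw [SeedS1.zero_row] at e22; exact absurd e22 (by simp)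
      · simp [zzEntry] at e22
      · simp [zzEntry] at e22
        exact hne (by rw [e22.1, e22.2])
      · exact n2 x2 a2 rfl
    · simp [zzEntry] at e02

/-- `ρ, ρ, ·`: impossible. -/
theorem SeedS0b.rho_rho {h k0 k1 : ℕ} {d0 d1 : Bool} {R2 : RC} {C1 C2 C3 : CC}
    (r01 : 3 * k0 + 1 + d0.toNat ≤ 3 * k1 + 1 + d1.toNat)
    (r12 : lexLe ((RC.rho k1 d1).key h) (R2.key h)) (n2 : ∀ x a, R2 ≠ RC.R x a)
    (c13 : lexLe C1.key C3.key) (c23 : lexLe C2.key C3.key)
    (e01 : zzEntry h (.rho k0 d0) C1 = true) (e03 : zzEntry h (.rho k0 d0) C3 = true)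
    (e11 : zzEntry h (.rho k1 d1) C1 = true)
    (e12 : zzEntry h (.rho k1 d1) C2 = true) (e13 : zzEntry h (.rho k1 d1) C3 = true)
    (e21 : zzEntry h R2 C1 = false)
    (e22 : zzEntry h R2 C2 = true) (e23 : zzEntry h R2 C3 = true)
    (hne01 : ¬ (k0 = k1 ∧ d0 = d1)) (hne12 : R2 ≠ .rho k1 d1) : False := by
  rcases SeedS1.rho_true e03 with ⟨u3, rfl, hd3⟩ | rfl | rfl
  · -- `C3` special of class `k0/2+1`
    rcases SeedS1.rho_true e01 with ⟨u1, rfl, hd1⟩ | rfl | rfl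
    swap
    · simp [lexLe, CC.key] at c13
    swap
    · simp [lexLe, CC.key] at c13
    have hd1' : k0 / 2 = k1 / 2 ∧ zzD h k1 d1 u1 = true := by
      simpa [zzEntry] using e11
    rcases SeedS1.rho_true e12 with ⟨u2, hC2, hd2⟩ | rfl | rfl
    swap
    · simp [lexLe, CC.key] at c23
    swap
    · simp [lexLe, CC.key] at c23
    subst hC2
    rcases R2 with z2 | k2 | ⟨k2, d2⟩ | ⟨x2, a2⟩
    · rw [SeedS1.zero_row] at e22; exact absurd e22 (by simp)
    · simp [zzEntry] at e21 e23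
      omega
    · have h22 : k1 / 2 = k2 / 2 ∧ zzD h k2 d2 u2 = true := by
        simpa [zzEntry] using e22
      simp [lexLe, RC.key] at r12
      have hb0 : d0.toNat ≤ 1 := by cases d0 <;> simp
      have hb1 : d1.toNat ≤ 1 := by cases d1 <;> simp
      have hb2 : d2.toNat ≤ 1 := by cases d2 <;> simp
      by_cases h01 : k0 = k1
      · subst h01
        exact hne01 ⟨rfl, SeedS1.zzD_inj hd1 hd1'.2⟩
      · have h12 : k2 = k1 := by omega
        subst h12
        exact hne12 (by rw [SeedS1.zzD_inj h22.2 hd2])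
    · exact n2 x2 a2 rfl
  · -- `C3 = γ`
    simp [zzEntry] at e13
    exact hne01 ⟨e13.1, e13.2⟩
  · -- `C3 = ψ_k0`
    have hk : k0 = k1 := by simpa [zzEntry] using e13
    subst hk
    rcases R2 with z2 | k2 | ⟨k2, d2⟩ | ⟨x2, a2⟩
    · rw [SeedS1.zero_row] at e22; exact absurd e22 (by simp)
    · simp [zzEntry] at e23
      subst e23
      simp [lexLe, RC.key] at r12
      omega
    · simp [zzEntry] at e23
      subst e23
      simp [lexLe, RC.key] at r12
      apply hne12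
      have : d2 = d1 := by
        cases d0 <;> cases d1 <;> cases d2 <;> simp_all
      rw [this]
    · exact n2 x2 a2 rfl

/-- The case "no special row", on explicit lines. -/
theorem SeedS0b.core {h : ℕ} {R0 R1 R2 : RC} {C0 C1 C2 C3 : CC}
    (v0 : R0.Valid h) (v1 : R1.Valid h)
    (r01 : lexLe (R0.key h) (R1.key h)) (r12 : lexLe (R1.key h) (R2.key h))
    (c03 : lexLe C0.key C3.key) (c13 : lexLe C1.key C3.key) (c23 : lexLe C2.key C3.key)
    (n2 : ∀ x a, R2 ≠ RC.R x a)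
    (e00 : zzEntry h R0 C0 = true) (e01 : zzEntry h R0 C1 = true)
    (e02 : zzEntry h R0 C2 = false) (e03 : zzEntry h R0 C3 = true)
    (e10 : zzEntry h R1 C0 = false) (e11 : zzEntry h R1 C1 = true)
    (e12 : zzEntry h R1 C2 = true) (e13 : zzEntry h R1 C3 = true)
    (e20 : zzEntry h R2 C0 = true) (e21 : zzEntry h R2 C1 = false)
    (e22 : zzEntry h R2 C2 = true) (e23 : zzEntry h R2 C3 = true) : False := by
  have hne12 : R2 ≠ R1 := by
    rintro rfl
    rw [e20] at e10; exact absurd e10 (by simp)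
  rcases R1 with z1 | k1 | ⟨k1, d1⟩ | ⟨x1, a1⟩
  · rw [SeedS1.zero_row] at e11; exact absurd e11 (by simp)
  · have v1' : k1 % 2 = 0 ∧ k1 ≤ 2 * h := v1
    rcases R0 with z0 | k0 | ⟨k0, d0⟩ | ⟨x0, a0⟩
    · rw [SeedS1.zero_row] at e00; exact absurd e00 (by simp)
    · have v0' : k0 % 2 = 0 ∧ k0 ≤ 2 * h := v0
      have hne : k0 ≠ k1 := by
        rintro rfl
        rw [e00] at e10; exact absurd e10 (by simp)
      simp [lexLe, RC.key] at r01
      exact SeedS0b.tau_tau v0'.1 v1'.1 (by omega) n2 c23 e01 e02 e03 e11 e12 e13 e21 e22 e23 hne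
    · simp [lexLe, RC.key] at r01
      exact SeedS1.rho_tau (by omega) c03 e00 e03 e10 e13
    · simp [lexLe, RC.key] at r01
  · rcases R0 with z0 | k0 | ⟨k0, d0⟩ | ⟨x0, a0⟩
    · rw [SeedS1.zero_row] at e00; exact absurd e00 (by simp)
    · exact SeedS0b.tau_rho n2 c23 e02 e03 e12 e13 e22 hne12
    · have hne : ¬ (k0 = k1 ∧ d0 = d1) := by
        rintro ⟨rfl, rfl⟩
        rw [e00] at e10; exact absurd e10 (by simp)
      simp [lexLe, RC.key] at r01
      exact SeedS0b.rho_rho (by omega) r12 n2 c13 c23 e01 e03 e11 e12 e13 e21 e22 e23 hne hne12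
    · simp [lexLe, RC.key] at r01
  · rcases R2 with z2 | k2 | ⟨k2, d2⟩ | ⟨x2, a2⟩
    · simp [lexLe, RC.key] at r12
    · simp [lexLe, RC.key] at r12
    · simp [lexLe, RC.key] at r12
    · exact n2 x2 a2 rfl

/-- **No special row: impossible.** The third row of a class-level copy of `K` is special. -/
theorem seedS0b {h : ℕ} (_h1 : 1 ≤ h) {r : Fin 3 → RC} {c : Fin 4 → CC} (hK : KCopy h r c)
    (hr2 : ∀ x a, r 2 ≠ RC.R x a) : False :=
  SeedS0b.core (hK.rv 0) (hK.rv 1) (hK.rle 0 1 (by decide)) (hK.rle 1 2 (by decide))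
    (hK.cle 0 3 (by decide)) (hK.cle 1 3 (by decide)) (hK.cle 2 3 (by decide)) hr2
    (hK.ent 0 0) (hK.ent 0 1) (hK.ent 0 2) (hK.ent 0 3)
    (hK.ent 1 0) (hK.ent 1 1) (hK.ent 1 2) (hK.ent 1 3)
    (hK.ent 2 0) (hK.ent 2 1) (hK.ent 2 2) (hK.ent 2 3)

end Crest.Agent.S0066
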