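import Mathlib
import Crest.Agent.S0066_ZZClass

/-!
# S0066 (row 47): type-forcing, case "exactly two special rows" (column-step seed)

Class-level statement `seedS2` of the [TF] cut (board #518), proved against `S0066_ZZClass`
(`zzEntry`, `KCopy`) and `S0066_Thresh` (`Theta_mono_x`, `factZ`).  Helper lemmas live in the
namespace `S2b`.
-/

set_option autoImplicit false

namespace Crest.Agent.S0066

namespace S2b

/-! ### One-sets of the three non-zero row kinds -/

theorem tau_true {h k : ℕ} {c : CC} (hc : zzEntry h (.tau k) c = true) :
    (∃ u b, c = .spec u b ∧ (b = k / 2 ∨ b = k / 2 + 1)) ∨ c = .psi k := by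
  cases c with
  | spec u b => exact Or.inl ⟨u, b, rfl, by simpa [zzEntry] using hc⟩
  | gam k' d' => simp [zzEntry] at hc
  | t k' => simp [zzEntry] at hc
  | psi k' => right; simp [zzEntry] at hc; rw [hc]
  | zero z => simp [zzEntry] at hc

theorem rho_true {h k : ℕ} {d : Bool} {c : CC} (hc : zzEntry h (.rho k d) c = true) :
    (∃ u b, c = .spec u b ∧ b = k / 2 + 1 ∧ zzD h k d u = true) ∨ c = .gam k d ∨ c = .psi k := by
  cases c with
  | spec u b => exact Or.inl ⟨u, b, rfl, by simpa [zzEntry] using hc⟩
  | gam k' d' =>
      right; left
      simp [zzEntry] at hc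
      rw [hc.1, hc.2]
  | t k' => simp [zzEntry] at hc
  | psi k' => right; right; simp [zzEntry] at hc; rw [hc]
  | zero z => simp [zzEntry] at hc

theorem R_spec {h x a u b : ℕ} :
    zzEntry h (.R x a) (.spec u b) = (decide (b = a ∨ b = a + 1) && zzG h (a + b) x u) := rfl

theorem R_gam {h x a k : ℕ} {d : Bool} :
    zzEntry h (.R x a) (.gam k d) = (decide (k + 1 = 2 * a ∨ k = 2 * a) && zzD h k d x) := rfl

theorem R_t {h x a k : ℕ} :
    zzEntry h (.R x a) (.t k) = decide (k + 1 = 2 * a ∨ k = 2 * a + 1) := rfl

theorem R_psi {h x a k : ℕ} :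
    zzEntry h (.R x a) (.psi k) = decide (k + 1 = 2 * a ∨ k = 2 * a ∨ k = 2 * a + 1) := rfl

/-! ### Threshold facts in Boolean form -/

theorem zzG_true {h k x u : ℕ} : zzG h k x u = true ↔ Theta h k x ≤ u := by simp [zzG]

theorem zzG_false {h k x u : ℕ} : zzG h k x u = false ↔ u < Theta h k x := by simp [zzG]

/-- (M2) monotone in the column address. -/
theorem zzG_M2 {h k x u u' : ℕ} (hG : zzG h k x u = true) (huu : u ≤ u') :
    zzG h k x u' = true := by
  rw [zzG_true] at hG ⊢; exact le_trans hG huu

/-- (M3) antitone in the row address. -/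
theorem zzG_M3 {h k x x' u : ℕ} (hG : zzG h k x' u = true) (hxx : x ≤ x') :
    zzG h k x u = true := by
  rw [zzG_true] at hG ⊢; exact le_trans (Theta_mono_x hxx) hG

/-- Nesting: two special rows of one class, the lower address dominates on special columns. -/
theorem nest {h x1 x a u b : ℕ} (hx : x1 ≤ x)
    (e1 : zzEntry h (.R x1 a) (.spec u b) = false)
    (e2 : zzEntry h (.R x a) (.spec u b) = true) : False := by
  rw [R_spec] at e1 e2
  simp only [Bool.and_eq_true, decide_eq_true_eq] at e2
  have h3 := zzG_M3 e2.2 hx
  simp [e2.1, h3] at e1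

/-- Up-set: a special row is monotone along the special columns of one class. -/
theorem up {h x a u u' b : ℕ} (huu : u ≤ u')
    (e1 : zzEntry h (.R x a) (.spec u b) = true)
    (e2 : zzEntry h (.R x a) (.spec u' b) = false) : False := by
  rw [R_spec] at e1 e2
  simp only [Bool.and_eq_true, decide_eq_true_eq] at e1
  have h3 := zzG_M2 e1.2 huu
  simp [e1.1, h3] at e2

/-- The two digit classes exclude each other. -/
theorem zzD_excl {h k z : ℕ} (h1 : zzD h k true z = true) (h0 : zzD h k false z = true) :
    False := by
  unfold zzD at h1 h0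
  by_cases hk : k = h
  · simp [hk] at h1
  · simp [hk] at h1 h0
    omega

/-- Digit agreement in the form needed by `factZ`. -/
theorem zzD_agree {h k u x : ℕ} {d : Bool} (hu : zzD h k d u = true) (hx : zzD h k d x = true) :
    k = h ∨ dig h (mu h k) u = dig h (mu h k) x := by
  unfold zzD at hu hx
  by_cases hk : k = h
  · exact Or.inl hk
  · right
    simp [hk] at hu hx
    omega

/-- A column class below a special column class (in the key order) is special. -/
theorem spec_of_le {c : CC} {u b : ℕ} (hle : lexLe c.key (CC.key (.spec u b))) :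
    ∃ u' b', c = .spec u' b' ∧ (u' < u ∨ (u' = u ∧ b' ≤ b)) := by
  cases c with
  | spec u' b' =>
      refine ⟨u', b', rfl, ?_⟩
      simp only [CC.key, lexLe] at hle
      omega
  | gam k' d' => simp [CC.key, lexLe] at hle
  | t k' => simp [CC.key, lexLe] at hle
  | psi k' => simp [CC.key, lexLe] at hle
  | zero z => simp [CC.key, lexLe] at hle

/-- The twelve entries of `K`. -/
theorem zzK_vals :
    zzK 0 0 = true ∧ zzK 0 1 = true ∧ zzK 0 2 = false ∧ zzK 0 3 = true ∧
    zzK 1 0 = false ∧ zzK 1 1 = true ∧ zzK 1 2 = true ∧ zzK 1 3 = true ∧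
    zzK 2 0 = true ∧ zzK 2 1 = false ∧ zzK 2 2 = true ∧ zzK 2 3 = true := by
  decide

/-- **Case S2** (exactly two special rows): the copy is the column-step seed. -/
theorem main {h : ℕ} {r : Fin 3 → RC} {c : Fin 4 → CC} (hK : KCopy h r c)
    (hr0 : ∀ x a, r 0 ≠ RC.R x a) {x1 a1 x a : ℕ} (hr1 : r 1 = RC.R x1 a1)
    (hr2 : r 2 = RC.R x a) : a = h / 2 ∧ c 0 = CC.spec x ((h + 1) / 2) := by
  obtain ⟨k00, k01, k02, k03, k10, k11, k12, k13, k20, k21, k22, k23⟩ := zzK_vals
  have e00 := (hK.ent 0 0).trans k00
  have e01 := (hK.ent 0 1).trans k01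
  have e02 := (hK.ent 0 2).trans k02
  have e03 := (hK.ent 0 3).trans k03
  have e10 := (hK.ent 1 0).trans k10
  have e11 := (hK.ent 1 1).trans k11
  have e12 := (hK.ent 1 2).trans k12
  have e13 := (hK.ent 1 3).trans k13
  have e20 := (hK.ent 2 0).trans k20
  have e21 := (hK.ent 2 1).trans k21
  have e22 := (hK.ent 2 2).trans k22
  have e23 := (hK.ent 2 3).trans k23
  have v0 := hK.rv 0
  have v1 := hK.rv 1
  have v2 := hK.rv 2
  have l12 := hK.rle 1 2 (by decide)
  rw [hr1] at e10 e11 e12 e13 v1 l12
  rw [hr2] at e20 e21 e22 e23 v2 l12
  -- the two special rows are ordered: `x1 < x`, or `x1 = x` and `a ≤ a1`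
  have hord : x1 < x ∨ (x1 = x ∧ a ≤ a1) := by
    simp only [RC.key, lexLe, RC.Valid] at l12 v1 v2
    omega
  -- if the classes agree then `x1 < x`
  have hlt : a1 = a → x1 < x := by
    intro haa
    rcases hord with hlt | ⟨hxx, -⟩
    · exact hlt
    · exfalso
      subst haa; subst hxx
      rw [e20] at e10; exact Bool.noConfusion e10
  have c01 := hK.cle 0 1 (by decide)
  have c03 := hK.cle 0 3 (by decide)
  have c12 := hK.cle 1 2 (by decide)
  have c13 := hK.cle 1 3 (by decide)
  have c23 := hK.cle 2 3 (by decide)
  cases hr : r 0 with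
  | zero z => rw [hr] at e03; simp [zzEntry] at e03
  | R x0 a0 => exact absurd hr (hr0 x0 a0)
  | tau k =>
    rw [hr] at e00 e01 e02 e03 v0
    have hk0 : k % 2 = 0 := v0.1
    rcases tau_true e03 with ⟨u3, b3, hc3, hb3⟩ | hc3
    · -- `c 3` special: all columns are special
      rw [hc3] at c03 c23 e13 e23
      obtain ⟨u0, b0, hc0, -⟩ := spec_of_le c03
      obtain ⟨u2, b2, hc2, -⟩ := spec_of_le c23
      rw [hc2] at e02 e12 e22
      rw [hc0] at e10 e20
      by_cases haa : a1 = a
      · have hx := hlt haa
        subst haa
        exact (nest hx.le e10 e20).elim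
      · exfalso
        simp only [zzEntry, Bool.and_eq_true, decide_eq_true_eq, decide_eq_false_iff_not]
          at e02 e12 e22 e13 e23
        omega
    · -- `c 3 = psi k`
      rw [hc3] at e13 e23
      have p1 := e13
      have p2 := e23
      simp only [R_psi, decide_eq_true_eq] at p1 p2
      have haa : a1 = a := by omega
      have hx := hlt haa
      subst haa
      rcases tau_true e00 with ⟨u0, b0, hc0, -⟩ | hc0
      · rw [hc0] at e10 e20
        exact (nest hx.le e10 e20).elim
      · rw [hc0] at e10
        rw [e13] at e10; exact Bool.noConfusion e10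
  | rho k d =>
    rw [hr] at e00 e01 e02 e03 v0
    have hk : k ≤ 2 * h := v0
    rcases rho_true e03 with ⟨u3, b3, hc3, hb3, hD3⟩ | hc3 | hc3
    · -- `c 3` special: `c 0`, `c 1` are special columns of the class `k/2+1`
      rw [hc3] at c03 c13
      obtain ⟨u0, b0, hc0, -⟩ := spec_of_le c03
      obtain ⟨u1, b1, hc1, -⟩ := spec_of_le c13
      rw [hc0] at e00 e20 c01
      rw [hc1] at e01 e21 c01
      have hb0 : b0 = k / 2 + 1 := by
        simp only [zzEntry, Bool.and_eq_true, decide_eq_true_eq] at e00; exact e00.1
      have hb1 : b1 = k / 2 + 1 := by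
        simp only [zzEntry, Bool.and_eq_true, decide_eq_true_eq] at e01; exact e01.1
      have hu : u0 ≤ u1 := by
        simp only [CC.key, lexLe] at c01; omega
      subst hb0; subst hb1
      exact (up hu e20 e21).elim
    · -- `c 3 = gam k d`
      rw [hc3] at e13 e23 c03
      have g1 := e13
      have g2 := e23
      simp only [R_gam, Bool.and_eq_true, decide_eq_true_eq] at g1 g2
      have haa : a1 = a := by omega
      have hx := hlt haa
      subst haa
      rcases rho_true e00 with ⟨u0, b0, hc0, -, -⟩ | hc0 | hc0
      · rw [hc0] at e10 e20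
        exact (nest hx.le e10 e20).elim
      · rw [hc0] at e10
        rw [e13] at e10; exact Bool.noConfusion e10
      · rw [hc0] at c03
        exfalso
        have hd := Bool.toNat_le d
        simp only [CC.key, lexLe] at c03
        omega
    · -- `c 3 = psi k`
      rw [hc3] at e03 e13 e23 c23
      rcases rho_true e01 with ⟨u1, b1, hc1, hb1, -⟩ | hc1 | hc1
      · -- `c 1` special: then `c 0` is special of the same class
        rw [hc1] at c01 e21
        obtain ⟨u0, b0, hc0, hu⟩ := spec_of_le c01
        rw [hc0] at e00 e20
        have hb0 : b0 = k / 2 + 1 := by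
          simp only [zzEntry, Bool.and_eq_true, decide_eq_true_eq] at e00; exact e00.1
        subst hb0; subst hb1
        exact (up (by omega) e20 e21).elim
      · -- `c 1 = gam k d`
        rw [hc1] at e11 e21 c12
        have g1 := e11
        simp only [R_gam, Bool.and_eq_true, decide_eq_true_eq] at g1
        obtain ⟨hk1, hD1⟩ := g1
        rcases rho_true e00 with ⟨u0, b0, hc0, hb0, hD0⟩ | hc0 | hc0
        · -- `c 0 = spec u0 (k/2+1)`
          rw [hc0] at e10 e20
          have hd := Bool.toNat_le d
          cases hc2 : c 2 with
          | spec u2 b2 => rw [hc2] at c12; simp [CC.key, lexLe] at c12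
          | zero z => rw [hc2] at c23; simp [CC.key, lexLe] at c23
          | psi k2 =>
            exfalso
            rw [hc2] at c12 c23 e02
            simp only [CC.key, lexLe] at c12 c23
            have hkk : k = k2 := by omega
            subst hkk
            rw [e03] at e02; exact Bool.noConfusion e02
          | gam k2 d2 =>
            exfalso
            rw [hc2] at c12 c23 e02 e12
            have hd2 := Bool.toNat_le d2
            simp only [CC.key, lexLe] at c12 c23
            have hkk : k = k2 := by omega
            subst hkk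
            have hne : d2 ≠ d := by
              intro hdd; subst hdd; simp [zzEntry] at e02
            have g2 := e12
            simp only [R_gam, Bool.and_eq_true, decide_eq_true_eq] at g2
            have hD2 := g2.2
            cases d <;> cases d2
            · exact hne rfl
            · exact zzD_excl hD2 hD1
            · simp at c12
            · exact hne rfl
          | t k2 =>
            rw [hc2] at c12 c23 e12 e22
            simp only [CC.key, lexLe] at c12 c23
            have hkk : k = k2 := by omega
            subst hkk
            have t1 := e12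
            have t2 := e22
            simp only [R_t, decide_eq_true_eq] at t1 t2
            have hka : k + 1 = 2 * a1 := by omega
            subst hb0
            rcases (by omega : a1 = a ∨ a + 1 = a1) with haa | haa
            · have hx := hlt haa
              subst haa
              exact (nest hx.le e10 e20).elim
            · have hxle : x1 ≤ x := by omega
              have hb : k / 2 + 1 = a1 := by omega
              have f1 := e10
              have f2 := e20
              rw [R_spec, hb] at f1 f2
              have f1' : zzG h (a1 + a1) x1 u0 = false := by simpa using f1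
              simp only [Bool.and_eq_true, decide_eq_true_eq] at f2
              have f2' := f2.2
              have ek : a + a1 = k := by omega
              have ek1 : a1 + a1 = k + 1 := by omega
              rw [ek] at f2'
              rw [ek1] at f1'
              have G2 : Theta h k x ≤ u0 := zzG_true.mp f2'
              have G1 : u0 < Theta h (k + 1) x1 := zzG_false.mp f1'
              have G3 : Theta h k x1 ≤ u0 := le_trans (Theta_mono_x hxle) G2
              obtain ⟨hkh, hux⟩ := factZ hk G3 G1 (zzD_agree hD0 hD1)
              have hxu : x ≤ u0 := by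
                have := G2
                rw [hkh, Theta_self] at this
                exact this
              refine ⟨by omega, ?_⟩
              rw [hc0]
              congr 1 <;> omega
        · rw [hc0] at e10; rw [e11] at e10; exact Bool.noConfusion e10
        · rw [hc0] at e10; rw [e13] at e10; exact Bool.noConfusion e10
      · rw [hc1] at e21; rw [e23] at e21; exact Bool.noConfusion e21

end S2b

/-- **Case S2** (exactly two special rows): a class-level copy of `K` whose first row is not
special and whose second and third rows are special is the column-step seed of the leaf `x`: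
`r 2 = R x (h/2)` and `c 0 = C(x, (h+1)/2)`.  (Same statement as `seedS2` of board #518; the
hypothesis `1 ≤ h` is not used.) -/
theorem S2b.seedS2 {h : ℕ} (_h1 : 1 ≤ h) {r : Fin 3 → RC} {c : Fin 4 → CC} (hK : KCopy h r c)
    (hr0 : ∀ x a, r 0 ≠ RC.R x a) {x1 a1 x a : ℕ} (hr1 : r 1 = RC.R x1 a1)
    (hr2 : r 2 = RC.R x a) : a = h / 2 ∧ c 0 = CC.spec x ((h + 1) / 2) :=
  S2b.main hK hr0 hr1 hr2

end Crest.Agent.S0066
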