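import Mathlib
import Crest.Agent.S0066_ZZClass

/-!
# S0066 (row 47): type forcing, case "three special rows"

Class-level statement (board #495 case S3 / #499 Step 1): a copy of the core `K` in the zig-zag
matrix never has a special row `R x a` as its first row (then all three rows would be special).
-/

set_option autoImplicit false

namespace Crest.Agent.S0066

namespace SeedS3

/-- The twelve entries of `K`. -/
theorem zzK_vals :
    zzK 0 0 = true ∧ zzK 0 1 = true ∧ zzK 0 2 = false ∧ zzK 0 3 = true ∧
    zzK 1 0 = false ∧ zzK 1 1 = true ∧ zzK 1 2 = true ∧ zzK 1 3 = true ∧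
    zzK 2 0 = true ∧ zzK 2 1 = false ∧ zzK 2 2 = true ∧ zzK 2 3 = true := by
  decide

/-- A row class whose key is `≥` the key of a special row is a special row, later in the order. -/
theorem R_of_key_ge {h : ℕ} {ρ : RC} {x a : ℕ}
    (hle : lexLe ((RC.R x a).key h) (ρ.key h)) :
    ∃ x' a', ρ = RC.R x' a' ∧ (x < x' ∨ (x = x' ∧ h - a ≤ h - a')) := by
  cases ρ with
  | zero z => simp [RC.key, lexLe] at hle
  | tau k => simp [RC.key, lexLe] at hle
  | rho k d => simp [RC.key, lexLe] at hle
  | R x' a' =>
    refine ⟨x', a', rfl, ?_⟩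
    simpa [RC.key, lexLe] using hle

/-- Two digit conditions at the same step and the same address that both hold have the same
digit. -/
theorem zzD_inj {h k z : ℕ} {d d' : Bool} (h1 : zzD h k d z = true) (h2 : zzD h k d' z = true) :
    d = d' := by
  unfold zzD at h1 h2
  split_ifs at h1 h2 with hk
  · cases d <;> cases d' <;> simp_all
  · have e1 : dig h (mu h k) z = d.toNat := by simpa using h1
    have e2 : dig h (mu h k) z = d'.toNat := by simpa using h2
    cases d <;> cases d' <;> simp_all

/-- **Nesting.** Two special rows of the same class `a` with `x ≤ x'`: a column which is `0` on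
the first and `1` on the second is a `gam` column of step `2a-1` or `2a`. -/
theorem gam_of_nest {h : ℕ} {x x' a : ℕ} {γ : CC} (hxx : x ≤ x')
    (h0 : zzEntry h (RC.R x a) γ = false) (h1 : zzEntry h (RC.R x' a) γ = true) :
    ∃ k d, γ = CC.gam k d ∧ (k + 1 = 2 * a ∨ k = 2 * a) ∧ zzD h k d x' = true := by
  cases γ with
  | spec u b =>
    exfalso
    simp only [zzEntry, Bool.and_eq_true, decide_eq_true_eq] at h1
    have hG : zzG h (a + b) x u = true := by
      have := h1.2
      unfold zzG at this ⊢
      simp only [decide_eq_true_eq] at this ⊢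
      exact le_trans (Theta_mono_x hxx) this
    simp [zzEntry, h1.1, hG] at h0
  | gam k d =>
    simp only [zzEntry, Bool.and_eq_true, decide_eq_true_eq] at h1
    exact ⟨k, d, rfl, h1.1, h1.2⟩
  | t k =>
    exfalso
    simp only [zzEntry] at h0 h1
    rw [h1] at h0; exact Bool.noConfusion h0
  | psi k =>
    exfalso
    simp only [zzEntry] at h0 h1
    rw [h1] at h0; exact Bool.noConfusion h0
  | zero z => simp [zzEntry] at h1

/-- The classes `a` of the special rows on which a column has a `1` differ by at most one; more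
precisely three special rows with a common `1`-column have two equal classes. -/
theorem two_equal_of_common {h : ℕ} {x0 x1 x2 a0 a1 a2 : ℕ} {γ : CC}
    (e0 : zzEntry h (RC.R x0 a0) γ = true) (e1 : zzEntry h (RC.R x1 a1) γ = true)
    (e2 : zzEntry h (RC.R x2 a2) γ = true) : a0 = a1 ∨ a0 = a2 ∨ a1 = a2 := by
  cases γ with
  | spec u b =>
    simp only [zzEntry, Bool.and_eq_true, decide_eq_true_eq] at e0 e1 e2
    omega
  | gam k d =>
    simp only [zzEntry, Bool.and_eq_true, decide_eq_true_eq] at e0 e1 e2
    omega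
  | t k =>
    simp only [zzEntry, decide_eq_true_eq] at e0 e1 e2
    omega
  | psi k =>
    simp only [zzEntry, decide_eq_true_eq] at e0 e1 e2
    omega
  | zero z => simp [zzEntry] at e0

/-- A `gam` column of step `2a-1` or `2a` is `0` on special rows of every other class. -/
theorem class_eq_of_gam {h : ℕ} {x a a' k : ℕ} {d : Bool} (hk : k + 1 = 2 * a ∨ k = 2 * a)
    (e : zzEntry h (RC.R x a') (CC.gam k d) = true) : a' = a := by
  simp only [zzEntry, Bool.and_eq_true, decide_eq_true_eq] at e
  omega

/-- Three special rows of one class: impossible. -/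
theorem S3_same {h : ℕ} {c : Fin 4 → CC} {x0 x1 x2 a : ℕ}
    (cle : ∀ j j', j ≤ j' → lexLe ((c j).key) ((c j').key))
    (h01 : x0 ≤ x1) (h12 : x1 ≤ x2)
    (e00 : zzEntry h (RC.R x0 a) (c 0) = true) (e01 : zzEntry h (RC.R x0 a) (c 1) = true)
    (e02 : zzEntry h (RC.R x0 a) (c 2) = false)
    (e10 : zzEntry h (RC.R x1 a) (c 0) = false) (e11 : zzEntry h (RC.R x1 a) (c 1) = true)
    (e12 : zzEntry h (RC.R x1 a) (c 2) = true)
    (e20 : zzEntry h (RC.R x2 a) (c 0) = true) (e21 : zzEntry h (RC.R x2 a) (c 1) = false)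
    (e22 : zzEntry h (RC.R x2 a) (c 2) = true) : False := by
  obtain ⟨k0, d0, hc0, hk0, hD0⟩ := gam_of_nest h12 e10 e20
  obtain ⟨k2, d2, hc2, hk2, hD2⟩ := gam_of_nest h01 e02 e12
  -- the middle column is a `gam` column as well
  have hc1 : ∃ k1 d1, c 1 = CC.gam k1 d1 ∧ (k1 + 1 = 2 * a ∨ k1 = 2 * a) := by
    have l01 := cle 0 1 (by decide)
    have l12 := cle 1 2 (by decide)
    rw [hc0] at l01
    rw [hc2] at l12
    cases hc : c 1 with
    | spec u b => rw [hc] at l01; simp [CC.key, lexLe] at l01
    | gam k d =>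
      rw [hc] at e01
      simp only [zzEntry, Bool.and_eq_true, decide_eq_true_eq] at e01
      exact ⟨k, d, rfl, e01.1⟩
    | t k =>
      exfalso
      rw [hc] at e01 e21
      simp only [zzEntry] at e01 e21
      rw [e01] at e21; exact Bool.noConfusion e21
    | psi k =>
      exfalso
      rw [hc] at e01 e21
      simp only [zzEntry] at e01 e21
      rw [e01] at e21; exact Bool.noConfusion e21
    | zero z => rw [hc] at l12; simp [CC.key, lexLe] at l12
  obtain ⟨k1, d1, hc1, hk1⟩ := hc1
  rw [hc0] at e00 e10 e20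
  rw [hc1] at e01 e11 e21
  rw [hc2] at e02 e12 e22
  have D : ∀ {x k d}, zzEntry h (RC.R x a) (CC.gam k d) = true → zzD h k d x = true := by
    intro x k d e
    simp only [zzEntry, Bool.and_eq_true, decide_eq_true_eq] at e
    exact e.2
  rcases (by omega : k0 = k1 ∨ k0 = k2 ∨ k1 = k2) with hk | hk | hk
  · -- columns 0 and 1 are both `1` on row 0
    subst hk
    have hd : d0 = d1 := zzD_inj (D e00) (D e01)
    subst hd
    rw [e11] at e10; exact Bool.noConfusion e10
  · -- columns 0 and 2 are both `1` on row 2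
    subst hk
    have hd : d0 = d2 := zzD_inj (D e20) (D e22)
    subst hd
    rw [e00] at e02; exact Bool.noConfusion e02
  · -- columns 1 and 2 are both `1` on row 1
    subst hk
    have hd : d1 = d2 := zzD_inj (D e11) (D e12)
    subst hd
    rw [e01] at e02; exact Bool.noConfusion e02

/-- **Case S3.** No copy of `K` has a special row as its first row. -/
theorem main {h : ℕ} {r : Fin 3 → RC} {c : Fin 4 → CC} (hK : KCopy h r c) (x0 a0 : ℕ)
    (h0 : r 0 = RC.R x0 a0) : False := by
  obtain ⟨k00, k01, k02, k03, k10, k11, k12, k13, k20, k21, k22, k23⟩ := zzK_vals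
  have e00 := (hK.ent 0 0).trans k00
  have e01 := (hK.ent 0 1).trans k01
  have e02 := (hK.ent 0 2).trans k02
  have e03 := (hK.ent 0 3).trans k03
  have e10 := (hK.ent 1 0).trans k10
  have e11 := (hK.ent 1 1).trans k11
  have e12 := (hK.ent 1 2).trans k12
  have e13 := (hK.ent 1 3).trans k13
  have e20 := (hK.ent 2 0).trans k20
  have e21 := (hK.ent 2 1).trans k21
  have e22 := (hK.ent 2 2).trans k22
  have e23 := (hK.ent 2 3).trans k23
  have l01 := hK.rle 0 1 (by decide)
  have l12 := hK.rle 1 2 (by decide)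
  have l02 := hK.rle 0 2 (by decide)
  rw [h0] at l01 l02 e00 e01 e02 e03
  obtain ⟨x1, a1, h1, o01⟩ := R_of_key_ge l01
  rw [h1] at l12 e10 e11 e12 e13
  obtain ⟨x2, a2, h2, o12⟩ := R_of_key_ge l12
  rw [h2] at e20 e21 e22 e23
  have hx01 : x0 ≤ x1 := by omega
  have hx12 : x1 ≤ x2 := by omega
  -- two of the three classes coincide (common `1`-column `c 3`), hence all three do
  have hall : a0 = a1 ∧ a1 = a2 := by
    rcases two_equal_of_common e03 e13 e23 with hq | hq | hq
    · subst hq
      obtain ⟨k, d, hc, hk, -⟩ := gam_of_nest hx01 e02 e12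
      rw [hc] at e22
      exact ⟨rfl, (class_eq_of_gam hk e22).symm⟩
    · subst hq
      obtain ⟨k, d, hc, hk, -⟩ := gam_of_nest (le_trans hx01 hx12) e02 e22
      rw [hc] at e12
      exact ⟨(class_eq_of_gam hk e12).symm, class_eq_of_gam hk e12⟩
    · subst hq
      obtain ⟨k, d, hc, hk, -⟩ := gam_of_nest hx12 e10 e20
      rw [hc] at e00
      exact ⟨class_eq_of_gam hk e00, rfl⟩
  obtain ⟨ha, hb⟩ := hall
  subst ha
  subst hb
  exact S3_same hK.cle hx01 hx12 e00 e01 e02 e10 e11 e12 e20 e21 e22

end SeedS3

/-- **Case S3** (three special rows): no class-level copy of `K` has a special row as its first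
row.  (The hypothesis `1 ≤ h` is not used; it is kept for a uniform interface, board #518.) -/
theorem seedS3 {h : ℕ} (_h1 : 1 ≤ h) {r : Fin 3 → RC} {c : Fin 4 → CC} (hK : KCopy h r c)
    {x0 a0 : ℕ} (hr0 : r 0 = RC.R x0 a0) : False :=
  SeedS3.main hK x0 a0 hr0

end Crest.Agent.S0066
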