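import Mathlib
import Crest.Agent.S0066_ZZClass
import Crest.Agent.S0066_SeedS0b
import Crest.Agent.S0066_SeedS1
import Crest.Agent.S0066_SeedS2b
import Crest.Agent.S0066_SeedS3

/-!
# S0066 (row 47), zig-zag v2: the class-level type-forcing theorem

Every class-level copy of the core `K = [1101; 0111; 1011]` in the zig-zag matrix is a seed: its
third row is the special row `R x (h/2)` of a leaf `x` and its first column is the special column
`C(x, (h+1)/2)`.  Assembly of the four cases by the number of special rows (`seedS0b`, `seedS1`,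
`S2b.seedS2`, `seedS3`).
-/

set_option autoImplicit false

namespace Crest.Agent.S0066

/-- **Type-forcing (class level).** Every class-level copy of `K` is a seed. -/
theorem seed_of_kcopy {h : ℕ} (h1 : 1 ≤ h) {r : Fin 3 → RC} {c : Fin 4 → CC} (hK : KCopy h r c) :
    ∃ x, x < 2 ^ h ∧ r 2 = RC.R x (h / 2) ∧ c 0 = CC.spec x ((h + 1) / 2) := by
  by_cases h2 : ∃ x a, r 2 = RC.R x a
  · obtain ⟨x, a, hr2⟩ := h2
    have hx : x < 2 ^ h := by
      have v2 := hK.rv 2
      rw [hr2] at v2
      exact v2.1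
    have key : a = h / 2 ∧ c 0 = CC.spec x ((h + 1) / 2) := by
      by_cases h1' : ∃ x1 a1, r 1 = RC.R x1 a1
      · obtain ⟨x1, a1, hr1⟩ := h1'
        by_cases h0 : ∃ x0 a0, r 0 = RC.R x0 a0
        · obtain ⟨x0, a0, hr0⟩ := h0
          exact (seedS3 h1 hK hr0).elim
        · exact S2b.seedS2 h1 hK (fun x0 a0 hr0 => h0 ⟨x0, a0, hr0⟩) hr1 hr2
      · exact seedS1 h1 hK (fun x1 a1 hr1 => h1' ⟨x1, a1, hr1⟩) hr2
    exact ⟨x, hx, by rw [hr2, key.1], key.2⟩
  · exact (seedS0b h1 hK (fun x a hr2 => h2 ⟨x, a, hr2⟩)).elim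

end Crest.Agent.S0066
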