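import Mathlib
import Crest.Agent.S0066_Design
import Crest.Agent.S0066_ZZClass

/-!
# S0066 (row 47): the counting side — from the class-level seed theorem to the pinned cell

`seedPin h` is the set of the `2^h` cells `(R(x, ⌊h/2⌋), C(x, ⌈h/2⌉))`, one per leaf `x`.
Every ordered copy `(r, c)` of the core `zzK` in the matrix `M h` of `S0066_Design` has
`(r 2, c 0) ∈ seedPin h`, provided

* the class-level type-forcing theorem `SeedStatement h` (`KCopy h r c → ∃ x < 2^h,
  r 2 = R x (h/2) ∧ c 0 = spec x ((h+1)/2)`, proved in `S0066_Seeds`), and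
* the adapter facts for class maps `rcls : Row h → RC`, `ccls : Col h → CC` (a copy in `M h` is
  a class-level copy; a line whose class is a special class is the corresponding special line),
  proved in `S0066_Adapt`.

This is exactly the hypothesis `hS` of `good_of_corner_pinned` / `result_of_core_design`
(`S0066_Pin`) with `i0 = 2`, `j0 = 0`.  The adapter facts are hypotheses here so that this file
depends only on the definitions.
-/

set_option autoImplicit false

namespace Crest.Agent.S0066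

/-- The class-level type-forcing statement for a given `h` (proved in `S0066_Seeds`). -/
def SeedStatement (h : ℕ) : Prop :=
  ∀ (r : Fin 3 → RC) (c : Fin 4 → CC), KCopy h r c →
    ∃ x, x < 2 ^ h ∧ r 2 = RC.R x (h / 2) ∧ c 0 = CC.spec x ((h + 1) / 2)

/-- The pinned cells `(R(x, ⌊h/2⌋), C(x, ⌈h/2⌉))`, `x < 2^h` (`Col.spec u b` is `C(u, b+1)`). -/
def seedPin (h : ℕ) (h1 : 1 ≤ h) : Finset (Row h × Col h) :=
  Finset.univ.image (fun x : Fin (2 ^ h) =>
    ((Row.spec x ⟨h / 2, by omega⟩ : Row h), (Col.spec x ⟨(h + 1) / 2 - 1, by omega⟩ : Col h)))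

theorem card_seedPin_le (h : ℕ) (h1 : 1 ≤ h) : (seedPin h h1).card ≤ 2 ^ h := by
  unfold seedPin
  refine Finset.card_image_le.trans ?_
  simp

theorem card_seedPin_le_factorial (h : ℕ) (h1 : 1 ≤ h) :
    (seedPin h h1).card ≤ (Nat.factorial 65) ^ 2 * 2 ^ h := by
  refine (card_seedPin_le h h1).trans ?_
  have hpos : 0 < (Nat.factorial 65) ^ 2 := pow_pos (Nat.factorial_pos 65) 2
  exact Nat.le_mul_of_pos_left _ hpos

/-- **[Cnt].** Every ordered copy of the core `zzK` in `M h` contains a pinned cell at position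
`(2, 0)` of the core.  `rcls`, `ccls` are the class maps of the adapter; `hcopy`, `hrow`, `hcol`
are its three facts (`kcopy_of_copy`, `Row.spec_of_cls`, `Col.spec_of_cls` of `S0066_Adapt`). -/
theorem mem_seedPin_of_copy (h : ℕ) (h1 : 1 ≤ h) (hseed : SeedStatement h)
    (rcls : Row h → RC) (ccls : Col h → CC)
    (hcopy : ∀ (r : Fin 3 → Row h) (c : Fin 4 → Col h), StrictMono r → StrictMono c →
      (∀ i j, M h (r i) (c j) = zzK i j) → KCopy h (fun i => rcls (r i)) (fun j => ccls (c j)))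
    (hrow : ∀ (ρ : Row h) (x a : ℕ), rcls ρ = RC.R x a →
      ∃ (hx : x < 2 ^ h) (ha : a < h + 1), ρ = Row.spec ⟨x, hx⟩ ⟨a, ha⟩)
    (hcol : ∀ (γ : Col h) (u b : ℕ), ccls γ = CC.spec u (b + 1) → ∀ hb : b < h,
      ∃ (hu : u < 2 ^ h), γ = Col.spec ⟨u, hu⟩ ⟨b, hb⟩)
    (r : Fin 3 → Row h) (c : Fin 4 → Col h) (hr : StrictMono r) (hc : StrictMono c)
    (hM : ∀ i j, M h (r i) (c j) = zzK i j) : (r 2, c 0) ∈ seedPin h h1 := by
  obtain ⟨x, hx, h2, h0⟩ := hseed _ _ (hcopy r c hr hc hM)
  obtain ⟨hx', ha, hr2⟩ := hrow _ _ _ h2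
  have hb : (h + 1) / 2 - 1 < h := by omega
  have h0' : ccls (c 0) = CC.spec x ((h + 1) / 2 - 1 + 1) := by
    have e : (h + 1) / 2 - 1 + 1 = (h + 1) / 2 := by omega
    rw [e]; exact h0
  obtain ⟨hu, hc0⟩ := hcol _ _ _ h0' hb
  rw [seedPin, Finset.mem_image]
  exact ⟨⟨x, hx⟩, Finset.mem_univ _, by rw [hr2, hc0]⟩

end Crest.Agent.S0066
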