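import Mathlib
import Crest.Agent.S0066_Small

/-!
# S0066 (row 47): farness from leaf-private chains (design-independent part)

* `exists_exact_clean`: exact two-stage choice of clean twin lines;
* `exists_step`: discrete intermediate value lemma;
* `far_of_templates`: if every leaf `x` has, for every step `k` of its private chain, a
  *template* (for every line of `H` either a fixed special line of the leaf or a class of
  `≥ 2N` interchangeable non-special lines) which natively equals `H` except on the two chain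
  cells, then every matrix `B` that differs from `M` in fewer than `N²` cells contains `H`.
-/

set_option autoImplicit false

namespace Crest.Agent.S0066

open Finset

section exact

variable {R C I J : Type*} [DecidableEq R] [DecidableEq C] [Fintype I]

/-- **Exact clean choice.** Row candidate sets `F i` (pairwise disjoint) and column candidate
sets `G j`, each with at least `N + 1` members, and fewer than `N²` flipped cells: there is a
choice of one row per `F i` and one column per `G j` without any flipped cell among them. -/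
theorem exists_exact_clean (N : ℕ) (F : I → Finset R) (G : J → Finset C) (Flip : Finset (R × C))
    (hdisj : ∀ i i', i ≠ i' → Disjoint (F i) (F i'))
    (hF : ∀ i, N + 1 ≤ (F i).card) (hG : ∀ j, N + 1 ≤ (G j).card)
    (hFlip : Flip.card < N * N) :
    ∃ (f : I → R) (g : J → C), (∀ i, f i ∈ F i) ∧ (∀ j, g j ∈ G j) ∧
      ∀ i j, (f i, g j) ∉ Flip := by
  classical
  let d : R → ℕ := fun a => (Flip.filter (fun p => p.1 = a)).card
  have hne : ∀ i, (F i).Nonempty := fun i => Finset.card_pos.mp (by have := hF i; omega)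
  have hmin : ∀ i, ∃ a ∈ F i, ∀ a' ∈ F i, d a ≤ d a' :=
    fun i => Finset.exists_min_image (F i) d (hne i)
  choose f hfF hfmin using hmin
  have h1 : ∀ i, (N + 1) * d (f i) ≤ (Flip.filter (fun p => p.1 ∈ F i)).card := by
    intro i
    have hsum : (Flip.filter (fun p => p.1 ∈ F i)).card = ∑ a ∈ F i, d a := by
      rw [Finset.card_eq_sum_card_fiberwise (f := Prod.fst) (t := F i)]
      · refine Finset.sum_congr rfl (fun a ha => ?_)
        congr 1
        ext p
        simp only [Finset.mem_filter]
        constructor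
        · rintro ⟨⟨hp, _⟩, rfl⟩; exact ⟨hp, rfl⟩
        · rintro ⟨hp, rfl⟩; exact ⟨⟨hp, ha⟩, rfl⟩
      · intro p hp
        exact (Finset.mem_filter.mp hp).2
    rw [hsum]
    calc (N + 1) * d (f i) ≤ (F i).card * d (f i) := Nat.mul_le_mul_right _ (hF i)
      _ = ∑ _a ∈ F i, d (f i) := by rw [Finset.sum_const, smul_eq_mul]
      _ ≤ ∑ a ∈ F i, d a := Finset.sum_le_sum (fun a ha => hfmin i a ha)
  have h2 : ∑ i, (Flip.filter (fun p => p.1 ∈ F i)).card ≤ Flip.card := by
    rw [← Finset.card_biUnion]
    · refine Finset.card_le_card ?_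
      intro p hp
      obtain ⟨i, _, hi⟩ := Finset.mem_biUnion.mp hp
      exact (Finset.mem_filter.mp hi).1
    · intro i _ i' _ hii'
      refine Finset.disjoint_left.mpr ?_
      intro p hp hp'
      exact Finset.disjoint_left.mp (hdisj i i' hii') (Finset.mem_filter.mp hp).2
        (Finset.mem_filter.mp hp').2
  have h3 : (N + 1) * ∑ i, d (f i) < N * N := by
    rw [Finset.mul_sum]
    exact lt_of_le_of_lt (le_trans (Finset.sum_le_sum (fun i _ => h1 i)) h2) hFlip
  have h4 : ∑ i, d (f i) < N := by
    by_contra hcon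
    have hcon' : N ≤ ∑ i, d (f i) := Nat.le_of_not_lt hcon
    have : N * N ≤ (N + 1) * ∑ i, d (f i) := Nat.mul_le_mul (Nat.le_succ N) hcon'
    omega
  -- the columns hit by a flip in a chosen row
  let Bd : Finset C := (Finset.univ : Finset I).biUnion
    (fun i => (Flip.filter (fun p => p.1 = f i)).image Prod.snd)
  have hBd : Bd.card < N := by
    refine lt_of_le_of_lt ?_ h4
    refine le_trans Finset.card_biUnion_le ?_
    exact Finset.sum_le_sum (fun i _ => Finset.card_image_le)
  have step2 : ∀ j, ∃ b ∈ G j, b ∉ Bd := by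
    intro j
    apply Finset.exists_mem_notMem_of_card_lt_card
    have := hG j
    omega
  choose g hgG hgB using step2
  refine ⟨f, g, hfF, hgG, ?_⟩
  intro i j hflip
  apply hgB j
  refine Finset.mem_biUnion.mpr ⟨i, Finset.mem_univ _, ?_⟩
  exact Finset.mem_image.mpr ⟨(f i, g j), Finset.mem_filter.mpr ⟨hflip, rfl⟩, rfl⟩

end exact

/-- Discrete intermediate value lemma: a Boolean sequence with `v 0 = true` and
`v (m + 1) = false` has a step `k ≤ m` with `v k = true`, `v (k + 1) = false`. -/
theorem exists_step (v : ℕ → Bool) (m : ℕ) (h0 : v 0 = true) (hm : v (m + 1) = false) :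
    ∃ k, k ≤ m ∧ v k = true ∧ v (k + 1) = false := by
  induction m with
  | zero => exact ⟨0, le_refl 0, h0, hm⟩
  | succ m ih =>
    by_cases hv : v (m + 1) = true
    · exact ⟨m + 1, le_refl _, hv, hm⟩
    · have hv' : v (m + 1) = false := by simpa using hv
      obtain ⟨k, hk, h1, h2⟩ := ih hv'
      exact ⟨k, Nat.le_succ_of_le hk, h1, h2⟩

/-- The candidate set of a role: the fixed special line, or the whole twin class. -/
def roleSet {α : Type} [DecidableEq α] (s : Option α) (cl : Finset α) : Finset α :=
  match s with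
  | some a => {a}
  | none => cl

theorem roleSet_some {α : Type} [DecidableEq α] (a : α) (cl : Finset α) :
    roleSet (some a) cl = {a} := rfl

theorem roleSet_none {α : Type} [DecidableEq α] (cl : Finset α) :
    roleSet (none : Option α) cl = cl := rfl

section templates

variable {ι κ X : Type} [Fintype ι] [LinearOrder ι] [Fintype κ] [LinearOrder κ]
  [Fintype X] [DecidableEq X] {n : ℕ}

/-- The leaf to which a cell is private: a special row of leaf `x` against a column of the same
leaf or a non-special column, or a non-special row against a special column of leaf `x`. -/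
def cellLeaf (rowLeaf : ι → Option X) (colLeaf : κ → Option X) (p : ι × κ) : Option X :=
  match rowLeaf p.1, colLeaf p.2 with
  | some x, some y => if x = y then some x else none
  | some x, none => some x
  | none, some y => some y
  | none, none => none

/-- **Farness from templates.** See the file header. `w x k` (`1 ≤ k ≤ m`) are the chain cells
of leaf `x`; the template of leaf `x` and step `k ≤ m` assigns to the `H`-row `i` the special
row `r` if `rs x k i = some r`, and the twin class `rcl x k i` otherwise (same for columns). -/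
theorem far_of_templates (H : Fin n → Fin n → Bool) (M : ι → κ → Bool) (N m : ℕ)
    (hX : Fintype.card X = N)
    (rowLeaf : ι → Option X) (colLeaf : κ → Option X) (w : X → ℕ → ι × κ)
    (rs : X → ℕ → Fin n → Option ι) (rcl : X → ℕ → Fin n → Finset ι)
    (cs : X → ℕ → Fin n → Option κ) (ccl : X → ℕ → Fin n → Finset κ)
    (hrs : ∀ x k i r, k ≤ m → rs x k i = some r → rowLeaf r = some x)
    (hrcl : ∀ x k i, k ≤ m → rs x k i = none →
      (∀ a ∈ rcl x k i, rowLeaf a = none) ∧ 2 * N ≤ (rcl x k i).card)
    (hcs : ∀ x k j c, k ≤ m → cs x k j = some c → colLeaf c = some x)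
    (hccl : ∀ x k j, k ≤ m → cs x k j = none →
      (∀ b ∈ ccl x k j, colLeaf b = none) ∧ 2 * N ≤ (ccl x k j).card)
    (hrmono : ∀ x k, k ≤ m → ∀ i i', i < i' →
      ∀ a ∈ roleSet (rs x k i) (rcl x k i), ∀ a' ∈ roleSet (rs x k i') (rcl x k i'), a < a')
    (hcmono : ∀ x k, k ≤ m → ∀ j j', j < j' →
      ∀ b ∈ roleSet (cs x k j) (ccl x k j), ∀ b' ∈ roleSet (cs x k j') (ccl x k j'), b < b')
    (hval : ∀ x k, k ≤ m → ∀ i j, (rs x k i = none ∨ cs x k j = none) →
      ∀ a ∈ roleSet (rs x k i) (rcl x k i), ∀ b ∈ roleSet (cs x k j) (ccl x k j),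
        M a b = H i j)
    (hchain : ∀ x k, k ≤ m → ∀ i j r c, rs x k i = some r → cs x k j = some c →
      ((r, c) = w x k ∧ 1 ≤ k ∧ H i j = true) ∨
        ((r, c) = w x (k + 1) ∧ k + 1 ≤ m ∧ H i j = false))
    (B : ι → κ → Bool)
    (hB : (Finset.univ.filter (fun p : ι × κ => M p.1 p.2 ≠ B p.1 p.2)).card < N * N) :
    HasCopy H B := by
  classical
  set Δ : Finset (ι × κ) := Finset.univ.filter (fun p : ι × κ => M p.1 p.2 ≠ B p.1 p.2)
    with hΔ
  have hΔmem : ∀ a b, (a, b) ∉ Δ → B a b = M a b := by
    intro a b hab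
    by_contra hne
    exact hab (Finset.mem_filter.mpr ⟨Finset.mem_univ _, fun h => hne h.symm⟩)
  -- a leaf with fewer than `N` private changes
  obtain ⟨x, hx⟩ : ∃ x : X, (Δ.filter (fun p => cellLeaf rowLeaf colLeaf p = some x)).card < N := by
    by_contra hcon
    have hcon' : ∀ x : X,
        N ≤ (Δ.filter (fun p => cellLeaf rowLeaf colLeaf p = some x)).card :=
      fun x => Nat.le_of_not_lt (fun hlt => hcon ⟨x, hlt⟩)
    have h1 : ∑ x : X, (Δ.filter (fun p => cellLeaf rowLeaf colLeaf p = some x)).card ≤ Δ.card := by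
      rw [← Finset.card_biUnion]
      · refine Finset.card_le_card ?_
        intro p hp
        obtain ⟨x, _, hx⟩ := Finset.mem_biUnion.mp hp
        exact (Finset.mem_filter.mp hx).1
      · intro x _ y _ hxy
        refine Finset.disjoint_left.mpr ?_
        intro p hp hp'
        have e1 := (Finset.mem_filter.mp hp).2
        have e2 := (Finset.mem_filter.mp hp').2
        rw [e1] at e2
        exact hxy (Option.some.inj e2)
    have h2 : N * N ≤ ∑ x : X, (Δ.filter (fun p => cellLeaf rowLeaf colLeaf p = some x)).card := by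
      calc N * N = ∑ _x : X, N := by
            rw [Finset.sum_const, Finset.card_univ, hX, smul_eq_mul]
        _ ≤ _ := Finset.sum_le_sum (fun x _ => hcon' x)
    omega
  set Δx : Finset (ι × κ) := Δ.filter (fun p => cellLeaf rowLeaf colLeaf p = some x) with hΔx
  have hNpos : 0 < N := by omega
  -- the step
  let v : ℕ → Bool := fun k =>
    if k = 0 then true else if k ≤ m then B (w x k).1 (w x k).2 else false
  obtain ⟨k, hkm, hvk, hvk1⟩ := exists_step v m (by simp [v]) (by simp [v])
  -- dirty non-special lines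
  let Dr : Finset ι := Δx.image Prod.fst
  let Dc : Finset κ := Δx.image Prod.snd
  have hDr : Dr.card < N := lt_of_le_of_lt Finset.card_image_le hx
  have hDc : Dc.card < N := lt_of_le_of_lt Finset.card_image_le hx
  -- clean rows are unchanged against the special columns of the leaf
  have hcleanr : ∀ a, rowLeaf a = none → a ∉ Dr → ∀ c, colLeaf c = some x → (a, c) ∉ Δ := by
    intro a ha haD c hc hmem
    apply haD
    refine Finset.mem_image.mpr ⟨(a, c), Finset.mem_filter.mpr ⟨hmem, ?_⟩, rfl⟩
    simp [cellLeaf, ha, hc]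
  have hcleanc : ∀ b, colLeaf b = none → b ∉ Dc → ∀ r, rowLeaf r = some x → (r, b) ∉ Δ := by
    intro b hb hbD r hr hmem
    apply hbD
    refine Finset.mem_image.mpr ⟨(r, b), Finset.mem_filter.mpr ⟨hmem, ?_⟩, rfl⟩
    simp [cellLeaf, hb, hr]
  -- the exact choice on the twin roles
  let I := {i : Fin n // rs x k i = none}
  let J := {j : Fin n // cs x k j = none}
  obtain ⟨f, g, hf, hg, hfg⟩ := exists_exact_clean (I := I) (J := J) N
    (fun i => rcl x k i.1 \ Dr) (fun j => ccl x k j.1 \ Dc) Δ
    (by
      intro i i' hii'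
      have hne : i.1 ≠ i'.1 := fun h => hii' (Subtype.ext h)
      refine Finset.disjoint_left.mpr ?_
      intro a ha ha'
      have ha1 : a ∈ roleSet (rs x k i.1) (rcl x k i.1) := by
        rw [i.2, roleSet_none]; exact (Finset.mem_sdiff.mp ha).1
      have ha2 : a ∈ roleSet (rs x k i'.1) (rcl x k i'.1) := by
        rw [i'.2, roleSet_none]; exact (Finset.mem_sdiff.mp ha').1
      rcases lt_or_gt_of_ne hne with hlt | hgt
      · exact lt_irrefl a (hrmono x k hkm _ _ hlt a ha1 a ha2)
      · exact lt_irrefl a (hrmono x k hkm _ _ hgt a ha2 a ha1))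
    (by
      intro i
      have h1 := (hrcl x k i.1 hkm i.2).2
      have h2 := Finset.le_card_sdiff Dr (rcl x k i.1)
      omega)
    (by
      intro j
      have h1 := (hccl x k j.1 hkm j.2).2
      have h2 := Finset.le_card_sdiff Dc (ccl x k j.1)
      omega)
    hB
  -- the embedding
  let r : Fin n → ι := fun i =>
    if h : rs x k i = none then f ⟨i, h⟩ else (rs x k i).get (Option.ne_none_iff_isSome.mp h)
  let c : Fin n → κ := fun j =>
    if h : cs x k j = none then g ⟨j, h⟩ else (cs x k j).get (Option.ne_none_iff_isSome.mp h)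
  have hr_none : ∀ i (h : rs x k i = none), r i = f ⟨i, h⟩ := fun i h => dif_pos h
  have hr_some : ∀ i a, rs x k i = some a → r i = a := by
    intro i a h
    have hne : ¬ rs x k i = none := by rw [h]; simp
    simp only [r, dif_neg hne]
    simp [h]
  have hc_none : ∀ j (h : cs x k j = none), c j = g ⟨j, h⟩ := fun j h => dif_pos h
  have hc_some : ∀ j b, cs x k j = some b → c j = b := by
    intro j b h
    have hne : ¬ cs x k j = none := by rw [h]; simp
    simp only [c, dif_neg hne]
    simp [h]
  have hr_mem : ∀ i, r i ∈ roleSet (rs x k i) (rcl x k i) := by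
    intro i
    rcases hrs' : rs x k i with _ | a
    · rw [roleSet_none, hr_none i hrs']
      exact (Finset.mem_sdiff.mp (hf ⟨i, hrs'⟩)).1
    · rw [roleSet_some, hr_some i a hrs']
      exact Finset.mem_singleton_self a
  have hc_mem : ∀ j, c j ∈ roleSet (cs x k j) (ccl x k j) := by
    intro j
    rcases hcs' : cs x k j with _ | b
    · rw [roleSet_none, hc_none j hcs']
      exact (Finset.mem_sdiff.mp (hg ⟨j, hcs'⟩)).1
    · rw [roleSet_some, hc_some j b hcs']
      exact Finset.mem_singleton_self b
  refine ⟨r, c, ?_, ?_, ?_⟩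
  · intro i i' hii'
    exact hrmono x k hkm i i' hii' _ (hr_mem i) _ (hr_mem i')
  · intro j j' hjj'
    exact hcmono x k hkm j j' hjj' _ (hc_mem j) _ (hc_mem j')
  · intro i j
    rcases hrs' : rs x k i with _ | a <;> rcases hcs' : cs x k j with _ | b
    · -- twin row, twin column
      have h1 : (r i, c j) ∉ Δ := by
        rw [hr_none i hrs', hc_none j hcs']; exact hfg _ _
      rw [hΔmem _ _ h1]
      exact hval x k hkm i j (Or.inl hrs') _ (hr_mem i) _ (hc_mem j)
    · -- twin row, special column
      have h1 : (r i, c j) ∉ Δ := by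
        rw [hr_none i hrs', hc_some j b hcs']
        have hfi := Finset.mem_sdiff.mp (hf ⟨i, hrs'⟩)
        exact hcleanr _ ((hrcl x k i hkm hrs').1 _ hfi.1) hfi.2 b (hcs x k j b hkm hcs')
      rw [hΔmem _ _ h1]
      exact hval x k hkm i j (Or.inl hrs') _ (hr_mem i) _ (hc_mem j)
    · -- special row, twin column
      have h1 : (r i, c j) ∉ Δ := by
        rw [hr_some i a hrs', hc_none j hcs']
        have hgj := Finset.mem_sdiff.mp (hg ⟨j, hcs'⟩)
        exact hcleanc _ ((hccl x k j hkm hcs').1 _ hgj.1) hgj.2 a (hrs x k i a hkm hrs')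
      rw [hΔmem _ _ h1]
      exact hval x k hkm i j (Or.inr hcs') _ (hr_mem i) _ (hc_mem j)
    · -- special row, special column: a chain cell
      rw [hr_some i a hrs', hc_some j b hcs']
      rcases hchain x k hkm i j a b hrs' hcs' with ⟨hw, hk1, hH⟩ | ⟨hw, hk1, hH⟩
      · have : v k = B (w x k).1 (w x k).2 := by
          have hk0 : k ≠ 0 := by omega
          simp [v, hk0, hkm]
        rw [hH, ← hvk, this, ← hw]
      · have : v (k + 1) = B (w x (k + 1)).1 (w x (k + 1)).2 := by
          simp [v, hk1]
        rw [hH, ← hvk1, this, ← hw]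

/-- `far_of_templates` in the exact `hfar` shape of `good_of_structured` / `good_of_corner_pinned`
(`N = 2^h` leaves, distance `4^h`). -/
theorem far_of_templates_pow (H : Fin n → Fin n → Bool) (M : ι → κ → Bool) (h m : ℕ)
    (hX : Fintype.card X = 2 ^ h)
    (rowLeaf : ι → Option X) (colLeaf : κ → Option X) (w : X → ℕ → ι × κ)
    (rs : X → ℕ → Fin n → Option ι) (rcl : X → ℕ → Fin n → Finset ι)
    (cs : X → ℕ → Fin n → Option κ) (ccl : X → ℕ → Fin n → Finset κ)
    (hrs : ∀ x k i r, k ≤ m → rs x k i = some r → rowLeaf r = some x)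
    (hrcl : ∀ x k i, k ≤ m → rs x k i = none →
      (∀ a ∈ rcl x k i, rowLeaf a = none) ∧ 2 * 2 ^ h ≤ (rcl x k i).card)
    (hcs : ∀ x k j c, k ≤ m → cs x k j = some c → colLeaf c = some x)
    (hccl : ∀ x k j, k ≤ m → cs x k j = none →
      (∀ b ∈ ccl x k j, colLeaf b = none) ∧ 2 * 2 ^ h ≤ (ccl x k j).card)
    (hrmono : ∀ x k, k ≤ m → ∀ i i', i < i' →
      ∀ a ∈ roleSet (rs x k i) (rcl x k i), ∀ a' ∈ roleSet (rs x k i') (rcl x k i'), a < a')
    (hcmono : ∀ x k, k ≤ m → ∀ j j', j < j' →
      ∀ b ∈ roleSet (cs x k j) (ccl x k j), ∀ b' ∈ roleSet (cs x k j') (ccl x k j'), b < b')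
    (hval : ∀ x k, k ≤ m → ∀ i j, (rs x k i = none ∨ cs x k j = none) →
      ∀ a ∈ roleSet (rs x k i) (rcl x k i), ∀ b ∈ roleSet (cs x k j) (ccl x k j),
        M a b = H i j)
    (hchain : ∀ x k, k ≤ m → ∀ i j r c, rs x k i = some r → cs x k j = some c →
      ((r, c) = w x k ∧ 1 ≤ k ∧ H i j = true) ∨
        ((r, c) = w x (k + 1) ∧ k + 1 ≤ m ∧ H i j = false)) :
    ∀ B : ι → κ → Bool, ¬ HasCopy H B →
      4 ^ h ≤ (Finset.univ.filter (fun p : ι × κ => M p.1 p.2 ≠ B p.1 p.2)).card := by
  intro B hB
  by_contra hlt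
  apply hB
  refine far_of_templates H M (2 ^ h) m hX rowLeaf colLeaf w rs rcl cs ccl hrs hrcl hcs hccl
    hrmono hcmono hval hchain B ?_
  have h4 : (4 : ℕ) ^ h = 2 ^ h * 2 ^ h := by
    rw [← mul_pow]; norm_num
  have hlt' := Nat.lt_of_not_le hlt
  rw [h4] at hlt'
  exact hlt'

end templates

end Crest.Agent.S0066
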