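import Mathlib
import Crest.Agent.S0066_Design

/-!
# S0066 (row 47): near-copy templates of the zig-zag matrix — definitions

For every leaf `x` and every step `k ≤ 2h` of its private chain we give the near-copy template:
`rowOf h x k i t` / `colOf h h1 x k j t` is the line playing the role of the `i`-th row / `j`-th
column of `H66` (twin index `t`, ignored by the special lines).

* even `k = 2a` (row step): rows `zero_0 … zero_62, τ_k, ρ_k^δ, R(x,a)`;
  columns `C(x,a)` (`Λ` if `a = 0`), `C(x,a+1)` (`Ω^δ` if `a = h`), `γ_k^δ, ψ_k, zero_0 … zero_61`;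
* odd `k = 2b-1` (column step): rows `zero_0 … zero_62, ρ_k^δ, R(x,b), R(x,b-1)`;
  columns `C(x,b), γ_k^δ, t_k, ψ_k, zero_0 … zero_61`.

This file: the definitions only (`Tmpl.rowOf`, `Tmpl.colOf`, `Tmpl.rowSpecial`, `Tmpl.colSpecial`,
`Tmpl.chain`, `Tmpl.delta`).  The facts are in `S0066_TmplOrd` (order), `S0066_TmplEven`,
`S0066_TmplOdd` (values), and the result `Tmpl.far_M : ¬ HasCopy H66 B → 4 ^ h ≤ #{M h ≠ B}` in
`S0066_Tmpl`.
-/

set_option autoImplicit false

namespace Crest.Agent.S0066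

namespace Tmpl

/-- Clamp a natural number into `Fin n`. -/
def fin' (n : ℕ) (hn : 0 < n) (a : ℕ) : Fin n := ⟨a % n, Nat.mod_lt _ hn⟩

theorem fin'_val (n : ℕ) (hn : 0 < n) (a : ℕ) (ha : a < n) : (fin' n hn a).val = a :=
  Nat.mod_eq_of_lt ha

/-- The digit with which the lines of address `x` are read at step `k` (`0` at `k = h`). -/
def delta (h k x : ℕ) : Fin 2 :=
  if k = h then 0 else ⟨bit h k x % 2, Nat.mod_lt _ (by norm_num)⟩

theorem dg_delta (h k x : ℕ) : dg h k x (delta h k x).val := by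
  unfold dg delta
  by_cases hk : k = h
  · left; simp [hk]
  · right
    refine ⟨hk, ?_⟩
    simp only [hk, if_false]
    unfold bit
    split_ifs <;> simp

variable {h : ℕ}

/-- The leaf of a special row. -/
def rowLeaf : Row h → Option (Fin (2 ^ h))
  | .spec x _ => some x
  | _ => none

/-- The leaf of a special column. -/
def colLeaf : Col h → Option (Fin (2 ^ h))
  | .spec u _ => some u
  | _ => none

/-- The chain cell `w_k` of leaf `x` (`1 ≤ k ≤ 2h`): `(R(x, ⌊k/2⌋), C(x, ⌈k/2⌉))`. -/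
def chain (h : ℕ) (h1 : 0 < h) (x : Fin (2 ^ h)) (k : ℕ) : Row h × Col h :=
  (Row.spec x (fin' (h + 1) (by omega) (k / 2)), Col.spec x (fin' h h1 ((k - 1) / 2)))

/-- The row playing the role of the `i`-th row of `H66` in the near-copy of leaf `x`, step `k`. -/
def rowOf (h : ℕ) (x : Fin (2 ^ h)) (k : ℕ) (i : Fin 66) (t : Fin (2 * 2 ^ h)) : Row h :=
  if i.val < 63 then Row.zero (fin' 63 (by norm_num) i.val) t
  else if i.val = 65 then Row.spec x (fin' (h + 1) (by omega) (k / 2))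
  else if k % 2 = 0 then
    (if i.val = 63 then Row.tau (fin' (2 * h + 1) (by omega) k) t
     else Row.rho (fin' (2 * h + 1) (by omega) k) (delta h k x.val) t)
  else
    (if i.val = 63 then Row.rho (fin' (2 * h + 1) (by omega) k) (delta h k x.val) t
     else Row.spec x (fin' (h + 1) (by omega) ((k + 1) / 2)))

/-- The role `i` is played by a special row. -/
def rowSpecial (k : ℕ) (i : Fin 66) : Prop := i.val = 65 ∨ (i.val = 64 ∧ k % 2 = 1)

instance (k : ℕ) (i : Fin 66) : Decidable (rowSpecial k i) := by unfold rowSpecial; infer_instance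

/-- The column playing the role of the `j`-th column of `H66` in the near-copy of leaf `x`,
step `k`. -/
def colOf (h : ℕ) (h1 : 0 < h) (x : Fin (2 ^ h)) (k : ℕ) (j : Fin 66) (t : Fin (2 * 2 ^ h)) :
    Col h :=
  if j.val = 0 then
    (if k = 0 then Col.lam t else Col.spec x (fin' h h1 ((k - 1) / 2)))
  else if j.val = 1 then
    (if k % 2 = 0 then
      (if k = 2 * h then Col.om (delta h k x.val) t else Col.spec x (fin' h h1 (k / 2)))
     else Col.gam (fin' (2 * h + 1) (by omega) k) (delta h k x.val) t)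
  else if j.val = 2 then
    (if k % 2 = 0 then Col.gam (fin' (2 * h + 1) (by omega) k) (delta h k x.val) t
     else Col.tt (fin' (2 * h + 1) (by omega) k) t)
  else if j.val = 3 then Col.psi (fin' (2 * h + 1) (by omega) k) t
  else Col.zero (fin' 62 (by norm_num) (j.val - 4)) t

/-- The role `j` is played by a special column. -/
def colSpecial (h k : ℕ) (j : Fin 66) : Prop :=
  (j.val = 0 ∧ k ≠ 0) ∨ (j.val = 1 ∧ k % 2 = 0 ∧ k ≠ 2 * h)

instance (h k : ℕ) (j : Fin 66) : Decidable (colSpecial h k j) := by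
  unfold colSpecial; infer_instance

/-! ### Evaluation of the templates (one lemma per role) -/

theorem row_cases (i : Fin 66) : i.val < 63 ∨ i.val = 63 ∨ i.val = 64 ∨ i.val = 65 := by omega

theorem col_cases (j : Fin 66) : j.val = 0 ∨ j.val = 1 ∨ j.val = 2 ∨ j.val = 3 ∨ 4 ≤ j.val := by
  omega

theorem rowOf_zero (x : Fin (2 ^ h)) (k : ℕ) (i : Fin 66) (t : Fin (2 * 2 ^ h))
    (hi : i.val < 63) : rowOf h x k i t = Row.zero (fin' 63 (by norm_num) i.val) t := by
  unfold rowOf; rw [if_pos hi]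

theorem rowOf_65 (x : Fin (2 ^ h)) (k : ℕ) (i : Fin 66) (t : Fin (2 * 2 ^ h))
    (hi : i.val = 65) : rowOf h x k i t = Row.spec x (fin' (h + 1) (by omega) (k / 2)) := by
  unfold rowOf; rw [if_neg (by omega), if_pos hi]

theorem rowOf_63_even (x : Fin (2 ^ h)) (k : ℕ) (i : Fin 66) (t : Fin (2 * 2 ^ h))
    (hi : i.val = 63) (hk : k % 2 = 0) :
    rowOf h x k i t = Row.tau (fin' (2 * h + 1) (by omega) k) t := by
  unfold rowOf; rw [if_neg (by omega), if_neg (by omega), if_pos hk, if_pos hi]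

theorem rowOf_64_even (x : Fin (2 ^ h)) (k : ℕ) (i : Fin 66) (t : Fin (2 * 2 ^ h))
    (hi : i.val = 64) (hk : k % 2 = 0) :
    rowOf h x k i t = Row.rho (fin' (2 * h + 1) (by omega) k) (delta h k x.val) t := by
  unfold rowOf; rw [if_neg (by omega), if_neg (by omega), if_pos hk, if_neg (by omega)]

theorem rowOf_63_odd (x : Fin (2 ^ h)) (k : ℕ) (i : Fin 66) (t : Fin (2 * 2 ^ h))
    (hi : i.val = 63) (hk : k % 2 = 1) :
    rowOf h x k i t = Row.rho (fin' (2 * h + 1) (by omega) k) (delta h k x.val) t := by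
  unfold rowOf; rw [if_neg (by omega), if_neg (by omega), if_neg (by omega), if_pos hi]

theorem rowOf_64_odd (x : Fin (2 ^ h)) (k : ℕ) (i : Fin 66) (t : Fin (2 * 2 ^ h))
    (hi : i.val = 64) (hk : k % 2 = 1) :
    rowOf h x k i t = Row.spec x (fin' (h + 1) (by omega) ((k + 1) / 2)) := by
  unfold rowOf; rw [if_neg (by omega), if_neg (by omega), if_neg (by omega), if_neg (by omega)]

theorem colOf_0_zero (h1 : 0 < h) (x : Fin (2 ^ h)) (k : ℕ) (j : Fin 66) (t : Fin (2 * 2 ^ h))
    (hj : j.val = 0) (hk : k = 0) : colOf h h1 x k j t = Col.lam t := by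
  unfold colOf; rw [if_pos hj, if_pos hk]

theorem colOf_0_pos (h1 : 0 < h) (x : Fin (2 ^ h)) (k : ℕ) (j : Fin 66) (t : Fin (2 * 2 ^ h))
    (hj : j.val = 0) (hk : k ≠ 0) :
    colOf h h1 x k j t = Col.spec x (fin' h h1 ((k - 1) / 2)) := by
  unfold colOf; rw [if_pos hj, if_neg hk]

theorem colOf_1_even_top (h1 : 0 < h) (x : Fin (2 ^ h)) (k : ℕ) (j : Fin 66)
    (t : Fin (2 * 2 ^ h)) (hj : j.val = 1) (hk : k = 2 * h) :
    colOf h h1 x k j t = Col.om (delta h k x.val) t := by
  unfold colOf; rw [if_neg (by omega), if_pos hj, if_pos (by omega), if_pos hk]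

theorem colOf_1_even (h1 : 0 < h) (x : Fin (2 ^ h)) (k : ℕ) (j : Fin 66) (t : Fin (2 * 2 ^ h))
    (hj : j.val = 1) (hpar : k % 2 = 0) (hk : k ≠ 2 * h) :
    colOf h h1 x k j t = Col.spec x (fin' h h1 (k / 2)) := by
  unfold colOf; rw [if_neg (by omega), if_pos hj, if_pos hpar, if_neg hk]

theorem colOf_1_odd (h1 : 0 < h) (x : Fin (2 ^ h)) (k : ℕ) (j : Fin 66) (t : Fin (2 * 2 ^ h))
    (hj : j.val = 1) (hpar : k % 2 = 1) :
    colOf h h1 x k j t = Col.gam (fin' (2 * h + 1) (by omega) k) (delta h k x.val) t := by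
  unfold colOf; rw [if_neg (by omega), if_pos hj, if_neg (by omega)]

theorem colOf_2_even (h1 : 0 < h) (x : Fin (2 ^ h)) (k : ℕ) (j : Fin 66) (t : Fin (2 * 2 ^ h))
    (hj : j.val = 2) (hpar : k % 2 = 0) :
    colOf h h1 x k j t = Col.gam (fin' (2 * h + 1) (by omega) k) (delta h k x.val) t := by
  unfold colOf; rw [if_neg (by omega), if_neg (by omega), if_pos hj, if_pos hpar]

theorem colOf_2_odd (h1 : 0 < h) (x : Fin (2 ^ h)) (k : ℕ) (j : Fin 66) (t : Fin (2 * 2 ^ h))
    (hj : j.val = 2) (hpar : k % 2 = 1) :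
    colOf h h1 x k j t = Col.tt (fin' (2 * h + 1) (by omega) k) t := by
  unfold colOf; rw [if_neg (by omega), if_neg (by omega), if_pos hj, if_neg (by omega)]

theorem colOf_3 (h1 : 0 < h) (x : Fin (2 ^ h)) (k : ℕ) (j : Fin 66) (t : Fin (2 * 2 ^ h))
    (hj : j.val = 3) : colOf h h1 x k j t = Col.psi (fin' (2 * h + 1) (by omega) k) t := by
  unfold colOf; rw [if_neg (by omega), if_neg (by omega), if_neg (by omega), if_pos hj]

theorem colOf_zero (h1 : 0 < h) (x : Fin (2 ^ h)) (k : ℕ) (j : Fin 66) (t : Fin (2 * 2 ^ h))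
    (hj : 4 ≤ j.val) : colOf h h1 x k j t = Col.zero (fin' 62 (by norm_num) (j.val - 4)) t := by
  unfold colOf
  rw [if_neg (by omega), if_neg (by omega), if_neg (by omega), if_neg (by omega)]

/-- `H66` in arithmetic form. -/
theorem H66_eq_true_iff (i j : Fin 66) :
    H66 i j = true ↔ (i.val = 63 ∧ (j.val = 0 ∨ j.val = 1 ∨ j.val = 3)) ∨
      (i.val = 64 ∧ (j.val = 1 ∨ j.val = 2 ∨ j.val = 3)) ∨
      (i.val = 65 ∧ (j.val = 0 ∨ j.val = 2 ∨ j.val = 3)) := by
  unfold H66 Kc
  rw [decide_eq_true_iff]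
  have := i.isLt
  omega

theorem H66_eq_false_iff (i j : Fin 66) :
    H66 i j = false ↔ ¬ ((i.val = 63 ∧ (j.val = 0 ∨ j.val = 1 ∨ j.val = 3)) ∨
      (i.val = 64 ∧ (j.val = 1 ∨ j.val = 2 ∨ j.val = 3)) ∨
      (i.val = 65 ∧ (j.val = 0 ∨ j.val = 2 ∨ j.val = 3))) := by
  rw [← H66_eq_true_iff]; simp

/-- Generates the `simp` congruence lemma of `fin'` in this module, so that the modules using it
share one copy (no proof content). -/
theorem fin'_congr_here : True := (fun _ => trivial) @fin'.congr_simp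

end Tmpl

end Crest.Agent.S0066
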