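import Mathlib
import Crest.Agent.S0066_TmplDefs

/-!
# S0066 (row 47): near-copy templates of the zig-zag matrix — values at the odd (column) steps
-/

set_option autoImplicit false

namespace Crest.Agent.S0066

namespace Tmpl

variable {h : ℕ}

theorem M_zero_row' (j : Fin 63) (t : Fin (2 * 2 ^ h)) (c : Col h) : M h (Row.zero j t) c = false := by
  cases c <;> rfl

theorem M_zero_col' (r : Row h) (j : Fin 62) (t : Fin (2 * 2 ^ h)) : M h r (Col.zero j t) = false := by
  cases r <;> rfl

theorem val_odd (h1 : 0 < h) (x : Fin (2 ^ h)) (k : ℕ) (hk : k ≤ 2 * h) (hpar : k % 2 = 1)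
    (i j : Fin 66) (hns : ¬ (rowSpecial k i ∧ colSpecial h k j)) (t t' : Fin (2 * 2 ^ h)) :
    M h (rowOf h x k i t) (colOf h h1 x k j t') = H66 i j := by
  have hkv : (fin' (2 * h + 1) (by omega) k).val = k := fin'_val _ _ _ (by omega)
  have hav : (fin' (h + 1) (by omega) (k / 2)).val = k / 2 := fin'_val _ _ _ (by omega)
  have hav' : (fin' (h + 1) (by omega) ((k + 1) / 2)).val = (k + 1) / 2 :=
    fin'_val _ _ _ (by omega)
  have hbv : (fin' h h1 ((k - 1) / 2)).val = (k - 1) / 2 := fin'_val _ _ _ (by omega)
  have hd := dg_delta h k x.val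
  have hk0 : k ≠ 0 := by omega
  rcases row_cases i with hi | hi | hi | hi
  · rw [rowOf_zero x k i t hi, M_zero_row']
    symm; rw [H66_eq_false_iff]; omega
  · rw [rowOf_63_odd x k i t hi hpar]
    rcases col_cases j with hj | hj | hj | hj | hj
    · have e : H66 i j = true := by rw [H66_eq_true_iff]; omega
      rw [e, colOf_0_pos h1 x k j t' hj hk0]
      simp only [M, decide_eq_true_eq]
      refine ⟨by omega, ?_⟩
      rw [hkv]; exact hd
    · have e : H66 i j = true := by rw [H66_eq_true_iff]; omega
      rw [e, colOf_1_odd h1 x k j t' hj hpar]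
      simp only [M, decide_eq_true_eq]
      exact ⟨trivial, trivial⟩
    · have e : H66 i j = false := by rw [H66_eq_false_iff]; omega
      rw [e, colOf_2_odd h1 x k j t' hj hpar]
      rfl
    · have e : H66 i j = true := by rw [H66_eq_true_iff]; omega
      rw [e, colOf_3 h1 x k j t' hj]
      simp only [M, decide_eq_true_eq]
    · have e : H66 i j = false := by rw [H66_eq_false_iff]; omega
      rw [e, colOf_zero h1 x k j t' hj, M_zero_col']
  · rw [rowOf_64_odd x k i t hi hpar]
    rcases col_cases j with hj | hj | hj | hj | hj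
    · exact absurd ⟨Or.inr ⟨hi, hpar⟩, Or.inl ⟨hj, hk0⟩⟩ hns
    · have e : H66 i j = true := by rw [H66_eq_true_iff]; omega
      rw [e, colOf_1_odd h1 x k j t' hj hpar]
      simp only [M, decide_eq_true_eq]
      refine ⟨by omega, ?_⟩
      rw [hkv]; exact hd
    · have e : H66 i j = true := by rw [H66_eq_true_iff]; omega
      rw [e, colOf_2_odd h1 x k j t' hj hpar]
      simp only [M, decide_eq_true_eq]
      omega
    · have e : H66 i j = true := by rw [H66_eq_true_iff]; omega
      rw [e, colOf_3 h1 x k j t' hj]
      simp only [M, decide_eq_true_eq]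
      omega
    · have e : H66 i j = false := by rw [H66_eq_false_iff]; omega
      rw [e, colOf_zero h1 x k j t' hj, M_zero_col']
  · rw [rowOf_65 x k i t hi]
    rcases col_cases j with hj | hj | hj | hj | hj
    · exact absurd ⟨Or.inl hi, Or.inl ⟨hj, hk0⟩⟩ hns
    · have e : H66 i j = false := by rw [H66_eq_false_iff]; omega
      rw [e, colOf_1_odd h1 x k j t' hj hpar]
      simp only [M, decide_eq_false_iff_not]
      omega
    · have e : H66 i j = true := by rw [H66_eq_true_iff]; omega
      rw [e, colOf_2_odd h1 x k j t' hj hpar]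
      simp only [M, decide_eq_true_eq]
      omega
    · have e : H66 i j = true := by rw [H66_eq_true_iff]; omega
      rw [e, colOf_3 h1 x k j t' hj]
      simp only [M, decide_eq_true_eq]
      omega
    · have e : H66 i j = false := by rw [H66_eq_false_iff]; omega
      rw [e, colOf_zero h1 x k j t' hj, M_zero_col']

end Tmpl

end Crest.Agent.S0066
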