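import Mathlib
import Crest.Agent.S0066_TmplDefs

/-!
# S0066 (row 47): near-copy templates of the zig-zag matrix — the roles are increasing
-/

set_option autoImplicit false

namespace Crest.Agent.S0066

namespace Tmpl

variable {h : ℕ}

theorem lex4_mk (a b c d a' b' c' d' : ℕ) : lex4 (a, b, c, d) (a', b', c', d') ↔
    a < a' ∨ (a = a' ∧ (b < b' ∨ (b = b' ∧ (c < c' ∨ (c = c' ∧ d < d'))))) := Iff.rfl

/-- (L1) the row roles are increasing. -/
theorem rowOf_lt (x : Fin (2 ^ h)) (k : ℕ) (hk : k ≤ 2 * h) (i i' : Fin 66) (hii : i < i')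
    (t t' : Fin (2 * 2 ^ h)) : rowOf h x k i t < rowOf h x k i' t' := by
  have hii' : i.val < i'.val := hii
  have hkv : (fin' (2 * h + 1) (by omega) k).val = k := fin'_val _ _ _ (by omega)
  have hav : (fin' (h + 1) (by omega) (k / 2)).val = k / 2 := fin'_val _ _ _ (by omega)
  have hav' : (fin' (h + 1) (by omega) ((k + 1) / 2)).val = (k + 1) / 2 :=
    fin'_val _ _ _ (by omega)
  have hdv := (delta h k x.val).isLt
  rw [Row.lt_iff]
  rcases row_cases i with hi | hi | hi | hi
  · have hiv : (fin' 63 (by norm_num) i.val).val = i.val := fin'_val _ _ _ hi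
    rw [rowOf_zero x k i t hi]
    rcases row_cases i' with hi' | hi' | hi' | hi'
    · have hiv' : (fin' 63 (by norm_num) i'.val).val = i'.val := fin'_val _ _ _ hi'
      rw [rowOf_zero x k i' t' hi']
      simp only [Row.k4]; rw [lex4_mk]
      omega
    · rcases Nat.mod_two_eq_zero_or_one k with hpar | hpar
      · rw [rowOf_63_even x k i' t' hi' hpar]
        simp only [Row.k4]; rw [lex4_mk]
        omega
      · rw [rowOf_63_odd x k i' t' hi' hpar]
        simp only [Row.k4]; rw [lex4_mk]
        omega
    · rcases Nat.mod_two_eq_zero_or_one k with hpar | hpar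
      · rw [rowOf_64_even x k i' t' hi' hpar]
        simp only [Row.k4]; rw [lex4_mk]
        omega
      · rw [rowOf_64_odd x k i' t' hi' hpar]
        simp only [Row.k4]; rw [lex4_mk]
        omega
    · rw [rowOf_65 x k i' t' hi']
      simp only [Row.k4]; rw [lex4_mk]
      omega
  · rcases row_cases i' with hi' | hi' | hi' | hi'
    · omega
    · omega
    · rcases Nat.mod_two_eq_zero_or_one k with hpar | hpar
      · rw [rowOf_63_even x k i t hi hpar, rowOf_64_even x k i' t' hi' hpar]
        simp only [Row.k4]; rw [lex4_mk]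
        omega
      · rw [rowOf_63_odd x k i t hi hpar, rowOf_64_odd x k i' t' hi' hpar]
        simp only [Row.k4]; rw [lex4_mk]
        omega
    · rw [rowOf_65 x k i' t' hi']
      rcases Nat.mod_two_eq_zero_or_one k with hpar | hpar
      · rw [rowOf_63_even x k i t hi hpar]
        simp only [Row.k4]; rw [lex4_mk]
        omega
      · rw [rowOf_63_odd x k i t hi hpar]
        simp only [Row.k4]; rw [lex4_mk]
        omega
  · have hi' : i'.val = 65 := by omega
    rw [rowOf_65 x k i' t' hi']
    rcases Nat.mod_two_eq_zero_or_one k with hpar | hpar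
    · rw [rowOf_64_even x k i t hi hpar]
      simp only [Row.k4]; rw [lex4_mk]
      omega
    · rw [rowOf_64_odd x k i t hi hpar]
      simp only [Row.k4]; rw [lex4_mk]
      omega
  · omega

/-- At the last step the class `Ω^δ` read by the leaf lies after its special columns. -/
theorem delta_top_zero (h1 : 0 < h) (x : Fin (2 ^ h)) (hd : (delta h (2 * h) x.val).val = 0) :
    2 * x.val + 1 ≤ 2 ^ h := by
  have hx := x.isLt
  have hpow : 2 ^ h = 2 * 2 ^ (h - 1) := by
    conv_lhs => rw [show h = (h - 1) + 1 by omega]
    rw [pow_succ]; ring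
  unfold delta at hd
  rw [if_neg (by omega)] at hd
  simp only at hd
  unfold bit at hd
  rw [if_neg (by omega)] at hd
  have e : 2 * h - h - 1 = h - 1 := by omega
  rw [e] at hd
  rw [Nat.mod_mod] at hd
  have hlt : x.val / 2 ^ (h - 1) < 2 := by
    rw [Nat.div_lt_iff_lt_mul (by positivity)]
    omega
  have hz : x.val / 2 ^ (h - 1) = 0 := by
    generalize x.val / 2 ^ (h - 1) = q at hd hlt
    omega
  have hpos : 0 < 2 ^ (h - 1) := by positivity
  have : x.val < 2 ^ (h - 1) := by
    by_contra hge
    have : 1 ≤ x.val / 2 ^ (h - 1) := by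
      rw [Nat.le_div_iff_mul_le hpos]
      omega
    omega
  omega

/-- (L2) the column roles are increasing. -/
theorem colOf_lt (h1 : 0 < h) (x : Fin (2 ^ h)) (k : ℕ) (hk : k ≤ 2 * h) (j j' : Fin 66)
    (hjj : j < j') (t t' : Fin (2 * 2 ^ h)) : colOf h h1 x k j t < colOf h h1 x k j' t' := by
  have hjj' : j.val < j'.val := hjj
  have hkv : (fin' (2 * h + 1) (by omega) k).val = k := fin'_val _ _ _ (by omega)
  have hdv := (delta h k x.val).isLt
  have hx := x.isLt
  rw [Col.lt_iff]
  rcases col_cases j with hj | hj | hj | hj | hj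
  · -- j = 0
    rcases col_cases j' with hj' | hj' | hj' | hj' | hj'
    · omega
    · -- j' = 1
      by_cases hk0 : k = 0
      · rw [colOf_0_zero h1 x k j t hj hk0, colOf_1_even h1 x k j' t' hj' (by omega) (by omega)]
        simp only [Col.k4]; rw [lex4_mk]
        omega
      · rw [colOf_0_pos h1 x k j t hj hk0]
        have hbv : (fin' h h1 ((k - 1) / 2)).val = (k - 1) / 2 := fin'_val _ _ _ (by omega)
        rcases Nat.mod_two_eq_zero_or_one k with hpar | hpar
        · by_cases hk2 : k = 2 * h
          · rw [colOf_1_even_top h1 x k j' t' hj' hk2]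
            simp only [Col.k4]; rw [lex4_mk]
            rcases omPos_eq h (delta h k x.val) with ⟨hd0, hom⟩ | ⟨hd1, hom⟩
            · have := delta_top_zero h1 x (by rw [← hk2]; exact hd0)
              omega
            · omega
          · rw [colOf_1_even h1 x k j' t' hj' hpar hk2]
            have hbv' : (fin' h h1 (k / 2)).val = k / 2 := fin'_val _ _ _ (by omega)
            simp only [Col.k4]; rw [lex4_mk]
            omega
        · rw [colOf_1_odd h1 x k j' t' hj' hpar]
          simp only [Col.k4]; rw [lex4_mk]
          omega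
    · -- j' = 2
      rcases Nat.mod_two_eq_zero_or_one k with hpar | hpar
      · rw [colOf_2_even h1 x k j' t' hj' hpar]
        by_cases hk0 : k = 0
        · rw [colOf_0_zero h1 x k j t hj hk0]
          simp only [Col.k4]; rw [lex4_mk]
          omega
        · rw [colOf_0_pos h1 x k j t hj hk0]
          simp only [Col.k4]; rw [lex4_mk]
          omega
      · rw [colOf_2_odd h1 x k j' t' hj' hpar]
        by_cases hk0 : k = 0
        · rw [colOf_0_zero h1 x k j t hj hk0]
          simp only [Col.k4]; rw [lex4_mk]
          omega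
        · rw [colOf_0_pos h1 x k j t hj hk0]
          simp only [Col.k4]; rw [lex4_mk]
          omega
    · -- j' = 3
      rw [colOf_3 h1 x k j' t' hj']
      by_cases hk0 : k = 0
      · rw [colOf_0_zero h1 x k j t hj hk0]
        simp only [Col.k4]; rw [lex4_mk]
        omega
      · rw [colOf_0_pos h1 x k j t hj hk0]
        simp only [Col.k4]; rw [lex4_mk]
        omega
    · rw [colOf_zero h1 x k j' t' hj']
      by_cases hk0 : k = 0
      · rw [colOf_0_zero h1 x k j t hj hk0]
        simp only [Col.k4]; rw [lex4_mk]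
        omega
      · rw [colOf_0_pos h1 x k j t hj hk0]
        simp only [Col.k4]; rw [lex4_mk]
        omega
  · -- j = 1
    rcases Nat.mod_two_eq_zero_or_one k with hpar | hpar
    · -- k even: the first key of column 1 is 1
      have e1 : ∃ p q r, Col.k4 (colOf h h1 x k j t) = (1, p, q, r) := by
        by_cases hk2 : k = 2 * h
        · rw [colOf_1_even_top h1 x k j t hj hk2]; exact ⟨_, _, _, rfl⟩
        · rw [colOf_1_even h1 x k j t hj hpar hk2]; exact ⟨_, _, _, rfl⟩
      obtain ⟨p, q, r, e1⟩ := e1
      rw [e1]
      rcases col_cases j' with hj' | hj' | hj' | hj' | hj'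
      · omega
      · omega
      · rw [colOf_2_even h1 x k j' t' hj' hpar]
        simp only [Col.k4]; rw [lex4_mk]
        omega
      · rw [colOf_3 h1 x k j' t' hj']
        simp only [Col.k4]; rw [lex4_mk]
        omega
      · rw [colOf_zero h1 x k j' t' hj']
        simp only [Col.k4]; rw [lex4_mk]
        omega
    · rw [colOf_1_odd h1 x k j t hj hpar]
      rcases col_cases j' with hj' | hj' | hj' | hj' | hj'
      · omega
      · omega
      · rw [colOf_2_odd h1 x k j' t' hj' hpar]
        simp only [Col.k4]; rw [lex4_mk]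
        omega
      · rw [colOf_3 h1 x k j' t' hj']
        simp only [Col.k4]; rw [lex4_mk]
        omega
      · rw [colOf_zero h1 x k j' t' hj']
        simp only [Col.k4]; rw [lex4_mk]
        omega
  · -- j = 2
    rcases col_cases j' with hj' | hj' | hj' | hj' | hj'
    · omega
    · omega
    · omega
    · rw [colOf_3 h1 x k j' t' hj']
      rcases Nat.mod_two_eq_zero_or_one k with hpar | hpar
      · rw [colOf_2_even h1 x k j t hj hpar]
        simp only [Col.k4]; rw [lex4_mk]
        omega
      · rw [colOf_2_odd h1 x k j t hj hpar]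
        simp only [Col.k4]; rw [lex4_mk]
        omega
    · rw [colOf_zero h1 x k j' t' hj']
      rcases Nat.mod_two_eq_zero_or_one k with hpar | hpar
      · rw [colOf_2_even h1 x k j t hj hpar]
        simp only [Col.k4]; rw [lex4_mk]
        omega
      · rw [colOf_2_odd h1 x k j t hj hpar]
        simp only [Col.k4]; rw [lex4_mk]
        omega
  · -- j = 3
    have hj' : 4 ≤ j'.val := by omega
    rw [colOf_3 h1 x k j t hj, colOf_zero h1 x k j' t' hj']
    simp only [Col.k4]; rw [lex4_mk]
    omega
  · -- j ≥ 4
    have hj' : 4 ≤ j'.val := by omega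
    rw [colOf_zero h1 x k j t hj, colOf_zero h1 x k j' t' hj']
    have hv : (fin' 62 (by norm_num) (j.val - 4)).val = j.val - 4 :=
      fin'_val _ _ _ (by have := j.isLt; omega)
    have hv' : (fin' 62 (by norm_num) (j'.val - 4)).val = j'.val - 4 :=
      fin'_val _ _ _ (by have := j'.isLt; omega)
    simp only [Col.k4]; rw [lex4_mk]
    omega

end Tmpl

end Crest.Agent.S0066
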