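import Mathlib
import Crest.Agent.S0066_Small
import Crest.Agent.S0066_Design
import Crest.Agent.S0066_Far
import Crest.Agent.S0066_TmplDefs
import Crest.Agent.S0066_TmplOrd
import Crest.Agent.S0066_TmplEven
import Crest.Agent.S0066_TmplOdd

/-!
# S0066 (row 47): farness of the zig-zag matrix

Assembly of the near-copy templates (`S0066_TmplDefs`, `S0066_TmplOrd`, `S0066_TmplEven`,
`S0066_TmplOdd`) with the design-independent farness theorem `far_of_templates` (`S0066_Far`):

`Tmpl.far_M : ¬ HasCopy H66 B → 4 ^ h ≤ #{M h ≠ B}`.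
-/

set_option autoImplicit false

namespace Crest.Agent.S0066

namespace Tmpl

variable {h : ℕ}

/-! ### The facts about the templates -/

/-- (L3b) the special × special cells of the template are the two chain cells. -/
theorem chain_cells (h1 : 0 < h) (x : Fin (2 ^ h)) (k : ℕ) (hk : k ≤ 2 * h)
    (i j : Fin 66) (hi : rowSpecial k i) (hj : colSpecial h k j) (t t' : Fin (2 * 2 ^ h)) :
    ((rowOf h x k i t, colOf h h1 x k j t') = chain h h1 x k ∧ 1 ≤ k ∧ H66 i j = true) ∨
      ((rowOf h x k i t, colOf h h1 x k j t') = chain h h1 x (k + 1) ∧ k + 1 ≤ 2 * h ∧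
        H66 i j = false) := by
  rcases hi with hi | ⟨hi, hodd⟩ <;> rcases hj with ⟨hj, hk0⟩ | ⟨hj, hev, hk2⟩
  · left
    refine ⟨?_, by omega, ?_⟩
    · rw [rowOf_65 x k i t hi, colOf_0_pos h1 x k j t' hj hk0]; rfl
    · rw [H66_eq_true_iff]; omega
  · right
    refine ⟨?_, by omega, ?_⟩
    · rw [rowOf_65 x k i t hi, colOf_1_even h1 x k j t' hj hev hk2]
      have e1 : (k + 1) / 2 = k / 2 := by omega
      have e2 : (k + 1 - 1) / 2 = k / 2 := by omega
      unfold chain
      rw [e1, e2]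
    · rw [H66_eq_false_iff]; omega
  · right
    refine ⟨?_, by omega, ?_⟩
    · rw [rowOf_64_odd x k i t hi hodd, colOf_0_pos h1 x k j t' hj hk0]
      have e2 : (k + 1 - 1) / 2 = (k - 1) / 2 := by omega
      unfold chain
      rw [e2]
    · rw [H66_eq_false_iff]; omega
  · omega

/-- (R1) special roles are played by special rows of the leaf. -/
theorem rowLeaf_special (x : Fin (2 ^ h)) (k : ℕ) (i : Fin 66) (hi : rowSpecial k i)
    (t : Fin (2 * 2 ^ h)) : rowLeaf (rowOf h x k i t) = some x := by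
  rcases hi with hi | ⟨hi, hk⟩
  · rw [rowOf_65 x k i t hi]; rfl
  · rw [rowOf_64_odd x k i t hi hk]; rfl

/-- (R2) the other roles are played by non-special rows. -/
theorem rowLeaf_twin (x : Fin (2 ^ h)) (k : ℕ) (i : Fin 66) (hi : ¬ rowSpecial k i)
    (t : Fin (2 * 2 ^ h)) : rowLeaf (rowOf h x k i t) = none := by
  rcases row_cases i with hi' | hi' | hi' | hi'
  · rw [rowOf_zero x k i t hi']; rfl
  · rcases Nat.mod_two_eq_zero_or_one k with hk | hk
    · rw [rowOf_63_even x k i t hi' hk]; rfl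
    · rw [rowOf_63_odd x k i t hi' hk]; rfl
  · rcases Nat.mod_two_eq_zero_or_one k with hk | hk
    · rw [rowOf_64_even x k i t hi' hk]; rfl
    · exact absurd (Or.inr ⟨hi', hk⟩) hi
  · exact absurd (Or.inl hi') hi

/-- (R3) the twins of a non-special role are distinct rows. -/
theorem rowOf_injective (x : Fin (2 ^ h)) (k : ℕ) (i : Fin 66) (hi : ¬ rowSpecial k i) :
    Function.Injective (rowOf h x k i) := by
  intro t t' htt
  rcases row_cases i with hi' | hi' | hi' | hi'
  · rw [rowOf_zero x k i t hi', rowOf_zero x k i t' hi'] at htt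
    injection htt
  · rcases Nat.mod_two_eq_zero_or_one k with hk | hk
    · rw [rowOf_63_even x k i t hi' hk, rowOf_63_even x k i t' hi' hk] at htt
      injection htt
    · rw [rowOf_63_odd x k i t hi' hk, rowOf_63_odd x k i t' hi' hk] at htt
      injection htt
  · rcases Nat.mod_two_eq_zero_or_one k with hk | hk
    · rw [rowOf_64_even x k i t hi' hk, rowOf_64_even x k i t' hi' hk] at htt
      injection htt
    · exact absurd (Or.inr ⟨hi', hk⟩) hi
  · exact absurd (Or.inl hi') hi

/-- (C1) special roles are played by special columns of the leaf. -/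
theorem colLeaf_special (h1 : 0 < h) (x : Fin (2 ^ h)) (k : ℕ) (j : Fin 66)
    (hj : colSpecial h k j) (t : Fin (2 * 2 ^ h)) : colLeaf (colOf h h1 x k j t) = some x := by
  rcases hj with ⟨hj, hk0⟩ | ⟨hj, hev, hk2⟩
  · rw [colOf_0_pos h1 x k j t hj hk0]; rfl
  · rw [colOf_1_even h1 x k j t hj hev hk2]; rfl

/-- (C2) the other roles are played by non-special columns. -/
theorem colLeaf_twin (h1 : 0 < h) (x : Fin (2 ^ h)) (k : ℕ) (j : Fin 66)
    (hj : ¬ colSpecial h k j) (t : Fin (2 * 2 ^ h)) : colLeaf (colOf h h1 x k j t) = none := by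
  rcases col_cases j with hj' | hj' | hj' | hj' | hj'
  · by_cases hk0 : k = 0
    · rw [colOf_0_zero h1 x k j t hj' hk0]; rfl
    · exact absurd (Or.inl ⟨hj', hk0⟩) hj
  · rcases Nat.mod_two_eq_zero_or_one k with hk | hk
    · by_cases hk2 : k = 2 * h
      · rw [colOf_1_even_top h1 x k j t hj' hk2]; rfl
      · exact absurd (Or.inr ⟨hj', hk, hk2⟩) hj
    · rw [colOf_1_odd h1 x k j t hj' hk]; rfl
  · rcases Nat.mod_two_eq_zero_or_one k with hk | hk
    · rw [colOf_2_even h1 x k j t hj' hk]; rfl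
    · rw [colOf_2_odd h1 x k j t hj' hk]; rfl
  · rw [colOf_3 h1 x k j t hj']; rfl
  · rw [colOf_zero h1 x k j t hj']; rfl

/-- (C3) the twins of a non-special role are distinct columns. -/
theorem colOf_injective (h1 : 0 < h) (x : Fin (2 ^ h)) (k : ℕ) (j : Fin 66)
    (hj : ¬ colSpecial h k j) : Function.Injective (colOf h h1 x k j) := by
  intro t t' htt
  rcases col_cases j with hj' | hj' | hj' | hj' | hj'
  · by_cases hk0 : k = 0
    · rw [colOf_0_zero h1 x k j t hj' hk0, colOf_0_zero h1 x k j t' hj' hk0] at htt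
      injection htt
    · exact absurd (Or.inl ⟨hj', hk0⟩) hj
  · rcases Nat.mod_two_eq_zero_or_one k with hk | hk
    · by_cases hk2 : k = 2 * h
      · rw [colOf_1_even_top h1 x k j t hj' hk2, colOf_1_even_top h1 x k j t' hj' hk2] at htt
        injection htt
      · exact absurd (Or.inr ⟨hj', hk, hk2⟩) hj
    · rw [colOf_1_odd h1 x k j t hj' hk, colOf_1_odd h1 x k j t' hj' hk] at htt
      injection htt
  · rcases Nat.mod_two_eq_zero_or_one k with hk | hk
    · rw [colOf_2_even h1 x k j t hj' hk, colOf_2_even h1 x k j t' hj' hk] at htt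
      injection htt
    · rw [colOf_2_odd h1 x k j t hj' hk, colOf_2_odd h1 x k j t' hj' hk] at htt
      injection htt
  · rw [colOf_3 h1 x k j t hj', colOf_3 h1 x k j t' hj'] at htt
    injection htt
  · rw [colOf_zero h1 x k j t hj', colOf_zero h1 x k j t' hj'] at htt
    injection htt

/-! ### Assembly -/

/-- The twin index `0`. -/
def t0 (h : ℕ) : Fin (2 * 2 ^ h) := ⟨0, by positivity⟩

/-- Special row of a role (`none` for a twin role). -/
def rs (h : ℕ) (x : Fin (2 ^ h)) (k : ℕ) (i : Fin 66) : Option (Row h) :=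
  if rowSpecial k i then some (rowOf h x k i (t0 h)) else none

/-- Twin class of a role. -/
def rcl (h : ℕ) (x : Fin (2 ^ h)) (k : ℕ) (i : Fin 66) : Finset (Row h) :=
  Finset.univ.image (rowOf h x k i)

/-- Special column of a role (`none` for a twin role). -/
def cs (h : ℕ) (h1 : 0 < h) (x : Fin (2 ^ h)) (k : ℕ) (j : Fin 66) : Option (Col h) :=
  if colSpecial h k j then some (colOf h h1 x k j (t0 h)) else none

/-- Twin class of a role. -/
def ccl (h : ℕ) (h1 : 0 < h) (x : Fin (2 ^ h)) (k : ℕ) (j : Fin 66) : Finset (Col h) :=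
  Finset.univ.image (colOf h h1 x k j)

theorem mem_rowRole (x : Fin (2 ^ h)) (k : ℕ) (i : Fin 66) (a : Row h)
    (ha : a ∈ roleSet (rs h x k i) (rcl h x k i)) : ∃ t, a = rowOf h x k i t := by
  unfold rs at ha
  by_cases hi : rowSpecial k i
  · rw [if_pos hi, roleSet_some, Finset.mem_singleton] at ha
    exact ⟨t0 h, ha⟩
  · rw [if_neg hi, roleSet_none] at ha
    obtain ⟨t, -, ht⟩ := Finset.mem_image.mp ha
    exact ⟨t, ht.symm⟩

theorem mem_colRole (h1 : 0 < h) (x : Fin (2 ^ h)) (k : ℕ) (j : Fin 66) (b : Col h)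
    (hb : b ∈ roleSet (cs h h1 x k j) (ccl h h1 x k j)) : ∃ t, b = colOf h h1 x k j t := by
  unfold cs at hb
  by_cases hj : colSpecial h k j
  · rw [if_pos hj, roleSet_some, Finset.mem_singleton] at hb
    exact ⟨t0 h, hb⟩
  · rw [if_neg hj, roleSet_none] at hb
    obtain ⟨t, -, ht⟩ := Finset.mem_image.mp hb
    exact ⟨t, ht.symm⟩

theorem rs_eq_some (x : Fin (2 ^ h)) (k : ℕ) (i : Fin 66) (r : Row h)
    (hr : rs h x k i = some r) : rowSpecial k i ∧ r = rowOf h x k i (t0 h) := by
  unfold rs at hr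
  by_cases hi : rowSpecial k i
  · rw [if_pos hi] at hr
    exact ⟨hi, (Option.some.inj hr).symm⟩
  · rw [if_neg hi] at hr
    exact absurd hr (by simp)

theorem rs_eq_none (x : Fin (2 ^ h)) (k : ℕ) (i : Fin 66)
    (hr : rs h x k i = none) : ¬ rowSpecial k i := by
  unfold rs at hr
  intro hi
  rw [if_pos hi] at hr
  exact absurd hr (by simp)

theorem cs_eq_some (h1 : 0 < h) (x : Fin (2 ^ h)) (k : ℕ) (j : Fin 66) (c : Col h)
    (hc : cs h h1 x k j = some c) : colSpecial h k j ∧ c = colOf h h1 x k j (t0 h) := by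
  unfold cs at hc
  by_cases hj : colSpecial h k j
  · rw [if_pos hj] at hc
    exact ⟨hj, (Option.some.inj hc).symm⟩
  · rw [if_neg hj] at hc
    exact absurd hc (by simp)

theorem cs_eq_none (h1 : 0 < h) (x : Fin (2 ^ h)) (k : ℕ) (j : Fin 66)
    (hc : cs h h1 x k j = none) : ¬ colSpecial h k j := by
  unfold cs at hc
  intro hj
  rw [if_pos hj] at hc
  exact absurd hc (by simp)

/-- **Farness of the zig-zag matrix.** -/
theorem far_M (h : ℕ) (h1 : 1 ≤ h) (B : Row h → Col h → Bool) (hB : ¬ HasCopy H66 B) :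
    4 ^ h ≤ (Finset.univ.filter (fun p : Row h × Col h => M h p.1 p.2 ≠ B p.1 p.2)).card := by
  have h0 : 0 < h := h1
  by_contra hlt
  apply hB
  have hlt' : (Finset.univ.filter (fun p : Row h × Col h => M h p.1 p.2 ≠ B p.1 p.2)).card
      < 2 ^ h * 2 ^ h := by
    have e : (4 : ℕ) ^ h = 2 ^ h * 2 ^ h := by
      rw [← mul_pow]; norm_num
    omega
  refine far_of_templates H66 (M h) (2 ^ h) (2 * h) (X := Fin (2 ^ h)) (by simp)
    rowLeaf colLeaf (chain h h0) (rs h) (rcl h) (cs h h0) (ccl h h0)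
    ?_ ?_ ?_ ?_ ?_ ?_ ?_ ?_ B hlt'
  · -- hrs
    intro x k i r _ hr
    obtain ⟨hi, rfl⟩ := rs_eq_some x k i r hr
    exact rowLeaf_special x k i hi _
  · -- hrcl
    intro x k i _ hr
    have hi := rs_eq_none x k i hr
    refine ⟨?_, ?_⟩
    · intro a ha
      obtain ⟨t, -, rfl⟩ := Finset.mem_image.mp ha
      exact rowLeaf_twin x k i hi t
    · unfold rcl
      rw [Finset.card_image_of_injective _ (rowOf_injective x k i hi)]
      simp
  · -- hcs
    intro x k j c _ hc
    obtain ⟨hj, rfl⟩ := cs_eq_some h0 x k j c hc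
    exact colLeaf_special h0 x k j hj _
  · -- hccl
    intro x k j _ hc
    have hj := cs_eq_none h0 x k j hc
    refine ⟨?_, ?_⟩
    · intro b hb
      obtain ⟨t, -, rfl⟩ := Finset.mem_image.mp hb
      exact colLeaf_twin h0 x k j hj t
    · unfold ccl
      rw [Finset.card_image_of_injective _ (colOf_injective h0 x k j hj)]
      simp
  · -- hrmono
    intro x k hk i i' hii a ha a' ha'
    obtain ⟨t, rfl⟩ := mem_rowRole x k i a ha
    obtain ⟨t', rfl⟩ := mem_rowRole x k i' a' ha'
    exact rowOf_lt x k hk i i' hii t t'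
  · -- hcmono
    intro x k hk j j' hjj b hb b' hb'
    obtain ⟨t, rfl⟩ := mem_colRole h0 x k j b hb
    obtain ⟨t', rfl⟩ := mem_colRole h0 x k j' b' hb'
    exact colOf_lt h0 x k hk j j' hjj t t'
  · -- hval
    intro x k hk i j hor a ha b hb
    obtain ⟨t, rfl⟩ := mem_rowRole x k i a ha
    obtain ⟨t', rfl⟩ := mem_colRole h0 x k j b hb
    have hns : ¬ (rowSpecial k i ∧ colSpecial h k j) := by
      rintro ⟨hi, hj⟩
      rcases hor with hr | hc
      · exact rs_eq_none x k i hr hi
      · exact cs_eq_none h0 x k j hc hj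
    rcases Nat.mod_two_eq_zero_or_one k with hpar | hpar
    · exact val_even h0 x k hk hpar i j hns t t'
    · exact val_odd h0 x k hk hpar i j hns t t'
  · -- hchain
    intro x k hk i j r c hr hc
    obtain ⟨hi, rfl⟩ := rs_eq_some x k i r hr
    obtain ⟨hj, rfl⟩ := cs_eq_some h0 x k j c hc
    exact chain_cells h0 x k hk i j hi hj _ _

end Tmpl

end Crest.Agent.S0066
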