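import Crest.Statements.S0066
import Crest.Agent.S0066_Pin
import Crest.Agent.S0066_Design
import Crest.Agent.S0066_Idx
import Crest.Agent.S0066_Tmpl
import Crest.Agent.S0066_SeedAll
import Crest.Agent.S0066_SeedPin
import Crest.Agent.S0066_Adapt

set_option autoImplicit false
open Crest Crest.CombinatoricsR

namespace Crest.Agent.S0066

/-- There is a fixed 66 × 66 binary pattern H such that for every h ≥ 1, with n = (386h + 2) · 2^h and ε = (386h + 2)⁻², some n × n binary matrix A is ε-far from free of ordered copies of H (every n × n binary matrix without an ordered copy of H differs from A in at least ε · n² cells) while the number of ordered copies of H in A is at most ε · 2^(-h) · n^132. An ordered copy picks 66 rows and 66 columns in increasing order on which A coincides with H, zeros included. -/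
theorem result :
    ∃ H : Fin 66 → Fin 66 → Bool, ∀ h : ℕ, 1 ≤ h →
      ∃ A : Fin ((386 * h + 2) * 2 ^ h) → Fin ((386 * h + 2) * 2 ^ h) → Bool,
        (∀ B : Fin ((386 * h + 2) * 2 ^ h) → Fin ((386 * h + 2) * 2 ^ h) → Bool,
          Crest.CombinatoricsR.OrderedMatrix.orderedCopyCount H B = 0 →
            ((386 * (h : ℝ) + 2) ^ 2)⁻¹ * (((386 * h + 2) * 2 ^ h : ℕ) : ℝ) ^ 2 ≤
              ((Finset.univ.filter (fun rc : Fin ((386 * h + 2) * 2 ^ h) × Fin ((386 * h + 2) * 2 ^ h) =>
                A rc.1 rc.2 ≠ B rc.1 rc.2)).card : ℝ)) ∧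
        (Crest.CombinatoricsR.OrderedMatrix.orderedCopyCount H A : ℝ) /
            (((386 * h + 2) * 2 ^ h : ℕ) : ℝ) ^ 132 ≤
          ((386 * (h : ℝ) + 2) ^ 2)⁻¹ * (2 : ℝ)⁻¹ ^ h := by
  -- the pattern is `H66 = cornerPattern zzK`: the 3 × 4 core `zzK` in the last three rows and
  -- the first four columns of the zero 66 × 66 matrix
  have h3 : (3 : ℕ) ≤ 66 := by norm_num
  have h4 : (4 : ℕ) ≤ 66 := by norm_num
  refine result_of_core_design H66 zzK (cornerRow h3) (cornerCol h4)
    (cornerRow_strictMono h3) (cornerCol_strictMono h4) ?_ zzK_row zzK_col 2 0 (fun h h1 => ?_)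
  · intro i j
    rw [H66_eq_cornerPattern]
    exact cornerPattern_core h3 h4 zzK i j
  · -- the design for a fixed `h`: the zig-zag matrix `M h` on `Row h × Col h`
    exact ⟨Row h, Col h, inferInstance, inferInstance, inferInstance, inferInstance, M h,
      seedPin h h1, Row.card_le h1, Col.card_le h1, Tmpl.far_M h h1,
      card_seedPin_le_factorial h h1,
      mem_seedPin_of_copy h h1 (fun _ _ hK => seed_of_kcopy h1 hK) Row.cls Col.cls
        (kcopy_of_copy h1) (fun _ _ _ hρ => Row.spec_of_cls hρ)
        (fun _ _ _ hγ hb => Col.spec_of_cls hγ hb)⟩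

end Crest.Agent.S0066
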