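import Mathlib
import Crest.Agent.S0066_Design
import Crest.Agent.S0066_ZZClass
import Crest.Agent.S0066_ThrBridge

/-!
# S0066 (row 47): adapter from the concrete matrix (`S0066_Design`) to the class level (`S0066_ZZClass`)

Class maps `AdaptB.rcls : Row h → RC`, `AdaptB.ccls : Col h → CC` with

* `AdaptB.M_eq`: `M h r c = zzEntry h (rcls r) (ccls c)` unless `r` is a `τ_k` row with `k` odd
  (those rows are all-zero in the design);
* `AdaptB.rcls_le`, `AdaptB.ccls_le`: lines in increasing position have weakly increasing class
  keys;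
* `AdaptB.kcopy_of_copy`: an ordered copy of `zzK` in `M h` is a class-level copy (`KCopy`);
* `AdaptB.spec_of_rcls`, `AdaptB.spec_of_ccls`: a line of a special class is that special line.
-/

set_option autoImplicit false
set_option linter.unusedSimpArgs false
set_option linter.unnecessarySeqFocus false

namespace Crest.Agent.S0066

namespace AdaptB

variable {h : ℕ}

/-- Address of the twin class `Ω^e` as a special column of class `h+1`: the last address of the
left half (`e = 0`) or of the right half (`e = 1`). -/
def omA (h : ℕ) (e : Fin 2) : ℕ := if e.val = 0 then 2 ^ (h - 1) - 1 else 2 ^ h - 1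

theorem omA_lt (h : ℕ) (e : Fin 2) : omA h e < 2 ^ h := by
  have h1 : 0 < 2 ^ h := Nat.two_pow_pos h
  have h2 : 2 ^ (h - 1) ≤ 2 ^ h := Nat.pow_le_pow_right (by norm_num) (Nat.sub_le h 1)
  unfold omA
  split_ifs <;> omega

/-- The class of a row. -/
def rcls : Row h → RC
  | .zero j _ => .zero j.val
  | .fill _ => .zero 63
  | .tau k _ => .tau k.val
  | .rho k d _ => .rho k.val (decide (d.val = 1))
  | .spec x a => .R x.val a.val

/-- The class of a column. -/
def ccls : Col h → CC
  | .lam _ => .spec 0 0
  | .spec u b => .spec u.val (b.val + 1)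
  | .om e _ => .spec (omA h e) (h + 1)
  | .gam k d _ => .gam k.val (decide (d.val = 1))
  | .tt k _ => .t k.val
  | .psi k _ => .psi k.val
  | .zero j _ => .zero j.val
  | .fill _ => .zero 62

theorem two_pow_eq {h : ℕ} (h1 : 1 ≤ h) : 2 ^ h = 2 * 2 ^ (h - 1) := by
  obtain ⟨n, rfl⟩ : ∃ n, h = n + 1 := ⟨h - 1, by omega⟩
  simp [pow_succ, mul_comm]

/-! ### Entries -/

theorem toNat_decide_fin2 (d : Fin 2) : (decide (d.val = 1)).toNat = d.val := by
  rcases (by omega : d.val = 0 ∨ d.val = 1) with h0 | h0 <;> simp [h0]

/-- The design's matrix is the class-level entry function of the classes, except on the all-zero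
rows `τ_k` with `k` odd. -/
theorem M_eq (h1 : 1 ≤ h) (r : Row h) (c : Col h)
    (hr : ∀ k t, r = Row.tau k t → k.val % 2 = 0) :
    M h r c = zzEntry h (rcls r) (ccls c) := by
  cases r with
  | zero j t => cases c <;> rfl
  | fill t => cases c <;> rfl
  | tau k t =>
    have hk : k.val % 2 = 0 := hr k t rfl
    have hk2 : k.val ≤ 2 * h := by have := k.isLt; omega
    cases c with
    | lam t' =>
      show decide (k.val = 0) = decide (0 = k.val / 2 ∨ 0 = k.val / 2 + 1)
      exact decide_eq_decide.mpr (by omega)
    | spec u b =>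
      show decide (k.val % 2 = 0 ∧ (b.val + 1 = k.val / 2 ∨ b.val = k.val / 2)) =
        decide (b.val + 1 = k.val / 2 ∨ b.val + 1 = k.val / 2 + 1)
      exact decide_eq_decide.mpr (by omega)
    | om e t' =>
      show decide (k.val = 2 * h) = decide (h + 1 = k.val / 2 ∨ h + 1 = k.val / 2 + 1)
      exact decide_eq_decide.mpr (by omega)
    | gam k' d t' => rfl
    | tt k' t' => rfl
    | psi k' t' =>
      show decide (k.val % 2 = 0 ∧ k' = k) = decide (k'.val = k.val)
      exact decide_eq_decide.mpr (by rw [Fin.ext_iff]; omega)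
    | zero j t' => rfl
    | fill t' => rfl
  | rho k d t =>
    have hk2 : k.val ≤ 2 * h := by have := k.isLt; omega
    have hd2 : d.val < 2 := d.isLt
    cases c with
    | lam t' =>
      show false = (decide (0 = k.val / 2 + 1) && zzD h k.val (decide (d.val = 1)) 0)
      have : ¬ (0 = k.val / 2 + 1) := by omega
      rw [decide_eq_false this]; rfl
    | spec u b =>
      show decide (b.val = k.val / 2 ∧ dg h k.val u.val d.val) =
        (decide (b.val + 1 = k.val / 2 + 1) && zzD h k.val (decide (d.val = 1)) u.val)
      rw [Bool.eq_iff_iff]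
      simp only [decide_eq_true_eq, Bool.and_eq_true]
      rw [dg_iff_zzD u.val d.val hk2 hd2]
      constructor
      · rintro ⟨hb, hz⟩; exact ⟨by omega, hz⟩
      · rintro ⟨hb, hz⟩; exact ⟨by omega, hz⟩
    | om e t' =>
      show decide (k.val = 2 * h ∧ e = d) =
        zzEntry h (.rho k.val (decide (d.val = 1))) (.spec (omA h e) (h + 1))
      rcases (by omega : e.val = 0 ∨ e.val = 1) with he | he
      · have hA : omA h e = 2 ^ (h - 1) - 1 := by simp [omA, he]
        rw [hA, zzEntry_rho_om0 _ h1 hk2]
        refine decide_eq_decide.mpr ?_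
        rw [Fin.ext_iff, decide_eq_false_iff_not]
        omega
      · have hA : omA h e = 2 ^ h - 1 := by simp [omA, he]
        rw [hA, zzEntry_rho_om1 _ h1 hk2]
        refine decide_eq_decide.mpr ?_
        rw [Fin.ext_iff, decide_eq_true_eq]
        omega
    | gam k' d' t' =>
      show decide (k' = k ∧ d' = d) =
        decide (k'.val = k.val ∧ decide (d'.val = 1) = decide (d.val = 1))
      refine decide_eq_decide.mpr ?_
      have hd2' : d'.val < 2 := d'.isLt
      rw [Fin.ext_iff, Fin.ext_iff, decide_eq_decide]
      omega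
    | tt k' t' => rfl
    | psi k' t' =>
      show decide (k' = k) = decide (k'.val = k.val)
      exact decide_eq_decide.mpr (by rw [Fin.ext_iff])
    | zero j t' => rfl
    | fill t' => rfl
  | spec x a =>
    have hx : x.val < 2 ^ h := x.isLt
    have ha : a.val ≤ h := by have := a.isLt; omega
    cases c with
    | lam t' =>
      show decide (a.val = 0) = zzEntry h (.R x.val a.val) (.spec 0 0)
      rw [zzEntry_R_lam hx]
    | spec u b =>
      show decide ((b.val + 1 = a.val ∧ Th h (2 * a.val) x.val ≤ u.val) ∨
          (b.val = a.val ∧ Th h (2 * a.val + 1) x.val ≤ u.val)) =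
        (decide (b.val + 1 = a.val ∨ b.val + 1 = a.val + 1) &&
          zzG h (a.val + (b.val + 1)) x.val u.val)
      rw [Bool.eq_iff_iff]
      simp only [decide_eq_true_eq, Bool.and_eq_true]
      rw [Th_le_iff_zzG x.val u.val (by omega : 2 * a.val ≤ 2 * h + 1),
        Th_le_iff_zzG x.val u.val (by omega : 2 * a.val + 1 ≤ 2 * h + 1)]
      constructor
      · rintro (⟨hb, hz⟩ | ⟨hb, hz⟩)
        · have e : a.val + (b.val + 1) = 2 * a.val := by omega
          rw [e]; exact ⟨Or.inl hb, hz⟩
        · have e : a.val + (b.val + 1) = 2 * a.val + 1 := by omega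
          rw [e]; exact ⟨Or.inr (by omega), hz⟩
      · rintro ⟨hb | hb, hz⟩
        · have e : a.val + (b.val + 1) = 2 * a.val := by omega
          rw [e] at hz; exact Or.inl ⟨hb, hz⟩
        · have e : a.val + (b.val + 1) = 2 * a.val + 1 := by omega
          rw [e] at hz; exact Or.inr ⟨by omega, hz⟩
    | om e t' =>
      show false = zzEntry h (.R x.val a.val) (.spec (omA h e) (h + 1))
      rw [zzEntry_R_om hx (omA_lt h e) ha]
    | gam k d t' =>
      have hk2 : k.val ≤ 2 * h := by have := k.isLt; omega
      have hd2 : d.val < 2 := d.isLt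
      show decide ((k.val + 1 = 2 * a.val ∨ k.val = 2 * a.val) ∧ dg h k.val x.val d.val) =
        (decide (k.val + 1 = 2 * a.val ∨ k.val = 2 * a.val) &&
          zzD h k.val (decide (d.val = 1)) x.val)
      rw [Bool.eq_iff_iff]
      simp only [decide_eq_true_eq, Bool.and_eq_true]
      rw [dg_iff_zzD x.val d.val hk2 hd2]
    | tt k t' => rfl
    | psi k t' => rfl
    | zero j t' => rfl
    | fill t' => rfl

/-! ### Validity -/

theorem rcls_valid (r : Row h) (hr : ∀ k t, r = Row.tau k t → k.val % 2 = 0) :
    (rcls r).Valid h := by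
  cases r with
  | zero j t => exact trivial
  | fill t => exact trivial
  | tau k t => exact ⟨hr k t rfl, by have := k.isLt; omega⟩
  | rho k d t => show k.val ≤ 2 * h; have := k.isLt; omega
  | spec x a => exact ⟨x.isLt, by have := a.isLt; omega⟩

theorem ccls_valid (c : Col h) (hc : ∀ k t, c = Col.tt k t → k.val % 2 = 1) :
    (ccls c).Valid h := by
  cases c with
  | lam t => exact ⟨Nat.two_pow_pos h, Nat.zero_le _⟩
  | spec u b => exact ⟨u.isLt, by have := b.isLt; show b.val + 1 ≤ h + 1; omega⟩
  | om e t => exact ⟨omA_lt h e, le_rfl⟩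
  | gam k d t => show k.val ≤ 2 * h; have := k.isLt; omega
  | tt k t => exact ⟨hc k t rfl, by have := k.isLt; omega⟩
  | psi k t => show k.val ≤ 2 * h; have := k.isLt; omega
  | zero j t => exact trivial
  | fill t => exact trivial

/-- A `τ_k` row with a `true` entry has `k` even. -/
theorem tau_even_of_true {k : Fin (2 * h + 1)} {t : Fin (2 * 2 ^ h)} {c : Col h}
    (hM : M h (Row.tau k t) c = true) : k.val % 2 = 0 := by
  cases c with
  | lam t' =>
    have : decide (k.val = 0) = true := hM
    simp only [decide_eq_true_eq] at this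
    omega
  | spec u b =>
    have : decide (k.val % 2 = 0 ∧ (b.val + 1 = k.val / 2 ∨ b.val = k.val / 2)) = true := hM
    simp only [decide_eq_true_eq] at this
    exact this.1
  | om e t' =>
    have : decide (k.val = 2 * h) = true := hM
    simp only [decide_eq_true_eq] at this
    omega
  | gam k' d t' => exact Bool.noConfusion (show false = true from hM)
  | tt k' t' => exact Bool.noConfusion (show false = true from hM)
  | psi k' t' =>
    have : decide (k.val % 2 = 0 ∧ k' = k) = true := hM
    simp only [decide_eq_true_eq] at this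
    exact this.1
  | zero j t' => exact Bool.noConfusion (show false = true from hM)
  | fill t' => exact Bool.noConfusion (show false = true from hM)

/-- A `t_k` column with a `true` entry has `k` odd. -/
theorem tt_odd_of_true {k : Fin (2 * h + 1)} {t : Fin (2 * 2 ^ h)} {r : Row h}
    (hM : M h r (Col.tt k t) = true) : k.val % 2 = 1 := by
  cases r with
  | zero j t' => exact Bool.noConfusion (show false = true from hM)
  | fill t' => exact Bool.noConfusion (show false = true from hM)
  | tau k' t' => exact Bool.noConfusion (show false = true from hM)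
  | rho k' d t' => exact Bool.noConfusion (show false = true from hM)
  | spec x a =>
    have : decide (k.val + 1 = 2 * a.val ∨ k.val = 2 * a.val + 1) = true := hM
    simp only [decide_eq_true_eq] at this
    omega

/-! ### Order -/

theorem lexLe_refl (p : ℕ × ℕ × ℕ) : lexLe p p := Or.inr ⟨rfl, Or.inr ⟨rfl, le_rfl⟩⟩

/-- Rows in increasing position have weakly increasing class keys. -/
theorem rcls_lt {r r' : Row h} (hrr : r < r') : lexLe ((rcls r).key h) ((rcls r').key h) := by
  rw [Row.lt_iff] at hrr
  cases r with
  | zero j t =>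
    cases r' <;> simp only [lex4, Row.k4, rcls, RC.key, lexLe, true_and, and_true, lt_self_iff_false, false_or, or_false, false_and, and_false] at hrr ⊢ <;> omega
  | fill t =>
    cases r' <;> simp only [lex4, Row.k4, rcls, RC.key, lexLe, true_and, and_true, lt_self_iff_false, false_or, or_false, false_and, and_false] at hrr ⊢ <;> omega
  | tau k t =>
    cases r' <;> simp only [lex4, Row.k4, rcls, RC.key, lexLe, toNat_decide_fin2, true_and, and_true, lt_self_iff_false, false_or, or_false, false_and, and_false] at hrr ⊢ <;> omega
  | rho k d t =>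
    cases r' <;> simp only [lex4, Row.k4, rcls, RC.key, lexLe, toNat_decide_fin2, true_and, and_true, lt_self_iff_false, false_or, or_false, false_and, and_false] at hrr ⊢ <;> omega
  | spec x a =>
    cases r' <;> simp only [lex4, Row.k4, rcls, RC.key, lexLe, true_and, and_true, lt_self_iff_false, false_or, or_false, false_and, and_false] at hrr ⊢ <;> omega

theorem rcls_le {r r' : Row h} (hrr : r ≤ r') : lexLe ((rcls r).key h) ((rcls r').key h) := by
  rcases eq_or_lt_of_le hrr with rfl | hlt
  · exact lexLe_refl _
  · exact rcls_lt hlt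

theorem omPos_omA (h1 : 1 ≤ h) (e : Fin 2) :
    (e.val = 0 ∧ omPos h e = 2 * 2 ^ (h - 1) ∧ omA h e = 2 ^ (h - 1) - 1) ∨
    (e.val = 1 ∧ omPos h e = 4 * 2 ^ (h - 1) ∧ omA h e = 2 * 2 ^ (h - 1) - 1) := by
  have hp := two_pow_eq h1
  rcases (by omega : e.val = 0 ∨ e.val = 1) with he | he
  · left; refine ⟨he, ?_, ?_⟩
    · simp [omPos, he, hp]
    · simp [omA, he]
  · right; refine ⟨he, ?_, ?_⟩
    · simp only [omPos, he]; omega
    · simp only [omA, he]; simp; omega

/-- Columns in increasing position have weakly increasing class keys. -/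
theorem ccls_lt (h1 : 1 ≤ h) {c c' : Col h} (hcc : c < c') :
    lexLe ((ccls c).key) ((ccls c').key) := by
  rw [Col.lt_iff] at hcc
  have hp := two_pow_eq h1
  have hP : 0 < 2 ^ (h - 1) := Nat.two_pow_pos _
  cases c with
  | lam t =>
    cases c' <;> simp only [lex4, Col.k4, ccls, CC.key, lexLe, true_and, and_true, lt_self_iff_false, false_or, or_false, false_and, and_false] at hcc ⊢ <;> omega
  | spec u b =>
    have hu : u.val < 2 * 2 ^ (h - 1) := by have := u.isLt; omega
    cases c' with
    | om e t' =>
      have := omPos_omA h1 e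
      simp only [lex4, Col.k4, ccls, CC.key, lexLe, true_and, and_true, lt_self_iff_false, false_or, or_false, false_and, and_false] at hcc ⊢ <;> omega
    | _ => simp only [lex4, Col.k4, ccls, CC.key, lexLe, true_and, and_true, lt_self_iff_false, false_or, or_false, false_and, and_false] at hcc ⊢ <;> omega
  | om e t =>
    have he := omPos_omA h1 e
    cases c' with
    | spec u b =>
      have hu : u.val < 2 * 2 ^ (h - 1) := by have := u.isLt; omega
      have hb := b.isLt
      simp only [lex4, Col.k4, ccls, CC.key, lexLe, true_and, and_true, lt_self_iff_false, false_or, or_false, false_and, and_false] at hcc ⊢ <;> omega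
    | om e' t' =>
      have he' := omPos_omA h1 e'
      simp only [lex4, Col.k4, ccls, CC.key, lexLe, true_and, and_true, lt_self_iff_false, false_or, or_false, false_and, and_false] at hcc ⊢ <;> omega
    | _ => simp only [lex4, Col.k4, ccls, CC.key, lexLe, true_and, and_true, lt_self_iff_false, false_or, or_false, false_and, and_false] at hcc ⊢ <;> omega
  | gam k d t =>
    have hd := d.isLt
    cases c' with
    | gam k' d' t' =>
      have hd' := d'.isLt
      simp only [lex4, Col.k4, ccls, CC.key, lexLe, toNat_decide_fin2, true_and, and_true, lt_self_iff_false, false_or, or_false, false_and, and_false] at hcc ⊢ <;> omega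
    | _ => simp only [lex4, Col.k4, ccls, CC.key, lexLe, toNat_decide_fin2, true_and, and_true, lt_self_iff_false, false_or, or_false, false_and, and_false] at hcc ⊢ <;> omega
  | tt k t =>
    cases c' with
    | gam k' d' t' =>
      have hd' := d'.isLt
      simp only [lex4, Col.k4, ccls, CC.key, lexLe, toNat_decide_fin2, true_and, and_true, lt_self_iff_false, false_or, or_false, false_and, and_false] at hcc ⊢ <;> omega
    | _ => simp only [lex4, Col.k4, ccls, CC.key, lexLe, true_and, and_true, lt_self_iff_false, false_or, or_false, false_and, and_false] at hcc ⊢ <;> omega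
  | psi k t =>
    cases c' with
    | gam k' d' t' =>
      have hd' := d'.isLt
      simp only [lex4, Col.k4, ccls, CC.key, lexLe, toNat_decide_fin2, true_and, and_true, lt_self_iff_false, false_or, or_false, false_and, and_false] at hcc ⊢ <;> omega
    | _ => simp only [lex4, Col.k4, ccls, CC.key, lexLe, true_and, and_true, lt_self_iff_false, false_or, or_false, false_and, and_false] at hcc ⊢ <;> omega
  | zero j t =>
    have hj := j.isLt
    cases c' <;> simp only [lex4, Col.k4, ccls, CC.key, lexLe, true_and, and_true, lt_self_iff_false, false_or, or_false, false_and, and_false] at hcc ⊢ <;> omega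
  | fill t =>
    cases c' with
    | zero j' t' =>
      have hj' := j'.isLt
      simp only [lex4, Col.k4, ccls, CC.key, lexLe, true_and, and_true, lt_self_iff_false, false_or, or_false, false_and, and_false] at hcc ⊢ <;> omega
    | _ => simp only [lex4, Col.k4, ccls, CC.key, lexLe, true_and, and_true, lt_self_iff_false, false_or, or_false, false_and, and_false] at hcc ⊢ <;> omega

theorem ccls_le (h1 : 1 ≤ h) {c c' : Col h} (hcc : c ≤ c') :
    lexLe ((ccls c).key) ((ccls c').key) := by
  rcases eq_or_lt_of_le hcc with rfl | hlt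
  · exact lexLe_refl _
  · exact ccls_lt h1 hlt

/-! ### Copies and special lines -/

/-- An ordered copy of the core `zzK` in `M h` is a class-level copy. -/
theorem kcopy_of_copy (h1 : 1 ≤ h) (r : Fin 3 → Row h) (c : Fin 4 → Col h)
    (hr : StrictMono r) (hc : StrictMono c) (hM : ∀ i j, M h (r i) (c j) = zzK i j) :
    KCopy h (fun i => rcls (r i)) (fun j => ccls (c j)) := by
  have hrow : ∀ i, ∃ j, zzK i j = true := by decide
  have hcol : ∀ j, ∃ i, zzK i j = true := by decide
  have htau : ∀ i k t, r i = Row.tau k t → k.val % 2 = 0 := by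
    intro i k t hi
    obtain ⟨j, hj⟩ := hrow i
    have := hM i j
    rw [hj, hi] at this
    exact tau_even_of_true this
  have htt : ∀ j k t, c j = Col.tt k t → k.val % 2 = 1 := by
    intro j k t hj
    obtain ⟨i, hi⟩ := hcol j
    have := hM i j
    rw [hi, hj] at this
    exact tt_odd_of_true this
  exact
    { rv := fun i => rcls_valid (r i) (htau i)
      cv := fun j => ccls_valid (c j) (htt j)
      rle := fun _ _ hii => rcls_le (hr.monotone hii)
      cle := fun _ _ hjj => ccls_le h1 (hc.monotone hjj)
      ent := fun i j => by rw [← hM i j]; exact (M_eq h1 (r i) (c j) (htau i)).symm }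

/-- A row whose class is a special class `R x a` is the special row `R(x,a)`. -/
theorem spec_of_rcls (ρ : Row h) (x a : ℕ) (hρ : rcls ρ = RC.R x a) :
    ∃ (hx : x < 2 ^ h) (ha : a < h + 1), ρ = Row.spec ⟨x, hx⟩ ⟨a, ha⟩ := by
  cases ρ with
  | spec x' a' =>
    simp only [rcls, RC.R.injEq] at hρ
    obtain ⟨rfl, rfl⟩ := hρ
    exact ⟨x'.isLt, a'.isLt, rfl⟩
  | zero j t => exact RC.noConfusion hρ
  | fill t => exact RC.noConfusion hρ
  | tau k t => exact RC.noConfusion hρ
  | rho k d t => exact RC.noConfusion hρ

/-- A column whose class is `CC.spec u (b+1)` with `b < h` is the special column `C(u,b+1)`. -/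
theorem spec_of_ccls (γ : Col h) (u b : ℕ) (hγ : ccls γ = CC.spec u (b + 1)) (hb : b < h) :
    ∃ (hu : u < 2 ^ h), γ = Col.spec ⟨u, hu⟩ ⟨b, hb⟩ := by
  cases γ with
  | lam t =>
    simp only [ccls, CC.spec.injEq] at hγ
    omega
  | spec u' b' =>
    simp only [ccls, CC.spec.injEq] at hγ
    obtain ⟨rfl, hb'⟩ := hγ
    have : b'.val = b := by omega
    subst this
    exact ⟨u'.isLt, rfl⟩
  | om e t =>
    simp only [ccls, CC.spec.injEq] at hγ
    omega
  | gam k d t => exact CC.noConfusion hγ
  | tt k t => exact CC.noConfusion hγ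
  | psi k t => exact CC.noConfusion hγ
  | zero j t => exact CC.noConfusion hγ
  | fill t => exact CC.noConfusion hγ

end AdaptB

end Crest.Agent.S0066
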