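import Mathlib

/-!
# S0066 (row 47): robust choice of twin lines

Design-independent counting lemmas for the farness direction: given families of candidate
("twin") rows `F i` and candidate columns `G j` and a set `Flip` of modified cells which is
sparse on every block `F i ×ˢ G j`, one can choose one row from each `F i` and one column from
each `G j` such that no chosen (row, column) cell is modified.
-/

set_option autoImplicit false

namespace Crest.Agent.S0066

open Finset

section choice

variable {R C I J : Type*} [DecidableEq R] [DecidableEq C]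

/-- Double counting of the flipped cells of a block along its rows. -/
theorem card_block_inter_eq_sum (F : Finset R) (G : Finset C) (Flip : Finset (R × C)) :
    ((F ×ˢ G) ∩ Flip).card = ∑ f ∈ F, (G.filter (fun g => (f, g) ∈ Flip)).card := by
  rw [← Finset.filter_mem_eq_inter, Finset.card_filter, Finset.sum_product]
  refine Finset.sum_congr rfl (fun f _ => ?_)
  rw [Finset.card_filter]

/-- Double counting of the flipped cells of a block along its columns. -/
theorem card_block_inter_eq_sum' (F : Finset R) (G : Finset C) (Flip : Finset (R × C)) :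
    ((F ×ˢ G) ∩ Flip).card = ∑ g ∈ G, (F.filter (fun f => (f, g) ∈ Flip)).card := by
  rw [← Finset.filter_mem_eq_inter, Finset.card_filter, Finset.sum_product_right]
  refine Finset.sum_congr rfl (fun g _ => ?_)
  rw [Finset.card_filter]

variable [Fintype I] [Fintype J]

/-- **Clean grid.** If on every block `F i ×ˢ G j` the flipped cells are fewer than a
`1 / ((|I|+1)·|J|)` fraction, there is a simultaneous choice of one row per `F i` and one column
per `G j` avoiding all flipped cells. -/
theorem exists_clean_grid (F : I → Finset R) (G : J → Finset C) (Flip : Finset (R × C))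
    (hF : ∀ i, (F i).Nonempty) (hG : ∀ j, (G j).Nonempty)
    (h : ∀ i j, (Fintype.card I + 1) * Fintype.card J * ((F i ×ˢ G j) ∩ Flip).card
        < (F i).card * (G j).card) :
    ∃ (f : I → R) (g : J → C), (∀ i, f i ∈ F i) ∧ (∀ j, g j ∈ G j) ∧
      ∀ i j, (f i, g j) ∉ Flip := by
  classical
  -- Step 1: a clean row in every `F i`.
  have step1 : ∀ i, ∃ f ∈ F i, ∀ j,
      (Fintype.card I + 1) * ((G j).filter (fun g => (f, g) ∈ Flip)).card < (G j).card := by
    intro i
    by_contra hcon
    simp only [not_exists, not_and, not_forall, not_lt] at hcon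
    -- every row of `F i` is unclean for some `j`
    let U : J → Finset R := fun j => (F i).filter
      (fun f => (G j).card ≤ (Fintype.card I + 1) * ((G j).filter (fun g => (f, g) ∈ Flip)).card)
    have hcover : F i ⊆ (Finset.univ : Finset J).biUnion U := by
      intro f hf
      obtain ⟨j, hj⟩ := hcon f hf
      exact Finset.mem_biUnion.mpr ⟨j, Finset.mem_univ _, Finset.mem_filter.mpr ⟨hf, hj⟩⟩
    have hle : (F i).card ≤ ∑ j, (U j).card :=
      le_trans (Finset.card_le_card hcover) Finset.card_biUnion_le
    have hU : ∀ j, (U j).card * Fintype.card J < (F i).card := by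
      intro j
      have hGpos : 0 < (G j).card := Finset.card_pos.mpr (hG j)
      have h1 : (U j).card * (G j).card ≤
          (Fintype.card I + 1) * ((F i ×ˢ G j) ∩ Flip).card := by
        rw [card_block_inter_eq_sum, Finset.mul_sum]
        calc (U j).card * (G j).card = ∑ _f ∈ U j, (G j).card := by
              rw [Finset.sum_const, smul_eq_mul]
          _ ≤ ∑ f ∈ U j, (Fintype.card I + 1) *
                ((G j).filter (fun g => (f, g) ∈ Flip)).card :=
              Finset.sum_le_sum (fun f hf => (Finset.mem_filter.mp hf).2)
          _ ≤ ∑ f ∈ F i, (Fintype.card I + 1) *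
                ((G j).filter (fun g => (f, g) ∈ Flip)).card :=
              Finset.sum_le_sum_of_subset (Finset.filter_subset _ _)
      have h2 : (U j).card * Fintype.card J * (G j).card < (F i).card * (G j).card := by
        calc (U j).card * Fintype.card J * (G j).card
            = Fintype.card J * ((U j).card * (G j).card) := by ring
          _ ≤ Fintype.card J * ((Fintype.card I + 1) * ((F i ×ˢ G j) ∩ Flip).card) :=
              Nat.mul_le_mul_left _ h1
          _ = (Fintype.card I + 1) * Fintype.card J * ((F i ×ˢ G j) ∩ Flip).card := by ring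
          _ < (F i).card * (G j).card := h i j
      exact Nat.lt_of_mul_lt_mul_right h2
    rcases Nat.eq_zero_or_pos (Fintype.card J) with hJ | hJ
    · -- no columns classes at all: contradiction with the cover
      have : IsEmpty J := Fintype.card_eq_zero_iff.mp hJ
      obtain ⟨f, hf⟩ := hF i
      obtain ⟨j, _⟩ := hcon f hf
      exact this.false j
    · have hsum : (∑ j, (U j).card) * Fintype.card J < Fintype.card J * (F i).card := by
        rw [Finset.sum_mul]
        calc ∑ j, (U j).card * Fintype.card J
            < ∑ _j : J, (F i).card := by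
              apply Finset.sum_lt_sum_of_nonempty
              · exact Finset.univ_nonempty_iff.mpr (Fintype.card_pos_iff.mp hJ)
              · intro j _; exact hU j
          _ = Fintype.card J * (F i).card := by
              rw [Finset.sum_const, Finset.card_univ, smul_eq_mul]
      have : (F i).card * Fintype.card J < Fintype.card J * (F i).card :=
        lt_of_le_of_lt (Nat.mul_le_mul_right _ hle) hsum
      rw [mul_comm] at this
      exact lt_irrefl _ this
  choose f hfF hfclean using step1
  -- Step 2: a column in every `G j` avoiding the chosen rows.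
  have step2 : ∀ j, ∃ g ∈ G j, ∀ i, (f i, g) ∉ Flip := by
    intro j
    let Bd : Finset C := (Finset.univ : Finset I).biUnion
      (fun i => (G j).filter (fun g => (f i, g) ∈ Flip))
    have hGpos : 0 < (G j).card := Finset.card_pos.mpr (hG j)
    have hBd : Bd.card < (G j).card := by
      have h1 : Bd.card ≤ ∑ i, ((G j).filter (fun g => (f i, g) ∈ Flip)).card :=
        Finset.card_biUnion_le
      have h2 : (Fintype.card I + 1) *
          (∑ i, ((G j).filter (fun g => (f i, g) ∈ Flip)).card) ≤
          Fintype.card I * (G j).card := by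
        rw [Finset.mul_sum]
        calc ∑ i, (Fintype.card I + 1) * ((G j).filter (fun g => (f i, g) ∈ Flip)).card
            ≤ ∑ _i : I, (G j).card :=
              Finset.sum_le_sum (fun i _ => (hfclean i j).le)
          _ = Fintype.card I * (G j).card := by
              rw [Finset.sum_const, Finset.card_univ, smul_eq_mul]
      have h3 : (Fintype.card I + 1) * Bd.card < (Fintype.card I + 1) * (G j).card := by
        calc (Fintype.card I + 1) * Bd.card
            ≤ (Fintype.card I + 1) *
                (∑ i, ((G j).filter (fun g => (f i, g) ∈ Flip)).card) :=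
              Nat.mul_le_mul_left _ h1
          _ ≤ Fintype.card I * (G j).card := h2
          _ < (Fintype.card I + 1) * (G j).card := by
              have : Fintype.card I * (G j).card + (G j).card =
                  (Fintype.card I + 1) * (G j).card := by ring
              omega
      exact Nat.lt_of_mul_lt_mul_left h3
    obtain ⟨g, hg, hgB⟩ := Finset.exists_mem_notMem_of_card_lt_card hBd
    refine ⟨g, hg, fun i hflip => hgB ?_⟩
    exact Finset.mem_biUnion.mpr ⟨i, Finset.mem_univ _, Finset.mem_filter.mpr ⟨hg, hflip⟩⟩
  choose g hgG hgclean using step2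
  exact ⟨f, g, hfF, hgG, fun i j => hgclean j i⟩

/-- At least half of the rows of `F` are unflipped on all columns of `C0`, if every column of
`C0` is flipped on at most a `1/(2|C0|)` fraction of `F`. -/
theorem half_unflipped_rows (F : Finset R) (Flip : Finset (R × C)) (C0 : Finset C)
    (hFC : ∀ c ∈ C0, 2 * C0.card * (F.filter (fun f => (f, c) ∈ Flip)).card ≤ F.card) :
    F.card ≤ 2 * (F.filter (fun f => ∀ c ∈ C0, (f, c) ∉ Flip)).card := by
  classical
  set F' := F.filter (fun f => ∀ c ∈ C0, (f, c) ∉ Flip) with hF'
  have hsplit : (F \ F').card + F'.card = F.card :=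
    Finset.card_sdiff_add_card_eq_card (Finset.filter_subset _ _)
  have hcover : F \ F' ⊆ C0.biUnion (fun c => F.filter (fun f => (f, c) ∈ Flip)) := by
    intro f hf
    rw [Finset.mem_sdiff] at hf
    have hnot : ¬ ∀ c ∈ C0, (f, c) ∉ Flip := fun hall =>
      hf.2 (Finset.mem_filter.mpr ⟨hf.1, hall⟩)
    simp only [not_forall, not_not] at hnot
    obtain ⟨c, hc, hfc⟩ := hnot
    exact Finset.mem_biUnion.mpr ⟨c, hc, Finset.mem_filter.mpr ⟨hf.1, hfc⟩⟩
  have hbad : 2 * (F \ F').card ≤ F.card := by
    rcases Nat.eq_zero_or_pos C0.card with h0 | hpos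
    · have hC0 : C0 = ∅ := Finset.card_eq_zero.mp h0
      have hemp : F \ F' = ∅ := by
        rw [Finset.eq_empty_iff_forall_notMem]
        intro f hf
        have hmem := hcover hf
        rw [hC0, Finset.biUnion_empty] at hmem
        exact (Finset.notMem_empty f) hmem
      rw [hemp]; simp
    · have h1 : (F \ F').card ≤ ∑ c ∈ C0, (F.filter (fun f => (f, c) ∈ Flip)).card :=
        le_trans (Finset.card_le_card hcover) Finset.card_biUnion_le
      have h2 : 2 * C0.card * (∑ c ∈ C0, (F.filter (fun f => (f, c) ∈ Flip)).card)
          ≤ C0.card * F.card := by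
        rw [Finset.mul_sum]
        calc ∑ c ∈ C0, 2 * C0.card * (F.filter (fun f => (f, c) ∈ Flip)).card
            ≤ ∑ _c ∈ C0, F.card := Finset.sum_le_sum (fun c hc => hFC c hc)
          _ = C0.card * F.card := by rw [Finset.sum_const, smul_eq_mul]
      have h3 : C0.card * (2 * (F \ F').card) ≤ C0.card * F.card := by
        calc C0.card * (2 * (F \ F').card) = 2 * C0.card * (F \ F').card := by ring
          _ ≤ 2 * C0.card * (∑ c ∈ C0, (F.filter (fun f => (f, c) ∈ Flip)).card) :=
              Nat.mul_le_mul_left _ h1
          _ ≤ C0.card * F.card := h2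
      exact Nat.le_of_mul_le_mul_left h3 hpos
  omega

/-- Column version of `half_unflipped_rows`. -/
theorem half_unflipped_cols (G : Finset C) (Flip : Finset (R × C)) (R0 : Finset R)
    (hGR : ∀ r ∈ R0, 2 * R0.card * (G.filter (fun g => (r, g) ∈ Flip)).card ≤ G.card) :
    G.card ≤ 2 * (G.filter (fun g => ∀ r ∈ R0, (r, g) ∉ Flip)).card := by
  classical
  have h := half_unflipped_rows (R := C) (C := R) G (Flip.image Prod.swap) R0 (by
    intro r hr
    have := hGR r hr
    simpa using this)
  simpa using h

/-- **Clean frame.** As `exists_clean_grid`, and in addition the chosen rows are unflipped on the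
given columns `C0` (e.g. the core columns) and the chosen columns are unflipped on the given
rows `R0` (e.g. the core rows). -/
theorem exists_clean_frame (F : I → Finset R) (G : J → Finset C) (Flip : Finset (R × C))
    (R0 : Finset R) (C0 : Finset C)
    (hF : ∀ i, (F i).Nonempty) (hG : ∀ j, (G j).Nonempty)
    (hFC : ∀ i, ∀ c ∈ C0,
      2 * C0.card * ((F i).filter (fun f => (f, c) ∈ Flip)).card ≤ (F i).card)
    (hGR : ∀ j, ∀ r ∈ R0,
      2 * R0.card * ((G j).filter (fun g => (r, g) ∈ Flip)).card ≤ (G j).card)
    (h : ∀ i j, 4 * ((Fintype.card I + 1) * Fintype.card J * ((F i ×ˢ G j) ∩ Flip).card)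
        < (F i).card * (G j).card) :
    ∃ (f : I → R) (g : J → C), (∀ i, f i ∈ F i) ∧ (∀ j, g j ∈ G j) ∧
      (∀ i, ∀ c ∈ C0, (f i, c) ∉ Flip) ∧ (∀ j, ∀ r ∈ R0, (r, g j) ∉ Flip) ∧
      ∀ i j, (f i, g j) ∉ Flip := by
  classical
  let F' : I → Finset R := fun i => (F i).filter (fun f => ∀ c ∈ C0, (f, c) ∉ Flip)
  let G' : J → Finset C := fun j => (G j).filter (fun g => ∀ r ∈ R0, (r, g) ∉ Flip)
  have hF'c : ∀ i, (F i).card ≤ 2 * (F' i).card := fun i =>
    half_unflipped_rows (F i) Flip C0 (hFC i)
  have hG'c : ∀ j, (G j).card ≤ 2 * (G' j).card := fun j =>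
    half_unflipped_cols (G j) Flip R0 (hGR j)
  have hF'ne : ∀ i, (F' i).Nonempty := by
    intro i
    have := Finset.card_pos.mpr (hF i)
    exact Finset.card_pos.mp (by have := hF'c i; omega)
  have hG'ne : ∀ j, (G' j).Nonempty := by
    intro j
    have := Finset.card_pos.mpr (hG j)
    exact Finset.card_pos.mp (by have := hG'c j; omega)
  have h' : ∀ i j, (Fintype.card I + 1) * Fintype.card J * ((F' i ×ˢ G' j) ∩ Flip).card
      < (F' i).card * (G' j).card := by
    intro i j
    have hsub : ((F' i ×ˢ G' j) ∩ Flip).card ≤ ((F i ×ˢ G j) ∩ Flip).card := by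
      apply Finset.card_le_card
      apply Finset.inter_subset_inter_right
      exact Finset.product_subset_product (Finset.filter_subset _ _) (Finset.filter_subset _ _)
    have h4 : 4 * ((Fintype.card I + 1) * Fintype.card J * ((F' i ×ˢ G' j) ∩ Flip).card)
        < 4 * ((F' i).card * (G' j).card) := by
      calc 4 * ((Fintype.card I + 1) * Fintype.card J * ((F' i ×ˢ G' j) ∩ Flip).card)
          ≤ 4 * ((Fintype.card I + 1) * Fintype.card J * ((F i ×ˢ G j) ∩ Flip).card) :=
            Nat.mul_le_mul_left _ (Nat.mul_le_mul_left _ hsub)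
        _ < (F i).card * (G j).card := h i j
        _ ≤ (2 * (F' i).card) * (2 * (G' j).card) := Nat.mul_le_mul (hF'c i) (hG'c j)
        _ = 4 * ((F' i).card * (G' j).card) := by ring
    exact Nat.lt_of_mul_lt_mul_left h4
  obtain ⟨f, g, hf, hg, hfg⟩ := exists_clean_grid F' G' Flip hF'ne hG'ne h'
  refine ⟨f, g, fun i => (Finset.mem_filter.mp (hf i)).1, fun j => (Finset.mem_filter.mp (hg j)).1,
    fun i => (Finset.mem_filter.mp (hf i)).2, fun j => (Finset.mem_filter.mp (hg j)).2, hfg⟩

end choice

end Crest.Agent.S0066
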