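import Mathlib
import Crest.Agent.S0066_SeedAll
import Crest.Agent.S0066_SeedPin
import Crest.Agent.S0066_AdaptB

/-!
# S0066 (row 47): the counting side, assembled

Every ordered copy `(r, c)` of the core `zzK` in the matrix `M h` of `S0066_Design` has its cell
`(r 2, c 0)` in the set `seedPin h` of `2^h` pinned cells.  This is the hypothesis `hS` of
`good_of_corner_pinned` / `result_of_core_design` (`S0066_Pin`) with `i0 = 2`, `j0 = 0`:
class-level type forcing (`seed_of_kcopy`, `S0066_SeedAll`) + adapter (`S0066_AdaptB`).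
-/

set_option autoImplicit false

namespace Crest.Agent.S0066

/-- The class-level type-forcing theorem in the form used by `mem_seedPin_of_copy`. -/
theorem seedStatement (h : ℕ) (h1 : 1 ≤ h) : SeedStatement h :=
  fun _ _ hK => seed_of_kcopy h1 hK

/-- **[Cnt], final form.** Every ordered copy of `zzK` in `M h` contains a pinned cell at position
`(2, 0)`. -/
theorem seedPin_of_copy (h : ℕ) (h1 : 1 ≤ h) (r : Fin 3 → Row h) (c : Fin 4 → Col h)
    (hr : StrictMono r) (hc : StrictMono c) (hM : ∀ i j, M h (r i) (c j) = zzK i j) :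
    (r 2, c 0) ∈ seedPin h h1 :=
  mem_seedPin_of_copy h h1 (seedStatement h h1) AdaptB.rcls AdaptB.ccls
    (AdaptB.kcopy_of_copy h1) AdaptB.spec_of_rcls AdaptB.spec_of_ccls r c hr hc hM

end Crest.Agent.S0066
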