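import Mathlib
import Crest.Agent.S0066_Small

/-!
# S0066 (row 47): design-independent FARNESS theorem (helper23)

`far_of_templates`: a matrix `M` over finite linear orders is `N²`-far from `H`-free as soon as
every "leaf" `x` (there are at least `N` of them) owns a private chain of cells
`w x 1, …, w x (m-1)` and, for every step `s < m`, a *template* = candidate sets
`rs x s i`, `cs x s j` (`i j : Fin k`) for the rows / columns of a near-copy of `H` such that

* each candidate set is a single special line of the leaf, or a class of at least `2N`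
  robust ("twin") lines,
* candidate sets are increasing blocks,
* every choice of candidates is a copy of `H` in `M` except at the two chain cells
  `w x s` (where `H` wants `true`; no such cell for `s = 0`) and `w x (s+1)`
  (where `H` wants `false`; no such cell for `s = m-1`), and these two are the only
  special × special cells.

Proof: pigeonhole over the leaves, a discrete intermediate value argument along the chain and
a clean-twin selection (rows with fewest changes first, then columns).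
-/

set_option autoImplicit false

namespace Crest.Agent.S0066.FarAlt

/-- Discrete intermediate value theorem: a chain `v 1, …, v (m-1)` with virtual ends
`v 0 = true`, `v m = false` has a step `s` from `true` to `false`. -/
theorem chain_step (m : ℕ) (hm : 0 < m) (v : ℕ → Bool) :
    ∃ s, s < m ∧ (s = 0 ∨ v s = true) ∧ (s + 1 = m ∨ v (s + 1) = false) := by
  classical
  let P : ℕ → Prop := fun s => s = 0 ∨ v s = true
  have hP0 : P 0 := Or.inl rfl
  have hle : Nat.findGreatest P (m - 1) ≤ m - 1 := Nat.findGreatest_le (m - 1)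
  refine ⟨Nat.findGreatest P (m - 1), by omega, ?_, ?_⟩
  · exact Nat.findGreatest_spec (P := P) (Nat.zero_le _) hP0
  · by_cases h : Nat.findGreatest P (m - 1) + 1 = m
    · exact Or.inl h
    · right
      have hle2 : Nat.findGreatest P (m - 1) + 1 ≤ m - 1 := by omega
      have hng : ¬ P (Nat.findGreatest P (m - 1) + 1) :=
        Nat.findGreatest_is_greatest (Nat.lt_succ_self _) hle2
      simp only [P, not_or] at hng
      simpa using hng.2

section far

variable {ι κ : Type} [Fintype ι] [LinearOrder ι] [Fintype κ] [LinearOrder κ]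

omit [Fintype κ] in
/-- Clean-twin selection.  `Δ` = changed cells (fewer than `N²`), fewer than `N` of them in the
mixed cells of the leaf.  Every slot is a single special line of the leaf or a class of `≥ 2N`
twin lines.  Then representatives can be chosen such that no selected cell is changed, except
possibly the special × special ones. -/
theorem exists_clean_choice {k : ℕ} (N : ℕ) (Δ : Finset (ι × κ)) (hΔ : Δ.card < N * N)
    (SRx TR : Finset ι) (SCx TC : Finset κ)
    (hU : (Δ.filter (fun p => (p.1 ∈ SRx ∧ p.2 ∈ TC) ∨ (p.1 ∈ TR ∧ p.2 ∈ SCx))).card < N)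
    (rs : Fin k → Finset ι) (cs : Fin k → Finset κ)
    (hrs : ∀ i, (∃ r ∈ SRx, rs i = {r}) ∨ (rs i ⊆ TR ∧ 2 * N ≤ (rs i).card))
    (hcs : ∀ j, (∃ c ∈ SCx, cs j = {c}) ∨ (cs j ⊆ TC ∧ 2 * N ≤ (cs j).card))
    (hdisj : ∀ i i', i ≠ i' → Disjoint (rs i) (rs i')) :
    ∃ (r : Fin k → ι) (c : Fin k → κ), (∀ i, r i ∈ rs i) ∧ (∀ j, c j ∈ cs j) ∧
      ∀ i j, ¬ (r i ∈ SRx ∧ c j ∈ SCx) → (r i, c j) ∉ Δ := by
  classical
  set U := Δ.filter (fun p => (p.1 ∈ SRx ∧ p.2 ∈ TC) ∨ (p.1 ∈ TR ∧ p.2 ∈ SCx)) with hUdef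
  set dR := U.image Prod.fst with hdR
  set dC := U.image Prod.snd with hdC
  have hdRcard : dR.card < N := lt_of_le_of_lt Finset.card_image_le hU
  have hdCcard : dC.card < N := lt_of_le_of_lt Finset.card_image_le hU
  let f : ι → ℕ := fun r => (Δ.filter (fun p => p.1 = r)).card
  have hftot : ∑ r : ι, f r = Δ.card := by
    rw [Finset.card_eq_sum_card_fiberwise (f := Prod.fst) (t := Finset.univ)
      (fun _ _ => Finset.mem_univ _)]
  let Sp : Fin k → Prop := fun i => ∃ r0 ∈ SRx, rs i = {r0}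
  -- row choice
  have hrow : ∀ i, ∃ r, r ∈ rs i ∧
      (Sp i ∨ (¬ Sp i ∧ r ∉ dR ∧ r ∈ TR ∧ (N + 1) * f r ≤ ∑ r' ∈ rs i, f r')) := by
    intro i
    by_cases hsp : Sp i
    · obtain ⟨r0, hr0, hrs0⟩ := hsp
      exact ⟨r0, by rw [hrs0]; exact Finset.mem_singleton_self _, Or.inl ⟨r0, hr0, hrs0⟩⟩
    · rcases hrs i with h1 | ⟨hsub, hcard⟩
      · exact absurd h1 hsp
      · have hclean : N + 1 ≤ (rs i \ dR).card := by
          have := Finset.le_card_sdiff dR (rs i)
          omega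
        have hne : (rs i \ dR).Nonempty := by
          rw [← Finset.card_pos]; omega
        obtain ⟨r, hr, hmin⟩ := Finset.exists_min_image (rs i \ dR) f hne
        rw [Finset.mem_sdiff] at hr
        refine ⟨r, hr.1, Or.inr ⟨hsp, hr.2, hsub hr.1, ?_⟩⟩
        calc (N + 1) * f r ≤ (rs i \ dR).card * f r := Nat.mul_le_mul_right _ hclean
          _ = ∑ _r' ∈ rs i \ dR, f r := by rw [Finset.sum_const, smul_eq_mul]
          _ ≤ ∑ r' ∈ rs i \ dR, f r' := Finset.sum_le_sum hmin
          _ ≤ ∑ r' ∈ rs i, f r' := Finset.sum_le_sum_of_subset Finset.sdiff_subset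
  choose r hr using hrow
  let Tw : Finset (Fin k) := Finset.univ.filter (fun i => ¬ Sp i)
  have hsum : (N + 1) * ∑ i ∈ Tw, f (r i) ≤ Δ.card := by
    rw [Finset.mul_sum]
    calc ∑ i ∈ Tw, (N + 1) * f (r i) ≤ ∑ i ∈ Tw, ∑ r' ∈ rs i, f r' := by
          apply Finset.sum_le_sum
          intro i hi
          rw [Finset.mem_filter] at hi
          rcases (hr i).2 with h | h
          · exact absurd h hi.2
          · exact h.2.2.2
      _ = ∑ r' ∈ Tw.biUnion rs, f r' := by
          rw [Finset.sum_biUnion]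
          intro i _ i' _ hii'
          exact hdisj i i' hii'
      _ ≤ ∑ r' : ι, f r' := Finset.sum_le_sum_of_subset (Finset.subset_univ _)
      _ = Δ.card := hftot
  have hS : ∑ i ∈ Tw, f (r i) < N := by
    by_contra hcon
    have hcon' : N ≤ ∑ i ∈ Tw, f (r i) := not_lt.mp hcon
    have : (N + 1) * N ≤ (N + 1) * ∑ i ∈ Tw, f (r i) := Nat.mul_le_mul_left _ hcon'
    nlinarith
  set hit := (Δ.filter (fun p => ∃ i ∈ Tw, p.1 = r i)).image Prod.snd with hhit
  have hhitcard : hit.card < N := by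
    refine lt_of_le_of_lt ?_ hS
    refine le_trans Finset.card_image_le ?_
    calc (Δ.filter (fun p => ∃ i ∈ Tw, p.1 = r i)).card
        ≤ (Tw.biUnion (fun i => Δ.filter (fun p => p.1 = r i))).card := by
          apply Finset.card_le_card
          intro p hp
          rw [Finset.mem_filter] at hp
          obtain ⟨hpΔ, i, hi, hpi⟩ := hp
          rw [Finset.mem_biUnion]
          exact ⟨i, hi, Finset.mem_filter.mpr ⟨hpΔ, hpi⟩⟩
      _ ≤ ∑ i ∈ Tw, (Δ.filter (fun p => p.1 = r i)).card := Finset.card_biUnion_le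
  -- column choice
  let Sc : Fin k → Prop := fun j => ∃ c0 ∈ SCx, cs j = {c0}
  have hcol : ∀ j, ∃ c, c ∈ cs j ∧ (Sc j ∨ (c ∉ dC ∧ c ∉ hit ∧ c ∈ TC)) := by
    intro j
    by_cases hsp : Sc j
    · obtain ⟨c0, hc0, hcs0⟩ := hsp
      exact ⟨c0, by rw [hcs0]; exact Finset.mem_singleton_self _, Or.inl ⟨c0, hc0, hcs0⟩⟩
    · rcases hcs j with h1 | ⟨hsub, hcard⟩
      · exact absurd h1 hsp
      · have hlt : (dC ∪ hit).card < (cs j).card := by
          have := Finset.card_union_le dC hit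
          omega
        obtain ⟨c, hc, hcn⟩ := Finset.exists_mem_notMem_of_card_lt_card hlt
        rw [Finset.mem_union, not_or] at hcn
        exact ⟨c, hc, Or.inr ⟨hcn.1, hcn.2, hsub hc⟩⟩
  choose c hc using hcol
  refine ⟨r, c, fun i => (hr i).1, fun j => (hc j).1, ?_⟩
  intro i j hnot hmem
  rcases (hr i).2 with ⟨r0, hr0, hrs0⟩ | ⟨hnsp, hrd, hrT, _⟩
  · have hri : r i = r0 := by
      have := (hr i).1; rw [hrs0, Finset.mem_singleton] at this; exact this
    rcases (hc j).2 with ⟨c0, hc0, hcs0⟩ | ⟨hcd, _, hcT⟩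
    · have hcj : c j = c0 := by
        have := (hc j).1; rw [hcs0, Finset.mem_singleton] at this; exact this
      exact hnot ⟨hri ▸ hr0, hcj ▸ hc0⟩
    · apply hcd
      rw [hdC, Finset.mem_image]
      refine ⟨(r i, c j), ?_, rfl⟩
      rw [hUdef, Finset.mem_filter]
      exact ⟨hmem, Or.inl ⟨hri ▸ hr0, hcT⟩⟩
  · rcases (hc j).2 with ⟨c0, hc0, hcs0⟩ | ⟨_, hch, _⟩
    · have hcj : c j = c0 := by
        have := (hc j).1; rw [hcs0, Finset.mem_singleton] at this; exact this
      apply hrd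
      rw [hdR, Finset.mem_image]
      refine ⟨(r i, c j), ?_, rfl⟩
      rw [hUdef, Finset.mem_filter]
      exact ⟨hmem, Or.inr ⟨hrT, hcj ▸ hc0⟩⟩
    · apply hch
      rw [hhit, Finset.mem_image]
      refine ⟨(r i, c j), ?_, rfl⟩
      rw [Finset.mem_filter]
      exact ⟨hmem, i, Finset.mem_filter.mpr ⟨Finset.mem_univ _, hnsp⟩, rfl⟩

/-- **Design-independent farness theorem** (leaf-private chains with robust ends). -/
theorem far_of_templates {k : ℕ} (H : Fin k → Fin k → Bool) (M : ι → κ → Bool)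
    (N : ℕ) {X : Type} [Fintype X] (hX : N ≤ Fintype.card X)
    (SR : X → Finset ι) (SC : X → Finset κ) (TR : Finset ι) (TC : Finset κ)
    (hSR : ∀ x y, x ≠ y → Disjoint (SR x) (SR y))
    (hSC : ∀ x y, x ≠ y → Disjoint (SC x) (SC y))
    (hTR : ∀ x, Disjoint TR (SR x))
    (m : ℕ) (hm : 0 < m) (w : X → ℕ → ι × κ)
    (rs : X → ℕ → Fin k → Finset ι) (cs : X → ℕ → Fin k → Finset κ)
    (hrs : ∀ x s, s < m → ∀ i,
      (∃ r ∈ SR x, rs x s i = {r}) ∨ (rs x s i ⊆ TR ∧ 2 * N ≤ (rs x s i).card))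
    (hcs : ∀ x s, s < m → ∀ j,
      (∃ c ∈ SC x, cs x s j = {c}) ∨ (cs x s j ⊆ TC ∧ 2 * N ≤ (cs x s j).card))
    (hrlt : ∀ x s, s < m → ∀ i i', i < i' → ∀ r ∈ rs x s i, ∀ r' ∈ rs x s i', r < r')
    (hclt : ∀ x s, s < m → ∀ j j', j < j' → ∀ c ∈ cs x s j, ∀ c' ∈ cs x s j', c < c')
    (hval : ∀ x s, s < m → ∀ i j, ∀ r ∈ rs x s i, ∀ c ∈ cs x s j,
        ((s ≠ 0 ∧ (r, c) = w x s) → H i j = true) ∧
        ((s + 1 ≠ m ∧ (r, c) = w x (s + 1)) → H i j = false) ∧
        (¬ (s ≠ 0 ∧ (r, c) = w x s) → ¬ (s + 1 ≠ m ∧ (r, c) = w x (s + 1)) →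
            M r c = H i j ∧ ¬ (r ∈ SR x ∧ c ∈ SC x)))
    (B : ι → κ → Bool) (hB : ¬ HasCopy H B) :
    N * N ≤ (Finset.univ.filter (fun p : ι × κ => M p.1 p.2 ≠ B p.1 p.2)).card := by
  classical
  by_contra hcon0
  have hcon : (Finset.univ.filter (fun p : ι × κ => M p.1 p.2 ≠ B p.1 p.2)).card < N * N :=
    not_le.mp hcon0
  set Δ := Finset.univ.filter (fun p : ι × κ => M p.1 p.2 ≠ B p.1 p.2) with hΔ
  let U : X → Finset (ι × κ) := fun x =>
    Δ.filter (fun p => (p.1 ∈ SR x ∧ p.2 ∈ TC) ∨ (p.1 ∈ TR ∧ p.2 ∈ SC x))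
  have hUdisj : ∀ x y, x ≠ y → Disjoint (U x) (U y) := by
    intro x y hxy
    rw [Finset.disjoint_left]
    intro p hpx hpy
    simp only [U, Finset.mem_filter] at hpx hpy
    rcases hpx.2 with ⟨h1, h2⟩ | ⟨h1, h2⟩ <;> rcases hpy.2 with ⟨h3, h4⟩ | ⟨h3, h4⟩
    · exact Finset.disjoint_left.mp (hSR x y hxy) h1 h3
    · exact Finset.disjoint_left.mp (hTR x) h3 h1
    · exact Finset.disjoint_left.mp (hTR y) h1 h3
    · exact Finset.disjoint_left.mp (hSC x y hxy) h2 h4
  -- pigeonhole over the leaves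
  have hex : ∃ x, (U x).card < N := by
    by_contra hall0
    have hall : ∀ x, N ≤ (U x).card := fun x => not_lt.mp (fun hlt => hall0 ⟨x, hlt⟩)
    have h1 : ∑ x : X, (U x).card = ((Finset.univ : Finset X).biUnion U).card := by
      rw [Finset.card_biUnion]
      intro x _ y _ hxy
      exact hUdisj x y hxy
    have h2 : ((Finset.univ : Finset X).biUnion U).card ≤ Δ.card := by
      apply Finset.card_le_card
      intro p hp
      rw [Finset.mem_biUnion] at hp
      obtain ⟨x, _, hx⟩ := hp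
      exact (Finset.mem_filter.mp hx).1
    have h3 : Fintype.card X * N ≤ ∑ x : X, (U x).card := by
      calc Fintype.card X * N = ∑ _x : X, N := by simp
        _ ≤ ∑ x : X, (U x).card := Finset.sum_le_sum (fun x _ => hall x)
    have h4 : N * N ≤ Fintype.card X * N := Nat.mul_le_mul_right _ hX
    omega
  obtain ⟨x, hx⟩ := hex
  -- a true → false step in the chain of the leaf
  obtain ⟨s, hsm, hs1, hs2⟩ := chain_step m hm (fun s => B (w x s).1 (w x s).2)
  have hdisj : ∀ i i', i ≠ i' → Disjoint (rs x s i) (rs x s i') := by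
    intro i i' hii'
    rw [Finset.disjoint_left]
    intro a ha ha'
    rcases lt_or_gt_of_ne hii' with h | h
    · exact lt_irrefl _ (hrlt x s hsm i i' h a ha a ha')
    · exact lt_irrefl _ (hrlt x s hsm i' i h a ha' a ha)
  obtain ⟨r, c, hr, hc, hclean⟩ := exists_clean_choice N Δ hcon (SR x) TR (SC x) TC hx
    (rs x s) (cs x s) (hrs x s hsm) (hcs x s hsm) hdisj
  apply hB
  refine ⟨r, c, ?_, ?_, ?_⟩
  · intro i i' hii'
    exact hrlt x s hsm i i' hii' _ (hr i) _ (hr i')
  · intro j j' hjj'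
    exact hclt x s hsm j j' hjj' _ (hc j) _ (hc j')
  · intro i j
    obtain ⟨hv1, hv2, hv3⟩ := hval x s hsm i j (r i) (hr i) (c j) (hc j)
    by_cases h1 : s ≠ 0 ∧ (r i, c j) = w x s
    · rw [hv1 h1]
      rcases hs1 with h0 | hb
      · exact absurd h0 h1.1
      · have hb' : B (w x s).1 (w x s).2 = true := hb
        rw [← h1.2] at hb'
        exact hb'
    · by_cases h2 : s + 1 ≠ m ∧ (r i, c j) = w x (s + 1)
      · rw [hv2 h2]
        rcases hs2 with h0 | hb
        · exact absurd h0 h2.1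
        · have hb' : B (w x (s + 1)).1 (w x (s + 1)).2 = false := hb
          rw [← h2.2] at hb'
          exact hb'
      · obtain ⟨hMH, hns⟩ := hv3 h1 h2
        have hnd := hclean i j hns
        rw [hΔ, Finset.mem_filter] at hnd
        rw [← hMH]
        by_contra hne
        exact hnd ⟨Finset.mem_univ _, fun hE => hne hE.symm⟩

/-- `far_of_templates` with `N = 2^h`, in the exact shape of the hypothesis `hfar` of
`good_of_structured`. -/
theorem far_of_templates_pow {k : ℕ} (H : Fin k → Fin k → Bool) (M : ι → κ → Bool)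
    (h : ℕ) {X : Type} [Fintype X] (hX : 2 ^ h ≤ Fintype.card X)
    (SR : X → Finset ι) (SC : X → Finset κ) (TR : Finset ι) (TC : Finset κ)
    (hSR : ∀ x y, x ≠ y → Disjoint (SR x) (SR y))
    (hSC : ∀ x y, x ≠ y → Disjoint (SC x) (SC y))
    (hTR : ∀ x, Disjoint TR (SR x))
    (m : ℕ) (hm : 0 < m) (w : X → ℕ → ι × κ)
    (rs : X → ℕ → Fin k → Finset ι) (cs : X → ℕ → Fin k → Finset κ)
    (hrs : ∀ x s, s < m → ∀ i,
      (∃ r ∈ SR x, rs x s i = {r}) ∨ (rs x s i ⊆ TR ∧ 2 * 2 ^ h ≤ (rs x s i).card))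
    (hcs : ∀ x s, s < m → ∀ j,
      (∃ c ∈ SC x, cs x s j = {c}) ∨ (cs x s j ⊆ TC ∧ 2 * 2 ^ h ≤ (cs x s j).card))
    (hrlt : ∀ x s, s < m → ∀ i i', i < i' → ∀ r ∈ rs x s i, ∀ r' ∈ rs x s i', r < r')
    (hclt : ∀ x s, s < m → ∀ j j', j < j' → ∀ c ∈ cs x s j, ∀ c' ∈ cs x s j', c < c')
    (hval : ∀ x s, s < m → ∀ i j, ∀ r ∈ rs x s i, ∀ c ∈ cs x s j,
        ((s ≠ 0 ∧ (r, c) = w x s) → H i j = true) ∧
        ((s + 1 ≠ m ∧ (r, c) = w x (s + 1)) → H i j = false) ∧
        (¬ (s ≠ 0 ∧ (r, c) = w x s) → ¬ (s + 1 ≠ m ∧ (r, c) = w x (s + 1)) →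
            M r c = H i j ∧ ¬ (r ∈ SR x ∧ c ∈ SC x))) :
    ∀ B : ι → κ → Bool, ¬ HasCopy H B →
      4 ^ h ≤ (Finset.univ.filter (fun p : ι × κ => M p.1 p.2 ≠ B p.1 p.2)).card := by
  intro B hB
  have h4 : (4 : ℕ) ^ h = 2 ^ h * 2 ^ h := by
    rw [← Nat.mul_pow]
  rw [h4]
  exact far_of_templates H M (2 ^ h) hX SR SC TR TC hSR hSC hTR m hm w rs cs hrs hcs hrlt hclt
    hval B hB

end far

end Crest.Agent.S0066.FarAlt
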