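import Mathlib
import Crest.Agent.S0066_Far
import Crest.Agent.S0066_Pin

/-!
# S0066 (row 47): farness for corner patterns from CORE templates

`far_of_core_templates`: the specialisation of `far_of_templates_pow` to a pattern
`cornerPattern K` (`K : Fin a → Fin b → Bool` in the last `a` rows × first `b` columns of the
all-`false` `66 × 66` pattern).  The user supplies

* `66 - a` classes `ZR z` of all-`false` non-special rows and `66 - b` classes `ZC z` of
  all-`false` non-special columns (each with `≥ 2·2^h` members, increasing blocks), and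
* for every leaf `x` and step `k ≤ m` a template for the `a × b` core only,

and never sees `Fin 66`.
-/

set_option autoImplicit false

namespace Crest.Agent.S0066

/-- Every row index of the `66 × 66` pattern is a zero row or a core row. -/
theorem fin66_row_cases {a : ℕ} (ha : a ≤ 66) (i : Fin 66) :
    i.val < 66 - a ∨ ∃ i' : Fin a, i = cornerRow ha i' := by
  by_cases hi : i.val < 66 - a
  · exact Or.inl hi
  · refine Or.inr ⟨⟨i.val - (66 - a), by have := i.isLt; omega⟩, ?_⟩
    apply Fin.ext
    simp only [cornerRow]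
    omega

/-- Every column index of the `66 × 66` pattern is a core column or a zero column. -/
theorem fin66_col_cases {b : ℕ} (hb : b ≤ 66) (j : Fin 66) :
    b ≤ j.val ∨ ∃ j' : Fin b, j = cornerCol hb j' := by
  by_cases hj : b ≤ j.val
  · exact Or.inl hj
  · exact Or.inr ⟨⟨j.val, by omega⟩, rfl⟩

section pad

variable {α : Type} {a b : ℕ}

/-- Row roles of the corner pattern: `none` (twin role) on the zero rows, the core role below. -/
def padRowSpec (ha : a ≤ 66) (s : Fin a → Option α) (i : Fin 66) : Option α :=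
  if h : 66 - a ≤ i.val then s ⟨i.val - (66 - a), by have := i.isLt; omega⟩ else none

/-- Row classes of the corner pattern: the zero class on the zero rows, the core class below. -/
def padRowCls (ha : a ≤ 66) (Z : Fin (66 - a) → Finset α) (cl : Fin a → Finset α) (i : Fin 66) :
    Finset α :=
  if h : 66 - a ≤ i.val then cl ⟨i.val - (66 - a), by have := i.isLt; omega⟩
  else Z ⟨i.val, by omega⟩

/-- Column roles of the corner pattern. -/
def padColSpec (s : Fin b → Option α) (j : Fin 66) : Option α :=
  if h : j.val < b then s ⟨j.val, h⟩ else none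

/-- Column classes of the corner pattern. -/
def padColCls (hb : b ≤ 66) (Z : Fin (66 - b) → Finset α) (cl : Fin b → Finset α) (j : Fin 66) :
    Finset α :=
  if h : j.val < b then cl ⟨j.val, h⟩ else Z ⟨j.val - b, by have := j.isLt; omega⟩

theorem padRowSpec_lt (ha : a ≤ 66) (s : Fin a → Option α) (i : Fin 66) (hi : i.val < 66 - a) :
    padRowSpec ha s i = none := by
  unfold padRowSpec
  rw [dif_neg (by omega)]

theorem padRowCls_lt (ha : a ≤ 66) (Z : Fin (66 - a) → Finset α) (cl : Fin a → Finset α)
    (i : Fin 66) (hi : i.val < 66 - a) : padRowCls ha Z cl i = Z ⟨i.val, hi⟩ := by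
  unfold padRowCls
  rw [dif_neg (by omega)]

theorem padRowSpec_core (ha : a ≤ 66) (s : Fin a → Option α) (i : Fin a) :
    padRowSpec ha s (cornerRow ha i) = s i := by
  unfold padRowSpec
  have h1 : 66 - a ≤ (cornerRow ha i).val := by simp only [cornerRow]; omega
  rw [dif_pos h1]
  congr 1
  apply Fin.ext
  simp only [cornerRow]
  omega

theorem padRowCls_core (ha : a ≤ 66) (Z : Fin (66 - a) → Finset α) (cl : Fin a → Finset α)
    (i : Fin a) : padRowCls ha Z cl (cornerRow ha i) = cl i := by
  unfold padRowCls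
  have h1 : 66 - a ≤ (cornerRow ha i).val := by simp only [cornerRow]; omega
  rw [dif_pos h1]
  congr 1
  apply Fin.ext
  simp only [cornerRow]
  omega

theorem padColSpec_ge (s : Fin b → Option α) (j : Fin 66) (hj : b ≤ j.val) :
    padColSpec s j = none := by
  unfold padColSpec
  rw [dif_neg (by omega)]

theorem padColCls_ge (hb : b ≤ 66) (Z : Fin (66 - b) → Finset α) (cl : Fin b → Finset α)
    (j : Fin 66) (hj : b ≤ j.val) :
    padColCls hb Z cl j = Z ⟨j.val - b, by have := j.isLt; omega⟩ := by
  unfold padColCls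
  rw [dif_neg (by omega)]

theorem padColSpec_core (hb : b ≤ 66) (s : Fin b → Option α) (j : Fin b) :
    padColSpec s (cornerCol hb j) = s j := by
  unfold padColSpec
  have h1 : (cornerCol hb j).val < b := j.isLt
  rw [dif_pos h1]
  rfl

theorem padColCls_core (hb : b ≤ 66) (Z : Fin (66 - b) → Finset α) (cl : Fin b → Finset α)
    (j : Fin b) : padColCls hb Z cl (cornerCol hb j) = cl j := by
  unfold padColCls
  have h1 : (cornerCol hb j).val < b := j.isLt
  rw [dif_pos h1]
  rfl

end pad

section core

variable {ι κ X : Type} [Fintype ι] [LinearOrder ι] [Fintype κ] [LinearOrder κ]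
  [Fintype X] [DecidableEq X] {a b : ℕ}

/-- **Farness for `cornerPattern K` from core templates.**  `ZR z`, `ZC z` are the classes of
all-`false` twin lines used for the `66 - a` zero rows and the `66 - b` zero columns of the
pattern; `rs, rcl, cs, ccl` describe, for leaf `x` and step `k ≤ m`, the `a` core rows and the
`b` core columns exactly as in `far_of_templates`. -/
theorem far_of_core_templates (ha : a ≤ 66) (hb : b ≤ 66) (K : Fin a → Fin b → Bool)
    (M : ι → κ → Bool) (h m : ℕ) (hX : Fintype.card X = 2 ^ h)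
    (rowLeaf : ι → Option X) (colLeaf : κ → Option X) (w : X → ℕ → ι × κ)
    -- zero classes
    (ZR : Fin (66 - a) → Finset ι) (ZC : Fin (66 - b) → Finset κ)
    (hZR : ∀ z, ∀ r ∈ ZR z, rowLeaf r = none ∧ ∀ c, M r c = false)
    (hZRcard : ∀ z, 2 * 2 ^ h ≤ (ZR z).card)
    (hZRmono : ∀ z z', z < z' → ∀ r ∈ ZR z, ∀ r' ∈ ZR z', r < r')
    (hZC : ∀ z, ∀ c ∈ ZC z, colLeaf c = none ∧ ∀ r, M r c = false)
    (hZCcard : ∀ z, 2 * 2 ^ h ≤ (ZC z).card)
    (hZCmono : ∀ z z', z < z' → ∀ c ∈ ZC z, ∀ c' ∈ ZC z', c < c')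
    -- core templates
    (rs : X → ℕ → Fin a → Option ι) (rcl : X → ℕ → Fin a → Finset ι)
    (cs : X → ℕ → Fin b → Option κ) (ccl : X → ℕ → Fin b → Finset κ)
    (hrs : ∀ x k i r, k ≤ m → rs x k i = some r → rowLeaf r = some x)
    (hrcl : ∀ x k i, k ≤ m → rs x k i = none →
      (∀ r ∈ rcl x k i, rowLeaf r = none) ∧ 2 * 2 ^ h ≤ (rcl x k i).card)
    (hcs : ∀ x k j c, k ≤ m → cs x k j = some c → colLeaf c = some x)
    (hccl : ∀ x k j, k ≤ m → cs x k j = none →
      (∀ c ∈ ccl x k j, colLeaf c = none) ∧ 2 * 2 ^ h ≤ (ccl x k j).card)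
    (hrmono : ∀ x k, k ≤ m → ∀ i i', i < i' →
      ∀ r ∈ roleSet (rs x k i) (rcl x k i), ∀ r' ∈ roleSet (rs x k i') (rcl x k i'), r < r')
    (hcmono : ∀ x k, k ≤ m → ∀ j j', j < j' →
      ∀ c ∈ roleSet (cs x k j) (ccl x k j), ∀ c' ∈ roleSet (cs x k j') (ccl x k j'), c < c')
    -- zero rows come before the core rows, zero columns after the core columns
    (hZRcore : ∀ x k, k ≤ m → ∀ z i, ∀ r ∈ ZR z, ∀ r' ∈ roleSet (rs x k i) (rcl x k i), r < r')
    (hZCcore : ∀ x k, k ≤ m → ∀ z j, ∀ c ∈ roleSet (cs x k j) (ccl x k j), ∀ c' ∈ ZC z, c < c')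
    -- native values on the core, and the chain cells
    (hval : ∀ x k, k ≤ m → ∀ i j, (rs x k i = none ∨ cs x k j = none) →
      ∀ r ∈ roleSet (rs x k i) (rcl x k i), ∀ c ∈ roleSet (cs x k j) (ccl x k j),
        M r c = K i j)
    (hchain : ∀ x k, k ≤ m → ∀ i j r c, rs x k i = some r → cs x k j = some c →
      ((r, c) = w x k ∧ 1 ≤ k ∧ K i j = true) ∨
        ((r, c) = w x (k + 1) ∧ k + 1 ≤ m ∧ K i j = false)) :
    ∀ B : ι → κ → Bool, ¬ HasCopy (cornerPattern K) B →
      4 ^ h ≤ (Finset.univ.filter (fun p : ι × κ => M p.1 p.2 ≠ B p.1 p.2)).card := by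
  classical
  refine far_of_templates_pow (cornerPattern K) M h m hX rowLeaf colLeaf w
    (fun x k => padRowSpec ha (rs x k)) (fun x k => padRowCls ha ZR (rcl x k))
    (fun x k => padColSpec (cs x k)) (fun x k => padColCls hb ZC (ccl x k))
    ?_ ?_ ?_ ?_ ?_ ?_ ?_ ?_
  · -- hrs
    intro x k i r hk hi
    rcases fin66_row_cases ha i with hlt | ⟨i', rfl⟩
    · rw [padRowSpec_lt ha _ i hlt] at hi; exact absurd hi (by simp)
    · rw [padRowSpec_core] at hi; exact hrs x k i' r hk hi
  · -- hrcl
    intro x k i hk hi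
    rcases fin66_row_cases ha i with hlt | ⟨i', rfl⟩
    · rw [padRowCls_lt ha ZR _ i hlt]
      exact ⟨fun r hr => (hZR _ r hr).1, hZRcard _⟩
    · rw [padRowSpec_core] at hi
      rw [padRowCls_core]
      exact hrcl x k i' hk hi
  · -- hcs
    intro x k j c hk hj
    rcases fin66_col_cases hb j with hge | ⟨j', rfl⟩
    · rw [padColSpec_ge _ j hge] at hj; exact absurd hj (by simp)
    · rw [padColSpec_core] at hj; exact hcs x k j' c hk hj
  · -- hccl
    intro x k j hk hj
    rcases fin66_col_cases hb j with hge | ⟨j', rfl⟩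
    · rw [padColCls_ge hb ZC _ j hge]
      exact ⟨fun c hc => (hZC _ c hc).1, hZCcard _⟩
    · rw [padColSpec_core] at hj
      rw [padColCls_core]
      exact hccl x k j' hk hj
  · -- hrmono
    intro x k hk i i' hii' r hr r' hr'
    rcases fin66_row_cases ha i with hlt | ⟨i₁, rfl⟩ <;>
      rcases fin66_row_cases ha i' with hlt' | ⟨i₂, rfl⟩
    · rw [padRowSpec_lt ha _ i hlt, padRowCls_lt ha ZR _ i hlt, roleSet_none] at hr
      rw [padRowSpec_lt ha _ i' hlt', padRowCls_lt ha ZR _ i' hlt', roleSet_none] at hr'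
      exact hZRmono _ _ (by exact hii') r hr r' hr'
    · rw [padRowSpec_lt ha _ i hlt, padRowCls_lt ha ZR _ i hlt, roleSet_none] at hr
      rw [padRowSpec_core, padRowCls_core] at hr'
      exact hZRcore x k hk _ i₂ r hr r' hr'
    · exfalso
      have h1 : (cornerRow ha i₁).val < i'.val := hii'
      simp only [cornerRow] at h1
      omega
    · rw [padRowSpec_core, padRowCls_core] at hr hr'
      exact hrmono x k hk i₁ i₂ ((cornerRow_strictMono ha).lt_iff_lt.mp hii') r hr r' hr'
  · -- hcmono
    intro x k hk j j' hjj' c hc c' hc'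
    rcases fin66_col_cases hb j with hge | ⟨j₁, rfl⟩ <;>
      rcases fin66_col_cases hb j' with hge' | ⟨j₂, rfl⟩
    · rw [padColSpec_ge _ j hge, padColCls_ge hb ZC _ j hge, roleSet_none] at hc
      rw [padColSpec_ge _ j' hge', padColCls_ge hb ZC _ j' hge', roleSet_none] at hc'
      refine hZCmono _ _ ?_ c hc c' hc'
      have h1 : j.val < j'.val := hjj'
      show j.val - b < j'.val - b
      omega
    · exfalso
      have h1 : j.val < (cornerCol hb j₂).val := hjj'
      have h2 : (cornerCol hb j₂).val < b := j₂.isLt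
      omega
    · rw [padColSpec_core, padColCls_core] at hc
      rw [padColSpec_ge _ j' hge', padColCls_ge hb ZC _ j' hge', roleSet_none] at hc'
      exact hZCcore x k hk _ j₁ c hc c' hc'
    · rw [padColSpec_core, padColCls_core] at hc hc'
      exact hcmono x k hk j₁ j₂ ((cornerCol_strictMono hb).lt_iff_lt.mp hjj') c hc c' hc'
  · -- hval
    intro x k hk i j hij r hr c hc
    rcases fin66_row_cases ha i with hlt | ⟨i', rfl⟩
    · rw [padRowSpec_lt ha _ i hlt, padRowCls_lt ha ZR _ i hlt, roleSet_none] at hr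
      rw [cornerPattern_of_lt K i j hlt]
      exact (hZR _ r hr).2 c
    · rcases fin66_col_cases hb j with hge | ⟨j', rfl⟩
      · rw [padColSpec_ge _ j hge, padColCls_ge hb ZC _ j hge, roleSet_none] at hc
        rw [cornerPattern_of_ge K _ j hge]
        exact (hZC _ c hc).2 r
      · rw [padRowSpec_core, padRowCls_core] at hr
        rw [padColSpec_core, padColCls_core] at hc
        rw [padRowSpec_core, padColSpec_core] at hij
        rw [cornerPattern_core]
        exact hval x k hk i' j' hij r hr c hc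
  · -- hchain
    intro x k hk i j r c hi hj
    rcases fin66_row_cases ha i with hlt | ⟨i', rfl⟩
    · rw [padRowSpec_lt ha _ i hlt] at hi; exact absurd hi (by simp)
    · rcases fin66_col_cases hb j with hge | ⟨j', rfl⟩
      · rw [padColSpec_ge _ j hge] at hj; exact absurd hj (by simp)
      · rw [padRowSpec_core] at hi
        rw [padColSpec_core] at hj
        rw [cornerPattern_core]
        exact hchain x k hk i' j' r c hi hj

end core

end Crest.Agent.S0066
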