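import Mathlib

/-!
# S0066 (row 47): the generic FRAME theorem ("weight anchor")

Design-independent.  A host matrix `M : ι → κ → Bool` over linear orders whose rows (columns) are
split, in order, into three zones

* zone `0`: the frame twin classes `U_0 < … < U_{f-1}` (`V_0 < … < V_{f-1}`),
* zone `1`: all other twin classes,
* zone `≥ 2`: the special (address bearing) lines, last in the order,

with `M = F` on frame × frame, every non-frame line being `1` on at most `d` twin classes of the
other side, and the special × special block free of the pattern `W = [[1,0,1],[0,1,0]]`.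

If the pattern `H` (pairwise distinct rows, pairwise distinct columns) has the frame pattern `F` in
its top-left corner and `F` satisfies `FramePat` (every line has `≥ D > d` ones, the last row and
the last column are `1^D 0^(f-D)`, and `W` occurs in `F[d..][d..]`), then in EVERY copy of `H`
in `M` the `i`-th frame row of `H` lies in `U_i` and the `j`-th frame column in `V_j`
(`frame_rigid`).
-/

set_option autoImplicit false

namespace Crest.Agent.S0066

/-- Hypotheses on the host matrix. `zr`, `zc` are the zones, `cr`, `cc` the twin classes. -/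
structure FrameHost {ι κ : Type*} [LinearOrder ι] [LinearOrder κ]
    (f d : ℕ) (F : Fin f → Fin f → Bool) (M : ι → κ → Bool)
    (zr cr : ι → ℕ) (zc cc : κ → ℕ) : Prop where
  zr_mono : Monotone zr
  zc_mono : Monotone zc
  twin_r : ∀ x y, zr x ≤ 1 → zr y ≤ 1 → cr x = cr y → ∀ c, M x c = M y c
  twin_c : ∀ x y, zc x ≤ 1 → zc y ≤ 1 → cc x = cc y → ∀ r, M r x = M r y
  cr_lt : ∀ x, zr x = 0 → cr x < f
  cc_lt : ∀ x, zc x = 0 → cc x < f
  cr_mono : ∀ x y, zr x = 0 → zr y = 0 → x ≤ y → cr x ≤ cr y
  cc_mono : ∀ x y, zc x = 0 → zc y = 0 → x ≤ y → cc x ≤ cc y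
  frame : ∀ x y (hx : zr x = 0) (hy : zc y = 0),
    M x y = F ⟨cr x, cr_lt x hx⟩ ⟨cc y, cc_lt y hy⟩
  deg_r : ∀ x, zr x ≠ 0 → ∀ S : Finset κ, (∀ c ∈ S, zc c ≤ 1) →
    (∀ c ∈ S, ∀ c' ∈ S, cc c = cc c' → c = c') → (∀ c ∈ S, M x c = true) → S.card ≤ d
  deg_c : ∀ y, zc y ≠ 0 → ∀ S : Finset ι, (∀ r ∈ S, zr r ≤ 1) →
    (∀ r ∈ S, ∀ r' ∈ S, cr r = cr r' → r = r') → (∀ r ∈ S, M r y = true) → S.card ≤ d
  noW : ∀ r1 r2 c1 c2 c3, 2 ≤ zr r1 → 2 ≤ zr r2 → 2 ≤ zc c1 → 2 ≤ zc c2 → 2 ≤ zc c3 →
    r1 < r2 → c1 < c2 → c2 < c3 →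
    ¬ (M r1 c1 = true ∧ M r1 c2 = false ∧ M r1 c3 = true ∧
       M r2 c1 = false ∧ M r2 c2 = true ∧ M r2 c3 = false)

/-- Hypotheses on the frame pattern. -/
structure FramePat (f d D : ℕ) (F : Fin f → Fin f → Bool) : Prop where
  hdD : d < D
  row_ones : ∀ i, D ≤ (Finset.univ.filter (fun j => F i j = true)).card
  col_ones : ∀ j, D ≤ (Finset.univ.filter (fun i => F i j = true)).card
  last_row : ∀ i j : Fin f, i.val + 1 = f → (F i j = true ↔ j.val < D)
  last_col : ∀ i j : Fin f, j.val + 1 = f → (F i j = true ↔ i.val < D)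
  hasW : ∃ i1 i2 j1 j2 j3 : Fin f, d ≤ i1.val ∧ i1 < i2 ∧ d ≤ j1.val ∧ j1 < j2 ∧ j2 < j3 ∧
    F i1 j1 = true ∧ F i1 j2 = false ∧ F i1 j3 = true ∧
    F i2 j1 = false ∧ F i2 j2 = true ∧ F i2 j3 = false

/-- A line that is `1` on at most `d` twin classes of the other side and carries a pattern row
with `≥ D` ones has `≥ D - d` of these ones on special lines. -/
theorem escaped_ones {α β : Type*} {f d D : ℕ}
    (M : α → β → Bool) (zb cb : β → ℕ) (a : α)
    (hdeg : ∀ S : Finset β, (∀ y ∈ S, zb y ≤ 1) →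
      (∀ y ∈ S, ∀ y' ∈ S, cb y = cb y' → y = y') → (∀ y ∈ S, M a y = true) → S.card ≤ d)
    (Hrow : Fin f → Bool) (g : Fin f → β) (hg : Function.Injective g)
    (hval : ∀ j, M a (g j) = Hrow j)
    (hdist : ∀ j j' : Fin f, zb (g j) ≤ 1 → zb (g j') ≤ 1 → cb (g j) = cb (g j') → j = j')
    (hD : D ≤ (Finset.univ.filter (fun j => Hrow j = true)).card) :
    D - d ≤ (Finset.univ.filter (fun j => Hrow j = true ∧ 2 ≤ zb (g j))).card := by
  classical
  set T := Finset.univ.filter (fun j : Fin f => Hrow j = true) with hT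
  set T2 := Finset.univ.filter (fun j : Fin f => Hrow j = true ∧ 2 ≤ zb (g j)) with hT2
  set T1 := Finset.univ.filter (fun j : Fin f => Hrow j = true ∧ zb (g j) ≤ 1) with hT1
  have hsub : T ⊆ T2 ∪ T1 := by
    intro j hj
    simp only [hT, Finset.mem_filter, Finset.mem_univ, true_and] at hj
    simp only [hT2, hT1, Finset.mem_union, Finset.mem_filter, Finset.mem_univ, true_and]
    by_cases h : 2 ≤ zb (g j)
    · exact Or.inl ⟨hj, h⟩
    · exact Or.inr ⟨hj, by omega⟩
  have hcard1 : T1.card ≤ d := by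
    have himg : (T1.image g).card = T1.card := Finset.card_image_of_injective _ hg
    rw [← himg]
    apply hdeg
    · intro y hy
      obtain ⟨j, hj, rfl⟩ := Finset.mem_image.mp hy
      simp only [hT1, Finset.mem_filter, Finset.mem_univ, true_and] at hj
      exact hj.2
    · intro y hy y' hy' hc
      obtain ⟨j, hj, rfl⟩ := Finset.mem_image.mp hy
      obtain ⟨j', hj', rfl⟩ := Finset.mem_image.mp hy'
      simp only [hT1, Finset.mem_filter, Finset.mem_univ, true_and] at hj hj'
      rw [hdist j j' hj.2 hj'.2 hc]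
    · intro y hy
      obtain ⟨j, hj, rfl⟩ := Finset.mem_image.mp hy
      simp only [hT1, Finset.mem_filter, Finset.mem_univ, true_and] at hj
      rw [hval j]; exact hj.1
  have h1 : T.card ≤ T2.card + T1.card :=
    (Finset.card_le_card hsub).trans (Finset.card_union_le _ _)
  omega

/-- A strictly monotone `Fin f → ℕ` gains at least `n` over `n` steps. -/
theorem strictMono_fin_gain {f : ℕ} (g : Fin f → ℕ) (hg : StrictMono g) :
    ∀ (n : ℕ) (i j : Fin f), i.val + n = j.val → g i + n ≤ g j
  | 0, i, j, h => by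
      have : i = j := Fin.ext (by omega)
      subst this; simp
  | n + 1, i, j, h => by
      have hj : i.val + n < f := by omega
      have h1 := strictMono_fin_gain g hg n i ⟨i.val + n, hj⟩ rfl
      have h2 : g ⟨i.val + n, hj⟩ < g j := hg (by rw [Fin.lt_def]; simp; omega)
      omega

/-- A strictly monotone `Fin f → ℕ` with values `< f` is the identity. -/
theorem strictMono_fin_eq_val {f : ℕ} (g : Fin f → ℕ) (hg : StrictMono g) (hlt : ∀ i, g i < f)
    (i : Fin f) : g i = i.val := by
  have hf : 0 < f := i.pos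
  have h1 := strictMono_fin_gain g hg i.val ⟨0, hf⟩ i (by simp)
  have h2 := strictMono_fin_gain g hg (f - 1 - i.val) i ⟨f - 1, by omega⟩ (by simp; omega)
  have h3 := hlt ⟨f - 1, by omega⟩
  omega

/-- Monotone zones: if at least `D - d ≥ 1` of the indices `< D` are special, then every index
`≥ d` is special. -/
theorem suffix_of_count {f d D : ℕ} (z : Fin f → ℕ) (hz : Monotone z) (hdD : d < D)
    (hcount : D - d ≤ (Finset.univ.filter (fun j : Fin f => j.val < D ∧ 2 ≤ z j)).card)
    (j : Fin f) (hj : d ≤ j.val) : 2 ≤ z j := by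
  classical
  by_contra hcon
  have hlow : ∀ j' : Fin f, j' ≤ j → z j' < 2 := fun j' hj' =>
    lt_of_le_of_lt (hz hj') (by omega)
  have hsub : (Finset.univ.filter (fun j' : Fin f => j'.val < D ∧ 2 ≤ z j')).image Fin.val
      ⊆ Finset.Ioo j.val D := by
    intro x hx
    obtain ⟨j', hj', rfl⟩ := Finset.mem_image.mp hx
    simp only [Finset.mem_filter, Finset.mem_univ, true_and] at hj'
    rw [Finset.mem_Ioo]
    refine ⟨?_, hj'.1⟩
    by_contra hle
    have : j' ≤ j := by rw [Fin.le_def]; omega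
    have := hlow j' this
    omega
  have hcard := Finset.card_le_card hsub
  rw [Finset.card_image_of_injective _ Fin.val_injective, Nat.card_Ioo] at hcard
  omega

section Main

variable {ι κ : Type*} [LinearOrder ι] [LinearOrder κ]

/-- **Frame theorem.** In every copy of `H` in `M` the frame lines of `H` sit in the frame
classes of `M`, the `i`-th one in the `i`-th class. -/
theorem frame_rigid {f d D k : ℕ} {F : Fin f → Fin f → Bool} {M : ι → κ → Bool}
    {zr cr : ι → ℕ} {zc cc : κ → ℕ}
    (hA : FrameHost f d F M zr cr zc cc) (hF : FramePat f d D F)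
    (hfk : f ≤ k) (H : Fin k → Fin k → Bool)
    (hHF : ∀ i j : Fin f, H (Fin.castLE hfk i) (Fin.castLE hfk j) = F i j)
    (hrow : ∀ i i' : Fin k, (∀ j, H i j = H i' j) → i = i')
    (hcol : ∀ j j' : Fin k, (∀ i, H i j = H i j') → j = j')
    (r : Fin k → ι) (c : Fin k → κ) (hr : StrictMono r) (hc : StrictMono c)
    (hcopy : ∀ i j, M (r i) (c j) = H i j) :
    (∀ i : Fin f, zr (r (Fin.castLE hfk i)) = 0 ∧ cr (r (Fin.castLE hfk i)) = i.val) ∧
    (∀ j : Fin f, zc (c (Fin.castLE hfk j)) = 0 ∧ cc (c (Fin.castLE hfk j)) = j.val) := by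
  classical
  set R : Fin f → ι := fun i => r (Fin.castLE hfk i) with hR
  set C : Fin f → κ := fun j => c (Fin.castLE hfk j) with hC
  have hRmono : StrictMono R := fun a b hab => hr (by
    rw [Fin.lt_def] at hab ⊢; simpa using hab)
  have hCmono : StrictMono C := fun a b hab => hc (by
    rw [Fin.lt_def] at hab ⊢; simpa using hab)
  have hzR : Monotone (fun i => zr (R i)) := fun a b hab => hA.zr_mono (hRmono.monotone hab)
  have hzC : Monotone (fun j => zc (C j)) := fun a b hab => hA.zc_mono (hCmono.monotone hab)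
  have hval : ∀ i j : Fin f, M (R i) (C j) = F i j := fun i j => by
    simp only [hR, hC]; rw [hcopy, hHF]
  -- (1) two frame lines of `H` never land in one twin class
  have hdistC : ∀ j j' : Fin f, zc (C j) ≤ 1 → zc (C j') ≤ 1 → cc (C j) = cc (C j') → j = j' := by
    intro j j' h1 h2 h3
    have h4 := hA.twin_c (C j) (C j') h1 h2 h3
    have h5 : Fin.castLE hfk j = Fin.castLE hfk j' := by
      apply hcol
      intro i
      rw [← hcopy, ← hcopy]
      exact h4 (r i)
    exact Fin.castLE_injective hfk h5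
  have hdistR : ∀ i i' : Fin f, zr (R i) ≤ 1 → zr (R i') ≤ 1 → cr (R i) = cr (R i') → i = i' := by
    intro i i' h1 h2 h3
    have h4 := hA.twin_r (R i) (R i') h1 h2 h3
    have h5 : Fin.castLE hfk i = Fin.castLE hfk i' := by
      apply hrow
      intro j
      rw [← hcopy, ← hcopy]
      exact h4 (c j)
    exact Fin.castLE_injective hfk h5
  -- (2) escaped lines have ≥ D - d ones on special lines
  have hescR : ∀ i : Fin f, zr (R i) ≠ 0 →
      D - d ≤ (Finset.univ.filter (fun j : Fin f => F i j = true ∧ 2 ≤ zc (C j))).card := by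
    intro i hi
    exact escaped_ones M zc cc (R i) (hA.deg_r (R i) hi) (F i) C hCmono.injective
      (fun j => hval i j) hdistC (hF.row_ones i)
  have hescC : ∀ j : Fin f, zc (C j) ≠ 0 →
      D - d ≤ (Finset.univ.filter (fun i : Fin f => F i j = true ∧ 2 ≤ zr (R i))).card := by
    intro j hj
    exact escaped_ones (fun y x => M x y) zr cr (C j) (hA.deg_c (C j) hj) (fun i => F i j) R
      hRmono.injective (fun i => hval i j) hdistR (hF.col_ones j)
  have hpos : 0 < D - d := Nat.sub_pos_of_lt hF.hdD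
  -- (3) nothing escapes
  have hno : (∀ i : Fin f, zr (R i) = 0) ∧ (∀ j : Fin f, zc (C j) = 0) := by
    by_contra hcon
    -- a special frame row and a special frame column exist
    have hex : (∃ i : Fin f, 2 ≤ zr (R i)) ∧ (∃ j : Fin f, 2 ≤ zc (C j)) := by
      rw [not_and_or] at hcon
      rcases hcon with h | h
      · rw [not_forall] at h
        obtain ⟨i, hi⟩ := h
        have h1 := hescR i hi
        obtain ⟨j, hj⟩ := Finset.card_pos.mp (lt_of_lt_of_le hpos h1)
        simp only [Finset.mem_filter, Finset.mem_univ, true_and] at hj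
        have h2 := hescC j (by omega)
        obtain ⟨i', hi'⟩ := Finset.card_pos.mp (lt_of_lt_of_le hpos h2)
        simp only [Finset.mem_filter, Finset.mem_univ, true_and] at hi'
        exact ⟨⟨i', hi'.2⟩, ⟨j, hj.2⟩⟩
      · rw [not_forall] at h
        obtain ⟨j, hj⟩ := h
        have h1 := hescC j hj
        obtain ⟨i, hi⟩ := Finset.card_pos.mp (lt_of_lt_of_le hpos h1)
        simp only [Finset.mem_filter, Finset.mem_univ, true_and] at hi
        have h2 := hescR i (by omega)
        obtain ⟨j', hj'⟩ := Finset.card_pos.mp (lt_of_lt_of_le hpos h2)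
        simp only [Finset.mem_filter, Finset.mem_univ, true_and] at hj'
        exact ⟨⟨i, hi.2⟩, ⟨j', hj'.2⟩⟩
    obtain ⟨⟨i0, hi0⟩, ⟨j0, hj0⟩⟩ := hex
    have hf : 0 < f := i0.pos
    set L : Fin f := ⟨f - 1, by omega⟩ with hL
    have hLr : 2 ≤ zr (R L) := le_trans hi0 (hzR (by rw [Fin.le_def]; simp [hL]; omega))
    have hLc : 2 ≤ zc (C L) := le_trans hj0 (hzC (by rw [Fin.le_def]; simp [hL]; omega))
    have hLv : L.val + 1 = f := by simp [hL]; omega
    -- all columns ≥ d are special
    have hcolsp : ∀ j : Fin f, d ≤ j.val → 2 ≤ zc (C j) := by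
      have h1 := hescR L (by omega)
      have h2 : (Finset.univ.filter (fun j : Fin f => F L j = true ∧ 2 ≤ zc (C j)))
          = (Finset.univ.filter (fun j : Fin f => j.val < D ∧ 2 ≤ zc (C j))) := by
        apply Finset.filter_congr
        intro j _
        rw [hF.last_row L j hLv]
      rw [h2] at h1
      exact suffix_of_count (fun j => zc (C j)) hzC hF.hdD h1
    have hrowsp : ∀ i : Fin f, d ≤ i.val → 2 ≤ zr (R i) := by
      have h1 := hescC L (by omega)
      have h2 : (Finset.univ.filter (fun i : Fin f => F i L = true ∧ 2 ≤ zr (R i)))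
          = (Finset.univ.filter (fun i : Fin f => i.val < D ∧ 2 ≤ zr (R i))) := by
        apply Finset.filter_congr
        intro i _
        rw [hF.last_col i L hLv]
      rw [h2] at h1
      exact suffix_of_count (fun i => zr (R i)) hzR hF.hdD h1
    obtain ⟨i1, i2, j1, j2, j3, hi1, hi12, hj1, hj12, hj23, w1, w2, w3, w4, w5, w6⟩ := hF.hasW
    have hi2 : d ≤ i2.val := le_trans hi1 (le_of_lt (Fin.lt_def.mp hi12))
    have hj2 : d ≤ j2.val := le_trans hj1 (le_of_lt (Fin.lt_def.mp hj12))
    have hj3 : d ≤ j3.val := le_trans hj2 (le_of_lt (Fin.lt_def.mp hj23))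
    exact hA.noW (R i1) (R i2) (C j1) (C j2) (C j3) (hrowsp i1 hi1) (hrowsp i2 hi2)
      (hcolsp j1 hj1) (hcolsp j2 hj2) (hcolsp j3 hj3) (hRmono hi12) (hCmono hj12) (hCmono hj23)
      ⟨by rw [hval]; exact w1, by rw [hval]; exact w2, by rw [hval]; exact w3,
       by rw [hval]; exact w4, by rw [hval]; exact w5, by rw [hval]; exact w6⟩
  obtain ⟨hr0, hc0⟩ := hno
  -- (4) the classes are the identity
  refine ⟨fun i => ⟨hr0 i, ?_⟩, fun j => ⟨hc0 j, ?_⟩⟩
  · have hsm : StrictMono (fun i : Fin f => cr (R i)) := by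
      intro a b hab
      have h1 : cr (R a) ≤ cr (R b) :=
        hA.cr_mono (R a) (R b) (hr0 a) (hr0 b) (hRmono.monotone (le_of_lt hab))
      have h2 : cr (R a) ≠ cr (R b) := fun h =>
        absurd (hdistR a b (by rw [hr0 a]; omega) (by rw [hr0 b]; omega) h) (ne_of_lt hab)
      exact lt_of_le_of_ne h1 h2
    exact strictMono_fin_eq_val _ hsm (fun i => hA.cr_lt _ (hr0 i)) i
  · have hsm : StrictMono (fun j : Fin f => cc (C j)) := by
      intro a b hab
      have h1 : cc (C a) ≤ cc (C b) :=
        hA.cc_mono (C a) (C b) (hc0 a) (hc0 b) (hCmono.monotone (le_of_lt hab))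
      have h2 : cc (C a) ≠ cc (C b) := fun h =>
        absurd (hdistC a b (by rw [hc0 a]; omega) (by rw [hc0 b]; omega) h) (ne_of_lt hab)
      exact lt_of_le_of_ne h1 h2
    exact strictMono_fin_eq_val _ hsm (fun j => hA.cc_lt _ (hc0 j)) j

end Main

end Crest.Agent.S0066
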