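import Mathlib
import Crest.Agent.S0066_Small
import Crest.Agent.S0066_Transfer
import Crest.Agent.S0066_Pin

/-!
# S0066 — design-independent order toolbox for the index types (helper21, module [Idx])

* `lex2_lt_iff`, `lex3_lt_iff`, `lex4_lt_iff` (and `_le_`): comparison of lexicographic keys in
  `ℕ ×ₗ ℕ`, `ℕ ×ₗ ℕ ×ₗ ℕ`, `ℕ ×ₗ ℕ ×ₗ ℕ ×ₗ ℕ`, unfolded to `<`/`=` on `ℕ` (ready for `omega`);
* `exists_suffix`, `exists_prefix`: along a monotone `r : Fin k → ι`, an upward closed property
  holds exactly on a suffix (a downward closed one exactly on a prefix);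
  `suffix_cases_three`, `prefix_cases_four`: the resulting case lists for `k = 3`, `k = 4`;
* `RectCopy.row_congr`, `RectCopy.col_congr`, `RectCopy.eq_of_twin_rows`,
  `RectCopy.eq_of_twin_cols`: two lines of a copy of `K` which are equal lines of `M` ("twins")
  are the same line of `K` when `K` has pairwise distinct rows / columns;
* `exists_leaf_card_lt`, `exists_leaf_filter_card_lt`: the leaf pigeonhole — pairwise disjoint
  `U x`, `|Δ| < N * N`, `N` leaves ⇒ some leaf has `< N` elements of `Δ` in `U x`;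
* `strictMono_fin_append`, `strictMono_dite_lt`: gluing strictly monotone families;
* `hasCopy_cornerPattern_of_parts`: a copy of `cornerPattern K` from a copy of `K`, `66 - a`
  all-`false` rows before it and `66 - b` all-`false` columns after it.
-/

set_option autoImplicit false

namespace Crest.Agent.S0066

/-! ### Lexicographic keys over `ℕ` -/

section LexKeys

theorem lex2_lt_iff {a b a' b' : ℕ} :
    (toLex (a, b) : ℕ ×ₗ ℕ) < toLex (a', b') ↔ a < a' ∨ (a = a' ∧ b < b') :=
  Prod.Lex.toLex_lt_toLex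

theorem lex2_le_iff {a b a' b' : ℕ} :
    (toLex (a, b) : ℕ ×ₗ ℕ) ≤ toLex (a', b') ↔ a < a' ∨ (a = a' ∧ b ≤ b') :=
  Prod.Lex.toLex_le_toLex

theorem lex3_lt_iff {a b c a' b' c' : ℕ} :
    (toLex (a, toLex (b, c)) : ℕ ×ₗ ℕ ×ₗ ℕ) < toLex (a', toLex (b', c')) ↔
      a < a' ∨ (a = a' ∧ (b < b' ∨ (b = b' ∧ c < c'))) := by
  rw [Prod.Lex.toLex_lt_toLex]
  simp only [lex2_lt_iff]

theorem lex3_le_iff {a b c a' b' c' : ℕ} :
    (toLex (a, toLex (b, c)) : ℕ ×ₗ ℕ ×ₗ ℕ) ≤ toLex (a', toLex (b', c')) ↔
      a < a' ∨ (a = a' ∧ (b < b' ∨ (b = b' ∧ c ≤ c'))) := by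
  rw [Prod.Lex.toLex_le_toLex]
  simp only [lex2_le_iff]

theorem lex4_lt_iff {a b c d a' b' c' d' : ℕ} :
    (toLex (a, toLex (b, toLex (c, d))) : ℕ ×ₗ ℕ ×ₗ ℕ ×ₗ ℕ) <
        toLex (a', toLex (b', toLex (c', d'))) ↔
      a < a' ∨ (a = a' ∧ (b < b' ∨ (b = b' ∧ (c < c' ∨ (c = c' ∧ d < d'))))) := by
  rw [Prod.Lex.toLex_lt_toLex]
  simp only [lex3_lt_iff]

theorem lex4_le_iff {a b c d a' b' c' d' : ℕ} :
    (toLex (a, toLex (b, toLex (c, d))) : ℕ ×ₗ ℕ ×ₗ ℕ ×ₗ ℕ) ≤
        toLex (a', toLex (b', toLex (c', d'))) ↔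
      a < a' ∨ (a = a' ∧ (b < b' ∨ (b = b' ∧ (c < c' ∨ (c = c' ∧ d ≤ d'))))) := by
  rw [Prod.Lex.toLex_le_toLex]
  simp only [lex3_le_iff]

theorem lex2_inj {a b a' b' : ℕ} :
    (toLex (a, b) : ℕ ×ₗ ℕ) = toLex (a', b') ↔ a = a' ∧ b = b' := by
  simp

theorem lex3_inj {a b c a' b' c' : ℕ} :
    (toLex (a, toLex (b, c)) : ℕ ×ₗ ℕ ×ₗ ℕ) = toLex (a', toLex (b', c')) ↔
      a = a' ∧ b = b' ∧ c = c' := by
  simp

theorem lex4_inj {a b c d a' b' c' d' : ℕ} :
    (toLex (a, toLex (b, toLex (c, d))) : ℕ ×ₗ ℕ ×ₗ ℕ ×ₗ ℕ) =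
        toLex (a', toLex (b', toLex (c', d'))) ↔ a = a' ∧ b = b' ∧ c = c' ∧ d = d' := by
  simp

end LexKeys

/-! ### Suffixes and prefixes along monotone maps -/

section Suffix

variable {ι : Type*} [Preorder ι]

/-- Along a monotone `r : Fin k → ι`, an upward closed property holds exactly on a suffix. -/
theorem exists_suffix {k : ℕ} (r : Fin k → ι) (hr : Monotone r) (P : ι → Prop)
    (hP : ∀ a b, a ≤ b → P a → P b) : ∃ s, s ≤ k ∧ ∀ i : Fin k, P (r i) ↔ s ≤ i.val := by
  classical
  have hex : ∃ s, s ≤ k ∧ ∀ i : Fin k, s ≤ i.val → P (r i) :=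
    ⟨k, le_rfl, fun i hi => absurd i.2 (by omega)⟩
  obtain ⟨hs1, hs2⟩ := Nat.find_spec hex
  refine ⟨Nat.find hex, hs1, fun i => ⟨fun hPi => ?_, hs2 i⟩⟩
  by_contra hlt
  rw [not_le] at hlt
  exact Nat.find_min hex hlt ⟨i.2.le, fun j hj => hP _ _ (hr hj) hPi⟩

/-- Along a monotone `c : Fin k → ι`, a downward closed property holds exactly on a prefix. -/
theorem exists_prefix {k : ℕ} (c : Fin k → ι) (hc : Monotone c) (P : ι → Prop)
    (hP : ∀ a b, a ≤ b → P b → P a) : ∃ s, s ≤ k ∧ ∀ i : Fin k, P (c i) ↔ i.val < s := by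
  obtain ⟨s, hs, h⟩ := exists_suffix c hc (fun x => ¬ P x) (fun a b hab hna hb => hna (hP a b hab hb))
  refine ⟨s, hs, fun i => ?_⟩
  have := h i
  constructor
  · intro hPi
    by_contra hlt
    exact (this.mpr (not_lt.mp hlt)) hPi
  · intro hlt
    by_contra hPi
    exact absurd (this.mp hPi) (not_le.mpr hlt)

/-- The four possibilities for an upward closed property on three increasing lines. -/
theorem suffix_cases_three (r : Fin 3 → ι) (hr : Monotone r) (P : ι → Prop)
    (hP : ∀ a b, a ≤ b → P a → P b) :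
    (¬ P (r 0) ∧ ¬ P (r 1) ∧ ¬ P (r 2)) ∨ (¬ P (r 0) ∧ ¬ P (r 1) ∧ P (r 2)) ∨
      (¬ P (r 0) ∧ P (r 1) ∧ P (r 2)) ∨ (P (r 0) ∧ P (r 1) ∧ P (r 2)) := by
  have h01 : P (r 0) → P (r 1) := hP _ _ (hr (by decide))
  have h12 : P (r 1) → P (r 2) := hP _ _ (hr (by decide))
  tauto

/-- The five possibilities for a downward closed property on four increasing lines. -/
theorem prefix_cases_four (c : Fin 4 → ι) (hc : Monotone c) (P : ι → Prop)
    (hP : ∀ a b, a ≤ b → P b → P a) :
    (¬ P (c 0) ∧ ¬ P (c 1) ∧ ¬ P (c 2) ∧ ¬ P (c 3)) ∨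
      (P (c 0) ∧ ¬ P (c 1) ∧ ¬ P (c 2) ∧ ¬ P (c 3)) ∨
      (P (c 0) ∧ P (c 1) ∧ ¬ P (c 2) ∧ ¬ P (c 3)) ∨
      (P (c 0) ∧ P (c 1) ∧ P (c 2) ∧ ¬ P (c 3)) ∨
      (P (c 0) ∧ P (c 1) ∧ P (c 2) ∧ P (c 3)) := by
  have h10 : P (c 1) → P (c 0) := hP _ _ (hc (by decide))
  have h21 : P (c 2) → P (c 1) := hP _ _ (hc (by decide))
  have h32 : P (c 3) → P (c 2) := hP _ _ (hc (by decide))
  tauto

/-- The four possibilities for an upward closed property on four increasing lines. -/
theorem suffix_cases_four (c : Fin 4 → ι) (hc : Monotone c) (P : ι → Prop)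
    (hP : ∀ a b, a ≤ b → P a → P b) :
    (¬ P (c 0) ∧ ¬ P (c 1) ∧ ¬ P (c 2) ∧ ¬ P (c 3)) ∨
      (¬ P (c 0) ∧ ¬ P (c 1) ∧ ¬ P (c 2) ∧ P (c 3)) ∨
      (¬ P (c 0) ∧ ¬ P (c 1) ∧ P (c 2) ∧ P (c 3)) ∨
      (¬ P (c 0) ∧ P (c 1) ∧ P (c 2) ∧ P (c 3)) ∨
      (P (c 0) ∧ P (c 1) ∧ P (c 2) ∧ P (c 3)) := by
  have h01 : P (c 0) → P (c 1) := hP _ _ (hc (by decide))
  have h12 : P (c 1) → P (c 2) := hP _ _ (hc (by decide))
  have h23 : P (c 2) → P (c 3) := hP _ _ (hc (by decide))
  tauto

end Suffix

/-! ### Twins: equal lines of the host -/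

section Twins

variable {R C : Type*} [Preorder R] [Preorder C] {a b : ℕ} {K : Fin a → Fin b → Bool}
  {M : R → C → Bool} {r : Fin a → R} {c : Fin b → C}

/-- Two rows of a copy which agree on the chosen columns are equal rows of the pattern. -/
theorem RectCopy.row_congr (h : RectCopy K M r c) {i i' : Fin a}
    (htw : ∀ j, M (r i) (c j) = M (r i') (c j)) : ∀ j, K i j = K i' j := fun j => by
  rw [← h.2.2 i j, ← h.2.2 i' j, htw]

/-- Two columns of a copy which agree on the chosen rows are equal columns of the pattern. -/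
theorem RectCopy.col_congr (h : RectCopy K M r c) {j j' : Fin b}
    (htw : ∀ i, M (r i) (c j) = M (r i) (c j')) : ∀ i, K i j = K i j' := fun i => by
  rw [← h.2.2 i j, ← h.2.2 i j', htw]

/-- If the pattern has pairwise distinct rows, two twin rows (equal as lines of `M`) of a copy
coincide. -/
theorem RectCopy.eq_of_twin_rows (h : RectCopy K M r c) (hK : Function.Injective K) {i i' : Fin a}
    (htw : ∀ y, M (r i) y = M (r i') y) : i = i' :=
  hK (funext (h.row_congr (fun j => htw (c j))))

/-- If the pattern has pairwise distinct columns, two twin columns of a copy coincide. -/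
theorem RectCopy.eq_of_twin_cols (h : RectCopy K M r c)
    (hK : ∀ j j' : Fin b, (∀ i, K i j = K i j') → j = j') {j j' : Fin b}
    (htw : ∀ x, M x (c j) = M x (c j')) : j = j' :=
  hK j j' (h.col_congr (fun i => htw (r i)))

/-- Entry of a copy. -/
theorem RectCopy.apply (h : RectCopy K M r c) (i : Fin a) (j : Fin b) : M (r i) (c j) = K i j :=
  h.2.2 i j

theorem RectCopy.row_lt (h : RectCopy K M r c) {i i' : Fin a} (hii : i < i') : r i < r i' :=
  h.1 hii

theorem RectCopy.col_lt (h : RectCopy K M r c) {j j' : Fin b} (hjj : j < j') : c j < c j' :=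
  h.2.1 hjj

end Twins

/-! ### The leaf pigeonhole -/

section Pigeonhole

/-- Pairwise disjoint sets `U x` indexed by `N` leaves and fewer than `N * N` marked elements:
some leaf has fewer than `N` marked elements in its set. -/
theorem exists_leaf_card_lt {X α : Type*} [Fintype X] [DecidableEq α] (U : X → Finset α)
    (hU : ∀ x y, x ≠ y → Disjoint (U x) (U y)) (Δ : Finset α) (N : ℕ)
    (hX : Fintype.card X = N) (hΔ : Δ.card < N * N) : ∃ x, (Δ ∩ U x).card < N := by
  classical
  by_contra hcon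
  simp only [not_exists, not_lt] at hcon
  have hdisj : ∀ x ∈ (Finset.univ : Finset X), ∀ y ∈ (Finset.univ : Finset X), x ≠ y →
      Disjoint (Δ ∩ U x) (Δ ∩ U y) := by
    intro x _ y _ hxy
    exact (hU x y hxy).mono Finset.inter_subset_right Finset.inter_subset_right
  have h1 : (Finset.univ.biUnion (fun x => Δ ∩ U x)).card = ∑ x : X, (Δ ∩ U x).card :=
    Finset.card_biUnion hdisj
  have h2 : (Finset.univ.biUnion (fun x => Δ ∩ U x)).card ≤ Δ.card := by
    refine Finset.card_le_card ?_
    intro p hp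
    rw [Finset.mem_biUnion] at hp
    obtain ⟨x, -, hx⟩ := hp
    exact (Finset.mem_inter.mp hx).1
  have h3 : ∑ _x : X, N ≤ ∑ x : X, (Δ ∩ U x).card := Finset.sum_le_sum (fun x _ => hcon x)
  rw [Finset.sum_const, Finset.card_univ, hX, smul_eq_mul] at h3
  omega

/-- The same with the sets given by a labelling `leaf : α → Option X`. -/
theorem exists_leaf_filter_card_lt {X α : Type*} [Fintype X] [DecidableEq X] [DecidableEq α]
    (leaf : α → Option X) (Δ : Finset α) (N : ℕ) (hX : Fintype.card X = N)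
    (hΔ : Δ.card < N * N) : ∃ x, (Δ.filter (fun p => leaf p = some x)).card < N := by
  classical
  by_contra hcon
  simp only [not_exists, not_lt] at hcon
  have hdisj : ∀ x ∈ (Finset.univ : Finset X), ∀ y ∈ (Finset.univ : Finset X), x ≠ y →
      Disjoint (Δ.filter (fun p => leaf p = some x)) (Δ.filter (fun p => leaf p = some y)) := by
    intro x _ y _ hxy
    rw [Finset.disjoint_left]
    intro p hp hq
    rw [Finset.mem_filter] at hp hq
    exact hxy (Option.some_injective _ (hp.2.symm.trans hq.2))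
  have h1 : (Finset.univ.biUnion (fun x => Δ.filter (fun p => leaf p = some x))).card =
      ∑ x : X, (Δ.filter (fun p => leaf p = some x)).card := Finset.card_biUnion hdisj
  have h2 : (Finset.univ.biUnion (fun x => Δ.filter (fun p => leaf p = some x))).card ≤ Δ.card := by
    refine Finset.card_le_card ?_
    intro p hp
    rw [Finset.mem_biUnion] at hp
    obtain ⟨x, -, hx⟩ := hp
    exact (Finset.mem_filter.mp hx).1
  have h3 : ∑ _x : X, N ≤ ∑ x : X, (Δ.filter (fun p => leaf p = some x)).card :=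
    Finset.sum_le_sum (fun x _ => hcon x)
  rw [Finset.sum_const, Finset.card_univ, hX, smul_eq_mul] at h3
  omega

end Pigeonhole

/-! ### Gluing strictly monotone families -/

section Glue

variable {ι : Type*} [Preorder ι]

theorem strictMono_fin_append {m n : ℕ} (u : Fin m → ι) (v : Fin n → ι) (hu : StrictMono u)
    (hv : StrictMono v) (huv : ∀ i j, u i < v j) : StrictMono (Fin.append u v) := by
  intro x y hxy
  induction x using Fin.addCases with
  | left i =>
    induction y using Fin.addCases with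
    | left j =>
      rw [Fin.append_left, Fin.append_left]
      have h1 : (Fin.castAdd n i).val < (Fin.castAdd n j).val := hxy
      exact hu h1
    | right j =>
      rw [Fin.append_left, Fin.append_right]
      exact huv i j
  | right i =>
    induction y using Fin.addCases with
    | left j =>
      exfalso
      have h1 : (Fin.natAdd m i).val < (Fin.castAdd n j).val := hxy
      have h2 : (Fin.natAdd m i).val = m + i.val := rfl
      have h3 : (Fin.castAdd n j).val = j.val := rfl
      have := j.2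
      omega
    | right j =>
      rw [Fin.append_right, Fin.append_right]
      have h1 : (Fin.natAdd m i).val < (Fin.natAdd m j).val := hxy
      have h2 : (Fin.natAdd m i).val = m + i.val := rfl
      have h3 : (Fin.natAdd m j).val = m + j.val := rfl
      apply hv
      show i.val < j.val
      omega

/-- A family on `Fin k` defined by cases `i < s` / `s ≤ i` from two strictly monotone families
is strictly monotone. -/
theorem strictMono_dite_lt {k s : ℕ} (u : Fin s → ι) (v : Fin (k - s) → ι) (hu : StrictMono u)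
    (hv : StrictMono v) (huv : ∀ i j, u i < v j) :
    StrictMono (fun i : Fin k => if h : i.val < s then u ⟨i.val, h⟩
      else v ⟨i.val - s, by have := i.2; omega⟩) := by
  intro x y hxy
  have hxy' : x.val < y.val := hxy
  by_cases hx : x.val < s
  · by_cases hy : y.val < s
    · simp only [dif_pos hx, dif_pos hy]
      exact hu hxy'
    · simp only [dif_pos hx, dif_neg hy]
      exact huv _ _
  · have hy : ¬ y.val < s := by omega
    simp only [dif_neg hx, dif_neg hy]
    apply hv
    show x.val - s < y.val - s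
    omega

end Glue

/-! ### A copy of `cornerPattern K` from its parts -/

section Parts

variable {ι κ : Type} [LinearOrder ι] [LinearOrder κ]

/-- **Near-copy assembly.** A copy `(rK, cK)` of the core `K` in `B`, together with `66 - a`
increasing rows `z` before it and `66 - b` increasing columns `w` after it such that `B` is
`false` on `z × cK`, `z × w` and `rK × w`, is a copy of `cornerPattern K` in `B`. -/
theorem hasCopy_cornerPattern_of_parts [Fintype ι] [Fintype κ] {a b : ℕ} (ha : a ≤ 66)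
    (hb : b ≤ 66) (K : Fin a → Fin b → Bool) (B : ι → κ → Bool)
    (z : Fin (66 - a) → ι) (rK : Fin a → ι) (cK : Fin b → κ) (w : Fin (66 - b) → κ)
    (hz : StrictMono z) (hrK : StrictMono rK) (hcK : StrictMono cK) (hw : StrictMono w)
    (hzr : ∀ i j, z i < rK j) (hcw : ∀ i j, cK i < w j)
    (hK : ∀ i j, B (rK i) (cK j) = K i j)
    (hzc : ∀ i j, B (z i) (cK j) = false) (hzw : ∀ i j, B (z i) (w j) = false)
    (hrw : ∀ i j, B (rK i) (w j) = false) : HasCopy (cornerPattern K) B := by
  have hr : StrictMono (fun i : Fin 66 => if h : i.val < 66 - a then z ⟨i.val, h⟩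
      else rK ⟨i.val - (66 - a), by have := i.2; omega⟩) := by
    have := strictMono_dite_lt (k := 66) (s := 66 - a) z
      (fun j : Fin (66 - (66 - a)) => rK ⟨j.val, by have := j.2; omega⟩) hz
      (fun x y hxy => hrK hxy) (fun i j => hzr _ _)
    exact this
  have hc : StrictMono (fun j : Fin 66 => if h : j.val < b then cK ⟨j.val, h⟩
      else w ⟨j.val - b, by have := j.2; omega⟩) :=
    strictMono_dite_lt (k := 66) (s := b) cK w hcK hw hcw
  refine hasCopy_cornerPattern ha hb K B _ _ hr hc ?_ ?_ ?_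
  · intro i j
    have h1 : ¬ (cornerRow ha i).val < 66 - a := by simp only [cornerRow]; omega
    have h2 : (cornerCol hb j).val < b := j.2
    simp only [dif_neg h1, dif_pos h2]
    have e1 : (⟨(cornerRow ha i).val - (66 - a), by simp only [cornerRow]; omega⟩ : Fin a) = i := by
      apply Fin.ext
      simp only [cornerRow]
      omega
    have e2 : (⟨(cornerCol hb j).val, h2⟩ : Fin b) = j := rfl
    rw [e1, e2]
    exact hK i j
  · intro i j hi
    simp only [dif_pos hi]
    by_cases hj : j.val < b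
    · simp only [dif_pos hj]
      exact hzc _ _
    · simp only [dif_neg hj]
      exact hzw _ _
  · intro i j hj
    have hj' : ¬ j.val < b := by omega
    simp only [dif_neg hj']
    by_cases hi : i.val < 66 - a
    · simp only [dif_pos hi]
      exact hzw _ _
    · simp only [dif_neg hi]
      exact hrw _ _

end Parts

end Crest.Agent.S0066
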