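import Mathlib
import Crest.Prelude.Def_DaugavetL1
import Crest.Agent.R125_AUC

/-!
Row 125, statement S0167 (helper8): the "flat" lemma for spaces with the Daugavet property.

If `X` has the (rank-one) Daugavet property, then for every unit `x`, every closed
finite-codimensional subspace `F` and every `η > 0` there is a unit `y ∈ F` with
`‖x + 2 y‖ ≤ 1 + η`.

Proof: the first slice lemma of Kadets–Shvidkoy–Sirotkin–Werner (`slice_unit`,
`slice_additive`), its one-vector `ℓ¹`-orthogonality consequence (`l1_step`), and a greedy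
averaging argument in the finite-dimensional coordinates of `X / F` (`greedy`).
-/

set_option autoImplicit false

namespace Crest.Agent.S0167

open Crest.AnalysisR Crest.AnalysisR.L1Subspace Crest.Agent.R125

section

variable {X : Type*} [NormedAddCommGroup X] [NormedSpace ℝ X]

/-- Slice lemma for a norm-one functional. -/
theorem slice_unit (hD : HasDaugavetProperty X) (y₀ : X) (hy₀ : ‖y₀‖ = 1) (φ : X →L[ℝ] ℝ)
    (hφ : ‖φ‖ = 1) {ε : ℝ} (hε : 0 < ε) :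
    ∃ v : X, ‖v‖ = 1 ∧ 1 - ε < φ v ∧ 2 - 2 * ε < ‖v + y₀‖ := by
  have hT : ‖φ.smulRight y₀‖ = 1 := by
    rw [ContinuousLinearMap.norm_smulRight_apply, hφ, hy₀, one_mul]
  have hDP := hD φ y₀
  rw [hT] at hDP
  have hex : ∃ u : X, (2 - ε) * ‖u‖ < ‖u + φ u • y₀‖ := by
    by_contra hcon
    push Not at hcon
    by_cases hε2 : ε ≤ 2
    · have h1 := ContinuousLinearMap.opNorm_le_bound
        (ContinuousLinearMap.id ℝ X + φ.smulRight y₀) (by linarith : (0 : ℝ) ≤ 2 - ε)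
        (fun u => by simpa using hcon u)
      linarith
    · have h1 := hcon y₀
      rw [hy₀] at h1
      linarith [norm_nonneg (y₀ + φ y₀ • y₀)]
  obtain ⟨u, hu⟩ := hex
  have hu0 : u ≠ 0 := by
    rintro rfl
    simp at hu
  have hun : 0 < ‖u‖ := norm_pos_iff.2 hu0
  -- normalise and choose the sign
  obtain ⟨a, ha, haφ⟩ : ∃ a : ℝ, |a| = ‖u‖⁻¹ ∧ 0 ≤ a * φ u := by
    by_cases h : 0 ≤ φ u
    · exact ⟨‖u‖⁻¹, abs_of_pos (inv_pos.2 hun), mul_nonneg (inv_pos.2 hun).le h⟩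
    · refine ⟨-‖u‖⁻¹, by rw [abs_neg, abs_of_pos (inv_pos.2 hun)], ?_⟩
      have h' : φ u ≤ 0 := le_of_lt (not_le.1 h)
      have : 0 ≤ ‖u‖⁻¹ * (-φ u) := mul_nonneg (inv_pos.2 hun).le (by linarith)
      linarith
  set v := a • u with hv
  have hv1 : ‖v‖ = 1 := by
    rw [hv, norm_smul, Real.norm_eq_abs, ha, inv_mul_cancel₀ hun.ne']
  have hφv : φ v = a * φ u := by rw [hv, map_smul, smul_eq_mul]
  have hφv0 : 0 ≤ φ v := by rw [hφv]; exact haφ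
  have hbig : 2 - ε < ‖v + φ v • y₀‖ := by
    have e : v + φ v • y₀ = a • (u + φ u • y₀) := by
      rw [hφv, hv, smul_add, smul_smul]
    rw [e, norm_smul, Real.norm_eq_abs, ha]
    rw [← div_eq_inv_mul, lt_div_iff₀ hun]
    exact hu
  have h1 : ‖v + φ v • y₀‖ ≤ 1 + φ v := by
    calc ‖v + φ v • y₀‖ ≤ ‖v‖ + ‖φ v • y₀‖ := norm_add_le _ _
      _ = 1 + φ v := by
          rw [hv1]
          congr 1
          rw [norm_smul, Real.norm_of_nonneg hφv0, hy₀, mul_one]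
  have h2 : φ v ≤ 1 := by
    have := φ.le_opNorm v
    rw [hφ, hv1, one_mul] at this
    exact (le_abs_self _).trans this
  have h3 : ‖v + φ v • y₀‖ ≤ ‖v + y₀‖ + (1 - φ v) := by
    have e : v + φ v • y₀ = (v + y₀) - (1 - φ v) • y₀ := by
      rw [sub_smul, one_smul]; abel
    calc ‖v + φ v • y₀‖ = ‖(v + y₀) - (1 - φ v) • y₀‖ := by rw [← e]
      _ ≤ ‖v + y₀‖ + ‖(1 - φ v) • y₀‖ := norm_sub_le _ _
      _ = ‖v + y₀‖ + (1 - φ v) := by
          rw [norm_smul, Real.norm_of_nonneg (by linarith : (0 : ℝ) ≤ 1 - φ v), hy₀, mul_one]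
  exact ⟨v, hv1, by linarith, by linarith⟩

/-- Slice lemma, additive form, for an arbitrary functional. -/
theorem slice_additive (hD : HasDaugavetProperty X) (y₀ : X) (hy₀ : ‖y₀‖ = 1) (φ : X →L[ℝ] ℝ)
    {ε : ℝ} (hε : 0 < ε) :
    ∃ v : X, ‖v‖ = 1 ∧ ‖φ‖ - ε ≤ φ v ∧ 2 - ε ≤ ‖v + y₀‖ := by
  by_cases hφ : φ = 0
  · refine ⟨y₀, hy₀, ?_, ?_⟩
    · have h0 : (0 : X →L[ℝ] ℝ) y₀ = 0 := rfl
      rw [hφ, norm_zero, h0]
      linarith
    · have : ‖y₀ + y₀‖ = 2 := by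
        rw [← two_smul ℝ y₀, norm_smul, hy₀]; norm_num
      linarith
  · have hφn : 0 < ‖φ‖ := norm_pos_iff.2 hφ
    have hφ₁ : ‖‖φ‖⁻¹ • φ‖ = 1 := by
      rw [norm_smul, norm_inv, norm_norm, inv_mul_cancel₀ hφn.ne']
    have hε' : 0 < min (ε / 2) (ε / ‖φ‖) := lt_min (by positivity) (by positivity)
    obtain ⟨v, hv1, hv2, hv3⟩ := slice_unit hD y₀ hy₀ (‖φ‖⁻¹ • φ) hφ₁ hε'
    refine ⟨v, hv1, ?_, ?_⟩
    · have e : (‖φ‖⁻¹ • φ) v = ‖φ‖⁻¹ * φ v := rfl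
      have h1 : min (ε / 2) (ε / ‖φ‖) * ‖φ‖ ≤ ε := by
        calc min (ε / 2) (ε / ‖φ‖) * ‖φ‖ ≤ (ε / ‖φ‖) * ‖φ‖ :=
              mul_le_mul_of_nonneg_right (min_le_right _ _) hφn.le
          _ = ε := by field_simp
      have h2 : (1 - min (ε / 2) (ε / ‖φ‖)) * ‖φ‖ < φ v := by
        have h3 := mul_lt_mul_of_pos_right hv2 hφn
        rw [e] at h3
        have e2 : ‖φ‖⁻¹ * φ v * ‖φ‖ = φ v := by field_simp
        rw [e2] at h3
        exact h3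
      nlinarith
    · have : 2 * min (ε / 2) (ε / ‖φ‖) ≤ ε := by linarith [min_le_left (ε / 2) (ε / ‖φ‖)]
      linarith

/-- One step of `ℓ¹`-orthogonality against a single vector. -/
theorem l1_step (hD : HasDaugavetProperty X) (z : X) (hz : z ≠ 0) (φ : X →L[ℝ] ℝ) {ε : ℝ}
    (hε : 0 < ε) :
    ∃ v : X, ‖v‖ = 1 ∧ ‖φ‖ - ε ≤ φ v ∧ ‖z‖ + 1 - ε * max ‖z‖ 1 ≤ ‖z + v‖ := by
  have hzn : 0 < ‖z‖ := norm_pos_iff.2 hz
  have hy₀ : ‖‖z‖⁻¹ • z‖ = 1 := by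
    rw [norm_smul, norm_inv, norm_norm, inv_mul_cancel₀ hzn.ne']
  obtain ⟨v, hv1, hv2, hv3⟩ := slice_additive hD (‖z‖⁻¹ • z) hy₀ φ hε
  refine ⟨v, hv1, hv2, ?_⟩
  set y₀ := ‖z‖⁻¹ • z with hy₀def
  have hzy : z = ‖z‖ • y₀ := by
    rw [hy₀def, smul_smul, mul_inv_cancel₀ hzn.ne', one_smul]
  rcases le_or_gt 1 ‖z‖ with h | h
  · have e : ‖z‖ • (v + y₀) = (z + v) + (‖z‖ - 1) • v := by
      rw [smul_add, sub_smul, one_smul, ← hzy]; abel
    have h1 : ‖z‖ * ‖v + y₀‖ ≤ ‖z + v‖ + (‖z‖ - 1) := by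
      calc ‖z‖ * ‖v + y₀‖ = ‖‖z‖ • (v + y₀)‖ := by rw [norm_smul, norm_norm]
        _ = ‖(z + v) + (‖z‖ - 1) • v‖ := by rw [e]
        _ ≤ ‖z + v‖ + ‖(‖z‖ - 1) • v‖ := norm_add_le _ _
        _ = ‖z + v‖ + (‖z‖ - 1) := by
            rw [norm_smul, Real.norm_of_nonneg (by linarith : (0 : ℝ) ≤ ‖z‖ - 1), hv1, mul_one]
    have h2 : ‖z‖ * (2 - ε) ≤ ‖z‖ * ‖v + y₀‖ := mul_le_mul_of_nonneg_left hv3 hzn.le
    rw [max_eq_left h]
    nlinarith
  · have e : v + y₀ = (z + v) + (1 - ‖z‖) • y₀ := by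
      rw [sub_smul, one_smul, ← hzy]; abel
    have h1 : ‖v + y₀‖ ≤ ‖z + v‖ + (1 - ‖z‖) := by
      calc ‖v + y₀‖ = ‖(z + v) + (1 - ‖z‖) • y₀‖ := by rw [← e]
        _ ≤ ‖z + v‖ + ‖(1 - ‖z‖) • y₀‖ := norm_add_le _ _
        _ = ‖z + v‖ + (1 - ‖z‖) := by
            rw [norm_smul, Real.norm_of_nonneg (by linarith : (0 : ℝ) ≤ 1 - ‖z‖), hy₀, mul_one]
    rw [max_eq_right h.le]
    linarith

/-- Greedy averaging: sums `s` of `k` unit vectors that stay `ℓ¹`-far from `n x` while their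
coordinates `ψ l (s - k x)` grow only like `sqrt k`. -/
theorem greedy (hD : HasDaugavetProperty X) (x : X) (hx : ‖x‖ = 1) {m : ℕ}
    (ψ : Fin m → (X →L[ℝ] ℝ)) (n : ℕ) (hn : 1 ≤ n) {ε : ℝ} (hε : 0 < ε)
    (hεn : 2 * (n : ℝ) * ε ≤ 1) :
    ∀ k : ℕ, k ≤ n → ∃ s : X, ‖s‖ ≤ k ∧
      (n : ℝ) + k - k * (2 * n * ε) ≤ ‖s - (n : ℝ) • x‖ ∧
      ∑ l, (ψ l (s - (k : ℝ) • x)) ^ 2 ≤ k * (2 * ε + ∑ l, (2 * ‖ψ l‖) ^ 2) := by
  have hn1 : (1 : ℝ) ≤ n := by exact_mod_cast hn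
  intro k
  induction k with
  | zero =>
    intro _
    refine ⟨0, by simp, ?_, ?_⟩
    · rw [zero_sub, norm_neg, norm_smul, hx, Real.norm_of_nonneg (by linarith)]
      simp
    · simp
  | succ k ih =>
    intro hk
    obtain ⟨s, hs1, hs2, hs3⟩ := ih (Nat.le_of_succ_le hk)
    have hkn : (k : ℝ) + 1 ≤ n := by exact_mod_cast hk
    have hk0 : (0 : ℝ) ≤ k := Nat.cast_nonneg k
    set z := s - (n : ℝ) • x with hz
    have hzlow : (n : ℝ) ≤ ‖z‖ := by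
      have : (k : ℝ) * (2 * n * ε) ≤ k * 1 := mul_le_mul_of_nonneg_left hεn hk0
      linarith
    have hzne : z ≠ 0 := by
      intro h0
      rw [h0, norm_zero] at hzlow
      linarith
    have hzup : ‖z‖ ≤ 2 * n := by
      calc ‖z‖ ≤ ‖s‖ + ‖(n : ℝ) • x‖ := norm_sub_le _ _
        _ = ‖s‖ + n := by rw [norm_smul, hx, Real.norm_of_nonneg (by linarith), mul_one]
        _ ≤ 2 * n := by linarith
    obtain ⟨v, hv1, hv2, hv3⟩ :=
      l1_step hD z hzne (-∑ l, (ψ l (s - (k : ℝ) • x)) • ψ l) hε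
    set φ : X →L[ℝ] ℝ := -∑ l, (ψ l (s - (k : ℝ) • x)) • ψ l with hφ
    have hφapp : ∀ u : X, φ u = -∑ l, ψ l (s - (k : ℝ) • x) * ψ l u := by
      intro u
      simp [hφ]
    refine ⟨s + v, ?_, ?_, ?_⟩
    · calc ‖s + v‖ ≤ ‖s‖ + ‖v‖ := norm_add_le _ _
        _ ≤ (k : ℝ) + 1 := by linarith
        _ = ((k + 1 : ℕ) : ℝ) := by push_cast; ring
    · have e : s + v - (n : ℝ) • x = z + v := by rw [hz]; abel
      rw [e]
      have hmax : max ‖z‖ 1 ≤ 2 * n := max_le hzup (by linarith)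
      have h1 : ε * max ‖z‖ 1 ≤ ε * (2 * n) := mul_le_mul_of_nonneg_left hmax hε.le
      push_cast
      nlinarith
    · have hsplit : ∀ l, ψ l (s + v - ((k + 1 : ℕ) : ℝ) • x)
          = ψ l (s - (k : ℝ) • x) + ψ l (v - x) := by
        intro l
        rw [← map_add]
        congr 1
        push_cast
        rw [add_smul, one_smul]
        abel
      have hcross : ∑ l, ψ l (s - (k : ℝ) • x) * ψ l (v - x) ≤ ε := by
        have h1 : ∑ l, ψ l (s - (k : ℝ) • x) * ψ l (v - x) = φ x - φ v := by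
          rw [hφapp, hφapp]
          simp only [map_sub, mul_sub, Finset.sum_sub_distrib]
          ring
        have h2 : φ x ≤ ‖φ‖ := by
          have := φ.le_opNorm x
          rw [hx, mul_one] at this
          exact (le_abs_self _).trans this
        rw [h1]
        linarith
      have hsq : ∑ l, (ψ l (v - x)) ^ 2 ≤ ∑ l, (2 * ‖ψ l‖) ^ 2 := by
        refine Finset.sum_le_sum fun l _ => ?_
        have hvx : ‖v - x‖ ≤ 2 := by
          calc ‖v - x‖ ≤ ‖v‖ + ‖x‖ := norm_sub_le _ _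
            _ = 2 := by rw [hv1, hx]; norm_num
        have h1 : |ψ l (v - x)| ≤ 2 * ‖ψ l‖ := by
          calc |ψ l (v - x)| ≤ ‖ψ l‖ * ‖v - x‖ := (ψ l).le_opNorm _
            _ ≤ ‖ψ l‖ * 2 := mul_le_mul_of_nonneg_left hvx (norm_nonneg _)
            _ = 2 * ‖ψ l‖ := by ring
        calc (ψ l (v - x)) ^ 2 = |ψ l (v - x)| ^ 2 := (sq_abs _).symm
          _ ≤ (2 * ‖ψ l‖) ^ 2 := pow_le_pow_left₀ (abs_nonneg _) h1 2
      have hexp : ∑ l, (ψ l (s + v - ((k + 1 : ℕ) : ℝ) • x)) ^ 2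
          = ∑ l, (ψ l (s - (k : ℝ) • x)) ^ 2
            + 2 * ∑ l, ψ l (s - (k : ℝ) • x) * ψ l (v - x) + ∑ l, (ψ l (v - x)) ^ 2 := by
        rw [Finset.mul_sum, ← Finset.sum_add_distrib, ← Finset.sum_add_distrib]
        refine Finset.sum_congr rfl fun l _ => ?_
        rw [hsplit l]
        ring
      rw [hexp]
      push_cast
      nlinarith

/-- **Flat lemma.** In a space with the Daugavet property every closed finite-codimensional
subspace contains a unit vector `y` with `‖x + 2 y‖ ≤ 1 + η`. -/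
theorem flat_of_daugavet (hD : HasDaugavetProperty X) (x : X) (hx : ‖x‖ = 1) (F : Set X)
    (hF : IsCofSet F) (η : ℝ) (hη : 0 < η) :
    ∃ y ∈ F, ‖y‖ = 1 ∧ ‖x + (2 : ℝ) • y‖ ≤ 1 + η := by
  obtain ⟨m, ψ, w, hψw⟩ := hF.exists_functionals
  set η' := min η 1 with hη'
  have hη'0 : 0 < η' := lt_min hη one_pos
  have hη'1 : η' ≤ 1 := min_le_right _ _
  have hη'η : η' ≤ η := min_le_left _ _
  set W := ∑ l, ‖w l‖ with hW
  have hW0 : 0 ≤ W := Finset.sum_nonneg fun l _ => norm_nonneg _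
  set M2 := ∑ l, (2 * ‖ψ l‖) ^ 2 with hM2
  have hM20 : 0 ≤ M2 := Finset.sum_nonneg fun l _ => sq_nonneg _
  set β := η' / (4 * (W + 1)) with hβ
  have hβ0 : 0 < β := by positivity
  obtain ⟨n₀, hn₀⟩ := exists_nat_ge ((2 + M2) / β ^ 2)
  set n := max n₀ 1 with hn
  have hn1 : 1 ≤ n := le_max_right _ _
  have hn1' : (1 : ℝ) ≤ n := by exact_mod_cast hn1
  have hnpos : (0 : ℝ) < n := by linarith
  have hnbig : (2 + M2) / β ^ 2 ≤ n := hn₀.trans (by exact_mod_cast le_max_left n₀ 1)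
  set ε := η' / (4 * n) with hεdef
  have hε : 0 < ε := by positivity
  have hεn : 2 * (n : ℝ) * ε = η' / 2 := by rw [hεdef]; field_simp; ring
  have hε1 : ε ≤ 1 := by
    rw [hεdef, div_le_one (by positivity)]
    linarith
  obtain ⟨s, hs1, hs2, hs3⟩ := greedy hD x hx ψ n hn1 hε (by rw [hεn]; linarith) n le_rfl
  -- the average
  set u := (n : ℝ)⁻¹ • s with hu
  have hu1 : ‖u‖ ≤ 1 := by
    rw [hu, norm_smul, norm_inv, Real.norm_of_nonneg hnpos.le, inv_mul_le_iff₀ hnpos, mul_one]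
    exact hs1
  have hux : u - x = (n : ℝ)⁻¹ • (s - (n : ℝ) • x) := by
    rw [smul_sub, smul_smul, inv_mul_cancel₀ hnpos.ne', one_smul]
  have hux2 : 2 - η' / 2 ≤ ‖u - x‖ := by
    rw [hux, norm_smul, norm_inv, Real.norm_of_nonneg hnpos.le, le_inv_mul_iff₀ hnpos]
    have : (n : ℝ) * (2 * n * ε) = n * (η' / 2) := by rw [hεn]
    nlinarith
  have hux3 : ‖u - x‖ ≤ 2 := by
    calc ‖u - x‖ ≤ ‖u‖ + ‖x‖ := norm_sub_le _ _
      _ ≤ 2 := by rw [hx]; linarith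
  have hcoord : ∀ l, |ψ l (u - x)| ≤ β := by
    intro l
    apply abs_le_of_sq_le_sq _ hβ0.le
    have h1 : (ψ l (s - (n : ℝ) • x)) ^ 2 ≤ n * (2 * ε + M2) :=
      (Finset.single_le_sum (fun i _ => sq_nonneg (ψ i (s - (n : ℝ) • x)))
        (Finset.mem_univ l)).trans hs3
    have h2 : (ψ l (u - x)) ^ 2 = (ψ l (s - (n : ℝ) • x)) ^ 2 / n ^ 2 := by
      rw [hux, map_smul, smul_eq_mul, mul_pow, inv_pow]
      field_simp
    rw [h2, div_le_iff₀ (by positivity)]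
    have h3 : (2 + M2) ≤ n * β ^ 2 := by
      rw [div_le_iff₀ (by positivity)] at hnbig
      exact hnbig
    have h4 : (n : ℝ) * (2 * ε + M2) ≤ n * (2 + M2) :=
      mul_le_mul_of_nonneg_left (by linarith) hnpos.le
    nlinarith
  set w' := ∑ l, ψ l (u - x) • w l with hw'
  have hw'n : ‖w'‖ ≤ η' / 4 := by
    calc ‖w'‖ ≤ ∑ l, ‖ψ l (u - x) • w l‖ := norm_sum_le _ _
      _ ≤ ∑ l, β * ‖w l‖ := by
          refine Finset.sum_le_sum fun l _ => ?_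
          rw [norm_smul, Real.norm_eq_abs]
          exact mul_le_mul_of_nonneg_right (hcoord l) (norm_nonneg _)
      _ = β * W := by rw [← Finset.mul_sum]
      _ ≤ η' / 4 := by
          rw [hβ, div_mul_eq_mul_div, div_le_iff₀ (by positivity)]
          nlinarith
  have hmem : u - x - w' ∈ F := hψw (u - x)
  set y' := (1 / 2 : ℝ) • (u - x - w') with hy'
  have hy'F : y' ∈ F := hF.smul_mem _ hmem
  have hy'n : ‖y'‖ = ‖u - x - w'‖ / 2 := by
    rw [hy', norm_smul, Real.norm_of_nonneg (by norm_num)]; ring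
  have hlow : 2 - 3 * η' / 4 ≤ ‖u - x - w'‖ := by
    have : ‖u - x‖ ≤ ‖u - x - w'‖ + ‖w'‖ := by
      have e : u - x = (u - x - w') + w' := by abel
      calc ‖u - x‖ = ‖(u - x - w') + w'‖ := by rw [← e]
        _ ≤ _ := norm_add_le _ _
    linarith
  have hup : ‖u - x - w'‖ ≤ 2 + η' / 4 := by
    calc ‖u - x - w'‖ ≤ ‖u - x‖ + ‖w'‖ := norm_sub_le _ _
      _ ≤ 2 + η' / 4 := by linarith
  have hy'pos : 0 < ‖y'‖ := by rw [hy'n]; linarith
  have hy'1 : |1 - ‖y'‖| ≤ 3 * η' / 8 := by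
    rw [hy'n, abs_le]
    constructor <;> linarith
  set y := ‖y'‖⁻¹ • y' with hy
  have hyF : y ∈ F := hF.smul_mem _ hy'F
  have hy1 : ‖y‖ = 1 := by
    rw [hy, norm_smul, norm_inv, norm_norm, inv_mul_cancel₀ hy'pos.ne']
  have hyy' : ‖y - y'‖ = |1 - ‖y'‖| := by
    have e : y - y' = (‖y'‖⁻¹ - 1) • y' := by rw [hy, sub_smul, one_smul]
    rw [e, norm_smul, Real.norm_eq_abs]
    have : |‖y'‖⁻¹ - 1| * ‖y'‖ = |(‖y'‖⁻¹ - 1) * ‖y'‖| := by
      rw [abs_mul, abs_of_pos hy'pos]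
    rw [this]
    congr 1
    field_simp
  refine ⟨y, hyF, hy1, ?_⟩
  have h2y' : (2 : ℝ) • y' = u - x - w' := by
    rw [hy', smul_smul]
    norm_num
  have e : x + (2 : ℝ) • y = (u - w') + (2 : ℝ) • (y - y') := by
    rw [smul_sub, h2y']
    abel
  calc ‖x + (2 : ℝ) • y‖ = ‖(u - w') + (2 : ℝ) • (y - y')‖ := by rw [e]
    _ ≤ ‖u - w'‖ + ‖(2 : ℝ) • (y - y')‖ := norm_add_le _ _
    _ ≤ (‖u‖ + ‖w'‖) + 2 * ‖y - y'‖ := by
        rw [norm_smul, Real.norm_of_nonneg (by norm_num : (0 : ℝ) ≤ 2)]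
        linarith [norm_sub_le u w']
    _ ≤ 1 + η := by rw [hyy']; linarith

end

end Crest.Agent.S0167
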