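import Mathlib
import Crest.Prelude.Def_DaugavetL1

/-!
Row 125, statement S0167, the parts that do not use the Daugavet property (helper8):

* `oneSidedGE` : Hahn–Banach lower bound `max 0 (t - 2)` for the one-sided quantity (any space);
* `le_parts_of_KL` : both upper bounds from the key lemma "every closed finite-codimensional
  subspace contains a unit `y` with `‖x + 2 y‖ ≤ 1 + η`" (any space);
* `midpointGE` : the lower bound `max (t/2) (t-1)` for the averaged quantity in a subspace of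
  `L¹` whose unit ball is totally bounded in measure.
-/

set_option autoImplicit false

namespace Crest.Agent.S0167

open Crest.AnalysisR MeasureTheory

/-! ### Closed finite-codimensional subspaces as joint kernels -/

/-- The joint kernel of finitely many continuous functionals is closed of finite codimension. -/
theorem cof_joint_kernel {V : Type*} [NormedAddCommGroup V] [NormedSpace ℝ V] {ι : Type*}
    [Finite ι] (φ : ι → V →L[ℝ] ℝ) :
    ∃ S : Submodule ℝ V, (S : Set V) = {y | ∀ i, φ i y = 0} ∧ IsClosed (S : Set V) ∧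
      FiniteDimensional ℝ (V ⧸ S) := by
  classical
  let Φ : V →ₗ[ℝ] (ι → ℝ) := LinearMap.pi fun i => (φ i : V →ₗ[ℝ] ℝ)
  have hS : (LinearMap.ker Φ : Set V) = {y | ∀ i, φ i y = 0} := by
    ext y
    simp only [SetLike.mem_coe, LinearMap.mem_ker, Set.mem_ofPred_eq]
    constructor
    · intro h i
      have := congrFun h i
      simpa [Φ] using this
    · intro h
      funext i
      simpa [Φ] using h i
  refine ⟨LinearMap.ker Φ, hS, ?_, ?_⟩
  · rw [hS]
    have : {y : V | ∀ i, φ i y = 0} = ⋂ i, {y : V | φ i y = 0} := by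
      ext y; simp
    rw [this]
    exact isClosed_iInter fun i => isClosed_eq (φ i).continuous continuous_const
  · have : Fintype ι := Fintype.ofFinite ι
    exact LinearEquiv.finiteDimensional Φ.quotKerEquivRange.symm

/-! ### Generic parts -/

/-- Hahn–Banach lower bound for the one-sided quantity. -/
theorem oneSidedGE (B : RealBanach) (t : ℝ) (ht : 0 < t) :
    B.OneSidedModulusGE B.norm t (max 0 (t - 2)) := by
  let _ := B.normed
  let _ := B.space
  intro x hx η hη
  have hx1 : ‖x‖ = 1 := hx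
  have hx0 : ‖x‖ ≠ 0 := by
    rw [hx1]
    exact one_ne_zero
  obtain ⟨g, hg1, hgx⟩ := exists_dual_vector ℝ x hx0
  obtain ⟨S, hS, hScl, hSfd⟩ := cof_joint_kernel (fun _ : Unit => g)
  refine ⟨S, ⟨S, rfl, hScl, hSfd⟩, ?_⟩
  intro y hy hy1
  have hy1' : ‖y‖ = 1 := hy1
  have hgy : g y = 0 := by
    have : y ∈ {y | ∀ _ : Unit, g y = 0} := by rw [← hS]; exact hy
    exact this ()
  show max 0 (t - 2) - η ≤ ‖x + t • y‖ - 1
  have h1 : (1 : ℝ) ≤ ‖x + t • y‖ := by
    have h2 : g (x + t • y) = 1 := by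
      rw [map_add, map_smul, hgy, smul_zero, add_zero, hgx, hx1]
      simp
    have h3 := g.le_opNorm (x + t • y)
    rw [hg1, one_mul, h2, norm_one] at h3
    exact h3
  have h2 : t - 1 ≤ ‖x + t • y‖ := by
    have h3 : ‖t • y‖ ≤ ‖x + t • y‖ + ‖x‖ := by
      have e : t • y = (x + t • y) - x := by abel
      calc ‖t • y‖ = ‖(x + t • y) - x‖ := by rw [← e]
        _ ≤ _ := norm_sub_le _ _
    rw [norm_smul, Real.norm_of_nonneg ht.le, hy1', hx1] at h3
    linarith
  rcases max_cases (0 : ℝ) (t - 2) with ⟨h, -⟩ | ⟨h, -⟩ <;> rw [h] <;> linarith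

/-- Both upper bounds follow from the key lemma. -/
theorem le_parts_of_KL (B : RealBanach)
    (hKL : letI := B.normed; letI := B.space
      ∀ x : B.X, ‖x‖ = 1 → ∀ F : Set B.X, B.IsCof F → ∀ η : ℝ, 0 < η →
        ∃ y ∈ F, ‖y‖ = 1 ∧ ‖x + (2 : ℝ) • y‖ ≤ 1 + η)
    (t : ℝ) (ht : 0 < t) :
    B.MidpointModulusLE B.norm t (max (t / 2) (t - 1)) ∧
      B.OneSidedModulusLE B.norm t (max 0 (t - 2)) := by
  let _ := B.normed
  let _ := B.space
  -- the basic estimate on `‖x + t y‖`
  have key : ∀ x y : B.X, ‖x‖ = 1 → ‖y‖ = 1 → ∀ η : ℝ, ‖x + (2 : ℝ) • y‖ ≤ 1 + η →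
      ‖x + t • y‖ ≤ 1 + max 0 (t - 2) + η := by
    intro x y hx hy η h2
    have hη : 0 ≤ η := by
      have h3 : ‖(2 : ℝ) • y‖ ≤ ‖x + (2 : ℝ) • y‖ + ‖x‖ := by
        have e : (2 : ℝ) • y = (x + (2 : ℝ) • y) - x := by abel
        calc ‖(2 : ℝ) • y‖ = ‖(x + (2 : ℝ) • y) - x‖ := by rw [← e]
          _ ≤ _ := norm_sub_le _ _
      rw [norm_smul, hy, hx] at h3
      norm_num at h3
      linarith
    rcases le_or_gt t 2 with h | h
    · -- convex combination of `x` and `x + 2 y`
      have e : x + t • y = (1 - t / 2) • x + (t / 2) • (x + (2 : ℝ) • y) := by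
        rw [smul_add, smul_smul, sub_smul, one_smul]
        have : t / 2 * 2 = t := by ring
        rw [this]
        abel
      have h3 : ‖x + t • y‖ ≤ (1 - t / 2) * ‖x‖ + t / 2 * ‖x + (2 : ℝ) • y‖ := by
        calc ‖x + t • y‖ = ‖(1 - t / 2) • x + (t / 2) • (x + (2 : ℝ) • y)‖ := by rw [← e]
          _ ≤ ‖(1 - t / 2) • x‖ + ‖(t / 2) • (x + (2 : ℝ) • y)‖ := norm_add_le _ _
          _ = (1 - t / 2) * ‖x‖ + t / 2 * ‖x + (2 : ℝ) • y‖ := by
              rw [norm_smul, norm_smul, Real.norm_of_nonneg (by linarith : (0 : ℝ) ≤ 1 - t / 2),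
                Real.norm_of_nonneg (by linarith : (0 : ℝ) ≤ t / 2)]
      rw [hx] at h3
      have h4 : t / 2 * ‖x + (2 : ℝ) • y‖ ≤ t / 2 * (1 + η) :=
        mul_le_mul_of_nonneg_left h2 (by linarith)
      have h5 : t / 2 * η ≤ η := by nlinarith
      have h6 : (0 : ℝ) ≤ max 0 (t - 2) := le_max_left _ _
      nlinarith
    · have e : x + t • y = (x + (2 : ℝ) • y) + (t - 2) • y := by
        rw [sub_smul]; abel
      have h3 : ‖x + t • y‖ ≤ ‖x + (2 : ℝ) • y‖ + (t - 2) * ‖y‖ := by
        calc ‖x + t • y‖ = ‖(x + (2 : ℝ) • y) + (t - 2) • y‖ := by rw [← e]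
          _ ≤ ‖x + (2 : ℝ) • y‖ + ‖(t - 2) • y‖ := norm_add_le _ _
          _ = ‖x + (2 : ℝ) • y‖ + (t - 2) * ‖y‖ := by
              rw [norm_smul, Real.norm_of_nonneg (by linarith : (0 : ℝ) ≤ t - 2)]
      rw [hy] at h3
      have h6 : t - 2 ≤ max 0 (t - 2) := le_max_right _ _
      linarith
  constructor
  · intro x hx F hF η hη
    obtain ⟨y, hyF, hy1, hy2⟩ := hKL x hx F hF η hη
    refine ⟨y, hyF, hy1, ?_⟩
    show (‖x + t • y‖ + ‖x - t • y‖) / 2 - 1 ≤ max (t / 2) (t - 1) + η
    have h1 := key x y hx hy1 η hy2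
    have h2 : ‖x - t • y‖ ≤ 1 + t := by
      calc ‖x - t • y‖ ≤ ‖x‖ + ‖t • y‖ := norm_sub_le _ _
        _ = 1 + t := by
            have hx' : ‖x‖ = 1 := hx
            rw [norm_smul, Real.norm_of_nonneg ht.le, hy1, hx']; ring
    rcases le_or_gt t 2 with h | h
    · have h3 : max 0 (t - 2) = 0 := max_eq_left (by linarith)
      have h4 : t / 2 ≤ max (t / 2) (t - 1) := le_max_left _ _
      rw [h3] at h1
      linarith
    · have h3 : max 0 (t - 2) = t - 2 := max_eq_right (by linarith)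
      have h4 : t - 1 ≤ max (t / 2) (t - 1) := le_max_right _ _
      rw [h3] at h1
      linarith
  · intro x hx F hF η hη
    obtain ⟨y, hyF, hy1, hy2⟩ := hKL x hx F hF η hη
    refine ⟨y, hyF, hy1, ?_⟩
    show ‖x + t • y‖ - 1 ≤ max 0 (t - 2) + η
    have h1 := key x y hx hy1 η hy2
    linarith

/-! ### The measure-theoretic lower bound -/

section measure

variable {Ω : Type} [MeasurableSpace Ω] (P : Measure Ω)

/-- A sign function with values in `{-1, 0, 1}`. -/
noncomputable def sgn (r : ℝ) : ℝ := if 0 < r then 1 else if r < 0 then -1 else 0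

theorem measurable_sgn : Measurable sgn :=
  Measurable.ite (measurableSet_lt measurable_const measurable_id) measurable_const
    (Measurable.ite (measurableSet_lt measurable_id measurable_const) measurable_const
      measurable_const)

theorem abs_sgn_le (r : ℝ) : |sgn r| ≤ 1 := by
  unfold sgn
  split_ifs <;> norm_num

theorem abs_le_sgn_mul_add {u r a : ℝ} (h : |u - r| ≤ a) : |u| ≤ sgn r * u + 2 * a := by
  unfold sgn
  rw [abs_le] at h
  split_ifs with h1 h2
  · rcases abs_cases u with ⟨hu, _⟩ | ⟨hu, _⟩ <;> rw [hu] <;> linarith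
  · rcases abs_cases u with ⟨hu, _⟩ | ⟨hu, _⟩ <;> rw [hu] <;> linarith
  · rcases abs_cases u with ⟨hu, _⟩ | ⟨hu, _⟩ <;> rw [hu] <;> linarith

theorem neg_abs_le_sgn_mul (u r : ℝ) : -|u| ≤ sgn r * u := by
  unfold sgn
  split_ifs
  · linarith [neg_abs_le u]
  · linarith [le_abs_self u]
  · simp

theorem integrable_sgn_mul (g y : Lp ℝ 1 P) : Integrable (fun z => sgn (g z) * y z) P := by
  have hy : Integrable (fun z => y z) P := L1.integrable_coeFn y
  refine Integrable.mono' hy.norm ?_ (Filter.Eventually.of_forall fun z => ?_)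
  · exact ((measurable_sgn.comp (Lp.stronglyMeasurable g).measurable).mul
      (Lp.stronglyMeasurable y).measurable).aestronglyMeasurable
  · rw [norm_mul, Real.norm_eq_abs, Real.norm_eq_abs]
    calc |sgn (g z)| * |y z| ≤ 1 * |y z| :=
          mul_le_mul_of_nonneg_right (abs_sgn_le _) (abs_nonneg _)
      _ = |y z| := one_mul _

/-- The functional `y ↦ ∫ sgn(g) y` on `L¹`. -/
noncomputable def sgnInt (g : Lp ℝ 1 P) : Lp ℝ 1 P →ₗ[ℝ] ℝ where
  toFun y := ∫ z, sgn (g z) * y z ∂P
  map_add' y₁ y₂ := by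
    rw [← integral_add (integrable_sgn_mul P g y₁) (integrable_sgn_mul P g y₂)]
    apply integral_congr_ae
    filter_upwards [Lp.coeFn_add y₁ y₂] with z hz
    rw [hz, Pi.add_apply, mul_add]
  map_smul' c y := by
    simp only [RingHom.id_apply, smul_eq_mul]
    rw [← integral_const_mul]
    apply integral_congr_ae
    filter_upwards [Lp.coeFn_smul c y] with z hz
    rw [hz, Pi.smul_apply, smul_eq_mul]
    ring

theorem sgnInt_apply (g y : Lp ℝ 1 P) : sgnInt P g y = ∫ z, sgn (g z) * y z ∂P := rfl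

theorem l1_norm_eq_integral_abs (y : Lp ℝ 1 P) : ‖y‖ = ∫ z, |y z| ∂P := by
  rw [L1.norm_eq_integral_norm]
  rfl

theorem norm_sgnInt_le (g y : Lp ℝ 1 P) : ‖sgnInt P g y‖ ≤ 1 * ‖y‖ := by
  rw [sgnInt_apply, one_mul, l1_norm_eq_integral_abs]
  refine (norm_integral_le_integral_norm _).trans ?_
  refine integral_mono (integrable_sgn_mul P g y).norm (L1.integrable_coeFn y).abs fun z => ?_
  show ‖sgn (g z) * y z‖ ≤ |y z|
  rw [norm_mul, Real.norm_eq_abs, Real.norm_eq_abs]
  calc |sgn (g z)| * |y z| ≤ 1 * |y z| :=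
        mul_le_mul_of_nonneg_right (abs_sgn_le _) (abs_nonneg _)
    _ = |y z| := one_mul _

/-- The functional `y ↦ ∫ sgn(g) y` as a continuous linear map. -/
noncomputable def sgnCLM (g : Lp ℝ 1 P) : Lp ℝ 1 P →L[ℝ] ℝ :=
  (sgnInt P g).mkContinuous 1 (norm_sgnInt_le P g)

theorem sgnCLM_apply (g y : Lp ℝ 1 P) : sgnCLM P g y = ∫ z, sgn (g z) * y z ∂P := rfl

theorem l1_norm_add_smul (x y : Lp ℝ 1 P) (c : ℝ) :
    ‖x + c • y‖ = ∫ z, |x z + c * y z| ∂P := by
  rw [l1_norm_eq_integral_abs]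
  apply integral_congr_ae
  filter_upwards [Lp.coeFn_add x (c • y), Lp.coeFn_smul c y] with z h1 h2
  rw [h1, Pi.add_apply, h2, Pi.smul_apply, smul_eq_mul]

/-- Absolute continuity of the integral, in `ε`-`δ` form. -/
theorem exists_delta_setIntegral_abs_le (f : Ω → ℝ) (hf : Integrable f P) {η : ℝ} (hη : 0 < η) :
    ∃ δ : ℝ, 0 < δ ∧ ∀ A : Set Ω, P A ≤ ENNReal.ofReal δ → ∫ z in A, |f z| ∂P ≤ η := by
  by_contra h
  push Not at h
  choose A hA1 hA2 using fun n : ℕ => h (1 / ((n : ℝ) + 1)) (by positivity)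
  have h1 : Filter.Tendsto (P ∘ A) Filter.atTop (nhds 0) := by
    have h0 := tendsto_one_div_add_atTop_nhds_zero_nat (𝕜 := ℝ)
    have h00 : Filter.Tendsto (fun n : ℕ => ENNReal.ofReal (1 / ((n : ℝ) + 1))) Filter.atTop
        (nhds 0) := by
      have := (ENNReal.continuous_ofReal.tendsto 0).comp h0
      rw [ENNReal.ofReal_zero] at this
      exact this
    exact tendsto_of_tendsto_of_tendsto_of_le_of_le tendsto_const_nhds h00 (fun n => bot_le)
      hA1
  have h2 := (hf.abs).tendsto_setIntegral_nhds_zero h1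
  obtain ⟨n, hn⟩ := (h2.eventually (gt_mem_nhds hη)).exists
  exact absurd hn (not_lt.2 (hA2 n).le)

theorem two_abs_le_abs_add_abs (u w : ℝ) : 2 * |u| ≤ |u + w| + |u + -w| := by
  have h : |(u + w) + (u + -w)| ≤ |u + w| + |u + -w| := abs_add_le _ _
  have e : (u + w) + (u + -w) = 2 * u := by ring
  rw [e, abs_mul, abs_two] at h
  exact h

theorem two_abs_le_abs_add_abs' (u w : ℝ) : 2 * |w| ≤ |u + w| + |u + -w| := by
  have h : |(u + w) - (u + -w)| ≤ |u + w| + |u + -w| := abs_sub _ _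
  have e : (u + w) - (u + -w) = 2 * w := by ring
  rw [e, abs_mul, abs_two] at h
  exact h

/-- Core of the measure argument, in terms of the subspace `E` with its instances. -/
theorem midpointGE_aux [IsProbabilityMeasure P] (E : Submodule ℝ (Lp ℝ 1 P))
    (htb : L1Subspace.UnitBallTotallyBoundedInMeasure P E) (t : ℝ) (ht : 0 < t)
    (x : E) (hx : ‖x‖ = 1) (η : ℝ) (hη : 0 < η) :
    ∃ S : Submodule ℝ E, IsClosed (S : Set E) ∧ FiniteDimensional ℝ (E ⧸ S) ∧
      ∀ y ∈ S, ‖y‖ = 1 → max (t / 2) (t - 1) - η ≤ (‖x + t • y‖ + ‖x - t • y‖) / 2 - 1 := by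
  classical
  set xf : Lp ℝ 1 P := (x : Lp ℝ 1 P) with hxf
  have hxint : Integrable (fun z => xf z) P := L1.integrable_coeFn xf
  obtain ⟨δ, hδ, hxδ⟩ := exists_delta_setIntegral_abs_le P (fun z => xf z) hxint (half_pos hη)
  set ε := min δ (η / (2 * t)) with hε
  have hεpos : 0 < ε := lt_min hδ (by positivity)
  obtain ⟨s, hs, hnet⟩ := htb ε hεpos
  obtain ⟨S, hS, hScl, hSfd⟩ :=
    cof_joint_kernel (fun g : s => (sgnCLM P g.1).comp E.subtypeL)
  refine ⟨S, hScl, hSfd, ?_⟩
  intro y hyS hy1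
  set yf : Lp ℝ 1 P := (y : Lp ℝ 1 P) with hyf
  have hyint : Integrable (fun z => yf z) P := L1.integrable_coeFn yf
  have hyker : ∀ g ∈ s, ∫ z, sgn (g z) * yf z ∂P = 0 := by
    intro g hg
    have h1 : y ∈ {y : E | ∀ i : s, ((sgnCLM P i.1).comp E.subtypeL) y = 0} := by
      rw [← hS]; exact hyS
    exact h1 ⟨g, hg⟩
  -- norms as integrals
  have hxn : ∫ z, |xf z| ∂P = 1 := by
    rw [← l1_norm_eq_integral_abs]; exact hx
  have hyn : ∫ z, |yf z| ∂P = 1 := by
    rw [← l1_norm_eq_integral_abs]; exact hy1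
  have hplus : ‖x + t • y‖ = ∫ z, |xf z + t * yf z| ∂P := by
    rw [← l1_norm_add_smul]; rfl
  have hminus : ‖x - t • y‖ = ∫ z, |xf z + -(t * yf z)| ∂P := by
    have e : x - t • y = x + (-t) • y := by rw [neg_smul, sub_eq_add_neg]
    rw [e]
    have : ‖x + (-t) • y‖ = ∫ z, |xf z + (-t) * yf z| ∂P := by
      rw [← l1_norm_add_smul]; rfl
    rw [this]
    congr 1
    funext z
    rw [neg_mul]
  -- first bound: t - 1
  have hb1 : t - 1 ≤ (‖x + t • y‖ + ‖x - t • y‖) / 2 - 1 := by
    have e : (2 * t) • y = (x + t • y) - (x - t • y) := by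
      rw [two_mul, add_smul]; abel
    have h3 : ‖(2 * t) • y‖ ≤ ‖x + t • y‖ + ‖x - t • y‖ := by
      rw [e]; exact norm_sub_le _ _
    rw [norm_smul, Real.norm_of_nonneg (by positivity), hy1] at h3
    linarith
  -- second bound: t / 2 - η
  have hb2 : t / 2 - η ≤ (‖x + t • y‖ + ‖x - t • y‖) / 2 - 1 := by
    obtain ⟨g, hg, hdist⟩ := hnet yf y.2 hy1.le
    have hne : ({a : ℝ | 0 < a ∧ P {z | a < |yf z - g z|} < ENNReal.ofReal a}).Nonempty := by
      refine ⟨2, by norm_num, ?_⟩
      calc P {z | (2 : ℝ) < |yf z - g z|} ≤ 1 := prob_le_one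
        _ < ENNReal.ofReal 2 := by norm_num
    obtain ⟨a, ⟨ha0, haP⟩, haε⟩ := exists_lt_of_csInf_lt hne hdist
    set A : Set Ω := {z | a < |yf z - g z|} with hA
    have hAmeas : MeasurableSet A :=
      measurableSet_lt measurable_const
        (continuous_abs.measurable.comp
          ((Lp.stronglyMeasurable yf).measurable.sub (Lp.stronglyMeasurable g).measurable))
    have haδ : P A ≤ ENNReal.ofReal δ :=
      haP.le.trans (ENNReal.ofReal_le_ofReal (haε.le.trans (min_le_left _ _)))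
    have hat : t * a ≤ η / 2 := by
      have h1 : a ≤ η / (2 * t) := haε.le.trans (min_le_right _ _)
      calc t * a ≤ t * (η / (2 * t)) := mul_le_mul_of_nonneg_left h1 ht.le
        _ = η / 2 := by field_simp
    -- (i)-(iii): mass of x off A
    have hxA : ∫ z in A, |xf z| ∂P ≤ η / 2 := hxδ A haδ
    have hxsplit := integral_add_compl hAmeas hxint.abs
    have hysplit := integral_add_compl hAmeas hyint.abs
    -- (v)-(vii): mass of y on A
    have hsy := integrable_sgn_mul P g yf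
    have hsplit := integral_add_compl hAmeas hsy
    rw [hyker g hg] at hsplit
    have h6 : ∫ z in A, -|yf z| ∂P ≤ ∫ z in A, sgn (g z) * yf z ∂P :=
      setIntegral_mono hyint.abs.neg.integrableOn hsy.integrableOn
        (fun z => neg_abs_le_sgn_mul (yf z) (g z))
    rw [integral_neg] at h6
    have h7 : ∫ z in Aᶜ, (|yf z| - 2 * a) ∂P ≤ ∫ z in Aᶜ, sgn (g z) * yf z ∂P := by
      refine setIntegral_mono_on (hyint.abs.sub (integrable_const _)).integrableOn hsy.integrableOn
        hAmeas.compl (fun z hz => ?_)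
      have hz' : |yf z - g z| ≤ a := not_lt.1 hz
      have := abs_le_sgn_mul_add hz'
      linarith
    have h8 : ∫ z in Aᶜ, (|yf z| - 2 * a) ∂P = ∫ z in Aᶜ, |yf z| ∂P - P.real Aᶜ * (2 * a) := by
      rw [integral_sub hyint.abs.integrableOn (integrable_const _).integrableOn, setIntegral_const,
        smul_eq_mul]
    have h9 : P.real Aᶜ * (2 * a) ≤ 2 * a := by
      have : P.real Aᶜ ≤ 1 := measureReal_le_one
      nlinarith
    have hyA : 1 / 2 - a ≤ ∫ z in A, |yf z| ∂P := by linarith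
    -- (viii): the two norms
    have hint1 : Integrable (fun z => |xf z + t * yf z|) P := (hxint.add (hyint.const_mul t)).abs
    have hint2 : Integrable (fun z => |xf z + -(t * yf z)|) P :=
      (hxint.add (hyint.const_mul t).neg).abs
    have hsum : ‖x + t • y‖ + ‖x - t • y‖
        = ∫ z, (|xf z + t * yf z| + |xf z + -(t * yf z)|) ∂P := by
      rw [hplus, hminus, integral_add hint1 hint2]
    have hhsplit : ∫ z in A, (|xf z + t * yf z| + |xf z + -(t * yf z)|) ∂P
        + ∫ z in Aᶜ, (|xf z + t * yf z| + |xf z + -(t * yf z)|) ∂P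
        = ∫ z, (|xf z + t * yf z| + |xf z + -(t * yf z)|) ∂P :=
      integral_add_compl hAmeas (hint1.add hint2)
    have hA1 : ∫ z in A, 2 * (t * |yf z|) ∂P
        ≤ ∫ z in A, (|xf z + t * yf z| + |xf z + -(t * yf z)|) ∂P := by
      refine setIntegral_mono ((hyint.abs.const_mul t).const_mul 2).integrableOn
        (hint1.add hint2).integrableOn (fun z => ?_)
      have := two_abs_le_abs_add_abs' (xf z) (t * yf z)
      rw [abs_mul, abs_of_pos ht] at this
      exact this
    have hA2 : ∫ z in Aᶜ, 2 * |xf z| ∂P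
        ≤ ∫ z in Aᶜ, (|xf z + t * yf z| + |xf z + -(t * yf z)|) ∂P := by
      refine setIntegral_mono (hxint.abs.const_mul 2).integrableOn
        (hint1.add hint2).integrableOn (fun z => ?_)
      exact two_abs_le_abs_add_abs (xf z) (t * yf z)
    rw [integral_const_mul, integral_const_mul] at hA1
    rw [integral_const_mul] at hA2
    have hfin : 2 * (t * (1 / 2 - a)) + 2 * (1 - η / 2) ≤ ‖x + t • y‖ + ‖x - t • y‖ := by
      rw [hsum, ← hhsplit]
      have h10 : t * (1 / 2 - a) ≤ t * ∫ z in A, |yf z| ∂P := mul_le_mul_of_nonneg_left hyA ht.le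
      have h11 : 1 - η / 2 ≤ ∫ z in Aᶜ, |xf z| ∂P := by linarith
      linarith
    linarith
  rcases max_cases (t / 2) (t - 1) with ⟨h, -⟩ | ⟨h, -⟩ <;> rw [h] <;> linarith

/-- **Lower bound for the averaged midpoint quantity** in a subspace of `L¹` whose unit ball is
totally bounded in measure (the Daugavet property is not needed for this half). -/
theorem midpointGE [IsProbabilityMeasure P] (E : Submodule ℝ (Lp ℝ 1 P))
    (hcl : IsClosed (E : Set (Lp ℝ 1 P)))
    (htb : L1Subspace.UnitBallTotallyBoundedInMeasure P E) (t : ℝ) (ht : 0 < t) :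
    (L1Subspace.toRealBanach P E hcl).MidpointModulusGE
      (L1Subspace.toRealBanach P E hcl).norm t (max (t / 2) (t - 1)) := by
  intro x hx η hη
  obtain ⟨S, hScl, hSfd, h⟩ := midpointGE_aux P E htb t ht x hx η hη
  exact ⟨(S : Set E), ⟨S, rfl, hScl, hSfd⟩, h⟩

end measure

end Crest.Agent.S0167
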