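import Mathlib
import Crest.Prelude.Def_TreeProducts

/-!
Probabilistic part of S0169 (helper10): the path products of an independent positive family with
mean one along the countably branching tree, as elements of `L¹`.

Main result: `exists_tree_family`.
-/

set_option autoImplicit false
open MeasureTheory ProbabilityTheory
open Crest Crest.AnalysisR Crest.AnalysisR.TreeProduct

namespace Crest.Agent.S0169

section Suffix

/-- The non-root vertices on the root path of `v` (the nonempty suffixes of the list). -/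
def sfx : List ℕ → Finset (List ℕ)
  | [] => ∅
  | a :: v => insert (a :: v) (sfx v)

lemma length_le_of_mem_sfx {v u : List ℕ} (h : u ∈ sfx v) : u.length ≤ v.length := by
  induction v with
  | nil => simp [sfx] at h
  | cons a v ih =>
    simp only [sfx, Finset.mem_insert] at h
    rcases h with rfl | h
    · exact le_rfl
    · exact (ih h).trans (by simp)

lemma cons_notMem_sfx (a : ℕ) (v : List ℕ) : a :: v ∉ sfx v := fun h => by
  have := length_le_of_mem_sfx h
  simp at this

variable {Ω : Type}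

lemma pathProduct_eq_prod (W : List ℕ → Ω → ℝ) (v : List ℕ) :
    pathProduct W v = ∏ u ∈ sfx v, W u := by
  induction v with
  | nil => funext ω; simp [pathProduct, sfx]
  | cons a v ih =>
    funext ω
    rw [sfx, Finset.prod_insert (cons_notMem_sfx a v)]
    simp only [pathProduct, Pi.mul_apply]
    rw [ih, mul_comm]

end Suffix

section Main

variable {Ω : Type} [MeasurableSpace Ω] {μ : Measure Ω} [IsProbabilityMeasure μ]
  {ν : Measure ℝ} [IsProbabilityMeasure ν] {W : List ℕ → Ω → ℝ}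

lemma measurable_pathProduct (hW : IsRealization ν μ W) (v : List ℕ) :
    Measurable (pathProduct W v) := by
  induction v with
  | nil => exact measurable_const
  | cons a v ih => exact ih.mul (hW.1 (a :: v))

lemma indepFun_pathProduct_cons (hW : IsRealization ν μ W) (a : ℕ) (v : List ℕ) :
    IndepFun (pathProduct W v) (W (a :: v)) μ := by
  rw [pathProduct_eq_prod]
  exact hW.2.1.indepFun_finsetProd_of_notMem hW.1 (cons_notMem_sfx a v)

omit [IsProbabilityMeasure ν] in
lemma integrable_id_of_mean (hmean : ∫ x, x ∂ν = 1) : Integrable (fun x : ℝ => x) ν := by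
  by_contra h
  rw [integral_undef h] at hmean
  norm_num at hmean

lemma integrable_W (hW : IsRealization ν μ W) (hmean : ∫ x, x ∂ν = 1) {v : List ℕ}
    (hv : v ≠ []) : Integrable (W v) μ := by
  have h := integrable_id_of_mean hmean
  rw [← hW.2.2 v hv] at h
  exact (integrable_map_measure measurable_id.aestronglyMeasurable (hW.1 v).aemeasurable).1 h

lemma integral_W (hW : IsRealization ν μ W) (hmean : ∫ x, x ∂ν = 1) {v : List ℕ}
    (hv : v ≠ []) : ∫ ω, W v ω ∂μ = 1 := by
  have h : ∫ x, x ∂(Measure.map (W v) μ) = ∫ ω, W v ω ∂μ :=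
    integral_map (hW.1 v).aemeasurable measurable_id.aestronglyMeasurable
  rw [hW.2.2 v hv] at h
  rw [← h, hmean]

lemma W_pos (hW : IsRealization ν μ W) (hpos : ν (Set.Ioi 0) = 1) {v : List ℕ}
    (hv : v ≠ []) : ∀ᵐ ω ∂μ, 0 < W v ω := by
  have h1 : ν (Set.Ioi (0 : ℝ))ᶜ = 0 := (prob_compl_eq_zero_iff measurableSet_Ioi).2 hpos
  have h2 : ∀ᵐ x ∂ν, x ∈ Set.Ioi (0 : ℝ) := h1
  rw [← hW.2.2 v hv] at h2
  exact ae_of_ae_map (hW.1 v).aemeasurable h2

lemma pathProduct_facts (hW : IsRealization ν μ W) (hpos : ν (Set.Ioi 0) = 1)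
    (hmean : ∫ x, x ∂ν = 1) (v : List ℕ) :
    Integrable (pathProduct W v) μ ∧ ∫ ω, pathProduct W v ω ∂μ = 1 ∧
      ∀ᵐ ω ∂μ, 0 ≤ pathProduct W v ω := by
  induction v with
  | nil =>
    refine ⟨integrable_const (1 : ℝ), ?_, ?_⟩
    · simp [pathProduct]
    · exact Filter.Eventually.of_forall fun ω => by simp [pathProduct]
  | cons a v ih =>
    obtain ⟨h1, h2, h3⟩ := ih
    have hind := indepFun_pathProduct_cons hW a v
    have hWi := integrable_W hW hmean (List.cons_ne_nil a v)
    have e : pathProduct W (a :: v) = pathProduct W v * W (a :: v) := rfl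
    refine ⟨?_, ?_, ?_⟩
    · rw [e]; exact hind.integrable_mul h1 hWi
    · have h4 := hind.integral_fun_mul_eq_mul_integral h1.aestronglyMeasurable
        hWi.aestronglyMeasurable
      have h5 : ∫ ω, pathProduct W (a :: v) ω ∂μ = ∫ ω, pathProduct W v ω * W (a :: v) ω ∂μ := rfl
      rw [h5, h4, h2, integral_W hW hmean (List.cons_ne_nil a v), mul_one]
    · filter_upwards [h3, W_pos hW hpos (List.cons_ne_nil a v)] with ω h3 h4
      exact mul_nonneg h3 h4.le

lemma indepFun_pathProduct_children (hW : IsRealization ν μ W) (v : List ℕ) (A : Finset ℕ) :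
    IndepFun (pathProduct W v) (fun ω => |∑ a ∈ A, (W (a :: v) ω - 1)|) μ := by
  classical
  set T : Finset (List ℕ) := A.image (fun a => a :: v) with hT
  have hdisj : Disjoint (sfx v) T := by
    rw [Finset.disjoint_left]
    intro u hu huT
    rw [hT, Finset.mem_image] at huT
    obtain ⟨a, -, rfl⟩ := huT
    exact cons_notMem_sfx a v hu
  have h := hW.2.1.indepFun_finset (sfx v) T hdisj hW.1
  have hg1 : Measurable (fun x : (sfx v) → ℝ => ∏ i, x i) := by fun_prop
  have hg2 : Measurable (fun y : T → ℝ => |∑ i, (y i - 1)|) := by fun_prop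
  have h' := h.comp hg1 hg2
  have e1 : (fun x : (sfx v) → ℝ => ∏ i, x i) ∘ (fun ω (i : sfx v) => W i ω)
      = pathProduct W v := by
    rw [pathProduct_eq_prod]
    funext ω
    simp only [Function.comp_apply, Finset.prod_apply]
    exact Finset.prod_coe_sort (sfx v) (fun u => W u ω)
  have e2 : (fun y : T → ℝ => |∑ i, (y i - 1)|) ∘ (fun ω (i : T) => W i ω)
      = fun ω => |∑ a ∈ A, (W (a :: v) ω - 1)| := by
    funext ω
    simp only [Function.comp_apply]
    congr 1
    rw [Finset.sum_coe_sort T (fun u => W u ω - 1), hT, Finset.sum_image]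
    intro a _ b _ hab
    exact (List.cons.inj hab).1
  rw [e1, e2] at h'
  exact h'

lemma integral_abs_sum_children (hW : IsRealization ν μ W) (hpos : ν (Set.Ioi 0) = 1)
    (hmean : ∫ x, x ∂ν = 1) (v : List ℕ) (A : Finset ℕ) :
    ∫ ω, |∑ a ∈ A, (pathProduct W (a :: v) ω - pathProduct W v ω)| ∂μ
      = ∫ ω, |∑ a ∈ A, (W (a :: v) ω - 1)| ∂μ := by
  obtain ⟨h1, h2, h3⟩ := pathProduct_facts hW hpos hmean v
  have hind := indepFun_pathProduct_children hW v A
  have hmeasT : Measurable (fun ω => |∑ a ∈ A, (W (a :: v) ω - 1)|) := by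
    have h : Measurable (fun ω => ∑ a ∈ A, (W (a :: v) ω - 1)) :=
      Finset.measurable_sum A (fun a _ => (hW.1 (a :: v)).sub_const 1)
    exact continuous_abs.measurable.comp h
  have e : ∀ᵐ ω ∂μ, |∑ a ∈ A, (pathProduct W (a :: v) ω - pathProduct W v ω)|
      = pathProduct W v ω * |∑ a ∈ A, (W (a :: v) ω - 1)| := by
    filter_upwards [h3] with ω hω
    have h : ∑ a ∈ A, (pathProduct W (a :: v) ω - pathProduct W v ω)
        = pathProduct W v ω * ∑ a ∈ A, (W (a :: v) ω - 1) := by
      rw [Finset.mul_sum]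
      refine Finset.sum_congr rfl fun a _ => ?_
      show pathProduct W v ω * W (a :: v) ω - pathProduct W v ω = _
      ring
    rw [h, abs_mul, abs_of_nonneg hω]
  rw [integral_congr_ae e]
  have h4 := hind.integral_fun_mul_eq_mul_integral h1.aestronglyMeasurable
    hmeasT.aestronglyMeasurable
  rw [h4, h2, one_mul]

lemma integral_abs_sum_le (hW : IsRealization ν μ W) (hmean : ∫ x, x ∂ν = 1)
    (hm2 : Integrable (fun x : ℝ => x ^ 2) ν) (v : List ℕ) (A : Finset ℕ) :
    ∫ ω, |∑ a ∈ A, (W (a :: v) ω - 1)| ∂μ ≤ Real.sqrt (Var[id; ν]) * Real.sqrt A.card := by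
  classical
  set Y : ℕ → Ω → ℝ := fun a ω => W (a :: v) ω - 1 with hY
  have hWL2 : ∀ a, MemLp (W (a :: v)) 2 μ := by
    intro a
    rw [memLp_two_iff_integrable_sq (hW.1 _).aestronglyMeasurable]
    have h := hm2
    rw [← hW.2.2 (a :: v) (List.cons_ne_nil a v)] at h
    exact (integrable_map_measure (by fun_prop) (hW.1 _).aemeasurable).1 h
  have hYL2 : ∀ a, MemLp (Y a) 2 μ := fun a => (hWL2 a).sub (memLp_const 1)
  have hYind : Set.Pairwise (A : Set ℕ) fun a b => IndepFun (Y a) (Y b) μ := by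
    intro a _ b _ hab
    have hne : a :: v ≠ b :: v := fun h => hab (List.cons.inj h).1
    exact (hW.2.1.indepFun hne).comp (measurable_id.sub_const 1) (measurable_id.sub_const 1)
  have hvar : Var[∑ a ∈ A, Y a; μ] = ∑ a ∈ A, Var[Y a; μ] :=
    IndepFun.variance_sum (fun a _ => hYL2 a) hYind
  have hvarY : ∀ a, Var[Y a; μ] = Var[id; ν] := by
    intro a
    have h1 : Var[Y a; μ] = Var[W (a :: v); μ] :=
      variance_sub_const (hW.1 _).aestronglyMeasurable 1
    rw [h1, ← variance_id_map (hW.1 _).aemeasurable, hW.2.2 _ (List.cons_ne_nil a v)]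
  have hEY : ∀ a, ∫ ω, Y a ω ∂μ = 0 := by
    intro a
    have h1 : ∫ ω, Y a ω ∂μ = ∫ ω, W (a :: v) ω ∂μ - ∫ _ω, (1 : ℝ) ∂μ :=
      integral_sub (integrable_W hW hmean (List.cons_ne_nil a v)) (integrable_const 1)
    rw [h1, integral_W hW hmean (List.cons_ne_nil a v)]
    simp
  set T : Ω → ℝ := ∑ a ∈ A, Y a with hT
  have hTL2 : MemLp T 2 μ := memLp_finsetSum' A (fun a _ => hYL2 a)
  have hET : ∫ ω, T ω ∂μ = 0 := by
    have h1 : ∫ ω, T ω ∂μ = ∫ ω, ∑ a ∈ A, Y a ω ∂μ := by
      refine integral_congr_ae (Filter.Eventually.of_forall fun ω => ?_)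
      simp [hT]
    rw [h1, integral_finsetSum A (fun a _ => (hYL2 a).integrable one_le_two)]
    exact Finset.sum_eq_zero fun a _ => hEY a
  have hET2 : ∫ ω, T ω ^ 2 ∂μ = A.card * Var[id; ν] := by
    rw [← variance_of_integral_eq_zero hTL2.aemeasurable hET, hT, hvar]
    simp [hvarY]
  have habsL2 : MemLp (fun ω => |T ω|) 2 μ := hTL2.abs
  have h1 := variance_nonneg (fun ω => |T ω|) μ
  rw [variance_eq_sub habsL2] at h1
  have h2 : ∫ ω, ((fun ω => |T ω|) ^ 2) ω ∂μ = ∫ ω, T ω ^ 2 ∂μ := by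
    refine integral_congr_ae (Filter.Eventually.of_forall fun ω => ?_)
    simp [sq_abs]
  rw [h2, hET2] at h1
  have h3 : (∫ ω, |T ω| ∂μ) ^ 2 ≤ A.card * Var[id; ν] := by linarith
  have h4 : ∫ ω, |T ω| ∂μ ≤ Real.sqrt (A.card * Var[id; ν]) :=
    (le_abs_self _).trans (Real.abs_le_sqrt h3)
  calc ∫ ω, |∑ a ∈ A, (W (a :: v) ω - 1)| ∂μ = ∫ ω, |T ω| ∂μ := by simp [hT, hY]
    _ ≤ Real.sqrt (A.card * Var[id; ν]) := h4
    _ = Real.sqrt (Var[id; ν]) * Real.sqrt A.card := by
        rw [mul_comm, Real.sqrt_mul (variance_nonneg _ _)]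

lemma integral_abs_W_sub_one (hW : IsRealization ν μ W) {v : List ℕ} (hv : v ≠ []) :
    ∫ ω, |W v ω - 1| ∂μ = ∫ x, |x - 1| ∂ν := by
  have h : ∫ x, |x - 1| ∂(Measure.map (W v) μ) = ∫ ω, |W v ω - 1| ∂μ :=
    integral_map (hW.1 v).aemeasurable (by fun_prop)
  rw [hW.2.2 v hv] at h
  exact h.symm

lemma delta_pos (hnc : ∀ c : ℝ, ν ≠ Measure.dirac c) (hmean : ∫ x, x ∂ν = 1) :
    0 < ∫ x, |x - 1| ∂ν := by
  have hint : Integrable (fun x : ℝ => |x - 1|) ν :=
    ((integrable_id_of_mean hmean).sub (integrable_const 1)).abs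
  have hnn : 0 ≤ ∫ x, |x - 1| ∂ν := integral_nonneg fun x => abs_nonneg _
  rcases hnn.lt_or_eq with h | h
  · exact h
  · exfalso
    have h0 : (fun x : ℝ => |x - 1|) =ᵐ[ν] 0 :=
      (integral_eq_zero_iff_of_nonneg (fun x => abs_nonneg _) hint).1 h.symm
    have h1 : ∀ᵐ x ∂ν, x ∈ ({1} : Set ℝ) := by
      filter_upwards [h0] with x hx
      simp only [Pi.zero_apply, abs_eq_zero, sub_eq_zero] at hx
      simpa using hx
    apply hnc 1
    have h2 : ν.restrict {1} = ν := Measure.restrict_eq_self_of_ae_mem h1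
    have h3 : ν {1} = 1 := by
      have h4 : ν ({1} : Set ℝ)ᶜ = 0 := h1
      exact (prob_compl_eq_zero_iff (measurableSet_singleton 1)).1 h4
    rw [← h2, Measure.restrict_singleton, h3, one_smul]

omit [IsProbabilityMeasure μ] in
lemma toL1_finset_sum {ι : Type*} (A : Finset ι) (f : ι → Ω → ℝ)
    (hf : ∀ a, Integrable (f a) μ) :
    ∑ a ∈ A, (hf a).toL1 (f a)
      = (integrable_finsetSum' A (fun a _ => hf a)).toL1 (∑ a ∈ A, f a) := by
  classical
  induction A using Finset.induction_on with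
  | empty => simp
  | insert a s ha ih =>
    rw [Finset.sum_insert ha, ih, ← Integrable.toL1_add]
    exact (Integrable.toL1_eq_toL1_iff _ _ _ _).2 (by rw [Finset.sum_insert ha])

/-- The family of `L¹` classes of the path products, with the norm information needed for the
renorming argument. -/
theorem exists_tree_family (hpos : ν (Set.Ioi 0) = 1) (hnc : ∀ c : ℝ, ν ≠ Measure.dirac c)
    (hmean : ∫ x, x ∂ν = 1) (hm2 : Integrable (fun x : ℝ => x ^ 2) ν)
    (hW : IsRealization ν μ W) :
    ∃ (m : List ℕ → Lp ℝ 1 μ) (δ C : ℝ), 0 < δ ∧ (∀ v, m v ∈ productSpan μ W) ∧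
      (∀ v, ‖m v‖ = 1) ∧ (∀ v a, ‖m (a :: v) - m v‖ = δ) ∧
      ∀ v (A : Finset ℕ), ‖∑ a ∈ A, (m (a :: v) - m v)‖ ≤ C * Real.sqrt A.card := by
  have hint : ∀ v, Integrable (pathProduct W v) μ := fun v => (pathProduct_facts hW hpos hmean v).1
  have key : ∀ v (A : Finset ℕ),
      ‖∑ a ∈ A, ((hint (a :: v)).toL1 (pathProduct W (a :: v)) - (hint v).toL1 (pathProduct W v))‖
        = ∫ ω, |∑ a ∈ A, (W (a :: v) ω - 1)| ∂μ := by
    intro v A
    have hd : ∀ a, Integrable (pathProduct W (a :: v) - pathProduct W v) μ :=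
      fun a => (hint (a :: v)).sub (hint v)
    have e1 : ∑ a ∈ A, ((hint (a :: v)).toL1 (pathProduct W (a :: v))
          - (hint v).toL1 (pathProduct W v))
        = (integrable_finsetSum' A (fun a _ => hd a)).toL1
            (∑ a ∈ A, (pathProduct W (a :: v) - pathProduct W v)) := by
      rw [← toL1_finset_sum A _ hd]
      rfl
    rw [e1, L1.norm_of_fun_eq_integral_norm, ← integral_abs_sum_children hW hpos hmean v A]
    refine integral_congr_ae (Filter.Eventually.of_forall fun ω => ?_)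
    simp [Real.norm_eq_abs, Finset.sum_apply]
  refine ⟨fun v => (hint v).toL1 (pathProduct W v), ∫ x, |x - 1| ∂ν, Real.sqrt (Var[id; ν]),
    delta_pos hnc hmean, ?_, ?_, ?_, ?_⟩
  · intro v
    apply Submodule.le_topologicalClosure
    apply Submodule.subset_span
    exact ⟨v, (hint v).coeFn_toL1⟩
  · intro v
    rw [L1.norm_of_fun_eq_integral_norm]
    obtain ⟨-, h2, h3⟩ := pathProduct_facts hW hpos hmean v
    rw [← h2]
    refine integral_congr_ae ?_
    filter_upwards [h3] with ω hω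
    rw [Real.norm_of_nonneg hω]
  · intro v a
    have h := key v {a}
    simp only [Finset.sum_singleton] at h
    rw [h, integral_abs_W_sub_one hW (List.cons_ne_nil a v)]
  · intro v A
    rw [key v A]
    exact integral_abs_sum_le hW hmean hm2 v A

end Main

end Crest.Agent.S0169
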