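import Crest.Statements.S0169
-- import your own Crest.Agent.* helpers here
import Crest.Agent.S0169_Abstract
import Crest.Agent.S0169_Prob

set_option autoImplicit false
open MeasureTheory ProbabilityTheory
open Crest Crest.AnalysisR

namespace Crest.Agent.S0169

/-- Let ν be a Borel probability law on ℝ carried by (0,∞), not a point mass, with mean 1 and finite second moment, and W an independent family of real random variables on a probability space indexed by the vertices of the countably branching tree (finite lists of naturals; root [], parent of a :: v is v), each non-root one with law ν. Then the closed linear span in L¹ of the path products ∏_{root ≺ u ≼ v} W_u is infinite-dimensional and has no equivalent asymptotically uniformly convex norm. -/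
theorem result (ν : Measure ℝ) [IsProbabilityMeasure ν] (hpos : ν (Set.Ioi 0) = 1)
    (hnc : ∀ c : ℝ, ν ≠ Measure.dirac c) (hmean : ∫ x, x ∂ν = 1)
    (hm2 : Integrable (fun x : ℝ => x ^ 2) ν)
    (Ω : Type) [MeasurableSpace Ω] (μ : Measure Ω) [IsProbabilityMeasure μ]
    (W : List ℕ → Ω → ℝ) (hW : Crest.AnalysisR.TreeProduct.IsRealization ν μ W) :
    ¬ FiniteDimensional ℝ (Crest.AnalysisR.TreeProduct.productSpan μ W) ∧
      ∀ N : (Crest.AnalysisR.TreeProduct.spanBanach μ W).X → ℝ,
        (Crest.AnalysisR.TreeProduct.spanBanach μ W).IsEquivNorm N →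
          ¬ (Crest.AnalysisR.TreeProduct.spanBanach μ W).IsAUC N := by
  classical
  obtain ⟨m, δ, C, hδ, hmem, hnorm, hdiff, hsum⟩ := exists_tree_family hpos hnc hmean hm2 hW
  -- the family inside the subspace
  let mX : List ℕ → Crest.AnalysisR.TreeProduct.productSpan μ W := fun v => ⟨m v, hmem v⟩
  have hmX : ∀ v, ‖mX v‖ = 1 := fun v => hnorm v
  have hdX : ∀ v a, ‖mX (a :: v) - mX v‖ = δ := fun v a => hdiff v a
  have hsX : ∀ v (A : Finset ℕ),
      ‖∑ a ∈ A, (mX (a :: v) - mX v)‖ ≤ C * Real.sqrt A.card := by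
    intro v A
    have h1 : ((∑ a ∈ A, (mX (a :: v) - mX v) :
        Crest.AnalysisR.TreeProduct.productSpan μ W) : Lp ℝ 1 μ)
        = ∑ a ∈ A, (m (a :: v) - m v) := by
      rw [Submodule.coe_sum]
      rfl
    rw [Submodule.coe_norm, h1]
    exact hsum v A
  -- the common core: no norm with these properties exists on the span
  have main : ∀ N : Crest.AnalysisR.TreeProduct.productSpan μ W → ℝ,
      (∀ x y : Crest.AnalysisR.TreeProduct.productSpan μ W, N (x + y) ≤ N x + N y) →
      (∀ (r : ℝ) (x : Crest.AnalysisR.TreeProduct.productSpan μ W), N (r • x) = |r| * N x) →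
      ∀ a b : ℝ, 0 < a →
      (∀ x : Crest.AnalysisR.TreeProduct.productSpan μ W, a * ‖x‖ ≤ N x ∧ N x ≤ b * ‖x‖) →
      (∀ t : ℝ, 0 < t → ∃ c : ℝ, 0 < c ∧
        ∀ x : Crest.AnalysisR.TreeProduct.productSpan μ W, N x = 1 →
          ∃ S : Submodule ℝ (Crest.AnalysisR.TreeProduct.productSpan μ W),
            IsClosed (S : Set (Crest.AnalysisR.TreeProduct.productSpan μ W)) ∧
            FiniteDimensional ℝ ((Crest.AnalysisR.TreeProduct.productSpan μ W) ⧸ S) ∧
            ∀ y ∈ S, N y = 1 → c ≤ N (x + t • y) - 1) → False := by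
    intro N hsub hhom a b ha hab hauc
    refine not_auc_of_chain N hsub hhom a b ha hab hauc δ hδ (fun _ => Set.range mX)
      (fun _ => ⟨mX [], Set.mem_range_self _⟩) ?_ ?_
    · intro j h0
      obtain ⟨v, hv⟩ := h0
      have h1 := hmX v
      rw [hv, norm_zero] at h1
      exact zero_ne_one h1
    · intro j x hx S hScl hSfd ε hε
      obtain ⟨v, rfl⟩ := hx
      obtain ⟨a', w, hw, hlt⟩ := exists_near_of_sum_bound (fun a => mX (a :: v) - mX v) C
        (hsX v) S hScl hSfd ε hε
      refine ⟨mX (a' :: v), Set.mem_range_self _, w, hw, ?_, ?_, ?_⟩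
      · rw [hmX v, mul_one]; exact hlt.le
      · rw [hmX v, mul_one, hdX v a']
      · rw [hmX v, hmX (a' :: v), mul_one]; linarith
  constructor
  · intro hfd
    refine main (fun x => ‖x‖) (fun x y => norm_add_le x y)
      (fun r x => by rw [norm_smul, Real.norm_eq_abs]) 1 1 one_pos (fun x => by simp) ?_
    intro t ht
    refine ⟨t, ht, fun x _ => ⟨⊥, ?_, ?_, ?_⟩⟩
    · rw [Submodule.bot_coe]; exact isClosed_singleton
    · infer_instance
    · intro y hy hy1
      rw [Submodule.mem_bot] at hy
      rw [hy, norm_zero] at hy1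
      exact absurd hy1 zero_ne_one
  · intro N hEq hAUC
    obtain ⟨hsub, hhom, a, b, ha, hab⟩ := hEq
    refine main N hsub hhom a b ha hab ?_
    intro t ht
    obtain ⟨c, hc, h⟩ := hAUC t ht
    refine ⟨c, hc, fun x hx => ?_⟩
    obtain ⟨F, ⟨S, hSF, hFcl, hfd⟩, hF⟩ := h x hx
    subst hSF
    exact ⟨S, hFcl, hfd, fun y hy => hF y hy⟩

end Crest.Agent.S0169
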