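import Crest.Statements.S0328
import Crest.Agent.R211_S0328_Geom

set_option autoImplicit false
open MeasureTheory
open scoped ENNReal
open Crest Crest.GeometryTopology Crest.GeometryTopology.Convex

namespace Crest.Agent.S0328

open Crest.Agent.R211.S0328 in
/-- Unit e; a, b, p₀ ∈ e^⊥, a, b independent; α < β; L > 0; R ≥ 0, λ both continuous on [α, β]; w(t) ∈ e^⊥, w′ = λ(t)(a + tb). S = {p₀ + ρ(a + t b) + s(e + w t) : α ≤ t ≤ β, 0 ≤ ρ ≤ R t, ‖s‖ ≤ L}; A = κ ∫_α^β R²/(2√(1 + ‖w‖²)), κ = area spanned by a, b. For η > 0 a δ > 0 makes each partition t₀ < … < t_N of [α, β] of mesh ≤ δ, tags cᵢ, admit N cylinders (axes e + w(cᵢ), nondegenerate triangle bases) covering S, total area within η of A; same for S's pieces tᵢ ≤ t ≤ tᵢ₊₁ projected along these axes. -/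
theorem result
    (e a b p₀ : EuclideanSpace ℝ (Fin 3)) (he : ‖e‖ = 1)
    (ha : inner ℝ a e = 0) (hb : inner ℝ b e = 0) (hp₀ : inner ℝ p₀ e = 0)
    (hab : LinearIndependent ℝ ![a, b]) (L : ℝ) (hL : 0 < L) (α β : ℝ) (hαβ : α < β)
    (R : ℝ → ℝ) (hR : ContinuousOn R (Set.Icc α β)) (hR0 : ∀ t ∈ Set.Icc α β, 0 ≤ R t)
    (w : ℝ → EuclideanSpace ℝ (Fin 3)) (hw : ∀ t ∈ Set.Icc α β, inner ℝ (w t) e = 0)
    (lam : ℝ → ℝ) (hlam : ContinuousOn lam (Set.Icc α β))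
    (hw' : ∀ t ∈ Set.Icc α β, HasDerivWithinAt w (lam t • (a + t • b)) (Set.Icc α β) t)
    (η : ℝ) (hη : 0 < η) :
    ∃ δ : ℝ, 0 < δ ∧ ∀ (N : ℕ) (t : Fin (N + 1) → ℝ) (c : Fin N → ℝ),
      StrictMono t → t 0 = α → t (Fin.last N) = β →
      (∀ i : Fin N, t i.succ - t i.castSucc ≤ δ) →
      (∀ i : Fin N, t i.castSucc ≤ c i ∧ c i ≤ t i.succ) →
      (∃ (p q r : Fin N → EuclideanSpace ℝ (Fin 3)),
        (∀ i, inner ℝ (p i) (e + w (c i)) = 0 ∧ inner ℝ (q i) (e + w (c i)) = 0 ∧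
          inner ℝ (r i) (e + w (c i)) = 0) ∧
        (∀ i, AffineIndependent ℝ ![p i, q i, r i]) ∧
        {x : EuclideanSpace ℝ (Fin 3) | ∃ τ ∈ Set.Icc α β, ∃ ρ ∈ Set.Icc 0 (R τ), ∃ s : ℝ, abs s ≤ L ∧
            x = p₀ + ρ • (a + τ • b) + s • (e + w τ)} ⊆
          ⋃ i, {x : EuclideanSpace ℝ (Fin 3) | ∃ y ∈ convexHull ℝ {p i, q i, r i}, ∃ σ : ℝ,
            x = y + σ • (e + w (c i))} ∧
        abs ((∑ i, (μHE[2] (convexHull ℝ ({p i, q i, r i} : Set (EuclideanSpace ℝ (Fin 3))))).toReal) -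
            Real.sqrt (‖a‖ ^ 2 * ‖b‖ ^ 2 - inner ℝ a b ^ 2) *
              ∫ τ in α..β, R τ ^ 2 / (2 * Real.sqrt (1 + ‖w τ‖ ^ 2))) ≤ η) ∧
      abs ((∑ i : Fin N, (μHE[2] ((fun y => y - (inner ℝ y (e + w (c i)) / ‖e + w (c i)‖ ^ 2) • (e + w (c i))) ''
            {x : EuclideanSpace ℝ (Fin 3) | ∃ τ ∈ Set.Icc (t i.castSucc) (t i.succ), ∃ ρ ∈ Set.Icc 0 (R τ),
              ∃ s : ℝ, abs s ≤ L ∧ x = p₀ + ρ • (a + τ • b) + s • (e + w τ)})).toReal) -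
          Real.sqrt (‖a‖ ^ 2 * ‖b‖ ^ 2 - inner ℝ a b ^ 2) *
            ∫ τ in α..β, R τ ^ 2 / (2 * Real.sqrt (1 + ‖w τ‖ ^ 2))) ≤ η := by
  have hG := gram2_pos hab
  have hκeq : Real.sqrt (‖a‖ ^ 2 * ‖b‖ ^ 2 - inner ℝ a b ^ 2) = Real.sqrt (gram2 a b) := rfl
  rw [hκeq]
  obtain ⟨κ, hκdef⟩ : ∃ κ : ℝ, κ = Real.sqrt (gram2 a b) := ⟨_, rfl⟩
  rw [← hκdef]
  have hκ : 0 < κ := by rw [hκdef]; exact Real.sqrt_pos.mpr hG
  have hcomp : IsCompact (Set.Icc α β) := isCompact_Icc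
  have hne : (Set.Icc α β).Nonempty := Set.nonempty_Icc.mpr hαβ.le
  obtain ⟨B, hB1, hB⟩ : ∃ B : ℝ, 1 ≤ B ∧ ∀ τ ∈ Set.Icc α β, R τ ≤ B := by
    obtain ⟨x, hx, hmax⟩ := hcomp.exists_isMaxOn hne hR
    exact ⟨max 1 (R x), le_max_left _ _, fun τ hτ => (hmax hτ).trans (le_max_right _ _)⟩
  obtain ⟨Λ, hΛ0, hΛ⟩ : ∃ Λ : ℝ, 0 < Λ ∧ ∀ τ ∈ Set.Icc α β, |lam τ| ≤ Λ := by
    obtain ⟨x, hx, hmax⟩ := hcomp.exists_isMaxOn hne hlam.abs
    exact ⟨max 1 (|lam x|), lt_of_lt_of_le one_pos (le_max_left _ _),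
      fun τ hτ => (hmax hτ).trans (le_max_right _ _)⟩
  have hwc : ContinuousOn w (Set.Icc α β) := fun t ht => (hw' t ht).continuousWithinAt
  obtain ⟨f, hf⟩ : ∃ f : ℝ → ℝ, ∀ τ, f τ = R τ ^ 2 / (2 * Real.sqrt (1 + ‖w τ‖ ^ 2)) :=
    ⟨_, fun _ => rfl⟩
  have hfc : ContinuousOn f (Set.Icc α β) := by
    have : f = fun τ => R τ ^ 2 / (2 * Real.sqrt (1 + ‖w τ‖ ^ 2)) := funext hf
    rw [this]
    refine ContinuousOn.div (hR.pow 2) (continuousOn_const.mul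
      (Real.continuous_sqrt.comp_continuousOn (continuousOn_const.add (hwc.norm.pow 2)))) ?_
    intro x _
    positivity
  have hint_eq : (∫ τ in α..β, R τ ^ 2 / (2 * Real.sqrt (1 + ‖w τ‖ ^ 2))) = ∫ τ in α..β, f τ := by
    simp only [hf]
  rw [hint_eq]
  have hfu := hcomp.uniformContinuousOn_of_continuous hfc
  have hRu := hcomp.uniformContinuousOn_of_continuous hR
  rw [Metric.uniformContinuousOn_iff_le] at hfu hRu
  have hβα : 0 < β - α := sub_pos.mpr hαβ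
  obtain ⟨ε₀, hε₀⟩ : ∃ ε₀ : ℝ, ε₀ = η / (κ * (β - α)) := ⟨_, rfl⟩
  have hε₀pos : 0 < ε₀ := by rw [hε₀]; positivity
  have hB0 : 0 < B := by linarith
  obtain ⟨θ, hθ⟩ : ∃ θ : ℝ, θ = ε₀ / (16 * B ^ 2) := ⟨_, rfl⟩
  have hθpos : 0 < θ := by rw [hθ]; positivity
  obtain ⟨K, hK⟩ : ∃ K : ℝ, K = L * Λ * (1 + 1 / θ) := ⟨_, rfl⟩
  have hKpos : 0 < K := by rw [hK]; positivity
  obtain ⟨ε₁, hε₁⟩ : ∃ ε₁ : ℝ, ε₁ = min 1 (ε₀ / (8 * B)) := ⟨_, rfl⟩
  have hε₁pos : 0 < ε₁ := by rw [hε₁]; exact lt_min one_pos (by positivity)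
  have hε₁1 : ε₁ ≤ 1 := by rw [hε₁]; exact min_le_left _ _
  have hε₁2 : ε₁ ≤ ε₀ / (8 * B) := by rw [hε₁]; exact min_le_right _ _
  obtain ⟨ω, hω⟩ : ∃ ω : ℝ, ω = ε₁ / 2 := ⟨_, rfl⟩
  have hωpos : 0 < ω := by rw [hω]; positivity
  obtain ⟨δR, hδR, hRuc⟩ := hRu ω hωpos
  obtain ⟨δf, hδf, hfuc⟩ := hfu (ε₀ / 2) (by positivity)
  refine ⟨min (min δR δf) (ε₁ / (4 * K)), lt_min (lt_min hδR hδf) (by positivity), ?_⟩
  intro N t c hmono h0 hlast hmesh htag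
  have hδ1 : ∀ i : Fin N, t i.succ - t i.castSucc ≤ δR := fun i =>
    (hmesh i).trans ((min_le_left _ _).trans (min_le_left _ _))
  have hδ2 : ∀ i : Fin N, t i.succ - t i.castSucc ≤ δf := fun i =>
    (hmesh i).trans ((min_le_left _ _).trans (min_le_right _ _))
  have hδ3 : ∀ i : Fin N, t i.succ - t i.castSucc ≤ ε₁ / (4 * K) := fun i =>
    (hmesh i).trans (min_le_right _ _)
  have hmon : Monotone t := hmono.monotone
  have htα : ∀ j : Fin (N + 1), α ≤ t j := fun j => h0 ▸ hmon (Fin.zero_le j)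
  have htβ : ∀ j : Fin (N + 1), t j ≤ β := fun j => hlast ▸ hmon (Fin.le_last j)
  have hlt : ∀ i : Fin N, t i.castSucc < t i.succ := fun i => hmono Fin.castSucc_lt_succ
  have hcI : ∀ i : Fin N, c i ∈ Set.Icc α β := fun i =>
    ⟨(htα _).trans (htag i).1, (htag i).2.trans (htβ _)⟩
  have hcP : ∀ i : Fin N, c i ∈ Set.Icc (t i.castSucc) (t i.succ) := fun i => htag i
  have hsubI : ∀ i : Fin N, Set.Icc (t i.castSucc) (t i.succ) ⊆ Set.Icc α β := fun i =>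
    Set.Icc_subset_Icc (htα _) (htβ _)
  -- oscillation of R and f on the pieces
  have hRpiece : ∀ i : Fin N, ∀ τ ∈ Set.Icc (t i.castSucc) (t i.succ), |R τ - R (c i)| ≤ ω := by
    intro i τ hτ
    have hd : dist τ (c i) ≤ δR := by
      rw [Real.dist_eq, abs_le]
      constructor <;> linarith [hτ.1, hτ.2, (htag i).1, (htag i).2, hδ1 i]
    have := hRuc τ (hsubI i hτ) (c i) (hcI i) hd
    rwa [Real.dist_eq] at this
  have hfpiece : ∀ i : Fin N, ∀ τ ∈ Set.Icc (t i.castSucc) (t i.succ),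
      |f (c i) - f τ| ≤ ε₀ / 2 := by
    intro i τ hτ
    have hd : dist (c i) τ ≤ δf := by
      rw [Real.dist_eq, abs_le]
      constructor <;> linarith [hτ.1, hτ.2, (htag i).1, (htag i).2, hδ2 i]
    have := hfuc (c i) (hcI i) τ (hsubI i hτ) hd
    rwa [Real.dist_eq] at this
  -- the parameters of the outer triangles
  obtain ⟨Mf, hMf⟩ : ∃ Mf : Fin N → ℝ, ∀ i, Mf i = R (c i) + ω := ⟨_, fun _ => rfl⟩
  obtain ⟨mf, hmf⟩ : ∃ mf : Fin N → ℝ, ∀ i, mf i = K * (t i.succ - t i.castSucc) :=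
    ⟨_, fun _ => rfl⟩
  obtain ⟨k₁, hk₁⟩ : ∃ k₁ : Fin N → ℝ, ∀ i, k₁ i =
      t i.castSucc - c i - θ * (t i.succ - t i.castSucc) := ⟨_, fun _ => rfl⟩
  obtain ⟨k₂, hk₂⟩ : ∃ k₂ : Fin N → ℝ, ∀ i, k₂ i =
      t i.succ - c i + θ * (t i.succ - t i.castSucc) := ⟨_, fun _ => rfl⟩
  obtain ⟨r₀, hr₀⟩ : ∃ r₀ : Fin N → ℝ, ∀ i, r₀ i = max (R (c i) - ω) 0 := ⟨_, fun _ => rfl⟩
  obtain ⟨hden, hhden⟩ : ∃ hden : Fin N → ℝ, ∀ i, hden i = 2 * Real.sqrt (1 + ‖w (c i)‖ ^ 2) :=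
    ⟨_, fun _ => rfl⟩
  have hden2 : ∀ i, 2 ≤ hden i := by
    intro i
    rw [hhden]
    have : (1 : ℝ) ≤ Real.sqrt (1 + ‖w (c i)‖ ^ 2) := by
      rw [Real.one_le_sqrt]; nlinarith [sq_nonneg ‖w (c i)‖]
    linarith
  have hMbound : ∀ i : Fin N, ∀ τ ∈ Set.Icc (t i.castSucc) (t i.succ), R τ ≤ Mf i := by
    intro i τ hτ
    have := abs_le.mp (hRpiece i τ hτ)
    rw [hMf]; linarith
  have hr₀bound : ∀ i : Fin N, ∀ τ ∈ Set.Icc (t i.castSucc) (t i.succ), r₀ i ≤ R τ := by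
    intro i τ hτ
    have := abs_le.mp (hRpiece i τ hτ)
    rw [hr₀]
    exact max_le (by linarith) (hR0 τ (hsubI i hτ))
  have hr₀0 : ∀ i, 0 ≤ r₀ i := fun i => by rw [hr₀]; exact le_max_right _ _
  have hΔ : ∀ i : Fin N, 0 < t i.succ - t i.castSucc := fun i => sub_pos.mpr (hlt i)
  have hLΛ : 0 < L * Λ := mul_pos hL hΛ0
  have hm1 : ∀ i : Fin N, L * Λ * (t i.succ - t i.castSucc) ≤ mf i := by
    intro i
    rw [hmf, hK]
    have h1 : 0 ≤ L * Λ * (t i.succ - t i.castSucc) * (1 / θ) := by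
      have := hΔ i
      positivity
    nlinarith
  have hm2 : ∀ i : Fin N, L * Λ * (t i.succ - t i.castSucc) ≤
      θ * (mf i - L * Λ * (t i.succ - t i.castSucc)) := by
    intro i
    rw [hmf, hK]
    have : θ * (L * Λ * (1 + 1 / θ) * (t i.succ - t i.castSucc) -
        L * Λ * (t i.succ - t i.castSucc)) = L * Λ * (t i.succ - t i.castSucc) := by
      field_simp
      ring
    rw [this]
  have hmpos : ∀ i, 0 < mf i := fun i => by rw [hmf]; exact mul_pos hKpos (hΔ i)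
  have hMpos : ∀ i, 0 < Mf i := fun i => by rw [hMf]; linarith [hR0 (c i) (hcI i)]
  have hD : ∀ i, 0 < Mf i + 2 * mf i := fun i => by linarith [hmpos i, hMpos i]
  have hk12 : ∀ i, k₁ i < k₂ i := by
    intro i
    rw [hk₁, hk₂]
    have := mul_pos hθpos (hΔ i)
    linarith [hlt i]
  have hwe : ∀ i : Fin N, inner ℝ (w (c i)) e = 0 := fun i => hw (c i) (hcI i)
  have hn0 : ∀ i : Fin N, e + w (c i) ≠ 0 := by
    intro i h
    have h1 : inner ℝ (e + w (c i)) e = 0 := by rw [h]; simp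
    rw [inner_add_left, hwe i, real_inner_self_eq_norm_sq, he] at h1
    norm_num at h1
  -- projected pieces are inside the outer triangles
  have hsubset : ∀ i : Fin N, (projL (e + w (c i))) '' {x : E3 |
        ∃ τ ∈ Set.Icc (t i.castSucc) (t i.succ), ∃ ρ ∈ Set.Icc 0 (R τ), ∃ s : ℝ,
        |s| ≤ L ∧ x = p₀ + ρ • (a + τ • b) + s • (e + w τ)} ⊆
      convexHull ℝ ({projL (e + w (c i)) (vA a b p₀ (mf i) (c i)),
        projL (e + w (c i)) (vB a b p₀ (Mf i) (mf i) (c i) (k₁ i)),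
        projL (e + w (c i)) (vB a b p₀ (Mf i) (mf i) (c i) (k₂ i))} : Set E3) := by
    intro i
    rw [hk₁, hk₂]
    exact proj_piece_subset he ha hb hab hw hw' hΛ hL.le (htα _) (htβ _) (hcP i) (hlt i)
      (hMbound i) hθpos (hm1 i) (hm2 i) (hD i)
  -- areas of the outer triangles
  obtain ⟨gO, hgO⟩ : ∃ gO : Fin N → ℝ, ∀ i, gO i =
      (1 + 2 * θ) * (Mf i + 2 * mf i) ^ 2 / hden i := ⟨_, fun _ => rfl⟩
  obtain ⟨gI, hgI⟩ : ∃ gI : Fin N → ℝ, ∀ i, gI i = r₀ i ^ 2 / hden i := ⟨_, fun _ => rfl⟩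
  have hgO0 : ∀ i, 0 ≤ gO i := by
    intro i
    rw [hgO]
    have := hden2 i
    positivity
  have hgI0 : ∀ i, 0 ≤ gI i := by
    intro i
    rw [hgI]
    have := hden2 i
    positivity
  have harea : ∀ i : Fin N, μHE[2] (convexHull ℝ ({projL (e + w (c i)) (vA a b p₀ (mf i) (c i)),
        projL (e + w (c i)) (vB a b p₀ (Mf i) (mf i) (c i) (k₁ i)),
        projL (e + w (c i)) (vB a b p₀ (Mf i) (mf i) (c i) (k₂ i))} : Set E3)) =
      ENNReal.ofReal (κ * (gO i * (t i.succ - t i.castSucc))) := by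
    intro i
    rw [piece_area he ha hb hab (hwe i) _ _ _ _ _ (hk12 i).le, ← hκdef, hgO, hhden, hk₁, hk₂]
    congr 1
    ring
  have hinner : ∀ i : Fin N, ENNReal.ofReal (κ * (gI i * (t i.succ - t i.castSucc))) ≤
      μHE[2] ((projL (e + w (c i))) '' {x : E3 |
        ∃ τ ∈ Set.Icc (t i.castSucc) (t i.succ), ∃ ρ ∈ Set.Icc 0 (R τ), ∃ s : ℝ,
        |s| ≤ L ∧ x = p₀ + ρ • (a + τ • b) + s • (e + w τ)}) := by
    intro i
    have h := inner_area_le (p₀ := p₀) (w := w) he ha hb hab (hwe i) hL.le (hlt i).le (hr₀0 i)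
      (hr₀bound i)
    rw [← hκdef] at h
    have h2 : κ * (gI i * (t i.succ - t i.castSucc)) =
        r₀ i ^ 2 * (t i.succ - t i.castSucc) * κ / (2 * Real.sqrt (1 + ‖w (c i)‖ ^ 2)) := by
      rw [hgI, hhden]; ring
    rw [h2]
    exact h
  -- Riemann sums
  have hint : ∀ i j : Fin (N + 1), IntervalIntegrable f volume (t i) (t j) := fun i j =>
    (hfc.mono (Set.uIcc_subset_Icc ⟨htα i, htβ i⟩ ⟨htα j, htβ j⟩)).intervalIntegrable
  have hfci : ∀ i : Fin N, f (c i) = R (c i) ^ 2 / hden i := fun i => by rw [hf, hhden]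
  have hRc0 : ∀ i : Fin N, 0 ≤ R (c i) := fun i => hR0 _ (hcI i)
  have hRcB : ∀ i : Fin N, R (c i) ≤ B := fun i => hB _ (hcI i)
  have hpO : ∀ i : Fin N, ∀ τ ∈ Set.Icc (t i.castSucc) (t i.succ), |gO i - f τ| ≤ ε₀ := by
    intro i τ hτ
    have hε' : ω + 2 * mf i ≤ ε₁ := by
      rw [hmf, hω]
      have h1 := hδ3 i
      have h2 : K * (ε₁ / (4 * K)) = ε₁ / 4 := by field_simp
      have h3 := mul_le_mul_of_nonneg_left h1 hKpos.le
      linarith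
    have h1 := bound_outer (h := hden i) hB1 hε₀pos (hRc0 i) (hRcB i)
      (by linarith [hmpos i] : 0 ≤ ω + 2 * mf i) (hε'.trans hε₁1) (hε'.trans hε₁2) (hden2 i)
    have h2 := hfpiece i τ hτ
    have h3 : gO i = (1 + 2 * (ε₀ / (16 * B ^ 2))) * (R (c i) + (ω + 2 * mf i)) ^ 2 / hden i := by
      rw [hgO, hMf, hθ]; ring
    rw [h3]
    rw [← hfci] at h1
    have := abs_sub_le ((1 + 2 * (ε₀ / (16 * B ^ 2))) * (R (c i) + (ω + 2 * mf i)) ^ 2 / hden i)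
      (f (c i)) (f τ)
    linarith
  have hpI : ∀ i : Fin N, ∀ τ ∈ Set.Icc (t i.castSucc) (t i.succ), |gI i - f τ| ≤ ε₀ := by
    intro i τ hτ
    have hω' : ω ≤ ε₀ / (16 * B) := by
      rw [hω]
      have : ε₀ / (8 * B) / 2 = ε₀ / (16 * B) := by field_simp; ring
      linarith
    have h1 := bound_inner (h := hden i) hB1 hε₀pos (hRc0 i) (hRcB i) hωpos.le hω' (hden2 i)
    have h2 := hfpiece i τ hτ
    rw [← hfci, ← hr₀, ← hgI] at h1
    have := abs_sub_le (gI i) (f (c i)) (f τ)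
    linarith
  have hηeq : κ * (ε₀ * (β - α)) = η := by
    rw [hε₀]; field_simp
  have hsumO : |∑ i : Fin N, κ * (gO i * (t i.succ - t i.castSucc)) - κ * ∫ τ in α..β, f τ| ≤ η := by
    have h := riemann_sum_close f ε₀ N t gO hmon hint hpO
    rw [h0, hlast] at h
    rw [← Finset.mul_sum, ← mul_sub, abs_mul, abs_of_pos hκ, ← hηeq]
    exact mul_le_mul_of_nonneg_left h hκ.le
  have hsumI : |∑ i : Fin N, κ * (gI i * (t i.succ - t i.castSucc)) - κ * ∫ τ in α..β, f τ| ≤ η := by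
    have h := riemann_sum_close f ε₀ N t gI hmon hint hpI
    rw [h0, hlast] at h
    rw [← Finset.mul_sum, ← mul_sub, abs_mul, abs_of_pos hκ, ← hηeq]
    exact mul_le_mul_of_nonneg_left h hκ.le
  have hO0 : ∀ i : Fin N, 0 ≤ κ * (gO i * (t i.succ - t i.castSucc)) := fun i =>
    mul_nonneg hκ.le (mul_nonneg (hgO0 i) (hΔ i).le)
  have hI0 : ∀ i : Fin N, 0 ≤ κ * (gI i * (t i.succ - t i.castSucc)) := fun i =>
    mul_nonneg hκ.le (mul_nonneg (hgI0 i) (hΔ i).le)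
  refine ⟨⟨fun i => projL (e + w (c i)) (vA a b p₀ (mf i) (c i)),
    fun i => projL (e + w (c i)) (vB a b p₀ (Mf i) (mf i) (c i) (k₁ i)),
    fun i => projL (e + w (c i)) (vB a b p₀ (Mf i) (mf i) (c i) (k₂ i)), ?_, ?_, ?_, ?_⟩, ?_⟩
  · intro i
    exact ⟨inner_projL_self (hn0 i) _, inner_projL_self (hn0 i) _, inner_projL_self (hn0 i) _⟩
  · intro i
    exact piece_affine he ha hb hab (hwe i) _ _ _ _ _ (hD i).ne' (hk12 i)
  · rintro x ⟨τ, hτ, ρ, hρ, s, hs, rfl⟩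
    obtain ⟨i, hi1, hi2⟩ := exists_piece N t τ (h0 ▸ hτ.1) (hlast ▸ hτ.2) (by rw [h0, hlast]; exact hαβ)
    rw [Set.mem_iUnion]
    refine ⟨i, projL (e + w (c i)) (p₀ + ρ • (a + τ • b) + s • (e + w τ)), ?_,
      inner ℝ (p₀ + ρ • (a + τ • b) + s • (e + w τ)) (e + w (c i)) / ‖e + w (c i)‖ ^ 2, ?_⟩
    · exact hsubset i ⟨_, ⟨τ, ⟨hi1, hi2⟩, ρ, hρ, s, hs, rfl⟩, rfl⟩
    · rw [projL_apply, sub_add_cancel]
  · have : ∀ i : Fin N, (μHE[2] (convexHull ℝ ({projL (e + w (c i)) (vA a b p₀ (mf i) (c i)),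
        projL (e + w (c i)) (vB a b p₀ (Mf i) (mf i) (c i) (k₁ i)),
        projL (e + w (c i)) (vB a b p₀ (Mf i) (mf i) (c i) (k₂ i))} : Set E3))).toReal =
        κ * (gO i * (t i.succ - t i.castSucc)) := fun i => by
      rw [harea i, ENNReal.toReal_ofReal (hO0 i)]
    simp only [this]
    exact hsumO
  · have hV : ∀ i : Fin N,
        κ * (gI i * (t i.succ - t i.castSucc)) ≤ (μHE[2] ((projL (e + w (c i))) '' {x : E3 |
          ∃ τ ∈ Set.Icc (t i.castSucc) (t i.succ), ∃ ρ ∈ Set.Icc 0 (R τ), ∃ s : ℝ,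
          |s| ≤ L ∧ x = p₀ + ρ • (a + τ • b) + s • (e + w τ)})).toReal ∧
        (μHE[2] ((projL (e + w (c i))) '' {x : E3 |
          ∃ τ ∈ Set.Icc (t i.castSucc) (t i.succ), ∃ ρ ∈ Set.Icc 0 (R τ), ∃ s : ℝ,
          |s| ≤ L ∧ x = p₀ + ρ • (a + τ • b) + s • (e + w τ)})).toReal ≤
          κ * (gO i * (t i.succ - t i.castSucc)) := by
      intro i
      have hup := (measure_mono (μ := μHE[2]) (hsubset i)).trans_eq (harea i)
      have hfin : μHE[2] ((projL (e + w (c i))) '' {x : E3 |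
          ∃ τ ∈ Set.Icc (t i.castSucc) (t i.succ), ∃ ρ ∈ Set.Icc 0 (R τ), ∃ s : ℝ,
          |s| ≤ L ∧ x = p₀ + ρ • (a + τ • b) + s • (e + w τ)}) ≠ ⊤ :=
        ne_top_of_le_ne_top ENNReal.ofReal_ne_top hup
      constructor
      · have := ENNReal.toReal_mono hfin (hinner i)
        rwa [ENNReal.toReal_ofReal (hI0 i)] at this
      · have := ENNReal.toReal_mono ENNReal.ofReal_ne_top hup
        rwa [ENNReal.toReal_ofReal (hO0 i)] at this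
    have hlow := Finset.sum_le_sum (fun i (_ : i ∈ Finset.univ) => (hV i).1)
    have hupp := Finset.sum_le_sum (fun i (_ : i ∈ Finset.univ) => (hV i).2)
    have hO := abs_le.mp hsumO
    have hI := abs_le.mp hsumI
    rw [abs_le]
    constructor
    · exact le_trans hI.1 (sub_le_sub_right hlow _)
    · exact le_trans (sub_le_sub_right hupp _) hO.2

end Crest.Agent.S0328
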