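import Crest.Agent.S0423_Defs

/-!
# S0423, WP-C : the comparison theorem (owner: helper6)

`compare`: a continuous, strictly-between-0-and-1, log-concave (LC4) "cdf" `F` with the mean-zero identity
dominates, in the `wt`-weighted integral over `Iic (4/3)`, one member `Fexp t` (`t ≥ 1/3`) of the
exponential family.
-/

set_option autoImplicit false
open MeasureTheory Set Filter Topology

namespace Crest.Agent.S0423

/-! ## quasi-concavity from midpoint log-concavity -/

theorem quasiconcave_of_mid (R : ℝ → ℝ) (hRc : Continuous R) (hRpos : ∀ s, 0 < R s)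
    (hmid : ∀ x y, R x * R y ≤ R ((x + y) / 2) ^ 2) {s1 s s2 : ℝ} (h1 : s1 ≤ s) (h2 : s ≤ s2) :
    min (R s1) (R s2) ≤ R s := by
  by_contra hcon
  push Not at hcon
  have hne : (Icc s1 s2).Nonempty := ⟨s, h1, h2⟩
  obtain ⟨z, hz, hzmin⟩ := isCompact_Icc.exists_isMinOn hne hRc.continuousOn
  have hzs : R z ≤ R s := hzmin ⟨h1, h2⟩
  have hz1 : R z < R s1 := lt_of_le_of_lt hzs (lt_of_lt_of_le hcon (min_le_left _ _))
  have hz2 : R z < R s2 := lt_of_le_of_lt hzs (lt_of_lt_of_le hcon (min_le_right _ _))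
  have hzne1 : z ≠ s1 := fun h => by rw [h] at hz1; exact lt_irrefl _ hz1
  have hzne2 : z ≠ s2 := fun h => by rw [h] at hz2; exact lt_irrefl _ hz2
  have hlt1 : s1 < z := lt_of_le_of_ne hz.1 (Ne.symm hzne1)
  have hlt2 : z < s2 := lt_of_le_of_ne hz.2 hzne2
  have hz0 := hRpos z
  rcases le_total (z - s1) (s2 - z) with hδ | hδ
  · have hy : (2 * z - s1) ∈ Icc s1 s2 := ⟨by linarith, by linarith⟩
    have hRy : R z ≤ R (2 * z - s1) := hzmin hy
    have hm := hmid s1 (2 * z - s1)
    have he : (s1 + (2 * z - s1)) / 2 = z := by ring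
    rw [he] at hm
    nlinarith
  · have hy : (2 * z - s2) ∈ Icc s1 s2 := ⟨by linarith, by linarith⟩
    have hRy : R z ≤ R (2 * z - s2) := hzmin hy
    have hm := hmid (2 * z - s2) s2
    have he : ((2 * z - s2) + s2) / 2 = z := by ring
    rw [he] at hm
    nlinarith

/-! ## the two sign-change lemmas -/

theorem left_lemma (D w : ℝ → ℝ) (c : ℝ) (hD : IntegrableOn D (Iic c))
    (hDw : IntegrableOn (fun s => D s * w s) (Iic c)) (h0 : ∫ s in Iic c, D s = 0)
    (hUL : ∀ s1 s2, s1 ≤ s2 → s2 ≤ c → 0 < D s1 → 0 ≤ D s2) (hw : MonotoneOn w (Iic c)) :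
    0 ≤ ∫ s in Iic c, D s * w s := by
  by_cases h : ∀ s, s ≤ c → 0 ≤ D s
  · have hae : 0 ≤ᵐ[volume.restrict (Iic c)] D := by
      filter_upwards [ae_restrict_mem measurableSet_Iic] with s hs using h s hs
    have hz : D =ᵐ[volume.restrict (Iic c)] 0 :=
      (setIntegral_eq_zero_iff_of_nonneg_ae hae hD).1 h0
    have : ∫ s in Iic c, D s * w s = 0 := by
      apply integral_eq_zero_of_ae
      filter_upwards [hz] with s hs
      simp [hs]
    rw [this]
  · push Not at h
    obtain ⟨s0, hs0c, hs0⟩ := h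
    set A : Set ℝ := {s | s ≤ c ∧ D s < 0} with hA
    have hAne : A.Nonempty := ⟨s0, hs0c, hs0⟩
    have hAbdd : BddAbove A := ⟨c, fun s hs => hs.1⟩
    set a := sSup A with ha
    have hac : a ≤ c := csSup_le hAne (fun s hs => hs.1)
    have hleft : ∀ s, s < a → D s ≤ 0 := by
      intro s hs
      obtain ⟨s', hs'A, hss'⟩ := exists_lt_of_lt_csSup hAne hs
      by_contra hpos
      push Not at hpos
      have := hUL s s' hss'.le hs'A.1 hpos
      linarith [hs'A.2]
    have hright : ∀ s, a < s → s ≤ c → 0 ≤ D s := by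
      intro s hs hsc
      by_contra hneg
      push Not at hneg
      have : s ≤ a := le_csSup hAbdd ⟨hsc, hneg⟩
      linarith
    have hpt : ∀ s ∈ Iic c, 0 ≤ D s * (w s - w a) := by
      intro s hs
      rcases lt_trichotomy s a with hlt | heq | hgt
      · have h1 := hleft s hlt
        have h2 : w s ≤ w a := hw hs hac hlt.le
        nlinarith
      · rw [heq]; simp
      · have h1 := hright s hgt hs
        have h2 : w a ≤ w s := hw hac hs hgt.le
        nlinarith
    have hint2 : IntegrableOn (fun s => D s * (w s - w a)) (Iic c) := by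
      have : (fun s => D s * (w s - w a)) = fun s => D s * w s - w a * D s := by
        ext s; ring
      rw [this]; exact hDw.sub (hD.const_mul _)
    have hsplit : ∫ s in Iic c, D s * w s
        = (∫ s in Iic c, D s * (w s - w a)) + w a * ∫ s in Iic c, D s := by
      rw [← integral_const_mul, ← integral_add hint2 (hD.const_mul _)]
      congr 1; ext s; ring
    rw [hsplit, h0, mul_zero, add_zero]
    exact setIntegral_nonneg measurableSet_Iic hpt

theorem right_lemma (D w : ℝ → ℝ) (c : ℝ) (hD : IntegrableOn D (Ioi c))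
    (hDw : IntegrableOn (fun s => D s * w s) (Ioi c)) (h0 : ∫ s in Ioi c, D s = 0)
    (hUR : ∀ s1 s2, c ≤ s1 → s1 ≤ s2 → 0 < D s2 → 0 ≤ D s1) (hw : AntitoneOn w (Ici c)) :
    0 ≤ ∫ s in Ioi c, D s * w s := by
  by_cases h : ∀ s, c < s → 0 ≤ D s
  · have hae : 0 ≤ᵐ[volume.restrict (Ioi c)] D := by
      filter_upwards [ae_restrict_mem measurableSet_Ioi] with s hs using h s hs
    have hz : D =ᵐ[volume.restrict (Ioi c)] 0 :=
      (setIntegral_eq_zero_iff_of_nonneg_ae hae hD).1 h0
    have : ∫ s in Ioi c, D s * w s = 0 := by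
      apply integral_eq_zero_of_ae
      filter_upwards [hz] with s hs
      simp [hs]
    rw [this]
  · push Not at h
    obtain ⟨s0, hs0c, hs0⟩ := h
    set A : Set ℝ := {s | c ≤ s ∧ D s < 0} with hA
    have hAne : A.Nonempty := ⟨s0, hs0c.le, hs0⟩
    have hAbdd : BddBelow A := ⟨c, fun s hs => hs.1⟩
    set b := sInf A with hb
    have hcb : c ≤ b := le_csInf hAne (fun s hs => hs.1)
    have hright : ∀ s, b < s → D s ≤ 0 := by
      intro s hs
      obtain ⟨s', hs'A, hs's⟩ := exists_lt_of_csInf_lt hAne hs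
      by_contra hpos
      push Not at hpos
      have := hUR s' s hs'A.1 hs's.le hpos
      linarith [hs'A.2]
    have hleft : ∀ s, c ≤ s → s < b → 0 ≤ D s := by
      intro s hcs hs
      by_contra hneg
      push Not at hneg
      have : b ≤ s := csInf_le hAbdd ⟨hcs, hneg⟩
      linarith
    have hpt : ∀ s ∈ Ioi c, 0 ≤ D s * (w s - w b) := by
      intro s hs
      have hs' : s ∈ Ici c := mem_Ici.2 (le_of_lt (mem_Ioi.1 hs))
      rcases lt_trichotomy s b with hlt | heq | hgt
      · have h1 := hleft s hs' hlt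
        have h2 : w b ≤ w s := hw hs' hcb hlt.le
        nlinarith
      · rw [heq]; simp
      · have h1 := hright s hgt
        have h2 : w s ≤ w b := hw hcb hs' hgt.le
        nlinarith
    have hint2 : IntegrableOn (fun s => D s * (w s - w b)) (Ioi c) := by
      have : (fun s => D s * (w s - w b)) = fun s => D s * w s - w b * D s := by
        ext s; ring
      rw [this]; exact hDw.sub (hD.const_mul _)
    have hsplit : ∫ s in Ioi c, D s * w s
        = (∫ s in Ioi c, D s * (w s - w b)) + w b * ∫ s in Ioi c, D s := by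
      rw [← integral_const_mul, ← integral_add hint2 (hD.const_mul _)]
      congr 1; ext s; ring
    rw [hsplit, h0, mul_zero, add_zero]
    exact setIntegral_nonneg measurableSet_Ioi hpt

/-! ## the comparison family -/

theorem Fexp_of_le {t s : ℝ} (ht : 0 < t) (hs : s ≤ t) : Fexp t s = Real.exp (s / t - 1) := by
  unfold Fexp
  apply min_eq_right
  rw [Real.exp_le_one_iff]
  have : s / t ≤ 1 := (div_le_one ht).2 hs
  linarith

theorem Fexp_of_ge {t s : ℝ} (ht : 0 < t) (hs : t ≤ s) : Fexp t s = 1 := by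
  unfold Fexp
  apply min_eq_left
  rw [Real.one_le_exp_iff]
  have : 1 ≤ s / t := (one_le_div ht).2 hs
  linarith

theorem Fexp_continuous (t : ℝ) : Continuous (Fexp t) := by
  unfold Fexp
  fun_prop

theorem Fexp_le_one (t s : ℝ) : Fexp t s ≤ 1 := min_le_left _ _

theorem Fexp_pos (t s : ℝ) : 0 < Fexp t s := lt_min one_pos (Real.exp_pos _)

theorem integral_Fexp_Iic {t c : ℝ} (ht : 0 < t) (hc : c ≤ t) :
    IntegrableOn (Fexp t) (Iic c) ∧ ∫ s in Iic c, Fexp t s = t * Real.exp (c / t - 1) := by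
  have hEq : ∀ s ∈ Iic c, Fexp t s = Real.exp (-1) * Real.exp (t⁻¹ * s) := by
    intro s hs
    rw [Fexp_of_le ht (le_trans hs hc), ← Real.exp_add]
    congr 1
    field_simp
    ring
  have hint : IntegrableOn (fun s => Real.exp (-1) * Real.exp (t⁻¹ * s)) (Iic c) :=
    (integrableOn_exp_mul_Iic (inv_pos.2 ht) c).const_mul _
  refine ⟨hint.congr_fun (fun s hs => (hEq s hs).symm) measurableSet_Iic, ?_⟩
  rw [setIntegral_congr_fun measurableSet_Iic hEq, integral_const_mul,
    integral_exp_mul_Iic (inv_pos.2 ht)]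
  have h1 : Real.exp (c / t - 1) = Real.exp (-1) * Real.exp (t⁻¹ * c) := by
    rw [← Real.exp_add]
    congr 1
    field_simp
    ring
  rw [h1]
  field_simp

theorem integral_one_sub_Fexp_Ioi {t c : ℝ} (ht : 0 < t) (hc : c ≤ t) :
    IntegrableOn (fun s => 1 - Fexp t s) (Ioi c) ∧
      ∫ s in Ioi c, (1 - Fexp t s) = t * Real.exp (c / t - 1) - c := by
  have hzero : ∀ s ∈ Ioi t, (1 - Fexp t s) = 0 := by
    intro s hs
    rw [Fexp_of_ge ht (le_of_lt hs)]; ring
  have hcont : Continuous (fun s => 1 - Fexp t s) := continuous_const.sub (Fexp_continuous t)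
  have hi1 : IntegrableOn (fun s => 1 - Fexp t s) (Ioc c t) :=
    (hcont.integrableOn_Icc (a := c) (b := t)).mono_set Ioc_subset_Icc_self
  have hi2 : IntegrableOn (fun s => 1 - Fexp t s) (Ioi t) :=
    (integrableOn_zero).congr_fun (fun s hs => (hzero s hs).symm) measurableSet_Ioi
  have hU : Ioc c t ∪ Ioi t = Ioi c := Ioc_union_Ioi_eq_Ioi hc
  have hdisj : Disjoint (Ioc c t) (Ioi t) := by
    rw [Set.disjoint_left]
    intro x hx hx'
    exact absurd hx.2 (not_le.2 hx')
  refine ⟨by rw [← hU]; exact hi1.union hi2, ?_⟩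
  rw [← hU, setIntegral_union hdisj measurableSet_Ioi hi1 hi2,
    setIntegral_congr_fun measurableSet_Ioi hzero, integral_zero, add_zero]
  -- the integral over `Ioc c t`
  have h3 : ∫ s in Ioc c t, (1 - Fexp t s) = ∫ s in Ioc c t, (1 - Real.exp (-1) * Real.exp (t⁻¹ * s)) := by
    apply setIntegral_congr_fun measurableSet_Ioc
    intro s hs
    show 1 - Fexp t s = 1 - Real.exp (-1) * Real.exp (t⁻¹ * s)
    rw [Fexp_of_le ht hs.2, ← Real.exp_add]
    congr 2
    field_simp
    ring
  rw [h3, ← intervalIntegral.integral_of_le hc]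
  have hderiv : ∀ x ∈ Set.uIcc c t,
      HasDerivAt (fun s => s - Real.exp (-1) * (t * Real.exp (t⁻¹ * s)))
        (1 - Real.exp (-1) * Real.exp (t⁻¹ * x)) x := by
    intro x _
    have h1 : HasDerivAt (fun s : ℝ => t⁻¹ * s) t⁻¹ x := by
      simpa using (hasDerivAt_id x).const_mul t⁻¹
    have h2 := (h1.exp).const_mul t
    have h3 := (h2.const_mul (Real.exp (-1)))
    have h4 := (hasDerivAt_id x).sub h3
    have h5 : (1 - Real.exp (-1) * (t * (Real.exp (t⁻¹ * x) * t⁻¹)))
        = (1 - Real.exp (-1) * Real.exp (t⁻¹ * x)) := by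
      field_simp
    rw [h5] at h4
    exact h4
  have hint : IntervalIntegrable (fun x => 1 - Real.exp (-1) * Real.exp (t⁻¹ * x)) volume c t := by
    apply Continuous.intervalIntegrable
    fun_prop
  rw [intervalIntegral.integral_eq_sub_of_hasDerivAt hderiv hint]
  have h5 : Real.exp (c / t - 1) = Real.exp (-1) * Real.exp (t⁻¹ * c) := by
    rw [← Real.exp_add]
    congr 1
    field_simp
    ring
  have h6 : Real.exp (-1) * Real.exp (t⁻¹ * t) = 1 := by
    rw [← Real.exp_add]
    have : -1 + t⁻¹ * t = 0 := by field_simp; ring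
    rw [this, Real.exp_zero]
  rw [h5]
  have h7 : Real.exp (-1) * (t * Real.exp (t⁻¹ * t)) = t := by
    calc Real.exp (-1) * (t * Real.exp (t⁻¹ * t)) = t * (Real.exp (-1) * Real.exp (t⁻¹ * t)) := by ring
      _ = t := by rw [h6, mul_one]
  rw [h7]
  ring

/-! ## the weight -/

theorem wt_continuous : Continuous wt := by
  unfold wt
  fun_prop

theorem wt_nonneg {s : ℝ} (hs : s ≤ 4 / 3) : 0 ≤ wt s := by
  unfold wt
  have : 0 ≤ 4 / 3 - s := by linarith
  positivity

theorem wt_monotoneOn : MonotoneOn wt (Iic (1 / 3)) := by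
  intro s1 hs1 s2 hs2 h12
  have h1 : s1 ≤ 1 / 3 := hs1
  have h2 : s2 ≤ 1 / 3 := hs2
  unfold wt
  -- u1 = 4/3 - s1 ≥ u2 = 4/3 - s2 ≥ 1
  have hexp : Real.exp (-(4 / 3 - s2)) = Real.exp (-(4 / 3 - s1)) * Real.exp (s2 - s1) := by
    rw [← Real.exp_add]; congr 1; ring
  rw [hexp]
  have hle : s2 - s1 + 1 ≤ Real.exp (s2 - s1) := Real.add_one_le_exp _
  have hpos : 0 < Real.exp (-(4 / 3 - s1)) := Real.exp_pos _
  have hkey : (4 / 3 - s1) ≤ (4 / 3 - s2) * Real.exp (s2 - s1) := by
    have : (4 / 3 - s2) * (s2 - s1 + 1) ≤ (4 / 3 - s2) * Real.exp (s2 - s1) :=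
      mul_le_mul_of_nonneg_left hle (by linarith)
    nlinarith
  calc (4 / 3 - s1) * Real.exp (-(4 / 3 - s1))
      ≤ ((4 / 3 - s2) * Real.exp (s2 - s1)) * Real.exp (-(4 / 3 - s1)) :=
        mul_le_mul_of_nonneg_right hkey hpos.le
    _ = (4 / 3 - s2) * (Real.exp (-(4 / 3 - s1)) * Real.exp (s2 - s1)) := by ring

/-- `wt` truncated to `0` beyond `4/3`. -/
noncomputable def wtp (s : ℝ) : ℝ := (Iic (4 / 3 : ℝ)).indicator wt s

theorem wtp_of_le {s : ℝ} (hs : s ≤ 4 / 3) : wtp s = wt s := by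
  unfold wtp
  exact indicator_of_mem (mem_Iic.2 hs) _

theorem wtp_of_gt {s : ℝ} (hs : 4 / 3 < s) : wtp s = 0 := by
  unfold wtp
  exact indicator_of_notMem (by simpa using hs) _

theorem wtp_nonneg (s : ℝ) : 0 ≤ wtp s := by
  rcases le_or_gt s (4 / 3) with h | h
  · rw [wtp_of_le h]; exact wt_nonneg h
  · rw [wtp_of_gt h]

theorem wtp_antitoneOn : AntitoneOn wtp (Ici (1 / 3)) := by
  intro s1 hs1 s2 hs2 h12
  have h1 : 1 / 3 ≤ s1 := hs1
  have h2 : 1 / 3 ≤ s2 := hs2
  rcases le_or_gt s2 (4 / 3) with h | h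
  · have h1' : s1 ≤ 4 / 3 := le_trans h12 h
    rw [wtp_of_le h, wtp_of_le h1']
    unfold wt
    -- u1 = 4/3 - s1 ≥ u2 = 4/3 - s2 ≥ 0, u1 ≤ 1
    have hexp : Real.exp (-(4 / 3 - s1)) = Real.exp (-(4 / 3 - s2)) * Real.exp (s1 - s2) := by
      rw [← Real.exp_add]; congr 1; ring
    rw [hexp]
    have hle : s1 - s2 + 1 ≤ Real.exp (s1 - s2) := Real.add_one_le_exp _
    have hpos : 0 < Real.exp (-(4 / 3 - s2)) := Real.exp_pos _
    have hkey : (4 / 3 - s2) ≤ (4 / 3 - s1) * Real.exp (s1 - s2) := by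
      have : (4 / 3 - s1) * (s1 - s2 + 1) ≤ (4 / 3 - s1) * Real.exp (s1 - s2) :=
        mul_le_mul_of_nonneg_left hle (by linarith)
      nlinarith
    calc (4 / 3 - s2) * Real.exp (-(4 / 3 - s2))
        ≤ ((4 / 3 - s1) * Real.exp (s1 - s2)) * Real.exp (-(4 / 3 - s2)) :=
          mul_le_mul_of_nonneg_right hkey hpos.le
      _ = (4 / 3 - s1) * (Real.exp (-(4 / 3 - s2)) * Real.exp (s1 - s2)) := by ring
  · rw [wtp_of_gt h]; exact wtp_nonneg _

theorem wt_integrableOn : IntegrableOn wt (Iic (4 / 3)) := by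
  have hg : IntegrableOn (fun s : ℝ => 2 * Real.exp (-(2 / 3)) * Real.exp (1 / 2 * s)) (Iic (4 / 3)) :=
    (integrableOn_exp_mul_Iic (by norm_num : (0 : ℝ) < 1 / 2) (4 / 3)).const_mul _
  refine Integrable.mono' hg wt_continuous.aestronglyMeasurable ?_
  filter_upwards [ae_restrict_mem measurableSet_Iic] with s hs
  have hs' : s ≤ 4 / 3 := hs
  rw [Real.norm_of_nonneg (wt_nonneg hs')]
  unfold wt
  -- u e^{-u} ≤ 2 e^{-u/2}
  have hu : 0 ≤ 4 / 3 - s := by linarith
  have h1 : (4 / 3 - s) / 2 + 1 ≤ Real.exp ((4 / 3 - s) / 2) := Real.add_one_le_exp _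
  have h2 : Real.exp (-(4 / 3 - s)) = Real.exp (-((4 / 3 - s) / 2)) * Real.exp (-((4 / 3 - s) / 2)) := by
    rw [← Real.exp_add]; congr 1; ring
  have h3 : Real.exp (-(2 / 3)) * Real.exp (1 / 2 * s) = Real.exp (-((4 / 3 - s) / 2)) := by
    rw [← Real.exp_add]; congr 1; ring
  have h4 : Real.exp ((4 / 3 - s) / 2) * Real.exp (-((4 / 3 - s) / 2)) = 1 := by
    rw [← Real.exp_add]; simp
  have hpos : 0 < Real.exp (-((4 / 3 - s) / 2)) := Real.exp_pos _
  calc (4 / 3 - s) * Real.exp (-(4 / 3 - s))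
      = (4 / 3 - s) * Real.exp (-((4 / 3 - s) / 2)) * Real.exp (-((4 / 3 - s) / 2)) := by
        rw [h2]; ring
    _ ≤ (2 * Real.exp ((4 / 3 - s) / 2)) * Real.exp (-((4 / 3 - s) / 2)) * Real.exp (-((4 / 3 - s) / 2)) := by
        apply mul_le_mul_of_nonneg_right _ hpos.le
        apply mul_le_mul_of_nonneg_right _ hpos.le
        linarith
    _ = 2 * Real.exp (-((4 / 3 - s) / 2)) := by
        rw [mul_assoc 2, h4]; ring
    _ = 2 * Real.exp (-(2 / 3)) * Real.exp (1 / 2 * s) := by
        rw [mul_assoc, h3]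

/-- a continuous function with values in `[-1,1]` times `wt` is integrable on `Iic (4/3)`. -/
theorem integrableOn_mul_wt (G : ℝ → ℝ) (hG : Continuous G) (hb : ∀ s, |G s| ≤ 1) :
    IntegrableOn (fun s => G s * wt s) (Iic (4 / 3)) := by
  refine Integrable.mono' wt_integrableOn (hG.mul wt_continuous).aestronglyMeasurable ?_
  filter_upwards [ae_restrict_mem measurableSet_Iic] with s hs
  have hs' : s ≤ 4 / 3 := hs
  rw [Real.norm_eq_abs, abs_mul, abs_of_nonneg (wt_nonneg hs')]
  exact mul_le_of_le_one_left (wt_nonneg hs') (hb s)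

/-! ## the comparison theorem -/

theorem compare (F : ℝ → ℝ) (hc : Continuous F) (hpos : ∀ s, 0 < F s) (hlt : ∀ s, F s < 1)
    (hlc : LC4 F) (hI1 : IntegrableOn F (Iic (1 / 3)))
    (hI2 : IntegrableOn (fun s => 1 - F s) (Ioi (1 / 3)))
    (hmean : ∫ s in Ioi (1 / 3 : ℝ), (1 - F s) = (∫ s in Iic (1 / 3 : ℝ), F s) - 1 / 3) :
    ∃ t : ℝ, 1 / 3 ≤ t ∧
      ∫ s in Iic (4 / 3 : ℝ), Fexp t s * wt s ≤ ∫ s in Iic (4 / 3 : ℝ), F s * wt s := by
  have hMc : (1 / 3 : ℝ) ≤ ∫ s in Iic (1 / 3 : ℝ), F s := by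
    have : 0 ≤ ∫ s in Ioi (1 / 3 : ℝ), (1 - F s) :=
      setIntegral_nonneg measurableSet_Ioi (fun s _ => by linarith [hlt s])
    linarith
  -- choice of `t`
  obtain ⟨t, htc, htM⟩ : ∃ t : ℝ, 1 / 3 ≤ t ∧
      t * Real.exp ((1 / 3) / t - 1) = ∫ s in Iic (1 / 3 : ℝ), F s := by
    set M := ∫ s in Iic (1 / 3 : ℝ), F s with hM
    set T := max (1 / 3) (M * Real.exp 1) with hT
    have hcT : (1 / 3 : ℝ) ≤ T := le_max_left _ _
    have hcont : ContinuousOn (fun t : ℝ => t * Real.exp ((1 / 3) / t - 1)) (Icc (1 / 3) T) := by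
      apply ContinuousOn.mul continuousOn_id
      apply Real.continuous_exp.comp_continuousOn
      apply ContinuousOn.sub _ continuousOn_const
      apply ContinuousOn.div continuousOn_const continuousOn_id
      intro x hx
      have : (0 : ℝ) < x := lt_of_lt_of_le (by norm_num) hx.1
      exact this.ne'
    have hivt := intermediate_value_Icc hcT hcont
    have hmem : M ∈ Icc ((1 / 3 : ℝ) * Real.exp ((1 / 3) / (1 / 3) - 1))
        (T * Real.exp ((1 / 3) / T - 1)) := by
      constructor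
      · have : ((1 : ℝ) / 3) / (1 / 3) - 1 = 0 := by norm_num
        rw [this, Real.exp_zero, mul_one]; exact hMc
      · have hT0 : 0 < T := lt_of_lt_of_le (by norm_num) hcT
        have h1 : Real.exp (-1) ≤ Real.exp ((1 / 3) / T - 1) := by
          apply Real.exp_le_exp.2
          have : 0 ≤ (1 / 3) / T := by positivity
          linarith
        have h2 : M * Real.exp 1 ≤ T := le_max_right _ _
        have h3 : Real.exp 1 * Real.exp (-1) = 1 := by rw [← Real.exp_add]; simp
        calc M = M * Real.exp 1 * Real.exp (-1) := by rw [mul_assoc, h3, mul_one]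
          _ ≤ T * Real.exp (-1) := mul_le_mul_of_nonneg_right h2 (Real.exp_pos _).le
          _ ≤ T * Real.exp ((1 / 3) / T - 1) := mul_le_mul_of_nonneg_left h1 hT0.le
    obtain ⟨t, ht, hte⟩ := hivt hmem
    exact ⟨t, ht.1, hte⟩
  have ht0 : 0 < t := lt_of_lt_of_le (by norm_num) htc
  refine ⟨t, htc, ?_⟩
  -- the difference
  set D : ℝ → ℝ := fun s => F s - Fexp t s with hD
  have hDc : Continuous D := hc.sub (Fexp_continuous t)
  obtain ⟨hFe1, hFe1v⟩ := integral_Fexp_Iic ht0 htc
  obtain ⟨hFe2, hFe2v⟩ := integral_one_sub_Fexp_Ioi ht0 htc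
  have hDi1 : IntegrableOn D (Iic (1 / 3)) := hI1.sub hFe1
  have hDeq : ∀ s, D s = (1 - Fexp t s) - (1 - F s) := by
    intro s; simp only [hD]; ring
  have hDi2 : IntegrableOn D (Ioi (1 / 3)) := by
    have : D = fun s => (1 - Fexp t s) - (1 - F s) := funext hDeq
    rw [this]; exact hFe2.sub hI2
  have hD1 : ∫ s in Iic (1 / 3 : ℝ), D s = 0 := by
    have : ∫ s in Iic (1 / 3 : ℝ), D s
        = (∫ s in Iic (1 / 3 : ℝ), F s) - ∫ s in Iic (1 / 3 : ℝ), Fexp t s :=
      integral_sub hI1 hFe1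
    rw [this, hFe1v, htM]; ring
  have hD2 : ∫ s in Ioi (1 / 3 : ℝ), D s = 0 := by
    have : ∫ s in Ioi (1 / 3 : ℝ), D s
        = (∫ s in Ioi (1 / 3 : ℝ), (1 - Fexp t s)) - ∫ s in Ioi (1 / 3 : ℝ), (1 - F s) := by
      rw [← integral_sub hFe2 hI2]
      exact integral_congr_ae (Filter.Eventually.of_forall hDeq)
    rw [this, hFe2v, hmean, htM]; ring
  -- the ratio `R`
  set R : ℝ → ℝ := fun s => F s * Real.exp (1 - s / t) with hR
  have hRc : Continuous R := by
    apply hc.mul
    fun_prop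
  have hRpos : ∀ s, 0 < R s := fun s => mul_pos (hpos s) (Real.exp_pos _)
  have hmidF : ∀ x y, x ≤ y → F x * F y ≤ F ((x + y) / 2) ^ 2 := by
    intro x y hxy
    have h := hlc x y ((y - x) / 2) (by linarith) (by linarith)
    have e1 : x + (y - x) / 2 = (x + y) / 2 := by ring
    have e2 : y - (y - x) / 2 = (x + y) / 2 := by ring
    rw [e1, e2] at h
    rw [sq]; exact h
  have hmid : ∀ x y, R x * R y ≤ R ((x + y) / 2) ^ 2 := by
    intro x y
    have hF : F x * F y ≤ F ((x + y) / 2) ^ 2 := by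
      rcases le_total x y with h | h
      · exact hmidF x y h
      · have := hmidF y x h
        rw [mul_comm, add_comm]; exact this
    have hE : Real.exp (1 - x / t) * Real.exp (1 - y / t)
        = Real.exp (1 - (x + y) / 2 / t) ^ 2 := by
      rw [sq, ← Real.exp_add, ← Real.exp_add]; congr 1; field_simp; ring
    calc R x * R y = (F x * F y) * (Real.exp (1 - x / t) * Real.exp (1 - y / t)) := by
          simp only [hR]; ring
      _ ≤ F ((x + y) / 2) ^ 2 * (Real.exp (1 - x / t) * Real.exp (1 - y / t)) := by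
          apply mul_le_mul_of_nonneg_right hF; positivity
      _ = R ((x + y) / 2) ^ 2 := by rw [hE]; simp only [hR]; ring
  -- `D` in terms of `R`
  have hDR : ∀ s, s ≤ t → D s = Real.exp (s / t - 1) * (R s - 1) := by
    intro s hs
    simp only [hD, hR]
    rw [Fexp_of_le ht0 hs]
    have : Real.exp (s / t - 1) * Real.exp (1 - s / t) = 1 := by rw [← Real.exp_add]; simp
    linear_combination (-F s) * this
  have hDneg_ge : ∀ s, t ≤ s → D s < 0 := by
    intro s hs
    simp only [hD]; rw [Fexp_of_ge ht0 hs]; linarith [hlt s]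
  have hDneg_of : ∀ s, s ≤ t → R s < 1 → D s < 0 := by
    intro s hs hR1
    rw [hDR s hs]
    exact mul_neg_of_pos_of_neg (Real.exp_pos _) (by linarith)
  have hDnonneg_of : ∀ s, s ≤ t → 1 ≤ R s → 0 ≤ D s := by
    intro s hs hR1
    rw [hDR s hs]
    exact mul_nonneg (Real.exp_pos _).le (by linarith)
  have hR_of_Dnonneg : ∀ s, 0 ≤ D s → s < t ∧ 1 ≤ R s := by
    intro s hs
    have hst : s < t := by
      by_contra h
      push Not at h
      linarith [hDneg_ge s h]
    refine ⟨hst, ?_⟩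
    by_contra h
    push Not at h
    linarith [hDneg_of s hst.le h]
  have hR_of_Dpos : ∀ s, 0 < D s → s < t ∧ 1 < R s := by
    intro s hs
    obtain ⟨hst, hR1⟩ := hR_of_Dnonneg s hs.le
    refine ⟨hst, ?_⟩
    by_contra h
    push Not at h
    have : R s = 1 := le_antisymm h hR1
    rw [hDR s hst.le, this] at hs
    simp at hs
  -- negativity on a whole half line is impossible
  have key1 : (∀ s, s ≤ 1 / 3 → D s < 0) → False := by
    intro h
    have hae : 0 ≤ᵐ[volume.restrict (Iic (1 / 3 : ℝ))] (fun s => -D s) := by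
      filter_upwards [ae_restrict_mem measurableSet_Iic] with s hs
      have := h s hs
      show (0 : ℝ) ≤ -D s
      linarith
    have hpos' : 0 < ∫ s in Iic (1 / 3 : ℝ), -D s := by
      rw [setIntegral_pos_iff_support_of_nonneg_ae hae hDi1.neg]
      have hsub : Iic (1 / 3 : ℝ) ⊆ Function.support (fun s => -D s) ∩ Iic (1 / 3 : ℝ) := by
        intro s hs
        refine ⟨?_, hs⟩
        have := h s hs
        simp only [Function.mem_support]
        intro h0
        linarith
      refine lt_of_lt_of_le ?_ (measure_mono hsub)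
      simp
    rw [integral_neg, hD1] at hpos'
    simp at hpos'
  have key2 : (∀ s, 1 / 3 < s → D s < 0) → False := by
    intro h
    have hae : 0 ≤ᵐ[volume.restrict (Ioi (1 / 3 : ℝ))] (fun s => -D s) := by
      filter_upwards [ae_restrict_mem measurableSet_Ioi] with s hs
      have := h s hs
      show (0 : ℝ) ≤ -D s
      linarith
    have hpos' : 0 < ∫ s in Ioi (1 / 3 : ℝ), -D s := by
      rw [setIntegral_pos_iff_support_of_nonneg_ae hae hDi2.neg]
      have hsub : Ioi (1 / 3 : ℝ) ⊆ Function.support (fun s => -D s) ∩ Ioi (1 / 3 : ℝ) := by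
        intro s hs
        refine ⟨?_, hs⟩
        have := h s hs
        simp only [Function.mem_support]
        intro h0
        linarith
      refine lt_of_lt_of_le ?_ (measure_mono hsub)
      simp
    rw [integral_neg, hD2] at hpos'
    simp at hpos'
  -- `D (1/3) ≥ 0`
  have hDc0 : 0 ≤ D (1 / 3) := by
    by_contra hneg
    push Not at hneg
    rcases le_or_gt t (1 / 3) with htle | htgt
    · exact key2 (fun s hs => hDneg_ge s (le_trans htle hs.le))
    · have hRc1 : R (1 / 3) < 1 := by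
        by_contra h
        push Not at h
        linarith [hDnonneg_of (1 / 3) htgt.le h]
      by_cases hL : ∀ s, s ≤ 1 / 3 → R s ≤ R (1 / 3)
      · exact key1 (fun s hs =>
          hDneg_of s (le_trans hs htgt.le) (lt_of_le_of_lt (hL s hs) hRc1))
      · push Not at hL
        obtain ⟨s1, hs1, hRs1⟩ := hL
        by_cases hRt : ∀ s, 1 / 3 ≤ s → R s ≤ R (1 / 3)
        · apply key2
          intro s hs
          rcases le_or_gt s t with hst | hst
          · exact hDneg_of s hst (lt_of_le_of_lt (hRt s hs.le) hRc1)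
          · exact hDneg_ge s hst.le
        · push Not at hRt
          obtain ⟨s2, hs2, hRs2⟩ := hRt
          have h1 := quasiconcave_of_mid R hRc hRpos hmid hs1 hs2
          have h2 := lt_min hRs1 hRs2
          linarith
  obtain ⟨hct, hRc1⟩ := hR_of_Dnonneg _ hDc0
  have hUL : ∀ s1 s2, s1 ≤ s2 → s2 ≤ 1 / 3 → 0 < D s1 → 0 ≤ D s2 := by
    intro s1 s2 h12 h2 hpos1
    obtain ⟨_, hR1⟩ := hR_of_Dpos s1 hpos1
    have hq := quasiconcave_of_mid R hRc hRpos hmid h12 h2
    have : 1 ≤ min (R s1) (R (1 / 3)) := le_min hR1.le hRc1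
    exact hDnonneg_of s2 (le_trans h2 hct.le) (le_trans this hq)
  have hUR : ∀ s1 s2, 1 / 3 ≤ s1 → s1 ≤ s2 → 0 < D s2 → 0 ≤ D s1 := by
    intro s1 s2 h1 h12 hpos2
    obtain ⟨hs2t, hR2⟩ := hR_of_Dpos s2 hpos2
    have hq := quasiconcave_of_mid R hRc hRpos hmid h1 h12
    have : 1 ≤ min (R (1 / 3)) (R s2) := le_min hRc1 hR2.le
    exact hDnonneg_of s1 (le_trans h12 hs2t.le) (le_trans this hq)
  -- integrability of the products
  have hDb : ∀ s, |D s| ≤ 1 := by
    intro s
    rw [abs_le]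
    simp only [hD]
    constructor
    · linarith [hpos s, Fexp_le_one t s]
    · linarith [hlt s, Fexp_pos t s]
  have hFb : ∀ s, |F s| ≤ 1 := fun s => by rw [abs_of_pos (hpos s)]; exact (hlt s).le
  have hEb : ∀ s, |Fexp t s| ≤ 1 := fun s => by
    rw [abs_of_pos (Fexp_pos t s)]; exact Fexp_le_one t s
  have hiF := integrableOn_mul_wt F hc hFb
  have hiE := integrableOn_mul_wt (Fexp t) (Fexp_continuous t) hEb
  have hiD := integrableOn_mul_wt D hDc hDb
  have hsub : (∫ s in Iic (4 / 3 : ℝ), F s * wt s) - ∫ s in Iic (4 / 3 : ℝ), Fexp t s * wt s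
      = ∫ s in Iic (4 / 3 : ℝ), D s * wt s := by
    rw [← integral_sub hiF hiE]
    congr 1
    ext s
    simp only [hD]
    ring
  have hU : Iic (1 / 3 : ℝ) ∪ Ioc (1 / 3) (4 / 3) = Iic (4 / 3) :=
    Iic_union_Ioc_eq_Iic (by norm_num)
  have hsplit : ∫ s in Iic (4 / 3 : ℝ), D s * wt s
      = (∫ s in Iic (1 / 3 : ℝ), D s * wt s) + ∫ s in Ioc (1 / 3 : ℝ) (4 / 3), D s * wt s := by
    have hdisj : Disjoint (Iic (1 / 3 : ℝ)) (Ioc (1 / 3) (4 / 3)) := by
      rw [Set.disjoint_left]
      intro x hx hx'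
      exact absurd hx (not_le.2 hx'.1)
    rw [← hU, setIntegral_union hdisj measurableSet_Ioc
      (hiD.mono_set (by rw [← hU]; exact subset_union_left))
      (hiD.mono_set (by rw [← hU]; exact subset_union_right))]
  have hind : (fun s => D s * wtp s) = (Iic (4 / 3 : ℝ)).indicator (fun s => D s * wt s) := by
    ext s
    by_cases hs : s ≤ 4 / 3
    · rw [wtp_of_le hs, indicator_of_mem (mem_Iic.2 hs)]
    · rw [wtp_of_gt (not_le.1 hs), indicator_of_notMem (by simpa using hs)]; ring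
  have hright_eq : ∫ s in Ioc (1 / 3 : ℝ) (4 / 3), D s * wt s
      = ∫ s in Ioi (1 / 3 : ℝ), D s * wtp s := by
    rw [hind, setIntegral_indicator measurableSet_Iic, Ioi_inter_Iic]
  have hL := left_lemma D wt (1 / 3) hDi1 (hiD.mono_set (Iic_subset_Iic.2 (by norm_num)))
    hD1 hUL wt_monotoneOn
  have hiDp : IntegrableOn (fun s => D s * wtp s) (Ioi (1 / 3)) := by
    rw [hind]
    exact ((integrable_indicator_iff measurableSet_Iic).2 hiD).integrableOn
  have hRr := right_lemma D wtp (1 / 3) hDi2 hiDp hD2 hUR wtp_antitoneOn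
  linarith

end Crest.Agent.S0423
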