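import Mathlib
import Crest.Prelude.Def_TruncExpWeight

/-!
# S0423 : shared definitions (owner: helper6)

`T = -∑ a_i x_i` for i.i.d. standard exponential `x_i`; `cdfT a s = P(T ≤ s)`.
The statement is equivalent to `∫_{s ≤ 4/3} cdfT a s * wt s ≥ (4/9) e^{-1/3}` (upper bound) together with
sharpness.  See `blueprints/S0423.md`.
-/

set_option autoImplicit false

namespace Crest.Agent.S0423

/-- The open positive orthant of `Fin N → ℝ` (exactly the set in the frozen statement). -/
abbrev orthant (N : ℕ) : Set (Fin N → ℝ) := Set.pi Set.univ (fun _ : Fin N => Set.Ioi (0 : ℝ))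

/-- cdf of `T = -∑ a_i x_i` for i.i.d. standard exponentials `x_i`. -/
noncomputable def cdfT {N : ℕ} (a : Fin N → ℝ) (s : ℝ) : ℝ :=
  ∫ x in orthant N, (if -∑ i, a i * x i ≤ s then Real.exp (-∑ i, x i) else 0)

/-- density of `4/3 - Γ₂` (only used on `Iic (4/3)`; negative beyond `4/3`). -/
noncomputable def wt (s : ℝ) : ℝ := (4 / 3 - s) * Real.exp (-(4 / 3 - s))

/-- cdf of `t * (1 - X)`, `X` standard exponential (mean zero). -/
noncomputable def Fexp (t s : ℝ) : ℝ := min 1 (Real.exp (s / t - 1))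

/-- power-free (four point) log-concavity. -/
def LC4 (h : ℝ → ℝ) : Prop :=
  ∀ u v D : ℝ, 0 ≤ D → u + D ≤ v → h u * h v ≤ h (u + D) * h (v - D)

/-- averaging against one exponential variable: `(Eop a F) s = E F(s + a X)`. -/
noncomputable def Eop (a : ℝ) (F : ℝ → ℝ) (s : ℝ) : ℝ :=
  ∫ x in Set.Ioi (0 : ℝ), F (s + a * x) * Real.exp (-x)

/-- the Heaviside function = cdf of the constant `0`. -/
noncomputable def heav (s : ℝ) : ℝ := if 0 ≤ s then 1 else 0

end Crest.Agent.S0423
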