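import Crest.Agent.S0423_Defs
import Crest.Agent.S0423_Compare

/-!
# S0423 : WP-A1 (owner: helper19) -- the expectation in the statement is `1 - ∫ F w`

`integral_eq_one_sub`: layer-cake representation of `truncExpWeight` plus Fubini on
`orthant N × Iic (4/3)`.  All auxiliary names are prefixed `fub_`.
-/

set_option autoImplicit false
open MeasureTheory Set

namespace Crest.Agent.S0423

theorem fub_exp_neg_sum {N : ℕ} (x : Fin N → ℝ) :
    Real.exp (-∑ i, x i) = ∏ i, Real.exp (-x i) := by
  rw [← Finset.sum_neg_distrib, Real.exp_sum]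

theorem fub_integrableOn_exp (N : ℕ) :
    IntegrableOn (fun x : Fin N → ℝ => Real.exp (-∑ i, x i)) (orthant N) := by
  unfold IntegrableOn
  rw [show (volume : Measure (Fin N → ℝ)) = Measure.pi (fun _ => volume) from rfl,
    Measure.restrict_pi_pi]
  simp_rw [fub_exp_neg_sum]
  exact Integrable.fintype_prod (f := fun _ (x : ℝ) => Real.exp (-x))
    (fun _ => integrableOn_exp_neg_Ioi 0)

theorem fub_integral_exp (N : ℕ) : ∫ x in orthant N, Real.exp (-∑ i, x i) = 1 := by
  rw [show (volume : Measure (Fin N → ℝ)) = Measure.pi (fun _ => volume) from rfl,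
    Measure.restrict_pi_pi]
  simp_rw [fub_exp_neg_sum]
  rw [integral_fintype_prod_eq_prod (fun _ (x : ℝ) => Real.exp (-x))]
  simp only [integral_exp_neg_Ioi_zero, Finset.prod_const_one]

theorem fub_hasDerivAt (s : ℝ) :
    HasDerivAt (fun s : ℝ => Real.exp (s - 4 / 3) * (7 / 3 - s)) (wt s) s := by
  have h1 : HasDerivAt (fun s : ℝ => Real.exp (s - 4 / 3)) (Real.exp (s - 4 / 3) * 1) s :=
    ((hasDerivAt_id' s).sub_const (4 / 3)).exp
  have h2 : HasDerivAt (fun s : ℝ => (7 / 3 - s)) (-1) s :=
    (hasDerivAt_id' s).const_sub (7 / 3)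
  have h3 := h1.mul h2
  have e : wt s = Real.exp (s - 4 / 3) * 1 * (7 / 3 - s) + Real.exp (s - 4 / 3) * -1 := by
    unfold wt
    rw [show -(4 / 3 - s) = s - 4 / 3 by ring]
    ring
  rw [e]
  exact h3

theorem fub_wt_continuous : Continuous wt := by
  unfold wt
  fun_prop

theorem fub_layer (y : ℝ) :
    Crest.AlgGeometry.truncExpWeight (4 / 3 + y)
      = 1 - ∫ s in Iic (4 / 3 : ℝ), (if -y ≤ s then wt s else 0) := by
  unfold Crest.AlgGeometry.truncExpWeight
  split_ifs with h
  · have h0 : ∀ s ∈ Iic (4 / 3 : ℝ), (if -y ≤ s then wt s else 0) = 0 := by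
      intro s hs
      split_ifs with h2
      · have hs' : s = 4 / 3 := le_antisymm hs (by linarith)
        subst hs'
        simp [wt]
      · rfl
    rw [setIntegral_congr_fun measurableSet_Iic h0]
    simp
  · push Not at h
    have h1 : ∫ s in Iic (4 / 3 : ℝ), (if -y ≤ s then wt s else 0)
        = ∫ s in Icc (-y) (4 / 3), wt s := by
      rw [← integral_indicator measurableSet_Iic, ← integral_indicator measurableSet_Icc]
      congr 1
      ext s
      by_cases hs1 : s ≤ 4 / 3 <;> by_cases hs2 : -y ≤ s <;>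
        simp [indicator, hs1, hs2]
    rw [h1, integral_Icc_eq_integral_Ioc, ← intervalIntegral.integral_of_le (by linarith),
      intervalIntegral.integral_eq_sub_of_hasDerivAt (fun s _ => fub_hasDerivAt s)
        (fub_wt_continuous.intervalIntegrable _ _)]
    have e1 : Real.exp ((4 / 3 : ℝ) - 4 / 3) = 1 := by norm_num
    have e2 : (-y - 4 / 3 : ℝ) = -(4 / 3 + y) := by ring
    rw [e1, e2]
    ring

theorem fub_integrable_prod {N : ℕ} (a : Fin N → ℝ) :
    Integrable (Function.uncurry (fun (x : Fin N → ℝ) (s : ℝ) =>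
        (if -∑ i, a i * x i ≤ s then Real.exp (-∑ i, x i) else 0) * wt s))
      ((volume.restrict (orthant N)).prod (volume.restrict (Iic (4 / 3 : ℝ)))) := by
  have hE := fub_integrableOn_exp N
  have hw : Integrable (fun s : ℝ => |wt s|) (volume.restrict (Iic (4 / 3 : ℝ))) :=
    wt_integrableOn.abs
  have hprod : Integrable (fun z : (Fin N → ℝ) × ℝ => Real.exp (-∑ i, z.1 i) * |wt z.2|)
      ((volume.restrict (orthant N)).prod (volume.restrict (Iic (4 / 3 : ℝ)))) :=
    Integrable.mul_prod hE hw
  refine hprod.mono' ?_ ?_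
  · apply Measurable.aestronglyMeasurable
    apply Measurable.mul
    · apply Measurable.ite
      · exact measurableSet_le (by fun_prop) measurable_snd
      · fun_prop
      · exact measurable_const
    · exact fub_wt_continuous.measurable.comp measurable_snd
  · refine Filter.Eventually.of_forall (fun z => ?_)
    simp only [Function.uncurry]
    split_ifs
    · rw [norm_mul, Real.norm_eq_abs, Real.norm_eq_abs, abs_of_pos (Real.exp_pos _)]
    · simp only [zero_mul, norm_zero]
      positivity

/-- A1: the expectation in the statement is `1 - ∫ F w`. -/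
theorem integral_eq_one_sub {N : ℕ} (a : Fin N → ℝ) :
    ∫ x in orthant N, Crest.AlgGeometry.truncExpWeight (4 / 3 + ∑ i, a i * x i) * Real.exp (-∑ i, x i)
      = 1 - ∫ s in Iic (4 / 3 : ℝ), cdfT a s * wt s := by
  have hint := fub_integrable_prod a
  have h1 : ∀ x : Fin N → ℝ,
      Crest.AlgGeometry.truncExpWeight (4 / 3 + ∑ i, a i * x i) * Real.exp (-∑ i, x i)
        = Real.exp (-∑ i, x i) - ∫ s in Iic (4 / 3 : ℝ),
            (if -∑ i, a i * x i ≤ s then Real.exp (-∑ i, x i) else 0) * wt s := by
    intro x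
    rw [fub_layer, sub_mul, one_mul, ← integral_mul_const]
    congr 1
    apply integral_congr_ae
    filter_upwards with s
    split_ifs <;> ring
  have hint2 : Integrable (fun x : Fin N → ℝ => ∫ s in Iic (4 / 3 : ℝ),
      (if -∑ i, a i * x i ≤ s then Real.exp (-∑ i, x i) else 0) * wt s)
      (volume.restrict (orthant N)) := hint.integral_prod_left
  simp_rw [h1]
  rw [integral_sub (fub_integrableOn_exp N) hint2, fub_integral_exp,
    integral_integral_swap hint]
  congr 1
  apply integral_congr_ae
  filter_upwards with s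
  simp only [cdfT]
  rw [integral_mul_const]

end Crest.Agent.S0423
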