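import Crest.Agent.S0423_Defs

/-!
# S0423, WP-B : log-concavity and regularity of the cdf (owner: helper21)

`LC4_heav`, `LC4_Eop` and (modulo the peeling identities of WP-A) `cdfT_good`.
-/

set_option autoImplicit false
open MeasureTheory Set

namespace Crest.Agent.S0423

/-! ### translation of set integrals -/

theorem lc_tr_Ioi (f : ℝ → ℝ) (c d : ℝ) : ∫ y in Ioi c, f (y - d) = ∫ y in Ioi (c - d), f y := by
  have h := (measurePreserving_sub_right (volume : Measure ℝ) d).setIntegral_preimage_emb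
    (measurableEmbedding_subRight d) f (Ioi (c - d))
  simpa using h

theorem lc_tr_Ioc (f : ℝ → ℝ) (a b d : ℝ) :
    ∫ x in Ioc a b, f (x + d) = ∫ x in Ioc (a + d) (b + d), f x := by
  have h := (measurePreserving_add_right (volume : Measure ℝ) d).setIntegral_preimage_emb
    (measurableEmbedding_addRight d) f (Ioc (a + d) (b + d))
  simpa using h

theorem lc_tr_int_Ioi (f : ℝ → ℝ) (c d : ℝ) (hf : IntegrableOn f (Ioi (c - d))) :
    IntegrableOn (fun y => f (y - d)) (Ioi c) := by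
  have h := (measurePreserving_sub_right (volume : Measure ℝ) d).integrableOn_comp_preimage
    (measurableEmbedding_subRight d) (f := f) (s := Ioi (c - d))
  simpa [Function.comp_def] using h.mpr hf

theorem lc_tr_int_Ioc (f : ℝ → ℝ) (a b d : ℝ) (hf : IntegrableOn f (Ioc (a + d) (b + d))) :
    IntegrableOn (fun y => f (y + d)) (Ioc a b) := by
  have h := (measurePreserving_add_right (volume : Measure ℝ) d).integrableOn_comp_preimage
    (measurableEmbedding_addRight d) (f := f) (s := Ioc (a + d) (b + d))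
  simpa [Function.comp_def] using h.mpr hf

/-! ### elementary closure properties of `LC4` -/

theorem LC4_heav : LC4 heav := by
  intro u v D hD huv
  unfold heav
  by_cases hu : 0 ≤ u
  · have h1 : 0 ≤ v := by linarith
    have h2 : 0 ≤ u + D := by linarith
    have h3 : 0 ≤ v - D := by linarith
    simp [hu, h1, h2, h3]
  · simp only [hu, if_false, zero_mul]
    positivity

theorem LC4.mul_exp {F : ℝ → ℝ} (hF : LC4 F) (κ : ℝ) : LC4 (fun s => F s * Real.exp (κ * s)) := by
  intro u v D hD huv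
  have h := hF u v D hD huv
  have e : Real.exp (κ * u) * Real.exp (κ * v) = Real.exp (κ * (u + D)) * Real.exp (κ * (v - D)) := by
    rw [← Real.exp_add, ← Real.exp_add]
    congr 1
    ring
  calc F u * Real.exp (κ * u) * (F v * Real.exp (κ * v))
      = (F u * F v) * (Real.exp (κ * u) * Real.exp (κ * v)) := by ring
    _ ≤ (F (u + D) * F (v - D)) * (Real.exp (κ * u) * Real.exp (κ * v)) :=
        mul_le_mul_of_nonneg_right h (by positivity)
    _ = F (u + D) * Real.exp (κ * (u + D)) * (F (v - D) * Real.exp (κ * (v - D))) := by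
        rw [e]; ring

theorem LC4.const_mul {F : ℝ → ℝ} (hF : LC4 F) (c : ℝ) : LC4 (fun s => c * F s) := by
  intro u v D hD huv
  have h := hF u v D hD huv
  calc c * F u * (c * F v) = c ^ 2 * (F u * F v) := by ring
    _ ≤ c ^ 2 * (F (u + D) * F (v - D)) := mul_le_mul_of_nonneg_left h (sq_nonneg c)
    _ = c * F (u + D) * (c * F (v - D)) := by ring

theorem LC4.comp_neg {F : ℝ → ℝ} (hF : LC4 F) : LC4 (fun s => F (-s)) := by
  intro u v D hD huv
  have h := hF (-v) (-u) D hD (by linarith)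
  have e1 : -v + D = -(v - D) := by ring
  have e2 : -u - D = -(u + D) := by ring
  rw [e1, e2] at h
  calc F (-u) * F (-v) = F (-v) * F (-u) := by ring
    _ ≤ F (-(v - D)) * F (-(u + D)) := h
    _ = F (-(u + D)) * F (-(v - D)) := by ring

/-! ### the tail lemma -/

/-- Tail integrals of a nonnegative `LC4` function are `LC4`. -/
theorem LC4_tail (h : ℝ → ℝ) (h0 : ∀ x, 0 ≤ h x) (hlc : LC4 h)
    (hint : ∀ s, IntegrableOn h (Ioi s)) : LC4 (fun s => ∫ x in Ioi s, h x) := by
  intro u v D hD huv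
  set H : ℝ → ℝ := fun s => ∫ x in Ioi s, h x with hH
  have hH0 : ∀ s, 0 ≤ H s := fun s => setIntegral_nonneg measurableSet_Ioi (fun x _ => h0 x)
  have hsplit : ∀ a b : ℝ, a ≤ b → H a = (∫ x in Ioc a b, h x) + H b := by
    intro a b hab
    show ∫ x in Ioi a, h x = (∫ x in Ioc a b, h x) + ∫ x in Ioi b, h x
    rw [← Ioc_union_Ioi_eq_Ioi hab, setIntegral_union (Ioc_disjoint_Ioi le_rfl) measurableSet_Ioi
      ((hint a).mono_set Ioc_subset_Ioi_self) (hint b)]
  set Δ : ℝ := v - D - u with hΔ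
  have hΔ0 : 0 ≤ Δ := by rw [hΔ]; linarith
  have hA := hsplit u (u + D) (by linarith)
  have hB := hsplit (v - D) v (by linarith)
  -- pointwise comparison in the first variable
  have step1 : ∀ x ∈ Ioc u (u + D), h x * H v ≤ h (x + Δ) * H (u + D) := by
    intro x hx
    have e1 : h x * H v = ∫ y in Ioi v, h x * h y := by
      rw [integral_const_mul]
    have e2 : h (x + Δ) * H (u + D) = ∫ y in Ioi v, h (x + Δ) * h (y - Δ) := by
      have ec : v - Δ = u + D := by rw [hΔ]; ring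
      rw [integral_const_mul, lc_tr_Ioi h v Δ, ec]
    rw [e1, e2]
    apply setIntegral_mono_on ((hint v).const_mul _) _ measurableSet_Ioi
    · intro y hy
      have hy' : v < y := hy
      exact hlc x y Δ hΔ0 (by rw [hΔ]; linarith [hx.2])
    · apply Integrable.const_mul
      apply lc_tr_int_Ioi
      exact hint _
  have key : (∫ x in Ioc u (u + D), h x) * H v ≤ H (u + D) * ∫ x in Ioc (v - D) v, h x := by
    have e1 : (∫ x in Ioc u (u + D), h x) * H v = ∫ x in Ioc u (u + D), h x * H v := by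
      rw [integral_mul_const]
    have e2 : H (u + D) * ∫ x in Ioc (v - D) v, h x =
        ∫ x in Ioc u (u + D), h (x + Δ) * H (u + D) := by
      have ea : u + Δ = v - D := by rw [hΔ]; ring
      have eb : u + D + Δ = v := by rw [hΔ]; ring
      rw [integral_mul_const, lc_tr_Ioc h u (u + D) Δ, mul_comm, ea, eb]
    rw [e1, e2]
    apply setIntegral_mono_on _ _ measurableSet_Ioc step1
    · exact (((hint u).mono_set Ioc_subset_Ioi_self)).mul_const _
    · apply Integrable.mul_const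
      apply lc_tr_int_Ioc
      exact (hint (u + Δ)).mono_set Ioc_subset_Ioi_self
  show H u * H v ≤ H (u + D) * H (v - D)
  rw [hA, hB]
  nlinarith [hH0 (u + D), hH0 v]

/-! ### basic properties of `Eop` -/

theorem Eop_zero (F : ℝ → ℝ) : Eop 0 F = F := by
  funext s
  unfold Eop
  simp only [zero_mul, add_zero]
  rw [integral_const_mul, integral_exp_neg_Ioi_zero, mul_one]

theorem Eop_integrable {G : ℝ → ℝ} (hm : Measurable G) (h0 : ∀ s, 0 ≤ G s) (h1 : ∀ s, G s ≤ 1)
    (a s : ℝ) : IntegrableOn (fun x => G (s + a * x) * Real.exp (-x)) (Ioi 0) := by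
  refine Integrable.mono' (integrableOn_exp_neg_Ioi 0) ?_ ?_
  · have hmeas : Measurable (fun x : ℝ => G (s + a * x) * Real.exp (-x)) :=
      (hm.comp (measurable_const.add (measurable_const.mul measurable_id))).mul
        (Real.measurable_exp.comp measurable_neg)
    exact hmeas.aestronglyMeasurable
  · refine Filter.Eventually.of_forall (fun x => ?_)
    rw [Real.norm_eq_abs, abs_of_nonneg (mul_nonneg (h0 _) (Real.exp_pos _).le)]
    exact mul_le_of_le_one_left (Real.exp_pos _).le (h1 _)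

theorem Eop_nonneg {G : ℝ → ℝ} (h0 : ∀ s, 0 ≤ G s) (a s : ℝ) : 0 ≤ Eop a G s :=
  setIntegral_nonneg measurableSet_Ioi (fun _ _ => mul_nonneg (h0 _) (Real.exp_pos _).le)

theorem Eop_le_one {G : ℝ → ℝ} (hm : Measurable G) (h0 : ∀ s, 0 ≤ G s) (h1 : ∀ s, G s ≤ 1)
    (a s : ℝ) : Eop a G s ≤ 1 := by
  have h := setIntegral_mono_on (Eop_integrable hm h0 h1 a s) (integrableOn_exp_neg_Ioi 0)
    measurableSet_Ioi (fun x _ => mul_le_of_le_one_left (Real.exp_pos (-x)).le (h1 (s + a * x)))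
  rw [integral_exp_neg_Ioi_zero] at h
  exact h

theorem Eop_mono {G : ℝ → ℝ} (hm : Measurable G) (h0 : ∀ s, 0 ≤ G s) (h1 : ∀ s, G s ≤ 1)
    (hmono : Monotone G) (a : ℝ) : Monotone (Eop a G) := by
  intro s s' hss
  exact setIntegral_mono_on (Eop_integrable hm h0 h1 a s) (Eop_integrable hm h0 h1 a s')
    measurableSet_Ioi
    (fun x _ => mul_le_mul_of_nonneg_right (hmono (by linarith)) (Real.exp_pos (-x)).le)

/-- reflection: `E G(s + aX) = E G̃(-s + (-a)X)` with `G̃ r = G (-r)`. -/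
theorem Eop_reflect (a : ℝ) (G : ℝ → ℝ) (s : ℝ) :
    Eop a G s = Eop (-a) (fun r => G (-r)) (-s) := by
  unfold Eop
  congr 1
  funext x
  congr 2
  ring

/-- integrability of the tail integrand. -/
theorem Eop_tail_integrable {G : ℝ → ℝ} (hm : Measurable G) (h0 : ∀ s, 0 ≤ G s)
    (h1 : ∀ s, G s ≤ 1) {a : ℝ} (ha : 0 < a) (s : ℝ) :
    IntegrableOn (fun r => G r * Real.exp (-(1 / a) * r)) (Ioi s) := by
  refine Integrable.mono' (exp_neg_integrableOn_Ioi s (b := 1 / a) (by positivity)) ?_ ?_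
  · have hmeas : Measurable (fun r : ℝ => G r * Real.exp (-(1 / a) * r)) :=
      hm.mul (Real.measurable_exp.comp (measurable_const.mul measurable_id))
    exact hmeas.aestronglyMeasurable
  · refine Filter.Eventually.of_forall (fun x => ?_)
    rw [Real.norm_eq_abs, abs_of_nonneg (mul_nonneg (h0 _) (Real.exp_pos _).le)]
    exact mul_le_of_le_one_left (Real.exp_pos _).le (h1 _)

/-- the substitution `r = s + a x` for `a > 0`. -/
theorem Eop_pos_formula (G : ℝ → ℝ) {a : ℝ} (ha : 0 < a) (s : ℝ) :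
    Eop a G s = a⁻¹ * (Real.exp ((1 / a) * s) * ∫ r in Ioi s, G r * Real.exp (-(1 / a) * r)) := by
  unfold Eop
  have e1 : ∫ x in Ioi (0 : ℝ), G (s + a * x) * Real.exp (-x) =
      ∫ x in Ioi (0 : ℝ), (fun y => G (s + y) * Real.exp (-(1 / a) * y)) (a * x) := by
    congr 1
    funext x
    show G (s + a * x) * Real.exp (-x) = G (s + a * x) * Real.exp (-(1 / a) * (a * x))
    congr 2
    field_simp
  have e2 := integral_comp_mul_left_Ioi (fun y => G (s + y) * Real.exp (-(1 / a) * y)) 0 ha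
  have e3 : ∫ y in Ioi (0 : ℝ), G (s + y) * Real.exp (-(1 / a) * y) =
      ∫ y in Ioi (0 : ℝ), (fun r => Real.exp ((1 / a) * s) * (G r * Real.exp (-(1 / a) * r)))
        (y - (-s)) := by
    congr 1
    funext y
    show G (s + y) * Real.exp (-(1 / a) * y) =
      Real.exp ((1 / a) * s) * (G (y - (-s)) * Real.exp (-(1 / a) * (y - (-s))))
    have e4 : y - (-s) = s + y := by ring
    rw [e4, mul_comm (Real.exp _), mul_assoc, ← Real.exp_add]
    congr 2
    ring
  have e6 : (0 : ℝ) - (-s) = s := by ring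
  have e5 : ∫ y in Ioi (0 : ℝ), (fun r => Real.exp ((1 / a) * s) * (G r * Real.exp (-(1 / a) * r)))
      (y - (-s)) = ∫ y in Ioi s, Real.exp ((1 / a) * s) * (G y * Real.exp (-(1 / a) * y)) := by
    have h := lc_tr_Ioi (fun r => Real.exp ((1 / a) * s) * (G r * Real.exp (-(1 / a) * r))) 0 (-s)
    rw [e6] at h
    exact h
  rw [e1, e2, mul_zero, smul_eq_mul, e3, e5, integral_const_mul]

/-- `Eop` preserves `LC4`. -/
theorem LC4_Eop (a : ℝ) (F : ℝ → ℝ) (hm : Measurable F) (h0 : ∀ s, 0 ≤ F s) (h1 : ∀ s, F s ≤ 1)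
    (hF : LC4 F) : LC4 (Eop a F) := by
  -- the case `a > 0`, for an arbitrary admissible function
  have pos : ∀ (b : ℝ) (G : ℝ → ℝ), 0 < b → Measurable G → (∀ s, 0 ≤ G s) → (∀ s, G s ≤ 1) →
      LC4 G → LC4 (Eop b G) := by
    intro b G hb hGm hG0 hG1 hG
    have hh : LC4 (fun r => G r * Real.exp (-(1 / b) * r)) := hG.mul_exp _
    have hH := LC4_tail _ (fun _ => mul_nonneg (hG0 _) (Real.exp_pos _).le) hh
      (fun s => Eop_tail_integrable hGm hG0 hG1 hb s)
    have hfin := ((hH.mul_exp (1 / b)).const_mul b⁻¹)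
    have e : Eop b G = fun s => b⁻¹ * ((∫ x in Ioi s, G x * Real.exp (-(1 / b) * x)) *
        Real.exp (1 / b * s)) := by
      funext s
      rw [Eop_pos_formula G hb s]
      ring
    rw [e]
    exact hfin
  rcases lt_trichotomy a 0 with ha | ha | ha
  · have h := pos (-a) (fun r => F (-r)) (by linarith) (hm.comp measurable_neg) (fun s => h0 _)
      (fun s => h1 _) hF.comp_neg
    have e : Eop a F = fun s => Eop (-a) (fun r => F (-r)) (-s) := by
      funext s
      exact Eop_reflect a F s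
    rw [e]
    exact h.comp_neg
  · rw [ha, Eop_zero]
    exact hF
  · exact pos a F ha hm h0 h1 hF

/-! ### continuity and strict bounds -/

theorem Eop_continuous {G : ℝ → ℝ} (hm : Measurable G) (h0 : ∀ s, 0 ≤ G s) (h1 : ∀ s, G s ≤ 1)
    {a : ℝ} (ha : a ≠ 0) : Continuous (Eop a G) := by
  have pos : ∀ (b : ℝ) (G : ℝ → ℝ), 0 < b → Measurable G → (∀ s, 0 ≤ G s) → (∀ s, G s ≤ 1) →
      Continuous (Eop b G) := by
    intro b G hb hGm hG0 hG1
    set h : ℝ → ℝ := fun r => G r * Real.exp (-(1 / b) * r) with hh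
    have hint : ∀ s, IntegrableOn h (Ioi s) := fun s => Eop_tail_integrable hGm hG0 hG1 hb s
    have hII : ∀ x y : ℝ, IntervalIntegrable h volume x y := by
      intro x y
      rw [intervalIntegrable_iff]
      exact (hint (min x y)).mono_set Ioc_subset_Ioi_self
    have hprim : Continuous (fun s => ∫ x in (0 : ℝ)..s, h x) :=
      intervalIntegral.continuous_primitive hII 0
    have e : Eop b G = fun s => b⁻¹ * (Real.exp ((1 / b) * s) *
        ((∫ r in Ioi (0 : ℝ), h r) - ∫ x in (0 : ℝ)..s, h x)) := by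
      funext s
      rw [Eop_pos_formula G hb s, ← intervalIntegral.integral_Ioi_sub_Ioi' (hint 0) (hint s)]
      ring
    rw [e]
    exact continuous_const.mul ((Real.continuous_exp.comp (continuous_const.mul continuous_id)).mul
      (continuous_const.sub hprim))
  rcases lt_or_gt_of_ne ha with ha | ha
  · have h := pos (-a) (fun r => G (-r)) (by linarith) (hm.comp measurable_neg) (fun s => h0 _)
      (fun s => h1 _)
    have e : Eop a G = fun s => Eop (-a) (fun r => G (-r)) (-s) := funext (Eop_reflect a G)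
    rw [e]
    exact h.comp continuous_neg
  · exact pos a G ha hm h0 h1

theorem Eop_pos_of {G : ℝ → ℝ} (hm : Measurable G) (h0 : ∀ s, 0 ≤ G s) (h1 : ∀ s, G s ≤ 1)
    (a s α β c : ℝ) (hα : 0 ≤ α) (hαβ : α < β) (hc : 0 < c)
    (h : ∀ x ∈ Ioc α β, c ≤ G (s + a * x)) : 0 < Eop a G s := by
  have hint := Eop_integrable hm h0 h1 a s
  have hsub : Ioc α β ⊆ Ioi 0 := fun x hx => lt_of_le_of_lt hα hx.1
  have hle1 : ∫ x in Ioc α β, G (s + a * x) * Real.exp (-x) ≤ Eop a G s :=
    setIntegral_mono_set hint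
      (ae_of_all _ (fun x => mul_nonneg (h0 _) (Real.exp_pos _).le))
      (LE.le.eventuallyLE hsub)
  have hle2 : (β - α) * (c * Real.exp (-β)) ≤ ∫ x in Ioc α β, G (s + a * x) * Real.exp (-x) := by
    have h3 := setIntegral_ge_of_const_le (μ := volume) (c := c * Real.exp (-β))
      (f := fun x => G (s + a * x) * Real.exp (-x)) (measurableSet_Ioc (a := α) (b := β))
      (by simp)
      (fun x hx => mul_le_mul (h x hx) (Real.exp_le_exp.mpr (by linarith [hx.2]))
        (Real.exp_pos _).le (h0 _))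
      (hint.mono_set hsub)
    rw [Real.volume_real_Ioc_of_le hαβ.le, smul_eq_mul] at h3
    exact h3
  have hpos : 0 < (β - α) * (c * Real.exp (-β)) := by
    have : 0 < β - α := by linarith
    positivity
  linarith

theorem Eop_one_sub {G : ℝ → ℝ} (hm : Measurable G) (h0 : ∀ s, 0 ≤ G s) (h1 : ∀ s, G s ≤ 1)
    (a s : ℝ) : Eop a (fun r => 1 - G r) s = 1 - Eop a G s := by
  unfold Eop
  have e : ∀ x, (1 - G (s + a * x)) * Real.exp (-x) =
      Real.exp (-x) - G (s + a * x) * Real.exp (-x) := by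
    intro x; ring
  simp only [e]
  rw [integral_sub (integrableOn_exp_neg_Ioi 0) (Eop_integrable hm h0 h1 a s),
    integral_exp_neg_Ioi_zero]

theorem Eop_lt_one_of {G : ℝ → ℝ} (hm : Measurable G) (h0 : ∀ s, 0 ≤ G s) (h1 : ∀ s, G s ≤ 1)
    (a s α β c : ℝ) (hα : 0 ≤ α) (hαβ : α < β) (hc : 0 < c)
    (h : ∀ x ∈ Ioc α β, G (s + a * x) ≤ 1 - c) : Eop a G s < 1 := by
  have hpos := Eop_pos_of (G := fun r => 1 - G r) (measurable_const.sub hm)
    (fun s => by linarith [h1 s]) (fun s => by linarith [h0 s]) a s α β c hα hαβ hc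
    (fun x hx => by linarith [h x hx])
  rw [Eop_one_sub hm h0 h1] at hpos
  linarith

/-! ### cdf-like functions -/

/-- The properties of a cdf that are preserved by every `Eop a`. -/
def CdfLike (G : ℝ → ℝ) : Prop :=
  Measurable G ∧ (∀ s, 0 ≤ G s) ∧ (∀ s, G s ≤ 1) ∧ Monotone G ∧ LC4 G ∧
    (∀ s, 0 < s → 0 < G s) ∧ (∀ s, s < 0 → G s < 1)

theorem cdfLike_heav : CdfLike heav := by
  refine ⟨?_, ?_, ?_, ?_, LC4_heav, ?_, ?_⟩
  · exact Measurable.ite measurableSet_Ici measurable_const measurable_const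
  · intro s; unfold heav; split_ifs <;> norm_num
  · intro s; unfold heav; split_ifs <;> norm_num
  · intro s t hst
    unfold heav
    by_cases hs : 0 ≤ s
    · have ht : 0 ≤ t := le_trans hs hst
      simp [hs, ht]
    · simp only [hs, if_false]
      split_ifs <;> norm_num
  · intro s hs; unfold heav; simp [hs.le]
  · intro s hs; unfold heav; simp [not_le.mpr hs]

theorem CdfLike.step {G : ℝ → ℝ} (hG : CdfLike G) (a : ℝ) : CdfLike (Eop a G) := by
  obtain ⟨hm, h0, h1, hmono, hlc, hp, hn⟩ := hG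
  have habs : 0 < |a| + 1 := by positivity
  refine ⟨?_, Eop_nonneg h0 a, Eop_le_one hm h0 h1 a, Eop_mono hm h0 h1 hmono a,
    LC4_Eop a G hm h0 h1 hlc, ?_, ?_⟩
  · by_cases ha : a = 0
    · rw [ha, Eop_zero]; exact hm
    · exact (Eop_continuous hm h0 h1 ha).measurable
  · intro s hs
    have hδ : 0 < s / (2 * (|a| + 1)) := by positivity
    refine Eop_pos_of hm h0 h1 a s 0 (s / (2 * (|a| + 1))) (G (s / 2)) le_rfl hδ
      (hp _ (by linarith)) (fun x hx => hmono ?_)
    have h2 : |a| * x ≤ s / 2 := by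
      have hx2 : x ≤ s / (2 * (|a| + 1)) := hx.2
      have h3 : |a| * x ≤ |a| * (s / (2 * (|a| + 1))) :=
        mul_le_mul_of_nonneg_left hx2 (abs_nonneg a)
      have h4 : |a| * (s / (2 * (|a| + 1))) ≤ s / 2 := by
        rw [← mul_div_assoc, div_le_div_iff₀ (by positivity) (by norm_num)]
        nlinarith [abs_nonneg a]
      linarith
    have h5 : -(|a| * x) ≤ a * x := by
      have : -|a| ≤ a := neg_abs_le a
      nlinarith [hx.1]
    linarith
  · intro s hs
    have hδ : 0 < -s / (2 * (|a| + 1)) := by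
      have : 0 < -s := by linarith
      positivity
    refine Eop_lt_one_of hm h0 h1 a s 0 (-s / (2 * (|a| + 1))) (1 - G (s / 2)) le_rfl hδ
      (by linarith [hn (s / 2) (by linarith)]) (fun x hx => ?_)
    have h2 : |a| * x ≤ -s / 2 := by
      have hx2 : x ≤ -s / (2 * (|a| + 1)) := hx.2
      have h3 : |a| * x ≤ |a| * (-s / (2 * (|a| + 1))) :=
        mul_le_mul_of_nonneg_left hx2 (abs_nonneg a)
      have h4 : |a| * (-s / (2 * (|a| + 1))) ≤ -s / 2 := by
        rw [← mul_div_assoc, div_le_div_iff₀ (by positivity) (by norm_num)]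
        nlinarith [abs_nonneg a]
      linarith
    have h5 : a * x ≤ |a| * x := by
      have : a ≤ |a| := le_abs_self a
      nlinarith [hx.1]
    have h6 : G (s + a * x) ≤ G (s / 2) := hmono (by linarith)
    linarith

theorem CdfLike.step_pos_all {G : ℝ → ℝ} (hG : CdfLike G) (hpos : ∀ s, 0 < G s) (a : ℝ) :
    ∀ s, 0 < Eop a G s := by
  obtain ⟨hm, h0, h1, hmono, -, -, -⟩ := hG
  intro s
  refine Eop_pos_of hm h0 h1 a s 0 1 (G (s - |a|)) le_rfl one_pos (hpos _) (fun x hx => hmono ?_)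
  have h5 : -(|a| * x) ≤ a * x := by
    have : -|a| ≤ a := neg_abs_le a
    nlinarith [hx.1]
  have h6 : |a| * x ≤ |a| := by
    have := mul_le_mul_of_nonneg_left hx.2 (abs_nonneg a)
    linarith
  linarith

theorem CdfLike.step_pos_of_pos {G : ℝ → ℝ} (hG : CdfLike G) {a : ℝ} (ha : 0 < a) :
    ∀ s, 0 < Eop a G s := by
  obtain ⟨hm, h0, h1, hmono, -, hp, -⟩ := hG
  intro s
  refine Eop_pos_of hm h0 h1 a s (max 0 ((1 - s) / a)) (max 0 ((1 - s) / a) + 1) (G 1)
    (le_max_left _ _) (by linarith) (hp 1 one_pos) (fun x hx => hmono ?_)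
  have h2 : (1 - s) / a < x := lt_of_le_of_lt (le_max_right _ _) hx.1
  rw [div_lt_iff₀ ha] at h2
  linarith

theorem CdfLike.step_lt_one_all {G : ℝ → ℝ} (hG : CdfLike G) (hlt : ∀ s, G s < 1) (a : ℝ) :
    ∀ s, Eop a G s < 1 := by
  obtain ⟨hm, h0, h1, hmono, -, -, -⟩ := hG
  intro s
  refine Eop_lt_one_of hm h0 h1 a s 0 1 (1 - G (s + |a|)) le_rfl one_pos
    (by linarith [hlt (s + |a|)]) (fun x hx => ?_)
  have h5 : a * x ≤ |a| * x := by
    have : a ≤ |a| := le_abs_self a
    nlinarith [hx.1]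
  have h6 : |a| * x ≤ |a| := by
    have := mul_le_mul_of_nonneg_left hx.2 (abs_nonneg a)
    linarith
  have h7 : G (s + a * x) ≤ G (s + |a|) := hmono (by linarith)
  linarith

theorem CdfLike.step_lt_one_of_neg {G : ℝ → ℝ} (hG : CdfLike G) {a : ℝ} (ha : a < 0) :
    ∀ s, Eop a G s < 1 := by
  obtain ⟨hm, h0, h1, hmono, -, -, hn⟩ := hG
  intro s
  refine Eop_lt_one_of hm h0 h1 a s (max 0 ((s + 1) / (-a))) (max 0 ((s + 1) / (-a)) + 1)
    (1 - G (-1)) (le_max_left _ _) (by linarith) (by linarith [hn (-1) (by norm_num)])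
    (fun x hx => ?_)
  have h2 : (s + 1) / (-a) < x := lt_of_le_of_lt (le_max_right _ _) hx.1
  rw [div_lt_iff₀ (by linarith)] at h2
  have h7 : G (s + a * x) ≤ G (-1) := hmono (by linarith)
  linarith

/-! ### the cdf of `T` -/

/-- All regularity properties of `cdfT`, given the peeling identities of WP-A. -/
theorem cdfT_props_of_peel (hz : ∀ a : Fin 0 → ℝ, cdfT a = heav)
    (hsucc : ∀ (N : ℕ) (a : Fin (N + 1) → ℝ), cdfT a = Eop (a 0) (cdfT (Fin.tail a))) :
    ∀ (N : ℕ) (a : Fin N → ℝ), CdfLike (cdfT a) ∧ ((∃ i, 0 < a i) → ∀ s, 0 < cdfT a s) ∧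
      ((∃ i, a i < 0) → ∀ s, cdfT a s < 1) ∧ ((∃ i, a i ≠ 0) → Continuous (cdfT a)) := by
  intro N
  induction N with
  | zero =>
    intro a
    rw [hz a]
    refine ⟨cdfLike_heav, ?_, ?_, ?_⟩
    · rintro ⟨i, -⟩; exact i.elim0
    · rintro ⟨i, -⟩; exact i.elim0
    · rintro ⟨i, -⟩; exact i.elim0
  | succ N ih =>
    intro a
    obtain ⟨hlike, hpos, hlt, hcont⟩ := ih (Fin.tail a)
    rw [hsucc N a]
    refine ⟨hlike.step (a 0), ?_, ?_, ?_⟩
    · rintro ⟨i, hi⟩
      by_cases h0 : 0 < a 0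
      · exact hlike.step_pos_of_pos h0
      · refine hlike.step_pos_all (hpos ?_) (a 0)
        rcases Fin.eq_zero_or_eq_succ i with rfl | ⟨j, rfl⟩
        · exact absurd hi h0
        · exact ⟨j, hi⟩
    · rintro ⟨i, hi⟩
      by_cases h0 : a 0 < 0
      · exact hlike.step_lt_one_of_neg h0
      · refine hlike.step_lt_one_all (hlt ?_) (a 0)
        rcases Fin.eq_zero_or_eq_succ i with rfl | ⟨j, rfl⟩
        · exact absurd hi h0
        · exact ⟨j, hi⟩
    · rintro ⟨i, hi⟩
      by_cases h0 : a 0 = 0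
      · rw [h0, Eop_zero]
        refine hcont ?_
        rcases Fin.eq_zero_or_eq_succ i with rfl | ⟨j, rfl⟩
        · exact absurd h0 hi
        · exact ⟨j, hi⟩
      · exact Eop_continuous hlike.1 hlike.2.1 hlike.2.2.1 h0

/-- `cdfT_good`, given the peeling identities of WP-A (`cdfT_zero`, `cdfT_succ`). -/
theorem cdfT_good_of_peel (hz : ∀ a : Fin 0 → ℝ, cdfT a = heav)
    (hsucc : ∀ (N : ℕ) (a : Fin (N + 1) → ℝ), cdfT a = Eop (a 0) (cdfT (Fin.tail a)))
    {N : ℕ} (a : Fin N → ℝ) (hp : ∃ i, 0 < a i) (hn : ∃ i, a i < 0) :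
    Continuous (cdfT a) ∧ (∀ s, 0 < cdfT a s) ∧ (∀ s, cdfT a s < 1) ∧ LC4 (cdfT a) := by
  obtain ⟨hlike, hpos, hlt, hcont⟩ := cdfT_props_of_peel hz hsucc N a
  obtain ⟨i, hi⟩ := hp
  exact ⟨hcont ⟨i, hi.ne'⟩, hpos ⟨i, hi⟩, hlt hn, hlike.2.2.2.2.1⟩

end Crest.Agent.S0423
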