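import Crest.Agent.S0423_Orthant

/-!
# S0423 : WP-A3 (owner: helper7) -- the mean-zero identity `cdfT_mean` and the degenerate case
`upper_zero`.
-/

set_option autoImplicit false
open MeasureTheory Set

namespace Crest.Agent.S0423

/-! ### one-variable integrals of step functions -/

theorem integrable_ite_le_Iic (t c r : ℝ) :
    Integrable (fun s : ℝ => if t ≤ s then r else 0) ((volume : Measure ℝ).restrict (Iic c)) := by
  have h : (fun s : ℝ => if t ≤ s then r else 0) = (Ici t).indicator (fun _ => r) := by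
    funext s
    simp [indicator, mem_Ici]
  rw [h, integrable_indicator_iff measurableSet_Ici]
  unfold IntegrableOn
  rw [Measure.restrict_restrict measurableSet_Ici]
  have h2 : Ici t ∩ Iic c = Icc t c := rfl
  rw [h2]
  exact integrableOn_const (by simp)

theorem integral_ite_le_Iic (t c r : ℝ) :
    ∫ s in Iic c, (if t ≤ s then r else 0) = r * max (c - t) 0 := by
  have h : (fun s : ℝ => if t ≤ s then r else 0) = (Ici t).indicator (fun _ => r) := by
    funext s
    simp [indicator, mem_Ici]
  rw [h, setIntegral_indicator measurableSet_Ici]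
  have h2 : Iic c ∩ Ici t = Icc t c := by
    ext s; simp [and_comm]
  rw [h2, setIntegral_const, Real.volume_real_Icc, smul_eq_mul, mul_comm]

theorem integrable_ite_lt_Ioi (t c r : ℝ) :
    Integrable (fun s : ℝ => if s < t then r else 0) ((volume : Measure ℝ).restrict (Ioi c)) := by
  have h : (fun s : ℝ => if s < t then r else 0) = (Iio t).indicator (fun _ => r) := by
    funext s
    simp [indicator, mem_Iio]
  rw [h, integrable_indicator_iff measurableSet_Iio]
  unfold IntegrableOn
  rw [Measure.restrict_restrict measurableSet_Iio]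
  have h2 : Iio t ∩ Ioi c = Ioo c t := by
    ext s; simp [and_comm]
  rw [h2]
  exact integrableOn_const (by simp)

theorem integral_ite_lt_Ioi (t c r : ℝ) :
    ∫ s in Ioi c, (if s < t then r else 0) = r * max (t - c) 0 := by
  have h : (fun s : ℝ => if s < t then r else 0) = (Iio t).indicator (fun _ => r) := by
    funext s
    simp [indicator, mem_Iio]
  rw [h, setIntegral_indicator measurableSet_Iio]
  have h2 : Ioi c ∩ Iio t = Ioo c t := rfl
  rw [h2, setIntegral_const, Real.volume_real_Ioo, smul_eq_mul, mul_comm]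

/-! ### integrability of the linear form against the density -/

theorem integrableOn_lin_mul_exp {N : ℕ} (a : Fin N → ℝ) (c : ℝ) :
    IntegrableOn (fun x : Fin N → ℝ => Real.exp (-∑ i, x i) * (c - (-∑ i, a i * x i)))
      (orthant N) := by
  have h1 : IntegrableOn (fun x : Fin N → ℝ =>
      c * Real.exp (-∑ i, x i) + ∑ i, a i * (x i * Real.exp (-∑ j, x j))) (orthant N) := by
    refine Integrable.add ((integrableOn_exp_orthant N).const_mul c) ?_
    exact integrable_finsetSum _ (fun i _ => (integrableOn_coord_mul_exp_orthant i).const_mul (a i))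
  refine h1.congr_fun (fun x _ => ?_) (measurableSet_orthant N)
  simp only []
  rw [Finset.sum_congr rfl (fun i _ => (mul_assoc (a i) (x i) _).symm), ← Finset.sum_mul]
  ring

theorem integral_lin_mul_exp {N : ℕ} (a : Fin N → ℝ) (c : ℝ) :
    ∫ x in orthant N, Real.exp (-∑ i, x i) * (c - (-∑ i, a i * x i)) = c + ∑ i, a i := by
  have h0 : ∀ x : Fin N → ℝ, Real.exp (-∑ i, x i) * (c - (-∑ i, a i * x i))
      = c * Real.exp (-∑ i, x i) + ∑ i, a i * (x i * Real.exp (-∑ j, x j)) := by
    intro x
    rw [Finset.sum_congr rfl (fun i _ => (mul_assoc (a i) (x i) _).symm), ← Finset.sum_mul]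
    ring
  simp_rw [h0]
  rw [integral_add ((integrableOn_exp_orthant N).const_mul c)
    (integrable_finsetSum _ (fun i _ => (integrableOn_coord_mul_exp_orthant i).const_mul (a i)))]
  rw [integral_const_mul, integral_orthant_exp, integral_finsetSum _
    (fun i _ => (integrableOn_coord_mul_exp_orthant i).const_mul (a i))]
  simp_rw [integral_const_mul, integral_orthant_coord_mul_exp]
  simp

/-! ### the two layer-cake identities -/

theorem measurable_cdf_kernel {N : ℕ} (a : Fin N → ℝ) :
    Measurable (fun p : (Fin N → ℝ) × ℝ =>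
      if -∑ i, a i * p.1 i ≤ p.2 then Real.exp (-∑ i, p.1 i) else 0) := by
  refine Measurable.ite (measurableSet_le ?_ ?_) ?_ measurable_const
  · fun_prop
  · fun_prop
  · fun_prop

theorem measurable_tail_kernel {N : ℕ} (a : Fin N → ℝ) :
    Measurable (fun p : (Fin N → ℝ) × ℝ =>
      if p.2 < -∑ i, a i * p.1 i then Real.exp (-∑ i, p.1 i) else 0) := by
  refine Measurable.ite (measurableSet_lt ?_ ?_) ?_ measurable_const
  · fun_prop
  · fun_prop
  · fun_prop

theorem integrable_cdf_kernel {N : ℕ} (a : Fin N → ℝ) (c : ℝ) :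
    Integrable (fun p : (Fin N → ℝ) × ℝ =>
      if -∑ i, a i * p.1 i ≤ p.2 then Real.exp (-∑ i, p.1 i) else 0)
      (((volume : Measure (Fin N → ℝ)).restrict (orthant N)).prod
        ((volume : Measure ℝ).restrict (Iic c))) := by
  rw [integrable_prod_iff (measurable_cdf_kernel a).aestronglyMeasurable]
  refine ⟨Filter.Eventually.of_forall
    (fun x => integrable_ite_le_Iic (-∑ i, a i * x i) c (Real.exp (-∑ i, x i))), ?_⟩
  have h : ∀ x : Fin N → ℝ,
      (∫ s, ‖(if -∑ i, a i * x i ≤ s then Real.exp (-∑ i, x i) else 0 : ℝ)‖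
          ∂((volume : Measure ℝ).restrict (Iic c)))
        = max (Real.exp (-∑ i, x i) * (c - (-∑ i, a i * x i))) 0 := by
    intro x
    have hn : ∀ s : ℝ, ‖(if -∑ i, a i * x i ≤ s then Real.exp (-∑ i, x i) else 0 : ℝ)‖
        = (if -∑ i, a i * x i ≤ s then Real.exp (-∑ i, x i) else 0 : ℝ) := by
      intro s
      split_ifs
      · exact Real.norm_of_nonneg (Real.exp_pos _).le
      · simp
    simp_rw [hn]
    rw [integral_ite_le_Iic, mul_max_of_nonneg _ _ (Real.exp_pos _).le, mul_zero]
  simp_rw [h]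
  exact (integrableOn_lin_mul_exp a c).pos_part

theorem integrable_tail_kernel {N : ℕ} (a : Fin N → ℝ) (c : ℝ) :
    Integrable (fun p : (Fin N → ℝ) × ℝ =>
      if p.2 < -∑ i, a i * p.1 i then Real.exp (-∑ i, p.1 i) else 0)
      (((volume : Measure (Fin N → ℝ)).restrict (orthant N)).prod
        ((volume : Measure ℝ).restrict (Ioi c))) := by
  rw [integrable_prod_iff (measurable_tail_kernel a).aestronglyMeasurable]
  refine ⟨Filter.Eventually.of_forall
    (fun x => integrable_ite_lt_Ioi (-∑ i, a i * x i) c (Real.exp (-∑ i, x i))), ?_⟩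
  have h : ∀ x : Fin N → ℝ,
      (∫ s, ‖(if s < -∑ i, a i * x i then Real.exp (-∑ i, x i) else 0 : ℝ)‖
          ∂((volume : Measure ℝ).restrict (Ioi c)))
        = max (-(Real.exp (-∑ i, x i) * (c - (-∑ i, a i * x i)))) 0 := by
    intro x
    have hn : ∀ s : ℝ, ‖(if s < -∑ i, a i * x i then Real.exp (-∑ i, x i) else 0 : ℝ)‖
        = (if s < -∑ i, a i * x i then Real.exp (-∑ i, x i) else 0 : ℝ) := by
      intro s
      split_ifs
      · exact Real.norm_of_nonneg (Real.exp_pos _).le
      · simp
    simp_rw [hn]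
    rw [integral_ite_lt_Ioi, mul_max_of_nonneg _ _ (Real.exp_pos _).le, mul_zero]
    congr 1
    ring
  simp_rw [h]
  exact (integrableOn_lin_mul_exp a c).neg.pos_part

theorem one_sub_cdfT_eq {N : ℕ} (a : Fin N → ℝ) (s : ℝ) :
    1 - cdfT a s
      = ∫ x in orthant N, (if s < -∑ i, a i * x i then Real.exp (-∑ i, x i) else 0) := by
  unfold cdfT
  rw [← integral_orthant_exp N, ← integral_sub (integrableOn_exp_orthant N)
    (integrableOn_cdf_integrand a s)]
  refine integral_congr_ae (Filter.Eventually.of_forall (fun x => ?_))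
  simp only []
  by_cases h : -∑ i, a i * x i ≤ s
  · rw [if_pos h, if_neg (not_lt.2 h)]; ring
  · rw [if_neg h, if_pos (not_le.1 h)]; ring

theorem cdfT_layer_left {N : ℕ} (a : Fin N → ℝ) (c : ℝ) :
    IntegrableOn (cdfT a) (Iic c) ∧
      ∫ s in Iic c, cdfT a s
        = ∫ x in orthant N, max (Real.exp (-∑ i, x i) * (c - (-∑ i, a i * x i))) 0 := by
  have hint := integrable_cdf_kernel a c
  refine ⟨hint.integral_prod_right, ?_⟩
  have hswap := integral_integral_swap
    (f := fun (x : Fin N → ℝ) (s : ℝ) =>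
      if -∑ i, a i * x i ≤ s then Real.exp (-∑ i, x i) else 0) hint
  have hL : ∫ s in Iic c, cdfT a s
      = ∫ s in Iic c, ∫ x in orthant N,
          (if -∑ i, a i * x i ≤ s then Real.exp (-∑ i, x i) else 0) := rfl
  rw [hL, ← hswap]
  refine integral_congr_ae (Filter.Eventually.of_forall (fun x => ?_))
  simp only []
  rw [integral_ite_le_Iic, mul_max_of_nonneg _ _ (Real.exp_pos _).le, mul_zero]

theorem cdfT_layer_right {N : ℕ} (a : Fin N → ℝ) (c : ℝ) :
    IntegrableOn (fun s => 1 - cdfT a s) (Ioi c) ∧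
      ∫ s in Ioi c, (1 - cdfT a s)
        = ∫ x in orthant N, max (-(Real.exp (-∑ i, x i) * (c - (-∑ i, a i * x i)))) 0 := by
  have hint := integrable_tail_kernel a c
  have hfun : (fun s => 1 - cdfT a s)
      = fun s => ∫ x in orthant N,
          (if s < -∑ i, a i * x i then Real.exp (-∑ i, x i) else 0) := by
    funext s
    exact one_sub_cdfT_eq a s
  refine ⟨?_, ?_⟩
  · unfold IntegrableOn
    rw [hfun]
    exact hint.integral_prod_right
  have hswap := integral_integral_swap
    (f := fun (x : Fin N → ℝ) (s : ℝ) =>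
      if s < -∑ i, a i * x i then Real.exp (-∑ i, x i) else 0) hint
  have hL : ∫ s in Ioi c, (1 - cdfT a s)
      = ∫ s in Ioi c, ∫ x in orthant N,
          (if s < -∑ i, a i * x i then Real.exp (-∑ i, x i) else 0) := by
    simp_rw [one_sub_cdfT_eq]
  rw [hL, ← hswap]
  refine integral_congr_ae (Filter.Eventually.of_forall (fun x => ?_))
  simp only []
  rw [integral_ite_lt_Ioi, mul_max_of_nonneg _ _ (Real.exp_pos _).le, mul_zero]
  congr 1
  ring

/-- A3: the mean-zero identity (`E (T-c)^+ = E (c-T)^+ - c`). -/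
theorem cdfT_mean {N : ℕ} (a : Fin N → ℝ) (ha : ∑ i, a i = 0) (c : ℝ) :
    IntegrableOn (cdfT a) (Iic c) ∧ IntegrableOn (fun s => 1 - cdfT a s) (Ioi c) ∧
      ∫ s in Ioi c, (1 - cdfT a s) = (∫ s in Iic c, cdfT a s) - c := by
  obtain ⟨hI1, hE1⟩ := cdfT_layer_left a c
  obtain ⟨hI2, hE2⟩ := cdfT_layer_right a c
  refine ⟨hI1, hI2, ?_⟩
  rw [hE1, hE2]
  have hlin := integrableOn_lin_mul_exp a c
  have hval := integral_lin_mul_exp a c
  rw [ha, add_zero] at hval
  have hneg : IntegrableOn
      (fun x : Fin N → ℝ => -(Real.exp (-∑ i, x i) * (c - (-∑ i, a i * x i)))) (orthant N) :=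
    hlin.neg
  have hdiff : (∫ x in orthant N, max (Real.exp (-∑ i, x i) * (c - (-∑ i, a i * x i))) 0)
      - ∫ x in orthant N, max (-(Real.exp (-∑ i, x i) * (c - (-∑ i, a i * x i)))) 0 = c := by
    rw [← integral_sub hlin.pos_part hneg.pos_part]
    refine Eq.trans ?_ hval
    refine integral_congr_ae (Filter.Eventually.of_forall (fun x => ?_))
    simp only []
    rcases le_total 0 (Real.exp (-∑ i, x i) * (c - (-∑ i, a i * x i))) with h | h
    · rw [max_eq_left h, max_eq_right (by linarith)]; ring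
    · rw [max_eq_right h, max_eq_left (by linarith)]; ring
  linarith

/-! ### the degenerate case `a = 0` -/

theorem exp_four_thirds_lower : (293 / 81 : ℝ) ≤ Real.exp (4 / 3) := by
  have h := Real.sum_le_exp_of_nonneg (x := (4 / 3 : ℝ)) (by norm_num) 4
  have h2 : ∑ i ∈ Finset.range 4, (4 / 3 : ℝ) ^ i / (i.factorial : ℝ) = 293 / 81 := by
    simp [Finset.sum_range_succ, Nat.factorial]
    norm_num
  rw [h2] at h
  exact h

/-- the degenerate case `a = 0`. -/
theorem upper_zero {N : ℕ} :
    Real.exp (4 / 3) / (4 / 3) *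
        ∫ x in orthant N, Crest.AlgGeometry.truncExpWeight (4 / 3 + ∑ i, (0 : Fin N → ℝ) i * x i)
          * Real.exp (-∑ i, x i)
      ≤ 3 / 4 * Real.exp (4 / 3) - Real.exp 1 / 3 := by
  have hw : Crest.AlgGeometry.truncExpWeight (4 / 3) = (1 + 4 / 3) * Real.exp (-(4 / 3)) := by
    unfold Crest.AlgGeometry.truncExpWeight
    rw [if_neg (by norm_num)]
  have h0 : ∀ x : Fin N → ℝ,
      Crest.AlgGeometry.truncExpWeight (4 / 3 + ∑ i, (0 : Fin N → ℝ) i * x i)
          * Real.exp (-∑ i, x i)
        = (1 + 4 / 3) * Real.exp (-(4 / 3)) * Real.exp (-∑ i, x i) := by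
    intro x
    simp only [Pi.zero_apply, zero_mul, Finset.sum_const_zero, add_zero]
    rw [hw]
  simp_rw [h0]
  rw [integral_const_mul, integral_orthant_exp, mul_one]
  have he : Real.exp (4 / 3) * Real.exp (-(4 / 3)) = 1 := by
    rw [← Real.exp_add]; simp
  have hval : Real.exp (4 / 3) / (4 / 3) * ((1 + 4 / 3) * Real.exp (-(4 / 3))) = 7 / 4 := by
    have : Real.exp (4 / 3) / (4 / 3) * ((1 + 4 / 3) * Real.exp (-(4 / 3)))
        = (Real.exp (4 / 3) * Real.exp (-(4 / 3))) * (7 / 4) := by ring
    rw [this, he, one_mul]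
  rw [hval]
  have h1 := exp_four_thirds_lower
  have h2 := Real.exp_one_lt_d9
  linarith

end Crest.Agent.S0423
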