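import Crest.Agent.S0423_Defs

/-!
# S0423 : WP-A2 (owner: helper12) -- peeling the first coordinate of the orthant integral

`cdfT_zero : cdfT a = heav` for `a : Fin 0 → ℝ` and
`cdfT_succ : cdfT a = Eop (a 0) (cdfT (Fin.tail a))` for `a : Fin (N+1) → ℝ`.
Statements exactly as in `S0423_Skeleton.lean`.  Auxiliary names are prefixed `peel`.
-/

set_option autoImplicit false
open MeasureTheory Set

namespace Crest.Agent.S0423

theorem peel_measurableSet_orthant (N : ℕ) : MeasurableSet (orthant N) :=
  MeasurableSet.univ_pi (fun _ => measurableSet_Ioi)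

theorem peel_mem_orthant {N : ℕ} (x : Fin N → ℝ) : x ∈ orthant N ↔ ∀ i, 0 < x i := by
  simp [orthant]

/-- the integrand of `cdfT`, extended by zero outside the orthant -/
noncomputable def peelF {N : ℕ} (a : Fin N → ℝ) (s : ℝ) (x : Fin N → ℝ) : ℝ :=
  (orthant N).indicator (fun x => if -∑ i, a i * x i ≤ s then Real.exp (-∑ i, x i) else 0) x

theorem peel_cdfT_eq {N : ℕ} (a : Fin N → ℝ) (s : ℝ) : cdfT a s = ∫ x, peelF a s x := by
  unfold cdfT peelF
  rw [integral_indicator (peel_measurableSet_orthant N)]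

theorem peel_measurable {N : ℕ} (a : Fin N → ℝ) (s : ℝ) : Measurable (peelF a s) := by
  unfold peelF
  refine Measurable.indicator ?_ (peel_measurableSet_orthant N)
  refine Measurable.ite ?_ ?_ measurable_const
  · exact measurableSet_le (by fun_prop) measurable_const
  · fun_prop

/-- the dominating function: the joint density of `N` i.i.d. standard exponentials -/
noncomputable def peelG (N : ℕ) (x : Fin N → ℝ) : ℝ :=
  (orthant N).indicator (fun x => Real.exp (-∑ i, x i)) x

theorem peelG_eq_prod (N : ℕ) (x : Fin N → ℝ) :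
    peelG N x = ∏ i, (Ioi (0:ℝ)).indicator (fun t => Real.exp (-t)) (x i) := by
  unfold peelG
  by_cases hx : x ∈ orthant N
  · rw [indicator_of_mem hx]
    have h : ∀ i, (Ioi (0:ℝ)).indicator (fun t => Real.exp (-t)) (x i) = Real.exp (-(x i)) := by
      intro i
      exact indicator_of_mem ((peel_mem_orthant x).1 hx i) _
    simp only [h]
    rw [← Real.exp_sum, Finset.sum_neg_distrib]
  · rw [indicator_of_notMem hx]
    rw [peel_mem_orthant] at hx
    push Not at hx
    obtain ⟨i, hi⟩ := hx
    symm
    apply Finset.prod_eq_zero (Finset.mem_univ i)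
    exact indicator_of_notMem (by simpa using hi) _

theorem peelG_integrable (N : ℕ) : Integrable (peelG N) := by
  have h1 : Integrable (fun t : ℝ => (Ioi (0:ℝ)).indicator (fun t => Real.exp (-t)) t) := by
    rw [integrable_indicator_iff measurableSet_Ioi]
    exact integrableOn_exp_neg_Ioi 0
  have h2 := Integrable.fintype_prod (ι := Fin N) (𝕜 := ℝ) (E := ℝ)
    (f := fun _ => (Ioi (0:ℝ)).indicator (fun t => Real.exp (-t))) (μ := fun _ => volume)
    (fun _ => h1)
  have h3 : peelG N = fun x : Fin N → ℝ => ∏ i, (Ioi (0:ℝ)).indicator (fun t => Real.exp (-t)) (x i) :=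
    funext (peelG_eq_prod N)
  rw [h3]
  exact h2

theorem peelF_nonneg {N : ℕ} (a : Fin N → ℝ) (s : ℝ) (x : Fin N → ℝ) : 0 ≤ peelF a s x := by
  unfold peelF
  apply indicator_nonneg
  intro x _
  split_ifs
  · exact (Real.exp_pos _).le
  · exact le_rfl

theorem peelF_le {N : ℕ} (a : Fin N → ℝ) (s : ℝ) (x : Fin N → ℝ) : peelF a s x ≤ peelG N x := by
  unfold peelF peelG
  apply indicator_le_indicator
  split_ifs
  · exact le_rfl
  · exact (Real.exp_pos _).le

theorem peelF_integrable {N : ℕ} (a : Fin N → ℝ) (s : ℝ) : Integrable (peelF a s) := by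
  refine Integrable.mono' (peelG_integrable N) (peel_measurable a s).aestronglyMeasurable ?_
  refine Filter.Eventually.of_forall (fun x => ?_)
  rw [Real.norm_eq_abs, abs_of_nonneg (peelF_nonneg a s x)]
  exact peelF_le a s x

/-- A2a -/
theorem cdfT_zero (a : Fin 0 → ℝ) : cdfT a = heav := by
  funext s
  have h : (volume : Measure (Fin 0 → ℝ)).real (univ.pi fun _ => Ioi (0:ℝ)) = 1 := by
    rw [measureReal_def, volume_pi_pi]
    simp
  unfold cdfT heav
  simp [orthant, h]

theorem peelF_cons {N : ℕ} (a : Fin (N + 1) → ℝ) (s : ℝ) (x0 : ℝ) (y : Fin N → ℝ) :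
    peelF a s (Fin.cons x0 y) =
      (Ioi (0:ℝ)).indicator
        (fun x0 => peelF (Fin.tail a) (s + a 0 * x0) y * Real.exp (-x0)) x0 := by
  unfold peelF
  by_cases hx0 : 0 < x0
  · rw [indicator_of_mem (show x0 ∈ Ioi (0:ℝ) from hx0)]
    by_cases hy : y ∈ orthant N
    · have hxy : (Fin.cons x0 y : Fin (N+1) → ℝ) ∈ orthant (N+1) := by
        rw [peel_mem_orthant]
        intro i
        refine Fin.cases ?_ ?_ i
        · simpa using hx0
        · intro j; simpa using (peel_mem_orthant y).1 hy j
      rw [indicator_of_mem hxy, indicator_of_mem hy]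
      have hs1 : ∑ i : Fin (N + 1), a i * (Fin.cons x0 y : Fin (N + 1) → ℝ) i
          = a 0 * x0 + ∑ i : Fin N, Fin.tail a i * y i := by
        rw [Fin.sum_univ_succ]
        simp [Fin.tail]
      have hs2 : ∑ i : Fin (N + 1), (Fin.cons x0 y : Fin (N + 1) → ℝ) i
          = x0 + ∑ i : Fin N, y i := by
        rw [Fin.sum_univ_succ]
        simp
      rw [hs1, hs2]
      by_cases hc : -(a 0 * x0 + ∑ i : Fin N, Fin.tail a i * y i) ≤ s
      · have hc' : -∑ i : Fin N, Fin.tail a i * y i ≤ s + a 0 * x0 := by linarith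
        rw [if_pos hc, if_pos hc', ← Real.exp_add]; congr 1; ring
      · have hc' : ¬ -∑ i : Fin N, Fin.tail a i * y i ≤ s + a 0 * x0 := by
          intro h; apply hc; linarith
        rw [if_neg hc, if_neg hc', zero_mul]
    · have hxy : (Fin.cons x0 y : Fin (N+1) → ℝ) ∉ orthant (N+1) := by
        rw [peel_mem_orthant]
        intro h
        apply hy
        rw [peel_mem_orthant]
        intro j
        simpa using h j.succ
      rw [indicator_of_notMem hxy, indicator_of_notMem hy, zero_mul]
  · rw [indicator_of_notMem (show x0 ∉ Ioi (0:ℝ) from hx0)]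
    have hxy : (Fin.cons x0 y : Fin (N+1) → ℝ) ∉ orthant (N+1) := by
      rw [peel_mem_orthant]
      intro h
      apply hx0
      simpa using h 0
    rw [indicator_of_notMem hxy]

/-- A2b: peeling the first coordinate. -/
theorem cdfT_succ {N : ℕ} (a : Fin (N + 1) → ℝ) : cdfT a = Eop (a 0) (cdfT (Fin.tail a)) := by
  funext s
  rw [peel_cdfT_eq]
  have e := (volume_preserving_piFinSuccAbove (fun _ : Fin (N + 1) => ℝ) 0).symm
  rw [← e.integral_comp']
  have hcomp : ∀ p : ℝ × (Fin N → ℝ),
      peelF a s ((MeasurableEquiv.piFinSuccAbove (fun _ : Fin (N+1) => ℝ) 0).symm p)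
        = peelF a s (Fin.cons p.1 p.2) := by
    intro p
    congr 1
    simp [MeasurableEquiv.piFinSuccAbove_symm_apply, Fin.insertNthEquiv]
  simp only [hcomp]
  have hint : Integrable (fun p : ℝ × (Fin N → ℝ) => peelF a s (Fin.cons p.1 p.2))
      ((volume : Measure ℝ).prod (volume : Measure (Fin N → ℝ))) := by
    have h1 := (e.integrable_comp_emb (MeasurableEquiv.measurableEmbedding _)).2
      (peelF_integrable a s)
    refine h1.congr (Filter.Eventually.of_forall (fun p => ?_))
    exact hcomp p
  have hvol : (volume : Measure (ℝ × (Fin N → ℝ)))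
      = (volume : Measure ℝ).prod (volume : Measure (Fin N → ℝ)) := rfl
  rw [hvol, integral_prod _ hint]
  simp only [peelF_cons]
  unfold Eop
  rw [← integral_indicator measurableSet_Ioi]
  congr 1
  funext x0
  by_cases hx0 : x0 ∈ Ioi (0:ℝ)
  · simp only [indicator_of_mem hx0]
    rw [integral_mul_const, peel_cdfT_eq]
  · simp only [indicator_of_notMem hx0]
    simp

end Crest.Agent.S0423
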