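import Mathlib
import Crest.Agent.S0423_Defs

/-!
# S0423, work package D : the one-parameter comparison family (owner: helper3)

`Phi_ge : 4/9 * exp (-(1/3)) ≤ ∫ s in Iic (4/3), Fexp t s * wt s` for every `t ≥ 1/3`.

The integral is computed in closed form by the fundamental theorem of calculus on `Iic`
(`Phi_eq`), with the explicit primitive `Gprim lam b s = e^{lam s} ((b - s)/lam + 1/lam²)` of
`(b - s) e^{lam s}`, and then bounded below:
* `t ≥ 4/3`: the value is `e^{4/(3t) - 1} (t/(1+t))²`, and the bound is `e^x ≥ 1 + x`;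
* `1/3 ≤ t ≤ 4/3`: the value is `1 - e^{-c} ψ(t)`, `c = 4/3 - t`, and `e^{-c} ψ ≤ 17/25`,
  `4/9 e^{-1/3} ≤ 8/25`.
-/

set_option autoImplicit false
open MeasureTheory Set Filter Topology

namespace Crest.Agent.S0423

/-- A primitive of `s ↦ (b - s) * exp (lam * s)`. -/
noncomputable def Gprim (lam b s : ℝ) : ℝ :=
  Real.exp (lam * s) * ((b - s) / lam + 1 / lam ^ 2)

theorem hasDerivAt_Gprim (lam b s : ℝ) (hlam : lam ≠ 0) :
    HasDerivAt (Gprim lam b) ((b - s) * Real.exp (lam * s)) s := by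
  unfold Gprim
  have h1 : HasDerivAt (fun s : ℝ => Real.exp (lam * s)) (Real.exp (lam * s) * lam) s := by
    simpa using ((hasDerivAt_id s).const_mul lam).exp
  have h2 : HasDerivAt (fun s : ℝ => (b - s) / lam + 1 / lam ^ 2) (-1 / lam) s := by
    simpa using (((hasDerivAt_id s).const_sub b).div_const lam).add_const (1 / lam ^ 2)
  have h := h1.mul h2
  have hval : Real.exp (lam * s) * lam * ((b - s) / lam + 1 / lam ^ 2) +
      Real.exp (lam * s) * (-1 / lam) = (b - s) * Real.exp (lam * s) := by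
    field_simp
    ring
  rw [hval] at h
  exact h

theorem tendsto_mul_exp_atBot_zero : Tendsto (fun x : ℝ => x * Real.exp x) atBot (𝓝 0) := by
  have h := (Real.tendsto_pow_mul_exp_neg_atTop_nhds_zero 1).comp tendsto_neg_atBot_atTop
  have h2 := h.neg
  simp only [neg_zero] at h2
  refine h2.congr fun x => ?_
  simp [Function.comp]

theorem tendsto_Gprim_atBot (lam b : ℝ) (hlam : 0 < lam) :
    Tendsto (Gprim lam b) atBot (𝓝 0) := by
  have hl : Tendsto (fun s : ℝ => lam * s) atBot atBot := tendsto_id.const_mul_atBot hlam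
  have h1 : Tendsto (fun s : ℝ => Real.exp (lam * s)) atBot (𝓝 0) :=
    Real.tendsto_exp_atBot.comp hl
  have h2 : Tendsto (fun s : ℝ => (lam * s) * Real.exp (lam * s)) atBot (𝓝 0) :=
    tendsto_mul_exp_atBot_zero.comp hl
  have h3 : Tendsto (fun s : ℝ => Real.exp (lam * s) * (b / lam + 1 / lam ^ 2)
      - (1 / lam ^ 2) * ((lam * s) * Real.exp (lam * s))) atBot (𝓝 (0 * (b / lam + 1 / lam ^ 2)
      - (1 / lam ^ 2) * 0)) :=
    (h1.mul_const _).sub (h2.const_mul _)
  simp only [zero_mul, mul_zero, sub_zero] at h3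
  refine h3.congr fun s => ?_
  unfold Gprim
  field_simp
  ring

theorem Gprim_nonneg (lam b s : ℝ) (hlam : 0 < lam) (hs : s ≤ b) : 0 ≤ Gprim lam b s := by
  unfold Gprim
  have h1 : 0 ≤ (b - s) / lam := div_nonneg (by linarith) hlam.le
  have h2 : 0 ≤ 1 / lam ^ 2 := by positivity
  exact mul_nonneg (Real.exp_pos _).le (by linarith)

theorem continuous_lin_exp (lam b : ℝ) :
    Continuous (fun s : ℝ => (b - s) * Real.exp (lam * s)) := by
  fun_prop

theorem integrableOn_Iic_lin_exp (lam b a : ℝ) (hlam : 0 < lam) (hab : a ≤ b) :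
    IntegrableOn (fun s : ℝ => (b - s) * Real.exp (lam * s)) (Iic a) := by
  refine integrableOn_Iic_of_intervalIntegral_norm_bounded (l := atBot) (a := fun i : ℝ => i)
    (Gprim lam b a) a (fun i => (continuous_lin_exp lam b).integrableOn_Ioc) tendsto_id ?_
  filter_upwards [eventually_le_atBot a] with i hi
  have hcongr : ∫ x in i..a, ‖(b - x) * Real.exp (lam * x)‖ =
      ∫ x in i..a, (b - x) * Real.exp (lam * x) := by
    refine intervalIntegral.integral_congr fun x hx => ?_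
    rw [uIcc_of_le hi] at hx
    have : 0 ≤ (b - x) * Real.exp (lam * x) :=
      mul_nonneg (by linarith [hx.2]) (Real.exp_pos _).le
    simp only [Real.norm_eq_abs, abs_of_nonneg this]
  rw [hcongr, intervalIntegral.integral_eq_sub_of_hasDerivAt
    (fun x _ => hasDerivAt_Gprim lam b x hlam.ne')
    ((continuous_lin_exp lam b).intervalIntegrable _ _)]
  linarith [Gprim_nonneg lam b i hlam (hi.trans hab)]

theorem integral_Iic_lin_exp (lam b a : ℝ) (hlam : 0 < lam) (hab : a ≤ b) :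
    ∫ s in Iic a, (b - s) * Real.exp (lam * s) = Gprim lam b a := by
  have h := integral_Iic_of_hasDerivAt_of_tendsto' (a := a)
    (fun x _ => hasDerivAt_Gprim lam b x hlam.ne') (integrableOn_Iic_lin_exp lam b a hlam hab)
    (tendsto_Gprim_atBot lam b hlam)
  rw [h, sub_zero]

/-- `wt` in the form `(4/3 - s) e^{s} · e^{-4/3}`. -/
theorem wt_eq (s : ℝ) : wt s = Real.exp (-(4 / 3)) * ((4 / 3 - s) * Real.exp (1 * s)) := by
  unfold wt
  have : Real.exp (-(4 / 3 - s)) = Real.exp (-(4 / 3)) * Real.exp (1 * s) := by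
    rw [← Real.exp_add]
    congr 1
    ring
  rw [this]
  ring

theorem continuous_wt : Continuous wt := by
  unfold wt
  fun_prop

/-- On `s ≤ t` the integrand is `e^{-7/3} (4/3 - s) e^{(1 + 1/t) s}`. -/
theorem Fexp_mul_wt_of_le {t s : ℝ} (ht : 0 < t) (hs : s ≤ t) :
    Fexp t s * wt s = Real.exp (-(7 / 3)) * ((4 / 3 - s) * Real.exp ((1 + 1 / t) * s)) := by
  have h1 : s / t - 1 ≤ 0 := by
    have : s / t ≤ 1 := (div_le_one ht).2 hs
    linarith
  have h2 : Fexp t s = Real.exp (s / t - 1) := by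
    unfold Fexp
    exact min_eq_right (Real.exp_le_one_iff.2 h1)
  rw [h2]
  unfold wt
  have : Real.exp (s / t - 1) * Real.exp (-(4 / 3 - s)) =
      Real.exp (-(7 / 3)) * Real.exp ((1 + 1 / t) * s) := by
    rw [← Real.exp_add, ← Real.exp_add]
    congr 1
    ring
  calc Real.exp (s / t - 1) * ((4 / 3 - s) * Real.exp (-(4 / 3 - s)))
      = (4 / 3 - s) * (Real.exp (s / t - 1) * Real.exp (-(4 / 3 - s))) := by ring
    _ = Real.exp (-(7 / 3)) * ((4 / 3 - s) * Real.exp ((1 + 1 / t) * s)) := by rw [this]; ring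

/-- On `t ≤ s` the integrand is `wt s`. -/
theorem Fexp_mul_wt_of_ge {t s : ℝ} (ht : 0 < t) (hs : t ≤ s) : Fexp t s * wt s = wt s := by
  have h1 : 0 ≤ s / t - 1 := by
    have : 1 ≤ s / t := (one_le_div ht).2 hs
    linarith
  have h2 : Fexp t s = 1 := by
    unfold Fexp
    exact min_eq_left (Real.one_le_exp h1)
  rw [h2, one_mul]

/-- Closed form of `∫_{s ≤ 4/3} Fexp t · wt`. -/
theorem Phi_eq (t : ℝ) (ht : 0 < t) :
    ∫ s in Iic (4 / 3 : ℝ), Fexp t s * wt s =
      Real.exp (-(7 / 3)) * Gprim (1 + 1 / t) (4 / 3) (min t (4 / 3)) +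
        (1 - Real.exp (min t (4 / 3) - 4 / 3) * (7 / 3 - min t (4 / 3))) := by
  set a : ℝ := min t (4 / 3) with ha
  have ha1 : a ≤ 4 / 3 := min_le_right _ _
  have ha2 : a ≤ t := min_le_left _ _
  have hlam : 0 < 1 + 1 / t := by positivity
  -- the two pieces
  have hI1 : IntegrableOn (fun s => Fexp t s * wt s) (Iic a) := by
    have h : IntegrableOn
        (fun s : ℝ => Real.exp (-(7 / 3)) * ((4 / 3 - s) * Real.exp ((1 + 1 / t) * s)))
        (Iic a) :=
      (integrableOn_Iic_lin_exp (1 + 1 / t) (4 / 3) a hlam ha1).const_mul (Real.exp (-(7 / 3)))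
    refine h.congr_fun (fun s hs => ?_) measurableSet_Iic
    exact (Fexp_mul_wt_of_le ht (le_trans hs ha2)).symm
  have hI2 : IntegrableOn (fun s => Fexp t s * wt s) (Ioc a (4 / 3)) := by
    have h : IntegrableOn wt (Ioc a (4 / 3)) := continuous_wt.integrableOn_Ioc
    refine h.congr_fun (fun s hs => ?_) measurableSet_Ioc
    have hat : a = t := by
      rcases le_total t (4 / 3) with h' | h'
      · rw [ha]; exact min_eq_left h'
      · have : a = 4 / 3 := by rw [ha]; exact min_eq_right h'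
        have := hs.1.trans_le hs.2
        linarith
    exact (Fexp_mul_wt_of_ge ht (hat ▸ hs.1.le)).symm
  have hsplit : Iic (4 / 3 : ℝ) = Iic a ∪ Ioc a (4 / 3) := (Iic_union_Ioc_eq_Iic ha1).symm
  have hdisj : Disjoint (Iic a) (Ioc a (4 / 3)) := by
    rw [Set.disjoint_left]
    intro x hx hx'
    exact absurd hx.out (not_le.2 hx'.1)
  rw [hsplit, setIntegral_union hdisj measurableSet_Ioc hI1 hI2]
  congr 1
  · -- left piece
    have h1 : ∫ s in Iic a, Fexp t s * wt s =
        ∫ s in Iic a, Real.exp (-(7 / 3)) * ((4 / 3 - s) * Real.exp ((1 + 1 / t) * s)) :=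
      setIntegral_congr_fun measurableSet_Iic fun s hs =>
        Fexp_mul_wt_of_le ht (le_trans hs ha2)
    rw [h1, integral_const_mul, integral_Iic_lin_exp (1 + 1 / t) (4 / 3) a hlam ha1]
  · -- right piece
    have h1 : ∫ s in Ioc a (4 / 3), Fexp t s * wt s = ∫ s in Ioc a (4 / 3), wt s := by
      refine setIntegral_congr_fun measurableSet_Ioc fun s hs => ?_
      have hat : a = t := by
        rcases le_total t (4 / 3) with h' | h'
        · rw [ha]; exact min_eq_left h'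
        · have : a = 4 / 3 := by rw [ha]; exact min_eq_right h'
          have := hs.1.trans_le hs.2
          linarith
      exact Fexp_mul_wt_of_ge ht (hat ▸ hs.1.le)
    have h2 : ∫ s in Ioc a (4 / 3), wt s =
        ∫ s in a..(4 / 3), Real.exp (-(4 / 3)) * ((4 / 3 - s) * Real.exp (1 * s)) := by
      rw [intervalIntegral.integral_of_le ha1]
      exact setIntegral_congr_fun measurableSet_Ioc fun s _ => wt_eq s
    rw [h1, h2, intervalIntegral.integral_const_mul,
      intervalIntegral.integral_eq_sub_of_hasDerivAt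
        (fun x _ => hasDerivAt_Gprim 1 (4 / 3) x one_ne_zero)
        ((continuous_lin_exp 1 (4 / 3)).intervalIntegrable _ _)]
    unfold Gprim
    have e1 : Real.exp (-(4 / 3)) * Real.exp (1 * (4 / 3)) = 1 := by
      rw [← Real.exp_add]; norm_num
    have e2 : Real.exp (-(4 / 3)) * Real.exp (1 * a) = Real.exp (a - 4 / 3) := by
      rw [← Real.exp_add]; congr 1; ring
    calc Real.exp (-(4 / 3)) * (Real.exp (1 * (4 / 3)) * ((4 / 3 - 4 / 3) / 1 + 1 / 1 ^ 2) -
          Real.exp (1 * a) * ((4 / 3 - a) / 1 + 1 / 1 ^ 2))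
        = Real.exp (-(4 / 3)) * Real.exp (1 * (4 / 3)) -
          (Real.exp (-(4 / 3)) * Real.exp (1 * a)) * (7 / 3 - a) := by ring
      _ = 1 - Real.exp (a - 4 / 3) * (7 / 3 - a) := by rw [e1, e2]

/-- The polynomial inequality behind the middle range. -/
theorem phi_poly (c : ℝ) (hc0 : 0 ≤ c) (hc1 : c ≤ 1) :
    0 ≤ 8 / 225 + 44 / 225 * c + 161 / 450 * c ^ 2 - 391 / 1350 * c ^ 3 - 17 / 90 * c ^ 4
      + 17 / 150 * c ^ 5 := by
  have h1 : 0 ≤ c * (1 - c) := mul_nonneg hc0 (by linarith)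
  have h2 : 0 ≤ c ^ 2 * (1 - c) := mul_nonneg (sq_nonneg c) (by linarith)
  have h3 : 0 ≤ c ^ 2 * (1 - c ^ 2) := mul_nonneg (sq_nonneg c) (by nlinarith)
  have h4 : 0 ≤ c ^ 5 := pow_nonneg hc0 5
  nlinarith

/-- Middle range: `e^{-c} ψ(t) ≤ 17/25`. -/
theorem phi_mid (t : ℝ) (h1 : 1 / 3 ≤ t) (h2 : t ≤ 4 / 3) :
    Real.exp (t - 4 / 3) *
        ((7 / 3 - t) - ((4 / 3 - t) / (1 + 1 / t) + 1 / (1 + 1 / t) ^ 2)) ≤ 17 / 25 := by
  have ht : 0 < t := by linarith
  set c : ℝ := 4 / 3 - t with hc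
  have hc0 : 0 ≤ c := by rw [hc]; linarith
  have hc1 : c ≤ 1 := by rw [hc]; linarith
  have hE : 1 + c + c ^ 2 / 2 + c ^ 3 / 6 ≤ Real.exp c := by
    have h := Real.sum_le_exp_of_nonneg hc0 4
    simp only [Finset.sum_range_succ, Finset.sum_range_zero, Nat.factorial] at h
    norm_num at h
    linarith
  have hpsi : (7 / 3 - t) - ((4 / 3 - t) / (1 + 1 / t) + 1 / (1 + 1 / t) ^ 2) ≤
      17 / 25 * (1 + c + c ^ 2 / 2 + c ^ 3 / 6) := by
    have hform : (7 / 3 - t) - ((4 / 3 - t) / (1 + 1 / t) + 1 / (1 + 1 / t) ^ 2) =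
        ((7 / 3 - t) * (1 + t) ^ 2 - ((4 / 3 - t) * t * (1 + t) + t ^ 2)) / (1 + t) ^ 2 := by
      field_simp
      ring
    rw [hform, div_le_iff₀ (by positivity)]
    have hp := phi_poly c hc0 hc1
    have ht' : t = 4 / 3 - c := by rw [hc]; ring
    rw [ht']
    nlinarith [hp]
  have hexp : Real.exp (t - 4 / 3) * Real.exp c = 1 := by
    rw [← Real.exp_add, hc]
    norm_num
  have hpos : 0 < Real.exp (t - 4 / 3) := Real.exp_pos _
  calc Real.exp (t - 4 / 3) *
        ((7 / 3 - t) - ((4 / 3 - t) / (1 + 1 / t) + 1 / (1 + 1 / t) ^ 2))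
      ≤ Real.exp (t - 4 / 3) * (17 / 25 * (1 + c + c ^ 2 / 2 + c ^ 3 / 6)) :=
        mul_le_mul_of_nonneg_left hpsi hpos.le
    _ ≤ Real.exp (t - 4 / 3) * (17 / 25 * Real.exp c) :=
        mul_le_mul_of_nonneg_left (by linarith) hpos.le
    _ = 17 / 25 := by rw [mul_left_comm, hexp, mul_one]

/-- `4/9 e^{-1/3} ≤ 8/25`. -/
theorem vstar_le : 4 / 9 * Real.exp (-(1 / 3)) ≤ 8 / 25 := by
  have h := Real.quadratic_le_exp_of_nonneg (x := 1 / 3) (by norm_num)
  have h1 : (25 / 18 : ℝ) ≤ Real.exp (1 / 3) := by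
    have : (1 : ℝ) + 1 / 3 + (1 / 3) ^ 2 / 2 = 25 / 18 := by norm_num
    linarith
  have h2 : Real.exp (-(1 / 3)) * Real.exp (1 / 3) = 1 := by
    rw [← Real.exp_add]; norm_num
  have hpos : 0 < Real.exp (-(1 / 3)) := Real.exp_pos _
  nlinarith

/-- **WP-D.** The comparison family never goes below `v* = 4/9 e^{-1/3}`. -/
theorem Phi_ge (t : ℝ) (ht : 1 / 3 ≤ t) :
    4 / 9 * Real.exp (-(1 / 3)) ≤ ∫ s in Iic (4 / 3 : ℝ), Fexp t s * wt s := by
  have ht0 : 0 < t := by linarith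
  rw [Phi_eq t ht0]
  rcases le_total (4 / 3) t with h | h
  · -- `t ≥ 4/3`
    rw [min_eq_right h]
    have hlam : 0 < 1 + 1 / t := by positivity
    have hx := Real.add_one_le_exp ((2 / t - 1) / 3)
    have h1 : (2 / t - 1) / 3 + 1 = 2 / 3 * (1 + 1 / t) := by ring
    rw [h1] at hx
    have h2 : (2 / 3 * (1 + 1 / t)) ^ 2 ≤ Real.exp ((2 / t - 1) / 3) ^ 2 :=
      pow_le_pow_left₀ (by positivity) hx 2
    have h3 : Real.exp ((2 / t - 1) / 3) ^ 2 * Real.exp (-(1 / 3)) =
        Real.exp (-(7 / 3)) * Real.exp ((1 + 1 / t) * (4 / 3)) := by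
      rw [sq, ← Real.exp_add, ← Real.exp_add, ← Real.exp_add]
      congr 1
      ring
    have key : 4 / 9 * Real.exp (-(1 / 3)) * (1 + 1 / t) ^ 2 ≤
        Real.exp (-(7 / 3)) * Real.exp ((1 + 1 / t) * (4 / 3)) := by
      rw [← h3]
      have hpos : 0 < Real.exp (-(1 / 3)) := Real.exp_pos _
      nlinarith
    have hval : Real.exp (-(7 / 3)) * Gprim (1 + 1 / t) (4 / 3) (4 / 3) +
        (1 - Real.exp (4 / 3 - 4 / 3) * (7 / 3 - 4 / 3)) =
        Real.exp (-(7 / 3)) * Real.exp ((1 + 1 / t) * (4 / 3)) / (1 + 1 / t) ^ 2 := by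
      unfold Gprim
      have e1 : (4 / 3 : ℝ) - 4 / 3 = 0 := by norm_num
      have e2 : (7 / 3 : ℝ) - 4 / 3 = 1 := by norm_num
      rw [e1, e2, Real.exp_zero]
      ring
    rw [hval, le_div_iff₀ (by positivity)]
    exact key
  · -- `1/3 ≤ t ≤ 4/3`
    rw [min_eq_left h]
    have hmid := phi_mid t ht h
    have hv := vstar_le
    have he : Real.exp (-(7 / 3)) * Real.exp ((1 + 1 / t) * t) = Real.exp (t - 4 / 3) := by
      rw [← Real.exp_add]
      congr 1
      field_simp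
      ring
    have hval : Real.exp (-(7 / 3)) * Gprim (1 + 1 / t) (4 / 3) t +
        (1 - Real.exp (t - 4 / 3) * (7 / 3 - t)) =
        1 - Real.exp (t - 4 / 3) *
          ((7 / 3 - t) - ((4 / 3 - t) / (1 + 1 / t) + 1 / (1 + 1 / t) ^ 2)) := by
      unfold Gprim
      rw [← he]
      ring
    rw [hval]
    linarith

end Crest.Agent.S0423
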