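import Crest.Agent.S0423_Defs

/-!
# S0423 : WP-E, sharpness (owner: helper10)

* `integral_lin_exp_Iic` : `∫_{s ≤ c} (b - s) e^{κ s} ds = e^{κ c} ((b - c)/κ + 1/κ²)` for `κ > 0`
  (reusable for the explicit one-variable integrals of WP-D).
* `sharp_of_peel` : the sharpness half of the statement in the `cdfT` language, from the peeling
  identities `cdfT_zero` / `cdfT_succ` (taken as hypotheses so that this file does not depend on WP-A).
-/

set_option autoImplicit false
open MeasureTheory Set Filter Topology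

namespace Crest.Agent.S0423

/-- The explicit integral `∫_{s ≤ c} (b - s) e^{κ s} ds` for `κ > 0`. -/
theorem integral_lin_exp_Iic (κ : ℝ) (hκ : 0 < κ) (b c : ℝ) :
    IntegrableOn (fun s : ℝ => (b - s) * Real.exp (κ * s)) (Iic c) ∧
      ∫ s in Iic c, (b - s) * Real.exp (κ * s)
        = Real.exp (κ * c) * ((b - c) / κ + 1 / κ ^ 2) := by
  have hint : IntegrableOn (fun s : ℝ => (b - s) * Real.exp (κ * s)) (Iic c) := by
    have h1 : IntegrableOn (fun s : ℝ => |b - c| * Real.exp (κ * s)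
        + 2 / κ * Real.exp (κ / 2 * c) * Real.exp (κ / 2 * s)) (Iic c) :=
      ((integrableOn_exp_mul_Iic hκ c).const_mul _).add
        ((integrableOn_exp_mul_Iic (half_pos hκ) c).const_mul _)
    refine Integrable.mono' h1 ?_ ?_
    · exact (by fun_prop : Continuous (fun s : ℝ => (b - s) * Real.exp (κ * s))).aestronglyMeasurable
    · refine (ae_restrict_iff' measurableSet_Iic).2 (Filter.Eventually.of_forall fun s hs => ?_)
      have hs' : s ≤ c := hs
      rw [Real.norm_eq_abs, abs_mul, abs_of_pos (Real.exp_pos _)]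
      have h2 : |b - s| ≤ |b - c| + (c - s) := by
        have h21 : b - s = (b - c) + (c - s) := by ring
        rw [h21]
        refine (abs_add_le _ _).trans ?_
        rw [abs_of_nonneg (sub_nonneg.2 hs')]
      have h3 : (c - s) * Real.exp (κ * s)
          ≤ 2 / κ * Real.exp (κ / 2 * c) * Real.exp (κ / 2 * s) := by
        have h4 : κ / 2 * (c - s) ≤ Real.exp (κ / 2 * (c - s)) := by
          have h41 := Real.add_one_le_exp (κ / 2 * (c - s))
          linarith
        have h5 : Real.exp (κ * s) = Real.exp (κ / 2 * s) * Real.exp (κ / 2 * s) := by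
          rw [← Real.exp_add]; congr 1; ring
        have h6 : Real.exp (κ / 2 * (c - s)) * Real.exp (κ / 2 * s) = Real.exp (κ / 2 * c) := by
          rw [← Real.exp_add]; congr 1; ring
        have h7 : (c - s) ≤ 2 / κ * Real.exp (κ / 2 * (c - s)) := by
          rw [div_mul_eq_mul_div, le_div_iff₀ hκ]; linarith
        calc (c - s) * Real.exp (κ * s)
            ≤ (2 / κ * Real.exp (κ / 2 * (c - s))) * Real.exp (κ * s) :=
              mul_le_mul_of_nonneg_right h7 (Real.exp_pos _).le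
          _ = 2 / κ * (Real.exp (κ / 2 * (c - s)) * Real.exp (κ / 2 * s))
                * Real.exp (κ / 2 * s) := by rw [h5]; ring
          _ = 2 / κ * Real.exp (κ / 2 * c) * Real.exp (κ / 2 * s) := by rw [h6]
      calc |b - s| * Real.exp (κ * s) ≤ (|b - c| + (c - s)) * Real.exp (κ * s) :=
            mul_le_mul_of_nonneg_right h2 (Real.exp_pos _).le
        _ = |b - c| * Real.exp (κ * s) + (c - s) * Real.exp (κ * s) := by ring
        _ ≤ |b - c| * Real.exp (κ * s)
              + 2 / κ * Real.exp (κ / 2 * c) * Real.exp (κ / 2 * s) := by linarith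
  refine ⟨hint, ?_⟩
  have hderiv : ∀ x ∈ Iic c, HasDerivAt
      (fun s : ℝ => Real.exp (κ * s) * ((b - s) / κ + 1 / κ ^ 2))
      ((b - x) * Real.exp (κ * x)) x := by
    intro x _
    have h1 : HasDerivAt (fun s : ℝ => Real.exp (κ * s)) (Real.exp (κ * x) * κ) x := by
      have h11 : HasDerivAt (fun s : ℝ => κ * s) κ x := by
        simpa using (hasDerivAt_id x).const_mul κ
      exact h11.exp
    have h2 : HasDerivAt (fun s : ℝ => (b - s) / κ + 1 / κ ^ 2) (-1 / κ) x := by
      have h21 := (((hasDerivAt_id x).const_sub b).div_const κ).add_const (1 / κ ^ 2)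
      simpa using h21
    have h3 := h1.mul h2
    have hκ0 : κ ≠ 0 := hκ.ne'
    have h4 : HasDerivAt (fun s : ℝ => Real.exp (κ * s) * ((b - s) / κ + 1 / κ ^ 2))
        (Real.exp (κ * x) * κ * ((b - x) / κ + 1 / κ ^ 2) + Real.exp (κ * x) * (-1 / κ)) x := h3
    refine h4.congr_deriv ?_
    field_simp
    ring
  have htend : Tendsto (fun s : ℝ => Real.exp (κ * s) * ((b - s) / κ + 1 / κ ^ 2))
      atBot (𝓝 0) := by
    have hx : Tendsto (fun s : ℝ => -κ * s) atBot atTop :=
      Tendsto.const_mul_atBot_of_neg (by linarith) tendsto_id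
    have hA : Tendsto (fun s : ℝ => Real.exp (κ * s)) atBot (𝓝 0) :=
      Real.tendsto_exp_atBot.comp (Tendsto.const_mul_atBot hκ tendsto_id)
    have hB : Tendsto (fun s : ℝ => (-κ * s) ^ 1 * Real.exp (-(-κ * s))) atBot (𝓝 0) :=
      (Real.tendsto_pow_mul_exp_neg_atTop_nhds_zero 1).comp hx
    have hC : Tendsto (fun s : ℝ => (b / κ + 1 / κ ^ 2) * Real.exp (κ * s)
        + 1 / κ ^ 2 * ((-κ * s) ^ 1 * Real.exp (-(-κ * s)))) atBot (𝓝 0) := by
      have h := (hA.const_mul (b / κ + 1 / κ ^ 2)).add (hB.const_mul (1 / κ ^ 2))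
      simpa using h
    refine hC.congr fun s => ?_
    have h1 : -(-κ * s) = κ * s := by ring
    have hκ0 : κ ≠ 0 := hκ.ne'
    rw [h1]
    field_simp
    ring
  have h := integral_Iic_of_hasDerivAt_of_tendsto' hderiv hint htend
  rw [h, sub_zero]

/-- The coefficient vector `(-c, …, -c, 2)` with `k` entries `-c`. -/
noncomputable def sharpVec (c : ℝ) : (k : ℕ) → Fin (k + 1) → ℝ
  | 0 => fun _ => 2
  | k + 1 => Fin.cons (-c) (sharpVec c k)

theorem sum_sharpVec (c : ℝ) (k : ℕ) : ∑ i, sharpVec c k i = 2 - k * c := by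
  induction k with
  | zero => simp [sharpVec]
  | succ k ih =>
    rw [sharpVec, Fin.sum_cons, ih]
    push_cast
    ring

theorem cdfT_nonneg' {N : ℕ} (a : Fin N → ℝ) (s : ℝ) : 0 ≤ cdfT a s := by
  unfold cdfT
  refine integral_nonneg fun x => ?_
  split_ifs
  · exact (Real.exp_pos _).le
  · exact le_rfl

/-- `Eop 2 heav` is the cdf of `-2X`, bounded by `e^{s/2}`. -/
theorem Eop_two_heav_le (s : ℝ) : Eop 2 heav s ≤ Real.exp (s / 2) := by
  unfold Eop
  by_cases hs : 0 ≤ s
  · have h1 : ∫ x in Ioi (0 : ℝ), heav (s + 2 * x) * Real.exp (-x)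
        ≤ ∫ x in Ioi (0 : ℝ), Real.exp (-x) := by
      refine integral_mono_of_nonneg ?_ ?_ ?_
      · refine Filter.Eventually.of_forall fun x => ?_
        simp only [Pi.zero_apply, heav]
        split_ifs <;> positivity
      · exact (integrableOn_exp_neg_Ioi 0 : IntegrableOn (fun x : ℝ => Real.exp (-x)) (Ioi 0))
      · refine Filter.Eventually.of_forall fun x => ?_
        simp only [heav]
        split_ifs
        · simp
        · simp only [zero_mul]; positivity
    rw [integral_exp_neg_Ioi_zero] at h1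
    exact h1.trans (Real.one_le_exp (by positivity))
  · push Not at hs
    have h1 : ∫ x in Ioi (0 : ℝ), heav (s + 2 * x) * Real.exp (-x)
        = ∫ x in Ioi (0 : ℝ), (Ici (-s / 2)).indicator (fun x : ℝ => Real.exp (-x)) x := by
      refine integral_congr_ae (Filter.Eventually.of_forall fun x => ?_)
      simp only [heav, indicator, mem_Ici]
      by_cases hx : -s / 2 ≤ x
      · have : 0 ≤ s + 2 * x := by linarith
        simp [hx, this]
      · have : ¬ (0 ≤ s + 2 * x) := by push Not at hx ⊢; linarith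
        simp [hx, this]
    rw [h1, setIntegral_indicator measurableSet_Ici]
    have h2 : Ioi (0 : ℝ) ∩ Ici (-s / 2) = Ici (-s / 2) := by
      ext x
      simp only [mem_inter_iff, mem_Ioi, mem_Ici, and_iff_right_iff_imp]
      intro hx
      linarith
    rw [h2, integral_Ici_eq_integral_Ioi, integral_exp_neg_Ioi]
    apply le_of_eq
    congr 1
    ring

/-- one step: `Eop (-c)` maps a function below `K e^{s/2}` to one below `K (1 + c/2)⁻¹ e^{s/2}`. -/
theorem Eop_neg_le (c : ℝ) (hc : 0 ≤ c) (G : ℝ → ℝ) (K : ℝ) (h0 : ∀ s, 0 ≤ G s)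
    (hG : ∀ s, G s ≤ K * Real.exp (s / 2)) (s : ℝ) :
    Eop (-c) G s ≤ K * (1 + c / 2)⁻¹ * Real.exp (s / 2) := by
  unfold Eop
  have hpos : 0 < 1 + c / 2 := by positivity
  have hint : IntegrableOn (fun x : ℝ => K * Real.exp (s / 2) * Real.exp (-(1 + c / 2) * x))
      (Ioi 0) := (integrableOn_exp_mul_Ioi (by linarith) 0).const_mul _
  have h1 : ∫ x in Ioi (0 : ℝ), G (s + -c * x) * Real.exp (-x)
      ≤ ∫ x in Ioi (0 : ℝ), K * Real.exp (s / 2) * Real.exp (-(1 + c / 2) * x) := by
    refine integral_mono_of_nonneg ?_ hint ?_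
    · exact Filter.Eventually.of_forall fun x => mul_nonneg (h0 _) (Real.exp_pos _).le
    · refine Filter.Eventually.of_forall fun x => ?_
      have h2 := hG (s + -c * x)
      have h3 : Real.exp ((s + -c * x) / 2) * Real.exp (-x)
          = Real.exp (s / 2) * Real.exp (-(1 + c / 2) * x) := by
        rw [← Real.exp_add, ← Real.exp_add]; congr 1; ring
      calc G (s + -c * x) * Real.exp (-x)
          ≤ K * Real.exp ((s + -c * x) / 2) * Real.exp (-x) :=
            mul_le_mul_of_nonneg_right h2 (Real.exp_pos _).le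
        _ = K * Real.exp (s / 2) * Real.exp (-(1 + c / 2) * x) := by
            rw [mul_assoc, h3, ← mul_assoc]
  refine h1.trans (le_of_eq ?_)
  rw [integral_const_mul, integral_exp_mul_Ioi (by linarith) 0]
  simp only [mul_zero, Real.exp_zero]
  field_simp

/-- the cdf of the sharpness vector is below `e^{s/2} (1 + c/2)^{-k}`. -/
theorem cdfT_sharpVec_le (h0 : ∀ a : Fin 0 → ℝ, cdfT a = heav)
    (hs : ∀ (N : ℕ) (a : Fin (N + 1) → ℝ), cdfT a = Eop (a 0) (cdfT (Fin.tail a)))
    (c : ℝ) (hc : 0 ≤ c) (k : ℕ) (s : ℝ) :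
    cdfT (sharpVec c k) s ≤ ((1 + c / 2)⁻¹) ^ k * Real.exp (s / 2) := by
  induction k generalizing s with
  | zero =>
    rw [hs 0 (sharpVec c 0), h0]
    simpa [sharpVec] using Eop_two_heav_le s
  | succ k ih =>
    rw [hs (k + 1) (sharpVec c (k + 1))]
    have e1 : sharpVec c (k + 1) 0 = -c := by simp [sharpVec]
    have e2 : Fin.tail (sharpVec c (k + 1)) = sharpVec c k := by simp [sharpVec]
    rw [e1, e2]
    have h := Eop_neg_le c hc (cdfT (sharpVec c k)) (((1 + c / 2)⁻¹) ^ k)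
      (cdfT_nonneg' _) ih s
    refine h.trans (le_of_eq ?_)
    rw [pow_succ]

/-- the explicit value `∫_{s ≤ 4/3} e^{s/2} wt(s) ds = (4/9) e^{2/3}`. -/
theorem integral_exp_half_wt :
    IntegrableOn (fun s : ℝ => Real.exp (s / 2) * wt s) (Iic (4 / 3)) ∧
      ∫ s in Iic (4 / 3 : ℝ), Real.exp (s / 2) * wt s = 4 / 9 * Real.exp (2 / 3) := by
  obtain ⟨hint, hval⟩ := integral_lin_exp_Iic (3 / 2) (by norm_num) (4 / 3) (4 / 3)
  have e : (fun s : ℝ => Real.exp (s / 2) * wt s)
      = fun s : ℝ => Real.exp (-(4 / 3)) * ((4 / 3 - s) * Real.exp (3 / 2 * s)) := by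
    funext s
    unfold wt
    have h1 : Real.exp (s / 2) * Real.exp (-(4 / 3 - s))
        = Real.exp (-(4 / 3)) * Real.exp (3 / 2 * s) := by
      rw [← Real.exp_add, ← Real.exp_add]; congr 1; ring
    calc Real.exp (s / 2) * ((4 / 3 - s) * Real.exp (-(4 / 3 - s)))
        = (4 / 3 - s) * (Real.exp (s / 2) * Real.exp (-(4 / 3 - s))) := by ring
      _ = Real.exp (-(4 / 3)) * ((4 / 3 - s) * Real.exp (3 / 2 * s)) := by rw [h1]; ring
  rw [e]
  refine ⟨hint.const_mul _, ?_⟩
  rw [integral_const_mul, hval]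
  have h2 : Real.exp (-(4 / 3)) * Real.exp (3 / 2 * (4 / 3)) = Real.exp (2 / 3) := by
    rw [← Real.exp_add]; congr 1; norm_num
  calc Real.exp (-(4 / 3)) * (Real.exp (3 / 2 * (4 / 3)) * ((4 / 3 - 4 / 3) / (3 / 2) + 1 / (3 / 2) ^ 2))
      = (Real.exp (-(4 / 3)) * Real.exp (3 / 2 * (4 / 3))) * (4 / 9) := by ring
    _ = 4 / 9 * Real.exp (2 / 3) := by rw [h2]; ring

/-- WP-E in the `cdfT` language, given the peeling identities of WP-A. -/
theorem sharp_of_peel (h0 : ∀ a : Fin 0 → ℝ, cdfT a = heav)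
    (hs : ∀ (N : ℕ) (a : Fin (N + 1) → ℝ), cdfT a = Eop (a 0) (cdfT (Fin.tail a)))
    (ε : ℝ) (hε : 0 < ε) :
    ∃ (N : ℕ) (a : Fin N → ℝ), 1 ≤ N ∧ ∑ i, a i = 0 ∧
      ∫ s in Iic (4 / 3 : ℝ), cdfT a s * wt s < 4 / 9 * Real.exp (-(1 / 3)) + ε := by
  -- the limit of the explicit bound
  have hlim : Tendsto (fun M : ℕ => ((1 + 1 / (M : ℝ)) ^ M)⁻¹ * (4 / 9 * Real.exp (2 / 3)))
      atTop (𝓝 ((Real.exp 1)⁻¹ * (4 / 9 * Real.exp (2 / 3)))) :=
    ((Real.tendsto_one_add_div_pow_exp 1).inv₀ (Real.exp_pos 1).ne').mul_const _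
  have hval : (Real.exp 1)⁻¹ * (4 / 9 * Real.exp (2 / 3)) = 4 / 9 * Real.exp (-(1 / 3)) := by
    have h1 : (Real.exp 1)⁻¹ * Real.exp (2 / 3) = Real.exp (-(1 / 3)) := by
      rw [← Real.exp_neg, ← Real.exp_add]; congr 1; norm_num
    calc (Real.exp 1)⁻¹ * (4 / 9 * Real.exp (2 / 3))
        = 4 / 9 * ((Real.exp 1)⁻¹ * Real.exp (2 / 3)) := by ring
      _ = 4 / 9 * Real.exp (-(1 / 3)) := by rw [h1]
  rw [hval] at hlim
  have hev : ∀ᶠ M : ℕ in atTop,
      ((1 + 1 / (M : ℝ)) ^ M)⁻¹ * (4 / 9 * Real.exp (2 / 3)) < 4 / 9 * Real.exp (-(1 / 3)) + ε :=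
    (tendsto_order.1 hlim).2 _ (by linarith)
  obtain ⟨M, hM, hM1⟩ := (hev.and (eventually_ge_atTop 1)).exists
  have hMpos : (0 : ℝ) < M := by exact_mod_cast hM1
  set c : ℝ := 2 / (M : ℝ) with hc
  have hc0 : 0 ≤ c := by positivity
  refine ⟨M + 1, sharpVec c M, by omega, ?_, ?_⟩
  · rw [sum_sharpVec, hc]
    field_simp
    ring
  · obtain ⟨hint, hval2⟩ := integral_exp_half_wt
    have hK : ((1 + c / 2)⁻¹) ^ M = ((1 + 1 / (M : ℝ)) ^ M)⁻¹ := by
      rw [inv_pow, hc]
      congr 2
      field_simp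
    have h1 : ∫ s in Iic (4 / 3 : ℝ), cdfT (sharpVec c M) s * wt s
        ≤ ∫ s in Iic (4 / 3 : ℝ), ((1 + c / 2)⁻¹) ^ M * (Real.exp (s / 2) * wt s) := by
      refine integral_mono_of_nonneg ?_ (hint.const_mul _) ?_
      · refine (ae_restrict_iff' measurableSet_Iic).2
          (Filter.Eventually.of_forall fun s hsmem => ?_)
        have hs' : s ≤ 4 / 3 := hsmem
        have hw : 0 ≤ wt s := by
          unfold wt
          exact mul_nonneg (by linarith) (Real.exp_pos _).le
        exact mul_nonneg (cdfT_nonneg' _ _) hw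
      · refine (ae_restrict_iff' measurableSet_Iic).2
          (Filter.Eventually.of_forall fun s hsmem => ?_)
        have hs' : s ≤ 4 / 3 := hsmem
        have hw : 0 ≤ wt s := by
          unfold wt
          exact mul_nonneg (by linarith) (Real.exp_pos _).le
        have h2 := cdfT_sharpVec_le h0 hs c hc0 M s
        calc cdfT (sharpVec c M) s * wt s
            ≤ (((1 + c / 2)⁻¹) ^ M * Real.exp (s / 2)) * wt s :=
              mul_le_mul_of_nonneg_right h2 hw
          _ = ((1 + c / 2)⁻¹) ^ M * (Real.exp (s / 2) * wt s) := by ring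
    rw [integral_const_mul, hval2, hK] at h1
    exact lt_of_le_of_lt h1 hM

end Crest.Agent.S0423
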