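-- Statement S0423 (row 280). Proof: team effort (blueprint `blueprints/S0423.md`, helper6);
-- work packages in `Crest/Agent/S0423_*.lean`.
import Crest.Statements.S0423
import Crest.Agent.S0423_Defs
import Crest.Agent.S0423_Compare
import Crest.Agent.S0423_LC
import Crest.Agent.S0423_Mean
import Crest.Agent.S0423_Peel
import Crest.Agent.S0423_Phi
import Crest.Agent.S0423_Sharp
import Crest.Agent.S0423_Fubini

set_option autoImplicit false
open Crest Crest.AlgGeometry
open MeasureTheory Set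

namespace Crest.Agent.S0423

theorem const_identity :
    Real.exp (4 / 3) / (4 / 3) * (1 - 4 / 9 * Real.exp (-(1 / 3)))
      = 3 / 4 * Real.exp (4 / 3) - Real.exp 1 / 3 := by
  have h : Real.exp (4 / 3) * Real.exp (-(1 / 3)) = Real.exp 1 := by
    rw [← Real.exp_add]; norm_num
  have : Real.exp (4 / 3) / (4 / 3) * (1 - 4 / 9 * Real.exp (-(1 / 3)))
      = 3 / 4 * Real.exp (4 / 3) - (Real.exp (4 / 3) * Real.exp (-(1 / 3))) / 3 := by ring
  rw [this, h]

theorem upper {N : ℕ} (a : Fin N → ℝ) (ha : ∑ i, a i = 0) :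
    Real.exp (4 / 3) / (4 / 3) *
        ∫ x in orthant N, Crest.AlgGeometry.truncExpWeight (4 / 3 + ∑ i, a i * x i)
          * Real.exp (-∑ i, x i)
      ≤ 3 / 4 * Real.exp (4 / 3) - Real.exp 1 / 3 := by
  by_cases h0 : a = 0
  · subst h0; exact upper_zero
  · have hp : ∃ i, 0 < a i := by
      by_contra hcon
      push Not at hcon
      have hall : ∀ i ∈ Finset.univ, a i = 0 :=
        (Finset.sum_eq_zero_iff_of_nonpos (fun i _ => hcon i)).1 ha
      exact h0 (funext fun i => hall i (Finset.mem_univ i))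
    have hn : ∃ i, a i < 0 := by
      by_contra hcon
      push Not at hcon
      have hall : ∀ i ∈ Finset.univ, a i = 0 :=
        (Finset.sum_eq_zero_iff_of_nonneg (fun i _ => hcon i)).1 ha
      exact h0 (funext fun i => hall i (Finset.mem_univ i))
    obtain ⟨hc, hpos, hlt, hlc⟩ :=
      cdfT_good_of_peel cdfT_zero (fun N a => cdfT_succ a) a hp hn
    obtain ⟨hI1, hI2, hmean⟩ := cdfT_mean a ha (1 / 3)
    obtain ⟨t, ht, hcmp⟩ := compare (cdfT a) hc hpos hlt hlc hI1 hI2 hmean
    have hphi := Phi_ge t ht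
    rw [integral_eq_one_sub, ← const_identity]
    have hpos' : 0 ≤ Real.exp (4 / 3) / (4 / 3) := by positivity
    apply mul_le_mul_of_nonneg_left _ hpos'
    linarith

/-- For independent mean-one exponential random variables `X_1, …, X_N` (written as an integral over the positive orthant against the density `exp (-(x_1 + ⋯ + x_N))`), real coefficients `a_1, …, a_N` summing to zero, and the weight `g = truncExpWeight`, the quantity `(e^{4/3} / (4/3)) · E[g(4/3 + a_1 X_1 + ⋯ + a_N X_N)]` has supremum over all `N ≥ 1` and all such `a` exactly `(3/4) e^{4/3} − e/3`: it never exceeds this value, and comes within any `ε > 0` of it for some `N` and `a`. -/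
theorem result :
    (∀ (N : ℕ) (a : Fin N → ℝ), 1 ≤ N → ∑ i, a i = 0 →
      Real.exp (4 / 3) / (4 / 3) *
          ∫ x in Set.pi Set.univ (fun _ : Fin N => Set.Ioi (0 : ℝ)),
            Crest.AlgGeometry.truncExpWeight (4 / 3 + ∑ i, a i * x i) * Real.exp (-∑ i, x i)
        ≤ 3 / 4 * Real.exp (4 / 3) - Real.exp 1 / 3) ∧
    (∀ ε : ℝ, 0 < ε → ∃ (N : ℕ) (a : Fin N → ℝ), 1 ≤ N ∧ ∑ i, a i = 0 ∧
      3 / 4 * Real.exp (4 / 3) - Real.exp 1 / 3 - ε <
        Real.exp (4 / 3) / (4 / 3) *
          ∫ x in Set.pi Set.univ (fun _ : Fin N => Set.Ioi (0 : ℝ)),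
            Crest.AlgGeometry.truncExpWeight (4 / 3 + ∑ i, a i * x i) * Real.exp (-∑ i, x i)) := by
  refine ⟨fun N a _ ha => upper a ha, fun ε hε => ?_⟩
  have hK : 0 < Real.exp (4 / 3) / (4 / 3) := by positivity
  obtain ⟨N, a, hN, ha, hlt⟩ :=
    sharp_of_peel cdfT_zero (fun N a => cdfT_succ a) (ε / (Real.exp (4 / 3) / (4 / 3)))
      (div_pos hε hK)
  refine ⟨N, a, hN, ha, ?_⟩
  have h1 := integral_eq_one_sub a
  simp only [orthant] at h1
  rw [h1, ← const_identity]
  have : Real.exp (4 / 3) / (4 / 3) * (1 - 4 / 9 * Real.exp (-(1 / 3))) - ε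
      = Real.exp (4 / 3) / (4 / 3) *
        (1 - (4 / 9 * Real.exp (-(1 / 3)) + ε / (Real.exp (4 / 3) / (4 / 3)))) := by
    field_simp
    ring
  rw [this]
  apply mul_lt_mul_of_pos_left _ hK
  linarith

end Crest.Agent.S0423
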