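import Crest.Agent.S0423_Defs

/-!
# S0423 : basic orthant integrals (owner: helper7)

`∫_{orthant} e^{-∑ x} = 1`, `∫_{orthant} x_i e^{-∑ x} = 1`, integrability, and elementary properties
of `cdfT` (bounds, monotonicity, measurability).
-/

set_option autoImplicit false
open MeasureTheory Set

namespace Crest.Agent.S0423

/-- Lebesgue measure restricted to the orthant is the product of the restricted measures. -/
theorem volume_restrict_orthant (N : ℕ) :
    (volume : Measure (Fin N → ℝ)).restrict (orthant N)
      = Measure.pi (fun _ : Fin N => (volume : Measure ℝ).restrict (Ioi (0 : ℝ))) := by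
  rw [volume_pi]
  exact Measure.restrict_pi_pi _ _

theorem measurableSet_orthant (N : ℕ) : MeasurableSet (orthant N) :=
  MeasurableSet.univ_pi (fun _ => measurableSet_Ioi)

theorem exp_neg_sum_eq_prod {N : ℕ} (x : Fin N → ℝ) :
    Real.exp (-∑ i, x i) = ∏ i, Real.exp (-(x i)) := by
  rw [← Finset.sum_neg_distrib, Real.exp_sum]

theorem integrable_exp_neg_Ioi_zero :
    Integrable (fun x : ℝ => Real.exp (-x)) ((volume : Measure ℝ).restrict (Ioi (0 : ℝ))) :=
  integrableOn_exp_neg_Ioi 0

theorem integrable_mul_exp_neg_Ioi_zero :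
    Integrable (fun x : ℝ => x * Real.exp (-x)) ((volume : Measure ℝ).restrict (Ioi (0 : ℝ))) := by
  have h := Real.GammaIntegral_convergent (s := 2) (by norm_num)
  have h2 : IntegrableOn (fun x : ℝ => x * Real.exp (-x)) (Ioi (0 : ℝ)) := by
    refine h.congr_fun (fun x hx => ?_) measurableSet_Ioi
    have : (2 : ℝ) - 1 = 1 := by norm_num
    simp only [this, Real.rpow_one]
    ring
  exact h2

theorem integral_mul_exp_neg_Ioi_zero :
    ∫ x in Ioi (0 : ℝ), x * Real.exp (-x) = 1 := by
  have h := Real.Gamma_eq_integral (s := 2) (by norm_num)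
  rw [Real.Gamma_two] at h
  rw [h]
  refine setIntegral_congr_fun measurableSet_Ioi (fun x hx => ?_)
  have : (2 : ℝ) - 1 = 1 := by norm_num
  simp only [this, Real.rpow_one]
  ring

/-- the density `e^{-∑ x}` is integrable on the orthant. -/
theorem integrableOn_exp_orthant (N : ℕ) :
    IntegrableOn (fun x : Fin N → ℝ => Real.exp (-∑ i, x i)) (orthant N) := by
  unfold IntegrableOn
  rw [volume_restrict_orthant]
  simp_rw [exp_neg_sum_eq_prod]
  exact Integrable.fintype_prod (f := fun (_ : Fin N) (y : ℝ) => Real.exp (-y))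
    (fun _ => integrable_exp_neg_Ioi_zero)

/-- total mass one. -/
theorem integral_orthant_exp (N : ℕ) :
    ∫ x in orthant N, Real.exp (-∑ i, x i) = 1 := by
  rw [volume_restrict_orthant]
  simp_rw [exp_neg_sum_eq_prod]
  rw [integral_fintype_prod_eq_prod (f := fun (_ : Fin N) (y : ℝ) => Real.exp (-y))]
  exact Finset.prod_eq_one (fun j _ => integral_exp_neg_Ioi_zero)

theorem coord_mul_exp_eq_prod {N : ℕ} (i : Fin N) (x : Fin N → ℝ) :
    x i * Real.exp (-∑ j, x j)
      = ∏ j, (if j = i then x j * Real.exp (-(x j)) else Real.exp (-(x j))) := by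
  rw [exp_neg_sum_eq_prod]
  rw [← Finset.mul_prod_erase Finset.univ _ (Finset.mem_univ i)]
  rw [← Finset.mul_prod_erase Finset.univ
    (fun j => if j = i then x j * Real.exp (-(x j)) else Real.exp (-(x j))) (Finset.mem_univ i)]
  simp only [if_true]
  have : ∏ j ∈ Finset.univ.erase i, (if j = i then x j * Real.exp (-(x j)) else Real.exp (-(x j)))
      = ∏ j ∈ Finset.univ.erase i, Real.exp (-(x j)) := by
    refine Finset.prod_congr rfl (fun j hj => ?_)
    rw [if_neg (Finset.ne_of_mem_erase hj)]
  rw [this]
  ring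

/-- first moments are integrable. -/
theorem integrableOn_coord_mul_exp_orthant {N : ℕ} (i : Fin N) :
    IntegrableOn (fun x : Fin N → ℝ => x i * Real.exp (-∑ j, x j)) (orthant N) := by
  unfold IntegrableOn
  rw [volume_restrict_orthant]
  simp_rw [coord_mul_exp_eq_prod]
  refine Integrable.fintype_prod
    (f := fun (j : Fin N) (y : ℝ) => if j = i then y * Real.exp (-y) else Real.exp (-y))
    (fun j => ?_)
  by_cases h : j = i
  · simp only [h, if_true]; exact integrable_mul_exp_neg_Ioi_zero
  · simp only [h, if_false]; exact integrable_exp_neg_Ioi_zero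

/-- first moments equal one. -/
theorem integral_orthant_coord_mul_exp {N : ℕ} (i : Fin N) :
    ∫ x in orthant N, x i * Real.exp (-∑ j, x j) = 1 := by
  rw [volume_restrict_orthant]
  simp_rw [coord_mul_exp_eq_prod]
  rw [integral_fintype_prod_eq_prod
    (f := fun (j : Fin N) (y : ℝ) => if j = i then y * Real.exp (-y) else Real.exp (-y))]
  refine Finset.prod_eq_one (fun j _ => ?_)
  by_cases h : j = i
  · simp only [h, if_true]; exact integral_mul_exp_neg_Ioi_zero
  · simp only [h, if_false]; exact integral_exp_neg_Ioi_zero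

/-! ### elementary properties of `cdfT` -/

theorem integrableOn_cdf_integrand {N : ℕ} (a : Fin N → ℝ) (s : ℝ) :
    IntegrableOn (fun x : Fin N → ℝ =>
      if -∑ i, a i * x i ≤ s then Real.exp (-∑ i, x i) else 0) (orthant N) := by
  have hset : MeasurableSet {x : Fin N → ℝ | -∑ i, a i * x i ≤ s} :=
    measurableSet_le (by fun_prop) measurable_const
  have h := (integrableOn_exp_orthant N).indicator hset
  refine h.congr (Filter.Eventually.of_forall (fun x => ?_))
  simp [indicator]

theorem cdfT_nonneg {N : ℕ} (a : Fin N → ℝ) (s : ℝ) : 0 ≤ cdfT a s := by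
  unfold cdfT
  refine integral_nonneg (fun x => ?_)
  simp only []
  split_ifs
  · exact (Real.exp_pos _).le
  · exact le_rfl

theorem cdfT_le_one {N : ℕ} (a : Fin N → ℝ) (s : ℝ) : cdfT a s ≤ 1 := by
  unfold cdfT
  rw [← integral_orthant_exp N]
  refine integral_mono (integrableOn_cdf_integrand a s) (integrableOn_exp_orthant N) (fun x => ?_)
  simp only []
  split_ifs
  · exact le_rfl
  · exact (Real.exp_pos _).le

theorem cdfT_mono {N : ℕ} (a : Fin N → ℝ) : Monotone (cdfT a) := by
  intro s s' hss
  unfold cdfT
  refine integral_mono (integrableOn_cdf_integrand a s) (integrableOn_cdf_integrand a s')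
    (fun x => ?_)
  simp only []
  by_cases h : -∑ i, a i * x i ≤ s
  · rw [if_pos h, if_pos (h.trans hss)]
  · rw [if_neg h]
    split_ifs
    · exact (Real.exp_pos _).le
    · exact le_rfl

theorem measurable_cdfT {N : ℕ} (a : Fin N → ℝ) : Measurable (cdfT a) :=
  (cdfT_mono a).measurable

end Crest.Agent.S0423
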